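import Vale.Agent.P078.Net

/-! Helper lemmas for `NetA` and `NetB`. -/

namespace Vale.Agent.P078
namespace NetABAux

open Finset MeasureTheory

universe u

variable {V : Type u} [DecidableEq V] {D : ℕ} {K : ℝ} {r : ℕ} [NeZero r]

/-- the integrand of `dens` -/
noncomputable def ft (N : Net V D K) (σ : ℝ) (ζ : ℂ) (π : V → St r) (W : Finset V) (u : V)
    (t : ℝ) : ℝ :=
  t * ((ζ + t)⁻¹ - GT (fun v => wtS (π v)) (Ycop σ N.x) N.w ζ W ((t * N.w u : ℝ) : ℂ) u).im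

/-- the rescaled integrand -/
noncomputable def fs (N : Net V D K) (σ : ℝ) (ζ : ℂ) (π : V → St r) (W : Finset V) (u : V)
    (s : ℝ) : ℝ :=
  s / N.w u * ((ζ + ((s / N.w u : ℝ) : ℂ))⁻¹ -
    GT (fun v => wtS (π v)) (Ycop σ N.x) N.w ζ W (s : ℂ) u).im

lemma dens_eq_ft (N : Net V D K) (σ : ℝ) (ζ : ℂ) (π : V → St r) (W : Finset V) (u : V) :
    dens N σ ζ π W u = ∫ t in Set.Ioi (0 : ℝ), ft N σ ζ π W u t := rfl

lemma fs_comp (N : Net V D K) (σ : ℝ) (ζ : ℂ) (π : V → St r) (W : Finset V) (u : V) (t : ℝ) :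
    fs N σ ζ π W u (t * N.w u) = ft N σ ζ π W u t := by
  simp only [fs, ft, mul_div_cancel_right₀ t (N.wpos u).ne']

lemma w_mul_dens (N : Net V D K) (σ : ℝ) (ζ : ℂ) (π : V → St r) (W : Finset V) (u : V) :
    N.w u * dens N σ ζ π W u = ∫ s in Set.Ioi (0 : ℝ), fs N σ ζ π W u s := by
  have := integral_comp_mul_right_Ioi' (fs N σ ζ π W u) 0 (N.wpos u)
  rw [zero_mul] at this
  rw [← this, dens_eq_ft, smul_eq_mul]
  simp only [fs_comp]

lemma ft_integrable {a η : ℝ} (ha : 0 < a) (hη : 0 < η) (hη1 : η ≤ 1) (hK : 1 ≤ K)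
    (N : Net V D K) {σ : ℝ} (hσ : |σ| = 1) (π : V → St r) {W : Finset V} {u : V} (hu : u ∈ W) :
    IntegrableOn (ft N σ (a + η * Complex.I) π W u) (Set.Ioi 0) := by
  obtain ⟨C, -, hC⟩ := dens_bound.{u} ha hη hη1 D hK
  exact (hC V r N σ π W u hσ hu).1

lemma fs_integrable {a η : ℝ} (ha : 0 < a) (hη : 0 < η) (hη1 : η ≤ 1) (hK : 1 ≤ K)
    (N : Net V D K) {σ : ℝ} (hσ : |σ| = 1) (π : V → St r) {W : Finset V} {u : V} (hu : u ∈ W) :
    IntegrableOn (fs N σ (a + η * Complex.I) π W u) (Set.Ioi 0) := by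
  have := (integrableOn_Ioi_comp_mul_right_iff (fs N σ (a + η * Complex.I) π W u) 0
    (N.wpos u)).mp (by simpa only [fs_comp] using ft_integrable ha hη hη1 hK N hσ π hu)
  rwa [zero_mul] at this

lemma sum_abs_integral_sub_le {α : Type*} (T : Finset α) (f g : α → ℝ → ℝ) (H : ℝ → ℝ)
    (hf : ∀ v ∈ T, IntegrableOn (f v) (Set.Ioi 0)) (hg : ∀ v ∈ T, IntegrableOn (g v) (Set.Ioi 0))
    (hH : IntegrableOn H (Set.Ioi 0)) (h : ∀ t, 0 < t → ∑ v ∈ T, |f v t - g v t| ≤ H t) :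
    ∑ v ∈ T, |(∫ t in Set.Ioi (0 : ℝ), f v t) - ∫ t in Set.Ioi (0 : ℝ), g v t| ≤
      ∫ t in Set.Ioi (0 : ℝ), H t := by
  have hi : ∀ v ∈ T, IntegrableOn (fun t => |f v t - g v t|) (Set.Ioi 0) := fun v hv =>
    ((hf v hv).sub (hg v hv)).abs
  calc ∑ v ∈ T, |(∫ t in Set.Ioi (0 : ℝ), f v t) - ∫ t in Set.Ioi (0 : ℝ), g v t|
      ≤ ∑ v ∈ T, ∫ t in Set.Ioi (0 : ℝ), |f v t - g v t| := by
        refine sum_le_sum fun v hv => ?_
        rw [← integral_sub (hf v hv) (hg v hv)]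
        exact abs_integral_le_integral_abs
    _ = ∫ t in Set.Ioi (0 : ℝ), ∑ v ∈ T, |f v t - g v t| := (integral_finsetSum T hi).symm
    _ ≤ ∫ t in Set.Ioi (0 : ℝ), H t :=
        setIntegral_mono_on (integrable_finsetSum T hi) hH measurableSet_Ioi fun t ht => h t ht

lemma abs_mul_im_sub {t : ℝ} (ht : 0 ≤ t) (z g g' : ℂ) :
    |t * (z - g).im - t * (z - g').im| ≤ t * ‖g - g'‖ := by
  have : t * (z - g).im - t * (z - g').im = -(t * (g - g').im) := by
    simp only [Complex.sub_im]; ring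
  rw [this, abs_neg, abs_mul, abs_of_nonneg ht]
  exact mul_le_mul_of_nonneg_left (Complex.abs_im_le_norm _) ht

omit [NeZero r] in
lemma wt_update (π : V → St r) (o : V) (s : St r) :
    (fun v => wtS (Function.update π o s v)) = Function.update (fun v => wtS (π v)) o (wtS s) := by
  funext v
  by_cases h : v = o
  · subst h; simp
  · simp [Function.update_of_ne h]

omit [DecidableEq V] [NeZero r] in
lemma Ycop_supp (N : Net V D K) (σ : ℝ) {i : St r} {a b : V} (h : Ycop σ N.x i a b ≠ 0) :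
    a ∈ N.nbr b := by
  refine N.supp a b fun h0 => h ?_
  simp [Ycop, h0]

lemma bsum_none {α : Type*} (v : α) : bsum (fun _ : α => wtS (none : St r)) v = (r : ℂ) + 1 := by
  simp [bsum, wtS, ZMod.card]

lemma sum_wtS_some (j : ZMod r) (f : St r → ℂ) :
    ∑ i, wtS (some j) i * f i = f (some j) + ((lam : ℂ) - 1) * f none := by
  rw [Fintype.sum_option]
  have : ∑ i : ZMod r, wtS (some j) (some i) * f (some i) = f (some j) := by
    rw [sum_eq_single j]
    · simp [wtS]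
    · intro b _ hb; simp [wtS, hb]
    · simp
  rw [this]
  simp [wtS, add_comm]

end NetABAux
end Vale.Agent.P078
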