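import Vale.Agent.P078.Net
import Vale.Agent.P078.NetABAux

/-! Existence of a good colour, and the initial potential. -/

namespace Vale.Agent.P078

open Finset MeasureTheory

universe u

namespace NetABAux

open Filter Topology
open scoped ComplexOrder

lemma darg_facts {a η B : ℝ} (ha : 0 < a) (hη : 0 < η) {m : ℝ → ℂ}
    (hm : ContinuousOn m (Set.Ici 0)) (him : ∀ t, 0 ≤ t → (m t).im ≤ 0)
    (hb : ∀ t, 0 ≤ t → ‖m t‖ ≤ B / (1 + t)) :
    IntegrableOn (darg a η m) (Set.Ioi 0) ∧ Tendsto (fun t => t * darg a η m t) atTop (𝓝 0) := by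
  have hB : 0 ≤ B := by
    have := (norm_nonneg _).trans (hb 0 le_rfl)
    simpa using this
  set c : ℝ := min a 1 with hc
  have hc0 : 0 < c := lt_min ha one_pos
  have hbd : ∀ t, 0 ≤ t → |darg a η m t| ≤ 2 * Real.pi * B / c / (1 + t) ^ 2 := by
    intro t ht
    have h1 := abs_arg_sub_le (z := a + t + η * Complex.I) (m := m t) (by simpa using hη)
      (him t ht)
    have h2 : c * (1 + t) ≤ ‖(a + t + η * Complex.I : ℂ)‖ := by
      refine le_trans ?_ (Complex.re_le_norm _)
      have c1 : c ≤ a := min_le_left _ _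
      have c2 : c ≤ 1 := min_le_right _ _
      simp only [Complex.add_re, Complex.ofReal_re, Complex.mul_re, Complex.I_re, mul_zero,
        Complex.ofReal_im, Complex.I_im, mul_one, sub_self, add_zero]
      nlinarith
    refine h1.trans ?_
    calc 2 * Real.pi * ‖m t‖ / ‖(a + t + η * Complex.I : ℂ)‖
        ≤ 2 * Real.pi * (B / (1 + t)) / (c * (1 + t)) := by
          gcongr
          exact hb t ht
      _ = 2 * Real.pi * B / c / (1 + t) ^ 2 := by field_simp
  constructor
  · refine Integrable.mono' (g := fun t : ℝ => 2 * Real.pi * B / c * (1 + t ^ 2)⁻¹)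
      (integrable_inv_one_add_sq.const_mul _).integrableOn ?_ ?_
    · refine ContinuousOn.aestronglyMeasurable ?_ measurableSet_Ioi
      intro t ht
      have ht' : (0 : ℝ) ≤ t := le_of_lt ht
      have hz : ContinuousWithinAt (fun t : ℝ => (a + t + η * Complex.I : ℂ)) (Set.Ioi 0) t :=
        (by fun_prop : Continuous fun t : ℝ => (a + t + η * Complex.I : ℂ)).continuousWithinAt
      have hm' : ContinuousWithinAt m (Set.Ioi 0) t := (hm t ht').mono Set.Ioi_subset_Ici_self
      refine ContinuousWithinAt.sub ?_ ?_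
      · refine (Complex.continuousAt_arg ?_).comp_continuousWithinAt (hz.sub hm')
        right
        have := him t ht'
        simp only [Complex.sub_im, Complex.add_im, Complex.ofReal_im, Complex.mul_im,
          Complex.ofReal_re, Complex.I_im, mul_one, Complex.I_re, mul_zero, add_zero, zero_add]
        linarith
      · refine (Complex.continuousAt_arg ?_).comp_continuousWithinAt hz
        right
        simpa using hη.ne'
    · filter_upwards [ae_restrict_mem measurableSet_Ioi] with t ht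
      have ht' : (0 : ℝ) ≤ t := le_of_lt ht
      rw [Real.norm_eq_abs]
      refine (hbd t ht').trans ?_
      rw [div_eq_mul_inv _ ((1 + t) ^ 2)]
      refine mul_le_mul_of_nonneg_left ?_ (by positivity)
      exact inv_anti₀ (by positivity) (by nlinarith)
  · have h1 : Tendsto (fun t : ℝ => 2 * Real.pi * B / c * t⁻¹) atTop (𝓝 0) := by
      simpa using tendsto_inv_atTop_zero.const_mul (2 * Real.pi * B / c)
    refine squeeze_zero_norm' ?_ h1
    filter_upwards [eventually_gt_atTop (0 : ℝ)] with t ht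
    rw [Real.norm_eq_abs, abs_mul, abs_of_pos ht]
    calc t * |darg a η m t| ≤ t * (2 * Real.pi * B / c / (1 + t) ^ 2) :=
          mul_le_mul_of_nonneg_left (hbd t ht.le) ht.le
      _ = 2 * Real.pi * B / c * (t / (1 + t) ^ 2) := by ring
      _ ≤ 2 * Real.pi * B / c * t⁻¹ := by
          refine mul_le_mul_of_nonneg_left ?_ (by positivity)
          rw [div_le_iff₀ (by positivity), inv_mul_eq_div, le_div_iff₀ ht]
          nlinarith

variable {V ι : Type*} [DecidableEq V] [Fintype ι] [DecidableEq ι]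

lemma Q_hasDerivAt_zf (β : V → ι → ℂ) (Y : ι → V → V → ℂ) (w : V → ℝ) (ζ : ℂ) (W : Finset V)
    (t₀ : ℂ) :
    HasDerivAt (fun t => Q β (dm (zf ζ w t) Y) W R0)
      (∑ v ∈ W, (w v : ℂ)⁻¹ * (bsum β v * Q β (dm (zf ζ w t₀) Y) (W.erase v) R0)) t₀ := by
  have e : ∀ t : ℂ, (shiftD (dm (fun _ => ζ) Y) fun a => t * (w a : ℂ)⁻¹) = dm (zf ζ w t) Y := by
    intro t
    funext i a b
    simp only [shiftD, dm, zf]
    split_ifs
    · rw [div_eq_mul_inv]; ring
    · ring
  have := Q_hasDerivAt_shift β (dm (fun _ => ζ) Y) W (fun a => (w a : ℂ)⁻¹) t₀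
  simpa only [e] using this

/-- derivative of the argument of `P / (c M)` -/
lemma hasDerivAt_arg {P M : ℂ → ℂ} {P' M' c : ℂ} {s : ℝ} (hP : HasDerivAt P P' s)
    (hM : HasDerivAt M M' s) (hc : c ≠ 0) (hM0 : M s ≠ 0) (him : 0 < (P s / (c * M s)).im) :
    HasDerivAt (fun t : ℝ => Complex.arg (P t / (c * M t))) (P' / P s - M' / M s).im s := by
  have hP0 : P s ≠ 0 := by
    intro h; rw [h] at him; simp at him
  have h1 := (hP.div (hM.const_mul c) (mul_ne_zero hc hM0)).clog (Or.inr him.ne')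
  have h2 : HasDerivAt (fun t => Complex.log (P t / (c * M t))) (P' / P s - M' / M s) s := by
    refine HasDerivAt.congr_deriv h1 ?_
    simp only [Pi.div_apply]
    field_simp
  have h3 := (Complex.imCLM.hasFDerivAt.comp_hasDerivAt s h2.comp_ofReal)
  simpa [Function.comp_def, Complex.log_im] using h3

lemma se_diag_copy {β : V → ι → ℂ} {X : ι → V → V → ℂ} {W : Finset V} {v : V} {i : ι}
    (hvW : v ∉ W) (hz : X i v v ≠ 0) (hQ : Q β X W R0 ≠ 0) (h : ∀ a, a ≠ v → X i a v = 0) :
    se β X W R0 v i = 0 := by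
  have h1 := Q_schur β X (R := R0) (i := i) hvW (by simp [R0]) hz
  have h2 : Q β (rk1 X i v (X i v v)⁻¹) W R0 = Q β X W R0 := by
    refine Q_congr (fun _ _ => rfl) fun j a ha b _ => ?_
    have hav : a ≠ v := by
      rintro rfl
      simp only [R0, union_empty] at ha
      exact hvW ha
    by_cases hj : j = i
    · subst hj; simp [rk1, h a hav]
    · simp [rk1, Function.update_of_ne hj]
  simp only [se, piv, h1, h2]
  field_simp
  ring

end NetABAux

open NetABAux Filter Topology in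
/-- The gain of one sign is a difference of two integrated arguments: substitute `t ↦ t / w u`,
use `Q_hasDerivAt_shift` (`d/dt log Q = ∑ G u / w u`) and integrate by parts. -/
theorem gain_eq {a η : ℝ} (ha : 0 < a) (hη : 0 < η) (hη1 : η ≤ 1) {D : ℕ} {K : ℝ} (hK : 1 ≤ K)
    {r : ℕ} [NeZero r] {V : Type u} [DecidableEq V] (N : Net V D K) {σ : ℝ} (hσ : |σ| = 1)
    (π : V → St r) {W : Finset V} {o : V} (ho : o ∈ W) (hw : N.w o = 1) (hπ : π o = none)
    (j : ZMod r) :
    ∑ u ∈ W, N.w u * (dens N σ (a + η * Complex.I) (Function.update π o (some j)) W u -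
        dens N σ (a + η * Complex.I) π W u) =
      (∫ t in Set.Ioi 0, darg a η (fun t => se (fun v => wtS (π v))
        (dm (zf (a + η * Complex.I) N.w t) (Ycop σ N.x)) (W.erase o) R0 o (some j) / lam) t) -
      ∫ t in Set.Ioi 0, darg a η (fun t => (∑ j : ZMod r, se (fun v => wtS (π v))
        (dm (zf (a + η * Complex.I) N.w t) (Ycop σ N.x)) (W.erase o) R0 o (some j)) /
          (Fintype.card (ZMod r) + 1)) t := by
  set ζ : ℂ := a + η * Complex.I with hζ
  set π' := Function.update π o (some j) with hπ'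
  set β : V → St r → ℂ := fun v => wtS (π v) with hβ
  set β' : V → St r → ℂ := fun v => wtS (π' v) with hβ'
  set Y : St r → V → V → ℂ := Ycop σ N.x with hY
  set X : ℂ → St r → V → V → ℂ := fun t => dm (zf ζ N.w t) Y with hX
  set m : St r → ℂ → ℂ := fun i t => se β (X t) (W.erase o) R0 o i with hm
  obtain ⟨B, hB, hse⟩ := tame_se.{u} (D := (D : ℝ) + 1) ha (by positivity) hK
  obtain ⟨ε₀, hε₀, hse⟩ := hse η hη hη1 V (St r) β Y N.w W o (posW_wtS π W) (N.tame hσ W) ho
  have hreal : ∀ t : ℝ, -ε₀ < (t : ℂ).im := fun t => by simpa using hε₀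
  have hM0 : ∀ t : ℝ, Q β (X t) (W.erase o) R0 ≠ 0 := fun t => ((hse none).2 t (hreal t)).1
  have hmim : ∀ i (t : ℝ), (m i t).im ≤ 0 := fun i t => ((hse i).2 t (hreal t)).2.1
  have hmb : ∀ i (t : ℝ), 0 ≤ t → ‖m i t‖ ≤ B / η / (1 + t) := by
    intro i t ht
    have := ((hse i).2 t (hreal t)).2.2
    rwa [hw, div_one, Complex.norm_real, Real.norm_of_nonneg ht, ← div_div] at this
  have hmc : ∀ i, ContinuousOn (fun t : ℝ => m i t) (Set.Ici 0) := fun i =>
    (hse i).1.continuousOn.comp Complex.continuous_ofReal.continuousOn fun t _ => hreal t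
  have hlam : (1 : ℝ) ≤ lam := by norm_num [lam]
  have hlam0 : (lam : ℂ) ≠ 0 := by
    have : lam ≠ 0 := by linarith
    exact_mod_cast this
  set k : ℝ := Fintype.card (ZMod r) + 1 with hk
  have hk0 : 0 < k := by positivity
  have hkc : ((Fintype.card (ZMod r) : ℂ) + 1) = (k : ℂ) := by simp [hk]
  have hkc0 : (k : ℂ) ≠ 0 := by exact_mod_cast hk0.ne'
  set m₁ : ℝ → ℂ := fun t => m (some j) t / lam with hm₁
  set m₀ : ℝ → ℂ := fun t => (∑ j : ZMod r, m (some j) t) / k with hm₀
  have him₁ : ∀ t, (m₁ t).im ≤ 0 := fun t => by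
    simp only [hm₁, Complex.div_ofReal_im]
    exact div_nonpos_of_nonpos_of_nonneg (hmim _ t) (by linarith)
  have him₀ : ∀ t, (m₀ t).im ≤ 0 := fun t => by
    simp only [hm₀, Complex.div_ofReal_im, Complex.im_sum]
    exact div_nonpos_of_nonpos_of_nonneg (sum_nonpos fun i _ => hmim _ t) hk0.le
  obtain ⟨hi₁, hl₁⟩ := darg_facts (B := B / η) ha hη (m := m₁) ((hmc _).div_const _)
    (fun t _ => him₁ t) (fun t ht => by
      simp only [hm₁, norm_div, Complex.norm_real, Real.norm_of_nonneg (by linarith : 0 ≤ lam)]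
      exact (div_le_self (norm_nonneg _) hlam).trans (hmb _ t ht))
  obtain ⟨hi₀, hl₀⟩ := darg_facts (B := B / η) ha hη (m := m₀)
    ((continuousOn_finsetSum _ fun i _ => hmc (some i)).div_const _)
    (fun t _ => him₀ t) (fun t ht => by
      simp only [hm₀, norm_div, Complex.norm_real, Real.norm_of_nonneg hk0.le]
      rw [div_le_iff₀ hk0]
      calc ‖∑ j : ZMod r, m (some j) t‖ ≤ ∑ j : ZMod r, ‖m (some j) t‖ := norm_sum_le _ _
        _ ≤ ∑ _j : ZMod r, B / η / (1 + t) := sum_le_sum fun i _ => hmb _ t ht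
        _ = Fintype.card (ZMod r) * (B / η / (1 + t)) := by simp
        _ ≤ B / η / (1 + t) * k := by
          rw [mul_comm]
          exact mul_le_mul_of_nonneg_left (by linarith) (by positivity))
  -- the two determinants
  have hXo : ∀ (t : ℝ) i, X t i o o = a + t + η * Complex.I := by
    intro t i
    simp only [hX, dm, zf, if_true, hw, (N.tame (r := r) hσ W).diag i o, hY, hζ]
    push_cast; ring
  have hnone : ∀ t : ℝ, m none t = 0 := by
    intro t
    refine se_diag_copy (notMem_erase _ _) ?_ (hM0 t) ?_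
    · rw [hXo]
      intro h
      have := congrArg Complex.im h
      simp at this
      exact hη.ne' this
    · intro b hb
      simp [hX, dm, hY, Ycop, hb]
  have hpiv : ∀ (t : ℝ) i, Q β (X t) (W.erase o) (ins R0 o i) =
      Q β (X t) (W.erase o) R0 * (a + t + η * Complex.I - m i t) := by
    intro t i
    have := hM0 t
    simp only [hm, se, piv, hXo]
    field_simp
    ring
  have hP₁ : ∀ t : ℝ, Q β' (X t) W R0 / (lam * Q β (X t) (W.erase o) R0) =
      a + t + η * Complex.I - m₁ t := by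
    intro t
    have e1 : ∀ i, Q β' (X t) (W.erase o) (ins R0 o i) = Q β (X t) (W.erase o) (ins R0 o i) :=
      fun i => Q_congr (fun v hv => by
        simp only [hβ', hβ, hπ', Function.update_of_ne (ne_of_mem_erase hv)]) fun _ _ _ _ _ => rfl
    have e2 : β' o = wtS (some j) := by simp [hβ', hπ']
    have := hM0 t
    rw [Q_erase _ _ ho]
    simp only [e1, e2, hpiv]
    rw [sum_wtS_some j fun i => Q β (X t) (W.erase o) R0 * (a + t + η * Complex.I - m i t),
      hnone]
    simp only [hm₁]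
    field_simp
    ring
  have hP₀ : ∀ t : ℝ, Q β (X t) W R0 / (k * Q β (X t) (W.erase o) R0) =
      a + t + η * Complex.I - m₀ t := by
    intro t
    have e2 : ∀ i, β o i = 1 := fun i => by simp [hβ, hπ, wtS]
    have := hM0 t
    rw [Q_erase _ _ ho]
    simp only [e2, hpiv, one_mul]
    rw [← mul_sum, Fintype.sum_option, hnone, sum_sub_distrib, sum_const, card_univ,
      nsmul_eq_mul]
    simp only [hm₀]
    have e3 : (Fintype.card (ZMod r) : ℂ) = k - 1 := by rw [← hkc]; ring
    rw [e3]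
    field_simp
    ring
  have hpos : ∀ (t : ℝ) (z : ℂ), z.im ≤ 0 → 0 < (a + t + η * Complex.I - z : ℂ).im := by
    intro t z hz
    simp only [Complex.sub_im, Complex.add_im, Complex.ofReal_im, Complex.mul_im,
      Complex.ofReal_re, Complex.I_im, mul_one, Complex.I_re, mul_zero, add_zero, zero_add]
    linarith
  set A : ℝ → ℝ := fun t => darg a η m₁ t - darg a η m₀ t with hA
  set S : ℝ → ℝ := fun s => ∑ u ∈ W, (fs N σ ζ π' W u s - fs N σ ζ π W u s) with hS
  have hderiv : ∀ s ∈ Set.Ici (0 : ℝ), HasDerivAt (fun t => t * A t) (A s - S s) s := by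
    intro s _
    have d1 := hasDerivAt_arg (s := s) (c := lam) (Q_hasDerivAt_zf β' Y N.w ζ W s)
      (Q_hasDerivAt_zf β Y N.w ζ (W.erase o) s) hlam0 (hM0 s)
      (by rw [hP₁]; exact hpos s _ (him₁ s))
    have d0 := hasDerivAt_arg (s := s) (c := k) (Q_hasDerivAt_zf β Y N.w ζ W s)
      (Q_hasDerivAt_zf β Y N.w ζ (W.erase o) s) hkc0 (hM0 s)
      (by rw [hP₀]; exact hpos s _ (him₀ s))
    have d2 := d1.sub d0
    have e : (fun t : ℝ => Complex.arg (Q β' (dm (zf ζ N.w t) Y) W R0 /
        (lam * Q β (dm (zf ζ N.w t) Y) (W.erase o) R0))) - (fun t : ℝ =>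
        Complex.arg (Q β (dm (zf ζ N.w t) Y) W R0 /
        (k * Q β (dm (zf ζ N.w t) Y) (W.erase o) R0))) = A := by
      funext t
      have a1 := hP₁ t
      have a0 := hP₀ t
      simp only [hX] at a1 a0
      simp only [Pi.sub_apply, a1, a0, hA, darg]
      ring
    rw [e] at d2
    refine HasDerivAt.congr_deriv ((hasDerivAt_id' s).mul d2) ?_
    have e1 : ∀ (γ : V → St r → ℂ), ((∑ v ∈ W, (N.w v : ℂ)⁻¹ * (bsum γ v *
        Q γ (dm (zf ζ N.w s) Y) (W.erase v) R0)) / Q γ (dm (zf ζ N.w s) Y) W R0) =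
        ∑ v ∈ W, (((N.w v)⁻¹ : ℝ) : ℂ) * GT γ Y N.w ζ W s v := by
      intro γ
      rw [sum_div]
      refine sum_congr rfl fun v _ => ?_
      simp only [GT, G]
      push_cast
      ring
    rw [e1, e1]
    simp only [Complex.sub_im, Complex.im_sum, Complex.im_ofReal_mul, hS, fs]
    rw [one_mul, sub_sub_sub_cancel_right, ← sum_sub_distrib, mul_sum, sub_eq_add_neg (A s),
      ← sum_neg_distrib]
    congr 1
    refine sum_congr rfl fun v _ => ?_
    rw [div_eq_mul_inv]
    ring
  have hfi : ∀ u ∈ W, IntegrableOn (fun s => fs N σ ζ π' W u s - fs N σ ζ π W u s) (Set.Ioi 0) :=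
    fun u hu => (fs_integrable ha hη hη1 hK N hσ π' hu).sub (fs_integrable ha hη hη1 hK N hσ π hu)
  have hSi : IntegrableOn S (Set.Ioi 0) := integrable_finsetSum W hfi
  have hAi : IntegrableOn A (Set.Ioi 0) := hi₁.sub hi₀
  have hlim : Tendsto (fun t => t * A t) atTop (𝓝 0) := by
    have := hl₁.sub hl₀
    simpa [hA, mul_sub] using this
  have key := integral_Ioi_of_hasDerivAt_of_tendsto' hderiv (hAi.sub hSi) hlim
  rw [integral_sub hAi hSi, zero_mul, sub_zero, sub_eq_zero, integral_sub hi₁ hi₀] at key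
  simp only [hkc]
  rw [key, integral_finsetSum W hfi]
  refine sum_congr rfl fun u hu => ?_
  rw [mul_sub, w_mul_dens, w_mul_dens, integral_sub (fs_integrable ha hη hη1 hK N hσ π' hu)
    (fs_integrable ha hη hη1 hK N hσ π hu)]

/-- `gain_eq`, `tame_se`, `selection` for both signs -/
theorem exists_good {a e : ℝ} (ha : 0 < a) (he : 0 < e) (D : ℕ) {K : ℝ} (hK : 1 ≤ K) :
    ∃ η₀ > 0, ∀ η : ℝ, 0 < η → η ≤ η₀ → ∀ (r : ℕ) [NeZero r] (V : Type u) [DecidableEq V]
      (N : Net V D K) (π : V → St r) (W : Finset V) (o : V), o ∈ W → N.w o = 1 → π o = none →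
      ∃ j, gain N (a + η * Complex.I) π W o j ≤ e := by
  obtain ⟨B, hB, hse⟩ := tame_se.{u} (D := (D : ℝ) + 1) ha (by positivity) hK
  obtain ⟨η₀, hη₀, hsel⟩ := selection (B := B) 1 ha (half_pos he)
  refine ⟨min η₀ 1, lt_min hη₀ one_pos, fun η hη hle r _ V _ N π W o ho hw hπ => ?_⟩
  have hη1 : η ≤ 1 := hle.trans (min_le_right _ _)
  have key : ∀ σ : ℝ, |σ| = 1 → 3 * (univ.filter fun j : ZMod r => e / 2 <
      ∑ u ∈ W, N.w u * (dens N σ (a + η * Complex.I) (Function.update π o (some j)) W u -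
        dens N σ (a + η * Complex.I) π W u)).card < Fintype.card (ZMod r) := by
    intro σ hσ
    obtain ⟨ε₀, hε₀, h⟩ := hse η hη hη1 V (St r) (fun v => wtS (π v)) (Ycop σ N.x) N.w W o
      (posW_wtS π W) (N.tame hσ W) ho
    have := hsel η hη (hle.trans (min_le_left _ _)) (ZMod r)
      (fun j z => se (fun v => wtS (π v)) (dm (zf (a + η * Complex.I) N.w z) (Ycop σ N.x))
        (W.erase o) R0 o (some j)) ε₀ hε₀ (fun j => (h (some j)).1)
      (fun j z hz => by
        have h2 := ((h (some j)).2 z hz).2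
        rw [hw, div_one] at h2
        rwa [pow_one])
    refine lt_of_le_of_lt (Nat.mul_le_mul_left 3 (card_le_card fun j hj => ?_)) this
    rw [mem_filter] at hj ⊢
    refine ⟨hj.1, ?_⟩
    have h2 := hj.2
    rw [gain_eq ha hη hη1 hK N hσ π ho hw hπ j] at h2
    linarith
  have k1 := key 1 (by simp)
  have k2 := key (-1) (by simp)
  by_contra hcon
  push Not at hcon
  have hsub : (univ : Finset (ZMod r)) ⊆ (univ.filter fun j : ZMod r => e / 2 <
      ∑ u ∈ W, N.w u * (dens N 1 (a + η * Complex.I) (Function.update π o (some j)) W u -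
        dens N 1 (a + η * Complex.I) π W u)) ∪ (univ.filter fun j : ZMod r => e / 2 <
      ∑ u ∈ W, N.w u * (dens N (-1) (a + η * Complex.I) (Function.update π o (some j)) W u -
        dens N (-1) (a + η * Complex.I) π W u)) := by
    intro j _
    have h1 := hcon j
    have e1 : gain N (a + η * Complex.I) π W o j =
        ∑ u ∈ W, N.w u * (dens N 1 (a + η * Complex.I) (Function.update π o (some j)) W u -
          dens N 1 (a + η * Complex.I) π W u) +
        ∑ u ∈ W, N.w u * (dens N (-1) (a + η * Complex.I) (Function.update π o (some j)) W u -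
          dens N (-1) (a + η * Complex.I) π W u) := by
      rw [gain, ← sum_add_distrib]
      refine sum_congr rfl fun u _ => ?_
      simp only [dens2]; ring
    simp only [mem_union, mem_filter, mem_univ, true_and]
    by_contra h2
    push Not at h2
    linarith [h2.1, h2.2]
  have := (card_le_card hsub).trans (card_union_le _ _)
  rw [card_univ] at this
  omega

namespace NetABAux

open scoped ComplexOrder

variable {V ι : Type*} [DecidableEq V] [Fintype ι] [DecidableEq ι] [Nonempty ι]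

omit [Fintype ι] [DecidableEq ι] [Nonempty ι] in
lemma dm_zf_star {Y : ι → V → V → ℂ} (hY : Herm Y) (w : V → ℝ) (ζ : ℂ) (s : ℝ) :
    (fun i a b => star (dm (zf ζ w s) Y i b a)) = dm (zf (star ζ) w s) Y := by
  funext i a b
  simp only [dm, zf, hY i a b, star_sub, star_star]
  by_cases h : a = b
  · subst h; simp
  · simp [h, Ne.symm h]

omit [Nonempty ι] in
lemma Q_zf_star {Y : ι → V → V → ℂ} (hY : Herm Y) (w : V → ℝ) (ζ : ℂ) (s : ℝ) (W : Finset V)
    (R : ι → Finset V) : Q (fun _ _ => 1) (dm (zf (star ζ) w s) Y) W R =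
      star (Q (fun _ _ => 1) (dm (zf ζ w s) Y) W R) := by
  rw [← Q_star, dm_zf_star hY]
  simp

omit [Nonempty ι] in
lemma mbar_zf_star {Y : ι → V → V → ℂ} (hY : Herm Y) (w : V → ℝ) (ζ : ℂ) (s : ℝ) (W : Finset V)
    (o : V) : mbar (fun _ _ => 1) (dm (zf (star ζ) w s) Y) W o =
      star (mbar (fun _ _ => 1) (dm (zf ζ w s) Y) W o) := by
  have e : ∀ i, dm (zf (star ζ) w s) Y i o o = star (dm (zf ζ w s) Y i o o) := fun i =>
    (congrFun (congrFun (congrFun (dm_zf_star hY w ζ s) i) o) o).symm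
  simp only [mbar, se, piv, Q_zf_star hY, e, bsum, star_div₀, star_sum, star_mul, star_sub,
    star_one, one_mul, mul_one]

/-- the function `ζ ↦ ζ - mbar` on the slit plane -/
lemma slit_facts {Y : ι → V → V → ℂ} (hY : Herm Y) (h0 : ∀ i a, Y i a a = 0) {W : Finset V}
    (hc : ∀ i, ContrOn (Y i) W) {o : V} (ho : o ∈ W) {w : V → ℝ} (hw : ∀ a, 0 < w a) {s : ℝ}
    (hs : 0 ≤ s) (z : ℂ) (hz : z.im ≠ 0 ∨ theta (Fintype.card ι) < z.re) :
    Q (fun _ _ => 1) (dm (zf z w s) Y) (W.erase o) R0 ≠ 0 ∧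
      z - mbar (fun _ _ => 1) (dm (zf z w s) Y) W o ∈ Complex.slitPlane := by
  have hup : ∀ z : ℂ, 0 < z.im → Q (fun _ _ => 1) (dm (zf z w s) Y) (W.erase o) R0 ≠ 0 ∧
      0 < (z - mbar (fun _ _ => 1) (dm (zf z w s) Y) W o).im := by
    intro z hz
    have him : ∀ a, (zf z w s a).im = z.im := by
      intro a
      simp only [zf, Complex.add_im, ← Complex.ofReal_div, Complex.ofReal_im, add_zero]
    constructor
    · exact Q_ne_zero (ρ := fun a => (zf z w s a).im) (BarrierAux.posW_one _)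
        (fun i => by simp [R0]) (fun i => ImGe_dm hY _ _ i) fun i a _ => by rw [him]; exact hz
    · have h1 := nbar_im_ge (ρ := fun a => (zf z w s a).im) ho (BarrierAux.posW_one W)
        (fun i => ImGe_dm hY (zf z w s) W i) fun a _ => by rw [him]; exact hz
      rw [nbar_eq _ _ W o (z := zf z w s o) (fun i => by simp [dm, h0])
        ((BarrierAux.posW_one (ι := ι) W o ho).2.ne')] at h1
      simp only [Complex.sub_im, him] at h1 ⊢
      linarith
  rcases lt_trichotomy z.im 0 with h | h | h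
  · have h1 := hup (star z) (by simpa using h)
    rw [Q_zf_star hY, mbar_zf_star hY, ← star_sub] at h1
    refine ⟨fun h2 => h1.1 (by rw [h2, star_zero]), Or.inr fun h2 => ?_⟩
    have := h1.2
    rw [Complex.star_def, Complex.conj_im, h2] at this
    simp at this
  · have hre : theta (Fintype.card ι) < z.re := hz.resolve_left (by simp [h])
    have e : zf z w s = fun a => ((z.re + s / w a : ℝ) : ℂ) := by
      funext a
      apply Complex.ext
      · simp only [zf, Complex.add_re, ← Complex.ofReal_div, Complex.ofReal_re]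
      · simp only [zf, Complex.add_im, ← Complex.ofReal_div, Complex.ofReal_im, h, add_zero]
    obtain ⟨a1, -, -, a4⟩ := init_real Y hY h0 W hc ho (fun a => z.re + s / w a) fun a _ => by
      have := div_nonneg hs (hw a).le
      linarith
    rw [e]
    refine ⟨a1, Or.inl ?_⟩
    rw [Complex.sub_re]
    linarith
  · exact ⟨(hup z h).1, Or.inr (hup z h).2.ne'⟩

lemma init_pt {Y : ι → V → V → ℂ} (hY : Herm Y) (h0 : ∀ i a, Y i a a = 0) {W : Finset V}
    (hc : ∀ i, ContrOn (Y i) W) {o : V} (ho : o ∈ W) {w : V → ℝ} (hw : ∀ a, 0 < w a) {t η θ : ℝ}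
    (ht : 0 ≤ t) (hθ : θ = theta (Fintype.card ι)) (hθ0 : 0 < θ) (hη : 0 < η)
    (hηθ : 16 * η ≤ θ) :
    ((((2 * θ : ℝ) : ℂ) + η * Complex.I + t)⁻¹ -
      GT (fun _ _ => 1) Y w ((2 * θ : ℝ) + η * Complex.I) W ((t * w o : ℝ) : ℂ) o).im ≤
      80 * (1 + 4 / θ) ^ 2 * η / (1 + t) ^ 2 := by
  have hs : 0 ≤ t * w o := mul_nonneg ht (hw o).le
  set s : ℝ := t * w o with hsdef
  set F : ℂ → ℂ := fun z => z - mbar (fun _ _ => 1) (dm (zf z w s) Y) W o with hF
  have hsl := fun z hz => slit_facts hY h0 hc ho hw hs z hz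
  rw [← hθ] at hsl
  have hdX : ∀ (z : ℂ) i a b, DifferentiableAt ℂ (fun z => dm (zf z w s) Y i a b) z := by
    intro z i a b
    simp only [dm, zf]
    split_ifs <;> fun_prop
  have hFd : DifferentiableOn ℂ F {z | z.im ≠ 0 ∨ θ < z.re} := by
    intro z hz
    refine DifferentiableAt.differentiableWithinAt ?_
    refine differentiableAt_id.sub ?_
    simp only [mbar, se, piv]
    refine DifferentiableAt.div_const (DifferentiableAt.fun_sum fun i _ => ?_) _
    refine DifferentiableAt.const_mul ((hdX z i o o).sub ?_) _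
    exact (Q_differentiableAt _ _ (fun _ _ => differentiableAt_const _) (hdX z)).div
      (Q_differentiableAt _ _ (fun _ _ => differentiableAt_const _) (hdX z)) (hsl z hz).1
  have e : zf ((2 * θ : ℝ) : ℂ) w s = fun a => ((2 * θ + s / w a : ℝ) : ℂ) := by
    funext a
    simp [zf]
  obtain ⟨-, a2, a3, a4⟩ := init_real Y hY h0 W hc ho (fun a => 2 * θ + s / w a) fun a _ => by
    have := div_nonneg hs (hw a).le
    rw [← hθ]
    linarith
  rw [← e] at a2 a3 a4
  rw [← hθ] at a4
  have hre : (F ((2 * θ : ℝ) : ℂ)).re =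
      2 * θ - (mbar (fun _ _ => 1) (dm (zf ((2 * θ : ℝ) : ℂ) w s) Y) W o).re := by
    simp only [hF, Complex.sub_re, Complex.ofReal_re]
  obtain ⟨b1, b2⟩ := slit_bound (F := F) (θ := θ) (γ := θ) (a := 2 * θ) hθ0 (by linarith) hη.le hηθ
    hFd (fun z hz => (hsl z hz).2) (by simp only [hF, Complex.sub_im, a2, Complex.ofReal_im]; ring)
  set ζ : ℂ := ((2 * θ : ℝ) : ℂ) + η * Complex.I with hζ
  have hζim : ζ.im = η := by simp [hζ]
  have hG : GT (fun _ _ => 1) Y w ζ W (s : ℂ) o = (F ζ + t)⁻¹ := by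
    have hb := (BarrierAux.posW_one (ι := ι) W o ho).2.ne'
    rw [GT, G_eq_inv_nbar _ _ ho (hsl ζ (Or.inl (by rw [hζim]; exact hη.ne'))).1 hb,
      nbar_eq _ _ W o (z := zf ζ w s o) (fun i => by simp [dm, h0]) hb]
    congr 1
    have : (w o : ℂ) ≠ 0 := by exact_mod_cast (hw o).ne'
    simp only [hF, zf, hsdef]
    push_cast
    field_simp
    ring
  rw [hG, Complex.sub_im]
  have c1 : ((ζ + t)⁻¹).im ≤ 0 := by
    rw [Complex.inv_im]
    refine div_nonpos_of_nonpos_of_nonneg ?_ (Complex.normSq_nonneg _)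
    simp only [Complex.add_im, hζim, Complex.ofReal_im]
    linarith
  have hlow : θ / 4 + t ≤ (F ζ + t).re := by
    rw [Complex.add_re, Complex.ofReal_re]
    linarith
  have hpos : 0 < θ / 4 + t := by positivity
  have c2 : -((F ζ + t)⁻¹).im ≤ 80 * η / (θ / 4 + t) ^ 2 := by
    rw [Complex.inv_im, neg_div, neg_neg, Complex.add_im, Complex.ofReal_im, add_zero]
    have d1 : (θ / 4 + t) ^ 2 ≤ Complex.normSq (F ζ + t) := by
      rw [Complex.normSq_apply]
      nlinarith [mul_self_nonneg (F ζ + t).im]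
    have d2 : (F ζ).im ≤ 80 * η := by
      have d3 : 40 * η / θ * (F ((2 * θ : ℝ) : ℂ)).re ≤ 40 * η / θ * (2 * θ) :=
        mul_le_mul_of_nonneg_left (by linarith) (by positivity)
      have d4 : 40 * η / θ * (2 * θ) = 80 * η := by field_simp; norm_num
      linarith [le_abs_self (F ζ).im]
    calc (F ζ).im / Complex.normSq (F ζ + t) ≤ 80 * η / Complex.normSq (F ζ + t) :=
          div_le_div_of_nonneg_right d2 (Complex.normSq_nonneg _)
      _ ≤ 80 * η / (θ / 4 + t) ^ 2 :=
          div_le_div_of_nonneg_left (by positivity) (by positivity) d1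
  have c3 : 80 * η / (θ / 4 + t) ^ 2 ≤ 80 * (1 + 4 / θ) ^ 2 * η / (1 + t) ^ 2 := by
    rw [div_le_div_iff₀ (by positivity) (by positivity)]
    have d1 : 1 + t ≤ (1 + 4 / θ) * (θ / 4 + t) := by
      have d2 : 4 / θ * (θ / 4) = 1 := by field_simp
      have d3 : 0 ≤ 4 / θ * t := by positivity
      nlinarith
    have d2 : (1 + t) ^ 2 ≤ ((1 + 4 / θ) * (θ / 4 + t)) ^ 2 :=
      pow_le_pow_left₀ (by positivity) d1 2
    calc 80 * η * (1 + t) ^ 2 ≤ 80 * η * ((1 + 4 / θ) * (θ / 4 + t)) ^ 2 :=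
          mul_le_mul_of_nonneg_left d2 (by positivity)
      _ = 80 * (1 + 4 / θ) ^ 2 * η * (θ / 4 + t) ^ 2 := by ring
  linarith

end NetABAux

open NetABAux in
/-- `slit_bound` for `ζ ↦ ζ - mbar (ζ + t/w)` (`init_real`, `nbar_im_ge`, `Q_star`), then
`tame_bound` and `log_small`. -/
theorem dens_init {e : ℝ} (he : 0 < e) (D : ℕ) {K : ℝ} (hK : 1 ≤ K) (r : ℕ) [NeZero r] :
    ∃ η₀ > 0, ∀ η : ℝ, 0 < η → η ≤ η₀ → ∀ (V : Type u) [DecidableEq V] (N : Net V D K) (σ : ℝ)
      (W : Finset V) (o : V), |σ| = 1 → o ∈ W →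
      dens N σ ((2 * theta (r + 1) : ℝ) + η * Complex.I) (fun _ => (none : St r)) W o ≤ e := by
  set θ : ℝ := theta (r + 1) with hθ
  have hθ0 : 0 < θ := by
    simp only [hθ, theta]
    positivity
  have hθ' : θ = theta (Fintype.card (St r)) := by
    simp [hθ, ZMod.card]
  obtain ⟨B, hB, hb⟩ := tame_bound.{u} (a := 2 * θ) (D := (D : ℝ) + 1) (by positivity)
    (by positivity) hK
  obtain ⟨η₁, hη₁, hlog⟩ := log_small (A := 80 * (1 + 4 / θ) ^ 2) (B := B) 3 (by positivity)
    hB.le he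
  refine ⟨min η₁ (min 1 (θ / 16)), by positivity, fun η hη hle V _ N σ W o hσ ho => ?_⟩
  have hη1 : η ≤ 1 := hle.trans ((min_le_right _ _).trans (min_le_left _ _))
  have hη2 : η ≤ θ / 16 := hle.trans ((min_le_right _ _).trans (min_le_right _ _))
  obtain ⟨hI, hJ⟩ := hlog η hη (hle.trans (min_le_left _ _))
  refine le_trans ?_ hJ
  rw [dens_eq_ft]
  refine setIntegral_mono_on (ft_integrable (by positivity) hη hη1 hK N hσ _ ho) hI
    measurableSet_Ioi fun t ht => ?_
  have ht' : (0 : ℝ) ≤ t := le_of_lt ht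
  have hT := N.tame (r := r) hσ W
  have hc : ∀ i : St r, ContrOn (Ycop σ N.x i) W := by
    intro i ξ
    by_cases hi : i = none
    · have : qform (Ycop σ N.x i) W ξ = 0 := by simp [qform, Ycop, hi]
      rw [this, norm_zero]
      exact sum_nonneg fun _ _ => by positivity
    · have : qform (Ycop σ N.x i) W ξ = σ * qform N.x W ξ := by
        simp only [qform, Ycop, hi, if_false, mul_sum]
        refine sum_congr rfl fun a _ => sum_congr rfl fun b _ => ?_
        ring
      rw [this, norm_mul, Complex.norm_real, Real.norm_eq_abs, hσ, one_mul]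
      exact N.contr W ξ
  have h1 := init_pt hT.herm hT.diag hc ho N.wpos ht' hθ' hθ0 hη (by linarith)
  have h2 := hb η hη hη1 V (St r) (fun _ _ => 1) (Ycop σ N.x) N.w W o (t * N.w o)
    (BarrierAux.posW_one W) hT ho (mul_nonneg ht' (N.wpos o).le)
  have e1 : (((t * N.w o : ℝ) : ℂ) / (N.w o : ℂ)) = t := by
    have : (N.w o : ℂ) ≠ 0 := by exact_mod_cast (N.wpos o).ne'
    push_cast
    field_simp
  rw [e1, mul_div_cancel_right₀ t (N.wpos o).ne', norm_sub_rev] at h2
  have h3 := (Complex.im_le_norm _).trans h2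
  have h4 := le_min h1 h3
  have h5 : 0 ≤ min (80 * (1 + 4 / θ) ^ 2 * η / (1 + t) ^ 2) (B / (η ^ 3 * (1 + t) ^ 3)) :=
    le_min (by positivity) (by positivity)
  calc ft N σ ((2 * θ : ℝ) + η * Complex.I) (fun _ => (none : St r)) W o t
      ≤ t * min (80 * (1 + 4 / θ) ^ 2 * η / (1 + t) ^ 2) (B / (η ^ 3 * (1 + t) ^ 3)) :=
        mul_le_mul_of_nonneg_left h4 ht'
    _ ≤ _ := mul_le_mul_of_nonneg_right (by linarith) h5

end Vale.Agent.P078
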