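import Vale.Agent.P078.NetCAux

/-! From small potential to small moments.  See PROOF.md, section Final. -/

namespace Vale.Agent.P078

open Finset MeasureTheory Matrix

universe u

namespace NetCAux

variable {V : Type u} [DecidableEq V] {D : ℕ} {K : ℝ} {r : ℕ} (N : Net V D K)

theorem im_GT [NeZero r] {σ a η : ℝ} (hσ : |σ| = 1) (π : V → St r) {W : Finset V} {u : V}
    (hu : u ∈ W) (hη : 0 < η) (t : ℝ) : 0 ≤ -(GT (fun v => wtS (π v)) (Ycop σ N.x) N.w
      (a + η * Complex.I) W (t : ℂ) u).im :=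
  neg_nonneg.mpr (norm_G_le hu (posW_wtS π W) (fun i => ImGe_dm (N.tame hσ W).herm _ W i)
    fun v _ => by simpa [zf, Complex.div_ofReal_im] using hη).2.1

omit [DecidableEq V] in
theorem pinch_herm (π : V → St r) (a b : V) : pinch N π b a = star (pinch N π a b) := by
  by_cases h : π a = π b
  · simp only [pinch, h, true_and, N.herm a b]
    split_ifs <;> simp
  · simp [pinch, h, Ne.symm h]

omit [DecidableEq V] in
theorem pinch_supp {π : V → St r} {a b : V} (h : pinch N π a b ≠ 0) : a ∈ N.nbr b :=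
  N.supp a b fun e => h (by simp [pinch, e])

theorem walk_supp (π : V → St r) (o : V) (j : ℕ) {v : V} (hv : v ∉ N.ball o j) :
    walk N π o j v = 0 := by
  induction j generalizing v with
  | zero => exact if_neg fun h => hv (mem_singleton.mpr h)
  | succ j ih =>
    refine sum_eq_zero fun z hz => ?_
    rw [ih fun h => hv (mem_union_right _ (mem_biUnion.mpr ⟨z, h, N.symm _ _ hz⟩)), mul_zero]

theorem walk_succ (π : V → St r) (o : V) (j : ℕ) {U : Finset V} (hU : N.ball o j ⊆ U) (v : V) :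
    walk N π o (j + 1) v = ∑ z ∈ U, pinch N π v z * walk N π o j z := by
  change ∑ z ∈ N.nbr v, _ = _
  rw [← sum_subset (inter_subset_left (s₁ := N.nbr v) (s₂ := U)) fun z h1 h2 => by
      rw [walk_supp N π o j fun h => h2 (mem_inter.mpr ⟨h1, hU h⟩), mul_zero],
    sum_subset (inter_subset_right (s₁ := N.nbr v)) fun z h1 h2 => by
      by_contra h
      exact h2 (mem_inter.mpr ⟨N.symm _ _ (pinch_supp N (left_ne_zero_of_mul h)), h1⟩)]

theorem cut_core {a η S B e : ℝ} (ha : 0 < a) (hη : 0 < η) (hη1 : η ≤ 1) (hS : 0 < S)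
    (hB : 0 < B) {g : ℝ → ℂ}
    (i0 : IntegrableOn (fun t : ℝ => (1 + t) * min ((1 + a⁻¹) ^ 2 * η / (1 + t) ^ 2)
      ((B + (1 + a⁻¹) ^ 2 * (1 + S)) / (η ^ 3 * (1 + t) ^ 3))) (Set.Ioi 0))
    (l0 : ∫ t in Set.Ioi (0 : ℝ), (1 + t) * min ((1 + a⁻¹) ^ 2 * η / (1 + t) ^ 2)
      ((B + (1 + a⁻¹) ^ 2 * (1 + S)) / (η ^ 3 * (1 + t) ^ 3)) ≤ e)
    (i1 : IntegrableOn (fun t : ℝ => t * ((a + η * Complex.I + t)⁻¹ - g t).im) (Set.Ioi 0))
    (hh : ∀ t, 0 ≤ -(g t).im)
    (hb : ∀ t : ℝ, 0 < t → ‖g t - (a + η * Complex.I + t)⁻¹‖ ≤ B / (η ^ 3 * (1 + t) ^ 3)) :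
    IntegrableOn (fun t : ℝ => t * (S ^ 2 / (S ^ 2 + t ^ 2)) * -(g t).im) (Set.Ioi 0) ∧
      0 ≤ (∫ t in Set.Ioi (0 : ℝ), t * ((a + η * Complex.I + t)⁻¹ - g t).im) + e ∧
      ∫ t in Set.Ioi (0 : ℝ), t * (S ^ 2 / (S ^ 2 + t ^ 2)) * -(g t).im ≤
        (∫ t in Set.Ioi (0 : ℝ), t * ((a + η * Complex.I + t)⁻¹ - g t).im) + e := by
  have z : ∀ t : ℝ, (a + η * Complex.I + t : ℂ)⁻¹.im = -(η / ((a + t) ^ 2 + η ^ 2)) := fun t => by
    simp [Complex.inv_im, Complex.normSq_apply, neg_div, sq]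
  have c1 : ∀ t : ℝ, S ^ 2 / (S ^ 2 + t ^ 2) ≤ 1 := fun t =>
    (div_le_one (by positivity)).mpr (by nlinarith [sq_nonneg t])
  have b1 : ∀ t : ℝ, 0 < t → η / ((a + t) ^ 2 + η ^ 2) ≤ (1 + a⁻¹) ^ 2 * η / (1 + t) ^ 2 :=
    fun t ht => by
      have h1 : 1 + t ≤ (1 + a⁻¹) * (a + t) := by
        have := mul_inv_cancel₀ ha.ne'
        nlinarith [mul_pos (inv_pos.mpr ha) ht]
      have h2 := pow_le_pow_left₀ (by positivity) h1 2
      rw [div_le_div_iff₀ (by positivity) (by positivity), mul_comm _ η, mul_assoc]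
      refine mul_le_mul_of_nonneg_left (h2.trans ?_) hη.le
      rw [mul_pow]
      exact mul_le_mul_of_nonneg_left (le_add_of_nonneg_right (sq_nonneg _)) (sq_nonneg _)
  have b2 : ∀ t : ℝ, 0 < t → S ^ 2 / (S ^ 2 + t ^ 2) * (η / ((a + t) ^ 2 + η ^ 2)) ≤
      (1 + a⁻¹) ^ 2 * (1 + S) / (η ^ 3 * (1 + t) ^ 3) := fun t ht => by
    have h1 : S ^ 2 / (S ^ 2 + t ^ 2) ≤ (1 + S) / (1 + t) := by
      rw [div_le_div_iff₀ (by positivity) (by positivity)]
      nlinarith [mul_nonneg hS.le (sq_nonneg (S - t)), mul_pos ht (mul_pos hS hS), sq_nonneg t]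
    refine (mul_le_mul h1 (b1 t ht) (by positivity) (by positivity)).trans ?_
    have h2 : η * η ^ 3 ≤ 1 := mul_le_one₀ hη1 (by positivity) (pow_le_one₀ hη.le hη1)
    rw [div_mul_div_comm, div_le_div_iff₀ (by positivity) (by positivity)]
    nlinarith [mul_le_mul_of_nonneg_left h2
      (by positivity : 0 ≤ (1 + a⁻¹) ^ 2 * (1 + S) * (1 + t) ^ 3)]
  have up : ∀ t x : ℝ, 0 < t → x ≤ (1 + a⁻¹) ^ 2 * η / (1 + t) ^ 2 →
      x ≤ (B + (1 + a⁻¹) ^ 2 * (1 + S)) / (η ^ 3 * (1 + t) ^ 3) →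
      t * x ≤ (1 + t) * min ((1 + a⁻¹) ^ 2 * η / (1 + t) ^ 2)
        ((B + (1 + a⁻¹) ^ 2 * (1 + S)) / (η ^ 3 * (1 + t) ^ 3)) := fun t x ht h1 h2 =>
    (mul_le_mul_of_nonneg_left (le_min h1 h2) ht.le).trans
      (mul_le_mul_of_nonneg_right (by linarith) (by positivity))
  have i2 : IntegrableOn (fun t : ℝ => t * (S ^ 2 / (S ^ 2 + t ^ 2) *
      (η / ((a + t) ^ 2 + η ^ 2)))) (Set.Ioi 0) := by
    refine i0.mono' (by fun_prop) (ae_restrict_of_forall_mem measurableSet_Ioi fun t ht => ?_)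
    have ht' : 0 < t := ht
    rw [Real.norm_of_nonneg (by positivity)]
    refine up t _ ht ((mul_le_of_le_one_left (by positivity) (c1 t)).trans (b1 t ht))
      ((b2 t ht).trans ?_)
    gcongr
    linarith
  have i3 : IntegrableOn (fun t : ℝ => t * (S ^ 2 / (S ^ 2 + t ^ 2)) * -(g t).im) (Set.Ioi 0) := by
    refine ((i1.bdd_mul (f := fun t => S ^ 2 / (S ^ 2 + t ^ 2)) (c := 1)
      (Measurable.aestronglyMeasurable (by fun_prop))
      (.of_forall fun t => ?_)).add i2).congr (.of_forall fun t => ?_)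
    · rw [Real.norm_of_nonneg (by positivity)]
      exact c1 t
    · simp only [Pi.add_apply, Complex.sub_im, z]
      ring
  have h3 : ∫ t in Set.Ioi (0 : ℝ), t * (S ^ 2 / (S ^ 2 + t ^ 2)) * -(g t).im ≤
      (∫ t in Set.Ioi (0 : ℝ), t * ((a + η * Complex.I + t)⁻¹ - g t).im) + e := by
    refine le_trans ?_ (add_le_add_right l0 _)
    rw [← integral_add i1 i0]
    refine setIntegral_mono_on i3 (i1.add i0) measurableSet_Ioi fun t ht => ?_
    have h4 := (abs_le.mp ((Complex.abs_im_le_norm _).trans (hb t ht))).2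
    have h5 := sub_nonneg.mpr (c1 t)
    have h6 := mul_le_mul_of_nonneg_left h4 h5
    have ht' : 0 < t := ht
    have h7 := mul_nonneg (by positivity : 0 ≤ S ^ 2 / (S ^ 2 + t ^ 2))
      (by positivity : 0 ≤ B / (η ^ 3 * (1 + t) ^ 3))
    rw [Complex.sub_im, z] at h6
    have := up t (η / ((a + t) ^ 2 + η ^ 2) - (1 - S ^ 2 / (S ^ 2 + t ^ 2)) * -(g t).im) ht
      ((sub_le_self _ (mul_nonneg h5 (hh t))).trans (b1 t ht)) (by
        rw [add_div]
        linarith [b2 t ht])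
    rw [Complex.sub_im, z]
    linarith
  exact ⟨i3, (setIntegral_nonneg measurableSet_Ioi fun t ht => mul_nonneg
    (mul_nonneg (le_of_lt ht) (by positivity)) (hh t)).trans h3, h3⟩

omit [DecidableEq V] in
theorem pinch_contr' (π : V → St r) (U : Finset V) : ContrOn (pinch N π) U := by
  intro ξ
  classical
  rw [qform, ← sum_fiberwise_of_maps_to (fun a ha => mem_image_of_mem π ha),
    ← sum_fiberwise_of_maps_to (fun a ha => mem_image_of_mem π ha) fun a => ‖ξ a‖ ^ 2]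
  refine norm_sum_le_of_le _ fun s _ => ?_
  by_cases hs : s = none
  · rw [sum_eq_zero fun a ha => by simp [pinch, (mem_filter.mp ha).2, hs], norm_zero]
    positivity
  · refine le_trans (le_of_eq (congrArg _ (sum_congr rfl fun a ha => ?_))) (N.contr _ ξ)
    rw [sum_filter]
    refine sum_congr rfl fun b _ => ?_
    by_cases hb : π b = s
    · simp [pinch, (mem_filter.mp ha).2, hs, hb]
    · simp [pinch, (mem_filter.mp ha).2, hb, Ne.symm hb]

theorem one_lt_lam : (1 : ℝ) ≤ lam := by norm_num [lam]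

/-- the normalised pinched matrix -/
noncomputable def PM (σ : ℝ) (π : V → St r) (W : Finset V) : Matrix W W ℂ :=
  Matrix.of fun a b => (σ / lam : ℝ) * pinch N π a b

omit [DecidableEq V] in
theorem PM_herm (σ : ℝ) (π : V → St r) (W : Finset V) : (PM N σ π W).IsHermitian := by
  ext a b
  simp [PM, pinch_herm N π b a]

omit [DecidableEq V] in
theorem PM_form (σ : ℝ) (π : V → St r) (W : Finset V) (ξ : V → ℂ) :
    star (fun a : W => ξ a) ⬝ᵥ PM N σ π W *ᵥ (fun a : W => ξ a) =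
      (σ / lam : ℝ) * qform (pinch N π) W ξ := by
  rw [qform, ← sum_coe_sort W, mul_sum]
  refine sum_congr rfl fun a _ => ?_
  rw [← sum_coe_sort W, mulVec, dotProduct, mul_sum, mul_sum]
  exact sum_congr rfl fun b _ => by simp only [PM, of_apply, Pi.star_apply]; ring

theorem GT_eq [NeZero r] (σ : ℝ) {π : V → St r} {W : Finset V} (hπ : ∀ v ∈ W, π v ≠ none)
    {ζ : ℂ} (hζ : 0 < ζ.im) (t : ℝ) (u : W) :
    GT (fun v => wtS (π v)) (Ycop σ N.x) N.w ζ W t u =
      (mat (PM N σ π W) (fun a => N.w a) ζ t)⁻¹ u u := by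
  have hl : (lam : ℂ) ≠ 0 := by exact_mod_cast (one_pos.trans_le one_lt_lam).ne'
  have hβ : ∀ v ∈ W, wtS (π v) = Pi.single (π v) 1 + Pi.single none ((lam : ℂ) - 1) :=
    fun v hv => by
      obtain ⟨j, hj⟩ := Option.ne_none_iff_exists'.mp (hπ v hv)
      ext i
      rcases i with _ | i <;> simp [hj, wtS, Pi.single_apply]
  have h0 : ∀ a b, a ≠ b → dm (zf ζ N.w t) (Ycop (r := r) σ N.x) none a b = 0 := fun a b h => by
    simp [dm, Ycop, h]
  have hu := mat_unit (PM_herm N σ π W) (fun a => N.wpos a) hζ (z := t) (by simp)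
  have e : (Matrix.of fun a b : W => (if π a = π b then
      dm (zf ζ N.w t) (Ycop (r := r) σ N.x) (π a) a b else 0) + if (a : V) = b then
        ((lam : ℂ) - 1) * dm (zf ζ N.w t) (Ycop (r := r) σ N.x) none a a else 0) =
      (lam : ℂ) • mat (PM N σ π W) (fun a => N.w a) ζ t := by
    ext a b
    have := hπ a a.2
    by_cases h : a = b
    · subst h
      simp [dm, Ycop, mat, PM, pinch, N.diag, zf]
      ring
    · by_cases h2 : π a = π b
      · simp [dm, Ycop, mat, PM, pinch, h, ← h2, this]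
        field_simp
      · simp [mat, PM, pinch, h, h2]
  rw [GT, G, Q_det _ W _ π none (fun _ => (lam : ℂ) - 1) h0 hπ hβ,
    Q_det _ _ _ π none (fun _ => (lam : ℂ) - 1) h0 (fun v hv => hπ v (mem_of_mem_erase hv))
      fun v hv => hβ v (mem_of_mem_erase hv), mul_div_assoc, minor_erase_div _ u.2 (by
        rw [minor, e, det_smul]
        exact mul_ne_zero (pow_ne_zero _ hl) hu.ne_zero), e,
    inv_eq_right_inv (B := (lam : ℂ)⁻¹ • (mat (PM N σ π W) (fun a => N.w a) ζ t)⁻¹) (by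
      rw [smul_mul_smul_comm, mul_inv_cancel₀ hl, one_smul, mul_nonsing_inv _ hu]), bsum,
    hβ u u.2]
  simp [sum_add_distrib, hl]

theorem one_sign [NeZero r] (hK : 1 ≤ K) {σ a η Λ : ℝ} (hσ : |σ| = 1) (ha : 0 < a) (hη : 0 < η)
    (hη1 : η ≤ 1) (hΛ : 0 < Λ) {π : V → St r} {W : Finset V} (hπ : ∀ v ∈ W, π v ≠ none) {o : V}
    {k : ℕ} (hW : N.ball o k ⊆ W) (F : V → ℝ → ℝ)
    (hF : ∀ u ∈ N.ball o k, IntegrableOn (F u) (Set.Ioi 0))
    (hle : ∀ u ∈ N.ball o k, ∀ t : ℝ, 0 < t → t * ((Λ * K ^ (2 * k + 1)) ^ 2 /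
      ((Λ * K ^ (2 * k + 1)) ^ 2 + t ^ 2)) * -(GT (fun v => wtS (π v)) (Ycop σ N.x) N.w
        (a + η * Complex.I) W ((t * N.w u : ℝ) : ℂ) u).im ≤ F u t) (ξ : V → ℂ) :
    σ / lam * (qform (pinch N π) (N.ball o k) ξ).re ≤ (∑ v ∈ N.ball o k, ‖ξ v‖ ^ 2) *
      (a + ((a + 2) ^ 2 / Λ + Real.pi⁻¹ * ∑ u ∈ N.ball o k, ∫ t in Set.Ioi 0, F u t)) := by
  have hζ : 0 < (a + η * Complex.I : ℂ).im := by simpa using hη
  have w0 := N.wpos o
  have K0 : 0 < K := one_pos.trans_le hK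
  let ξ' : V → ℂ := fun v => if v ∈ N.ball o k then ξ v else 0
  have h1 := main (PM_herm N σ π W) (fun a => N.wpos a) hζ (fun x => by
    have := PM_form N σ π W fun v => if h : v ∈ W then x ⟨v, h⟩ else 0
    have h2 := pinch_contr' N π W fun v => if h : v ∈ W then x ⟨v, h⟩ else 0
    rw [← sum_coe_sort W] at h2
    simp only [coe_mem, dif_pos, Subtype.coe_eta] at this h2
    rw [this, norm_mul, Complex.norm_real, Real.norm_eq_abs, abs_div, hσ,
      abs_of_pos (one_pos.trans_le one_lt_lam)]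
    exact (mul_le_of_le_one_left (norm_nonneg _) (div_le_one_of_le₀ one_lt_lam
      (zero_le_one.trans one_lt_lam))).trans h2)
    (S := Λ * (K ^ (k + 1) * N.w o)) (wm := K ^ (k + 1) * N.w o) (by positivity) (by positivity)
    (fun a : W => ξ' a) (univ.filter fun a : W => a.1 ∈ N.ball o k)
    (fun i hi => if_neg (by simpa using hi)) fun i hi => N.w_le hK (by
      rcases hi with hi | ⟨j, hj, hi⟩
      · exact mem_union_left _ (mem_filter.mp hi).2
      · exact mem_union_right _ (mem_biUnion.mpr ⟨j, (mem_filter.mp hj).2,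
          pinch_supp N (right_ne_zero_of_mul hi)⟩))
  have e1 : qform (pinch N π) W ξ' = qform (pinch N π) (N.ball o k) ξ := by
    rw [qform, ← sum_subset hW fun v _ hv => by simp [ξ', hv]]
    refine sum_congr rfl fun v hv => ?_
    rw [← sum_subset hW fun v _ hv => by simp [ξ', hv]]
    exact sum_congr rfl fun z hz => by simp [ξ', hv, hz]
  have e2 : ∑ i : W, ‖ξ' i‖ ^ 2 = ∑ v ∈ N.ball o k, ‖ξ v‖ ^ 2 := by
    rw [sum_coe_sort W fun i => ‖ξ' i‖ ^ 2, ← sum_subset hW fun v _ hv => by simp [ξ', hv]]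
    exact sum_congr rfl fun z hz => by simp [ξ', hz]
  rw [PM_form, e1, e2, Complex.re_ofReal_mul] at h1
  refine h1.trans (mul_le_mul_of_nonneg_left (add_le_add (by simp) (add_le_add ?_
    (mul_le_mul_of_nonneg_left ?_ (by positivity)))) (by positivity))
  · have := norm_add_le (a : ℂ) (η * Complex.I)
    simp only [norm_mul, Complex.norm_real, Complex.norm_I, Real.norm_of_nonneg ha.le,
      Real.norm_of_nonneg hη.le] at this
    rw [mul_div_mul_right _ _ (by positivity)]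
    gcongr ?_ ^ 2 / _
    linarith
  · have e3 : ∑ u ∈ N.ball o k, ∫ t in Set.Ioi 0, F u t =
        ∑ i ∈ univ.filter fun a : W => a.1 ∈ N.ball o k, ∫ t in Set.Ioi 0, F i t := by
      rw [sum_filter, sum_coe_sort W fun i => if i ∈ N.ball o k then ∫ t in Set.Ioi 0, F i t else 0,
        ← sum_filter, filter_mem_eq_inter, inter_eq_right.mpr hW]
    rw [e3]
    refine sum_le_sum fun i hi => ?_
    have hi' := (mem_filter.mp hi).2
    have wi := N.wpos i
    simp only [← GT_eq N σ hπ hζ]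
    have e4 := integral_comp_mul_right_Ioi (fun t : ℝ => t * ((Λ * (K ^ (k + 1) * N.w o)) ^ 2 /
      ((Λ * (K ^ (k + 1) * N.w o)) ^ 2 + t ^ 2)) * (N.w i)⁻¹ ^ 2 * -(GT (fun v => wtS (π v))
        (Ycop σ N.x) N.w (a + η * Complex.I) W t i).im) 0 wi
    rw [zero_mul, smul_eq_mul, eq_inv_mul_iff_mul_eq₀ wi.ne', ← integral_const_mul] at e4
    rw [← e4]
    refine integral_mono_of_nonneg (ae_restrict_of_forall_mem measurableSet_Ioi fun t ht => ?_)
      (hF i hi') (ae_restrict_of_forall_mem measurableSet_Ioi fun t ht => ?_)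
    · have ht' : 0 < t := ht
      have := im_GT N (a := a) hσ π i.2 hη (t * N.w i)
      positivity
    · have ht' : 0 < t := ht
      refine le_trans ?_ (hle i hi' t ht)
      beta_reduce
      rw [← mul_assoc]
      refine mul_le_mul_of_nonneg_right ?_ (im_GT N hσ π i.2 hη _)
      have h3 : Λ * (K ^ (k + 1) * N.w o) ≤ Λ * K ^ (2 * k + 1) * N.w i := by
        have := mul_le_mul_of_nonneg_left (N.w_le hK (N.mem_ball_comm.mp hi'))
          (by positivity : 0 ≤ Λ * K ^ (k + 1))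
        rw [← mul_assoc]
        exact this.trans (le_of_eq (by ring))
      have h4 := pow_le_pow_left₀ (by positivity) h3 2
      generalize Λ * (K ^ (k + 1) * N.w o) = S at *
      generalize Λ * K ^ (2 * k + 1) = S' at *
      have e5 : N.w i * (t * N.w i * (S ^ 2 / (S ^ 2 + (t * N.w i) ^ 2)) * (N.w i)⁻¹ ^ 2) =
          t * (S ^ 2 / (S ^ 2 + (t * N.w i) ^ 2)) := by field_simp
      rw [e5]
      refine mul_le_mul_of_nonneg_left ?_ ht'.le
      rw [div_le_div_iff₀ (by positivity) (by positivity)]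
      nlinarith [mul_le_mul_of_nonneg_left h4 (sq_nonneg t)]

end NetCAux

/-- Linear algebra.  `g t = ⟨W⁻¹ ξ, R t W⁻¹ ξ⟩` with `R t = (diag (a + iη + t/w) - Y)⁻¹`; apply
`rep_integral` to `g` and evaluate the real part at `t = i S`. -/
theorem resolvent_ineq {n : Type*} [Fintype n] [DecidableEq n] (Y : Matrix n n ℂ)
    (hY : Y.IsHermitian) (hc : ∀ ξ : n → ℂ, ‖star ξ ⬝ᵥ Y *ᵥ ξ‖ ≤ ∑ i, ‖ξ i‖ ^ 2) (w : n → ℝ)
    (hw : ∀ i, 0 < w i) {a η S wm : ℝ} (ha : 0 < a) (hη : 0 < η) (hη1 : η ≤ 1) (hS : 0 < S)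
    (ξ : n → ℂ) (hξ : ∑ i, ‖ξ i‖ ^ 2 = 1) (T : Finset n) (hT : ∀ i, i ∉ T → ξ i = 0)
    (hwm : ∀ i, (i ∈ T ∨ ∃ j ∈ T, Y i j ≠ 0) → w i ≤ wm) :
    (star ξ ⬝ᵥ Y *ᵥ ξ).re - a ≤ (a + 2) ^ 2 * wm / S + Real.pi⁻¹ * ∑ i ∈ T,
      ∫ t in Set.Ioi (0 : ℝ), t * (S ^ 2 / (S ^ 2 + t ^ 2)) * (w i)⁻¹ ^ 2 *
        -((Matrix.diagonal (fun i => a + η * Complex.I + t / w i) - Y)⁻¹ i i).im := by
  have h0 : ∃ i, ξ i ≠ 0 := by
    by_contra h
    push Not at h
    simp [h] at hξ
  obtain ⟨i, hi⟩ := h0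
  have h1 : 0 ≤ wm := (hw i).le.trans (hwm i (.inl (by by_contra h; exact hi (hT i h))))
  have h2 := NetCAux.main hY hw (ζ := a + η * Complex.I) (by simpa using hη) hc hS h1 ξ T hT hwm
  have h3 : (‖(a + η * Complex.I : ℂ)‖ + 1) ^ 2 * wm / S ≤ (a + 2) ^ 2 * wm / S := by
    have := norm_add_le (a : ℂ) (η * Complex.I)
    simp only [norm_mul, Complex.norm_real, Complex.norm_I, Real.norm_of_nonneg ha.le,
      Real.norm_of_nonneg hη.le] at this
    gcongr ?_ ^ 2 * _ / _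
    linarith
  rw [hξ, one_mul] at h2
  simp only [Complex.add_re, Complex.ofReal_re, Complex.re_ofReal_mul, Complex.I_re,
    NetCAux.mat] at h2
  linarith

/-- the density dominates the positive cut-off density up to `O(η log (1/η))` -/
theorem dens_lower {a e S : ℝ} (ha : 0 < a) (he : 0 < e) (hS : 0 < S) (D : ℕ) {K : ℝ}
    (hK : 1 ≤ K) :
    ∃ η₀ > 0, ∀ η : ℝ, 0 < η → η ≤ η₀ → ∀ (r : ℕ) [NeZero r] (V : Type u) [DecidableEq V]
      (N : Net V D K) (σ : ℝ) (π : V → St r) (W : Finset V) (u : V), |σ| = 1 → u ∈ W →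
      IntegrableOn (fun t : ℝ => t * (S ^ 2 / (S ^ 2 + t ^ 2)) * -(GT (fun v => wtS (π v))
        (Ycop σ N.x) N.w (a + η * Complex.I) W ((t * N.w u : ℝ) : ℂ) u).im) (Set.Ioi 0) ∧
      0 ≤ dens N σ (a + η * Complex.I) π W u + e ∧
      ∫ t in Set.Ioi (0 : ℝ), t * (S ^ 2 / (S ^ 2 + t ^ 2)) * -(GT (fun v => wtS (π v))
        (Ycop σ N.x) N.w (a + η * Complex.I) W ((t * N.w u : ℝ) : ℂ) u).im ≤
        dens N σ (a + η * Complex.I) π W u + e := by
  obtain ⟨B, B0, hB⟩ := tame_bound.{u} (D := (D : ℝ) + 1) ha (by positivity) hK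
  obtain ⟨η₀, h0, hη₀⟩ := log_small (A := (1 + a⁻¹) ^ 2) (B := B + (1 + a⁻¹) ^ 2 * (1 + S)) 3
    (by positivity) (by positivity) he
  refine ⟨min η₀ 1, by positivity, fun η hη hη' r _ V _ N σ π W u hσ hu => ?_⟩
  have hη1 := hη'.trans (min_le_right _ _)
  obtain ⟨i0, l0⟩ := hη₀ η hη (hη'.trans (min_le_left _ _))
  obtain ⟨_, -, hC⟩ := dens_bound.{u} ha hη hη1 D hK
  have i1 := (hC V r N σ π W u hσ hu).1
  have hh : ∀ t : ℝ, 0 ≤ -(GT (fun v => wtS (π v)) (Ycop σ N.x) N.w (a + η * Complex.I) W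
      ((t * N.w u : ℝ) : ℂ) u).im := fun t => NetCAux.im_GT N hσ π hu hη _
  have hb := fun t : ℝ => fun ht : 0 < t => hB η hη hη1 V _ _ _ _ W u (t * N.w u) (posW_wtS π W)
    (N.tame hσ W) hu (mul_pos ht (N.wpos u)).le
  have hw : (N.w u : ℂ) ≠ 0 := by exact_mod_cast (N.wpos u).ne'
  simp only [mul_div_cancel_right₀ _ (N.wpos u).ne', Complex.ofReal_mul _ (N.w u),
    mul_div_cancel_right₀ _ hw] at hb
  simp only [← Complex.ofReal_mul] at hb
  exact NetCAux.cut_core ha hη hη1 hS B0 i0 l0 i1 hh hb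

/-- walks of length `2k` from `o` to `o` only see the ball of radius `k` -/
theorem walk_le {V : Type u} [DecidableEq V] {D : ℕ} {K : ℝ} {r : ℕ} (N : Net V D K)
    (π : V → St r) (o : V) (k : ℕ) {θ : ℝ} (hθ : 0 ≤ θ)
    (h : ∀ ξ : V → ℂ, ‖qform (pinch N π) (N.ball o k) ξ‖ ≤ θ * ∑ v ∈ N.ball o k, ‖ξ v‖ ^ 2) :
    ‖walk N π o (2 * k) o‖ ≤ θ ^ (2 * k) := by
  have h1 : ∀ j ≤ k, ∑ v ∈ N.ball o k, ‖walk N π o j v‖ ^ 2 ≤ θ ^ (2 * j) := fun j hj => by
    induction j with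
    | zero =>
      rw [sum_eq_single o (fun v _ hv => by simp [walk, hv])
        (fun h => absurd (N.mem_ball_self o k) h)]
      simp [walk]
    | succ j ih =>
      simp only [NetCAux.walk_succ N π o j (N.ball_mono o (Nat.le_of_succ_le hj))]
      refine (NetCAux.sq_le_of_qform (NetCAux.pinch_herm N π) hθ h _).trans ?_
      rw [mul_add, pow_add, mul_comm (θ ^ (2 * j))]
      exact mul_le_mul_of_nonneg_left (ih (Nat.le_of_succ_le hj)) (by positivity)
  have h2 : ∀ i m, i + m ≤ 2 * k → walk N π o (i + m) o =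
      ∑ v ∈ N.ball o (2 * k), star (walk N π o i v) * walk N π o m v := fun i => by
    induction i with
    | zero =>
      intro m _
      rw [sum_eq_single o (fun v _ hv => by simp [walk, hv])
        (fun h => absurd (N.mem_ball_self o _) h)]
      simp [walk]
    | succ i ih =>
      intro m hm
      rw [add_assoc, add_comm 1, ih _ (by omega)]
      simp only [NetCAux.walk_succ N π o i (N.ball_mono o (by omega : i ≤ 2 * k)),
        NetCAux.walk_succ N π o m (N.ball_mono o (by omega : m ≤ 2 * k)), star_sum, mul_sum,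
        sum_mul]
      rw [sum_comm]
      refine sum_congr rfl fun a _ => sum_congr rfl fun b _ => ?_
      rw [NetCAux.pinch_herm N π a b, star_mul']
      ring
  have h3 := h2 k k (by omega)
  rw [← two_mul, ← sum_subset (N.ball_mono o (by omega : k ≤ 2 * k)) fun v _ hv => by
    simp [NetCAux.walk_supp N π o k hv]] at h3
  rw [h3]
  exact (norm_sum_le_of_le _ fun v _ => by rw [norm_mul, norm_star, sq]).trans (h1 k le_rfl)

theorem pinch_contr {V : Type u} [DecidableEq V] {D : ℕ} {K : ℝ} {r : ℕ} (N : Net V D K)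
    (π : V → St r) (U : Finset V) : ContrOn (pinch N π) U :=
  NetCAux.pinch_contr' N π U

/-- `Q_det`, `minor_erase_div`, `resolvent_ineq`, `tame_loc`, `dens_lower`, `walk_le` -/
theorem final_bound {a γ e : ℝ} (ha : 0 < a) (hγ : 0 < γ) (he : 0 < e) (D : ℕ) {K : ℝ}
    (hK : 1 ≤ K) (k : ℕ) :
    ∃ η₀ > 0, ∀ η : ℝ, 0 < η → η ≤ η₀ → ∃ n' : ℕ, ∀ n, n' ≤ n → ∀ (r : ℕ) [NeZero r]
      (V : Type u) [DecidableEq V] (N : Net V D K) (π : V → St r) (o : V),
      (∀ u, 0 ≤ dens2 N (a + η * Complex.I) π (N.ball u n) u + e) ∧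
      ((∀ v ∈ N.ball o n', π v ≠ none) →
        ∑ u ∈ N.ball o k, (dens2 N (a + η * Complex.I) π (N.ball u n) u + e) < γ →
        ‖walk N π o (2 * k) o‖ ≤ (lam * (a + γ)) ^ (2 * k)) := by
  have K0 : 0 < K := one_pos.trans_le hK
  obtain ⟨η₀, h0, hη₀⟩ := dens_lower.{u} (e := e / 3)
    (S := 2 * (a + 2) ^ 2 / γ * K ^ (2 * k + 1)) ha (by positivity) (by positivity) D hK
  refine ⟨min η₀ 1, by positivity, fun η hη hη' => ?_⟩
  have hη1 := hη'.trans (min_le_right _ _)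
  replace hη₀ := hη₀ η hη (hη'.trans (min_le_left _ _))
  obtain ⟨C, C0, hC⟩ := tame_loc.{u} (D := (D : ℝ) + 1) ha hη hη1 (by positivity) hK
  obtain ⟨ε, ε0, hε⟩ := env_small C0 (by positivity : 0 < e / 3)
  obtain ⟨R, hR⟩ := hC ε ε0
  refine ⟨k + R, fun n hn r _ V _ N π o => ?_⟩
  have p1 := fun σ hσ u => hη₀ r V N σ π (N.ball u n) u hσ (N.mem_ball_self u n)
  have q1 := fun u => (p1 1 abs_one u).2.1
  have q2 := fun u => (p1 (-1) (by simp) u).2.1
  refine ⟨fun u => by unfold dens2; linarith [q1 u, q2 u], fun hπ hs => ?_⟩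
  have l0 := one_pos.trans_le NetCAux.one_lt_lam
  refine walk_le N π o k (by positivity) fun ξ => ?_
  have key : ∀ σ : ℝ, |σ| = 1 → (∀ u, dens N σ (a + η * Complex.I) π (N.ball u n) u ≤
      dens2 N (a + η * Complex.I) π (N.ball u n) u + e / 3) →
      σ * (qform (pinch N π) (N.ball o k) ξ).re ≤
        lam * (a + γ) * ∑ v ∈ N.ball o k, ‖ξ v‖ ^ 2 := fun σ hσ hd => by
    have h1 := NetCAux.one_sign N hK hσ ha hη hη1 (Λ := 2 * (a + 2) ^ 2 / γ) (by positivity) hπ
      (N.ball_mono o (Nat.le_add_right k R)) _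
      (fun u _ => (p1 σ hσ u).1.add (env_integrableOn ε0.le C0)) (fun u hu t ht => by
        obtain ⟨ℓ, a1, a2, a3⟩ := N.exists_layer u R
        have b := hR V _ _ _ _ (N.ball o (k + R)) (N.ball u n) ℓ u (t * N.w u) (posW_wtS π _)
          (posW_wtS π _) (N.tame hσ _) (N.tame hσ _)
          (fun i a b h => a2 a b (N.supp a b fun e => h (by simp [Ycop, e]))) a1
          (N.ball_mono o (Nat.le_add_right k R) hu) (mul_pos ht (N.wpos u)).le fun v hv =>
            iff_of_true (N.ball_trans hu ((a3 v R le_rfl).mp hv))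
              (N.ball_mono u (by omega) ((a3 v R le_rfl).mp hv))
        rw [mul_div_cancel_right₀ _ (N.wpos u).ne'] at b
        have b1 := (abs_le.mp ((Complex.abs_im_le_norm _).trans b)).1
        have b2 := (norm_nonneg _).trans b
        rw [Complex.sub_im] at b1
        generalize 2 * (a + 2) ^ 2 / γ * K ^ (2 * k + 1) = S
        have b3 : t * (S ^ 2 / (S ^ 2 + t ^ 2)) ≤ 1 + t := (mul_le_of_le_one_right ht.le
          ((div_le_one (by positivity)).mpr (by nlinarith [sq_nonneg t]))).trans (by linarith)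
        have b4 := mul_le_mul_of_nonneg_left b1
          (by positivity : 0 ≤ t * (S ^ 2 / (S ^ 2 + t ^ 2)))
        have b5 := mul_le_mul_of_nonneg_right b3 b2
        rw [Pi.add_apply]
        linarith) ξ
    have h2 := (sum_le_sum fun u (_ : u ∈ N.ball o k) => (integral_add (p1 σ hσ u).1
      (env_integrableOn ε0.le C0)).le.trans ((add_le_add (p1 σ hσ u).2.2 hε).trans
        (by linarith [hd u]))).trans hs.le
    have h3 : Real.pi⁻¹ * γ ≤ γ / 2 := by
      rw [inv_mul_le_iff₀ Real.pi_pos]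
      nlinarith [Real.pi_gt_three]
    have h4 : (a + 2) ^ 2 / (2 * (a + 2) ^ 2 / γ) = γ / 2 := by field_simp
    rw [h4, div_mul_eq_mul_div, div_le_iff₀ l0] at h1
    refine h1.trans (le_trans (le_of_eq (by rw [mul_comm, mul_comm (∑ v ∈ _, _), ← mul_assoc]))
      (mul_le_mul_of_nonneg_right (mul_le_mul_of_nonneg_left (add_le_add_right ?_ a) l0.le)
        (by positivity)))
    exact (add_le_add_right ((mul_le_mul_of_nonneg_left h2 (by positivity)).trans h3) _).trans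
      (add_halves γ).le
  have k1 := key 1 abs_one fun u => by unfold dens2; linarith [q2 u]
  have k2 := key (-1) (by simp) fun u => by unfold dens2; linarith [q1 u]
  have him : (qform (pinch N π) (N.ball o k) ξ).im = 0 := by
    rw [← Complex.conj_eq_iff_im, qform, map_sum, sum_comm]
    refine sum_congr rfl fun v _ => ?_
    rw [map_sum]
    refine sum_congr rfl fun z _ => ?_
    rw [NetCAux.pinch_herm N π v z]
    simp only [map_mul, Complex.star_def, Complex.conj_conj]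
    ring
  rw [← Complex.abs_re_eq_norm.mpr him, abs_le]
  constructor <;> linarith

end Vale.Agent.P078
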