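import Vale.Agent.P078.Step
import Vale.Agent.P078.NetB
import Vale.Agent.P078.NetC

/-! Abstract local paving.  See PROOF.md, section ALP. -/

namespace Vale.Agent.P078

open Finset MeasureTheory
open scoped BigOperators

universe u

namespace ALPAux

/-- the first element after `g` satisfying `P` -/
noncomputable def pick {r : ℕ} (P : ZMod r → Prop) (g : ZMod r) : ZMod r :=
  g + ((sInf {k : ℕ | P (g + k)} : ℕ) : ZMod r)

lemma pick_spec {r : ℕ} [NeZero r] {P : ZMod r → Prop} (h : ∃ j, P j) (g : ZMod r) :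
    P (pick P g) := by
  obtain ⟨j, hj⟩ := h
  exact Nat.sInf_mem (s := {k : ℕ | P (g + k)}) ⟨(j - g).val, by simpa using hj⟩

lemma pick_shift {r : ℕ} {P P' : ZMod r → Prop} (g h : ZMod r) (e : ∀ j, P' (j + h) ↔ P j) :
    pick P' (g + h) = pick P g + h := by
  have : {k : ℕ | P' (g + h + k)} = {k : ℕ | P (g + k)} := by
    ext k
    simp only [Set.mem_ofPred_eq]
    rw [← e, add_right_comm]
  rw [pick, pick, this, add_right_comm]

variable {V : Type u} [DecidableEq V] {D : ℕ} {K : ℝ} {r : ℕ} [NeZero r]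

lemma dens2_congr (N : Net V D K) (ζ : ℂ) {π π' : V → St r} {W : Finset V} {u : V} (hu : u ∈ W)
    (h : ∀ v ∈ W, π v = π' v) : dens2 N ζ π W u = dens2 N ζ π' W u := by
  rw [dens2, dens2, dens_congr N 1 ζ hu h, dens_congr N (-1) ζ hu h]

lemma gain_congr (N : Net V D K) (ζ : ℂ) {π π' : V → St r} {W : Finset V} (o : V) (j : ZMod r)
    (h : ∀ v ∈ W, π v = π' v) : gain N ζ π W o j = gain N ζ π' W o j := by
  refine Finset.sum_congr rfl fun u hu => ?_
  rw [dens2_congr N ζ hu h, dens2_congr N ζ (π := Function.update π o (some j))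
    (π' := Function.update π' o (some j)) hu fun v hv => ?_]
  by_cases hv' : v = o
  · subst hv'; simp
  · simp [Function.update_of_ne hv', h v hv]

lemma gain_shift (N : Net V D K) (ζ : ℂ) (π : V → St r) (W : Finset V) (o : V) (j g : ZMod r) :
    gain N ζ (fun v => (π v).map (· + g)) W o (j + g) = gain N ζ π W o j := by
  have e : Function.update (fun v => (π v).map (· + g)) o (some (j + g)) =
      fun v => (Function.update π o (some j) v).map (· + g) := by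
    funext v
    by_cases hv : v = o
    · subst hv; simp
    · simp [Function.update_of_ne hv]
  refine Finset.sum_congr rfl fun u _ => ?_
  simp only [dens2, e, dens_shift]

variable {Ω : Type u} [TopologicalSpace Ω] [MeasurableSpace Ω]

lemma dens2_cont (hK : 1 ≤ K) (𝓜 : Model Ω V D K) {a η : ℝ} (ha : 0 < a) (hη : 0 < η)
    (hη1 : η ≤ 1) (π : V → St r) {W : Finset V} {u : V} (hu : u ∈ W) :
    Continuous fun s => dens2 (𝓜.net s) (a + η * Complex.I) π W u :=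
  (dens_continuous ha hη hη1 hK 𝓜.net 𝓜.x_cont 𝓜.w_cont (by simp) π hu).add
    (dens_continuous ha hη hη1 hK 𝓜.net 𝓜.x_cont 𝓜.w_cont (by simp) π hu)

lemma gain_cont (hK : 1 ≤ K) (𝓜 : Model Ω V D K) {a η : ℝ} (ha : 0 < a) (hη : 0 < η)
    (hη1 : η ≤ 1) (π : V → St r) (W : Finset V) (o : V) (j : ZMod r) :
    Continuous fun s => gain (𝓜.net s) (a + η * Complex.I) π W o j :=
  continuous_finsetSum _ fun _ hu => (𝓜.w_cont _).mul
    ((dens2_cont hK 𝓜 ha hη hη1 _ hu).sub (dens2_cont hK 𝓜 ha hη hη1 _ hu))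

omit [NeZero r] in
lemma patt_lc (𝓜 : Model Ω V D K) {β : Ω → St r} (hβ : IsLocallyConstant β) (v : V) :
    IsLocallyConstant fun s => 𝓜.patt β s v := hβ.comp_continuous (𝓜.pt_cont v)

lemma pot_cont (hK : 1 ≤ K) (𝓜 : Model Ω V D K) {a η : ℝ} (ha : 0 < a) (hη : 0 < η)
    (hη1 : η ≤ 1) {β : Ω → St r} (hβ : IsLocallyConstant β) (n : ℕ) :
    Continuous fun s => dens2 (𝓜.net s) (a + η * Complex.I) (𝓜.patt β s) (𝓜.B s n) 𝓜.o := by
  classical
  have := 𝓜.continuous_of_pattern n (𝓜.patt β) (patt_lc 𝓜 hβ)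
    (fun s p W => if 𝓜.o ∈ W then dens2 (𝓜.net s) (a + η * Complex.I) p W 𝓜.o else 0)
    (fun p W hW => by simpa only [if_pos hW] using dens2_cont hK 𝓜 ha hη hη1 p hW)
    (fun s p p' W h => by
      by_cases hW : 𝓜.o ∈ W
      · simp only [if_pos hW, dens2_congr _ _ hW h]
      · simp only [if_neg hW])
  refine this.congr fun s => ?_
  exact if_pos (Net.mem_ball_self _ _ _)

lemma sum_ball_cont (𝓜 : Model Ω V D K) (n : ℕ) {f : Ω → ℝ} (hf : Continuous f) :
    Continuous fun s => ∑ u ∈ 𝓜.B s n, f (𝓜.pt s u) :=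
  𝓜.continuous_of_pattern n (fun _ _ => ()) (fun _ => IsLocallyConstant.const _)
    (fun s _ W => ∑ u ∈ W, f (𝓜.pt s u))
    (fun _ _ _ => continuous_finsetSum _ fun u _ => hf.comp (𝓜.pt_cont u)) fun _ _ _ _ _ => rfl

lemma integ [CompactSpace Ω] [BorelSpace Ω] (𝓜 : Model Ω V D K) {f : Ω → ℝ} (hf : Continuous f) :
    Integrable f 𝓜.μ := by
  have := 𝓜.prob
  exact (BoundedContinuousFunction.mkOfCompact ⟨f, hf⟩).integrable 𝓜.μ

end ALPAux

open ALPAux

/-- An equivariant, locally constant, local choice of a good colour.  Take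
`ch β g s` = the `j` minimising `(j - g).val` among those with `Approx (gain · p W o j) s ≤ 2 e`,
where `p` is the pattern of `β` restricted to `W = B s n` and `Approx` is a fixed choice function
from `𝓜.approx`. -/
theorem exists_rule {Ω V : Type u} [TopologicalSpace Ω] [CompactSpace Ω] [MeasurableSpace Ω]
    [BorelSpace Ω] [DecidableEq V] {D : ℕ} {K : ℝ} (hK : 1 ≤ K) (𝓜 : Model Ω V D K) {r : ℕ}
    [NeZero r] {a η e : ℝ} (ha : 0 < a) (hη : 0 < η) (hη1 : η ≤ 1) (he : 0 < e) (n : ℕ)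
    (hgood : ∀ s (π : V → St r), π 𝓜.o = none →
      ∃ j, gain (𝓜.net s) (a + η * Complex.I) π (𝓜.B s n) 𝓜.o j ≤ e) :
    ∃ ch : (V → St r) → ZMod r → Ω → ZMod r,
      (∀ β : Ω → St r, IsLocallyConstant β → ∀ g,
        IsLocallyConstant fun s => ch (𝓜.patt β s) g s) ∧
      (∀ π π' g s, (∀ v ∈ 𝓜.B s n, π v = π' v) → ch π g s = ch π' g s) ∧
      (∀ π g h s, ch (fun v => (π v).map (· + h)) (g + h) s = ch π g s + h) ∧
      ∀ π g s, π 𝓜.o = none →
        gain (𝓜.net s) (a + η * Complex.I) π (𝓜.B s n) 𝓜.o (ch π g s) ≤ 3 * e := by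
  classical
  have hA : ∀ f : Ω → ℝ, ∃ g : Ω → ℝ, IsLocallyConstant g ∧
      (Continuous f → ∀ s, |f s - g s| ≤ e) := fun f => by
    by_cases hf : Continuous f
    · obtain ⟨g, h1, h2⟩ := 𝓜.approx f hf e he
      exact ⟨g, h1, fun _ => h2⟩
    · exact ⟨fun _ => 0, IsLocallyConstant.const _, fun h => absurd h hf⟩
  choose A hA1 hA2 using hA
  let P : Ω → (V → St r) → Finset V → ZMod r → Prop := fun s p W j =>
    A (fun s' => gain (𝓜.net s') (a + η * Complex.I) p W 𝓜.o j) s ≤ 2 * e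
  have hP : ∀ s p p' W, (∀ v ∈ W, p v = p' v) → P s p W = P s p' W := fun s p p' W h => by
    funext j
    simp only [P, gain_congr _ _ 𝓜.o j h]
  refine ⟨fun p g s => pick (P s p (𝓜.B s n)) g, fun β hβ g => ?_, fun π π' g s h => ?_,
    fun π g h s => pick_shift g h fun j => ?_, fun π g s ho => ?_⟩
  · refine (IsLocallyConstant.iff_continuous _).2 (𝓜.continuous_of_pattern n (𝓜.patt β)
      (patt_lc 𝓜 hβ) (fun s p W => pick (P s p W) g) (fun p W _ => ?_)
      fun s p p' W h => by rw [hP s p p' W h])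
    refine IsLocallyConstant.continuous ((IsLocallyConstant.iff_eventually_eq _).2 fun s => ?_)
    have := Filter.eventually_all.2 fun j : ZMod r => (hA1 fun s' =>
      gain (𝓜.net s') (a + η * Complex.I) p W 𝓜.o j).eventually_eq s
    filter_upwards [this] with s' hs'
    congr 1
    funext j
    simp only [P, hs' j]
  · show pick (P s π _) g = pick (P s π' _) g
    rw [hP s π π' _ h]
  · simp only [P, gain_shift]
  · obtain ⟨j, hj⟩ := hgood s π ho
    have h1 := fun j => abs_le.1 (hA2 _ (gain_cont hK 𝓜 ha hη hη1 π (𝓜.B s n) 𝓜.o j) s)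
    have h2 : P s π (𝓜.B s n) (pick (P s π (𝓜.B s n)) g) :=
      pick_spec ⟨j, by have := (h1 j).1; simp only [P]; linarith⟩ g
    have := (h1 (pick (P s π (𝓜.B s n)) g)).2
    simp only [P] at h2 ⊢
    linarith

namespace ALPAux

lemma expect_arrow_prod {J A B : Type*} [Fintype J] [DecidableEq J] [Fintype A] [Fintype B]
    (F : (J → A) → (J → B) → ℝ) :
    (𝔼 l : J → A × B, F (fun j => (l j).1) fun j => (l j).2) = 𝔼 a, 𝔼 b, F a b := by
  rw [← Finset.expect_product', Finset.univ_product_univ]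
  exact Fintype.expect_equiv (Equiv.arrowProdEquivProdArrow J (fun _ => A) fun _ => B) _ _
    fun l => rfl

lemma process (r M n m : ℕ) [NeZero r] :
    ∃ (Λ : Type) (_ : Fintype Λ) (_ : Nonempty Λ) (sh : ZMod r → Λ ≃ Λ),
      ∀ (Ω V : Type u) [TopologicalSpace Ω] [CompactSpace Ω] [MeasurableSpace Ω] [BorelSpace Ω]
        [DecidableEq V] (D : ℕ) (K : ℝ) (𝓜 : Model Ω V D K) (J : Type u) [Fintype J]
        [DecidableEq J] (e : Ω → J) (ζ : ℂ) (e₀ err : ℝ)
        (ch : (V → St r) → ZMod r → Ω → ZMod r), IsLocallyConstant e →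
        (∀ β : Ω → St r, IsLocallyConstant β → ∀ g,
          IsLocallyConstant fun s => ch (𝓜.patt β s) g s) →
        (∀ π π' g s, (∀ v ∈ 𝓜.B s n, π v = π' v) → ch π g s = ch π' g s) →
        (∀ π g h s, ch (fun v => (π v).map (· + h)) (g + h) s = ch π g s + h) →
        (∀ β : Ω → St r, IsLocallyConstant β →
          𝔼 l : J → Fin (M + 1) × ZMod r, 𝓜.Pot ζ n (upd e β (fun g s => ch (𝓜.patt β s) g s) l) ≤
            𝓜.Pot ζ n β + e₀ * 𝓜.Un β / (M + 1) + err) →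
        ∃ col : (J → Λ) → Ω → St r, (∀ l, IsLocallyConstant (col l)) ∧
          (∀ s l l', (∀ u ∈ 𝓜.B s (m * n), l (e (𝓜.pt s u)) = l' (e (𝓜.pt s u))) →
            col l s = col l' s) ∧
          (∀ h l s, col (fun j => sh h (l j)) s = (col l s).map (· + h)) ∧
          (𝔼 l : J → Λ, 𝓜.Un (col l)) = (1 - 1 / (M + 1 : ℝ)) ^ m ∧
          (𝔼 l : J → Λ, (𝓜.Pot ζ n (col l) + e₀ * 𝓜.Un (col l))) ≤
            𝓜.Pot ζ n (fun _ => (none : St r)) + e₀ + m * err := by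
  induction m with
  | zero =>
    refine ⟨Unit, inferInstance, inferInstance, fun _ => Equiv.refl _, ?_⟩
    intro Ω V _ _ _ _ _ D K 𝓜 J _ _ e ζ e₀ err ch _ _ _ _ _
    have := 𝓜.prob
    have hU : 𝓜.Un (fun _ => (none : St r)) = 1 := by simp [Model.Un]
    refine ⟨fun _ _ => none, fun _ => IsLocallyConstant.const _, fun _ _ _ _ => rfl,
      fun _ _ _ => rfl, ?_, ?_⟩
    · rw [Fintype.expect_const, hU, pow_zero]
    · rw [Fintype.expect_const, hU]
      simp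
  | succ m ih =>
    obtain ⟨Λ, _, _, sh, ih⟩ := ih
    refine ⟨Λ × (Fin (M + 1) × ZMod r), inferInstance, inferInstance,
      fun h => (sh h).prodCongr ((Equiv.refl _).prodCongr (Equiv.addRight h)), ?_⟩
    intro Ω V _ _ _ _ _ D K 𝓜 J _ _ e ζ e₀ err ch he c1 c2 c3 c4
    obtain ⟨col, k1, k2, k3, k4, k5⟩ := ih Ω V D K 𝓜 J e ζ e₀ err ch he c1 c2 c3 c4
    refine ⟨fun l => upd e (col fun j => (l j).1)
      (fun g s => ch (𝓜.patt (col fun j => (l j).1) s) g s) fun j => (l j).2,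
      fun l => upd_lc he (k1 _) (c1 _ (k1 _)) _, fun s l l' h => ?_, fun h l s => ?_, ?_, ?_⟩
    · have h0 : l (e s) = l' (e s) := by
        simpa only [𝓜.pt_root] using h 𝓜.o (Net.mem_ball_self _ _ _)
      have h1 : ∀ v ∈ 𝓜.B s n, 𝓜.patt (col fun j => (l j).1) s v =
          𝓜.patt (col fun j => (l' j).1) s v := fun v hv => by
        refine k2 _ _ _ fun u hu => ?_
        have h2 : 𝓜.Φ s v u ∈ (𝓜.net s).ball v (m * n) := by
          have := 𝓜.image_ball hv (m := 0) (v := 𝓜.o) (Net.mem_ball_self _ _ _) (m * n)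
          rw [𝓜.Φ_root s n v hv] at this
          rw [← this]
          exact Finset.mem_image_of_mem _ hu
        have h3 : 𝓜.Φ s v u ∈ 𝓜.B s ((m + 1) * n) := by
          rw [add_mul, one_mul, add_comm]
          exact Net.ball_trans _ hv h2
        rw [← 𝓜.Φ_pt s n v hv _ u hu, h _ h3]
      have h2 : col (fun j => (l j).1) s = col (fun j => (l' j).1) s := by
        simpa only [Model.patt, 𝓜.pt_root] using h1 𝓜.o (Net.mem_ball_self _ _ _)
      simp only [upd, h0, h2, c2 _ _ _ s h1]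
    · have h1 : (col fun j => sh h (l j).1) = fun s => (col (fun j => (l j).1) s).map (· + h) :=
        funext fun s => k3 h (fun j => (l j).1) s
      show upd e (col fun j => sh h (l j).1)
        (fun g s => ch (𝓜.patt (col fun j => sh h (l j).1) s) g s)
        (fun j => ((l j).2.1, (l j).2.2 + h)) s = _
      rw [h1]
      have h2 := c3 (𝓜.patt (col fun j => (l j).1) s) (l (e s)).2.2 h s
      by_cases hc : (l (e s)).2.1 = 0 ∧ col (fun j => (l j).1) s = none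
      · simp only [upd, hc, Option.map_none, and_self, if_true, Option.map_some]
        exact congrArg some h2
      · have hc' : ¬ ((l (e s)).2.1 = 0 ∧ (col (fun j => (l j).1) s).map (· + h) = none) := by
          rwa [Option.map_eq_none_iff]
        simp only [upd, if_neg hc, if_neg hc']
    · rw [expect_arrow_prod fun a b =>
        𝓜.Un (upd e (col a) (fun g s => ch (𝓜.patt (col a) s) g s) b)]
      simp only [step_un 𝓜 he (k1 _)]
      rw [← Finset.mul_expect, k4, pow_succ']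
    · rw [expect_arrow_prod fun a b =>
        𝓜.Pot ζ n (upd e (col a) (fun g s => ch (𝓜.patt (col a) s) g s) b) +
          e₀ * 𝓜.Un (upd e (col a) (fun g s => ch (𝓜.patt (col a) s) g s) b)]
      refine (Finset.expect_le_expect (g := fun a => 𝓜.Pot ζ n (col a) + e₀ * 𝓜.Un (col a) + err)
        fun a _ => ?_).trans ?_
      · rw [Finset.expect_add_distrib, ← Finset.mul_expect, step_un 𝓜 he (k1 _)]
        have := c4 _ (k1 a)
        have e1 : e₀ * ((1 - 1 / (M + 1 : ℝ)) * 𝓜.Un (col a)) =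
            e₀ * 𝓜.Un (col a) - e₀ * 𝓜.Un (col a) / (M + 1) := by ring
        linarith
      · rw [Finset.expect_add_distrib, Fintype.expect_const]
        push_cast
        linarith

lemma expect_col_le {J Λ : Type*} [Fintype J] [DecidableEq J] [Fintype Λ] [Nonempty Λ] {r : ℕ}
    [NeZero r] (sh : ZMod r → Λ ≃ Λ) (c : (J → Λ) → St r)
    (h : ∀ g l, c (fun j => sh g (l j)) = (c l).map (· + g)) (i : ZMod r) :
    (𝔼 l : J → Λ, if c l = some i then (1 : ℝ) else 0) ≤ 1 / r := by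
  have h1 : ∀ g : ZMod r, (𝔼 l : J → Λ, if (c l).map (· + g) = some i then (1 : ℝ) else 0) =
      𝔼 l : J → Λ, if c l = some i then (1 : ℝ) else 0 := fun g =>
    Fintype.expect_equiv (Equiv.piCongrRight fun _ => sh g) _ _ fun l => by
      rw [← h g l]
      rfl
  have hr : (0 : ℝ) < r := by exact_mod_cast Nat.pos_of_ne_zero (NeZero.ne r)
  rw [le_div_iff₀ hr]
  have h2 : ∑ g : ZMod r, (𝔼 l : J → Λ, if (c l).map (· + g) = some i then (1 : ℝ) else 0) ≤ 1 := by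
    rw [← Finset.expect_sum_comm]
    refine Finset.expect_le Finset.univ_nonempty fun l _ => ?_
    cases c l with
    | none => simp
    | some x =>
      have : ∀ g : ZMod r, (x + g = i) = (g = i - x) := fun g => by
        rw [eq_sub_iff_add_eq']
      simp [this]
  simp only [h1, Finset.sum_const, Finset.card_univ, ZMod.card, nsmul_eq_mul] at h2
  linarith

lemma walk_int {Ω V : Type u} [TopologicalSpace Ω] [CompactSpace Ω] [MeasurableSpace Ω]
    [BorelSpace Ω] [DecidableEq V] {D : ℕ} {K : ℝ} (hK : 1 ≤ K) (𝓜 : Model Ω V D K) {r : ℕ}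
    [NeZero r] {a η e γ b : ℝ} (ha : 0 < a) (hη : 0 < η) (hη1 : η ≤ 1) (hγ : 0 < γ) (hb : 0 ≤ b)
    {k n n' : ℕ} (hfin : ∀ (N : Net V D K) (π : V → St r) (o : V),
      (∀ u, 0 ≤ dens2 N (a + η * Complex.I) π (N.ball u n) u + e) ∧
      ((∀ v ∈ N.ball o n', π v ≠ none) →
        ∑ u ∈ N.ball o k, (dens2 N (a + η * Complex.I) π (N.ball u n) u + e) < γ →
        ‖walk N π o (2 * k) o‖ ≤ b)) {β : Ω → St r} (hβ : IsLocallyConstant β) :
    ∫ s, ‖walk (𝓜.net s) (𝓜.patt β s) 𝓜.o (2 * k) 𝓜.o‖ ∂𝓜.μ ≤ b +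
      γ⁻¹ * (((D + 1) * K) ^ k * (𝓜.Pot (a + η * Complex.I) n β + e)) +
        ((D + 1) * K) ^ n' * 𝓜.Un β := by
  classical
  have := 𝓜.prob
  let f : Ω → ℝ := fun s =>
    dens2 (𝓜.net s) (a + η * Complex.I) (𝓜.patt β s) (𝓜.B s n) 𝓜.o + e
  let g : Ω → ℝ := fun s => if β s = none then 1 else 0
  have hf : Continuous f := (pot_cont hK 𝓜 ha hη hη1 hβ n).add continuous_const
  have hg : Continuous g := (hβ.comp fun c => if c = none then (1 : ℝ) else 0).continuous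
  have f0 : ∀ s, 0 ≤ f s := fun s => (hfin _ _ 𝓜.o).1 _
  have g0 : ∀ s, 0 ≤ g s := fun s => by
    simp only [g]
    split_ifs <;> norm_num
  have hfe : ∀ s, ∀ u ∈ 𝓜.B s k, f (𝓜.pt s u) =
      dens2 (𝓜.net s) (a + η * Complex.I) (𝓜.patt β s) ((𝓜.net s).ball u n) u + e := by
    intro s u hu
    rw [← 𝓜.dens2_root _ hu]
    refine congrArg (· + e) (dens2_congr _ _ (Net.mem_ball_self _ _ _) fun v hv => ?_)
    simp only [Model.patt]
    rw [𝓜.Φ_pt s k u hu n v hv]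
  have hpt : ∀ s, ‖walk (𝓜.net s) (𝓜.patt β s) 𝓜.o (2 * k) 𝓜.o‖ ≤
      b + γ⁻¹ * ∑ u ∈ 𝓜.B s k, f (𝓜.pt s u) + ∑ u ∈ 𝓜.B s n', g (𝓜.pt s u) := by
    intro s
    have s1 : 0 ≤ ∑ u ∈ 𝓜.B s k, f (𝓜.pt s u) := Finset.sum_nonneg fun u _ => f0 _
    have s1' : 0 ≤ γ⁻¹ * ∑ u ∈ 𝓜.B s k, f (𝓜.pt s u) := by positivity
    have s2 : 0 ≤ ∑ u ∈ 𝓜.B s n', g (𝓜.pt s u) := Finset.sum_nonneg fun u _ => g0 _
    have w1 : ‖walk (𝓜.net s) (𝓜.patt β s) 𝓜.o (2 * k) 𝓜.o‖ ≤ 1 := by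
      simpa using walk_le (𝓜.net s) (𝓜.patt β s) 𝓜.o k zero_le_one fun ξ => by
        simpa using pinch_contr (𝓜.net s) (𝓜.patt β s) _ ξ
    by_cases c1 : ∀ v ∈ 𝓜.B s n', 𝓜.patt β s v ≠ none
    · by_cases c2 : ∑ u ∈ 𝓜.B s k, f (𝓜.pt s u) < γ
      · have := (hfin (𝓜.net s) (𝓜.patt β s) 𝓜.o).2 c1
          (by rwa [Finset.sum_congr rfl (hfe s)] at c2)
        linarith
      · have : 1 ≤ γ⁻¹ * ∑ u ∈ 𝓜.B s k, f (𝓜.pt s u) := by
          rw [le_inv_mul_iff₀ hγ]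
          linarith
        linarith
    · push Not at c1
      obtain ⟨v, hv, hv'⟩ := c1
      have : g (𝓜.pt s v) ≤ ∑ u ∈ 𝓜.B s n', g (𝓜.pt s u) :=
        Finset.single_le_sum (f := fun u => g (𝓜.pt s u)) (fun u _ => g0 _) hv
      have e1 : g (𝓜.pt s v) = 1 := if_pos hv'
      linarith
  have i1 := integ 𝓜 (sum_ball_cont 𝓜 k hf)
  have i2 := integ 𝓜 (sum_ball_cont 𝓜 n' hg)
  have i3 : Integrable (fun s => b + γ⁻¹ * ∑ u ∈ 𝓜.B s k, f (𝓜.pt s u)) 𝓜.μ :=
    (integrable_const b).add (i1.const_mul _)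
  refine (integral_mono_of_nonneg (Filter.Eventually.of_forall fun s => norm_nonneg _)
    (i3.add i2) (Filter.Eventually.of_forall hpt)).trans ?_
  have e1 : ∫ s, f s ∂𝓜.μ = 𝓜.Pot (a + η * Complex.I) n β + e := by
    rw [integral_add (integ 𝓜 (pot_cont hK 𝓜 ha hη hη1 hβ n)) (integrable_const e)]
    simp [Model.Pot]
  have e2 : ∫ s, g s ∂𝓜.μ = 𝓜.Un β := by
    have hm : MeasurableSet {s | β s = none} := (hβ.isClopen_fiber none).isOpen.measurableSet
    rw [Model.Un, ← integral_indicator_one hm]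
    refine integral_congr_ae (Filter.Eventually.of_forall fun s => ?_)
    simp [g, Set.indicator_apply]
  have b1 := 𝓜.integral_sum_ball_le hK k hf f0
  have b2 := 𝓜.integral_sum_ball_le hK n' hg g0
  rw [e1] at b1
  rw [e2] at b2
  simp only [Pi.add_apply]
  rw [integral_add i3 i2, integral_add (integrable_const b) (i1.const_mul _), integral_const_mul]
  have := mul_le_mul_of_nonneg_left b1 (inv_nonneg.2 hγ.le)
  simp only [integral_const, probReal_univ, smul_eq_mul, one_mul]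
  linarith

lemma theta_le (r : ℕ) [NeZero r] : 0 < theta (r + 1) ∧ theta (r + 1) ≤ 3 / √r := by
  have hr : (1 : ℝ) ≤ r := by exact_mod_cast Nat.pos_of_ne_zero (NeZero.ne r)
  have h0 : 0 < √(r : ℝ) := Real.sqrt_pos.2 (by linarith)
  have h1 : √(r : ℝ) ≤ √((r + 1 : ℕ) : ℝ) := Real.sqrt_le_sqrt (by push_cast; linarith)
  have h2 : √(r : ℝ) ≤ ((r + 1 : ℕ) : ℝ) := by
    rw [Real.sqrt_le_left (by positivity)]
    push_cast
    nlinarith
  refine ⟨by unfold theta; positivity, ?_⟩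
  have h3 : 2 / √((r + 1 : ℕ) : ℝ) ≤ 2 / √(r : ℝ) := by gcongr
  have h4 : 1 / ((r + 1 : ℕ) : ℝ) ≤ 1 / √(r : ℝ) := by gcongr
  have h5 : 3 / √(r : ℝ) = 2 / √(r : ℝ) + 1 / √(r : ℝ) := by ring
  unfold theta
  linarith

lemma decay (M T : ℕ) : (1 - 1 / (M + 1 : ℝ)) ^ (T * (M + 1)) ≤ 1 / (T + 1) := by
  have h0 : (0 : ℝ) < M + 1 := by positivity
  have h1 : 1 - 1 / (M + 1 : ℝ) ≤ Real.exp (-(1 / (M + 1 : ℝ))) := by
    have := Real.add_one_le_exp (-(1 / (M + 1 : ℝ)))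
    linarith
  have h2 : 0 ≤ 1 - 1 / (M + 1 : ℝ) := by
    rw [sub_nonneg, div_le_one h0]
    linarith [Nat.cast_nonneg (α := ℝ) M]
  refine (pow_le_pow_left₀ h2 h1 _).trans ?_
  rw [← Real.exp_nat_mul]
  have h3 : ((T * (M + 1) : ℕ) : ℝ) * -(1 / (M + 1 : ℝ)) = -T := by
    push_cast
    field_simp
  rw [h3, Real.exp_neg, one_div]
  exact inv_anti₀ (by positivity) (Real.add_one_le_exp _)

end ALPAux

theorem alp : ∃ C₀ > 0, ∀ (D : ℕ) (K : ℝ), 1 ≤ K → ∀ (r : ℕ) [NeZero r] (k : ℕ) (δ : ℝ), 0 < δ →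
    ∃ (Λ : Type) (_ : Fintype Λ) (_ : Nonempty Λ) (n R : ℕ) (δ' : ℝ), 0 < δ' ∧
      ∀ (Ω V : Type u) [TopologicalSpace Ω] [CompactSpace Ω] [MeasurableSpace Ω] [BorelSpace Ω]
        [DecidableEq V] (𝓜 : Model Ω V D K) (J : Type u) [Fintype J] [DecidableEq J] (e : Ω → J),
        IsLocallyConstant e → 𝓜.μ.real (𝓜.Bad e n) ≤ δ' →
        ∃ col : (J → Λ) → Ω → St r, (∀ l, IsLocallyConstant (col l)) ∧
          (∀ s l l', (∀ u ∈ 𝓜.B s R, l (e (𝓜.pt s u)) = l' (e (𝓜.pt s u))) →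
            col l s = col l' s) ∧
          (∀ s i, (𝔼 l : J → Λ, if col l s = some i then (1 : ℝ) else 0) ≤ 1 / r) ∧
          (𝔼 l : J → Λ, 𝓜.Un (col l)) ≤ δ ∧
          (𝔼 l : J → Λ, ∫ s, ‖walk (𝓜.net s) (𝓜.patt (col l) s) 𝓜.o (2 * k) 𝓜.o‖ ∂𝓜.μ) ≤
            (C₀ / √r) ^ (2 * k) + δ := by
  have hlam : 0 < lam := by unfold lam; norm_num
  refine ⟨9 * lam, by positivity, fun D K hK r _ k δ hδ => ?_⟩
  obtain ⟨th0, th1⟩ := theta_le r
  have ha : 0 < 2 * theta (r + 1) := by positivity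
  have hV : ∀ k : ℕ, (1 : ℝ) ≤ ((D + 1) * K) ^ k := fun k =>
    one_le_pow₀ (by nlinarith [Nat.cast_nonneg (α := ℝ) D])
  obtain ⟨e, he, hee⟩ : ∃ e : ℝ, 0 < e ∧
      (theta (r + 1))⁻¹ * (((D + 1) * K) ^ k * (9 * e)) = δ / 2 := by
    have := hV k
    refine ⟨δ / 2 * theta (r + 1) / (9 * ((D + 1) * K) ^ k), by positivity, ?_⟩
    field_simp
  obtain ⟨η₁, hη₁, hgood⟩ := exists_good.{u} ha he D hK
  obtain ⟨η₂, hη₂, hinit⟩ := dens_init.{u} he D hK r
  obtain ⟨η₃, hη₃, hfin⟩ := final_bound.{u} ha th0 he D hK k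
  obtain ⟨η, hη, hη1, k1, k2, k3⟩ : ∃ η : ℝ, 0 < η ∧ η ≤ 1 ∧ η ≤ η₁ ∧ η ≤ η₂ ∧ η ≤ η₃ :=
    ⟨min (min 1 η₁) (min η₂ η₃), by positivity, by simp, by simp, by simp, by simp⟩
  obtain ⟨n', hfin⟩ := hfin η hη k3
  obtain ⟨T, hT⟩ := exists_nat_gt (2 * ((D + 1) * K) ^ n' / δ)
  have hT0 : (0 : ℝ) < T := lt_trans (by have := hV n'; positivity) hT
  have hT1 : ((D + 1) * K) ^ n' * (1 / (T + 1 : ℝ)) ≤ δ / 2 := by
    rw [div_lt_iff₀ hδ] at hT
    rw [mul_one_div, div_le_iff₀ (by positivity)]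
    nlinarith
  obtain ⟨n₀, hstep⟩ := step_pot.{u} ha hη hη1 (div_pos he hT0) D hK r
  obtain ⟨C, hC, hstep⟩ := hstep (max n₀ n') (le_max_left _ _)
  obtain ⟨M, hM⟩ := exists_nat_gt (T * C / e)
  have hM0 : (0 : ℝ) < M + 1 := by positivity
  obtain ⟨Λ, _, _, sh, hproc⟩ := process.{u} r M (max n₀ n') (T * (M + 1))
  refine ⟨Λ, inferInstance, inferInstance, max n₀ n', T * (M + 1) * max n₀ n',
    e / (T * (M + 1) * (C + 1)), by positivity, ?_⟩
  intro Ω V _ _ _ _ _ 𝓜 J _ _ lab hlab hbad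
  have := 𝓜.prob
  obtain ⟨ch, c1, c2, c3, c4⟩ := exists_rule hK 𝓜 ha hη hη1 he (max n₀ n') fun s π ho =>
    hgood η hη k1 r V _ π _ _ (Net.mem_ball_self _ _ _) (𝓜.w_root s) ho
  obtain ⟨col, p1, p2, p3, p4, p5⟩ := hproc Ω V D K 𝓜 J lab _ (3 * e)
    (e / T / (M + 1) + C / (M + 1) ^ 2 + C * 𝓜.μ.real (𝓜.Bad lab (max n₀ n'))) ch hlab c1 c2 c3
    fun β hβ => (hstep Ω V 𝓜 M J lab β _ (3 * e) (by positivity) hlab hβ (c1 β hβ)
      fun g s hs => c4 _ g s (by simpa only [Model.patt, 𝓜.pt_root] using hs)).trans_eq (by ring)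
  have q4 : (𝔼 l : J → Λ, 𝓜.Un (col l)) ≤ 1 / (T + 1) := p4.trans_le (decay M T)
  have hP0 : 𝓜.Pot ((2 * theta (r + 1) : ℝ) + η * Complex.I) (max n₀ n')
      (fun _ => (none : St r)) ≤ 2 * e := by
    refine (integral_mono (integ 𝓜 (pot_cont hK 𝓜 ha hη hη1 (IsLocallyConstant.const _) _))
      (integrable_const (2 * e)) fun s => ?_).trans_eq (by simp)
    have h1 := hinit η hη k2 V (𝓜.net s) 1 (𝓜.B s (max n₀ n')) 𝓜.o (by simp)
      (Net.mem_ball_self _ _ _)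
    have h2 := hinit η hη k2 V (𝓜.net s) (-1) (𝓜.B s (max n₀ n')) 𝓜.o (by simp)
      (Net.mem_ball_self _ _ _)
    exact (add_le_add h1 h2).trans_eq (by ring)
  have herr : ((T * (M + 1) : ℕ) : ℝ) * (e / T / (M + 1) + C / (M + 1) ^ 2 +
      C * 𝓜.μ.real (𝓜.Bad lab (max n₀ n'))) ≤ 3 * e := by
    have e1 : (T * (M + 1) : ℝ) * (e / T / (M + 1)) = e := by field_simp
    have e2 : (T * (M + 1) : ℝ) * (C / (M + 1) ^ 2) ≤ e := by
      rw [div_lt_iff₀ he] at hM
      rw [show (T * (M + 1) : ℝ) * (C / (M + 1) ^ 2) = T * C / (M + 1) by field_simp,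
        div_le_iff₀ hM0]
      nlinarith
    have e3 : (T * (M + 1) : ℝ) * (C * 𝓜.μ.real (𝓜.Bad lab (max n₀ n'))) ≤ e := by
      rw [le_div_iff₀ (by positivity)] at hbad
      have : 0 ≤ (T * (M + 1) : ℝ) * 𝓜.μ.real (𝓜.Bad lab (max n₀ n')) := by positivity
      nlinarith
    push_cast
    rw [mul_add, mul_add]
    linarith
  have q5 : (𝔼 l : J → Λ, 𝓜.Pot ((2 * theta (r + 1) : ℝ) + η * Complex.I) (max n₀ n') (col l)) ≤
      8 * e := by
    refine (Finset.expect_le_expect fun l _ => ?_).trans (p5.trans (by linarith))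
    have : 0 ≤ 𝓜.Un (col l) := measureReal_nonneg
    nlinarith
  refine ⟨col, p1, p2, fun s i => expect_col_le sh (fun l => col l s) (fun g l => p3 g l s) i,
    q4.trans ?_, ?_⟩
  · have := hV n'
    have : (0 : ℝ) < 1 / (T + 1) := by positivity
    nlinarith
  · refine (Finset.expect_le_expect fun l _ => walk_int hK 𝓜 ha hη hη1 th0 (by positivity)
      (hfin _ (le_max_right n₀ _) r V) (p1 l)).trans ?_
    rw [Finset.expect_add_distrib, Finset.expect_add_distrib, Fintype.expect_const,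
      ← Finset.mul_expect, ← Finset.mul_expect, ← Finset.mul_expect, Finset.expect_add_distrib,
      Fintype.expect_const]
    have b1 : (lam * (2 * theta (r + 1) + theta (r + 1))) ^ (2 * k) ≤ (9 * lam / √r) ^ (2 * k) := by
      refine pow_le_pow_left₀ (by positivity) ?_ _
      have : 9 * lam / √r = lam * (3 * (3 / √r)) := by ring
      rw [this]
      exact mul_le_mul_of_nonneg_left (by linarith) hlam.le
    have b2 : (theta (r + 1))⁻¹ * (((D + 1) * K) ^ k * ((𝔼 l : J → Λ,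
        𝓜.Pot ((2 * theta (r + 1) : ℝ) + η * Complex.I) (max n₀ n') (col l)) + e)) ≤ δ / 2 := by
      rw [← hee]
      have := hV k
      gcongr
      linarith
    have b3 : ((D + 1) * K) ^ n' * (𝔼 l : J → Λ, 𝓜.Un (col l)) ≤ δ / 2 :=
      (mul_le_mul_of_nonneg_left q4 (by have := hV n'; positivity)).trans hT1
    linarith

end Vale.Agent.P078
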