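import Vale.Agent.P078.Cone

/-! Helper lemmas for the barrier argument. -/

namespace Vale.Agent.P078
namespace BarrierAux

open Finset
open scoped ComplexOrder

variable {V ι : Type*} [DecidableEq V] [Fintype ι] [DecidableEq ι]

/-- remove `v` from copy `i` -/
def era (R : ι → Finset V) (v : V) (i : ι) : ι → Finset V :=
  Function.update R i ((R i).erase v)

omit [Fintype ι] in
lemma ins_era {R : ι → Finset V} {v : V} {i : ι} (h : v ∈ R i) : ins (era R v i) v i = R := by
  funext j
  by_cases hj : j = i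
  · subst hj; simp [ins, era, insert_erase h]
  · simp [ins, era, Function.update_of_ne hj]

omit [Fintype ι] in
lemma era_subset (R : ι → Finset V) (v : V) (i j : ι) : era R v i j ⊆ R j := by
  by_cases hj : j = i
  · subst hj; simp [era, erase_subset]
  · simp [era, Function.update_of_ne hj]

omit [Fintype ι] in
lemma notMem_era (R : ι → Finset V) (v : V) (i : ι) : v ∉ era R v i i := by
  simp [era]

lemma feas_congr {β : V → ι → ℂ} {X X' : ι → V → V → ℂ} {W : Finset V} {R : ι → Finset V}
    (hX : ∀ i, ∀ a ∈ W ∪ R i, ∀ b ∈ W ∪ R i, X i a b = X' i a b) (h : Feas β X W R) :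
    Feas β X' W R := by
  intro t ht
  have := h t ht
  rwa [Q_congr (β' := β) (X' := shiftD X' fun _ => (t : ℂ)) (fun _ _ => rfl)
    (fun i a ha b hb => by simp only [shiftD, hX i a ha b hb])] at this

lemma feas_pos {β : V → ι → ℂ} {X : ι → V → V → ℂ} {W : Finset V} {R : ι → Finset V}
    (h : Feas β X W R) : 0 < Q β X W R := by
  have := h 0 le_rfl
  have e : (shiftD X fun _ => ((0 : ℝ) : ℂ)) = X := by
    funext i a b; simp [shiftD]
  rwa [e] at this

omit [DecidableEq V] [DecidableEq ι] in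
lemma posW_one [Nonempty ι] (W : Finset V) : PosW (fun (_ : V) (_ : ι) => (1 : ℂ)) W := by
  intro v _
  refine ⟨fun _ => zero_le_one, ?_⟩
  simp only [bsum, sum_const, card_univ, nsmul_eq_mul, mul_one]
  exact_mod_cast Fintype.card_pos

omit [Fintype ι] [DecidableEq ι] in
lemma herm_dm {Y : ι → V → V → ℂ} (hY : Herm Y) (d : V → ℝ) :
    Herm (dm (fun a => (d a : ℂ)) Y) := by
  intro i a b
  simp only [dm, hY i a b, star_sub]
  by_cases h : a = b
  · subst h; simp
  · simp [h, Ne.symm h]

omit [Fintype ι] in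
lemma herm_addDiag {X : ι → V → V → ℂ} (hX : Herm X) (i : ι) (u : V) (τ : ℝ) :
    Herm (addDiag X i u (τ : ℂ)) := by
  intro j a b
  by_cases hj : j = i
  · subst hj
    simp only [addDiag, Function.update_self, hX j a b, star_add]
    by_cases h : a = u ∧ b = u
    · simp [h]
    · have h' : ¬ (b = u ∧ a = u) := fun h' => h ⟨h'.2, h'.1⟩
      simp [h, h']
  · simp only [addDiag, Function.update_of_ne hj, hX j a b]

omit [Fintype ι] in
lemma addDiag_of_ne (X : ι → V → V → ℂ) {i j : ι} {u a b : V} (τ : ℂ)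
    (h : ¬ (j = i ∧ a = u ∧ b = u)) : addDiag X i u τ j a b = X j a b := by
  by_cases hj : j = i
  · subst hj
    have : ¬ (a = u ∧ b = u) := fun h' => h ⟨rfl, h'⟩
    simp [addDiag, this]
  · simp [addDiag, Function.update_of_ne hj]

/-- monotonicity in the family `R` -/
lemma mono_sub [Nonempty ι] {β : V → ι → ℂ} {X : ι → V → V → ℂ} {W : Finset V}
    (hβ : PosW β W) (hX : Herm X) {R₁ : ι → Finset V} :
    ∀ (n : ℕ) (R₂ : ι → Finset V), ∑ j, (R₂ j).card = n → (∀ j, R₁ j ⊆ R₂ j) →
      (∀ j, Disjoint W (R₂ j)) → Feas β X W R₂ →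
      Feas β X W R₁ ∧ ∀ v i, v ∉ W → v ∉ R₂ i →
        (se β X W R₁ v i).re ≤ (se β X W R₂ v i).re := by
  intro n
  induction n using Nat.strong_induction_on with
  | _ n ih =>
    intro R₂ hn hsub hd hF
    by_cases hall : ∀ j, R₂ j ⊆ R₁ j
    · have : R₁ = R₂ := funext fun j => Subset.antisymm (hsub j) (hall j)
      subst this
      exact ⟨hF, fun _ _ _ _ => le_rfl⟩
    · push Not at hall
      obtain ⟨j, hj⟩ := hall
      obtain ⟨u, hu2, hu1⟩ := not_subset.mp hj
      have hd' : ∀ l, Disjoint W (era R₂ u j l) := fun l =>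
        (hd l).mono_right (era_subset R₂ u j l)
      have huW : u ∉ W := fun h => disjoint_left.mp (hd j) h hu2
      have hF' : Feas β X W (ins (era R₂ u j) u j) := by rwa [ins_era hu2]
      have hF3 := ((feas_ins_iff hβ hX hd' huW (notMem_era R₂ u j)).mp hF').1
      have hlt : ∑ l, (era R₂ u j l).card < n := by
        rw [← hn]
        refine sum_lt_sum (fun l _ => card_le_card (era_subset R₂ u j l)) ⟨j, mem_univ _, ?_⟩
        simp only [era, Function.update_self]
        exact card_erase_lt_of_mem hu2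
      have hsub' : ∀ l, R₁ l ⊆ era R₂ u j l := by
        intro l
        by_cases hl : l = j
        · subst hl
          simp only [era, Function.update_self]
          exact subset_erase.mpr ⟨hsub l, hu1⟩
        · simp only [era, Function.update_of_ne hl]; exact hsub l
      obtain ⟨h1, h2⟩ := ih _ hlt (era R₂ u j) rfl hsub' hd' hF3
      refine ⟨h1, fun v i hvW hvR => ?_⟩
      have h3 := h2 v i hvW (fun h => hvR (era_subset R₂ u j i h))
      have h4 := se_mono_ins (v := v) (i := i) hβ hX hd' hvW (by rwa [ins_era hu2]) huW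
        (notMem_era R₂ u j) hF'
      rw [ins_era hu2] at h4
      exact h3.trans h4

lemma feas_sub [Nonempty ι] {β : V → ι → ℂ} {X : ι → V → V → ℂ} {W : Finset V}
    (hβ : PosW β W) (hX : Herm X) {R₁ R₂ : ι → Finset V} (hs : ∀ j, R₁ j ⊆ R₂ j)
    (hd : ∀ j, Disjoint W (R₂ j)) (h : Feas β X W R₂) : Feas β X W R₁ :=
  (mono_sub hβ hX _ R₂ rfl hs hd h).1

lemma se_sub [Nonempty ι] {β : V → ι → ℂ} {X : ι → V → V → ℂ} {W : Finset V}
    (hβ : PosW β W) (hX : Herm X) {R₁ R₂ : ι → Finset V} (hs : ∀ j, R₁ j ⊆ R₂ j)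
    (hd : ∀ j, Disjoint W (R₂ j)) (h : Feas β X W R₂) {v : V} {i : ι} (hvW : v ∉ W)
    (hvR : v ∉ R₂ i) : (se β X W R₁ v i).re ≤ (se β X W R₂ v i).re :=
  (mono_sub hβ hX _ R₂ rfl hs hd h).2 v i hvW hvR

/-- simultaneous rank one update -/
noncomputable def rkAll (X : ι → V → V → ℂ) (v : V) (s : ℂ) : ι → V → V → ℂ :=
  fun i a b => X i a b - s * (X i a v * X i v b)

omit [DecidableEq V] [Fintype ι] [DecidableEq ι] in
lemma herm_rkAll {X : ι → V → V → ℂ} (hX : Herm X) (v : V) (s : ℝ) :
    Herm (rkAll X v (s : ℂ)) := by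
  intro i a b
  simp only [rkAll, hX i a b, hX i v b, hX i a v, star_sub, star_mul, Complex.star_def,
    Complex.conj_ofReal]
  ring

/-- Schur reduction in every copy -/
lemma feas_rkAll [Nonempty ι] {β : V → ι → ℂ} {X : ι → V → V → ℂ} {W U : Finset V} {v : V}
    (hβ : PosW β W) (hX : Herm X) (hd : Disjoint W U) (hv : v ∈ U) {z : ℝ}
    (hz : ∀ j, X j v v = z) (h : Feas β X W fun _ => U) :
    Feas β (rkAll X v ((z⁻¹ : ℝ) : ℂ)) W fun _ => U.erase v := by
  have hvW : v ∉ W := fun h => disjoint_left.mp hd h hv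
  have key : ∀ S : Finset ι, Feas β (fun j => if j ∈ S then rkAll X v ((z⁻¹ : ℝ) : ℂ) j else X j) W
      fun j => if j ∈ S then U.erase v else U := by
    intro S
    induction S using Finset.induction_on with
    | empty => simpa using h
    | insert i S hi ih =>
      set XS : ι → V → V → ℂ :=
        fun j => if j ∈ S then rkAll X v ((z⁻¹ : ℝ) : ℂ) j else X j with hXS
      set RS : ι → Finset V := fun j => if j ∈ S then U.erase v else U with hRS
      have hH : Herm XS := by
        intro j a b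
        by_cases hj : j ∈ S
        · simp only [hXS, hj, if_true]; exact herm_rkAll hX v _ j a b
        · simp only [hXS, hj, if_false]; exact hX j a b
      have hRi : RS i = U := by simp [hRS, hi]
      have hXi : XS i = X i := by simp [hXS, hi]
      have hvi : v ∈ RS i := by rwa [hRi]
      have hd' : ∀ l, Disjoint W (era RS v i l) := by
        intro l
        refine hd.mono_right ((era_subset RS v i l).trans ?_)
        simp only [hRS]
        split_ifs
        · exact erase_subset _ _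
        · exact subset_rfl
      have h1 := (Feas.schur hβ hH hd' hvW (notMem_era RS v i) (by rwa [ins_era hvi])).2
      convert h1 using 1
      · funext j
        by_cases hj : j = i
        · subst hj
          simp only [mem_insert, true_or, if_true, rk1, Function.update_self, hXi, hz]
          funext a b
          simp [rkAll]
        · simp [rk1, hXS, hj]
      · funext j
        by_cases hj : j = i
        · subst hj; simp [era, hRi]
        · simp [era, hRS, hj]
  simpa using key univ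

/-- the key derivative inequality -/
lemma sum_se_lt [Nonempty ι] {β : V → ι → ℂ} {X : ι → V → V → ℂ} {W : Finset V}
    {R : ι → Finset V} {u v : V} {i : ι} (hβ : PosW β W) (hX : Herm X)
    (hd : ∀ j, Disjoint W (R j)) (huW : u ∉ W) (huR : u ∉ R i) (hvW : v ∉ W)
    (hvR : ∀ j, v ∉ ins R u i j) {z : ℝ} (hz : 0 < z)
    (h0 : Feas β X W (ins R u i)) (h1 : Feas β (rkAll X v ((z⁻¹ : ℝ) : ℂ)) W (ins R u i)) :
    ∑ j, (se β X W (ins R u i) v j).re < ∑ j, (se β X W R v j).re + z := by
  have hsub : ∀ j, R j ⊆ ins R u i j := by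
    intro j
    by_cases hj : j = i
    · subst hj; simp [ins]
    · simp [ins, Function.update_of_ne hj]
  have hvR' : ∀ j, v ∉ R j := fun j h => hvR j (hsub j h)
  have hX1 := herm_rkAll hX v z⁻¹
  obtain ⟨f0, p0⟩ := (feas_ins_iff hβ hX hd huW huR).mp h0
  obtain ⟨f1, p1⟩ := (feas_ins_iff hβ hX1 hd huW huR).mp h1
  have hG := Q_hasDerivAt_rk1 β X hvW hvR
  have hGt := Q_hasDerivAt_rk1 β X hvW hvR'
  have g0 : Q β X W (ins R u i) ≠ 0 := (feas_pos h0).ne'
  have gt0 : Q β X W R ≠ 0 := (feas_pos f0).ne'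
  have e0 : (fun i a b => X i a b - (0 : ℂ) * (X i a v * X i v b)) = X := by
    funext i a b; simp
  have hφ := hG.div hGt (by simpa [e0] using gt0)
  simp only [e0] at hφ
  set A : ℂ := ∑ j, se β X W (ins R u i) v j with hA
  set B : ℂ := ∑ j, se β X W R v j with hB
  have eA : (∑ j, (X j v v * Q β X W (ins R u i) - Q β X W (ins (ins R u i) v j))) =
      Q β X W (ins R u i) * A := by
    rw [hA, mul_sum]
    refine sum_congr rfl fun j _ => ?_
    simp only [se, piv]; field_simp
  have eB : (∑ j, (X j v v * Q β X W R - Q β X W (ins R v j))) = Q β X W R * B := by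
    rw [hB, mul_sum]
    refine sum_congr rfl fun j _ => ?_
    simp only [se, piv]; field_simp
  have hφ' : HasDerivAt (fun s : ℂ => piv β (rkAll X v s) W R u i)
      (piv β X W R u i * (B - A)) 0 := by
    rw [eA, eB] at hφ
    refine HasDerivAt.congr_deriv hφ ?_
    simp only [piv]; field_simp; ring
  have hr : HasDerivAt (fun s : ℝ => (piv β (rkAll X v (s : ℂ)) W R u i).re)
      (piv β X W R u i * (B - A)).re 0 := by
    have := HasDerivAt.real_of_complex (z := 0) (by simpa using hφ')
    simpa using this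
  have him : (piv β X W R u i).im = 0 := by
    have a1 := Q_im_eq_zero (ins R u i) hβ hX
    have a2 := Q_im_eq_zero R hβ hX
    simp [piv, Complex.div_im, a1, a2]
  set p : ℝ := (piv β X W R u i).re with hp
  set q : ℝ := (piv β (rkAll X v ((z⁻¹ : ℝ) : ℂ)) W R u i).re with hq
  have hlow : ∀ s : ℝ, 0 < s → s ≤ z⁻¹ →
      z * (q - p) ≤ ((piv β (rkAll X v (s : ℂ)) W R u i).re - p) / s := by
    intro s hs hs1
    have hsz : s * z ≤ 1 := by
      have := mul_le_mul_of_nonneg_right hs1 hz.le
      rwa [inv_mul_cancel₀ hz.ne'] at this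
    have := piv_concave (v := u) (i := i) hβ hX hX1 hd huW huR f0 f1 (s := s * z)
      (by positivity) hsz
    have e : (fun i a b => ((1 - s * z : ℝ) : ℂ) * X i a b +
        ((s * z : ℝ) : ℂ) * rkAll X v ((z⁻¹ : ℝ) : ℂ) i a b) = rkAll X v (s : ℂ) := by
      funext j a b
      have hzc : (z : ℂ) ≠ 0 := by exact_mod_cast hz.ne'
      simp only [rkAll]
      push_cast
      field_simp
      ring
    rw [e] at this
    rw [le_div_iff₀ hs]
    nlinarith
  have hlim := hr.tendsto_slope_zero_right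
  have hge : z * (q - p) ≤ (piv β X W R u i * (B - A)).re := by
    refine ge_of_tendsto hlim ?_
    have hmem : Set.Ioc (0 : ℝ) z⁻¹ ∈ nhdsWithin (0 : ℝ) (Set.Ioi 0) :=
      Ioc_mem_nhdsGT (by positivity)
    filter_upwards [hmem] with s hs
    have := hlow s hs.1 hs.2
    have e : rkAll X v (((0 : ℝ)) : ℂ) = X := by funext i a b; simp [rkAll]
    simp only [zero_add, smul_eq_mul, e]
    rwa [div_eq_inv_mul] at this
  rw [Complex.mul_re, him, zero_mul, sub_zero, ← hp, Complex.sub_re] at hge
  rw [← Complex.re_sum, ← Complex.re_sum, ← hA, ← hB]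
  by_contra hcon
  push Not at hcon
  nlinarith [mul_pos hz p1]

omit [Fintype ι] [DecidableEq ι] in
/-- numerical range bound with a distinguished coordinate -/
lemma qform_le {Y : V → V → ℂ} {W : Finset V} {u : V} (hu : u ∈ W) (h0 : Y u u = 0)
    (hc : ContrOn Y W) (ξ : V → ℂ) {t : ℝ} (ht : 0 < t) (ht1 : t ≤ 1) :
    (qform Y W ξ).re ≤ (∑ a ∈ W.erase u, ‖ξ a‖ ^ 2) / t + t * ‖ξ u‖ ^ 2 := by
  set r : ℂ := ∑ a ∈ W, ∑ b ∈ W,
    ((if a = u then 1 else 0) + (if b = u then 1 else 0)) * (star (ξ a) * Y a b * ξ b) with hr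
  have hq : ∀ s : ℝ, qform Y W (fun a => (if a = u then (s : ℂ) else 1) * ξ a) =
      qform Y W ξ + ((s - 1 : ℝ) : ℂ) * r := by
    intro s
    simp only [qform, hr, mul_sum, ← sum_add_distrib]
    refine sum_congr rfl fun a _ => sum_congr rfl fun b _ => ?_
    by_cases ha : a = u <;> by_cases hb : b = u
    · subst ha; subst hb; simp [h0]
    · simp [ha, hb]; ring
    · simp [ha, hb]; ring
    · simp [ha, hb]
  have hn : ∀ s : ℝ, ∑ a ∈ W, ‖(if a = u then (s : ℂ) else 1) * ξ a‖ ^ 2 =
      ∑ a ∈ W.erase u, ‖ξ a‖ ^ 2 + s ^ 2 * ‖ξ u‖ ^ 2 := by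
    intro s
    rw [← sum_erase_add _ _ hu]
    congr 1
    · refine sum_congr rfl fun a ha => ?_
      simp [ne_of_mem_erase ha]
    · simp [mul_pow]
  have hb : ∀ s : ℝ, |(qform Y W ξ).re + (s - 1) * r.re| ≤
      ∑ a ∈ W.erase u, ‖ξ a‖ ^ 2 + s ^ 2 * ‖ξ u‖ ^ 2 := by
    intro s
    have h1 := hc (fun a => (if a = u then (s : ℂ) else 1) * ξ a)
    rw [hn, hq] at h1
    have h2 := (Complex.abs_re_le_norm _).trans h1
    simpa using h2
  have h1 := (abs_le.mp (hb t)).2
  have h2 := (abs_le.mp (hb (-t))).1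
  rw [div_add' _ _ _ ht.ne', le_div_iff₀ ht]
  nlinarith

end BarrierAux
end Vale.Agent.P078
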