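import Vale.Agent.P078.Cone
import Vale.Agent.P078.BarrierAux

/-! The barrier argument: the mixed determinant of `k` zero-diagonal contractions has all roots
below `2/√k + 1/k`. See PROOF.md, section Barrier. -/

namespace Vale.Agent.P078

open Finset
open scoped ComplexOrder

variable {V ι : Type*} [DecidableEq V] [Fintype ι] [DecidableEq ι] [Nonempty ι]

/-- the root bound -/
noncomputable def theta (k : ℕ) : ℝ := 2 / √k + 1 / k

namespace BarrierAux

/-- the diagonal of the state `P` -/
noncomputable def zd (k : ℕ) (P : Finset V) : V → ℝ :=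
  fun a => if a ∈ P then theta k else √k + 1

/-- the matrices of the state `P` -/
noncomputable def XP (Y : ι → V → V → ℂ) (P : Finset V) : ι → V → V → ℂ :=
  dm (fun a => (zd (Fintype.card ι) P a : ℂ)) Y

/-- the invariant -/
def Inv (Y : ι → V → V → ℂ) (P U : Finset V) : Prop :=
  Feas (fun _ _ => 1) (XP Y P) P (fun _ => U) ∧
    ∀ u ∈ U, ∀ i, ∀ τ : ℝ, -(√(Fintype.card ι) + 1 - 1 / √(Fintype.card ι)) < τ →
      Feas (fun _ _ => 1) (addDiag (XP Y P) i u (τ : ℂ)) P (fun _ => U)

omit [DecidableEq ι] [Nonempty ι] in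
lemma XP_insert (Y : ι → V → V → ℂ) (P : Finset V) (v : V) (j : ι) {a b : V}
    (h : ¬ (a = v ∧ b = v)) : XP Y P j a b = XP Y (insert v P) j a b := by
  simp only [XP, dm]
  by_cases hab : a = b
  · subst hab
    have : a ≠ v := fun h' => h ⟨h', h'⟩
    simp [zd, this]
  · simp [hab]

omit [DecidableEq ι] [Nonempty ι] in
lemma XP_diag_notMem {Y : ι → V → V → ℂ} (h0 : ∀ i a, Y i a a = 0) {P : Finset V} {v : V}
    (hv : v ∉ P) (j : ι) : XP Y P j v v = ((√(Fintype.card ι) + 1 : ℝ) : ℂ) := by
  simp [XP, dm, zd, hv, h0]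

omit [DecidableEq ι] [Nonempty ι] in
lemma XP_diag_mem {Y : ι → V → V → ℂ} (h0 : ∀ i a, Y i a a = 0) {P : Finset V} {v : V}
    (hv : v ∈ P) (j : ι) : XP Y P j v v = ((theta (Fintype.card ι) : ℝ) : ℂ) := by
  simp [XP, dm, zd, hv, h0]

omit [DecidableEq V] [DecidableEq ι] in
lemma one_le_sqrt_card : 1 ≤ √(Fintype.card ι : ℝ) := by
  rw [Real.one_le_sqrt]
  exact_mod_cast Fintype.card_pos

omit [DecidableEq V] [DecidableEq ι] in
lemma card_mul_theta : (Fintype.card ι : ℝ) * theta (Fintype.card ι) =
    (√(Fintype.card ι) + 1) + (Fintype.card ι : ℝ) * (1 / √(Fintype.card ι)) := by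
  have h1 := one_le_sqrt_card (ι := ι)
  have h2 : (0 : ℝ) < Fintype.card ι := by exact_mod_cast Fintype.card_pos
  have h3 : √(Fintype.card ι : ℝ) * √(Fintype.card ι : ℝ) = Fintype.card ι :=
    Real.mul_self_sqrt h2.le
  set s := √(Fintype.card ι : ℝ) with hs
  have hs0 : s ≠ 0 := by positivity
  simp only [theta]
  rw [← hs, ← h3]
  field_simp
  ring

lemma inv_start {Y : ι → V → V → ℂ} (hY : Herm Y) (h0 : ∀ i a, Y i a a = 0) {W : Finset V}
    (hc : ∀ i, ContrOn (Y i) W) : Inv Y ∅ W := by
  have h1 := one_le_sqrt_card (ι := ι)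
  set s := √(Fintype.card ι : ℝ) with hs
  have hXH : Herm (XP Y (∅ : Finset V)) := herm_dm hY _
  have hq : ∀ j ξ, (qform (XP Y ∅ j) W ξ).re =
      (s + 1) * (∑ a ∈ W, ‖ξ a‖ ^ 2) - (qform (Y j) W ξ).re := by
    intro j ξ
    have : qform (XP Y ∅ j) W ξ =
        (((s + 1) * (∑ a ∈ W, ‖ξ a‖ ^ 2) : ℝ) : ℂ) - qform (Y j) W ξ := by
      simp only [qform, XP, dm, zd, notMem_empty, if_false, mul_sub, sub_mul, sum_sub_distrib]
      congr 1
      push_cast
      rw [mul_sum]
      refine sum_congr rfl fun a ha => ?_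
      rw [sum_eq_single a]
      · simp only [if_true, ← hs]
        rw [← Complex.conj_mul']
        simp only [Complex.star_def]
        ring
      · intro b _ hb; simp [Ne.symm hb]
      · intro h; exact absurd ha h
    rw [this, Complex.sub_re, Complex.ofReal_re]
  have hpos : ∀ ξ : V → ℂ, (∃ a ∈ W, ξ a ≠ 0) → 0 < ∑ a ∈ W, ‖ξ a‖ ^ 2 := by
    rintro ξ ⟨a, ha, hξ⟩
    exact sum_pos' (fun _ _ => by positivity) ⟨a, ha, by positivity⟩
  have hPD : ∀ j, PDOn (XP Y ∅ j) W := by
    intro j ξ hξ
    rw [hq]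
    have h2 := (Complex.re_le_norm _).trans (hc j ξ)
    have h3 := hpos ξ hξ
    nlinarith
  refine ⟨(feas_empty_iff _ _ hXH).mpr hPD, fun u hu i τ hτ => ?_⟩
  refine (feas_empty_iff _ _ (herm_addDiag hXH i u τ)).mpr fun j => ?_
  by_cases hj : j = i
  · subst hj
    intro ξ hξ
    have e : qform (addDiag (XP Y ∅) j u (τ : ℂ) j) W ξ =
        qform (XP Y ∅ j) W ξ + ((τ * ‖ξ u‖ ^ 2 : ℝ) : ℂ) := by
      simp only [qform, addDiag, Function.update_self, mul_add, add_mul, sum_add_distrib]
      congr 1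
      rw [sum_eq_single u, sum_eq_single u]
      · push_cast
        simp only [and_self, if_true]
        rw [← Complex.conj_mul']
        simp only [Complex.star_def]
        ring
      · intro b _ hb; simp [hb]
      · intro h; exact absurd hu h
      · intro a _ ha; simp [ha]
      · intro h; exact absurd hu h
    rw [e, Complex.add_re, Complex.ofReal_re, hq]
    have hs0 : 0 < s := by positivity
    have h2 := qform_le hu (h0 j u) (hc j) ξ (t := 1 / s) (by positivity)
      ((div_le_one hs0).mpr h1)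
    have h3 := hpos ξ hξ
    rw [← sum_erase_add _ _ hu] at h3 ⊢
    set N := ∑ a ∈ W.erase u, ‖ξ a‖ ^ 2 with hN
    have hN0 : 0 ≤ N := sum_nonneg fun _ _ => by positivity
    set A := ‖ξ u‖ ^ 2 with hA
    have hA0 : 0 ≤ A := by positivity
    have e2 : N / (1 / s) = N * s := by field_simp
    rw [e2] at h2
    have h4 : 0 < s + 1 - 1 / s + τ := by linarith
    rcases hA0.eq_or_lt with h5 | h5
    · rw [← h5] at h2 h3 ⊢; nlinarith
    · nlinarith [mul_pos h4 h5]
  · have : addDiag (XP Y ∅) i u (τ : ℂ) j = XP Y ∅ j := by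
      simp [addDiag, Function.update_of_ne hj]
    rw [this]
    exact hPD j

/-- the invariant bounds the self energies -/
lemma Inv.se_le {Y : ι → V → V → ℂ} (hY : Herm Y) (h0 : ∀ i a, Y i a a = 0) {P U : Finset V}
    (hd : Disjoint P U) (h : Inv Y P U) {v : V} (hv : v ∈ U) {R : ι → Finset V} {j : ι}
    (hR : ∀ l, R l ⊆ U) (hvR : v ∉ R j) :
    (se (fun _ _ => 1) (XP Y P) P R v j).re ≤ 1 / √(Fintype.card ι) := by
  have hXH : Herm (XP Y P) := herm_dm hY _
  have hβ := posW_one (ι := ι) P
  have hvP : v ∉ P := fun h => disjoint_left.mp hd h hv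
  set R' : ι → Finset V := era (fun _ => U) v j with hR'
  have hins : ins R' v j = fun _ => U := ins_era hv
  have hd' : ∀ l, Disjoint P (R' l) := fun l => hd.mono_right (era_subset _ v j l)
  have hvR' : v ∉ R' j := notMem_era _ v j
  have hF' : Feas (fun _ _ => 1) (XP Y P) P R' :=
    feas_sub hβ hXH (era_subset _ v j) (fun _ => hd) h.1
  have hsub : ∀ l, R l ⊆ R' l := by
    intro l
    by_cases hl : l = j
    · subst hl
      simp only [hR', era, Function.update_self]
      exact subset_erase.mpr ⟨hR l, hvR⟩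
    · simp only [hR', era, Function.update_of_ne hl]; exact hR l
  refine (se_sub hβ hXH hsub hd' hF' hvP hvR').trans ?_
  have hQ := (feas_pos hF').ne'
  have key : ∀ τ : ℝ, -(√(Fintype.card ι) + 1 - 1 / √(Fintype.card ι)) < τ →
      0 < (piv (fun _ _ => 1) (XP Y P) P R' v j).re + τ := by
    intro τ hτ
    have h1 := h.2 v hv j τ hτ
    rw [← hins] at h1
    have h2 := ((feas_ins_iff hβ (herm_addDiag hXH j v τ) hd' hvP hvR').mp h1).2
    have e1 : Q (fun _ _ => 1) (addDiag (XP Y P) j v (τ : ℂ)) P R' =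
        Q (fun _ _ => 1) (XP Y P) P R' := by
      refine Q_congr (fun _ _ => rfl) fun l a ha b _ => addDiag_of_ne _ _ ?_
      rintro ⟨rfl, rfl, -⟩
      rcases mem_union.mp ha with h | h
      · exact hvP h
      · exact hvR' h
    have e2 : piv (fun _ _ => 1) (addDiag (XP Y P) j v (τ : ℂ)) P R' v j =
        piv (fun _ _ => 1) (XP Y P) P R' v j + τ := by
      simp only [piv]
      rw [Q_ins_addDiag _ _ hvP hvR', e1]
      field_simp
    rw [e2] at h2
    simpa using h2
  simp only [se, Complex.sub_re, XP_diag_notMem h0 hvP, Complex.ofReal_re]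
  by_contra hcon
  push Not at hcon
  have := key (-(piv (fun _ _ => 1) (XP Y P) P R' v j).re) (by linarith)
  linarith

/-- moving `v` to the processed side, given the bound on the sum of self energies -/
lemma feas_move {X X' : ι → V → V → ℂ} (hX : Herm X) (hX' : Herm X') {P U : Finset V} {v : V}
    (hd : Disjoint P U) (hv : v ∈ U) (hF : Feas (fun _ _ => 1) X P fun _ => U)
    (he : ∀ j a b, ¬ (a = v ∧ b = v) → X j a b = X' j a b) {θ : ℝ} (hθ : ∀ j, X' j v v = θ)
    (hs : ∑ j, (se (fun _ _ => 1) X P (fun _ => U.erase v) v j).re < Fintype.card ι * θ) :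
    Feas (fun _ _ => 1) X' (insert v P) fun _ => U.erase v := by
  have hβ := posW_one (ι := ι) P
  have hvP : v ∉ P := fun h => disjoint_left.mp hd h hv
  have hd' : Disjoint P (U.erase v) := hd.mono_right (erase_subset _ _)
  have hF1 : Feas (fun _ _ => 1) X P fun _ => U.erase v :=
    feas_sub hβ hX (fun _ => erase_subset _ _) (fun _ => hd) hF
  have hne : ∀ a ∈ P ∪ U.erase v, a ≠ v := by
    intro a ha h
    subst h
    rcases mem_union.mp ha with h | h
    · exact hvP h
    · exact notMem_erase _ _ h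
  have hF2 : Feas (fun _ _ => 1) X' P fun _ => U.erase v :=
    feas_congr (fun j a ha b _ => he j a b fun h => hne a ha h.1) hF1
  refine (feas_insert_iff (posW_one _) hX' (fun _ => hd') hvP
    (fun _ => notMem_erase _ _)).mpr ⟨hF2, ?_⟩
  have e : ∀ j, piv (fun _ _ => 1) X' P (fun _ => U.erase v) v j =
      θ - se (fun _ _ => 1) X P (fun _ => U.erase v) v j := by
    intro j
    rw [se_congr (β' := fun _ _ => 1) (X' := X') hvP (notMem_erase _ _) (feas_pos hF1).ne'
      (fun _ _ => rfl) (fun l _ a ha b _ => he l a b fun h => hne a ha h.1)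
      (fun a _ b _ h => he j a b h)]
    simp [se, hθ]
  have e2 : ((Fintype.card ι : ℂ) * (θ : ℂ)).re = Fintype.card ι * θ := by simp
  simp only [one_mul, e, Complex.re_sum, Complex.sub_re, sum_sub_distrib,
    sum_const, card_univ, nsmul_eq_mul, e2]
  linarith

lemma inv_step {Y : ι → V → V → ℂ} (hY : Herm Y) (h0 : ∀ i a, Y i a a = 0) {P U : Finset V}
    (hd : Disjoint P U) (h : Inv Y P U) {v : V} (hv : v ∈ U) :
    Inv Y (insert v P) (U.erase v) := by
  have hXH : Herm (XP Y P) := herm_dm hY _
  have hXH' : Herm (XP Y (insert v P)) := herm_dm hY _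
  have hβ := posW_one (ι := ι) P
  have hvP : v ∉ P := fun h => disjoint_left.mp hd h hv
  have h1 := one_le_sqrt_card (ι := ι)
  have hth := card_mul_theta (ι := ι)
  have hsum : ∀ R : ι → Finset V, (∀ l, R l ⊆ U.erase v) →
      ∑ j, (se (fun _ _ => 1) (XP Y P) P R v j).re ≤
        Fintype.card ι * (1 / √(Fintype.card ι)) := by
    intro R hR
    have := sum_le_sum (s := (univ : Finset ι)) fun j _ =>
      h.se_le hY h0 hd hv (R := R) (j := j) (fun l => (hR l).trans (erase_subset _ _))
        (fun hm => notMem_erase _ _ (hR j hm))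
    simpa using this
  constructor
  · refine feas_move hXH hXH' hd hv h.1 (fun j a b hab => XP_insert Y P v j hab)
      (XP_diag_mem h0 (mem_insert_self _ _)) ?_
    have := hsum (fun _ => U.erase v) fun _ => subset_rfl
    linarith
  · intro u hu i τ hτ
    have huv : u ≠ v := ne_of_mem_erase hu
    have huU : u ∈ U := mem_of_mem_erase hu
    have huP : u ∉ P := fun h => disjoint_left.mp hd h huU
    have hF := h.2 u huU i τ hτ
    have hH := herm_addDiag hXH i u τ
    have hdiag : ∀ j, addDiag (XP Y P) i u (τ : ℂ) j v v = ((√(Fintype.card ι) + 1 : ℝ) : ℂ) := by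
      intro j
      rw [addDiag_of_ne _ _ (fun h => huv h.2.1.symm), XP_diag_notMem h0 hvP]
    refine feas_move hH (herm_addDiag hXH' i u τ) hd hv hF ?_ (θ := theta (Fintype.card ι)) ?_ ?_
    · intro j a b hab
      by_cases hj : j = i
      · subst hj
        simp only [addDiag, Function.update_self, XP_insert Y P v j hab]
      · simp only [addDiag, Function.update_of_ne hj, XP_insert Y P v j hab]
    · intro j
      rw [addDiag_of_ne _ _ (fun h => huv h.2.1.symm), XP_diag_mem h0 (mem_insert_self _ _)]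
    · set R'' : ι → Finset V := era (fun _ => U.erase v) u i with hR''
      have hins : ins R'' u i = fun _ => U.erase v := ins_era hu
      have hsub : ∀ l, R'' l ⊆ U.erase v := fun l => era_subset _ u i l
      have hd' : ∀ l, Disjoint P (R'' l) := fun l =>
        hd.mono_right ((hsub l).trans (erase_subset _ _))
      have huR : u ∉ R'' i := notMem_era _ u i
      have hF1 : Feas (fun _ _ => 1) (addDiag (XP Y P) i u (τ : ℂ)) P fun _ => U.erase v :=
        feas_sub hβ hH (fun _ => erase_subset _ _) (fun _ => hd) hF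
      have hF2 := feas_rkAll hβ hH hd hv hdiag hF
      have key := sum_se_lt (v := v) hβ hH hd' huP huR hvP
        (by rw [hins]; exact fun _ => notMem_erase _ _) (z := √(Fintype.card ι) + 1)
        (by positivity) (by rwa [hins]) (by rwa [hins])
      rw [hins] at key
      have hF3 : Feas (fun _ _ => 1) (addDiag (XP Y P) i u (τ : ℂ)) P R'' :=
        feas_sub hβ hH hsub (fun _ => hd.mono_right (erase_subset _ _)) hF1
      have hne : ∀ l, ∀ a ∈ P ∪ R'' l, ¬ (l = i ∧ a = u) := by
        rintro l a ha ⟨rfl, rfl⟩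
        rcases mem_union.mp ha with h | h
        · exact huP h
        · exact huR h
      have e : ∀ j, se (fun _ _ => 1) (addDiag (XP Y P) i u (τ : ℂ)) P R'' v j =
          se (fun _ _ => 1) (XP Y P) P R'' v j := by
        intro j
        refine se_congr hvP (fun hm => notMem_erase _ _ (hsub j hm)) (feas_pos hF3).ne'
          (fun _ _ => rfl) (fun l _ a ha b _ => addDiag_of_ne _ _ fun h => hne l a ha ⟨h.1, h.2.1⟩)
          (fun a ha b _ _ => addDiag_of_ne _ _ fun h => ?_)
        rcases mem_insert.mp ha with h' | h'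
        · exact huv (h.2.1.symm.trans h')
        · exact hne j a h' ⟨h.1, h.2.1⟩
      simp only [e] at key
      have := hsum R'' hsub
      linarith

lemma inv_end {Y : ι → V → V → ℂ} (hY : Herm Y) (h0 : ∀ i a, Y i a a = 0) :
    ∀ (n : ℕ) (P U : Finset V), U.card = n → Disjoint P U → Inv Y P U →
      Feas (fun _ _ => 1) (XP Y (P ∪ U)) (P ∪ U) R0 := by
  intro n
  induction n with
  | zero =>
    intro P U hU _ h
    rw [card_eq_zero] at hU
    subst hU
    rw [union_empty]
    exact h.1
  | succ n ih =>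
    intro P U hU hd h
    obtain ⟨v, hv⟩ : U.Nonempty := card_pos.mp (by omega)
    have hvP : v ∉ P := fun h => disjoint_left.mp hd h hv
    have := ih (insert v P) (U.erase v) (by rw [card_erase_of_mem hv]; omega)
      (by
        rw [disjoint_insert_left]
        exact ⟨notMem_erase _ _, hd.mono_right (erase_subset _ _)⟩)
      (inv_step hY h0 hd h hv)
    rwa [insert_union, ← union_insert, insert_erase hv] at this

end BarrierAux

open BarrierAux in
theorem barrier (Y : ι → V → V → ℂ) (hY : Herm Y) (h0 : ∀ i a, Y i a a = 0) (W : Finset V)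
    (hc : ∀ i, ContrOn (Y i) W) :
    Feas (fun _ _ => 1) (dm (fun _ => (theta (Fintype.card ι) : ℂ)) Y) W R0 := by
  have h := inv_end hY h0 _ ∅ W rfl (disjoint_empty_left _) (inv_start hY h0 hc)
  rw [empty_union] at h
  refine feas_congr (fun i a ha b _ => ?_) h
  have ha' : a ∈ W := by simpa [R0] using ha
  simp [XP, dm, zd, ha']

open BarrierAux in
/-- consequence used later: real points above the barrier -/
theorem init_real (Y : ι → V → V → ℂ) (hY : Herm Y) (h0 : ∀ i a, Y i a a = 0) (W : Finset V)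
    (hc : ∀ i, ContrOn (Y i) W) {o : V} (ho : o ∈ W) (d : V → ℝ)
    (hd : ∀ a ∈ W, theta (Fintype.card ι) ≤ d a) :
    Q (fun _ _ => 1) (dm (fun a => (d a : ℂ)) Y) (W.erase o) R0 ≠ 0 ∧
      (mbar (fun _ _ => 1) (dm (fun a => (d a : ℂ)) Y) W o).im = 0 ∧
      0 ≤ (mbar (fun _ _ => 1) (dm (fun a => (d a : ℂ)) Y) W o).re ∧
      (mbar (fun _ _ => 1) (dm (fun a => (d a : ℂ)) Y) W o).re < theta (Fintype.card ι) := by
  set θ := theta (Fintype.card ι) with hθ
  set d' : V → ℝ := fun a => if a = o then θ else d a with hd'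
  have hdis : ∀ (S : Finset V) (i : ι), Disjoint S (R0 (V := V) i) := fun S i => by simp [R0]
  have hH0 : Herm (dm (fun _ => (θ : ℂ)) Y) := herm_dm hY fun _ => θ
  have hH1 : Herm (dm (fun a => (d' a : ℂ)) Y) := herm_dm hY d'
  have hH : Herm (dm (fun a => (d a : ℂ)) Y) := herm_dm hY d
  have hP : Herm (fun (_ : ι) (a b : V) => if a = b then ((d' a - θ : ℝ) : ℂ) else 0) := by
    intro i a b
    by_cases h : a = b
    · subst h; simp
    · simp [h, Ne.symm h]
  have hF1 : Feas (fun _ _ => 1) (dm (fun a => (d' a : ℂ)) Y) W R0 := by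
    have := Feas.add_psd (posW_one W) hH0 hP (hdis W) (barrier Y hY h0 W hc) (fun i ξ => ?_)
    · convert this using 1
      funext i a b
      simp only [dm]
      split_ifs <;> push_cast <;> ring
    · have e : qform (fun a b => if a = b then ((d' a - θ : ℝ) : ℂ) else 0) (W ∪ R0 i) ξ =
          ((∑ a ∈ W, (d' a - θ) * ‖ξ a‖ ^ 2 : ℝ) : ℂ) := by
        simp only [qform, R0, union_empty]
        push_cast
        refine sum_congr rfl fun a ha => ?_
        rw [sum_eq_single a]
        · simp only [if_true]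
          rw [← Complex.conj_mul']
          simp only [Complex.star_def]
          ring
        · intro b _ hb; simp [Ne.symm hb]
        · intro h; exact absurd ha h
      rw [e, Complex.ofReal_re]
      refine sum_nonneg fun a ha => mul_nonneg ?_ (by positivity)
      simp only [hd']
      split_ifs
      · simp
      · linarith [hd a ha]
  have hoW : o ∉ W.erase o := notMem_erase _ _
  have hoR : ∀ i : ι, o ∉ R0 (V := V) i := fun i => by simp [R0]
  rw [← insert_erase ho] at hF1
  obtain ⟨hF2, hpos⟩ := (feas_insert_iff (posW_one _) hH1 (hdis _) hoW hoR).mp hF1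
  have he : ∀ (j : ι) (a b : V), ¬ (a = o ∧ b = o) →
      dm (fun a => (d' a : ℂ)) Y j a b = dm (fun a => (d a : ℂ)) Y j a b := by
    intro j a b h
    simp only [dm]
    by_cases hab : a = b
    · subst hab
      have : a ≠ o := fun h' => h ⟨h', h'⟩
      simp [hd', this]
    · simp [hab]
  have hne : ∀ (i : ι), ∀ a ∈ W.erase o ∪ R0 i, a ≠ o := by
    intro i a ha
    simp only [R0, union_empty] at ha
    exact ne_of_mem_erase ha
  have hF3 : Feas (fun _ _ => 1) (dm (fun a => (d a : ℂ)) Y) (W.erase o) R0 :=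
    feas_congr (fun j a ha b _ => he j a b fun h => hne j a ha h.1) hF2
  have hse : ∀ j, se (fun _ _ => 1) (dm (fun a => (d' a : ℂ)) Y) (W.erase o) R0 o j =
      se (fun _ _ => 1) (dm (fun a => (d a : ℂ)) Y) (W.erase o) R0 o j := fun j =>
    se_congr hoW (hoR j) (feas_pos hF2).ne' (fun _ _ => rfl)
      (fun l _ a ha b _ => he l a b fun h => hne l a ha h.1) (fun a _ b _ h => he j a b h)
  have hnn := fun j => se_nonneg (v := o) (i := j) (posW_one _) hH (hdis _) hoW (hoR j) hF3
  have e : ∀ j, piv (fun _ _ => 1) (dm (fun a => (d' a : ℂ)) Y) (W.erase o) R0 o j =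
      θ - se (fun _ _ => 1) (dm (fun a => (d a : ℂ)) Y) (W.erase o) R0 o j := by
    intro j
    rw [← hse]
    simp [se, dm, hd', h0]
  have e2 : ((Fintype.card ι : ℂ) * (θ : ℂ)).re = Fintype.card ι * θ := by simp
  simp only [one_mul, e, Complex.re_sum, Complex.sub_re, sum_sub_distrib,
    sum_const, card_univ, nsmul_eq_mul, e2] at hpos
  have hk : (0 : ℝ) < Fintype.card ι := by exact_mod_cast Fintype.card_pos
  have hm : mbar (fun _ _ => 1) (dm (fun a => (d a : ℂ)) Y) W o =
      (∑ j, se (fun _ _ => 1) (dm (fun a => (d a : ℂ)) Y) (W.erase o) R0 o j) /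
        ((Fintype.card ι : ℝ) : ℂ) := by
    simp [mbar, bsum]
  refine ⟨(feas_pos hF3).ne', ?_, ?_, ?_⟩
  · rw [hm, Complex.div_ofReal_im, Complex.im_sum, sum_eq_zero fun j _ => (hnn j).2, zero_div]
  · rw [hm, Complex.div_ofReal_re, Complex.re_sum]
    exact div_nonneg (sum_nonneg fun j _ => (hnn j).1) hk.le
  · rw [hm, Complex.div_ofReal_re, Complex.re_sum, div_lt_iff₀ hk]
    linarith

end Vale.Agent.P078
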