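import Mathlib

/-! Three one-variable complex analysis lemmas and one integral. -/

namespace Vale.Agent.P078

open Set Filter Topology MeasureTheory

/-- Carathéodory: Schwarz lemma for `(f - f c) / (f + conj (f c))` (first add `δ > 0` to `f`). -/
theorem carath {f : ℂ → ℂ} {c : ℂ} {ρ : ℝ} (hρ : 0 < ρ) (hf : DifferentiableOn ℂ f (Metric.ball c ρ))
    (h : ∀ z ∈ Metric.ball c ρ, 0 ≤ (f z).re) : ‖deriv f c‖ ≤ 2 * (f c).re / ρ := by
  have hc : c ∈ Metric.ball c ρ := Metric.mem_ball_self hρ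
  have hα : 0 ≤ (f c).re := h c hc
  have hfc : HasDerivAt f (deriv f c) c :=
    (hf.differentiableAt (Metric.isOpen_ball.mem_nhds hc)).hasDerivAt
  have key : ∀ δ : ℝ, 0 < δ → ‖deriv f c‖ ≤ (2 * (f c).re + δ) / ρ := by
    intro δ hδ
    set b : ℂ := (starRingEnd ℂ) (f c) + δ with hb
    have hbre : b.re = (f c).re + δ := by simp [hb]
    have hbim : b.im = -(f c).im := by simp [hb]
    have hne : ∀ z ∈ Metric.ball c ρ, f z + b ≠ 0 := by
      intro z hz h0
      have h1 : (f z + b).re = 0 := by rw [h0]; simp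
      rw [Complex.add_re, hbre] at h1
      have := h z hz
      linarith
    have hd : DifferentiableOn ℂ (fun z => (f z - f c) / (f z + b)) (Metric.ball c ρ) :=
      (hf.sub_const _).div (hf.add_const _) hne
    have hm : MapsTo (fun z => (f z - f c) / (f z + b)) (Metric.ball c ρ)
        (Metric.closedBall ((fun z => (f z - f c) / (f z + b)) c) 1) := by
      intro z hz
      simp only [sub_self, zero_div, Metric.mem_closedBall, dist_zero_right, norm_div]
      rw [div_le_one (norm_pos_iff.mpr (hne z hz))]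
      rw [← sq_le_sq₀ (norm_nonneg _) (norm_nonneg _), Complex.sq_norm, Complex.sq_norm,
        Complex.normSq_apply, Complex.normSq_apply]
      simp only [Complex.sub_re, Complex.sub_im, Complex.add_re, Complex.add_im, hbre, hbim]
      have := h z hz
      nlinarith [mul_nonneg this hα, mul_nonneg this hδ.le, mul_nonneg hα hδ.le]
    have hs := Complex.norm_deriv_le_div_of_mapsTo_ball hd hm hρ
    have hder : HasDerivAt (fun z => (f z - f c) / (f z + b)) (deriv f c / (f c + b)) c := by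
      have h1 := (hfc.sub_const (f c)).div (hfc.add_const b) (hne c hc)
      refine h1.congr_deriv ?_
      have := hne c hc
      field_simp
      ring
    rw [hder.deriv, norm_div] at hs
    have hval : f c + b = ((2 * (f c).re + δ : ℝ) : ℂ) := by
      apply Complex.ext
      · simp only [Complex.add_re, hbre, Complex.ofReal_re]; ring
      · simp only [Complex.add_im, hbim, Complex.ofReal_im]; ring
    have hpos : 0 < 2 * (f c).re + δ := by linarith
    rw [hval, Complex.norm_real, Real.norm_eq_abs, abs_of_pos hpos, div_le_div_iff₀ hpos hρ] at hs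
    rw [le_div_iff₀ hρ]
    linarith
  refine le_of_forall_pos_le_add fun ε hε => ?_
  have := key (ε * ρ) (mul_pos hε hρ)
  rw [add_div, mul_div_assoc ε, div_self hρ.ne', mul_one] at this
  exact this

/-- the `ρ`-neighbourhood of `[0,1]` -/
def stadium (ρ : ℝ) : Set ℂ := {z | ∃ t : ℝ, 0 ≤ t ∧ t ≤ 1 ∧ ‖z - t‖ < ρ}

/-- Apply `carath` to `h = M - u * g` (`‖u‖ = 1`, `u * g 1 = ‖g 1‖`) at every `t ∈ [0,1]`; then
`φ t = Re h t` satisfies `φ' ≥ -(2/ρ) φ`, so `exp (2t/ρ) φ t` is monotone. -/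
theorem stadium_bound {g : ℂ → ℂ} {ρ M : ℝ} (hρ : 0 < ρ) (hg : DifferentiableOn ℂ g (stadium ρ))
    (hM : ∀ z ∈ stadium ρ, ‖g z‖ ≤ M) (h0 : g 0 = 0) : ‖g 1‖ ≤ (1 - Real.exp (-2 / ρ)) * M := by
  obtain ⟨u, hu1, hu2⟩ := Complex.exists_norm_eq_mul_self (g 1)
  have hsub : ∀ t : ℝ, t ∈ Icc (0 : ℝ) 1 → Metric.ball (t : ℂ) ρ ⊆ stadium ρ := by
    intro t ht z hz
    exact ⟨t, ht.1, ht.2, by simpa [dist_eq_norm] using hz⟩
  set h : ℂ → ℂ := fun z => (M : ℂ) - u * g z with hh
  have hhd : DifferentiableOn ℂ h (stadium ρ) := (hg.const_mul u).const_sub _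
  have hre : ∀ z ∈ stadium ρ, 0 ≤ (h z).re := by
    intro z hz
    have h1 : (u * g z).re ≤ ‖u * g z‖ := Complex.re_le_norm _
    rw [norm_mul, hu1, one_mul] at h1
    have h2 := hM z hz
    simp only [hh, Complex.sub_re, Complex.ofReal_re]
    linarith
  have hder : ∀ t : ℝ, t ∈ Icc (0 : ℝ) 1 →
      HasDerivAt (fun s : ℝ => Real.exp (2 / ρ * s) * (h s).re)
        (Real.exp (2 / ρ * t) * (2 / ρ * (h t).re + (deriv h t).re)) t := by
    intro t ht
    have h1 : HasDerivAt h (deriv h t) t :=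
      ((hhd.mono (hsub t ht)).differentiableAt
        (Metric.isOpen_ball.mem_nhds (Metric.mem_ball_self hρ))).hasDerivAt
    have h2 : HasDerivAt (fun s : ℝ => (h s).re) (deriv h t).re t := h1.real_of_complex
    have h3 : HasDerivAt (fun s : ℝ => Real.exp (2 / ρ * s)) (Real.exp (2 / ρ * t) * (2 / ρ)) t := by
      have := ((hasDerivAt_id t).const_mul (2 / ρ)).exp
      simpa using this
    refine (h3.mul h2).congr_deriv ?_
    ring
  have hmono : MonotoneOn (fun s : ℝ => Real.exp (2 / ρ * s) * (h s).re) (Icc 0 1) := by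
    apply monotoneOn_of_deriv_nonneg (convex_Icc 0 1)
    · intro t ht
      exact (hder t ht).continuousAt.continuousWithinAt
    · intro t ht
      exact (hder t (interior_subset ht)).differentiableAt.differentiableWithinAt
    · intro t ht
      have ht' := interior_subset ht
      rw [(hder t ht').deriv]
      refine mul_nonneg (Real.exp_pos _).le ?_
      have h1 := carath hρ (hhd.mono (hsub t ht')) (fun z hz => hre z (hsub t ht' hz))
      have h2 : -(deriv h t).re ≤ ‖deriv h t‖ := by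
        have := Complex.re_le_norm (-(deriv h t))
        simpa using this
      have h3 : 2 * (h t).re / ρ = 2 / ρ * (h t).re := by ring
      linarith
  have h01 := hmono (left_mem_Icc.mpr zero_le_one) (right_mem_Icc.mpr zero_le_one) zero_le_one
  simp only [mul_zero, Real.exp_zero, one_mul, mul_one, hh, Complex.ofReal_zero, h0, sub_zero,
    Complex.ofReal_re, Complex.ofReal_one, ← hu2, Complex.sub_re] at h01
  have h4 : Real.exp (-2 / ρ) * Real.exp (2 / ρ) = 1 := by
    rw [← Real.exp_add]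
    have : -2 / ρ + 2 / ρ = 0 := by ring
    rw [this, Real.exp_zero]
  have h5 := mul_le_mul_of_nonneg_left h01 (Real.exp_pos (-2 / ρ)).le
  rw [← mul_assoc, h4, one_mul] at h5
  linarith

/-- Cauchy estimate in the form used later -/
theorem deriv_le_of_close {f : ℂ → ℂ} {ρ δ : ℝ} (hρ : 0 < ρ)
    (hf : DifferentiableOn ℂ f (Metric.ball 0 ρ)) (h : ∀ z ∈ Metric.ball (0 : ℂ) ρ, ‖f z - f 0‖ ≤ δ) :
    ‖deriv f 0‖ ≤ δ / ρ := by
  refine Complex.norm_deriv_le_div_of_mapsTo_ball hf ?_ hρ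
  intro z hz
  rw [Metric.mem_closedBall, dist_eq_norm]
  exact h z hz

/-- A function on the slit plane `ℂ \ (-∞, θ]` with values in `ℂ \ (-∞, 0]`: apply `carath` to
`π ± i log F` on discs of radius `γ` centred on the segment `[a, a + iη]`, which gives
`‖(log F)'‖ ≤ 4π/γ`. -/
theorem slit_bound {F : ℂ → ℂ} {θ γ a η : ℝ} (hγ : 0 < γ) (ha : θ + γ ≤ a) (hη : 0 ≤ η)
    (hηγ : 16 * η ≤ γ)
    (hF : DifferentiableOn ℂ F {z | z.im ≠ 0 ∨ θ < z.re})
    (hS : ∀ z : ℂ, (z.im ≠ 0 ∨ θ < z.re) → F z ∈ Complex.slitPlane) (hr : (F a).im = 0) :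
    |(F (a + η * Complex.I)).im| ≤ 40 * η / γ * (F a).re ∧
      (F a).re / 4 ≤ (F (a + η * Complex.I)).re := by
  have hopen : IsOpen {z : ℂ | z.im ≠ 0 ∨ θ < z.re} :=
    (isOpen_ne_fun Complex.continuous_im continuous_const).union
      (isOpen_lt continuous_const Complex.continuous_re)
  set L : ℂ → ℂ := fun z => Complex.log (F z) with hL
  have hLd : DifferentiableOn ℂ L {z : ℂ | z.im ≠ 0 ∨ θ < z.re} := hF.clog hS
  have hball : ∀ c : ℂ, c.re = a → Metric.ball c γ ⊆ {z : ℂ | z.im ≠ 0 ∨ θ < z.re} := by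
    intro c hc z hz
    right
    rw [Metric.mem_ball, dist_eq_norm] at hz
    have h1 := Complex.abs_re_le_norm (z - c)
    rw [Complex.sub_re, hc] at h1
    have h2 := neg_abs_le (z.re - a)
    linarith
  have hLa : ∀ c : ℂ, c.re = a → DifferentiableAt ℂ L c := fun c hc =>
    hLd.differentiableAt (hopen.mem_nhds (hball c hc (Metric.mem_ball_self hγ)))
  have hbound : ∀ c : ℂ, c.re = a → ‖deriv L c‖ ≤ 4 * Real.pi / γ := by
    intro c hc
    have h1 : DifferentiableOn ℂ (fun z => (Real.pi : ℂ) + Complex.I * L z) (Metric.ball c γ) :=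
      ((hLd.mono (hball c hc)).const_mul _).const_add _
    have hre : ∀ z, ((Real.pi : ℂ) + Complex.I * L z).re = Real.pi - Complex.arg (F z) := by
      intro z
      simp [hL, Complex.log_im, sub_eq_add_neg]
    have h2 := carath hγ h1 (fun z _ => by
      rw [hre]; linarith [Complex.arg_le_pi (F z)])
    have h3 : HasDerivAt (fun z => (Real.pi : ℂ) + Complex.I * L z) (Complex.I * deriv L c) c :=
      ((hLa c hc).hasDerivAt.const_mul _).const_add _
    rw [h3.deriv, norm_mul, Complex.norm_I, one_mul, hre] at h2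
    refine h2.trans (div_le_div_of_nonneg_right ?_ hγ.le)
    linarith [Complex.neg_pi_lt_arg (F c)]
  have hconv : Convex ℝ {z : ℂ | z.re = a} := by
    intro x hx y hy s t _ _ hst
    simp only [mem_ofPred_eq] at hx hy ⊢
    simp only [Complex.add_re, Complex.real_smul, Complex.mul_re, Complex.ofReal_re,
      Complex.ofReal_im, zero_mul, sub_zero, hx, hy]
    rw [← add_mul, hst, one_mul]
  have hmv := hconv.norm_image_sub_le_of_norm_deriv_le (𝕜 := ℂ) (f := L)
    (fun c hc => hLa c hc) (fun c hc => hbound c hc) (x := (a : ℂ)) (y := a + η * Complex.I)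
    (show (a : ℂ).re = a by simp) (show ((a : ℂ) + η * Complex.I).re = a by simp)
  have hn : ‖(a : ℂ) + η * Complex.I - a‖ = η := by
    simp [abs_of_nonneg hη]
  rw [hn] at hmv
  set w : ℂ := L (a + η * Complex.I) - L a with hw
  have hmemA : ((a : ℂ).im ≠ 0 ∨ θ < (a : ℂ).re) := Or.inr (by simp; linarith)
  have hmemB : (((a : ℂ) + η * Complex.I).im ≠ 0 ∨ θ < ((a : ℂ) + η * Complex.I).re) :=
    Or.inr (by simp; linarith)
  have hFa := hS _ hmemA
  have hFb := hS _ hmemB
  have hpos : 0 < (F a).re := by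
    rcases hFa with h | h
    · exact h
    · exact absurd hr h
  have hexp : F (a + η * Complex.I) = F a * Complex.exp w := by
    rw [hw, Complex.exp_sub, hL]
    simp only
    rw [Complex.exp_log (Complex.slitPlane_ne_zero hFa),
      Complex.exp_log (Complex.slitPlane_ne_zero hFb)]
    field_simp [Complex.slitPlane_ne_zero hFa]
  have hre : (F (a + η * Complex.I)).re = (F a).re * (Real.exp w.re * Real.cos w.im) := by
    rw [hexp, Complex.mul_re, hr, Complex.exp_re]; ring
  have him : (F (a + η * Complex.I)).im = (F a).re * (Real.exp w.re * Real.sin w.im) := by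
    rw [hexp, Complex.mul_im, hr, Complex.exp_im]; ring
  have hq : η / γ ≤ 1 / 16 := by
    rw [div_le_div_iff₀ hγ (by norm_num)]; linarith
  have hq0 : 0 ≤ η / γ := div_nonneg hη hγ.le
  have hκ : ‖w‖ ≤ 12.5664 * (η / γ) := by
    refine hmv.trans ?_
    have h1 : 4 * Real.pi / γ * η = 4 * Real.pi * (η / γ) := by ring
    rw [h1]
    exact mul_le_mul_of_nonneg_right (by linarith [Real.pi_lt_d4]) hq0
  have hw1 : ‖w‖ ≤ 0.7854 := by linarith
  have hwre := Complex.abs_re_le_norm w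
  have hwim := Complex.abs_im_le_norm w
  have he1 : Real.exp w.re ≤ 2.7182818286 :=
    (Real.exp_le_exp.mpr (by linarith [le_abs_self w.re])).trans Real.exp_one_lt_d9.le
  have he2 : 0.3678 ≤ Real.exp w.re := by
    have h1 : Real.exp (-1) ≤ Real.exp w.re :=
      Real.exp_le_exp.mpr (by linarith [neg_abs_le w.re])
    linarith [Real.exp_neg_one_gt_d9]
  constructor
  · rw [him, abs_mul, abs_of_pos hpos, abs_mul, abs_of_pos (Real.exp_pos _), mul_comm]
    refine mul_le_mul_of_nonneg_right ?_ hpos.le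
    have h1 : |Real.sin w.im| ≤ 12.5664 * (η / γ) := (Real.abs_sin_le_abs).trans (hwim.trans hκ)
    have h2 := mul_le_mul he1 h1 (abs_nonneg _) (by norm_num)
    have h3 : 40 * η / γ = 40 * (η / γ) := by ring
    rw [h3]
    linarith
  · rw [hre]
    have h1 : 1 - w.im ^ 2 / 2 ≤ Real.cos w.im := Real.one_sub_sq_div_two_le_cos
    have h2 : w.im ^ 2 ≤ 0.7854 ^ 2 := by
      rw [← sq_abs]
      exact pow_le_pow_left₀ (abs_nonneg _) (hwim.trans hw1) 2
    have h3 : 0.6915 ≤ Real.cos w.im := by norm_num at h2 ⊢; linarith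
    have h4 := mul_le_mul he2 h3 (by norm_num) (Real.exp_pos _).le
    have h5 := mul_le_mul_of_nonneg_left h4 hpos.le
    norm_num at h5 ⊢
    linarith

/-- the envelope of all locality errors -/
noncomputable def env (ε C t : ℝ) : ℝ := min ε (C / (1 + t) ^ 3)

namespace CarAux

lemma env_le {ε C t : ℝ} (hε : 0 ≤ ε) (hC : 0 ≤ C) (ht : 0 ≤ t) :
    ‖(1 + t) * env ε C t‖ ≤ C * (1 + t ^ 2)⁻¹ := by
  have h0 : 0 ≤ env ε C t := le_min hε (by positivity)
  have h1 : env ε C t ≤ C / (1 + t) ^ 3 := min_le_right _ _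
  rw [Real.norm_eq_abs, abs_of_nonneg (by positivity)]
  calc (1 + t) * env ε C t ≤ (1 + t) * (C / (1 + t) ^ 3) :=
        mul_le_mul_of_nonneg_left h1 (by positivity)
    _ = C * ((1 + t) ^ 2)⁻¹ := by field_simp
    _ ≤ C * (1 + t ^ 2)⁻¹ := by
        refine mul_le_mul_of_nonneg_left ?_ hC
        exact inv_anti₀ (by positivity) (by nlinarith)

lemma min_le_geom {x y s : ℝ} (hx : 0 ≤ x) (hy : 0 ≤ y) (hs0 : 0 < s) (hs1 : s < 1) :
    min x y ≤ x ^ (1 - s) * y ^ s := by
  have hm : 0 ≤ min x y := le_min hx hy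
  calc min x y = min x y ^ ((1 - s) + s) := by simp
    _ = min x y ^ (1 - s) * min x y ^ s := Real.rpow_add' hm (by simp)
    _ ≤ x ^ (1 - s) * y ^ s :=
        mul_le_mul (Real.rpow_le_rpow hm (min_le_left _ _) (by linarith))
          (Real.rpow_le_rpow hm (min_le_right _ _) hs0.le) (by positivity) (by positivity)

lemma log_pt {A B η t s : ℝ} (p : ℕ) (hA : 0 ≤ A) (hB : 0 ≤ B) (hη : 0 < η) (ht : 0 < t)
    (hs0 : 0 < s) (hs1 : s < 1) (hsp : 1 - s = 1 / 2 + p * s) :
    ‖(1 + t) * min (A * η / (1 + t) ^ 2) (B / (η ^ p * (1 + t) ^ 3))‖ ≤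
      A ^ (1 - s) * B ^ s * η ^ (1 / 2 : ℝ) * (t + 1) ^ (-(1 + s)) := by
  have hT : 0 < 1 + t := by linarith
  have hx : 0 ≤ A * η / (1 + t) ^ 2 := by positivity
  have hy : 0 ≤ B / (η ^ p * (1 + t) ^ 3) := by positivity
  rw [Real.norm_eq_abs, abs_of_nonneg (mul_nonneg hT.le (le_min hx hy))]
  refine (mul_le_mul_of_nonneg_left (min_le_geom hx hy hs0 hs1) hT.le).trans (le_of_eq ?_)
  rw [add_comm t 1]
  generalize 1 + t = T at hT
  have e1 : (T ^ 2) ^ (1 - s) = T ^ (2 * (1 - s)) := by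
    rw [Real.rpow_mul hT.le]; norm_num
  have e2 : (T ^ 3) ^ s = T ^ (3 * s) := by
    rw [Real.rpow_mul hT.le]; norm_num
  have e3 : (η ^ p) ^ s = η ^ ((p : ℝ) * s) := by
    rw [Real.rpow_mul hη.le]; norm_num
  have e4 : η ^ (1 - s) = η ^ (1 / 2 : ℝ) * η ^ ((p : ℝ) * s) := by
    rw [hsp, Real.rpow_add hη]
  have e5 : T ^ (2 * (1 - s)) * T ^ (3 * s) * T ^ (-(1 + s)) = T := by
    rw [← Real.rpow_add hT, ← Real.rpow_add hT]
    have : 2 * (1 - s) + 3 * s + -(1 + s) = 1 := by ring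
    rw [this, Real.rpow_one]
  rw [Real.div_rpow (by positivity) (by positivity), Real.div_rpow hB (by positivity),
    Real.mul_rpow hA hη.le, Real.mul_rpow (by positivity) (by positivity), e1, e2, e3, e4]
  have p1 : 0 < T ^ (2 * (1 - s)) := by positivity
  have p2 : 0 < T ^ (3 * s) := by positivity
  have p3 : 0 < η ^ ((p : ℝ) * s) := by positivity
  generalize T ^ (2 * (1 - s)) = a at *
  generalize T ^ (3 * s) = b at *
  generalize T ^ (-(1 + s)) = c at *
  generalize η ^ ((p : ℝ) * s) = d at *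
  rw [← e5]
  field_simp

end CarAux

lemma env_integrableOn {ε C : ℝ} (hε : 0 ≤ ε) (hC : 0 ≤ C) :
    IntegrableOn (fun t => (1 + t) * env ε C t) (Ioi 0) := by
  refine Integrable.mono' (g := fun t : ℝ => C * (1 + t ^ 2)⁻¹)
    (integrable_inv_one_add_sq.const_mul C).integrableOn ?_ ?_
  · refine Measurable.aestronglyMeasurable ?_
    unfold env
    fun_prop
  · filter_upwards [ae_restrict_mem measurableSet_Ioi] with t ht
    exact CarAux.env_le hε hC (le_of_lt ht)

lemma env_small {C e : ℝ} (hC : 0 ≤ C) (he : 0 < e) :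
    ∃ ε > 0, ∫ t in Ioi 0, (1 + t) * env ε C t ≤ e := by
  have hlim : Tendsto (fun ε : ℝ => ∫ t in Ioi 0, (1 + t) * env ε C t) (𝓝[>] 0)
      (𝓝 (∫ _t in Ioi (0 : ℝ), (0 : ℝ))) := by
    refine tendsto_integral_filter_of_dominated_convergence (fun t : ℝ => C * (1 + t ^ 2)⁻¹)
      ?_ ?_ (integrable_inv_one_add_sq.const_mul C).integrableOn ?_
    · refine Eventually.of_forall fun ε => Measurable.aestronglyMeasurable ?_
      unfold env
      fun_prop
    · filter_upwards [self_mem_nhdsWithin] with ε hε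
      filter_upwards [ae_restrict_mem measurableSet_Ioi] with t ht
      exact CarAux.env_le (le_of_lt hε) hC (le_of_lt ht)
    · filter_upwards [ae_restrict_mem measurableSet_Ioi] with t ht
      have ht0 : (0 : ℝ) < t := ht
      have h1 : Continuous fun ε : ℝ => (1 + t) * env ε C t := by
        unfold env
        fun_prop
      have h2 : (1 + t) * env 0 C t = 0 := by
        unfold env
        rw [min_eq_left (by positivity), mul_zero]
      have h3 := h1.tendsto 0
      rw [h2] at h3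
      exact h3.mono_left nhdsWithin_le_nhds
  rw [integral_zero] at hlim
  obtain ⟨ε, h1, h2⟩ :=
    ((hlim.eventually (ge_mem_nhds he)).and self_mem_nhdsWithin).exists
  exact ⟨ε, h2, h1⟩

/-- `∫ (1+t) min (A η/(1+t)², B / (η^p (1+t)³)) → 0` as `η → 0` (it is `O(η log (1/η))`) -/
lemma log_small {A B e : ℝ} (p : ℕ) (hA : 0 ≤ A) (hB : 0 ≤ B) (he : 0 < e) :
    ∃ η₀ > 0, ∀ η, 0 < η → η ≤ η₀ →
      IntegrableOn (fun t => (1 + t) * min (A * η / (1 + t) ^ 2) (B / (η ^ p * (1 + t) ^ 3)))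
        (Ioi 0) ∧
      ∫ t in Ioi 0, (1 + t) * min (A * η / (1 + t) ^ 2) (B / (η ^ p * (1 + t) ^ 3)) ≤ e := by
  set s : ℝ := 1 / (2 * ((p : ℝ) + 1)) with hs
  have hp : (0 : ℝ) ≤ p := Nat.cast_nonneg p
  have hs0 : 0 < s := by positivity
  have hs1 : s < 1 := by
    rw [hs, div_lt_one (by positivity)]; linarith
  have hsp : 1 - s = 1 / 2 + p * s := by
    rw [hs]; field_simp; ring
  have hJ : IntegrableOn (fun t : ℝ => (t + 1) ^ (-(1 + s))) (Ioi 0) :=
    integrableOn_add_rpow_Ioi_of_lt (by linarith) (by norm_num)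
  set J : ℝ := ∫ t in Ioi (0 : ℝ), (t + 1) ^ (-(1 + s)) with hJdef
  have hJ0 : 0 ≤ J := by
    refine setIntegral_nonneg measurableSet_Ioi fun t ht => ?_
    have : (0 : ℝ) < t := ht
    positivity
  set K : ℝ := A ^ (1 - s) * B ^ s with hK
  have hK0 : 0 ≤ K := by positivity
  refine ⟨(e / (K * J + 1)) ^ 2, by positivity, fun η hη hηe => ?_⟩
  have hb : ∀ t ∈ Ioi (0 : ℝ),
      ‖(1 + t) * min (A * η / (1 + t) ^ 2) (B / (η ^ p * (1 + t) ^ 3))‖ ≤
        K * η ^ (1 / 2 : ℝ) * (t + 1) ^ (-(1 + s)) := by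
    intro t ht
    have ht0 : (0 : ℝ) < t := ht
    exact CarAux.log_pt p hA hB hη ht0 hs0 hs1 hsp
  have hint : IntegrableOn
      (fun t => (1 + t) * min (A * η / (1 + t) ^ 2) (B / (η ^ p * (1 + t) ^ 3))) (Ioi 0) := by
    refine Integrable.mono' (hJ.const_mul (K * η ^ (1 / 2 : ℝ))) ?_ ?_
    · refine Measurable.aestronglyMeasurable ?_
      fun_prop
    · filter_upwards [ae_restrict_mem measurableSet_Ioi] with t ht
      exact hb t ht
  refine ⟨hint, ?_⟩
  have h1 : ∫ t in Ioi 0, (1 + t) * min (A * η / (1 + t) ^ 2) (B / (η ^ p * (1 + t) ^ 3)) ≤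
      ∫ t in Ioi (0 : ℝ), K * η ^ (1 / 2 : ℝ) * (t + 1) ^ (-(1 + s)) :=
    setIntegral_mono_on hint (hJ.const_mul _) measurableSet_Ioi
      fun t ht => (le_abs_self _).trans (hb t ht)
  rw [integral_const_mul, ← hJdef] at h1
  refine h1.trans ?_
  have h2 : η ^ (1 / 2 : ℝ) ≤ e / (K * J + 1) := by
    rw [← Real.sqrt_eq_rpow]
    exact Real.sqrt_le_iff.mpr ⟨by positivity, hηe⟩
  have h3 : 0 ≤ K * J := mul_nonneg hK0 hJ0
  calc K * η ^ (1 / 2 : ℝ) * J = η ^ (1 / 2 : ℝ) * (K * J) := by ring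
    _ ≤ e / (K * J + 1) * (K * J + 1) :=
        mul_le_mul h2 (by linarith) h3 (by positivity)
    _ = e := by field_simp

end Vale.Agent.P078
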