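import Vale.Agent.P078.Part
import Vale.Agent.P078.Gns
import Vale.Agent.P078.NormalAux

/-! Supports, normal and singular parts.  See PROOF.md, section Normal. -/

namespace Vale.Agent.P078

open Filter Topology
open scoped ComplexOrder InnerProductSpace

universe u

variable {M : Type u} [CStarAlgebra M] [PartialOrder M] [StarOrderedRing M]

/-- `p` is the support of `φ` -/
def IsSupp (φ : M →ₚ[ℂ] ℂ) (p : M) : Prop :=
  IsStarProjection p ∧ φ (1 - p) = 0 ∧ ∀ x, φ (star x * x) = 0 → x * p = 0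

namespace NormalAux

lemma re_nonneg (φ : M →ₚ[ℂ] ℂ) {c : M} (hc : 0 ≤ c) : 0 ≤ (φ c).re :=
  (Complex.nonneg_iff.1 (φ.map_nonneg hc)).1

lemma eq_zero_of_re (φ : M →ₚ[ℂ] ℂ) {c : M} (hc : 0 ≤ c) (h : (φ c).re ≤ 0) : φ c = 0 := by
  have := Complex.nonneg_iff.1 (φ.map_nonneg hc)
  exact Complex.ext (le_antisymm h this.1) this.2.symm

lemma re_pos (φ : M →ₚ[ℂ] ℂ) {c : M} (hc : 0 ≤ c) (h : φ c ≠ 0) : 0 < (φ c).re :=
  lt_of_not_ge fun k => h (eq_zero_of_re φ hc k)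

lemma proj_mul_eq_zero (φ : M →ₚ[ℂ] ℂ) {e : M} (he : IsStarProjection e) (h : φ e = 0) (y : M) :
    φ (e * y) = 0 := by
  have h1 := norm_apply_le_nrm φ e y
  have h2 : nrm φ e = 0 := by
    rw [nrm, he.isSelfAdjoint.star_eq, he.isIdempotentElem.eq, h, Complex.zero_re, Real.sqrt_zero]
  rw [h2, zero_mul, he.isSelfAdjoint.star_eq] at h1
  exact norm_le_zero_iff.1 h1

lemma eq_zero_of_add {x y : M} (h : star x * x + star y * y = 0) : x = 0 ∧ y = 0 := by
  have h1 := (add_eq_zero_iff_of_nonneg (star_mul_self_nonneg x) (star_mul_self_nonneg y)).1 h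
  exact ⟨(CStarRing.star_mul_self_eq_zero_iff x).1 h1.1,
    (CStarRing.star_mul_self_eq_zero_iff y).1 h1.2⟩

lemma sub_proj {e f : M} (he : IsStarProjection e) (hf : IsStarProjection f) (h : e ≤ f) :
    IsStarProjection (f - e) := he.sub_of_mul_eq_left hf ((he.le_iff_mul_eq_left hf).1 h)

lemma add_proj {q h f g : M} (hq : IsStarProjection q) (hh : IsStarProjection h)
    (hf : IsStarProjection f) (hg : IsStarProjection g) (h1 : q ≤ h) (h2 : h ≤ g)
    (h3 : f ≤ g - h) : IsStarProjection (q + f) := by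
  refine hq.add hf ?_
  have a1 : q * h = q := (hq.le_iff_mul_eq_left hh).1 h1
  have a2 : h * g = h := (hh.le_iff_mul_eq_left hg).1 h2
  have a3 : (g - h) * f = f := (hf.le_iff_mul_eq_right (sub_proj hh hg h2)).1 h3
  rw [← a1, ← a3, mul_assoc, ← mul_assoc h, mul_sub, a2, hh.isIdempotentElem.eq, sub_self,
    zero_mul, mul_zero]

/-- `hat` as a linear map -/
noncomputable def hatL (ω : M →ₚ[ℂ] ℂ) : M →ₗ[ℂ] ω.GNS where
  toFun := hat ω
  map_add' := hat_add ω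
  map_smul' := hat_smul ω

variable {H : Type*} [NormedAddCommGroup H] [InnerProductSpace ℂ H] [CompleteSpace H]

/-- vector functional -/
noncomputable def vecP (π : M →⋆ₐ[ℂ] (H →L[ℂ] H)) (η : H) : M →ₚ[ℂ] ℂ :=
  PositiveLinearMap.mk₀
    { toFun := fun x => ⟪η, π x η⟫_ℂ
      map_add' := fun x y => by simp [inner_add_right]
      map_smul' := fun c x => by simp [inner_smul_right] }
    fun x hx => by
      obtain ⟨s, rfl⟩ := CStarAlgebra.nonneg_iff_eq_star_mul_self.1 hx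
      change 0 ≤ ⟪η, π (star s * s) η⟫_ℂ
      rw [map_mul, map_star, ContinuousLinearMap.mul_apply, inner_star_right,
        inner_self_eq_norm_sq_to_K]
      exact pow_nonneg (Complex.zero_le_real.2 (norm_nonneg (π s η))) 2

lemma vecP_apply (π : M →⋆ₐ[ℂ] (H →L[ℂ] H)) (η : H) (x : M) : vecP π η x = ⟪η, π x η⟫_ℂ := rfl

lemma norm_coef_le (π : M →⋆ₐ[ℂ] (H →L[ℂ] H)) (ζ η : H) (x : M) :
    ‖⟪ζ, π x η⟫_ℂ‖ ≤ ‖ζ‖ * ‖η‖ * ‖x‖ := by
  refine (norm_inner_le_norm _ _).trans ?_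
  rw [mul_assoc]
  refine mul_le_mul_of_nonneg_left (((π x).le_opNorm η).trans ?_) (norm_nonneg _)
  rw [mul_comm]
  exact mul_le_mul_of_nonneg_left (NonUnitalStarAlgHom.norm_apply_le π x) (norm_nonneg _)

variable (𝒲 : WAlg M)

lemma normal_zero : 𝒲.Normal fun _ => 0 := fun _ _ _ _ _ => tendsto_const_nhds

lemma normal_closed_left (π : M →⋆ₐ[ℂ] (H →L[ℂ] H)) (η : H) :
    IsClosed {ζ : H | 𝒲.Normal fun x => ⟪ζ, π x η⟫_ℂ} := by
  refine isClosed_of_closure_subset fun ζ hζ => WAlg.Normal.of_approx fun ε hε => ?_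
  obtain ⟨ζ', h1, h2⟩ := Metric.mem_closure_iff.1 hζ (ε / (‖η‖ + 1)) (by positivity)
  refine ⟨_, h1, fun x => ?_⟩
  rw [← inner_sub_left]
  refine (norm_coef_le π _ _ x).trans (mul_le_mul_of_nonneg_right ?_ (norm_nonneg _))
  rw [dist_eq_norm, lt_div_iff₀ (by positivity)] at h2
  nlinarith [norm_nonneg (ζ - ζ')]

/-- the normal vectors -/
def nv (π : M →⋆ₐ[ℂ] (H →L[ℂ] H)) : Submodule ℂ H where
  carrier := {η | ∀ ζ, 𝒲.Normal fun x => ⟪ζ, π x η⟫_ℂ}
  add_mem' := fun ha hb ζ => by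
    simpa only [map_add, inner_add_right] using (ha ζ).add (hb ζ)
  zero_mem' := fun ζ => by simpa only [map_zero, inner_zero_right] using normal_zero 𝒲
  smul_mem' := fun c η hη ζ => by
    simpa only [map_smul, inner_smul_right] using (hη ζ).const_mul c

lemma nv_closed (π : M →⋆ₐ[ℂ] (H →L[ℂ] H)) : IsClosed (nv 𝒲 π : Set H) := by
  refine isClosed_of_closure_subset fun η hη ζ => WAlg.Normal.of_approx fun ε hε => ?_
  obtain ⟨η', h1, h2⟩ := Metric.mem_closure_iff.1 hη (ε / (‖ζ‖ + 1)) (by positivity)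
  refine ⟨_, h1 ζ, fun x => ?_⟩
  rw [← inner_sub_right, ← map_sub]
  refine (norm_coef_le π _ _ x).trans (mul_le_mul_of_nonneg_right ?_ (norm_nonneg _))
  rw [dist_eq_norm, lt_div_iff₀ (by positivity)] at h2
  nlinarith [norm_nonneg (η - η')]

lemma nv_pi (π : M →⋆ₐ[ℂ] (H →L[ℂ] H)) (a : M) : ∀ η ∈ nv 𝒲 π, π a η ∈ nv 𝒲 π := by
  intro η hη ζ
  simpa only [one_mul, map_mul, ContinuousLinearMap.mul_apply] using (hη ζ).mul 1 a

lemma nv_comm (π : M →⋆ₐ[ℂ] (H →L[ℂ] H)) {T : H →L[ℂ] H} (hT : ∀ x, π x * T = T * π x) :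
    ∀ η ∈ nv 𝒲 π, T η ∈ nv 𝒲 π := by
  intro η hη ζ
  have e : ∀ x, ⟪ζ, π x (T η)⟫_ℂ = ⟪star T ζ, π x η⟫_ℂ := fun x => by
    rw [inner_star_left, ← ContinuousLinearMap.mul_apply, hT, ContinuousLinearMap.mul_apply]
  simp only [e]
  exact hη _

lemma mem_nv (π : M →⋆ₐ[ℂ] (H →L[ℂ] H)) {η : H} (h : 𝒲.Normal (vecP π η)) : η ∈ nv 𝒲 π := by
  intro ζ
  let j : M →ₗ[ℂ] H :=
    { toFun := fun b => π b η
      map_add' := fun x y => by simp
      map_smul' := fun c x => by simp }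
  let L := (LinearMap.range j).topologicalClosure
  have e : ∀ x, ⟪ζ, π x η⟫_ℂ = ⟪L.starProjection ζ, π x η⟫_ℂ := fun x => by
    rw [← sub_eq_zero, ← inner_sub_left]
    exact L.starProjection_inner_eq_zero ζ _ (Submodule.le_topologicalClosure _ ⟨x, rfl⟩)
  simp only [e]
  refine (normal_closed_left 𝒲 π η).closure_subset_iff.2 ?_ (L.starProjection_apply_mem ζ)
  rintro _ ⟨b, rfl⟩
  have e2 : ∀ x, ⟪j b, π x η⟫_ℂ = vecP π η (star b * x * 1) := fun x => by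
    rw [vecP_apply, mul_one, map_mul, map_star, ContinuousLinearMap.mul_apply, inner_star_right]
    rfl
  change 𝒲.Normal fun x => ⟪j b, π x η⟫_ℂ
  simp only [e2]
  exact h.mul _ _

include 𝒲 in
lemma le_of_proj {ψ ω : M →ₚ[ℂ] ℂ} {f : M} (hf : IsStarProjection f) {C : ℝ} (hC : 0 ≤ C)
    (h : ∀ f', IsStarProjection f' → f' ≤ f → (ψ f').re ≤ C * (ω f').re) (c : M) (hc : 0 ≤ c) :
    (conjP ψ f c).re ≤ C * (conjP ω f c).re := by
  rw [conjP_apply, conjP_apply, hf.isSelfAdjoint.star_eq]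
  set b := f * c * f with hb
  have hb0 : 0 ≤ b := hf.isSelfAdjoint.conjugate_nonneg hc
  have hfb : f * b = b := by rw [hb, ← mul_assoc, ← mul_assoc, hf.isIdempotentElem.eq]
  have hbf : b * f = b := by rw [hb, mul_assoc, hf.isIdempotentElem.eq]
  refine le_of_forall_pos_le_add fun ε hε => ?_
  have hK : 0 < (ψ 1).re + C * (ω 1).re + 1 := by
    have := re_nonneg ψ zero_le_one
    have := mul_nonneg hC (re_nonneg ω zero_le_one)
    linarith
  obtain ⟨n, e, r, h1, -, -, h4, h5, h6⟩ := 𝒲.exists_simple hb0.isSelfAdjoint (div_pos hε hK)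
  have hcm : ∀ i, Commute f (e i) := fun i => h4 i f (hfb.trans hbf.symm)
  set d := f * (b - ∑ i, r i • e i) with hd
  have hd1 : ‖d‖ ≤ ε / ((ψ 1).re + C * (ω 1).re + 1) :=
    (norm_mul_le _ _).trans ((mul_le_of_le_one_left (norm_nonneg _) hf.norm_le).trans h6)
  have e1 : b = d + ∑ i, (r i : ℂ) • (f * e i) := by
    rw [hd, mul_sub, hfb, Finset.mul_sum]
    simp only [mul_smul_comm, Complex.coe_smul, sub_add_cancel]
  have e2 : ∀ θ : M →ₚ[ℂ] ℂ, (θ b).re = (θ d).re + ∑ i, r i * (θ (f * e i)).re := fun θ => by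
    conv_lhs => rw [e1]
    simp only [map_add, map_sum, map_smul, Complex.add_re, Complex.re_sum, smul_eq_mul,
      Complex.re_ofReal_mul]
  have e3 : ∑ i, r i * (ψ (f * e i)).re ≤ C * ∑ i, r i * (ω (f * e i)).re := by
    rw [Finset.mul_sum]
    refine Finset.sum_le_sum fun i _ => ?_
    have k := h _ (hf.mul (h1 i) (hcm i)) (((hf.mul (h1 i) (hcm i)).le_iff_mul_eq_right hf).2
      (by rw [← mul_assoc, hf.isIdempotentElem.eq]))
    rw [mul_left_comm]
    exact mul_le_mul_of_nonneg_left k (h5 hb0 i)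
  have e4 : ∀ θ : M →ₚ[ℂ] ℂ, |(θ d).re| ≤ (θ 1).re * ‖d‖ := fun θ =>
    (Complex.abs_re_le_norm _).trans (norm_apply_le_one_mul θ d)
  have e5 := (abs_le.1 (e4 ψ)).2
  have e6 := mul_le_mul_of_nonneg_left (abs_le.1 (e4 ω)).1 hC
  rw [le_div_iff₀ hK] at hd1
  rw [e2 ψ, e2 ω]
  nlinarith [norm_nonneg d]

end NormalAux

open NormalAux

namespace WAlg

variable (𝒲 : WAlg M)

/-- Zorn: `1 - p` is a maximal projection killed by `φ` (`exists_sup_chain`, `exists_range`) -/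
theorem exists_supp {φ : M →ₚ[ℂ] ℂ} (hφ : 𝒲.Normal φ) : ∃ p, IsSupp φ p := by
  obtain ⟨q, -, hq⟩ := zorn_le_nonempty₀ {e : M | IsStarProjection e ∧ φ e = 0}
    (fun c hc hch y hy => by
      obtain ⟨p, h1, h2, -, h4⟩ := 𝒲.exists_sup_chain (fun e he => (hc he).1) hch ⟨y, hy⟩
      refine ⟨p, ⟨h1, eq_zero_of_re φ h1.nonneg (le_of_forall_pos_le_add fun ε hε => ?_)⟩, h2⟩
      obtain ⟨e, he, k⟩ := h4 φ hφ ε hε
      rw [map_sub, (hc he).2, sub_zero] at k
      linarith) 0 ⟨IsStarProjection.zero M, map_zero φ⟩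
  obtain ⟨hq1, hq2⟩ := hq.prop
  refine ⟨1 - q, hq1.one_sub, by rwa [sub_sub_cancel], fun x hx => ?_⟩
  obtain ⟨ρ, h1, h2, -, h4, -⟩ :=
    𝒲.exists_range (add_nonneg (star_mul_self_nonneg x) hq1.nonneg)
  have h5 : φ ρ = 0 := h4 φ hφ (by rw [map_add, hx, hq2, add_zero])
  have h6 : star (x * (1 - ρ)) * (x * (1 - ρ)) + star (q * (1 - ρ)) * (q * (1 - ρ)) = 0 := by
    have k : (1 - ρ) * (star x * x + q) * (1 - ρ) = 0 := by
      rw [sub_mul, one_mul, h2, sub_self, zero_mul]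
    rw [star_mul, star_mul, h1.one_sub.isSelfAdjoint.star_eq, hq1.isSelfAdjoint.star_eq, ← k,
      mul_add, add_mul]
    congr 1
    · simp only [mul_assoc]
    · rw [mul_assoc, ← mul_assoc q, hq1.isIdempotentElem.eq, mul_assoc]
  obtain ⟨h7, h8⟩ := eq_zero_of_add h6
  have h9 : q ≤ ρ := (hq1.le_iff_mul_eq_left h1).2 (by
    rw [mul_sub, mul_one, sub_eq_zero] at h8
    exact h8.symm)
  rwa [le_antisymm h9 (hq.le_of_ge ⟨h1, h5⟩ h9)]

omit 𝒲 in
/-- `(1 - p) a p = 0` for `a ∈ A` -/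
lemma _root_.Vale.Agent.P078.IsSupp.mem {A : StarSubalgebra ℂ M} (hA : IsMasa A) {φ : M →ₚ[ℂ] ℂ}
    (hc : Central A φ) {p : M} (hp : IsSupp φ p) : p ∈ A := by
  obtain ⟨h1, h2, h3⟩ := hp
  have key : ∀ a ∈ A, a * p = p * a * p := fun a ha => by
    have k := h3 ((1 - p) * a) (by
      rw [star_mul, h1.one_sub.isSelfAdjoint.star_eq, mul_assoc, ← mul_assoc (1 - p),
        h1.one_sub.isIdempotentElem.eq, hc _ (star_mem ha), mul_assoc]
      exact proj_mul_eq_zero φ h1.one_sub h2 _)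
    rwa [sub_mul, sub_mul, one_mul, sub_eq_zero] at k
  refine (hA p).2 fun a ha => ?_
  have k := congrArg star (key _ (star_mem ha))
  simp only [star_mul, star_star, h1.isSelfAdjoint.star_eq] at k
  rw [key a ha, mul_assoc, ← k]

/-- In the GNS space of `ω`, `θ x = ⟪η, hat x⟫` for some `η` (Cauchy-Schwarz and Riesz);
approximate `η` by `hat b` and use `Normal.of_approx`. -/
theorem normal_of_le {θ ω : M →ₚ[ℂ] ℂ} (hω : 𝒲.Normal ω) {C : ℝ}
    (h : ∀ c, 0 ≤ c → (θ c).re ≤ C * (ω c).re) : 𝒲.Normal θ := by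
  have hn : ∀ x, ‖θ.toLinearMap x‖ ≤ nrm θ 1 * √C * ‖hatL ω x‖ := fun x => by
    have h1 := norm_apply_le_nrm θ 1 x
    rw [star_one, one_mul] at h1
    refine h1.trans ?_
    rw [mul_assoc]
    refine mul_le_mul_of_nonneg_left ?_ (nrm_nonneg _ _)
    change _ ≤ √C * ‖hat ω x‖
    rw [norm_hat, nrm, nrm, ← Real.sqrt_mul' _ (re_nonneg ω (star_mul_self_nonneg x))]
    exact Real.sqrt_le_sqrt (h _ (star_mul_self_nonneg x))
  set η := (InnerProductSpace.toDual ℂ ω.GNS).symm (θ.toLinearMap.extendOfNorm (hatL ω))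
  have hη : ∀ x, θ x = ⟪η, hat ω x⟫_ℂ := fun x => by
    rw [InnerProductSpace.toDual_symm_apply]
    exact (LinearMap.extendOfNorm_eq (e := hatL ω) (denseRange_hat ω) ⟨_, hn⟩ x).symm
  refine Normal.of_approx fun ε hε => ?_
  have h0 := nrm_nonneg ω 1
  obtain ⟨b, hb⟩ := (denseRange_hat ω).exists_dist_lt η (div_pos hε (by positivity : 0 < nrm ω 1 + 1))
  refine ⟨_, hω.mul (Star.star b) 1, fun x => ?_⟩
  rw [mul_one, hη, ← inner_hat, ← inner_sub_left]
  refine (norm_inner_le_norm _ _).trans ?_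
  rw [norm_hat]
  rw [dist_eq_norm, lt_div_iff₀ (by positivity)] at hb
  calc ‖η - hat ω b‖ * nrm ω x ≤ ‖η - hat ω b‖ * (‖x‖ * nrm ω 1) :=
        mul_le_mul_of_nonneg_left (nrm_le_norm ω x) (norm_nonneg _)
    _ = ‖η - hat ω b‖ * nrm ω 1 * ‖x‖ := by ring
    _ ≤ ε * ‖x‖ := mul_le_mul_of_nonneg_right (by nlinarith [norm_nonneg (η - hat ω b)])
        (norm_nonneg _)

/-- In the GNS space of `ψ` let `z` be the projection onto the closed subspace of the `η` such that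
`x ↦ ⟪ζ, π x η⟫` is normal for all `ζ`; it commutes with `π(M)` and with `π(M)'`. -/
theorem exists_normal_part (ψ : M →ₚ[ℂ] ℂ) : ∃ ψn ψs : M →ₚ[ℂ] ℂ, (∀ x, ψ x = ψn x + ψs x) ∧
    𝒲.Normal ψn ∧ (∀ q, 𝒲.Normal (conjP ψs q) → ψs (star q * q) = 0) ∧
    ∀ A : StarSubalgebra ℂ M, IsMasa A → Central A ψ → Central A ψn := by
  set π := ψ.gnsStarAlgHom
  set ξ := hat ψ 1
  set K := nv 𝒲 π
  haveI : CompleteSpace K := (nv_closed 𝒲 π).completeSpace_coe
  have hc : ∀ a η, K.starProjection (π a η) = π a (K.starProjection η) := fun a =>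
    proj_comm K (nv_pi 𝒲 π a) (by rw [← map_star]; exact nv_pi 𝒲 π _)
  have hmem := K.starProjection_apply_mem ξ
  have horth := K.starProjection_inner_eq_zero ξ
  have hψ : ∀ x, ψ x = ⟪ξ, π x ξ⟫_ℂ := fun x => by
    rw [gns_hat, inner_hat, star_one, one_mul, mul_one]
  have hn : ∀ x, vecP π (K.starProjection ξ) x = ⟪ξ, π x (K.starProjection ξ)⟫_ℂ := fun x => by
    rw [vecP_apply, eq_comm, ← sub_eq_zero, ← inner_sub_left]
    exact horth _ (nv_pi 𝒲 π x _ hmem)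
  have hperp : ∀ x, π x (ξ - K.starProjection ξ) ∈ Kᗮ := fun x => by
    rw [map_sub, ← hc]
    exact K.sub_starProjection_mem_orthogonal _
  refine ⟨vecP π (K.starProjection ξ), vecP π (ξ - K.starProjection ξ), fun x => ?_,
    hmem _, fun q hq => ?_, fun A hA hcen a ha x => ?_⟩
  · rw [hn, vecP_apply, inner_sub_left, Submodule.inner_right_of_mem_orthogonal hmem (hperp x),
      sub_zero, ← inner_add_right, ← map_add, add_sub_cancel, hψ]
  · have e : ∀ x, conjP (vecP π (ξ - K.starProjection ξ)) q x =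
        vecP π (π q (ξ - K.starProjection ξ)) x := fun x => by
      rw [conjP_apply, vecP_apply, vecP_apply, map_mul, map_mul, map_star,
        ContinuousLinearMap.mul_apply, ContinuousLinearMap.mul_apply, inner_star_right]
    have h1 : π q (ξ - K.starProjection ξ) ∈ K := mem_nv 𝒲 π (by
      rw [← funext e]; exact hq)
    rw [vecP_apply, map_mul, map_star, ContinuousLinearMap.mul_apply, inner_star_right]
    exact Submodule.inner_right_of_mem_orthogonal h1 (hperp q)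
  · have hb : ∃ C, ∀ y, ‖(hatL ψ ∘ₗ LinearMap.mulRight ℂ a) y‖ ≤ C * ‖hatL ψ y‖ :=
      ⟨‖a‖, fun y => by
        change ‖hat ψ (y * a)‖ ≤ ‖a‖ * ‖hat ψ y‖
        rw [norm_hat, norm_hat]
        exact central_nrm_mul_le hA hcen y ha⟩
    set T := (hatL ψ ∘ₗ LinearMap.mulRight ℂ a).extendOfNorm (hatL ψ)
    have hT : ∀ y, T (hat ψ y) = hat ψ (y * a) := fun y =>
      LinearMap.extendOfNorm_eq (e := hatL ψ) (denseRange_hat ψ) hb y
    have hTc : ∀ y, π y * T = T * π y := fun y => by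
      ext η
      refine (denseRange_hat ψ).induction_on η (isClosed_eq (by fun_prop) (by fun_prop))
        fun z => ?_
      rw [ContinuousLinearMap.mul_apply, ContinuousLinearMap.mul_apply, hT, gns_hat, gns_hat, hT,
        mul_assoc]
    have hTc' : ∀ y, π y * star T = star T * π y := fun y => by
      have := congrArg star (hTc (star y))
      rw [star_mul, star_mul, ← map_star, star_star] at this
      exact this.symm
    have hz := proj_comm K (nv_comm 𝒲 π hTc) (nv_comm 𝒲 π hTc') ξ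
    have hξ : ∀ η, ⟪ξ, T η⟫_ℂ = ⟪ξ, π a η⟫_ℂ := fun η => by
      refine (denseRange_hat ψ).induction_on η (isClosed_eq (by fun_prop) (by fun_prop))
        fun z => ?_
      rw [hT, gns_hat, inner_hat, inner_hat, star_one, one_mul, one_mul, hcen a ha]
    have hTξ : T ξ = π a ξ := by rw [hT, gns_hat, one_mul, mul_one]
    rw [hn, hn, map_mul, map_mul, ContinuousLinearMap.mul_apply, ContinuousLinearMap.mul_apply,
      ← hc a, ← hTξ, hz, ← ContinuousLinearMap.mul_apply (π x) T, hTc,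
      ContinuousLinearMap.mul_apply, hξ]

/-- Takesaki -/
theorem exists_killed {ψ ω : M →ₚ[ℂ] ℂ} (hω : 𝒲.Normal ω)
    (hψ : ∀ q, 𝒲.Normal (conjP ψ q) → ψ (star q * q) = 0) {e : M} (he : IsStarProjection e)
    (h : ω e ≠ 0) : ∃ f, IsStarProjection f ∧ f ≤ e ∧ ω f ≠ 0 ∧ ψ f = 0 := by
  have hωe := re_pos ω he.nonneg h
  set C := ((ψ e).re + 1) / (ω e).re with hC
  have hC0 : 0 < C := div_pos (by linarith [re_nonneg ψ he.nonneg]) hωe
  have hCe : C * (ω e).re = (ψ e).re + 1 := div_mul_cancel₀ _ hωe.ne'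
  obtain ⟨m, -, hm⟩ := zorn_le_nonempty₀
    {g : M | IsStarProjection g ∧ g ≤ e ∧ C * (ω g).re ≤ (ψ g).re}
    (fun c hc hch y hy => by
      obtain ⟨p, h1, h2, h3, h4⟩ := 𝒲.exists_sup_chain (fun e he => (hc he).1) hch ⟨y, hy⟩
      refine ⟨p, ⟨h1, h3 e fun g hg => (hc hg).2.1,
        le_of_forall_pos_le_add fun ε hε => ?_⟩, h2⟩
      obtain ⟨g, hg, k⟩ := h4 ω hω (ε / C) (div_pos hε hC0)
      rw [map_sub, Complex.sub_re, lt_div_iff₀ hC0] at k
      have k1 := (hc hg).2.2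
      have k2 := re_mono ψ (h2 g hg)
      linarith) 0 ⟨IsStarProjection.zero M, he.nonneg, by simp⟩
  obtain ⟨m1, m2, m3⟩ := hm.prop
  have hf := sub_proj m1 he m2
  refine ⟨e - m, hf, sub_le_self _ m1.nonneg, fun k => ?_, ?_⟩
  · have k1 := congrArg Complex.re k
    rw [map_sub, Complex.sub_re, Complex.zero_re, sub_eq_zero] at k1
    have k2 := re_mono ψ m2
    rw [← k1] at m3
    linarith
  · have k := hψ (e - m) (𝒲.normal_of_le (hω.conjP (e - m)) (le_of_proj 𝒲 hf hC0.le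
      fun f' h1 h2 => ?_))
    · rwa [hf.isSelfAdjoint.star_eq, hf.isIdempotentElem.eq] at k
    · by_contra hlt
      push Not at hlt
      have k1 : m + f' ≤ m := hm.le_of_ge ⟨add_proj m1 m1 h1 he le_rfl m2 h2,
        le_sub_iff_add_le'.1 h2, by
          rw [map_add, map_add, Complex.add_re, Complex.add_re]
          linarith⟩ (le_add_of_nonneg_right h1.nonneg)
      rw [le_antisymm (add_le_iff_nonpos_right m |>.1 k1) h1.nonneg] at hlt
      simp at hlt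

theorem exists_killed_large {ψ ω : M →ₚ[ℂ] ℂ} (hω : 𝒲.Normal ω)
    (hψ : ∀ q, 𝒲.Normal (conjP ψ q) → ψ (star q * q) = 0) {g : M} (hg : IsStarProjection g)
    {δ : ℝ} (hδ : 0 < δ) : ∃ q, IsStarProjection q ∧ q ≤ g ∧ ψ q = 0 ∧ (ω (g - q)).re ≤ δ := by
  obtain ⟨m, -, hm⟩ := zorn_le_nonempty₀
    {h : M | IsStarProjection h ∧ h ≤ g ∧
      ∀ δ > 0, ∃ q, IsStarProjection q ∧ q ≤ h ∧ ψ q = 0 ∧ (ω (h - q)).re ≤ δ}
    (fun c hc hch y hy => by
      obtain ⟨p, h1, h2, h3, h4⟩ := 𝒲.exists_sup_chain (fun e he => (hc he).1) hch ⟨y, hy⟩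
      refine ⟨p, ⟨h1, h3 g fun e he => (hc he).2.1, fun ε hε => ?_⟩, h2⟩
      obtain ⟨e, he, k⟩ := h4 ω hω (ε / 2) (half_pos hε)
      obtain ⟨q, q1, q2, q3, q4⟩ := (hc he).2.2 (ε / 2) (half_pos hε)
      refine ⟨q, q1, q2.trans (h2 e he), q3, ?_⟩
      rw [map_sub, Complex.sub_re] at k q4 ⊢
      linarith) 0 ⟨IsStarProjection.zero M, hg.nonneg, fun ε hε =>
        ⟨0, IsStarProjection.zero M, le_rfl, map_zero ψ, by simpa using hε.le⟩⟩
  obtain ⟨m1, m2, m3⟩ := hm.prop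
  have h0 : ω (g - m) = 0 := by
    by_contra hne
    obtain ⟨f, f1, f2, f3, f4⟩ := 𝒲.exists_killed hω hψ (sub_proj m1 hg m2) hne
    have k1 : m + f ≤ m := hm.le_of_ge ⟨add_proj m1 m1 f1 hg le_rfl m2 f2,
      le_sub_iff_add_le'.1 f2, fun ε hε => by
        obtain ⟨q, q1, q2, q3, q4⟩ := m3 ε hε
        refine ⟨q + f, add_proj q1 m1 f1 hg q2 m2 f2, add_le_add q2 le_rfl,
          by rw [map_add, q3, f4, add_zero], ?_⟩
        rwa [add_sub_add_right_eq_sub]⟩ (le_add_of_nonneg_right f1.nonneg)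
    rw [le_antisymm (add_le_iff_nonpos_right m |>.1 k1) f1.nonneg] at f3
    exact f3 (map_zero ω)
  obtain ⟨q, q1, q2, q3, q4⟩ := m3 δ hδ
  refine ⟨q, q1, q2.trans m2, q3, ?_⟩
  rwa [← sub_add_sub_cancel g m q, map_add, h0, zero_add]

/-- splitting into a part carrying a faithful central normal functional and a nearly singular
part -/
theorem exists_split {A : StarSubalgebra ℂ M} (hA : IsMasa A) {ω : M →ₚ[ℂ] ℂ} (hω : 𝒲.Normal ω)
    {δ : ℝ} (hδ : 0 < δ) : ∃ (φ : M →ₚ[ℂ] ℂ) (p : M), 𝒲.Normal φ ∧ Central A φ ∧ IsSupp φ p ∧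
      ∀ ψ : M →ₚ[ℂ] ℂ, Central A ψ →
        ∃ q, IsStarProjection q ∧ q ≤ 1 - p ∧ ψ q = 0 ∧ (ω (1 - p - q)).re ≤ δ := by
  set S : Set ℝ := {t | ∃ (φ : M →ₚ[ℂ] ℂ) (p : M), 𝒲.Normal φ ∧ Central A φ ∧ IsSupp φ p ∧
    t = (ω p).re}
  have hne : S.Nonempty := by
    have h0 : 𝒲.Normal (smulP 0 ω) := hω.smulP 0
    obtain ⟨p, hp⟩ := 𝒲.exists_supp h0
    exact ⟨_, _, p, h0, fun a _ x => by simp [smulP_apply le_rfl], hp, rfl⟩
  have hb : BddAbove S := ⟨(ω 1).re, by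
    rintro _ ⟨φ, p, -, -, hp, rfl⟩
    exact re_mono ω (sub_nonneg.1 hp.1.one_sub.nonneg)⟩
  obtain ⟨_, ⟨φ, p, h1, h2, h3, rfl⟩, h4⟩ :=
    exists_lt_of_lt_csSup hne (sub_lt_self (sSup S) (half_pos hδ))
  refine ⟨φ, p, h1, h2, h3, fun ψ hψ => ?_⟩
  obtain ⟨ψn, ψs, k1, k2, k3, k4⟩ := 𝒲.exists_normal_part ψ
  obtain ⟨p', hp'⟩ := 𝒲.exists_supp (h1.addP k2)
  have k5 : (ω p').re ≤ sSup S := le_csSup hb ⟨_, p', h1.addP k2, fun a ha x => by
    change φ _ + ψn _ = φ _ + ψn _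
    rw [h2 a ha, k4 A hA hψ a ha], hp', rfl⟩
  have hq := hp'.1.one_sub
  obtain ⟨k6, k7⟩ := (add_eq_zero_iff_of_nonneg (φ.map_nonneg hq.nonneg)
    (ψn.map_nonneg hq.nonneg)).1 hp'.2.1
  have k8 : p ≤ p' := by
    have := h3.2.2 (1 - p') (by rwa [hq.isSelfAdjoint.star_eq, hq.isIdempotentElem.eq])
    rw [sub_mul, one_mul, sub_eq_zero] at this
    exact (h3.1.le_iff_mul_eq_right hp'.1).2 this.symm
  obtain ⟨q, q1, q2, q3, q4⟩ := 𝒲.exists_killed_large hω k3 hq (half_pos hδ)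
  refine ⟨q, q1, q2.trans (sub_le_sub_left k8 1), ?_, ?_⟩
  · rw [k1, q3, add_zero]
    refine eq_zero_of_re ψn q1.nonneg ?_
    have := re_mono ψn q2
    rwa [k7, Complex.zero_re] at this
  · simp only [map_sub, Complex.sub_re] at q4 ⊢
    linarith

end WAlg

end Vale.Agent.P078
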