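import Vale.Agent.P078.Defs
import Vale.Agent.P078.W
import Vale.Agent.P078.Kap
import Vale.Agent.P078.Normal

/-! Concrete von Neumann algebras are abstract W*-algebras. -/

namespace Vale.Agent.P078

open Filter Topology NormalAux
open scoped ComplexOrder InnerProductSpace

universe u

variable {H : Type u} [NormedAddCommGroup H] [InnerProductSpace ℂ H] [CompleteSpace H]

/-- for `x ∈ M` commuting with `A`, adjoin the real and imaginary parts of `x` to `A` -/
lemma IsMASA.mem_of_comm {M : VonNeumannAlgebra H} {A : StarSubalgebra ℂ (H →L[ℂ] H)}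
    (h : IsMASA M A) {x : H →L[ℂ] H} (hx : x ∈ M) (hc : ∀ a ∈ A, a * x = x * a) : x ∈ A := by
  have key : ∀ y ∈ M, IsSelfAdjoint y → (∀ a ∈ A, a * y = y * a) → y ∈ A := by
    intro y hy hs hc
    have hT : ∀ s ∈ insert y (A : Set (H →L[ℂ] H)), star s ∈ insert y (A : Set (H →L[ℂ] H)) := by
      rintro s (rfl | hs')
      · exact Or.inl hs.star_eq
      · exact Or.inr (star_mem hs')
    have hTc : ∀ s ∈ insert y (A : Set (H →L[ℂ] H)), ∀ t ∈ insert y (A : Set (H →L[ℂ] H)),
        s * t = t * s := by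
      rintro s (rfl | hs') t (rfl | ht')
      · rfl
      · exact (hc t ht').symm
      · exact hc s hs'
      · exact h.2.1 s hs' t ht'
    have h1 : ∀ b ∈ StarAlgebra.adjoin ℂ (insert y (A : Set (H →L[ℂ] H))),
        b ∈ StarSubalgebra.centralizer ℂ (insert y (A : Set (H →L[ℂ] H))) :=
      StarAlgebra.adjoin_le fun s hs => (StarSubalgebra.mem_centralizer_iff ℂ).2
        fun g hg => ⟨hTc g hg s hs, hTc _ (hT g hg) s hs⟩
    have h2 := h.2.2 (StarAlgebra.adjoin ℂ (insert y (A : Set (H →L[ℂ] H))))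
      (StarAlgebra.adjoin_le (S := M.toStarSubalgebra) (by
        rintro s (rfl | hs')
        · exact hy
        · exact h.1 s hs'))
      (fun a ha b hb => (((StarSubalgebra.mem_centralizer_iff ℂ).1
        (StarAlgebra.adjoin_le_centralizer_centralizer ℂ _ ha) b (h1 b hb)).1).symm)
      (fun a ha => StarAlgebra.subset_adjoin ℂ _ (Or.inr ha))
    rw [← h2]
    exact StarAlgebra.subset_adjoin ℂ _ (Or.inl rfl)
  have hc' : ∀ a ∈ A, a * star x = star x * a := fun a ha => by
    have := congrArg star (hc _ (star_mem ha))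
    rw [star_mul, star_mul, star_star] at this
    exact this.symm
  have k1 := key (x + star x) (add_mem hx (star_mem hx)) (IsSelfAdjoint.add_star_self x)
    fun a ha => by rw [mul_add, add_mul, hc a ha, hc' a ha]
  have k2 := key (Complex.I • (star x - x))
    (M.toStarSubalgebra.smul_mem (sub_mem (star_mem hx) hx) _)
    (by
      rw [IsSelfAdjoint, star_smul, star_sub, star_star, RCLike.star_def, Complex.conj_I, neg_smul,
        ← smul_neg, neg_sub])
    fun a ha => by rw [mul_smul_comm, smul_mul_assoc, mul_sub, sub_mul, hc a ha, hc' a ha]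
  have e : x = (1 / 2 : ℂ) • (x + star x + Complex.I • Complex.I • (star x - x)) := by
    rw [smul_smul, Complex.I_mul_I]
    module
  rw [e]
  exact A.smul_mem (add_mem k1 (A.smul_mem k2 _)) _

/-- the algebra as a type -/
def ConcreteAux.Alg (M : VonNeumannAlgebra H) : Type u := M.toStarSubalgebra

noncomputable instance (M : VonNeumannAlgebra H) : CStarAlgebra (ConcreteAux.Alg M) :=
  StarSubalgebra.cstarAlgebra M.toStarSubalgebra (h_closed := by
    have h : (M.toStarSubalgebra : Set (H →L[ℂ] H)) = _ := M.centralizer_centralizer.symm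
    rw [h]
    exact Set.isClosed_centralizer _)

/-- `M' = ↥M.toStarSubalgebra` (closed, being a commutant) with `CStarAlgebra.spectralOrder`,
`N` = vector functionals, `wc` from `exists_wot_lim`. -/
theorem exists_walg (M : VonNeumannAlgebra H) :
    ∃ (M' : Type u) (_ : CStarAlgebra M') (_ : PartialOrder M') (_ : StarOrderedRing M')
      (𝒲 : WAlg M') (ι : M' →⋆ₐ[ℂ] (H →L[ℂ] H)), (∀ y, ‖ι y‖ = ‖y‖) ∧
      (∀ x, x ∈ M ↔ ∃ y, ι y = x) ∧
      ∀ F : Finset H, ∃ ω : M' →ₚ[ℂ] ℂ, 𝒲.Normal ω ∧ ∀ y, ω y = ∑ ξ ∈ F, ⟪ξ, ι y ξ⟫_ℂ := by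
  letI : PartialOrder (ConcreteAux.Alg M) := CStarAlgebra.spectralOrder _
  haveI : StarOrderedRing (ConcreteAux.Alg M) := CStarAlgebra.spectralOrderedRing _
  let ι : ConcreteAux.Alg M →⋆ₐ[ℂ] (H →L[ℂ] H) := M.toStarSubalgebra.subtype
  have hι : ∀ y, ‖ι y‖ = ‖y‖ := fun _ => rfl
  have hv : ∀ ξ a x b, vecP ι ξ (a * x * b) = ⟪star (ι a) ξ, ι x (ι b ξ)⟫_ℂ := fun ξ a x b => by
    rw [vecP_apply, inner_star_left, map_mul, map_mul]
    rfl
  let 𝒲 : WAlg (ConcreteAux.Alg M) :=
    { N := Set.range (vecP ι)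
      sep := fun x hx => by
        rw [← norm_eq_zero, ← hι, norm_eq_zero]
        ext ξ
        have := hx _ ⟨ξ, rfl⟩
        rw [vecP_apply, map_mul, map_star, mul_apply_eq_comp, inner_star_right] at this
        exact inner_self_eq_zero.1 this
      wc := fun 𝒰 R h => by
        obtain ⟨T, -, k2⟩ := exists_wot_lim 𝒰 (T := ι) h
        have hT : T ∈ M := by
          rw [← SetLike.mem_coe, ← M.centralizer_centralizer]
          intro g hg
          ext η
          refine ext_inner_left ℂ fun ζ => ?_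
          rw [mul_apply_eq_comp, mul_apply_eq_comp, ← inner_star_left]
          refine tendsto_nhds_unique ((k2 _ _).congr fun x => ?_) (k2 _ _)
          rw [inner_star_left, ← mul_apply_eq_comp, ← hg (ι x) x.2, mul_apply_eq_comp]
        obtain ⟨y, rfl⟩ : ∃ y, ι y = T := ⟨⟨T, hT⟩, rfl⟩
        refine ⟨y, ?_⟩
        rintro _ ⟨ξ, rfl⟩ a b
        simp only [hv]
        exact k2 _ _ }
  refine ⟨ConcreteAux.Alg M, inferInstance, inferInstance, inferInstance, 𝒲, ι, hι,
    fun x => ⟨fun hx => ⟨⟨x, hx⟩, rfl⟩, fun ⟨y, hy⟩ => hy ▸ y.2⟩, fun F => ?_⟩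
  classical
  induction F using Finset.induction_on with
  | empty =>
    refine ⟨vecP ι 0, WAlg.Normal.of_mem ⟨0, rfl⟩, fun y => ?_⟩
    rw [vecP_apply, inner_zero_left, Finset.sum_empty]
  | insert ξ F hF ih =>
    obtain ⟨ω, h1, h2⟩ := ih
    refine ⟨vecP ι ξ + ω, (WAlg.Normal.of_mem (𝒲 := 𝒲) ⟨ξ, rfl⟩).addP h1, fun y => ?_⟩
    rw [Finset.sum_insert hF, ← h2]
    rfl

end Vale.Agent.P078
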