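import Vale.Agent.P078.NV

/-! The feasibility cone. -/

namespace Vale.Agent.P078

open Finset
open scoped ComplexOrder

variable {V ι : Type*} [DecidableEq V] [Fintype ι] [DecidableEq ι] [Nonempty ι]

/-- positive definite on `U` -/
def PDOn (Y : V → V → ℂ) (U : Finset V) : Prop :=
  ∀ ξ : V → ℂ, (∃ a ∈ U, ξ a ≠ 0) → 0 < (qform Y U ξ).re

namespace ConeAux

open Filter Topology

omit [Nonempty ι] [DecidableEq V] in
lemma qform_subset {Y : V → V → ℂ} {U U' : Finset V} [DecidablePred (· ∈ U')] (hU : U' ⊆ U)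
    (ξ : V → ℂ) : qform Y U (fun a => if a ∈ U' then ξ a else 0) = qform Y U' ξ := by
  unfold qform
  rw [← Finset.sum_subset hU (fun a _ ha => by simp [ha])]
  refine Finset.sum_congr rfl fun a ha => ?_
  rw [← Finset.sum_subset hU (fun b _ hb => by simp [hb])]
  refine Finset.sum_congr rfl fun b hb => ?_
  simp [ha, hb]

lemma PDOn_mono {Y : V → V → ℂ} {U U' : Finset V} (h : PDOn Y U) (hU : U' ⊆ U) : PDOn Y U' := by
  rintro ξ ⟨a, ha, h0⟩
  rw [← qform_subset hU]
  exact h _ ⟨a, hU ha, by simpa [ha] using h0⟩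

lemma PSDOn_mono {Y : V → V → ℂ} {U U' : Finset V} (h : PSDOn Y U) (hU : U' ⊆ U) :
    PSDOn Y U' := by
  intro ξ
  rw [← qform_subset hU]
  exact h _

omit [DecidableEq V] in
lemma qform_add (Y Z : V → V → ℂ) (U : Finset V) (ξ : V → ℂ) :
    qform (fun a b => Y a b + Z a b) U ξ = qform Y U ξ + qform Z U ξ := by
  unfold qform
  simp only [mul_add, add_mul, Finset.sum_add_distrib]

omit [DecidableEq V] in
lemma qform_smul (c : ℂ) (Y : V → V → ℂ) (U : Finset V) (ξ : V → ℂ) :
    qform (fun a b => c * Y a b) U ξ = c * qform Y U ξ := by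
  unfold qform
  simp only [Finset.mul_sum]
  exact Finset.sum_congr rfl fun a _ => Finset.sum_congr rfl fun b _ => by ring

lemma qform_diag (c : V → ℂ) (U : Finset V) (ξ : V → ℂ) :
    qform (fun a b => if a = b then c a else 0) U ξ = ∑ a ∈ U, c a * ((‖ξ a‖ ^ 2 : ℝ) : ℂ) := by
  unfold qform
  refine Finset.sum_congr rfl fun a ha => ?_
  rw [Finset.sum_eq_single a (fun b _ hb => by simp [Ne.symm hb]) (fun h => (h ha).elim)]
  simp only [if_true]
  push_cast
  rw [← Complex.conj_mul']
  simp only [RCLike.star_def]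
  ring

lemma psd_diag {c : V → ℝ} {U : Finset V} (hc : ∀ a ∈ U, 0 ≤ c a) :
    PSDOn (fun a b => if a = b then (c a : ℂ) else 0) U := by
  intro ξ
  rw [qform_diag (fun a => (c a : ℂ)), Complex.re_sum]
  refine Finset.sum_nonneg fun a ha => ?_
  rw [← Complex.ofReal_mul, Complex.ofReal_re]
  exact mul_nonneg (hc a ha) (by positivity)

omit [DecidableEq V] in
lemma qform_im {Y : V → V → ℂ} (hY : ∀ a b, Y b a = star (Y a b)) (U : Finset V) (ξ : V → ℂ) :
    (qform Y U ξ).im = 0 := by
  rw [← Complex.conj_eq_iff_im]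
  unfold qform
  rw [map_sum]
  simp only [map_sum]
  rw [Finset.sum_comm]
  refine Finset.sum_congr rfl fun a _ => Finset.sum_congr rfl fun b _ => ?_
  rw [hY b a]
  simp only [map_mul, RCLike.star_def, Complex.conj_conj]
  ring

lemma qform_eq_dot (Y : V → V → ℂ) (U : Finset V) (ξ : V → ℂ) :
    qform Y U ξ = star (fun a : U => ξ a) ⬝ᵥ
      (Matrix.of fun a b : U => Y a b).mulVec (fun a : U => ξ a) := by
  unfold qform
  rw [← Finset.sum_coe_sort U]
  simp only [dotProduct, Matrix.mulVec, Matrix.of_apply, Pi.star_apply, Finset.mul_sum]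
  refine Finset.sum_congr rfl fun a _ => ?_
  rw [← Finset.sum_coe_sort U]
  exact Finset.sum_congr rfl fun b _ => by ring

omit [DecidableEq V] in
lemma isHerm {Y : V → V → ℂ} (hY : ∀ a b, Y b a = star (Y a b)) (U : Finset V) :
    (Matrix.of fun a b : U => Y a b).IsHermitian := by
  ext a b
  simp only [Matrix.conjTranspose_apply, Matrix.of_apply]
  exact (hY b a).symm

lemma posDef_iff {Y : V → V → ℂ} (hY : ∀ a b, Y b a = star (Y a b)) (U : Finset V) :
    (Matrix.of fun a b : U => Y a b).PosDef ↔ PDOn Y U := by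
  constructor
  · rintro h ξ ⟨a, ha, h0⟩
    rw [qform_eq_dot]
    exact (Complex.pos_iff.1 (h.dotProduct_mulVec_pos (fun e => h0 (congrFun e ⟨a, ha⟩)))).1
  · intro h
    refine Matrix.PosDef.of_dotProduct_mulVec_pos (isHerm hY U) fun x hx => ?_
    let ξ : V → ℂ := fun a => if h : a ∈ U then x ⟨a, h⟩ else 0
    have hξ : (fun a : U => ξ a) = x := funext fun a => by simp [ξ, a.2]
    rw [← hξ, ← qform_eq_dot]
    refine Complex.pos_iff.2 ⟨h ξ ?_, (qform_im hY U ξ).symm⟩
    obtain ⟨a, ha⟩ := Function.ne_iff.1 hx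
    exact ⟨a, a.2, by rw [← hξ] at ha; exact ha⟩

omit [Nonempty ι] [Fintype ι] [DecidableEq ι] in
lemma herm_shift {X : ι → V → V → ℂ} (hX : Herm X) (t : ℝ) :
    Herm (shiftD X fun _ => (t : ℂ)) := by
  intro i a b
  simp only [shiftD, star_add, hX i a b]
  by_cases h : a = b
  · simp [h]
  · simp [h, Ne.symm h]

omit [Nonempty ι] [Fintype ι] [DecidableEq ι] in
lemma shift_zero (X : ι → V → V → ℂ) : (shiftD X fun _ => ((0 : ℝ) : ℂ)) = X := by
  funext i a b; simp [shiftD]

omit [Nonempty ι] in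
lemma Feas_pos {β : V → ι → ℂ} {X : ι → V → V → ℂ} {W : Finset V} {R : ι → Finset V}
    (h : Feas β X W R) : 0 < Q β X W R := by
  have := h 0 le_rfl
  rwa [shift_zero] at this

omit [Nonempty ι] in
lemma Feas_congr {β : V → ι → ℂ} {X X' : ι → V → V → ℂ} {W : Finset V} {R : ι → Finset V}
    (hX : ∀ i, ∀ a ∈ W ∪ R i, ∀ b ∈ W ∪ R i, X i a b = X' i a b) (h : Feas β X W R) :
    Feas β X' W R := by
  intro t ht
  rw [← Q_congr (β := β) (X := shiftD X fun _ => (t : ℂ)) (fun _ _ => rfl)
    (fun i a ha b hb => by simp only [shiftD, hX i a ha b hb])]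
  exact h t ht

omit [Nonempty ι] [DecidableEq ι] in
lemma pd_large (X : ι → V → V → ℂ) (U : ι → Finset V) :
    ∃ T : ℝ, 0 ≤ T ∧ ∀ t, T ≤ t → ∀ i, PDOn ((shiftD X fun _ => (t : ℂ)) i) (U i) := by
  set C : ℝ := ∑ i, ∑ a ∈ U i, ∑ b ∈ U i, ‖X i a b‖ with hC
  have hC0 : 0 ≤ C := by positivity
  refine ⟨C + 1, by linarith, fun t ht i ξ ⟨a, ha, h0⟩ => ?_⟩
  have h1 : ∑ a ∈ U i, ∑ b ∈ U i, ‖X i a b‖ ≤ C :=
    Finset.single_le_sum (f := fun i => ∑ a ∈ U i, ∑ b ∈ U i, ‖X i a b‖)
      (fun _ _ => by positivity) (Finset.mem_univ i)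
  have h2 := qform_le_of_rowcol (Y := X i) (U := U i) (C := fun _ => C) (fun a ha => by
    have e1 : ∑ b ∈ U i, ‖X i a b‖ ≤ ∑ a ∈ U i, ∑ b ∈ U i, ‖X i a b‖ :=
      Finset.single_le_sum (f := fun a => ∑ b ∈ U i, ‖X i a b‖) (fun _ _ => by positivity) ha
    have e2 : ∑ b ∈ U i, ‖X i b a‖ ≤ ∑ a ∈ U i, ∑ b ∈ U i, ‖X i a b‖ :=
      Finset.sum_le_sum fun b _ =>
        Finset.single_le_sum (f := fun a => ‖X i b a‖) (fun _ _ => by positivity) ha
    linarith) ξ
  have e : qform ((shiftD X fun _ => (t : ℂ)) i) (U i) ξ = qform (X i) (U i) ξ +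
      ∑ a ∈ U i, (t : ℂ) * ((‖ξ a‖ ^ 2 : ℝ) : ℂ) := by
    rw [← qform_diag (fun _ => (t : ℂ)), ← qform_add]; rfl
  have h3 := (abs_le.1 (Complex.abs_re_le_norm (qform (X i) (U i) ξ))).1
  have h4 : 0 < ∑ a ∈ U i, ‖ξ a‖ ^ 2 :=
    Finset.sum_pos' (fun _ _ => by positivity) ⟨a, ha, by positivity⟩
  rw [e, Complex.add_re, ← Finset.mul_sum, ← Complex.ofReal_sum, ← Complex.ofReal_mul,
    Complex.ofReal_re]
  rw [← Finset.mul_sum] at h2
  nlinarith

/-- a Pick function that is real on `[0, ∞)` is monotone there -/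
lemma pick_mono {F : ℂ → ℂ} (hd : ∀ t : ℝ, 0 ≤ t → DifferentiableAt ℂ F t)
    (hr : ∀ t : ℝ, 0 ≤ t → (F t).im = 0) (hp : ∀ z : ℂ, 0 < z.im → 0 ≤ (F z).im) :
    MonotoneOn (fun t : ℝ => (F t).re) (Set.Ici 0) := by
  have hD : ∀ t : ℝ, 0 ≤ t → HasDerivAt (fun t : ℝ => (F t).re) (deriv F t).re t :=
    fun t ht => (hd t ht).hasDerivAt.real_of_complex
  refine monotoneOn_of_deriv_nonneg (convex_Ici 0)
    (fun t ht => (hD t ht).continuousAt.continuousWithinAt)
    (fun t ht => (hD t (interior_subset ht)).differentiableAt.differentiableWithinAt)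
    (fun t ht => ?_)
  have ht0 : 0 ≤ t := interior_subset ht
  rw [(hD t ht0).deriv]
  have h1 : HasDerivAt (fun w : ℂ => -Complex.I * F (t + w * Complex.I))
      (-Complex.I * (deriv F t * (1 * Complex.I))) ((0 : ℝ) : ℂ) := by
    refine HasDerivAt.const_mul _ ?_
    refine HasDerivAt.comp (h₂ := F) _ (by simpa using (hd t ht0).hasDerivAt) ?_
    exact ((hasDerivAt_id _).mul_const _).const_add _
  have h2 := h1.real_of_complex
  have e : (-Complex.I * (deriv F t * (1 * Complex.I))).re = (deriv F t).re := by simp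
  rw [e] at h2
  have h3 := (hasDerivAt_iff_tendsto_slope_zero.1 h2).mono_left
    (nhdsWithin_mono (0 : ℝ) (s := Set.Ioi 0) fun x hx => ne_of_gt hx)
  refine ge_of_tendsto h3 ?_
  filter_upwards [self_mem_nhdsWithin] with x hx
  have hx0 : (0 : ℝ) < x := hx
  have a1 := hp (t + x * Complex.I) (by simpa using hx0)
  have a2 := hr t ht0
  simp only [zero_add, smul_eq_mul]
  refine mul_nonneg (inv_nonneg.2 hx0.le) ?_
  simp [a2, a1]

lemma feas_ratio {N D : ℂ → ℂ} (hN : Differentiable ℂ N) (hD : Differentiable ℂ D)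
    (rN : ∀ t : ℝ, (N t).im = 0) (rD : ∀ t : ℝ, (D t).im = 0)
    (hp : ∀ z : ℂ, 0 < z.im → 0 ≤ (N z / D z).im)
    (hT : ∃ T : ℝ, 0 ≤ T ∧ ∀ t, T ≤ t → 0 < D t) :
    (∀ t : ℝ, 0 ≤ t → 0 < N t) ↔
      (∀ t : ℝ, 0 ≤ t → 0 < D t) ∧ 0 < (N ((0 : ℝ) : ℂ) / D ((0 : ℝ) : ℂ)).re := by
  have eN : ∀ t : ℝ, N t = ((N t).re : ℂ) := fun t => Complex.ext rfl (by simp [rN t])
  have eD : ∀ t : ℝ, D t = ((D t).re : ℂ) := fun t => Complex.ext rfl (by simp [rD t])
  have r1 : ∀ t : ℝ, N t / D t = (((N t).re / (D t).re : ℝ) : ℂ) := fun t => by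
    rw [Complex.ofReal_div, ← eN, ← eD]
  have r2 : ∀ t : ℝ, -(D t / N t) = ((-((D t).re / (N t).re) : ℝ) : ℂ) := fun t => by
    rw [Complex.ofReal_neg, Complex.ofReal_div, ← eN, ← eD]
  constructor
  · intro h
    have hm := pick_mono (F := fun z => -(D z / N z))
      (fun t ht => ((hD _).div (hN _) (h t ht).ne').neg)
      (fun t _ => by rw [r2, Complex.ofReal_im])
      (fun z hz => by
        have := hp z hz
        rw [← inv_div (N z), Complex.neg_im, Complex.inv_im, neg_div, neg_neg]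
        exact div_nonneg this (Complex.normSq_nonneg _))
    have hD' : ∀ t : ℝ, 0 ≤ t → 0 < D t := by
      intro t ht
      obtain ⟨T, hT0, hT⟩ := hT
      have a1 := hm (a := t) (b := max t T) ht (le_max_of_le_left ht) (le_max_left _ _)
      simp only [r2, Complex.ofReal_re] at a1
      have a2 := (Complex.pos_iff.1 (hT _ (le_max_right t T))).1
      have a3 := (Complex.pos_iff.1 (h _ (le_max_of_le_left ht : 0 ≤ max t T))).1
      have a4 := (Complex.pos_iff.1 (h _ ht)).1
      have a5 : 0 < (D t).re / (N t).re := by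
        have := div_pos a2 a3
        linarith
      exact Complex.pos_iff.2 ⟨(div_pos_iff_of_pos_right a4).1 a5, (rD t).symm⟩
    refine ⟨hD', ?_⟩
    rw [r1, Complex.ofReal_re]
    exact div_pos (Complex.pos_iff.1 (h 0 le_rfl)).1 (Complex.pos_iff.1 (hD' 0 le_rfl)).1
  · rintro ⟨h, h0⟩ t ht
    have hm := pick_mono (F := fun z => N z / D z)
      (fun t ht => (hN _).div (hD _) (h t ht).ne')
      (fun t _ => by rw [r1, Complex.ofReal_im]) hp
    have a1 := h0.trans_le (hm (a := 0) (b := t) Set.self_mem_Ici ht ht)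
    simp only [r1, Complex.ofReal_re] at a1
    exact Complex.pos_iff.2
      ⟨(div_pos_iff_of_pos_right (Complex.pos_iff.1 (h t ht)).1).1 a1, (rN t).symm⟩

omit [Nonempty ι] in
lemma Q_shift_diff (β : V → ι → ℂ) (X : ι → V → V → ℂ) (W : Finset V) (R : ι → Finset V) :
    Differentiable ℂ fun z => Q β (shiftD X fun _ => z) W R := by
  intro z
  refine Q_differentiableAt (β := fun _ => β) (X := fun z => shiftD X fun _ => z) W R
    (fun _ _ => differentiableAt_const _) (fun i a b => ?_)
  simp only [shiftD]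
  split_ifs
  · exact differentiableAt_id.const_add _
  · exact differentiableAt_const _

omit [Nonempty ι] in
lemma imGe_shift {X : ι → V → V → ℂ} (hX : Herm X) (z : ℂ) (U : Finset V) (i : ι) :
    ImGe (fun _ => z.im) ((shiftD X fun _ => z) i) U := by
  have := ImGe_dm (Y := fun i a b => -X i a b) (fun i a b => by simp only [hX i a b, star_neg])
    (fun _ => z) U i
  have e : dm (fun _ => z) (fun i a b => -X i a b) i = (shiftD X fun _ => z) i := by
    funext a b; simp only [dm, shiftD]; ring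
  rwa [e] at this

omit [Nonempty ι] in
lemma piv_shift_im {β : V → ι → ℂ} {X : ι → V → V → ℂ} {W : Finset V} {R : ι → Finset V}
    {v : V} {i : ι} (hβ : PosW β W) (hX : Herm X) (hd : ∀ i, Disjoint W (R i))
    (hvW : v ∉ W) (hvR : v ∉ R i) {z : ℂ} (hz : 0 < z.im) :
    0 ≤ (piv β (shiftD X fun _ => z) W R v i).im :=
  hz.le.trans (piv_im_ge (ρ := fun _ => z.im) hβ hd hvW hvR (fun j => imGe_shift hX z _ j)
    (fun _ _ _ => hz))

omit [Nonempty ι] [Fintype ι] in
lemma disj_ins {W : Finset V} {R : ι → Finset V} {v : V} (hd : ∀ i, Disjoint W (R i))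
    (hvW : v ∉ W) (i j : ι) : Disjoint W (ins R v i j) := by
  rw [Finset.disjoint_left]
  intro a ha h
  rcases NVAux.mem_ins h with rfl | h
  · exact hvW ha
  · exact Finset.disjoint_left.1 (hd j) ha h

omit [Nonempty ι] [Fintype ι] in
lemma sub_ins (W : Finset V) (R : ι → Finset V) (v : V) (i j : ι) :
    W ∪ ins R v i j ⊆ insert v W ∪ R j := by
  intro a ha
  rcases Finset.mem_union.1 ha with h | h
  · exact Finset.mem_union_left _ (Finset.mem_insert_of_mem h)
  · rcases NVAux.mem_ins h with rfl | h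
    · simp
    · exact Finset.mem_union_right _ h

end ConeAux

open ConeAux

omit [Nonempty ι] in
/-- for Hermitian data and real weights `Q` is real -/
lemma Q_im_eq_zero {β : V → ι → ℂ} {X : ι → V → V → ℂ} {W : Finset V} (R : ι → Finset V)
    (hβ : PosW β W) (hX : Herm X) : (Q β X W R).im = 0 := by
  rw [← Complex.conj_eq_iff_im, ← RCLike.star_def, ← Q_star]
  refine Q_congr (fun v hv => funext fun i => ?_) (fun i a _ b _ => ?_)
  · exact Complex.conj_eq_iff_im.2 (Complex.nonneg_iff.1 ((hβ v hv).1 i)).2.symm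
  · rw [hX i a b, star_star]

omit [Nonempty ι] in
lemma Q_pos_of_PD {β : V → ι → ℂ} {X : ι → V → V → ℂ} {W : Finset V} {R : ι → Finset V}
    (hβ : PosW β W) (hX : Herm X) (h : ∀ i, PDOn (X i) (W ∪ R i)) : 0 < Q β X W R := by
  induction W using Finset.induction_on generalizing R with
  | empty =>
    rw [Q_empty]
    refine Finset.prod_pos fun i _ => ?_
    have := h i
    rw [Finset.empty_union] at this
    exact ((posDef_iff (hX i) (R i)).2 this).det_pos
  | insert v W hv ih =>
    rw [Q_insert β X hv]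
    obtain ⟨h0, h1⟩ := hβ v (Finset.mem_insert_self v W)
    have hq : ∀ i, 0 < Q β X W (ins R v i) := fun i =>
      ih (fun u hu => hβ u (Finset.mem_insert_of_mem hu))
        (fun j => PDOn_mono (h j) (sub_ins W R v i j))
    obtain ⟨i, -, hi⟩ : ∃ i ∈ (Finset.univ : Finset ι), β v i ≠ 0 :=
      Finset.exists_ne_zero_of_sum_ne_zero h1.ne'
    exact Finset.sum_pos' (fun j _ => mul_nonneg (h0 j) (hq j).le)
      ⟨i, Finset.mem_univ _, mul_pos (lt_of_le_of_ne (h0 i) hi.symm) (hq i)⟩

omit [Nonempty ι] in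
lemma feas_empty_iff (β : V → ι → ℂ) {X : ι → V → V → ℂ} (R : ι → Finset V) (hX : Herm X) :
    Feas β X ∅ R ↔ ∀ i, PDOn (X i) (R i) := by
  constructor
  · intro h i
    rw [← posDef_iff (hX i), (isHerm (hX i) (R i)).posDef_iff_eigenvalues_pos]
    intro j
    by_contra hle
    push Not at hle
    set hA := isHerm (hX i) (R i)
    have h1 := h (-hA.eigenvalues j) (by linarith)
    rw [Q_empty] at h1
    refine Finset.prod_ne_zero_iff.1 h1.ne' i (Finset.mem_univ _) ?_
    refine Matrix.exists_mulVec_eq_zero_iff.1 ⟨hA.eigenvectorBasis j, ?_, ?_⟩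
    · intro e
      exact hA.eigenvectorBasis.orthonormal.ne_zero j (by ext a; exact congrFun e a)
    · have h2 := hA.mulVec_eigenvectorBasis j
      funext a
      have h3 := congrFun h2 a
      simp only [Matrix.mulVec, dotProduct, Matrix.of_apply, Pi.smul_apply] at h3
      simp only [Matrix.mulVec, dotProduct, Matrix.of_apply, shiftD, add_mul,
        Finset.sum_add_distrib, h3, Pi.zero_apply]
      rw [Finset.sum_eq_single a (fun b _ hb => by
        rw [if_neg (fun e => hb (Subtype.ext e).symm), zero_mul]) (by simp)]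
      simp
  · intro h t ht
    refine Q_pos_of_PD (fun v hv => by simp at hv) (herm_shift hX t) fun i ξ hξ => ?_
    rw [Finset.empty_union] at hξ ⊢
    have e : qform ((shiftD X fun _ => (t : ℂ)) i) (R i) ξ = qform (X i) (R i) ξ +
        qform (fun a b => if a = b then (t : ℂ) else 0) (R i) ξ := by
      rw [← qform_add]; rfl
    rw [e, Complex.add_re]
    exact add_pos_of_pos_of_nonneg (h i ξ hξ) (psd_diag (c := fun _ => t) (fun _ _ => ht) ξ)

/-- `t ↦ piv (X + t)` is a Pick function (`piv_im_ge`), real and increasing where the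
denominator does not vanish.  (⇒) uses the largest zero of the denominator. -/
theorem feas_ins_iff {β : V → ι → ℂ} {X : ι → V → V → ℂ} {W : Finset V} {R : ι → Finset V}
    {v : V} {i : ι} (hβ : PosW β W) (hX : Herm X) (hd : ∀ i, Disjoint W (R i))
    (hvW : v ∉ W) (hvR : v ∉ R i) :
    Feas β X W (ins R v i) ↔ Feas β X W R ∧ 0 < (piv β X W R v i).re := by
  have := feas_ratio (Q_shift_diff β X W (ins R v i)) (Q_shift_diff β X W R)
    (fun t => Q_im_eq_zero _ hβ (herm_shift hX t)) (fun t => Q_im_eq_zero _ hβ (herm_shift hX t))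
    (fun z hz => piv_shift_im hβ hX hd hvW hvR hz) (by
      obtain ⟨T, h0, hT⟩ := pd_large X (fun j => W ∪ R j)
      exact ⟨T, h0, fun t ht => Q_pos_of_PD hβ (herm_shift hX t) (hT t ht)⟩)
  simp only [shift_zero] at this
  exact this

theorem feas_insert_iff {β : V → ι → ℂ} {X : ι → V → V → ℂ} {W : Finset V} {R : ι → Finset V}
    {v : V} (hβ : PosW β (insert v W)) (hX : Herm X) (hd : ∀ i, Disjoint W (R i))
    (hvW : v ∉ W) (hvR : ∀ i, v ∉ R i) :
    Feas β X (insert v W) R ↔ Feas β X W R ∧ 0 < (∑ i, β v i * piv β X W R v i).re := by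
  have hβ' : PosW β W := fun u hu => hβ u (Finset.mem_insert_of_mem hu)
  have e : ∀ Y : ι → V → V → ℂ, Q β Y (insert v W) R / Q β Y W R =
      ∑ i, β v i * piv β Y W R v i := fun Y => by
    simp only [Q_insert β Y hvW, piv, Finset.sum_div, mul_div_assoc]
  have := feas_ratio (Q_shift_diff β X (insert v W) R) (Q_shift_diff β X W R)
    (fun t => Q_im_eq_zero _ hβ (herm_shift hX t)) (fun t => Q_im_eq_zero _ hβ' (herm_shift hX t))
    (fun z hz => by
      rw [e]
      have := NVAux.im_sum_ge (r := 0) (hβ v (Finset.mem_insert_self v W)).1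
        (fun i => piv_shift_im hβ' hX hd hvW (hvR i) hz)
      rwa [zero_mul] at this) (by
      obtain ⟨T, h0, hT⟩ := pd_large X (fun j => W ∪ R j)
      exact ⟨T, h0, fun t ht => Q_pos_of_PD hβ' (herm_shift hX t) (hT t ht)⟩)
  simp only [shift_zero, e] at this
  exact this

namespace ConeAux

omit [Nonempty ι] [Fintype ι] in
lemma herm_addDiag {X : ι → V → V → ℂ} (hX : Herm X) (i : ι) (v : V) (τ : ℝ) :
    Herm (addDiag X i v τ) := by
  intro j a b
  by_cases hj : j = i
  · subst hj
    simp only [addDiag, Function.update_self, star_add, hX j a b, and_comm (a := b = v)]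
    split_ifs <;> simp
  · simp only [addDiag, Function.update_of_ne hj, hX j a b]

omit [Nonempty ι] [Fintype ι] in
lemma addDiag_off {X : ι → V → V → ℂ} {W : Finset V} {R : ι → Finset V} {v : V} {i : ι}
    (hvW : v ∉ W) (hvR : v ∉ R i) (τ : ℂ) :
    ∀ j, ∀ a ∈ W ∪ R j, ∀ b ∈ W ∪ R j, X j a b = addDiag X i v τ j a b := by
  intro j a ha b _
  by_cases hj : j = i
  · subst hj
    have : a ≠ v := by
      rintro rfl
      rcases Finset.mem_union.1 ha with h | h
      exacts [hvW h, hvR h]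
    simp [addDiag, this]
  · simp only [addDiag, Function.update_of_ne hj]

omit [Nonempty ι] in
lemma piv_addDiag {β : V → ι → ℂ} {X : ι → V → V → ℂ} {W : Finset V} {R : ι → Finset V}
    {v : V} {i : ι} (hvW : v ∉ W) (hvR : v ∉ R i) (h : Q β X W R ≠ 0) (τ : ℂ) :
    piv β (addDiag X i v τ) W R v i = piv β X W R v i + τ := by
  rw [piv, piv, Q_ins_addDiag β X hvW hvR,
    ← Q_congr (β := β) (fun _ _ => rfl) (addDiag_off hvW hvR τ)]
  field_simp

lemma feas_lower_iff {β : V → ι → ℂ} {X : ι → V → V → ℂ} {W : Finset V} {R : ι → Finset V}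
    {v : V} {i : ι} (hβ : PosW β W) (hX : Herm X) (hd : ∀ i, Disjoint W (R i))
    (hvW : v ∉ W) (hvR : v ∉ R i) (h : Feas β X W R) (τ : ℝ) :
    Feas β (addDiag X i v ((-τ : ℝ) : ℂ)) W (ins R v i) ↔ τ < (piv β X W R v i).re := by
  rw [feas_ins_iff hβ (herm_addDiag hX i v _) hd hvW hvR, piv_addDiag hvW hvR (Feas_pos h).ne',
    Complex.add_re, Complex.ofReal_re]
  exact ⟨fun k => by linarith [k.2], fun k => ⟨Feas_congr (addDiag_off hvW hvR _) h, by linarith⟩⟩

/-- convex combination plus a positive semidefinite term -/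
noncomputable def mix (s : ℝ) (X X' P : ι → V → V → ℂ) : ι → V → V → ℂ :=
  fun i a b => (1 - s : ℝ) * X i a b + s * X' i a b + P i a b

omit [Nonempty ι] [Fintype ι] [DecidableEq ι] [DecidableEq V] in
lemma herm_mix {X X' P : ι → V → V → ℂ} (hX : Herm X) (hX' : Herm X') (hP : Herm P) (s : ℝ) :
    Herm (mix s X X' P) := by
  intro i a b
  simp only [mix, hX i a b, hX' i a b, hP i a b, star_add, star_mul', RCLike.star_def,
    Complex.conj_ofReal]

/-- the cone statement for a fixed `W` -/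
def CS (β : V → ι → ℂ) (s : ℝ) (W : Finset V) : Prop :=
  ∀ (R : ι → Finset V) (X X' P : ι → V → V → ℂ), Herm X → Herm X' → Herm P →
    (∀ i, Disjoint W (R i)) → Feas β X W R → Feas β X' W R → (∀ i, PSDOn (P i) (W ∪ R i)) →
    Feas β (mix s X X' P) W R

lemma piv_mix {β : V → ι → ℂ} {s : ℝ} {W : Finset V} (H : CS β s W)
    {R : ι → Finset V} {X X' P : ι → V → V → ℂ} {v : V} {i : ι} (hβ : PosW β W) (hX : Herm X)
    (hX' : Herm X') (hP : Herm P) (hd : ∀ i, Disjoint W (R i)) (hvW : v ∉ W) (hvR : v ∉ R i)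
    (h : Feas β X W R) (h' : Feas β X' W R) (hP' : ∀ j, PSDOn (P j) (W ∪ ins R v i j)) :
    (1 - s) * (piv β X W R v i).re + s * (piv β X' W R v i).re ≤
      (piv β (mix s X X' P) W R v i).re := by
  have hm := H R X X' P hX hX' hP hd h h' (fun j => PSDOn_mono (hP' j)
    (Finset.union_subset_union_right (NVAux.subset_ins R v i j)))
  refine le_of_forall_pos_le_add fun δ hδ => ?_
  have a1 := (feas_lower_iff hβ hX hd hvW hvR h ((piv β X W R v i).re - δ)).2 (by linarith)
  have a2 := (feas_lower_iff hβ hX' hd hvW hvR h' ((piv β X' W R v i).re - δ)).2 (by linarith)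
  have a3 := H _ _ _ P (herm_addDiag hX i v _) (herm_addDiag hX' i v _) hP (disj_ins hd hvW i)
    a1 a2 hP'
  have e : mix s (addDiag X i v ((-((piv β X W R v i).re - δ) : ℝ) : ℂ))
      (addDiag X' i v ((-((piv β X' W R v i).re - δ) : ℝ) : ℂ)) P =
      addDiag (mix s X X' P) i v
        ((-((1 - s) * (piv β X W R v i).re + s * (piv β X' W R v i).re - δ) : ℝ) : ℂ) := by
    funext j a b
    by_cases hj : j = i
    · subst hj
      simp only [mix, addDiag, Function.update_self]
      split_ifs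
      · push_cast; ring
      · ring
    · simp only [mix, addDiag, Function.update_of_ne hj]
  rw [e, feas_lower_iff hβ (herm_mix hX hX' hP s) hd hvW hvR hm] at a3
  linarith

lemma cs {β : V → ι → ℂ} {s : ℝ} (hs0 : 0 ≤ s) (hs1 : s ≤ 1) (W : Finset V) (hβ : PosW β W) :
    CS β s W := by
  induction W using Finset.induction_on with
  | empty =>
    intro R X X' P hX hX' hP _ h h' hP'
    rw [feas_empty_iff β R hX] at h
    rw [feas_empty_iff β R hX'] at h'
    rw [feas_empty_iff β R (herm_mix hX hX' hP s)]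
    intro i ξ hξ
    have e : qform (mix s X X' P i) (R i) ξ = (1 - s : ℝ) * qform (X i) (R i) ξ +
        s * qform (X' i) (R i) ξ + qform (P i) (R i) ξ := by
      rw [← qform_smul, ← qform_smul, ← qform_add, ← qform_add]; rfl
    have a1 := h i ξ hξ
    have a2 := h' i ξ hξ
    have a3 := hP' i ξ
    rw [Finset.empty_union] at a3
    rw [e, Complex.add_re, Complex.add_re, Complex.re_ofReal_mul, Complex.re_ofReal_mul]
    rcases hs0.eq_or_lt with rfl | h0
    · linarith
    · nlinarith [mul_pos h0 a2, mul_nonneg (sub_nonneg.2 hs1) a1.le]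
  | insert v W hv ih =>
    intro R X X' P hX hX' hP hd h h' hP'
    have hβ' : PosW β W := fun u hu => hβ u (Finset.mem_insert_of_mem hu)
    have H := ih hβ'
    have hd' : ∀ i, Disjoint W (R i) := fun i =>
      (hd i).mono_left (Finset.subset_insert v W)
    have hvR : ∀ i, v ∉ R i := fun i =>
      Finset.disjoint_left.1 (hd i) (Finset.mem_insert_self v W)
    rw [feas_insert_iff hβ hX hd' hv hvR] at h
    rw [feas_insert_iff hβ hX' hd' hv hvR] at h'
    rw [feas_insert_iff hβ (herm_mix hX hX' hP s) hd' hv hvR]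
    refine ⟨H R X X' P hX hX' hP hd' h.1 h'.1 (fun j => PSDOn_mono (hP' j)
      (Finset.union_subset_union_left (Finset.subset_insert v W))), ?_⟩
    have key : (1 - s) * (∑ i, β v i * piv β X W R v i).re +
        s * (∑ i, β v i * piv β X' W R v i).re ≤
        (∑ i, β v i * piv β (mix s X X' P) W R v i).re := by
      simp only [Complex.re_sum, Finset.mul_sum, ← Finset.sum_add_distrib]
      refine Finset.sum_le_sum fun i _ => ?_
      obtain ⟨b1, b2⟩ := Complex.nonneg_iff.1 ((hβ v (Finset.mem_insert_self v W)).1 i)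
      have := piv_mix H hβ' hX hX' hP hd' hv (hvR i) h.1 h'.1
        (fun j => PSDOn_mono (hP' j) (sub_ins W R v i j))
      simp only [Complex.mul_re, ← b2]
      nlinarith [mul_le_mul_of_nonneg_left this b1]
    refine lt_of_lt_of_le ?_ key
    rcases hs0.eq_or_lt with rfl | h0
    · linarith [h.2]
    · nlinarith [mul_pos h0 h'.2, mul_nonneg (sub_nonneg.2 hs1) h.2.le]

omit [Nonempty ι] [Fintype ι] [DecidableEq ι] [DecidableEq V] in
lemma mix_zero (s : ℝ) (X X' : ι → V → V → ℂ) :
    mix s X X' (fun _ _ _ => 0) = fun i a b => (1 - s : ℝ) * X i a b + s * X' i a b := by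
  funext i a b; simp [mix]

omit [Nonempty ι] [Fintype ι] [DecidableEq ι] [DecidableEq V] in
lemma mix_add (X P : ι → V → V → ℂ) : mix 0 X X P = fun i a b => X i a b + P i a b := by
  funext i a b; simp [mix]

omit [DecidableEq V] in
lemma psd_zero (U : Finset V) : PSDOn (fun _ _ => 0) U := fun ξ => by simp [qform]

omit [Nonempty ι] in
lemma piv_im {β : V → ι → ℂ} {X : ι → V → V → ℂ} {W : Finset V} (R : ι → Finset V)
    (v : V) (i : ι) (hβ : PosW β W) (hX : Herm X) : (piv β X W R v i).im = 0 := by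
  rw [piv, Complex.div_im, Q_im_eq_zero _ hβ hX, Q_im_eq_zero _ hβ hX]; simp

end ConeAux

/-- Induction on `W` for all `R`; the pivot is concave because
`{(X, τ) | τ < piv X} = {(X,τ) | Feas (addDiag X i v (-τ)) W (ins R v i)}`. -/
theorem Feas.convex {β : V → ι → ℂ} {X X' : ι → V → V → ℂ} {W : Finset V} {R : ι → Finset V}
    (hβ : PosW β W) (hX : Herm X) (hX' : Herm X') (hd : ∀ i, Disjoint W (R i))
    (h : Feas β X W R) (h' : Feas β X' W R) {s : ℝ} (hs0 : 0 ≤ s) (hs1 : s ≤ 1) :
    Feas β (fun i a b => (1 - s : ℝ) * X i a b + s * X' i a b) W R := by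
  rw [← mix_zero]
  exact cs hs0 hs1 W hβ R X X' _ hX hX' (fun _ _ _ => by simp) hd h h' (fun _ => psd_zero _)

theorem Feas.add_psd {β : V → ι → ℂ} {X P : ι → V → V → ℂ} {W : Finset V} {R : ι → Finset V}
    (hβ : PosW β W) (hX : Herm X) (hP : Herm P) (hd : ∀ i, Disjoint W (R i))
    (h : Feas β X W R) (hP' : ∀ i, PSDOn (P i) (W ∪ R i)) :
    Feas β (fun i a b => X i a b + P i a b) W R := by
  rw [← mix_add]
  exact cs le_rfl zero_le_one W hβ R X X P hX hX hP hd h h hP'

theorem piv_concave {β : V → ι → ℂ} {X X' : ι → V → V → ℂ} {W : Finset V} {R : ι → Finset V}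
    {v : V} {i : ι} (hβ : PosW β W) (hX : Herm X) (hX' : Herm X') (hd : ∀ i, Disjoint W (R i))
    (hvW : v ∉ W) (hvR : v ∉ R i) (h : Feas β X W R) (h' : Feas β X' W R) {s : ℝ}
    (hs0 : 0 ≤ s) (hs1 : s ≤ 1) :
    (1 - s) * (piv β X W R v i).re + s * (piv β X' W R v i).re ≤
      (piv β (fun i a b => (1 - s : ℝ) * X i a b + s * X' i a b) W R v i).re := by
  rw [← mix_zero]
  exact piv_mix (cs hs0 hs1 W hβ) hβ hX hX' (fun _ _ _ => by simp) hd hvW hvR h h'
    (fun _ => psd_zero _)

theorem piv_mono {β : V → ι → ℂ} {X P : ι → V → V → ℂ} {W : Finset V} {R : ι → Finset V}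
    {v : V} {i : ι} (hβ : PosW β W) (hX : Herm X) (hP : Herm P) (hd : ∀ i, Disjoint W (R i))
    (hvW : v ∉ W) (hvR : v ∉ R i) (h : Feas β X W R)
    (hP' : ∀ j, PSDOn (P j) (W ∪ ins R v i j)) :
    (piv β X W R v i).re ≤ (piv β (fun i a b => X i a b + P i a b) W R v i).re := by
  rw [← mix_add]
  have := piv_mix (cs le_rfl zero_le_one W hβ) hβ hX hX hP hd hvW hvR h h hP'
  linarith

/-- concavity and invariance under flipping the sign of row/column `v` of copy `i` -/
theorem se_nonneg {β : V → ι → ℂ} {X : ι → V → V → ℂ} {W : Finset V} {R : ι → Finset V}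
    {v : V} {i : ι} (hβ : PosW β W) (hX : Herm X) (hd : ∀ i, Disjoint W (R i))
    (hvW : v ∉ W) (hvR : v ∉ R i) (h : Feas β X W R) :
    0 ≤ (se β X W R v i).re ∧ (se β X W R v i).im = 0 := by
  have hvv : (X i v v).im = 0 := Complex.conj_eq_iff_im.1 (hX i v v).symm
  refine ⟨?_, by rw [se, Complex.sub_im, hvv, piv_im R v i hβ hX, sub_zero]⟩
  let g : V → ι → ℂ := fun a j => if a = v ∧ j = i then -1 else 1
  have hg : ∀ a j, ‖g a j‖ = 1 := fun a j => by simp only [g]; split_ifs <;> simp
  have hg2 : ∀ a j, g a j * star (g a j) = 1 := fun a j => by simp only [g]; split_ifs <;> simp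
  let X' : ι → V → V → ℂ := fun j a b => g a j * X j a b * star (g b j)
  have hX' : Herm X' := fun j a b => by
    simp only [X', hX j a b, star_mul', star_star]; ring
  have h' : Feas β X' W R := by
    intro t ht
    have e : (shiftD X' fun _ => (t : ℂ)) =
        fun j a b => g a j * (shiftD X fun _ => (t : ℂ)) j a b * star (g b j) := by
      funext j a b
      simp only [shiftD, X']
      split_ifs with hab
      · subst hab; linear_combination (-(t : ℂ)) * hg2 a j
      · ring
    rw [e, Q_gauge β _ hd g hg]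
    exact h t ht
  have e1 : piv β X' W R v i = piv β X W R v i := by
    rw [piv, piv, Q_gauge β _ hd g hg, Q_gauge β _ (disj_ins hd hvW i) g hg]
  have a1 := piv_concave hβ hX hX' hd hvW hvR h h' (s := 1 / 2) (by norm_num) (by norm_num)
  have a2 := Feas_pos (h.convex hβ hX hX' hd h' (s := 1 / 2) (by norm_num) (by norm_num))
  set Y : ι → V → V → ℂ :=
    fun i a b => ((1 - 1 / 2 : ℝ) : ℂ) * X i a b + ((1 / 2 : ℝ) : ℂ) * X' i a b with hY
  have y1 : Y i v v = X i v v := by
    simp only [hY, X', g, and_self, if_true]; push_cast; simp; ring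
  have y2 : ∀ a, a ≠ v → Y i a v = 0 := fun a ha => by
    simp only [hY, X', g, and_self, if_true, ha, false_and, if_false]; push_cast; simp; ring
  have a3 := Q_rk1 β Y hvW hvR 1
  rw [Q_congr (β' := β) (X' := Y) (fun _ _ => rfl) (fun j a ha b _ => by
    by_cases hj : j = i
    · subst hj
      have : a ≠ v := by
        rintro rfl
        rcases Finset.mem_union.1 ha with h | h
        exacts [hvW h, hvR h]
      simp only [rk1, Function.update_self, y2 a this]; ring
    · simp only [rk1, Function.update_of_ne hj])] at a3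
  have e2 : piv β Y W R v i = X i v v := by
    rw [piv, div_eq_iff a2.ne', ← y1]; linear_combination -a3
  rw [e1, e2] at a1
  rw [se, Complex.sub_re]
  linarith

/-- removing another vertex `u` from a copy `j` decreases the self energy (let the diagonal entry
`(j,u)` tend to `+∞`, using `piv_mono`) -/
theorem se_mono_ins {β : V → ι → ℂ} {X : ι → V → V → ℂ} {W : Finset V} {R : ι → Finset V}
    {u v : V} {i j : ι} (hβ : PosW β W) (hX : Herm X) (hd : ∀ i, Disjoint W (R i))
    (hvW : v ∉ W) (hvR : v ∉ ins R u j i) (huW : u ∉ W) (huR : u ∉ R j)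
    (h : Feas β X W (ins R u j)) :
    (se β X W R v i).re ≤ (se β X W (ins R u j) v i).re := by
  have hF := ((feas_ins_iff hβ hX hd huW huR).1 h).1
  have hvR' : v ∉ R i := fun k => hvR (NVAux.subset_ins R u j i k)
  have huR' : u ∉ ins R v i j := by
    by_cases hj : j = i
    · subst hj
      intro k
      rcases NVAux.mem_ins k with rfl | k
      · exact hvR (by simp [ins])
      · exact huR k
    · rwa [ins, Function.update_of_ne hj]
  let P : ι → V → V → ℂ := fun k a b =>
    if a = b then ((if k = j ∧ a = u then 1 else 0 : ℝ) : ℂ) else 0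
  have hP : Herm P := fun k a b => by
    by_cases hab : a = b
    · subst hab; simp only [P, if_true, RCLike.star_def, Complex.conj_ofReal]
    · simp [P, hab, Ne.symm hab]
  have a1 := piv_mono hβ hX hP (disj_ins hd huW j) hvW hvR h
    (fun k => psd_diag (fun a _ => by split_ifs <;> norm_num))
  have e : (fun i a b => X i a b + P i a b) = addDiag X j u 1 := by
    funext k a b
    by_cases hk : k = j
    · subst hk
      simp only [addDiag, Function.update_self, P, true_and]
      by_cases hab : a = b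
      · subst hab; by_cases ha : a = u <;> simp [ha]
      · rw [if_neg hab, if_neg (fun k => hab (k.1.trans k.2.symm))]
    · simp [addDiag, P, hk]
  rw [e, piv, piv, ins_comm R u v j i, Q_ins_addDiag β X huW huR', Q_ins_addDiag β X huW huR,
    one_mul, one_mul] at a1
  rw [se, se, Complex.sub_re, Complex.sub_re, piv, piv, ins_comm R u v j i]
  have r : ∀ R' : ι → Finset V, Q β X W R' = ((Q β X W R').re : ℂ) := fun R' =>
    Complex.ext rfl (by simp [Q_im_eq_zero R' hβ hX])
  have hb := (Complex.pos_iff.1 (Feas_pos h)).1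
  have hd' := (Complex.pos_iff.1 (Feas_pos hF)).1
  rw [r (ins (ins R v i) u j), r (ins R u j), r (ins R v i), r R] at a1 ⊢
  simp only [← Complex.ofReal_add, ← Complex.ofReal_div, Complex.ofReal_re] at a1 ⊢
  rw [div_le_div_iff₀ hb (add_pos hb hd')] at a1
  rw [sub_le_sub_iff_left, div_le_div_iff₀ hb hd']
  linarith

/-- Schur reduction preserves feasibility -/
theorem Feas.schur {β : V → ι → ℂ} {X : ι → V → V → ℂ} {W : Finset V} {R : ι → Finset V}
    {v : V} {i : ι} (hβ : PosW β W) (hX : Herm X) (hd : ∀ i, Disjoint W (R i))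
    (hvW : v ∉ W) (hvR : v ∉ R i) (h : Feas β X W (ins R v i)) :
    0 < (X i v v).re ∧ Feas β (rk1 X i v (X i v v)⁻¹) W R := by
  obtain ⟨hF, hp⟩ := (feas_ins_iff hβ hX hd hvW hvR).1 h
  have a1 := (se_nonneg hβ hX hd hvW hvR hF).1
  rw [se, Complex.sub_re] at a1
  have hvv : (X i v v).im = 0 := Complex.conj_eq_iff_im.1 (hX i v v).symm
  have h0 : 0 < (X i v v).re := by linarith
  have h1 : 0 < X i v v := Complex.pos_iff.2 ⟨h0, hvv.symm⟩
  refine ⟨h0, fun t ht => ?_⟩
  let P : ι → V → V → ℂ := fun k a b =>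
    if a = b then ((if k = i ∧ a = v then 0 else t : ℝ) : ℂ) else 0
  have hP : Herm P := fun k a b => by
    by_cases hab : a = b
    · subst hab; simp only [P, if_true, RCLike.star_def, Complex.conj_ofReal]
    · simp [P, hab, Ne.symm hab]
  have a2 := Feas_pos (h.add_psd hβ hX hP (disj_ins hd hvW i)
    (fun k => psd_diag (fun a _ => by split_ifs <;> [rfl; exact ht])))
  set Y : ι → V → V → ℂ := fun i a b => X i a b + P i a b with hY
  have y1 : Y i v v = X i v v := by simp [hY, P]
  rw [Q_schur β Y hvW hvR (by rw [y1]; exact h1.ne'), y1] at a2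
  rw [← Q_congr (β := β) (X := rk1 Y i v (X i v v)⁻¹) (fun _ _ => rfl) (fun j a ha b hb => by
    by_cases hj : j = i
    · subst hj
      have nv : ∀ a ∈ W ∪ R j, a ≠ v := by
        rintro a ha rfl
        rcases Finset.mem_union.1 ha with h | h
        exacts [hvW h, hvR h]
      simp only [rk1, shiftD, Function.update_self, hY, P, nv a ha, (nv b hb).symm, and_false,
        if_false]
      ring
    · simp only [rk1, shiftD, Function.update_of_ne hj, hY, P, hj, false_and, if_false])]
  exact (mul_pos_iff_of_pos_left h1).1 a2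

end Vale.Agent.P078
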