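import Vale.Agent.P078.Part

/-! Spectral cut-off used in `core`. -/

namespace Vale.Agent.P078

open Finset
open scoped ComplexOrder

universe u

variable {M : Type u} [CStarAlgebra M] [PartialOrder M] [StarOrderedRing M]

namespace CoreAux

lemma norm_le_of_le {a : M} (ha : IsSelfAdjoint a) {c : ℝ} (hc : 0 ≤ c) (h1 : a ≤ c • (1 : M))
    (h2 : -a ≤ c • (1 : M)) : ‖a‖ ≤ c := by
  rcases subsingleton_or_nontrivial M with hM | hM
  · simpa [Subsingleton.elim a 0] using hc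
  rw [← Algebra.algebraMap_eq_smul_one] at h1 h2
  rcases CStarAlgebra.norm_or_neg_norm_mem_spectrum ha with h | h
  · exact (le_algebraMap_iff_spectrum_le ha).1 h1 _ h
  · have h3 : algebraMap ℝ M (-c) ≤ a := by rw [map_neg]; exact neg_le.1 h2
    have := (algebraMap_le_iff_le_spectrum ha).1 h3 _ h
    linarith

lemma real_le {θ : ℝ} (hθ : 0 < θ) (k : ℕ) (t : ℝ) :
    t ≤ θ + (θ ^ (2 * k + 1))⁻¹ * t ^ (2 * k + 2) := by
  have he : Even (2 * k + 2) := ⟨k + 1, by ring⟩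
  have h0 : 0 ≤ (θ ^ (2 * k + 1))⁻¹ * t ^ (2 * k + 2) :=
    mul_nonneg (by positivity) (he.pow_nonneg t)
  by_cases h : t ≤ θ
  · linarith
  · push Not at h
    have h1 : θ ^ (2 * k + 1) ≤ t ^ (2 * k + 1) := pow_le_pow_left₀ hθ.le h.le _
    have h2 : t ≤ (θ ^ (2 * k + 1))⁻¹ * t ^ (2 * k + 2) := by
      rw [le_inv_mul_iff₀ (by positivity), pow_succ t (2 * k + 1)]
      exact mul_le_mul_of_nonneg_right h1 (hθ.le.trans h.le)
    linarith

lemma op_le {T : M} (hT : IsSelfAdjoint T) {θ : ℝ} (hθ : 0 < θ) (k : ℕ) :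
    T ≤ θ • (1 : M) + (θ ^ (2 * k + 1))⁻¹ • T ^ (2 * k + 2) := by
  have h : cfc (fun t : ℝ => t) T ≤
      cfc (fun t : ℝ => θ + (θ ^ (2 * k + 1))⁻¹ * t ^ (2 * k + 2)) T :=
    cfc_mono fun t _ => real_le hθ k t
  rwa [cfc_id' ℝ T, cfc_const_add θ _ T, cfc_const_mul _ _ T, cfc_pow_id T (2 * k + 2),
    Algebra.algebraMap_eq_smul_one] at h

lemma op_neg_le {T : M} (hT : IsSelfAdjoint T) {θ : ℝ} (hθ : 0 < θ) (k : ℕ) :
    -T ≤ θ • (1 : M) + (θ ^ (2 * k + 1))⁻¹ • T ^ (2 * k + 2) := by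
  have he : Even (2 * k + 2) := ⟨k + 1, by ring⟩
  have := op_le hT.neg hθ k
  rwa [he.neg_pow] at this

lemma even_pow_nonneg {T : M} (hT : IsSelfAdjoint T) (k : ℕ) : 0 ≤ T ^ (2 * k + 2) := by
  have : T ^ (2 * k + 2) = star (T ^ (k + 1)) * T ^ (k + 1) := by
    rw [(hT.pow (k + 1)).star_eq, ← pow_add]; congr 1; ring
  rw [this]; exact star_mul_self_nonneg _

lemma apply_real_smul (ω : M →ₚ[ℂ] ℂ) (c : ℝ) (x : M) : (ω (c • x)).re = c * (ω x).re := by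
  rw [← Complex.coe_smul, map_smul]; simp

end CoreAux

open CoreAux in
/-- `± T i ≤ θ + T i ^ (2k) / θ ^ (2k-1)`, `± T₃ ≤ θ + T₃² / θ`; `B` = sum of the last terms,
`q = 1[B ≤ θ]`. -/
lemma WAlg.exists_q (𝒲 : WAlg M) (ω : M →ₚ[ℂ] ℂ) {T₁ T₂ T₃ : M} (h₁ : IsSelfAdjoint T₁)
    (h₂ : IsSelfAdjoint T₂) (h₃ : IsSelfAdjoint T₃) {θ : ℝ} (hθ : 0 < θ) (k : ℕ) :
    ∃ q, IsStarProjection q ∧ ‖q * (T₁ + T₂ + T₃) * q‖ ≤ 4 * θ ∧
      (ω (1 - q)).re ≤ ((ω (T₁ ^ (2 * k + 2))).re + (ω (T₂ ^ (2 * k + 2))).re) / θ ^ (2 * k + 2) +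
        nrm ω T₃ ^ 2 / θ ^ 2 := by
  set c : ℝ := (θ ^ (2 * k + 1))⁻¹ with hc
  set B : M := c • T₁ ^ (2 * k + 2) + c • T₂ ^ (2 * k + 2) +
    (θ ^ (2 * 0 + 1))⁻¹ • T₃ ^ (2 * 0 + 2) with hB
  have hc0 : 0 ≤ c := by positivity
  have hB0 : 0 ≤ B := add_nonneg (add_nonneg (smul_nonneg hc0 (even_pow_nonneg h₁ k))
    (smul_nonneg hc0 (even_pow_nonneg h₂ k)))
    (smul_nonneg (by positivity) (even_pow_nonneg h₃ 0))
  obtain ⟨q, hq, hcomm, hle, hge, -⟩ := 𝒲.exists_spectral (IsSelfAdjoint.of_nonneg hB0) θ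
  have hqq : q * q = q := hq.isIdempotentElem
  have hq1 : q ≤ 1 := hq.le_one
  have key : ∀ T : M, T ≤ (3 * θ) • (1 : M) + B → q * T * q ≤ (4 * θ) • (1 : M) := by
    intro T hT
    have h1 := hq.isSelfAdjoint.conjugate_le_conjugate hT
    have h2 : q * ((3 * θ) • (1 : M) + B) * q = (3 * θ) • q + q * B * q := by
      simp [mul_add, add_mul, hqq]
    calc q * T * q ≤ (3 * θ) • q + q * B * q := h2 ▸ h1
      _ ≤ (3 * θ) • q + θ • q := by gcongr
      _ = (4 * θ) • q := by rw [← add_smul]; congr 1; ring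
      _ ≤ (4 * θ) • (1 : M) := smul_le_smul_of_nonneg_left hq1 (by positivity)
  have e3 : (3 * θ) • (1 : M) + B = (θ • (1 : M) + c • T₁ ^ (2 * k + 2)) +
      (θ • (1 : M) + c • T₂ ^ (2 * k + 2)) +
      (θ • (1 : M) + (θ ^ (2 * 0 + 1))⁻¹ • T₃ ^ (2 * 0 + 2)) := by
    rw [hB, show 3 * θ = θ + θ + θ by ring, add_smul, add_smul]; abel
  refine ⟨q, hq, ?_, ?_⟩
  · refine norm_le_of_le ?_ (by positivity) (key _ ?_) ?_
    · have := ((h₁.add h₂).add h₃).conjugate' q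
      rwa [hq.isSelfAdjoint.star_eq] at this
    · rw [e3]
      exact add_le_add (add_le_add (op_le h₁ hθ k) (op_le h₂ hθ k)) (op_le h₃ hθ 0)
    · have : -(q * (T₁ + T₂ + T₃) * q) = q * (-T₁ + -T₂ + -T₃) * q := by noncomm_ring
      rw [this]
      refine key _ ?_
      rw [e3]
      exact add_le_add (add_le_add (op_neg_le h₁ hθ k) (op_neg_le h₂ hθ k)) (op_neg_le h₃ hθ 0)
  · have hcB : B * q = q * B := hcomm B (Commute.refl B)
    have h4 : (1 - q) * B * (1 - q) ≤ B := by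
      have h5 : B - (1 - q) * B * (1 - q) = q * B * q := by
        have : q * B * q = q * B := by rw [mul_assoc, hcB, ← mul_assoc, hqq]
        rw [this]
        simp only [sub_mul, mul_sub, one_mul, mul_one, this, hcB]; abel
      rw [← sub_nonneg, h5]
      exact hq.isSelfAdjoint.conjugate_nonneg hB0
    have h6 := re_mono ω (hge.trans h4)
    rw [apply_real_smul, hB, map_add, map_add, Complex.add_re, Complex.add_re, apply_real_smul,
      apply_real_smul, apply_real_smul] at h6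
    have h7 : nrm ω T₃ ^ 2 = (ω (T₃ ^ (2 * 0 + 2))).re := by
      rw [nrm_sq, h₃.star_eq]; simp [sq]
    rw [h7]
    have h8 : (ω (1 - q)).re = θ⁻¹ * (θ * (ω (1 - q)).re) := by field_simp
    rw [h8]
    refine (mul_le_mul_of_nonneg_left h6 (by positivity)).trans (le_of_eq ?_)
    rw [hc]; field_simp; ring

end Vale.Agent.P078
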