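import Vale.Agent.P078.Gpd

/-! Decomposition into a groupoid part and a weakly mixing part.  See PROOF.md, section Decomp. -/

namespace Vale.Agent.P078

open Filter Topology
open scoped ComplexOrder

universe u

variable {M : Type u} [CStarAlgebra M] [PartialOrder M] [StarOrderedRing M]

namespace WSys

variable (𝒮 : WSys M)

/-- right `A`-span of a finite set -/
def SpanA (F : Finset M) (x : M) : Prop := ∃ a : M → M, (∀ v, a v ∈ 𝒮.A) ∧ x = ∑ v ∈ F, v * a v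

section Span

variable {𝒮} {F F' : Finset M} {x y : M}

lemma SpanA.zero (F : Finset M) : 𝒮.SpanA F 0 := ⟨fun _ => 0, fun _ => zero_mem _, by simp⟩

lemma SpanA.add (hx : 𝒮.SpanA F x) (hy : 𝒮.SpanA F y) : 𝒮.SpanA F (x + y) := by
  obtain ⟨a, ha, rfl⟩ := hx
  obtain ⟨b, hb, rfl⟩ := hy
  exact ⟨fun v => a v + b v, fun v => add_mem (ha v) (hb v), by
    simp only [mul_add, Finset.sum_add_distrib]⟩

lemma SpanA.sub (hx : 𝒮.SpanA F x) (hy : 𝒮.SpanA F y) : 𝒮.SpanA F (x - y) := by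
  obtain ⟨a, ha, rfl⟩ := hx
  obtain ⟨b, hb, rfl⟩ := hy
  exact ⟨fun v => a v - b v, fun v => sub_mem (ha v) (hb v), by
    simp only [mul_sub, Finset.sum_sub_distrib]⟩

lemma SpanA.mul (hx : 𝒮.SpanA F x) {b : M} (hb : b ∈ 𝒮.A) : 𝒮.SpanA F (x * b) := by
  obtain ⟨a, ha, rfl⟩ := hx
  exact ⟨fun v => a v * b, fun v => mul_mem (ha v) hb, by simp only [Finset.sum_mul, mul_assoc]⟩

lemma SpanA.of_mem (hx : x ∈ F) : 𝒮.SpanA F x := by
  classical
  refine ⟨fun v => if v = x then 1 else 0, fun v => ?_, by simp [hx]⟩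
  dsimp only
  split_ifs
  · exact one_mem _
  · exact zero_mem _

lemma SpanA.sum {I : Type*} (s : Finset I) {f : I → M} (h : ∀ i ∈ s, 𝒮.SpanA F (f i)) :
    𝒮.SpanA F (∑ i ∈ s, f i) :=
  Finset.sum_induction f (𝒮.SpanA F) (fun _ _ => SpanA.add) (SpanA.zero F) h

lemma SpanA.mono (hx : 𝒮.SpanA F x) (h : F ⊆ F') : 𝒮.SpanA F' x := by
  obtain ⟨a, ha, rfl⟩ := hx
  exact SpanA.sum F fun v hv => (SpanA.of_mem (h hv)).mul (ha v)

lemma SpanA.orth (hx : 𝒮.SpanA F x) (h : ∀ v ∈ F, 𝒮.E (star v * y) = 0) :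
    𝒮.E (star x * y) = 0 := by
  obtain ⟨a, ha, rfl⟩ := hx
  rw [star_sum, Finset.sum_mul, 𝒮.E_sum]
  refine Finset.sum_eq_zero fun v hv => ?_
  rw [star_mul, mul_assoc, 𝒮.E_mul_left (star_mem (ha v)), h v hv, mul_zero]

lemma E_star_mul_eq_zero (h : 𝒮.E (star x * y) = 0) : 𝒮.E (star y * x) = 0 := by
  have := congrArg star h
  rwa [← 𝒮.E_star, star_mul, star_star, star_zero] at this

end Span

lemma exists_projF' (F : Finset M) (hF : ∀ v ∈ F, 𝒮.IsG v) (x : M) :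
    ∃ n, 𝒮.SpanA F n ∧ (∀ v ∈ F, 𝒮.E (star v * (x - n)) = 0) ∧
      (𝒮.IsG x → ∃ q ∈ 𝒮.A, IsStarProjection q ∧ x - n = x * q) := by
  classical
  induction F using Finset.induction_on generalizing x with
  | empty => exact ⟨0, SpanA.zero _, by simp, fun _ => ⟨1, one_mem _, IsStarProjection.one _, by simp⟩⟩
  | insert u F _ ih =>
    have hF' : ∀ v ∈ F, 𝒮.IsG v := fun v hv => hF v (Finset.mem_insert_of_mem hv)
    have hu := hF u (Finset.mem_insert_self _ _)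
    obtain ⟨m, hm1, hm2, hm3⟩ := ih hF' u
    obtain ⟨r, hrA, hr, hur⟩ := hm3 hu
    have hu' : 𝒮.IsG (u - m) := hur ▸ hu.mul (isGb_proj hr hrA).toIsG
    obtain ⟨n, hn1, hn2, hn3⟩ := ih hF' x
    set u' := u - m with hu'd
    set c := 𝒮.E (star u' * (x - n)) with hc
    have hcA : c ∈ 𝒮.A := 𝒮.E_mem _
    have hsub := Finset.subset_insert u F
    have k1 : ∀ v ∈ F, 𝒮.E (star v * (x - (n + u' * c))) = 0 := by
      intro v hv
      rw [← sub_sub, mul_sub, 𝒮.E_sub, hn2 v hv, ← mul_assoc, 𝒮.E_mul_right hcA, hm2 v hv]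
      simp
    have k2 : 𝒮.E (star u' * (x - (n + u' * c))) = 0 := by
      rw [← sub_sub, mul_sub, 𝒮.E_sub, ← mul_assoc, 𝒮.E_mul_right hcA, 𝒮.E_of_mem hu'.src.2, hc,
        ← 𝒮.E_mul_left hu'.src.2, ← mul_assoc]
      have := hu'.star.pi
      rw [star_star] at this
      rw [this, sub_self]
    refine ⟨n + u' * c, (hn1.mono hsub).add
      (((SpanA.of_mem (Finset.mem_insert_self _ _)).sub (hm1.mono hsub)).mul hcA), ?_, ?_⟩
    · intro v hv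
      rcases Finset.mem_insert.1 hv with rfl | hv
      · have e : v = u' + m := by rw [hu'd, sub_add_cancel]
        rw [e, star_add, add_mul, 𝒮.E_add, k2, hm1.orth k1, add_zero]
      · exact k1 v hv
    · intro hx
      obtain ⟨q, hqA, hq, hxq⟩ := hn3 hx
      have hw : 𝒮.IsG (x - n) := hxq ▸ hx.mul (isGb_proj hq hqA).toIsG
      have hπ := (hu'.star.mul hw).E_proj.1
      have hπA : star c * c ∈ 𝒮.A := mul_mem (star_mem hcA) hcA
      have hπ' : 1 - star c * c ∈ 𝒮.A := sub_mem (one_mem _) hπA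
      refine ⟨q * (1 - star c * c), mul_mem hqA hπ', hq.mul hπ.one_sub (𝒮.masa.comm hqA hπ'), ?_⟩
      rw [← sub_sub, ← hu'.mul_E_proj hw, ← mul_assoc x, ← hxq, mul_sub (x - n), mul_one]

/-- Gram-Schmidt. Induction on `F`, for all `x` simultaneously; a convenient stronger statement:
there is a finite family `g i` in the bounded groupoid, `E ((g i)* g j) = 0` for `i ≠ j`, with the
same span. To add `w`: replace `w` by `w (1 - π)`, `π = c* c`, `c = E ((g i)* w)`, for each `i` in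
turn (`IsG.mul_E_proj`). Then `n = ∑ g i * E ((g i)* x)`. -/
theorem exists_projF (F : Finset M) (hF : ∀ v ∈ F, ∃ K, 𝒮.IsGb K v) (x : M) :
    ∃ n, 𝒮.SpanA F n ∧ ∀ v ∈ F, 𝒮.E (star v * n) = 𝒮.E (star v * x) := by
  obtain ⟨n, h1, h2, -⟩ := 𝒮.exists_projF' F (fun v hv => (hF v hv).choose_spec.toIsG) x
  refine ⟨n, h1, fun v hv => ?_⟩
  have := h2 v hv
  rw [mul_sub, 𝒮.E_sub, sub_eq_zero] at this
  exact this.symm

open Classical in
/-- for star-closed `F` the projection of a self-adjoint element is self-adjoint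
(`IsG.E_eq_zero_iff`) -/
lemma projF_sa {F : Finset M} (hF : ∀ v ∈ F, 𝒮.IsG v ∧ star v ∈ F) {x n : M}
    (hx : IsSelfAdjoint x) (hn : 𝒮.SpanA F n)
    (h : ∀ v ∈ F, 𝒮.E (star v * n) = 𝒮.E (star v * x)) : IsSelfAdjoint n := by
  have h0 : ∀ v ∈ F, 𝒮.E (star v * (x - n)) = 0 := fun v hv => by
    rw [mul_sub, 𝒮.E_sub, h v hv, sub_self]
  have h1 : ∀ v ∈ F, 𝒮.E (star v * (x - star n)) = 0 := by
    intro v hv
    have k := ((hF _ (hF v hv).2).1.E_eq_zero_iff _).1 (h0 _ (hF v hv).2)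
    have k2 := congrArg star k
    rwa [← 𝒮.E_star, star_mul, star_star, star_sub, hx.star_eq, star_zero] at k2
  have h2 : 𝒮.SpanA F (star n) := by
    obtain ⟨a, ha, rfl⟩ := hn
    rw [star_sum]
    refine SpanA.sum F fun v hv => ?_
    have hv' := (hF v hv).1.star
    rw [star_mul, hv'.mul_eq (star_mem (ha v))]
    exact (SpanA.of_mem (hF v hv).2).mul (hv'.inn _ (star_mem (ha v)))
  have h3 : 𝒮.E (star (star n - n) * (star n - n)) = 0 := by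
    refine (h2.sub hn).orth fun v hv => ?_
    have e : star n - n = (x - n) - (x - star n) := by abel
    rw [e, mul_sub, 𝒮.E_sub, h0 v hv, h1 v hv, sub_self]
  refine sub_eq_zero.1 (𝒮.faithful _ ?_)
  rw [← 𝒮.φ_E, h3, map_zero]

/-- the hypotheses of `kap_M` for `N0` -/
theorem exists_seq_N0 {x : M} (hx : IsSelfAdjoint x) :
    ∃ n : ℕ → M, (∀ i, n i ∈ 𝒮.N0 ∧ IsSelfAdjoint (n i)) ∧
      (∀ ε > 0, ∃ N, ∀ i ≥ N, ∀ j ≥ N, nrm 𝒮.φ (n i - n j) ≤ ε) ∧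
      ∀ w ∈ 𝒮.N0, ∀ z ∈ 𝒮.N0,
        Tendsto (fun i => 𝒮.φ (star w * n i * z)) atTop (𝓝 (𝒮.φ (star w * x * z))) := by
  classical
  let Good : Finset M → Prop := fun F => ∀ v ∈ F, (∃ K, 𝒮.IsGb K v) ∧ star v ∈ F
  let Pr : Finset M → M → Prop := fun F n =>
    𝒮.SpanA F n ∧ ∀ v ∈ F, 𝒮.E (star v * n) = 𝒮.E (star v * x)
  have hex : ∀ F, Good F → ∃ n, Pr F n := fun F hF =>
    𝒮.exists_projF F (fun v hv => (hF v hv).1) x
  have hun : ∀ F G, Good F → Good G → Good (F ∪ G) := by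
    intro F G hF hG v hv
    rcases Finset.mem_union.1 hv with h | h
    · exact ⟨(hF v h).1, Finset.mem_union_left _ (hF v h).2⟩
    · exact ⟨(hG v h).1, Finset.mem_union_right _ (hG v h).2⟩
  set S : Set ℝ := {r | ∃ F n, Good F ∧ Pr F n ∧ r = nrm 𝒮.φ (x - n) ^ 2} with hS
  have hS0 : BddBelow S := ⟨0, by
    rintro _ ⟨F, n, -, -, rfl⟩
    positivity⟩
  have hSne : S.Nonempty := by
    obtain ⟨n, hn⟩ := hex ∅ (by simp [Good])
    exact ⟨_, ∅, n, by simp [Good], hn, rfl⟩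
  have hpos : ∀ i : ℕ, (0 : ℝ) < 1 / ((i : ℝ) + 1) := fun i => by positivity
  have hch : ∀ i : ℕ, ∃ F n, Good F ∧ Pr F n ∧
      nrm 𝒮.φ (x - n) ^ 2 < sInf S + (1 / ((i : ℝ) + 1)) ^ 2 := by
    intro i
    obtain ⟨_, ⟨F, n, h1, h2, rfl⟩, h3⟩ := Real.lt_sInf_add_pos hSne (pow_pos (hpos i) 2)
    exact ⟨F, n, h1, h2, h3⟩
  choose F n hF hn hlt using hch
  have key : ∀ i G m, Good G → Pr G m → F i ⊆ G → nrm 𝒮.φ (n i - m) ≤ 1 / ((i : ℝ) + 1) := by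
    intro i G m hG hm hsub
    have k0 : 𝒮.E (star (n i - m) * (x - m)) = 0 :=
      (((hn i).1.mono hsub).sub hm.1).orth fun v hv => by
        rw [mul_sub, 𝒮.E_sub, hm.2 v hv, sub_self]
    have k1 : 𝒮.φ (star (n i - m) * (x - m)) = 0 := by rw [← 𝒮.φ_E, k0, map_zero]
    have k2 : 𝒮.φ (star (x - m) * (n i - m)) = 0 := by
      rw [← 𝒮.φ_E, E_star_mul_eq_zero k0, map_zero]
    have k3 : nrm 𝒮.φ (x - n i) ^ 2 = nrm 𝒮.φ (x - m) ^ 2 + nrm 𝒮.φ (n i - m) ^ 2 := by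
      have e : x - n i = (x - m) - (n i - m) := by abel
      rw [nrm_sq, nrm_sq, nrm_sq, e]
      generalize x - m = a at k1 k2 ⊢
      generalize n i - m = b at k1 k2 ⊢
      rw [star_sub, sub_mul, mul_sub, mul_sub, map_sub, map_sub, map_sub, k1, k2]
      simp
    have k4 : sInf S ≤ nrm 𝒮.φ (x - m) ^ 2 := csInf_le hS0 ⟨G, m, hG, hm, rfl⟩
    refine (pow_le_pow_iff_left₀ (nrm_nonneg _ _) (hpos i).le two_ne_zero).1 ?_
    linarith [hlt i]
  refine ⟨n, fun i => ⟨?_, ?_⟩, fun ε hε => ?_, fun w hw z hz => ?_⟩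
  · obtain ⟨a, ha, e⟩ := (hn i).1
    exact mem_N0_iff.2 ⟨F i, a, fun v hv => (hF i v hv).1, ha, e⟩
  · exact 𝒮.projF_sa (fun v hv => ⟨(hF i v hv).1.choose_spec.toIsG, (hF i v hv).2⟩) hx
      (hn i).1 (hn i).2
  · obtain ⟨N, hN⟩ := exists_nat_one_div_lt (half_pos hε)
    refine ⟨N, fun i hi j hj => ?_⟩
    obtain ⟨m, hm⟩ := hex _ (hun _ _ (hF i) (hF j))
    have k1 := key i _ m (hun _ _ (hF i) (hF j)) hm Finset.subset_union_left
    have k2 := key j _ m (hun _ _ (hF i) (hF j)) hm Finset.subset_union_right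
    have k3 := nrm_sub_le 𝒮.φ (n i - m) (n j - m)
    rw [sub_sub_sub_cancel_right] at k3
    linarith [Nat.one_div_le_one_div (α := ℝ) hi, Nat.one_div_le_one_div (α := ℝ) hj]
  · obtain ⟨C, hC, hC'⟩ := (RB_of_mem_N0 hz).abs
    obtain ⟨Fw, a', hFw, ha', rfl⟩ := mem_N0_iff.1 hw
    obtain ⟨Fz, a, hFz, ha, rfl⟩ := mem_N0_iff.1 hz
    have hGb : ∀ v' v, (∃ K, 𝒮.IsGb K v') → (∃ K, 𝒮.IsGb K v) → ∃ K, 𝒮.IsGb K (v' * star v) := by
      rintro v' v ⟨K', h'⟩ ⟨K, h⟩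
      exact ⟨_, (h'.mono (le_abs_self _)).mul (h.mono (le_abs_self _)).star (abs_nonneg _)
        (abs_nonneg _)⟩
    set G := ((Fw ∪ Fz) ×ˢ (Fw ∪ Fz)).image fun p : M × M => p.1 * star p.2 with hG
    have hall : ∀ v ∈ Fw ∪ Fz, ∃ K, 𝒮.IsGb K v := fun v hv =>
      (Finset.mem_union.1 hv).elim (hFw v) (hFz v)
    have hGg : Good G := by
      intro u hu
      obtain ⟨p, hp, rfl⟩ := Finset.mem_image.1 hu
      rw [Finset.mem_product] at hp
      refine ⟨hGb _ _ (hall _ hp.1) (hall _ hp.2), Finset.mem_image.2 ⟨(p.2, p.1),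
        Finset.mem_product.2 ⟨hp.2, hp.1⟩, by simp⟩⟩
    set w := ∑ v ∈ Fw, v * a' v with hwd
    set z := ∑ v ∈ Fz, v * a v with hzd
    have hzero : ∀ H m, Pr H m → G ⊆ H → 𝒮.φ (star w * (x - m) * z) = 0 := by
      intro H m hm hsub
      rw [hwd, hzd, star_sum, Finset.sum_mul, Finset.sum_mul_sum, map_sum]
      refine Finset.sum_eq_zero fun v' hv' => ?_
      rw [map_sum]
      refine Finset.sum_eq_zero fun v hv => ?_
      have k1 := hm.2 (v' * star v) (hsub (Finset.mem_image.2 ⟨(v', v), Finset.mem_product.2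
        ⟨Finset.mem_union_left _ hv', Finset.mem_union_right _ hv⟩, rfl⟩))
      have k2 : 𝒮.E (star (star v) * (star v' * (x - m))) = 0 := by
        rw [← mul_assoc, ← star_mul, mul_sub, 𝒮.E_sub, k1, sub_self]
      have k3 := ((hFz v hv).choose_spec.toIsG.star.E_eq_zero_iff _).1 k2
      rw [star_star] at k3
      rw [← 𝒮.φ_E, star_mul, ← mul_assoc, 𝒮.E_mul_right (ha v), mul_assoc (star (a' v')),
        mul_assoc (star (a' v')), 𝒮.E_mul_left (star_mem (ha' v')), k3]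
      simp
    rw [tendsto_iff_norm_sub_tendsto_zero]
    refine squeeze_zero (g := fun i : ℕ => nrm 𝒮.φ w * (C * (1 / ((i : ℝ) + 1))))
      (fun _ => norm_nonneg _) (fun i => ?_) ?_
    · obtain ⟨m, hm⟩ := hex _ (hun _ _ (hF i) hGg)
      have k1 := key i _ m (hun _ _ (hF i) hGg) hm Finset.subset_union_left
      have k2 := hzero _ m hm Finset.subset_union_right
      have e : 𝒮.φ (star w * n i * z) - 𝒮.φ (star w * x * z) = 𝒮.φ (star w * ((n i - m) * z)) := by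
        rw [← mul_assoc, mul_sub, sub_mul, map_sub]
        rw [mul_sub, sub_mul, map_sub, sub_eq_zero] at k2
        rw [k2]
      rw [e]
      exact (norm_apply_le_nrm _ _ _).trans (mul_le_mul_of_nonneg_left
        ((hC' _).trans (mul_le_mul_of_nonneg_left k1 hC.le)) (nrm_nonneg _ _))
    · have := (tendsto_one_div_add_atTop_nhds_zero_nat.const_mul C).const_mul (nrm 𝒮.φ w)
      simpa using this

/-- `y` is the component of `x` in the von Neumann algebra generated by the groupoid -/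
def IsNPart (x y : M) : Prop := IsSelfAdjoint y ∧ ‖y‖ ≤ ‖x‖ ∧
  (∀ ε > 0, ∃ m ∈ 𝒮.N0, IsSelfAdjoint m ∧ ‖m‖ ≤ ‖x‖ + ε ∧ nrm 𝒮.φ (y - m) ≤ ε) ∧
  ∀ w ∈ 𝒮.N0, ∀ z ∈ 𝒮.N0, 𝒮.φ (star w * y * z) = 𝒮.φ (star w * x * z)

theorem exists_NPart {x : M} (hx : IsSelfAdjoint x) : ∃ y, 𝒮.IsNPart x y := by
  rcases eq_or_ne x 0 with rfl | h0
  · refine ⟨0, IsSelfAdjoint.zero _, le_rfl, fun ε hε => ⟨0, zero_mem _, IsSelfAdjoint.zero _,
      by simpa using hε.le, by simpa [nrm] using hε.le⟩, fun _ _ _ _ => rfl⟩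
  have hr : 0 < ‖x‖ := norm_pos_iff.2 h0
  have hx' := rba_real_sa (‖x‖⁻¹) hx
  obtain ⟨n, h1, h2, h3⟩ := 𝒮.exists_seq_N0 hx'
  obtain ⟨y, k1, k2, k3, k4⟩ := 𝒮.kap_M (B := 𝒮.N0) (fun z hz => RB_of_mem_N0 hz) hx' (by
    rw [norm_smul, Complex.norm_real, norm_inv, norm_norm, inv_mul_cancel₀ hr.ne']) n h1 h2 h3
  have hn : ‖((‖x‖ : ℝ) : ℂ)‖ = ‖x‖ := by rw [Complex.norm_real, norm_norm]
  refine ⟨((‖x‖ : ℝ) : ℂ) • y, rba_real_sa _ k1, ?_, fun ε hε => ?_, fun w hw z hz => ?_⟩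
  · rw [norm_smul, hn]
    exact mul_le_of_le_one_right hr.le k2
  · obtain ⟨m, m1, m2, m3, m4⟩ := k3 (ε / ‖x‖) (by positivity)
    refine ⟨((‖x‖ : ℝ) : ℂ) • m, SMulMemClass.smul_mem _ m1, rba_real_sa _ m2, ?_, ?_⟩
    · rw [norm_smul, hn]
      refine (mul_le_mul_of_nonneg_left m3 hr.le).trans_eq ?_
      field_simp
    · rw [← smul_sub, nrm_smul, hn]
      refine (mul_le_mul_of_nonneg_left m4 hr.le).trans_eq ?_
      field_simp
  · have := k4 w hw z hz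
    rw [mul_smul_comm, smul_mul_assoc, map_smul] at this ⊢
    rw [this, smul_smul, ← Complex.ofReal_mul, mul_inv_cancel₀ hr.ne']
    simp

/-- the `L²` closure of `N0` -/
def InL (m : M) : Prop := ∀ ε > 0, ∃ n ∈ 𝒮.N0, nrm 𝒮.φ (m - n) ≤ ε

section InL

variable {𝒮} {x y : M}

lemma InL.of_mem (h : x ∈ 𝒮.N0) : 𝒮.InL x := fun ε hε => ⟨x, h, by simpa [nrm] using hε.le⟩

lemma InL.lim (h : ∀ ε > 0, ∃ m, 𝒮.InL m ∧ nrm 𝒮.φ (x - m) ≤ ε) : 𝒮.InL x := by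
  intro ε hε
  obtain ⟨m, hm, h1⟩ := h _ (half_pos hε)
  obtain ⟨n, hn, h2⟩ := hm _ (half_pos hε)
  have := nrm_add_le 𝒮.φ (x - m) (m - n)
  rw [sub_add_sub_cancel] at this
  exact ⟨n, hn, by linarith⟩

lemma InL.add (hx : 𝒮.InL x) (hy : 𝒮.InL y) : 𝒮.InL (x + y) := by
  intro ε hε
  obtain ⟨m, hm, h1⟩ := hx _ (half_pos hε)
  obtain ⟨n, hn, h2⟩ := hy _ (half_pos hε)
  have := nrm_add_le 𝒮.φ (x - m) (y - n)
  rw [← add_sub_add_comm] at this
  exact ⟨m + n, add_mem hm hn, by linarith⟩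

lemma InL.mul (hx : 𝒮.InL x) (hy : 𝒮.InL y) : 𝒮.InL (x * y) := by
  refine InL.lim fun ε hε => ?_
  obtain ⟨n, hn, h2⟩ := hy (ε / (‖x‖ + 1)) (by positivity)
  refine ⟨x * n, fun δ hδ => ?_, ?_⟩
  · obtain ⟨C, hC, hC'⟩ := (RB_of_mem_N0 hn).abs
    obtain ⟨m, hm, h1⟩ := hx (δ / C) (by positivity)
    refine ⟨m * n, mul_mem hm hn, ?_⟩
    rw [← sub_mul]
    refine (hC' _).trans ((mul_le_mul_of_nonneg_left h1 hC.le).trans_eq ?_)
    field_simp
  · rw [← mul_sub]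
    refine (nrm_mul_le _ _ _).trans ((mul_le_mul_of_nonneg_left h2 (norm_nonneg _)).trans ?_)
    rw [← mul_div_assoc, div_le_iff₀ (by positivity)]
    nlinarith

lemma InL.orth {u : M} (h : ∀ w ∈ 𝒮.N0, 𝒮.φ (star w * u) = 0) (hx : 𝒮.InL x) :
    𝒮.φ (star x * u) = 0 := by
  refine norm_le_zero_iff.1 (le_of_forall_pos_le_add fun ε hε => ?_)
  have hu := nrm_nonneg 𝒮.φ u
  obtain ⟨n, hn, h2⟩ := hx (ε / (nrm 𝒮.φ u + 1)) (by positivity)
  have k := norm_apply_le_nrm 𝒮.φ (x - n) u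
  rw [star_sub, sub_mul, map_sub, h n hn, sub_zero] at k
  refine k.trans ((mul_le_mul_of_nonneg_right h2 hu).trans ?_)
  rw [zero_add, div_mul_eq_mul_div, div_le_iff₀ (by positivity)]
  nlinarith

lemma IsNPart.ext (h : 𝒮.IsNPart x y) {w z : M} (hw : 𝒮.InL w) (hz : 𝒮.InL z) :
    𝒮.φ (star w * y * z) = 𝒮.φ (star w * x * z) := by
  have k1 : ∀ z ∈ 𝒮.N0, 𝒮.φ (star z * star (star w * (y - x))) = 0 := by
    intro z hz
    rw [← star_mul, map_star, mul_assoc, InL.orth (fun w hw => ?_) hw, star_zero]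
    rw [← mul_assoc, mul_sub, sub_mul, map_sub, h.2.2.2 w hw z hz, sub_self]
  have k2 := InL.orth k1 hz
  rwa [← star_mul, map_star, star_eq_zero, mul_sub, sub_mul, map_sub, sub_eq_zero] at k2

lemma IsNPart.inL (h : 𝒮.IsNPart x y) : 𝒮.InL y := fun ε hε => by
  obtain ⟨m, h1, -, -, h2⟩ := h.2.2.1 ε hε
  exact ⟨m, h1, h2⟩

variable (𝒮) in
/-- elements that lie in the `L²` closure together with their adjoints -/
def Nalg : StarSubalgebra ℂ M where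
  carrier := {m | 𝒮.InL m ∧ 𝒮.InL (star m)}
  mul_mem' ha hb := ⟨ha.1.mul hb.1, by rw [star_mul]; exact hb.2.mul ha.2⟩
  add_mem' ha hb := ⟨ha.1.add hb.1, by rw [star_add]; exact ha.2.add hb.2⟩
  algebraMap_mem' c :=
    ⟨InL.of_mem (algebraMap_mem _ c), InL.of_mem (star_mem (algebraMap_mem _ c))⟩
  star_mem' ha := ⟨ha.2, by rw [star_star]; exact ha.1⟩

lemma IsNPart.inL_cfc (h : 𝒮.IsNPart x y) (f : ℝ → ℝ) : 𝒮.InL (cfc f y) := by
  refine InL.lim fun ε hε => ?_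
  obtain ⟨m, hm, -, h2⟩ := rb_exists_near_cfc (B := 𝒮.Nalg) (a := y)
    ⟨h.inL, by rw [h.1.star_eq]; exact h.inL⟩ f hε
  refine ⟨m, hm.1, (nrm_le_norm _ _).trans ?_⟩
  rwa [𝒮.nrm_one, mul_one]

lemma IsNPart.nonneg (h : 𝒮.IsNPart x y) (hx : 0 ≤ x) : 0 ≤ y := by
  have hy := h.1
  have hr := h.inL_cfc fun t => Real.sqrt (max (-t) 0)
  have hrs : IsSelfAdjoint (cfc (fun t : ℝ => Real.sqrt (max (-t) 0)) y) := cfc_predicate _ y
  have hus : IsSelfAdjoint (cfc (fun t : ℝ => max (-t) 0) y) := cfc_predicate _ y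
  have k1 := h.ext hr hr
  have k2 : 0 ≤ 𝒮.φ (star (cfc (fun t : ℝ => Real.sqrt (max (-t) 0)) y) * y *
      cfc (fun t : ℝ => Real.sqrt (max (-t) 0)) y) := by
    rw [k1]
    exact 𝒮.φ.map_nonneg (star_left_conjugate_nonneg hx _)
  have e : star (cfc (fun t : ℝ => Real.sqrt (max (-t) 0)) y) * y *
      cfc (fun t : ℝ => Real.sqrt (max (-t) 0)) y =
      -(star (cfc (fun t : ℝ => max (-t) 0) y) * cfc (fun t : ℝ => max (-t) 0) y) := by
    rw [hrs.star_eq, hus.star_eq, ← cfc_mul _ _ y, ← cfc_neg]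
    nth_rewrite 2 [← cfc_id' ℝ y]
    rw [← cfc_mul _ _ y, ← cfc_mul _ _ y]
    refine cfc_congr fun t _ => ?_
    rcases le_total t 0 with ht | ht
    · have := Real.mul_self_sqrt (neg_nonneg.2 ht)
      simp only [max_eq_left (neg_nonneg.2 ht)]
      linear_combination t * this
    · simp [max_eq_right (neg_nonpos.2 ht)]
  rw [e, map_neg, neg_nonneg] at k2
  have k3 := 𝒮.faithful _ (le_antisymm k2 (𝒮.φ.map_nonneg (star_mul_self_nonneg _)))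
  have e2 : y = cfc (fun t : ℝ => max t 0) y - cfc (fun t : ℝ => max (-t) 0) y := by
    rw [← cfc_sub _ _ y]
    nth_rewrite 1 [← cfc_id' ℝ y]
    exact cfc_congr fun t _ => (max_zero_sub_max_neg_zero_eq_self t).symm
  rw [e2, k3, sub_zero]
  exact cfc_nonneg fun t _ => le_max_right _ _

end InL

theorem IsNPart.RB {𝒮 : WSys M} {x y : M} (h : 𝒮.IsNPart x y) (hx : RB 𝒮.φ x) : RB 𝒮.φ y := by
  obtain ⟨C, hC, hC'⟩ := hx.abs
  refine ⟨C, fun c => ?_⟩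
  obtain ⟨b, hb⟩ := 𝒮.exists_NPart (IsSelfAdjoint.star_mul_self c)
  have hb0 := hb.nonneg (star_mul_self_nonneg c)
  have hs := hb.inL_cfc Real.sqrt
  have hss : IsSelfAdjoint (cfc Real.sqrt b) := cfc_predicate _ b
  have hb1 := hb.1
  have e : cfc Real.sqrt b * cfc Real.sqrt b = b := by
    rw [← cfc_mul _ _ b]
    nth_rewrite 2 [← cfc_id' ℝ b]
    exact cfc_congr fun t ht => Real.mul_self_sqrt (spectrum_nonneg_of_nonneg hb0 ht)
  generalize cfc Real.sqrt b = s at hs hss e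
  have h1 : 𝒮.InL 1 := InL.of_mem (one_mem _)
  have k1 : nrm 𝒮.φ s = nrm 𝒮.φ c := by
    have := hb.ext h1 h1
    simp only [star_one, one_mul, mul_one] at this
    rw [nrm, nrm, hss.star_eq, e, this]
  have k2 : nrm 𝒮.φ (c * y) = nrm 𝒮.φ (s * y) := by
    have := hb.ext h.inL h.inL
    rw [nrm, nrm, star_mul, star_mul, hss.star_eq, ← mul_assoc, ← mul_assoc, mul_assoc _ s s, e,
      this, mul_assoc _ (star c) c]
  have k3 : nrm 𝒮.φ (s * y) ^ 2 ≤ nrm 𝒮.φ (s * y) * nrm 𝒮.φ (s * x) := by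
    have a1 := h.ext (hs.mul (hs.mul h.inL)) h1
    rw [mul_one, mul_one, star_mul s, hss.star_eq, mul_assoc, mul_assoc] at a1
    rw [nrm_sq, a1]
    exact (Complex.re_le_norm _).trans (norm_apply_le_nrm _ _ _)
  rw [k2, ← k1]
  refine le_trans ?_ (hC' s)
  rcases (nrm_nonneg 𝒮.φ (s * y)).eq_or_lt with k | k
  · rw [← k]
    exact nrm_nonneg _ _
  · rw [sq] at k3
    exact le_of_mul_le_mul_left k3 k

theorem decomp {x : M} (hx : IsSelfAdjoint x) (hx1 : ‖x‖ ≤ 1) {ε : ℝ} (hε : 0 < ε) :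
    ∃ x₀ ∈ 𝒮.N0, ∃ y, IsSelfAdjoint x₀ ∧ 𝒮.E x₀ = 0 ∧ ‖x₀‖ ≤ 5 ∧ IsSelfAdjoint y ∧ RB 𝒮.φ y ∧
      ‖y‖ ≤ 5 ∧ 𝒮.Perp y ∧ nrm 𝒮.φ (x - 𝒮.E x - x₀ - y) ≤ ε := by
  have hδ : 0 < min ε 1 / 4 := by positivity
  have hδ1 : min ε 1 / 4 ≤ 1 / 4 := by linarith [min_le_right ε 1]
  have hδ2 : min ε 1 / 4 ≤ ε / 4 := by linarith [min_le_left ε 1]
  obtain ⟨x', a1, a2, a3, a4⟩ := 𝒮.rb_approx hx hx1 hδ
  obtain ⟨yN, hN⟩ := 𝒮.exists_NPart a1
  obtain ⟨m, m1, m2, m3, m4⟩ := hN.2.2.1 _ hδ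
  have hperp : 𝒮.Perp (x' - yN) := by
    intro v hv
    by_contra hne
    obtain ⟨K, v', h1, h2⟩ := hv.cut hne
    refine h2 (𝒮.E_unique (zero_mem _) fun b hb => ?_)
    have := hN.2.2.2 (v' * star b) (mul_mem h1.mem_N0 (mem_N0_of_mem (star_mem hb))) 1 (one_mem _)
    rw [mul_one, mul_one, star_mul, star_star] at this
    rw [← mul_assoc, mul_sub, map_sub, this]
    simp
  have hE : 𝒮.E (x' - yN) = 0 := by simpa using hperp 1 isGb_one.toIsG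
  refine ⟨m - 𝒮.E m, sub_mem m1 (mem_N0_of_mem (𝒮.E_mem m)), x' - yN, m2.sub ?_, ?_, ?_,
    a1.sub hN.1, a2.sub (hN.RB a2), ?_, hperp, ?_⟩
  · rw [IsSelfAdjoint, ← 𝒮.E_star, m2.star_eq]
  · rw [𝒮.E_sub, 𝒮.E_of_mem (𝒮.E_mem m), sub_self]
  · linarith [norm_sub_le m (𝒮.E m), 𝒮.norm_E_le m]
  · linarith [norm_sub_le x' yN, hN.2.1]
  · have e : x - 𝒮.E x - (m - 𝒮.E m) - (x' - yN) =
        ((x - x') + (yN - m)) - (𝒮.E ((x - x') + (yN - m)) + 𝒮.E (x' - yN)) := by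
      simp only [𝒮.E_add, 𝒮.E_sub]
      abel
    rw [e, hE, add_zero]
    linarith [nrm_sub_le 𝒮.φ ((x - x') + (yN - m)) (𝒮.E ((x - x') + (yN - m))),
      𝒮.nrm_E_le ((x - x') + (yN - m)), nrm_add_le 𝒮.φ (x - x') (yN - m)]

end WSys

end Vale.Agent.P078
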