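import Vale.Agent.P078.ES

/-! Auxiliary lemmas for `Free.lean`: the Hilbert space part. -/

namespace Vale.Agent.P078.FreeAux

open Finset
open scoped BigOperators InnerProductSpace

set_option linter.unusedSectionVars false

section ES
variable {J Λ : Type*} [Fintype J] [DecidableEq J] [Fintype Λ] [Nonempty Λ]
  {F : Type*} [SeminormedAddCommGroup F] [InnerProductSpace ℂ F]

lemma foldr_comm {X : Type*} (o : J → X → X) [LeftCommutative o] (Φ : X → X)
    (h : ∀ m x, Φ (o m x) = o m (Φ x)) (s : Multiset J) (x : X) :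
    Φ (s.foldr o x) = s.foldr o (Φ x) := by
  induction s using Multiset.induction_on with
  | empty => rfl
  | cons m s ih => rw [Multiset.foldr_cons, Multiset.foldr_cons, h, ih]

lemma foldr_add {X : Type*} [Add X] (o : J → X → X) [LeftCommutative o]
    (h : ∀ m x y, o m (x + y) = o m x + o m y) (s : Multiset J) (x y : X) :
    s.foldr o (x + y) = s.foldr o x + s.foldr o y := by
  induction s using Multiset.induction_on with
  | empty => rfl
  | cons m s ih => simp only [Multiset.foldr_cons, h, ih]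

lemma avg_add (m : J) (ζ ξ : (J → Λ) → F) : avg m (ζ + ξ) = avg m ζ + avg m ξ := by
  funext l
  simp only [avg, Pi.add_apply, Finset.sum_add_distrib, smul_add]

lemma del_add (m : J) (ζ ξ : (J → Λ) → F) : del m (ζ + ξ) = del m ζ + del m ξ := by
  simp only [del, avg_add]
  abel

/-- `del m` as an additive map -/
noncomputable def delA (m : J) : ((J → Λ) → F) →+ ((J → Λ) → F) :=
  AddMonoidHom.mk' (del m) (del_add m)

/-- `delS T` as an additive map -/
noncomputable def delSA (T : Finset J) : ((J → Λ) → F) →+ ((J → Λ) → F) :=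
  AddMonoidHom.mk' (delS T) (foldr_add del del_add T.val)

lemma del_sum {I : Type*} (s : Finset I) (m : J) (ζ : I → (J → Λ) → F) :
    del m (∑ i ∈ s, ζ i) = ∑ i ∈ s, del m (ζ i) := map_sum (delA m) ζ s

lemma del_sub (m : J) (ζ ξ : (J → Λ) → F) : del m (ζ - ξ) = del m ζ - del m ξ :=
  map_sub (delA m) ζ ξ

lemma delS_sum {I : Type*} (s : Finset I) (T : Finset J) (ζ : I → (J → Λ) → F) :
    delS T (∑ i ∈ s, ζ i) = ∑ i ∈ s, delS T (ζ i) := map_sum (delSA T) ζ s

lemma del_avgS (m : J) (S : Finset J) (ζ : (J → Λ) → F) :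
    del m (avgS S ζ) = avgS S (del m ζ) := by
  refine foldr_comm avg (del m) (fun m' x => ?_) S.val ζ
  have := map_sub (AddMonoidHom.mk' (avg (Λ := Λ) (F := F) m') (avg_add m')) x (avg m x)
  change avg m' (x - avg m x) = avg m' x - avg m' (avg m x) at this
  rw [del, del, this, avg_comm]

lemma deg_mono {d d' : ℕ} {ζ : (J → Λ) → F} (h : Deg d ζ) (hd : d ≤ d') : Deg d' ζ :=
  fun S hS => h S (lt_of_le_of_lt hd hS)

lemma deg_del {d : ℕ} {ζ : (J → Λ) → F} (h : Deg d ζ) (m : J) : Deg d (del m ζ) :=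
  h.delS {m}

lemma avgS_eq (S : Finset J) (ζ : (J → Λ) → F) (l : J → Λ) :
    avgS S ζ l = ((Fintype.card (J → Λ) : ℂ)⁻¹) • ∑ l' : J → Λ, ζ (S.piecewise l' l) := by
  have hc : (Fintype.card (J → Λ) : ℂ) ≠ 0 := Nat.cast_ne_zero.2 Fintype.card_ne_zero
  have hc' : (Fintype.card Λ : ℂ) ≠ 0 := Nat.cast_ne_zero.2 Fintype.card_ne_zero
  induction S using Finset.induction_on generalizing l with
  | empty =>
    simp only [Finset.piecewise_empty, Finset.sum_const, Finset.card_univ]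
    rw [← Nat.cast_smul_eq_nsmul ℂ, smul_smul, inv_mul_cancel₀ hc, one_smul]
    rfl
  | insert m S hm ih =>
    have e : avgS (insert m S) ζ = avg m (avgS S ζ) := by
      rw [avgS, Finset.insert_val_of_notMem hm, Multiset.foldr_cons]
      rfl
    rw [e, avg]
    simp only [ih]
    rw [← Finset.smul_sum, smul_comm]
    congr 1
    have σi : Function.Involutive
        (fun q : Λ × (J → Λ) => ((q.2 m, Function.update q.2 m q.1) : Λ × (J → Λ))) := by
      intro q
      simp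
    have k := Equiv.sum_comp σi.toPerm (fun q : Λ × (J → Λ) => ζ ((insert m S).piecewise q.2 l))
    rw [Fintype.sum_prod_type, Fintype.sum_prod_type] at k
    simp only [Finset.sum_const, Finset.card_univ, Function.Involutive.coe_toPerm] at k
    rw [← Nat.cast_smul_eq_nsmul ℂ] at k
    rw [inv_smul_eq_iff₀ hc', ← k]
    refine Finset.sum_congr rfl fun x _ => Finset.sum_congr rfl fun l' _ => ?_
    congr 1
    funext i
    by_cases h1 : i = m
    · subst h1
      simp [Finset.piecewise, hm]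
    · simp [Finset.piecewise, h1]

lemma expect_pw (S : Finset J) (h : (J → Λ) → ℝ) :
    (𝔼 l : J → Λ, 𝔼 l' : J → Λ, h (S.piecewise l' l)) = 𝔼 l, h l := by
  have σi : Function.Involutive (fun q : (J → Λ) × (J → Λ) =>
      ((S.piecewise q.2 q.1, S.piecewise q.1 q.2) : (J → Λ) × (J → Λ))) := by
    intro q
    refine Prod.ext ?_ ?_ <;> funext i <;> by_cases h1 : i ∈ S <;> simp [Finset.piecewise, h1]
  have k := Fintype.expect_equiv σi.toPerm (fun q => h (S.piecewise q.2 q.1)) (fun q => h q.1)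
    (fun _ => rfl)
  rw [← Finset.univ_product_univ, Finset.expect_product, Finset.expect_product] at k
  simpa only [Fintype.expect_const] using k

lemma sqn_nonneg (ζ : (J → Λ) → F) : 0 ≤ sqn ζ :=
  Finset.expect_nonneg fun _ _ => sq_nonneg _

lemma sqn_le {ζ ξ : (J → Λ) → F} {c : ℝ} (h : ∀ l, ‖ζ l‖ ^ 2 ≤ c * ‖ξ l‖ ^ 2) :
    sqn ζ ≤ c * sqn ξ := by
  rw [sqn, sqn, Finset.mul_expect]
  exact Finset.expect_le_expect fun l _ => h l

lemma sqn_le_add {ζ ξ ξ' : (J → Λ) → F} {c c' : ℝ}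
    (h : ∀ l, ‖ζ l‖ ^ 2 ≤ c * ‖ξ l‖ ^ 2 + c' * ‖ξ' l‖ ^ 2) : sqn ζ ≤ c * sqn ξ + c' * sqn ξ' := by
  rw [sqn, sqn, sqn, Finset.mul_expect, Finset.mul_expect, ← Finset.expect_add_distrib]
  exact Finset.expect_le_expect fun l _ => h l

lemma sqn_add_le (ζ ξ : (J → Λ) → F) {κ : ℝ} (hκ : 0 < κ) :
    sqn (ζ + ξ) ≤ (1 + κ) * sqn ζ + (1 + κ⁻¹) * sqn ξ := by
  refine sqn_le_add fun l => ?_
  have h1 : ‖(ζ + ξ) l‖ ^ 2 ≤ (‖ζ l‖ + ‖ξ l‖) ^ 2 :=
    pow_le_pow_left₀ (norm_nonneg _) (norm_add_le _ _) 2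
  have h2 : 0 ≤ κ⁻¹ * (κ * ‖ζ l‖ - ‖ξ l‖) ^ 2 := by positivity
  have h3 : κ⁻¹ * (κ * ‖ζ l‖ - ‖ξ l‖) ^ 2 =
      κ * ‖ζ l‖ ^ 2 - 2 * ‖ζ l‖ * ‖ξ l‖ + κ⁻¹ * ‖ξ l‖ ^ 2 := by
    field_simp
    ring
  nlinarith

lemma sqn_sum_le {I : Type*} [Fintype I] (ζ : I → (J → Λ) → F) :
    sqn (∑ i, ζ i) ≤ Fintype.card I * ∑ i, sqn (ζ i) := by
  simp only [sqn]
  rw [← Finset.expect_sum_comm, Finset.mul_expect]
  refine Finset.expect_le_expect fun l _ => ?_
  rw [Finset.sum_apply]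
  exact (pow_le_pow_left₀ (norm_nonneg _) (norm_sum_le _ _) 2).trans sq_sum_le_card_mul_sum_sq

lemma sqn_avgS_le (S : Finset J) (ζ : (J → Λ) → F) : sqn (avgS S ζ) ≤ sqn ζ := by
  have := sqn_avgS_add S ζ
  have := sqn_nonneg (ζ - avgS S ζ)
  linarith

open Classical in
/-- an event of the coordinates `S` is independent of an average over `S` -/
lemma sqn_ite_avgS (S : Finset J) {c : (J → Λ) → Prop}
    (hc : ∀ l l', (∀ m ∈ S, l m = l' m) → (c l ↔ c l')) {ρ : ℝ}
    (hρ : (𝔼 l : J → Λ, if c l then (1 : ℝ) else 0) ≤ ρ) (ζ : (J → Λ) → F) :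
    sqn (fun l => if c l then avgS S ζ l else 0) ≤ ρ * sqn ζ := by
  have h0 : 0 ≤ ρ := le_trans (Finset.expect_nonneg fun l _ => by positivity) hρ
  refine le_trans ?_ (mul_le_mul_of_nonneg_left (sqn_avgS_le S ζ) h0)
  rw [sqn, ← expect_pw S, sqn, Finset.mul_expect]
  refine Finset.expect_le_expect fun l _ => ?_
  refine le_trans (le_of_eq ?_) (mul_le_mul_of_nonneg_right hρ (sq_nonneg _))
  rw [Finset.expect_mul]
  refine Finset.expect_congr rfl fun l' _ => ?_
  have e1 : c (S.piecewise l' l) ↔ c l' := hc _ _ fun m hm => by simp [Finset.piecewise, hm]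
  have e2 : avgS S ζ (S.piecewise l' l) = avgS S ζ l := by
    rw [avgS_eq, avgS_eq]
    congr 1
    refine Finset.sum_congr rfl fun x _ => ?_
    congr 1
    funext i
    by_cases h1 : i ∈ S <;> simp [Finset.piecewise, h1]
  by_cases h : c l'
  · simp [e1, e2, h]
  · simp [e1, h]

open Classical in
/-- the adjoint estimate -/
lemma sqn_avgS_ite (S : Finset J) {c : (J → Λ) → Prop}
    (hc : ∀ l l', (∀ m ∈ S, l m = l' m) → (c l ↔ c l')) {ρ : ℝ}
    (hρ : (𝔼 l : J → Λ, if c l then (1 : ℝ) else 0) ≤ ρ) (ζ : (J → Λ) → F) :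
    sqn (avgS S fun l => if c l then ζ l else 0) ≤ ρ * sqn ζ := by
  rw [sqn, sqn, ← expect_pw S (fun l => ‖ζ l‖ ^ 2), Finset.mul_expect]
  refine Finset.expect_le_expect fun l _ => ?_
  have h1 : ‖avgS S (fun l => if c l then ζ l else 0) l‖ ≤
      𝔼 l' : J → Λ, (if c l' then (1 : ℝ) else 0) * ‖ζ (S.piecewise l' l)‖ := by
    rw [avgS_eq, norm_smul, norm_inv, Complex.norm_natCast, Fintype.expect_eq_sum_div_card,
      div_eq_inv_mul]
    refine mul_le_mul_of_nonneg_left ((norm_sum_le _ _).trans (le_of_eq ?_)) (by positivity)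
    refine Finset.sum_congr rfl fun l' _ => ?_
    have e1 : c (S.piecewise l' l) ↔ c l' := hc _ _ fun m hm => by simp [Finset.piecewise, hm]
    by_cases h : c l' <;> simp [e1, h]
  refine (pow_le_pow_left₀ (norm_nonneg _) h1 2).trans
    ((Finset.expect_mul_sq_le_sq_mul_sq _ _ _).trans ?_)
  refine mul_le_mul_of_nonneg_right (le_trans (le_of_eq ?_) hρ)
    (Finset.expect_nonneg fun _ _ => sq_nonneg _)
  refine Finset.expect_congr rfl fun l' _ => ?_
  by_cases h : c l' <;> simp [h]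

section Act
variable {R : Type*} [Monoid R] [DistribMulAction R F] [SMulCommClass R ℂ F]

lemma avg_act (a : R) (m : J) (ζ : (J → Λ) → F) : avg m (a • ζ) = a • avg m ζ := by
  funext l
  simp only [avg, Pi.smul_apply]
  rw [smul_comm a, ← Finset.smul_sum]

lemma del_act (a : R) (m : J) (ζ : (J → Λ) → F) : del m (a • ζ) = a • del m ζ := by
  rw [del, del, avg_act, smul_sub]

lemma avgS_act (a : R) (S : Finset J) (ζ : (J → Λ) → F) : avgS S (a • ζ) = a • avgS S ζ :=
  (foldr_comm avg (fun ξ : (J → Λ) → F => a • ξ) (fun m x => (avg_act a m x).symm) S.val ζ).symm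

lemma delS_act (a : R) (S : Finset J) (ζ : (J → Λ) → F) : delS S (a • ζ) = a • delS S ζ :=
  (foldr_comm del (fun ξ : (J → Λ) → F => a • ξ) (fun m x => (del_act a m x).symm) S.val ζ).symm

lemma deg_act {d : ℕ} {ζ : (J → Λ) → F} (h : Deg d ζ) (a : R) : Deg d (a • ζ) := fun S hS => by
  rw [delS_act, h S hS, smul_zero]

end Act

section Rep
variable {M : Type*} [NormedRing M] [StarRing M] [Module M F] [SMulCommClass M ℂ F]
  {𝒜 : Type*} [Fintype 𝒜]

/-- `F` is a star representation of `M` and `f` is a partition of unity -/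
structure Dat (F : Type*) [SeminormedAddCommGroup F] [InnerProductSpace ℂ F] [Module M F]
    (f : 𝒜 → M) : Prop where
  adj : ∀ (a : M) (x z : F), ⟪a • x, z⟫_ℂ = ⟪x, star a • z⟫_ℂ
  bd : ∀ (a : M) (x : F), ‖a • x‖ ≤ ‖a‖ * ‖x‖
  proj : ∀ a, IsStarProjection (f a)
  orth : ∀ a b, a ≠ b → f a * f b = 0
  sum : ∑ a, f a = 1

/-- the conditional averaging operator -/
noncomputable def Pj (f : 𝒜 → M) (K : 𝒜 → Finset J) (η : (J → Λ) → F) : (J → Λ) → F :=
  ∑ a, f a • avgS (K a) η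

/-- its complement -/
noncomputable def Qj (f : 𝒜 → M) (K : 𝒜 → Finset J) (η : (J → Λ) → F) : (J → Λ) → F :=
  ∑ a, f a • (η - avgS (K a) η)

open Classical in
/-- multiplication by the random projection -/
noncomputable def Pc (f : 𝒜 → M) (c : 𝒜 → (J → Λ) → Prop) (η : (J → Λ) → F) : (J → Λ) → F :=
  fun l => (∑ a, if c a l then f a else 0) • η l

variable {f : 𝒜 → M} (D : Dat F f)
include D

lemma Dat.norm_sum (s : Finset 𝒜) (x : 𝒜 → F) :
    ‖∑ a ∈ s, f a • x a‖ ^ 2 = ∑ a ∈ s, ‖f a • x a‖ ^ 2 := by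
  simp only [@norm_sq_eq_re_inner ℂ]
  rw [sum_inner, map_sum]
  refine Finset.sum_congr rfl fun a ha => ?_
  rw [inner_sum, Finset.sum_eq_single a _ (fun h => absurd ha h)]
  intro b _ hb
  rw [D.adj, (D.proj a).isSelfAdjoint.star_eq, smul_smul, D.orth a b hb.symm, zero_smul,
    inner_zero_right]

lemma Dat.sqn_sum (s : Finset 𝒜) (ξ : 𝒜 → (J → Λ) → F) :
    sqn (∑ a ∈ s, f a • ξ a) = ∑ a ∈ s, sqn (f a • ξ a) := by
  simp only [sqn]
  rw [← Finset.expect_sum_comm]
  refine Finset.expect_congr rfl fun l _ => ?_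
  rw [Finset.sum_apply]
  exact D.norm_sum s fun a => ξ a l

lemma Dat.sqn_sub (s : Finset 𝒜) (η : (J → Λ) → F) :
    sqn ((∑ a ∈ s, f a) • η) = ∑ a ∈ s, sqn (f a • η) := by
  rw [Finset.sum_smul, D.sqn_sum]

lemma Dat.sqn_all (η : (J → Λ) → F) : ∑ a, sqn (f a • η) = sqn η := by
  rw [← D.sqn_sub, D.sum, one_smul]

lemma Dat.sqn_act (a : M) (η : (J → Λ) → F) : sqn (a • η) ≤ ‖a‖ ^ 2 * sqn η :=
  sqn_le fun l => by
    rw [← mul_pow]
    exact pow_le_pow_left₀ (norm_nonneg _) (D.bd _ _) 2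

lemma Dat.Pj_add_Qj (K : 𝒜 → Finset J) (η : (J → Λ) → F) : Pj f K η + Qj f K η = η := by
  rw [Pj, Qj, ← Finset.sum_add_distrib]
  simp only [← smul_add, add_sub_cancel]
  rw [← Finset.sum_smul, D.sum, one_smul]

lemma Dat.sqn_Qj (K : 𝒜 → Finset J) (η : (J → Λ) → F) : sqn (Qj f K η) ≤ sqn η := by
  rw [Qj, D.sqn_sum, ← D.sqn_all η]
  refine Finset.sum_le_sum fun a _ => ?_
  rw [smul_sub, ← avgS_act]
  have := sqn_avgS_add (K a) (f a • η)
  have := sqn_nonneg (avgS (K a) (f a • η))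
  linarith

open Classical in
lemma Dat.f_Pc (c : 𝒜 → (J → Λ) → Prop) (η : (J → Λ) → F) (a : 𝒜) :
    f a • Pc f c η = fun l => if c a l then (f a • η) l else 0 := by
  funext l
  simp only [Pc, Pi.smul_apply]
  rw [smul_smul, Finset.mul_sum, Finset.sum_eq_single a _ (fun h => absurd (mem_univ a) h)]
  · by_cases h : c a l <;> simp [h, (D.proj a).isIdempotentElem.eq]
  · intro b _ hb
    by_cases h : c b l <;> simp [h, D.orth a b hb.symm]

lemma Dat.sqn_Pc (c : 𝒜 → (J → Λ) → Prop) (η : (J → Λ) → F) : sqn (Pc f c η) ≤ sqn η := by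
  rw [← D.sqn_all, ← D.sqn_all η]
  refine Finset.sum_le_sum fun a _ => ?_
  rw [D.f_Pc, ← one_mul (sqn (f a • η))]
  refine sqn_le fun l => ?_
  by_cases h : c a l <;> simp [h]

omit D in
lemma Pc_add (c : 𝒜 → (J → Λ) → Prop) (η ξ : (J → Λ) → F) :
    Pc f c (η + ξ) = Pc f c η + Pc f c ξ := by
  funext l
  simp only [Pc, Pi.add_apply, smul_add]

open Classical in
lemma Dat.deg_Pc {K : 𝒜 → Finset J} {N d : ℕ} (hK : ∀ a, (K a).card ≤ N)
    {c : 𝒜 → (J → Λ) → Prop} (hc : ∀ a l l', (∀ m ∈ K a, l m = l' m) → (c a l ↔ c a l'))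
    {η : (J → Λ) → F} (h : Deg d η) : Deg (d + N) (Pc f c η) := by
  have e : Pc f c η = ∑ a, fun l => (if c a l then (1 : ℂ) else 0) • (f a • η) l := by
    funext l
    simp only [Pc, Finset.sum_apply, Finset.sum_smul, Pi.smul_apply]
    refine Finset.sum_congr rfl fun a _ => ?_
    by_cases h : c a l <;> simp [h]
  rw [e]
  refine Deg.sum _ fun a _ => deg_mono (Deg.smul (deg_act h (f a)) (S := K a) fun l l' hl => ?_)
    (Nat.add_le_add_left (hK a) d)
  simp only [hc a l l' hl]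

open Classical in
lemma Dat.sqn_Pc_Pj {K : 𝒜 → Finset J}
    {c : 𝒜 → (J → Λ) → Prop} (hc : ∀ a l l', (∀ m ∈ K a, l m = l' m) → (c a l ↔ c a l')) {ρ : ℝ}
    (hρ : ∀ a, (𝔼 l : J → Λ, if c a l then (1 : ℝ) else 0) ≤ ρ) (η : (J → Λ) → F) :
    sqn (Pc f c (Pj f K η)) ≤ ρ * sqn η := by
  rw [← D.sqn_all, ← D.sqn_all η, Finset.mul_sum]
  refine Finset.sum_le_sum fun a _ => ?_
  have e : f a • Pj f K η = avgS (K a) (f a • η) := by
    rw [Pj, Finset.smul_sum, Finset.sum_eq_single a _ (fun h => absurd (mem_univ a) h), smul_smul,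
      (D.proj a).isIdempotentElem.eq, avgS_act]
    intro b _ hb
    rw [smul_smul, D.orth a b hb.symm, zero_smul]
  rw [D.f_Pc, e]
  exact sqn_ite_avgS (K a) (hc a) (hρ a) _

open Classical in
lemma Dat.sqn_Pj_Pc {K : 𝒜 → Finset J}
    {c : 𝒜 → (J → Λ) → Prop} (hc : ∀ a l l', (∀ m ∈ K a, l m = l' m) → (c a l ↔ c a l')) {ρ : ℝ}
    (hρ : ∀ a, (𝔼 l : J → Λ, if c a l then (1 : ℝ) else 0) ≤ ρ) (η : (J → Λ) → F) :
    sqn (Pj f K (Pc f c η)) ≤ ρ * sqn η := by
  rw [Pj, D.sqn_sum, ← D.sqn_all η, Finset.mul_sum]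
  refine Finset.sum_le_sum fun a _ => ?_
  rw [← avgS_act, D.f_Pc]
  exact sqn_avgS_ite (K a) (hc a) (hρ a) _

open Classical in
/-- one step of the recursion -/
lemma Dat.step {K : 𝒜 → Finset J}
    {c : 𝒜 → (J → Λ) → Prop} (hc : ∀ a l l', (∀ m ∈ K a, l m = l' m) → (c a l ↔ c a l')) {ρ : ℝ}
    (hρ : ∀ a, (𝔼 l : J → Λ, if c a l then (1 : ℝ) else 0) ≤ ρ) (h0 : 0 ≤ ρ) (y : M)
    (ζ : (J → Λ) → F) {κ : ℝ} (hκ : 0 < κ) :
    sqn (Pc f c (y • Pc f c ζ)) ≤ (1 + κ) * (4 * ‖y‖ ^ 2 * ρ * sqn ζ) +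
      (1 + κ⁻¹) * sqn (Qj f K (y • Qj f K (Pc f c ζ))) := by
  have hQ : ∀ η ξ : (J → Λ) → F, Qj f K (η + ξ) = Qj f K η + Qj f K ξ := by
    intro η ξ
    rw [Qj, Qj, Qj, ← Finset.sum_add_distrib]
    refine Finset.sum_congr rfl fun a _ => ?_
    rw [avgS, foldr_add avg avg_add, ← smul_add, add_sub_add_comm]
    rfl
  have e : Pc f c (y • Pc f c ζ) = (Pc f c (Pj f K (y • Pc f c ζ)) +
      Pc f c (Qj f K (y • Pj f K (Pc f c ζ)))) + Pc f c (Qj f K (y • Qj f K (Pc f c ζ))) := by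
    rw [add_assoc, ← Pc_add, ← Pc_add, ← hQ, ← smul_add, D.Pj_add_Qj, D.Pj_add_Qj]
  have hy : 0 ≤ ‖y‖ ^ 2 := sq_nonneg _
  have h1 : sqn (Pc f c (Pj f K (y • Pc f c ζ))) ≤ ρ * (‖y‖ ^ 2 * sqn ζ) :=
    (D.sqn_Pc_Pj hc hρ _).trans (mul_le_mul_of_nonneg_left ((D.sqn_act _ _).trans
      (mul_le_mul_of_nonneg_left (D.sqn_Pc _ _) hy)) h0)
  have h2 : sqn (Pc f c (Qj f K (y • Pj f K (Pc f c ζ)))) ≤ ‖y‖ ^ 2 * (ρ * sqn ζ) :=
    (D.sqn_Pc _ _).trans ((D.sqn_Qj _ _).trans ((D.sqn_act _ _).trans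
      (mul_le_mul_of_nonneg_left (D.sqn_Pj_Pc hc hρ _) hy)))
  rw [e]
  refine (sqn_add_le _ _ hκ).trans (add_le_add (mul_le_mul_of_nonneg_left ?_ (by positivity))
    (mul_le_mul_of_nonneg_left (D.sqn_Pc _ _) (by positivity)))
  refine (sqn_add_le _ _ one_pos).trans ?_
  rw [inv_one]
  linarith

omit D in
lemma del_Qj (K : 𝒜 → Finset J) (m : J) (η : (J → Λ) → F) :
    del m (Qj f K η) = Qj f K (del m η) := by
  rw [Qj, Qj, del_sum]
  refine Finset.sum_congr rfl fun a _ => ?_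
  rw [del_act, del_sub, del_avgS]

lemma Dat.Q1 {K : 𝒜 → Finset J} {U : Type*} [Fintype U] {H : U → J → M}
    (hH : ∀ a, ∀ m ∈ K a, ∃ u, f a * H u m = f a) (ξ : (J → Λ) → F) :
    sqn (Qj f K ξ) ≤ ∑ u, ∑ m, sqn (H u m • del m ξ) := by
  rw [Qj, D.sqn_sum]
  calc ∑ a, sqn (f a • (ξ - avgS (K a) ξ)) ≤ ∑ a, ∑ m, ∑ u, sqn (f a • H u m • del m ξ) := by
        refine Finset.sum_le_sum fun a _ => ?_
        rw [smul_sub, ← avgS_act]
        refine (sqn_sub_avgS_le _ _).trans (le_trans (Finset.sum_le_sum fun m hm => ?_)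
          (Finset.sum_le_sum_of_subset_of_nonneg (Finset.subset_univ (K a))
            fun m _ _ => Finset.sum_nonneg fun u _ => sqn_nonneg _))
        obtain ⟨u, hu⟩ := hH a m hm
        refine le_trans (le_of_eq ?_) (Finset.single_le_sum
          (f := fun u => sqn (f a • H u m • del m ξ)) (fun u _ => sqn_nonneg _) (mem_univ u))
        rw [del_act, smul_smul, hu]
    _ = _ := by
        rw [Finset.sum_comm, Finset.sum_comm (f := fun u m => sqn (H u m • del m ξ))]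
        refine Finset.sum_congr rfl fun m _ => ?_
        rw [Finset.sum_comm]
        exact Finset.sum_congr rfl fun u _ => D.sqn_all _

omit D in
lemma Q2 (K : 𝒜 → Finset J) (z : M) {d : ℕ} {η : (J → Λ) → F} (h : Deg d η) :
    sqn (z • Qj f K η) ≤
      2 ^ d * ∑ T : Finset J, sqn ((z * ∑ a with T ≠ ∅ ∧ T ⊆ K a, f a) • η) := by
  have e : z • Qj f K η = ∑ T : Finset J, delS T ((-(-1 : ℂ) ^ T.card) •
      (z * ∑ a with T ≠ ∅ ∧ T ⊆ K a, f a) • η) := by
    have e1 : ∀ a, η - avgS (K a) η =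
        ∑ T : Finset J, if T ≠ ∅ ∧ T ⊆ K a then (-(-1 : ℂ) ^ T.card) • delS T η else 0 := by
      intro a
      rw [sub_avgS_eq, ← Finset.sum_filter]
      refine Finset.sum_congr ?_ fun _ _ => rfl
      ext T
      simp
    simp only [Qj, e1, Finset.smul_sum, delS_act]
    rw [Finset.sum_comm]
    refine Finset.sum_congr rfl fun T _ => ?_
    rw [Finset.mul_sum, Finset.sum_smul, Finset.smul_sum, Finset.sum_filter]
    refine Finset.sum_congr rfl fun a _ => ?_
    by_cases hT : T ≠ ∅ ∧ T ⊆ K a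
    · rw [if_pos hT, if_pos hT, smul_smul, smul_comm]
    · rw [if_neg hT, if_neg hT, smul_zero, smul_zero]
  rw [e]
  refine (sqn_sum_delS_le fun T => deg_act (deg_act h _) _).trans (le_of_eq ?_)
  congr 1
  refine Finset.sum_congr rfl fun T _ => ?_
  refine Finset.expect_congr rfl fun l _ => ?_
  simp [norm_smul]

lemma Dat.amgm {G y g : M} (hG : IsStarProjection G) (hy : IsSelfAdjoint y)
    (hg : IsStarProjection g) {κ : ℝ} (hκ : 0 < κ) (η : (J → Λ) → F) :
    sqn ((G * y * g) • η) ≤ κ * sqn (g • η) + κ⁻¹ * sqn ((g * y * G * y * g) • η) := by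
  refine sqn_le_add fun l => ?_
  simp only [Pi.smul_apply]
  have e : ⟪(G * y * g) • η l, (G * y * g) • η l⟫_ℂ = ⟪g • η l, (g * y * G * y * g) • η l⟫_ℂ := by
    rw [D.adj, D.adj, smul_smul, smul_smul, star_mul, star_mul, hG.isSelfAdjoint.star_eq,
      hy.star_eq, hg.isSelfAdjoint.star_eq]
    congr 2
    simp only [mul_assoc]
    rw [← mul_assoc G G, hG.isIdempotentElem.eq, ← mul_assoc g g, hg.isIdempotentElem.eq]
  have h1 : ‖(G * y * g) • η l‖ ^ 2 ≤ ‖g • η l‖ * ‖(g * y * G * y * g) • η l‖ := by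
    rw [@norm_sq_eq_re_inner ℂ, e]
    exact (RCLike.re_le_norm _).trans (norm_inner_le_norm _ _)
  set A := ‖g • η l‖
  set B := ‖(g * y * G * y * g) • η l‖
  have h2 : 0 ≤ κ⁻¹ * (κ * A - B) ^ 2 := by positivity
  have h3 : κ⁻¹ * (κ * A - B) ^ 2 = κ * A ^ 2 - 2 * A * B + κ⁻¹ * B ^ 2 := by
    field_simp
    ring
  have h4 : 0 ≤ A * B := by positivity
  linarith

omit D in
lemma count {K : 𝒜 → Finset J} {N : ℕ} (hK : ∀ a, (K a).card ≤ N) {s : Finset J → Finset 𝒜}
    (hs : ∀ T, ∀ a ∈ s T, T ⊆ K a) {w : 𝒜 → ℝ} (hw : ∀ a, 0 ≤ w a) :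
    ∑ T, ∑ a ∈ s T, w a ≤ 2 ^ N * ∑ a, w a := by
  classical
  calc ∑ T, ∑ a ∈ s T, w a ≤ ∑ T : Finset J, ∑ a, if T ⊆ K a then w a else 0 := by
        refine Finset.sum_le_sum fun T _ => ?_
        rw [← Finset.sum_filter]
        exact Finset.sum_le_sum_of_subset_of_nonneg
          (fun a ha => Finset.mem_filter.2 ⟨mem_univ a, hs T a ha⟩) fun a _ _ => hw a
    _ ≤ _ := by
        rw [Finset.sum_comm, Finset.mul_sum]
        refine Finset.sum_le_sum fun a _ => ?_
        have e : (univ.filter fun T : Finset J => T ⊆ K a) = (K a).powerset := by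
          ext T
          simp
        rw [← Finset.sum_filter, Finset.sum_const, e, Finset.card_powerset, nsmul_eq_mul]
        push_cast
        exact mul_le_mul_of_nonneg_right (pow_le_pow_right₀ one_le_two (hK a)) (hw a)

lemma Dat.proj_sum (s : Finset 𝒜) : IsStarProjection (∑ a ∈ s, f a) := by
  refine ⟨?_, ?_⟩
  · change (∑ j ∈ s, f j) * (∑ j ∈ s, f j) = ∑ j ∈ s, f j
    rw [Finset.sum_mul_sum]
    refine Finset.sum_congr rfl (fun i hi => ?_)
    rw [Finset.sum_eq_single i (fun j _ hne => D.orth i j hne.symm) (fun h => absurd hi h)]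
    exact (D.proj i).isIdempotentElem
  · change star (∑ j ∈ s, f j) = ∑ j ∈ s, f j
    rw [star_sum]
    exact Finset.sum_congr rfl (fun i _ => (D.proj i).isSelfAdjoint)

/-- the error term -/
lemma Dat.err {K : 𝒜 → Finset J} {N : ℕ} (hK : ∀ a, (K a).card ≤ N) {U T : Type*} [Fintype U]
    [Fintype T] (hU : Fintype.card U ≤ N) {G : U → T → M} {π : J → T}
    (hG : ∀ u t, IsStarProjection (G u t)) (hH : ∀ a, ∀ m ∈ K a, ∃ u, f a * G u (π m) = f a)
    {s : U → Finset J → Finset 𝒜} (hs : ∀ u S, ∀ a ∈ s u S, S ⊆ K a)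
    (hs' : ∀ S, ∑ a with S ≠ ∅ ∧ S ⊆ K a, f a = ∑ u, ∑ a ∈ s u S, f a)
    {y : M} (hy : IsSelfAdjoint y) {d : ℕ} {η : (J → Λ) → F} (h : Deg d η) {W κ : ℝ} (hκ : 0 < κ)
    (hW : ∀ u u', ∑ t, ∑ S,
      sqn (((∑ a ∈ s u' S, f a) * y * G u t * y * ∑ a ∈ s u' S, f a) • η) ≤ W) (hW0 : 0 ≤ W) :
    sqn (Qj f K (y • Qj f K η)) ≤ 2 ^ d * N ^ 3 * d * (κ * (2 ^ N * sqn η) + κ⁻¹ * W) := by
  have hN : (Fintype.card U : ℝ) ≤ N := by exact_mod_cast hU
  have hη := sqn_nonneg η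
  have key : ∀ u u', ∑ m, ∑ S, sqn ((G u (π m) * y * ∑ a ∈ s u' S, f a) • del m η) ≤
      d * (κ * (2 ^ N * sqn η) + κ⁻¹ * W) := by
    intro u u'
    refine (Finset.sum_le_sum fun m _ => Finset.sum_le_sum fun S _ =>
      D.amgm (hG u (π m)) hy (D.proj_sum (s u' S)) hκ (del m η)).trans ?_
    simp only [Finset.sum_add_distrib, ← Finset.mul_sum]
    have h1 : ∑ m, ∑ S, sqn ((∑ a ∈ s u' S, f a) • del m η) ≤ d * (2 ^ N * sqn η) := by
      calc _ ≤ ∑ m, 2 ^ N * sqn (del m η) := by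
            refine Finset.sum_le_sum fun m _ => ?_
            simp only [D.sqn_sub]
            rw [← D.sqn_all (del m η)]
            exact count hK (hs u') fun a => sqn_nonneg _
        _ ≤ _ := by
            rw [← Finset.mul_sum, mul_left_comm]
            exact mul_le_mul_of_nonneg_left h.sum_del_le (by positivity)
    have h2 : ∑ m, ∑ S, sqn (((∑ a ∈ s u' S, f a) * y * G u (π m) * y * ∑ a ∈ s u' S, f a) •
        del m η) ≤ d * W := by
      calc _ ≤ ∑ m, ∑ S, ∑ t, sqn (del m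
              (((∑ a ∈ s u' S, f a) * y * G u t * y * ∑ a ∈ s u' S, f a) • η)) := by
            refine Finset.sum_le_sum fun m _ => Finset.sum_le_sum fun S _ => ?_
            rw [← del_act]
            exact Finset.single_le_sum (f := fun t => sqn (del m
              (((∑ a ∈ s u' S, f a) * y * G u t * y * ∑ a ∈ s u' S, f a) • η)))
              (fun t _ => sqn_nonneg _) (mem_univ (π m))
        _ ≤ ∑ S, ∑ t,
              d * sqn (((∑ a ∈ s u' S, f a) * y * G u t * y * ∑ a ∈ s u' S, f a) • η) := by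
            rw [Finset.sum_comm]
            refine Finset.sum_le_sum fun S _ => ?_
            rw [Finset.sum_comm]
            exact Finset.sum_le_sum fun t _ => (deg_act h _).sum_del_le
        _ ≤ _ := by
            rw [Finset.sum_comm]
            simp only [← Finset.mul_sum]
            exact mul_le_mul_of_nonneg_left (hW u u') (by positivity)
    have h3 := mul_le_mul_of_nonneg_left h1 hκ.le
    have h4 := mul_le_mul_of_nonneg_left h2 (inv_pos.2 hκ).le
    linarith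
  set B : ℝ := d * (κ * (2 ^ N * sqn η) + κ⁻¹ * W) with hB
  have hB0 : 0 ≤ B := by positivity
  have key2 : ∀ u, ∑ m, sqn (G u (π m) • del m (y • Qj f K η)) ≤ 2 ^ d * (N * (N * B)) := by
    intro u
    calc _ ≤ ∑ m, 2 ^ d * ∑ S, N * ∑ u',
            sqn ((G u (π m) * y * ∑ a ∈ s u' S, f a) • del m η) := by
          refine Finset.sum_le_sum fun m _ => ?_
          rw [del_act, del_Qj, smul_smul]
          refine (Q2 K _ (deg_del h m)).trans (mul_le_mul_of_nonneg_left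
            (Finset.sum_le_sum fun S _ => ?_) (by positivity))
          rw [hs', Finset.mul_sum, Finset.sum_smul]
          exact (sqn_sum_le _).trans
            (mul_le_mul_of_nonneg_right hN (Finset.sum_nonneg fun _ _ => sqn_nonneg _))
      _ = 2 ^ d * (N * ∑ u', ∑ m, ∑ S,
            sqn ((G u (π m) * y * ∑ a ∈ s u' S, f a) • del m η)) := by
          simp only [← Finset.mul_sum]
          congr 2
          rw [Finset.sum_comm (s := (univ : Finset U))]
          exact Finset.sum_congr rfl fun m _ => Finset.sum_comm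
      _ ≤ _ := by
          refine mul_le_mul_of_nonneg_left (mul_le_mul_of_nonneg_left ?_ (by positivity))
            (by positivity)
          refine (Finset.sum_le_sum fun u' _ => key u u').trans ?_
          rw [Finset.sum_const, Finset.card_univ, nsmul_eq_mul]
          exact mul_le_mul_of_nonneg_right hN hB0
  refine (D.Q1 (H := fun u m => G u (π m)) hH _).trans
    ((Finset.sum_le_sum fun u _ => key2 u).trans ?_)
  rw [Finset.sum_const, Finset.card_univ, nsmul_eq_mul]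
  refine (mul_le_mul_of_nonneg_right hN (by positivity)).trans (le_of_eq ?_)
  rw [hB]
  ring

end Rep

end ES

end Vale.Agent.P078.FreeAux
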