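import Vale.Agent.P078.RB
import Vale.Agent.P078.FreeAux

/-! Random local projections are asymptotically free from weakly mixing elements.
See PROOF.md, section Free. -/

namespace Vale.Agent.P078

open Finset
open scoped ComplexOrder BigOperators InnerProductSpace

universe u

variable {M : Type u} [CStarAlgebra M] [PartialOrder M] [StarOrderedRing M]

namespace FreeAux

/-- left multiplication on the pre-GNS space -/
@[reducible] noncomputable def modP (φ : M →ₚ[ℂ] ℂ) : Module M φ.PreGNS :=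
  inferInstanceAs (Module M M)

attribute [local instance] modP

omit [StarOrderedRing M] in
lemma commP (φ : M →ₚ[ℂ] ℂ) : SMulCommClass M ℂ φ.PreGNS :=
  inferInstanceAs (SMulCommClass M ℂ M)

attribute [local instance] commP

lemma datP (φ : M →ₚ[ℂ] ℂ) {A : StarSubalgebra ℂ M} {𝒜 : Type*} [Fintype 𝒜] {f : 𝒜 → M}
    (hf : IsPartn A f) : Dat φ.PreGNS f where
  adj a x z := by
    change φ (star (a * φ.ofPreGNS x) * φ.ofPreGNS z) =
      φ (star (φ.ofPreGNS x) * (star a * φ.ofPreGNS z))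
    rw [star_mul, mul_assoc]
  bd a x := nrm_mul_le φ a (φ.ofPreGNS x)
  proj a := (hf.1 a).2
  orth := hf.2.1
  sum := hf.2.2

variable (𝒮 : WSys M)

lemma nrm_proj {p : M} (hp : p ∈ 𝒮.A) (hp' : IsStarProjection p) (x : M) :
    nrm 𝒮.φ (x * p) ^ 2 = (𝒮.φ (star x * x * p)).re := by
  rw [nrm_sq, star_mul, hp'.isSelfAdjoint.star_eq, mul_assoc, 𝒮.central p hp]
  simp only [mul_assoc, hp'.isIdempotentElem.eq]

lemma nrm_proj_le {p : M} (hp : p ∈ 𝒮.A) (hp' : IsStarProjection p) (x : M) :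
    nrm 𝒮.φ (x * p) ≤ nrm 𝒮.φ x := by
  have h1 := nrm_proj 𝒮 hp hp' x
  have h2 := nrm_proj 𝒮 (sub_mem (one_mem _) hp) hp'.one_sub x
  rw [mul_sub (star x * x), mul_one, map_sub, Complex.sub_re, ← nrm_sq, ← h1] at h2
  refine (pow_le_pow_iff_left₀ (nrm_nonneg _ _) (nrm_nonneg _ _) two_ne_zero).1 ?_
  have := sq_nonneg (nrm 𝒮.φ (x * (1 - p)))
  linarith

lemma nrm_sum_proj {𝒜 : Type*} [Fintype 𝒜] {f : 𝒜 → M} (hf : IsPartn 𝒮.A f) (s : Finset 𝒜)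
    (x : M) : nrm 𝒮.φ (x * ∑ a ∈ s, f a) ^ 2 = ∑ a ∈ s, nrm 𝒮.φ (x * f a) ^ 2 := by
  rw [nrm_proj 𝒮 (sum_mem fun a _ => (hf.1 a).1) ((datP 𝒮.φ hf).proj_sum s), Finset.mul_sum,
    map_sum, Complex.re_sum]
  exact Finset.sum_congr rfl fun a _ => (nrm_proj 𝒮 (hf.1 a).1 (hf.1 a).2 x).symm

lemma nrm_pow_le {p y : M} (hp : p ∈ 𝒮.A) (hp' : IsStarProjection p) {C : ℝ} (hC0 : 0 ≤ C)
    (hC : ∀ c, nrm 𝒮.φ (c * y) ≤ C * nrm 𝒮.φ c) (n : ℕ) (b : M) :
    nrm 𝒮.φ (b * (p * y * p) ^ n) ≤ C ^ n * nrm 𝒮.φ b := by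
  induction n with
  | zero => simp
  | succ n ih =>
    rw [pow_succ, ← mul_assoc, ← mul_assoc, ← mul_assoc, pow_succ', mul_assoc C]
    exact (nrm_proj_le 𝒮 hp hp' _).trans ((hC _).trans
      (mul_le_mul_of_nonneg_left ((nrm_proj_le 𝒮 hp hp' _).trans ih) hC0))

variable {J Λ 𝒜 : Type*} [Fintype J] [DecidableEq J] [Fintype Λ] [Nonempty Λ] [Fintype 𝒜]

open Classical in
/-- the random projection -/
noncomputable def pp (f : 𝒜 → M) (c : 𝒜 → (J → Λ) → Prop) (l : J → Λ) : M :=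
  ∑ a, if c a l then f a else 0

/-- the vectors of the powers -/
noncomputable def zz (φ : M →ₚ[ℂ] ℂ) (y : M) (f : 𝒜 → M) (c : 𝒜 → (J → Λ) → Prop) (n : ℕ) :
    (J → Λ) → φ.PreGNS := fun l => φ.toPreGNS ((pp f c l * y * pp f c l) ^ n)

omit [Fintype J] [DecidableEq J] [Fintype Λ] [Nonempty Λ] in
lemma pp_proj {f : 𝒜 → M} (hf : IsPartn 𝒮.A f) (c : 𝒜 → (J → Λ) → Prop) (l : J → Λ) :
    pp f c l ∈ 𝒮.A ∧ IsStarProjection (pp f c l) := by
  classical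
  rw [pp, ← Finset.sum_filter]
  exact ⟨sum_mem fun a _ => (hf.1 a).1, PartAux.sum_proj _ (fun a _ => (hf.1 a).2)
    fun a _ b _ => hf.2.1 a b⟩

omit [Fintype J] [DecidableEq J] [Fintype Λ] [Nonempty Λ] in
lemma zz_succ (φ : M →ₚ[ℂ] ℂ) (y : M) (f : 𝒜 → M) (c : 𝒜 → (J → Λ) → Prop) (n : ℕ) :
    zz φ y f c (n + 1) = Pc f c (y • Pc f c (zz φ y f c n)) := by
  funext l
  change (pp f c l * y * pp f c l) ^ (n + 1) =
    pp f c l * (y * (pp f c l * (pp f c l * y * pp f c l) ^ n))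
  rw [pow_succ']
  simp only [mul_assoc]

lemma zz_deg {f : 𝒜 → M} (hf : IsPartn 𝒮.A f) (y : M) {K : 𝒜 → Finset J} {N : ℕ}
    (hK : ∀ a, (K a).card ≤ N) {c : 𝒜 → (J → Λ) → Prop}
    (hc : ∀ a l l', (∀ m ∈ K a, l m = l' m) → (c a l ↔ c a l')) (n : ℕ) :
    Deg (2 * n * N) (zz 𝒮.φ y f c n) := by
  induction n with
  | zero =>
    have : zz 𝒮.φ y f c 0 = fun _ => 𝒮.φ.toPreGNS 1 := by
      funext l
      rw [zz, pow_zero]
    rw [this, mul_zero, zero_mul]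
    exact Deg.const _
  | succ n ih =>
    rw [zz_succ, show 2 * (n + 1) * N = 2 * n * N + N + N by ring]
    exact (datP 𝒮.φ hf).deg_Pc hK hc (deg_act ((datP 𝒮.φ hf).deg_Pc hK hc ih) y)

lemma sqn_act_le {f : 𝒜 → M} (hf : IsPartn 𝒮.A f) {y : M} {C : ℝ} (hC0 : 0 ≤ C)
    (hC : ∀ c, nrm 𝒮.φ (c * y) ≤ C * nrm 𝒮.φ c) (c : 𝒜 → (J → Λ) → Prop) (n : ℕ) (b : M) :
    sqn (b • Pc f c (zz 𝒮.φ y f c n)) ≤ (C ^ n) ^ 2 * nrm 𝒮.φ b ^ 2 := by
  refine Finset.expect_le univ_nonempty fun l _ => ?_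
  change nrm 𝒮.φ (b * (pp f c l * (pp f c l * y * pp f c l) ^ n)) ^ 2 ≤ _
  obtain ⟨h1, h2⟩ := pp_proj 𝒮 hf c l
  rw [← mul_pow, ← mul_assoc]
  exact pow_le_pow_left₀ (nrm_nonneg _ _) ((nrm_pow_le 𝒮 h1 h2 hC0 hC n _).trans
    (mul_le_mul_of_nonneg_left (nrm_proj_le 𝒮 h1 h2 b) (by positivity))) 2

/-- the error term in the concrete situation -/
lemma err_le {y : M} (hy : IsSelfAdjoint y) {C : ℝ} (hC0 : 0 ≤ C)
    (hC : ∀ c, nrm 𝒮.φ (c * y) ≤ C * nrm 𝒮.φ c) {U T : Type*} [Fintype U] [Fintype T] {N : ℕ}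
    (hU : Fintype.card U ≤ N) {f : 𝒜 → M} (hf : IsPartn 𝒮.A f) {K : 𝒜 → Finset J}
    (hK : ∀ a, (K a).card ≤ N) {c : 𝒜 → (J → Λ) → Prop}
    (hc : ∀ a l l', (∀ m ∈ K a, l m = l' m) → (c a l ↔ c a l')) {π : J → T} {G : U → T → M}
    {g : U → J → M} (hG : ∀ u t, IsStarProjection (G u t)) (hg : ∀ u m, IsStarProjection (g u m))
    (hj : ∀ a, ∀ m ∈ K a, ∃ u, g u m * f a = f a ∧ G u (π m) * f a = f a) {ω κ : ℝ} (hω0 : 0 ≤ ω)
    (hκ : 0 < κ) (hω : ∀ u u', ∑ t, ∑ m, nrm 𝒮.φ (g u' m * y * G u t * y * g u' m) ^ 2 ≤ ω)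
    (n : ℕ) :
    sqn (Qj f K (y • Qj f K (Pc f c (zz 𝒮.φ y f c n)))) ≤
      2 ^ (2 * n * N + N) * N ^ 3 * (2 * n * N + N : ℕ) * 2 ^ N * (C ^ n) ^ 2 *
        (κ + κ⁻¹ * ω) := by
  classical
  have D := datP 𝒮.φ hf
  have fl : ∀ {a : 𝒜} {x : M}, IsStarProjection x → x * f a = f a → f a * x = f a := by
    intro a x hx h
    have := congrArg star h
    rwa [star_mul, hx.isSelfAdjoint.star_eq, (hf.1 a).2.isSelfAdjoint.star_eq] at this
  have hH : ∀ a, ∀ m ∈ K a, ∃ u, f a * G u (π m) = f a := fun a m hm =>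
    (hj a m hm).imp fun u hu => fl (hG _ _) hu.2
  rcases isEmpty_or_nonempty U with hU0 | hU0
  · refine (D.Q1 (H := fun u m => G u (π m)) hH _).trans ?_
    rw [Finset.univ_eq_empty, Finset.sum_empty]
    positivity
  rcases isEmpty_or_nonempty J with hJ0 | hJ0
  · refine (D.Q1 (H := fun u m => G u (π m)) hH _).trans ?_
    simp only [Finset.univ_eq_empty (α := J), Finset.sum_empty, Finset.sum_const_zero]
    positivity
  have h1 : ∀ S : Finset J, ∃ m, S ≠ ∅ → m ∈ S := fun S => by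
    by_cases h : S = ∅
    · exact ⟨hJ0.some, fun h' => absurd h h'⟩
    · exact (Finset.nonempty_iff_ne_empty.2 h).imp fun _ hm _ => hm
  choose mT hmT using h1
  choose! sel hsel using hj
  let s : U → Finset J → Finset 𝒜 := fun u S =>
    (univ.filter fun a => S ≠ ∅ ∧ S ⊆ K a).filter fun a => sel a (mT S) = u
  have hs : ∀ u S, ∀ a ∈ s u S, S ⊆ K a := fun u S a ha =>
    (Finset.mem_filter.1 (Finset.mem_filter.1 ha).1).2.2
  have hsg : ∀ u S, g u (mT S) * ∑ a ∈ s u S, f a = ∑ a ∈ s u S, f a := by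
    intro u S
    rw [Finset.mul_sum]
    refine Finset.sum_congr rfl fun a ha => ?_
    obtain ⟨h2, h3⟩ := Finset.mem_filter.1 ha
    obtain ⟨h4, h5⟩ := (Finset.mem_filter.1 h2).2
    rw [← h3]
    exact (hsel a _ (h5 (hmT S h4))).1
  have hη : sqn (Pc f c (zz 𝒮.φ y f c n)) ≤ (C ^ n) ^ 2 := by
    have := sqn_act_le 𝒮 hf hC0 hC c n 1
    rwa [one_smul, 𝒮.nrm_one, one_pow, mul_one] at this
  refine (D.err hK hU hG hH hs (fun S => (Finset.sum_fiberwise _ _ _).symm) hy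
    (D.deg_Pc hK hc (zz_deg 𝒮 hf y hK hc n)) (W := (C ^ n) ^ 2 * (2 ^ N * ω)) hκ
    (fun u u' => ?_) (by positivity)).trans ?_
  · refine (Finset.sum_le_sum fun t _ => Finset.sum_le_sum fun S _ =>
      sqn_act_le 𝒮 hf hC0 hC c n _).trans ?_
    simp only [← Finset.mul_sum]
    refine mul_le_mul_of_nonneg_left (le_trans ?_
      (mul_le_mul_of_nonneg_left (hω u u') (by positivity))) (by positivity)
    rw [Finset.mul_sum]
    refine Finset.sum_le_sum fun t _ => ?_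
    calc _ ≤ ∑ S, ∑ m, ∑ a ∈ s u' S, nrm 𝒮.φ (g u' m * y * G u t * y * g u' m * f a) ^ 2 := by
          refine Finset.sum_le_sum fun S _ => le_trans ?_ (Finset.single_le_sum
            (f := fun m => ∑ a ∈ s u' S, nrm 𝒮.φ (g u' m * y * G u t * y * g u' m * f a) ^ 2)
            (fun m _ => Finset.sum_nonneg fun _ _ => sq_nonneg _) (mem_univ (mT S)))
          have hp := D.proj_sum (s u' S)
          have h2 := hsg u' S
          have h3 := congrArg star h2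
          rw [star_mul, hp.isSelfAdjoint.star_eq, (hg _ _).isSelfAdjoint.star_eq] at h3
          rw [← nrm_sum_proj 𝒮 hf]
          generalize ∑ a ∈ s u' S, f a = q at hp h2 h3
          have e : q * y * G u t * y * q = q * (g u' (mT S) * y * G u t * y * g u' (mT S) * q) := by
            simp only [← mul_assoc]
            rw [h3, mul_assoc _ (g u' (mT S)) q, h2]
          rw [e]
          refine pow_le_pow_left₀ (nrm_nonneg _ _) ((nrm_mul_le _ _ _).trans ?_) 2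
          exact mul_le_of_le_one_left (nrm_nonneg _ _) hp.norm_le
      _ ≤ _ := by
          rw [Finset.sum_comm, Finset.mul_sum]
          refine Finset.sum_le_sum fun m _ => (count hK (hs u') fun a => sq_nonneg _).trans ?_
          rw [← nrm_sum_proj 𝒮 hf, hf.2.2, mul_one]
  · have h2 : κ * (2 ^ N * sqn (Pc f c (zz 𝒮.φ y f c n))) ≤ κ * (2 ^ N * (C ^ n) ^ 2) :=
      mul_le_mul_of_nonneg_left (mul_le_mul_of_nonneg_left hη (by positivity)) hκ.le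
    refine (mul_le_mul_of_nonneg_left (add_le_add h2 le_rfl) (by positivity)).trans (le_of_eq ?_)
    ring

lemma small {a δ : ℝ} (ha : 0 ≤ a) (hδ : 0 < δ) : ∃ κ > 0, κ * a ≤ δ :=
  ⟨δ / (a + 1), by positivity, by
    rw [div_mul_eq_mul_div, div_le_iff₀ (by positivity)]
    nlinarith⟩

open Classical in
theorem bound {y : M} (hy : IsSelfAdjoint y) (hRB : RB 𝒮.φ y) {ρ : ℝ}
    (hρ : 0 ≤ ρ) (k N : ℕ) {δ : ℝ} (hδ : 0 < δ) :
    ∃ ω > 0, ∀ (U J T 𝒜 : Type u) (Λ : Type) [Fintype U] [Fintype J] [DecidableEq J] [Fintype T]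
      [Fintype 𝒜] [Fintype Λ] [Nonempty Λ], Fintype.card U ≤ N →
      ∀ (f : 𝒜 → M) (K : 𝒜 → Finset J) (c : 𝒜 → (J → Λ) → Prop) (π : J → T)
        (G : U → T → M) (g : U → J → M), IsPartn 𝒮.A f → (∀ a, (K a).card ≤ N) →
        (∀ u t, IsStarProjection (G u t)) → (∀ u m, IsStarProjection (g u m)) →
        (∀ a, ∀ m ∈ K a, ∃ u, g u m * f a = f a ∧ G u (π m) * f a = f a) →
        (∀ a l l', (∀ m ∈ K a, l m = l' m) → (c a l ↔ c a l')) →
        (∀ a, (𝔼 l : J → Λ, if c a l then (1 : ℝ) else 0) ≤ ρ) →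
        (∀ u u', ∑ t, ∑ m, nrm 𝒮.φ (g u' m * y * G u t * y * g u' m) ^ 2 ≤ ω) →
        sqn (zz 𝒮.φ y f c (k + 1)) ≤ ‖y‖ ^ 2 * (4 * ‖y‖ ^ 2 * ρ) ^ k + δ := by
  obtain ⟨C', hC'⟩ := hRB
  have hC : ∀ c, nrm 𝒮.φ (c * y) ≤ |C'| * nrm 𝒮.φ c := fun c =>
    (hC' c).trans (mul_le_mul_of_nonneg_right (le_abs_self _) (nrm_nonneg _ _))
  induction k generalizing δ with
  | zero =>
    refine ⟨1, one_pos, ?_⟩
    intro U J T 𝒜 Λ _ _ _ _ _ _ _ _ f K c π G g hf _ _ _ _ _ _ _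
    have D := datP 𝒮.φ hf
    have h0 : sqn (zz 𝒮.φ y f c 0) = 1 := by
      have : ∀ l, ‖zz 𝒮.φ y f c 0 l‖ = 1 := fun l => by
        rw [zz, pow_zero]
        exact 𝒮.nrm_one
      simp [sqn, this]
    rw [zz_succ, pow_zero, mul_one]
    have h1 := (D.sqn_Pc c _).trans ((D.sqn_act y _).trans
      (mul_le_mul_of_nonneg_left (D.sqn_Pc c (zz 𝒮.φ y f c 0)) (sq_nonneg _)))
    rw [h0, mul_one] at h1
    linarith
  | succ k ih =>
    set θ := 4 * ‖y‖ ^ 2 * ρ with hθ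
    have hθ0 : 0 ≤ θ := by positivity
    have h3 : 0 < δ / 4 := by positivity
    obtain ⟨κ, hκ, hκ'⟩ := small (a := θ * (‖y‖ ^ 2 * θ ^ k)) (by positivity) h3
    obtain ⟨δ', hδ', hδ''⟩ := small (a := (1 + κ) * θ) (by positivity) h3
    set L : ℝ := (1 + κ⁻¹) * (2 ^ (2 * (k + 1) * N + N) * N ^ 3 * (2 * (k + 1) * N + N : ℕ) *
      2 ^ N * (|C'| ^ (k + 1)) ^ 2) with hL
    have hL0 : 0 ≤ L := by positivity
    obtain ⟨κ', hk, hk'⟩ := small hL0 h3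
    obtain ⟨ω', hω', hω''⟩ := small (a := L * κ'⁻¹) (by positivity) h3
    obtain ⟨ω, hω, H⟩ := ih hδ'
    refine ⟨min ω ω', lt_min hω hω', ?_⟩
    intro U J T 𝒜 Λ _ _ _ _ _ _ _ hU f K c π G g hf hK hG hg hj hc hr hs
    have h1 := H U J T 𝒜 Λ hU f K c π G g hf hK hG hg hj hc hr
      fun u u' => (hs u u').trans (min_le_left _ _)
    have h2 := err_le 𝒮 hy (abs_nonneg C') hC hU hf hK hc hG hg hj hω'.le hk
      (fun u u' => (hs u u').trans (min_le_right _ _)) (k + 1)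
    have h4 := (datP 𝒮.φ hf).step (K := K) hc hr hρ y (zz 𝒮.φ y f c (k + 1)) hκ
    rw [← zz_succ, ← hθ] at h4
    have h5 := mul_le_mul_of_nonneg_left h2 (show 0 ≤ 1 + κ⁻¹ by positivity)
    rw [← mul_assoc, ← hL] at h5
    have h6 := mul_le_mul_of_nonneg_left h1 (show 0 ≤ (1 + κ) * θ by positivity)
    rw [pow_succ θ]
    linarith

end FreeAux

open Classical in
theorem WSys.free_bound (𝒮 : WSys M) {y : M} (hy : IsSelfAdjoint y) (hRB : RB 𝒮.φ y) {r : ℕ}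
    (hr : 0 < r) (k N : ℕ) {δ : ℝ} (hδ : 0 < δ) :
    ∃ ω > 0, ∀ (U J T 𝒜 : Type u) (Λ : Type) [Fintype U] [Fintype J] [DecidableEq J] [Fintype T]
      [Fintype 𝒜] [Fintype Λ] [Nonempty Λ], Fintype.card U ≤ N →
      ∀ (f : 𝒜 → M) (j : 𝒜 → U → Option J) (c : 𝒜 → (J → Λ) → Prop) (π : J → T)
        (G : U → T → M) (g : U → J → M), IsPartn 𝒮.A f →
        (∀ u t, G u t ∈ 𝒮.A ∧ IsStarProjection (G u t)) →
        (∀ u m, g u m ∈ 𝒮.A ∧ IsStarProjection (g u m)) →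
        (∀ a u m, j a u = some m → g u m * f a = f a ∧ G u (π m) * f a = f a) →
        (∀ a l l', (∀ u m, j a u = some m → l m = l' m) → (c a l ↔ c a l')) →
        (∀ a, (𝔼 l : J → Λ, if c a l then (1 : ℝ) else 0) ≤ 1 / r) →
        (∀ u u', ∑ t, ∑ m, nrm 𝒮.φ (g u' m * y * G u t * y * g u' m) ^ 2 ≤ ω) →
        (𝔼 l : J → Λ, (𝒮.φ (((∑ a, if c a l then f a else 0) * y *
          (∑ a, if c a l then f a else 0)) ^ (2 * k + 2))).re) ≤
          ‖y‖ ^ 2 * (2 * ‖y‖ / √r) ^ (2 * k) + δ := by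
  obtain ⟨ω, hω, H⟩ := FreeAux.bound 𝒮 hy hRB (ρ := 1 / r) (by positivity) k N hδ
  refine ⟨ω, hω, ?_⟩
  intro U J T 𝒜 Λ _ _ _ _ _ _ _ hU f j c π G g hf hG hg hj hc hρ hs
  let K : 𝒜 → Finset J := fun a => univ.filter fun m => ∃ u, j a u = some m
  have hK : ∀ a m, m ∈ K a ↔ ∃ u, j a u = some m := fun a m => by simp [K]
  have h1 := H U J T 𝒜 Λ hU f K c π G g hf (fun a => le_trans ?_ hU) (fun u t => (hG u t).2)
    (fun u m => (hg u m).2) (fun a m hm => ((hK a m).1 hm).imp fun u hu => hj a u m hu)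
    (fun a l l' h => hc a l l' fun u m hu => h m ((hK a m).2 ⟨u, hu⟩)) hρ hs
  · have e : (2 * ‖y‖ / √r) ^ (2 * k) = (4 * ‖y‖ ^ 2 * (1 / r)) ^ k := by
      rw [pow_mul, div_pow, Real.sq_sqrt (Nat.cast_nonneg r)]
      congr 1
      ring
    rw [e]
    refine le_trans (le_of_eq (Finset.expect_congr rfl fun l _ => ?_)) h1
    change (𝒮.φ ((FreeAux.pp f c l * y * FreeAux.pp f c l) ^ (2 * k + 2))).re =
      nrm 𝒮.φ ((FreeAux.pp f c l * y * FreeAux.pp f c l) ^ (k + 1)) ^ 2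
    have hp := (FreeAux.pp_proj 𝒮 hf c l).2.isSelfAdjoint.star_eq
    rw [nrm_sq, star_pow, star_mul, star_mul, hp, hy.star_eq, ← mul_assoc, ← pow_add,
      show k + 1 + (k + 1) = 2 * k + 2 by ring]
  · rw [← Finset.card_univ, ← Finset.card_image_of_injective (K a) (Option.some_injective J)]
    refine le_trans (Finset.card_le_card fun o ho => ?_) (Finset.card_image_le (f := j a))
    obtain ⟨m, hm, rfl⟩ := Finset.mem_image.1 ho
    obtain ⟨u, hu⟩ := (hK a m).1 hm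
    exact Finset.mem_image.2 ⟨u, mem_univ u, hu⟩

end Vale.Agent.P078
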