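import Vale.Agent.P078.Exp
import Vale.Agent.P078.Gns

/-! Auxiliary results for the file WM: level projections and the homomorphism given by atoms. -/

namespace Vale.Agent.P078

open Filter Topology
open scoped ComplexOrder

universe u

variable {M : Type u} [CStarAlgebra M] [PartialOrder M] [StarOrderedRing M]

namespace WSys

variable (𝒮 : WSys M)

/-- projections of `A` -/
def wmP (p : M) : Prop := p ∈ 𝒮.A ∧ IsStarProjection p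

lemma wm_smul_mem {a : M} (ha : a ∈ 𝒮.A) (c : ℝ) : c • a ∈ 𝒮.A := by
  rw [← Complex.coe_smul]
  exact 𝒮.A.smul_mem ha _

lemma wm_mul_le {a b b' : M} (ha : a ∈ 𝒮.A) (hb : b ∈ 𝒮.A) (hb' : b' ∈ 𝒮.A) (h0 : 0 ≤ a)
    (h : b ≤ b') : a * b ≤ a * b' := by
  have c : Commute a (b' - b) := 𝒮.masa.comm ha (sub_mem hb' hb)
  have := c.mul_nonneg h0 (sub_nonneg.2 h)
  rwa [mul_sub, sub_nonneg] at this

lemma wm_mul_le' {a b b' : M} (ha : a ∈ 𝒮.A) (hb : b ∈ 𝒮.A) (hb' : b' ∈ 𝒮.A) (h0 : 0 ≤ a)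
    (h : b ≤ b') : b * a ≤ b' * a := by
  rw [𝒮.masa.comm hb ha, 𝒮.masa.comm hb' ha]
  exact 𝒮.wm_mul_le ha hb hb' h0 h

variable {𝒮}

lemma wmP.mul {p q : M} (hp : 𝒮.wmP p) (hq : 𝒮.wmP q) : 𝒮.wmP (p * q) :=
  ⟨mul_mem hp.1 hq.1, hp.2.mul hq.2 (𝒮.masa.comm hp.1 hq.1)⟩

lemma wmP.one_sub {p : M} (hp : 𝒮.wmP p) : 𝒮.wmP (1 - p) :=
  ⟨sub_mem (one_mem _) hp.1, hp.2.one_sub⟩

lemma wmP.mul_le_left {p q : M} (hp : 𝒮.wmP p) (hq : 𝒮.wmP q) : p * q ≤ p := by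
  simpa using 𝒮.wm_mul_le hp.1 hq.1 (one_mem _) hp.2.nonneg hq.2.le_one

lemma wmP.mul_le_right {p q : M} (hp : 𝒮.wmP p) (hq : 𝒮.wmP q) : p * q ≤ q := by
  rw [𝒮.masa.comm hp.1 hq.1]
  exact hq.mul_le_left hp

lemma wmP.le_mul {g p q : M} (hg : 𝒮.wmP g) (hp : 𝒮.wmP p) (hq : 𝒮.wmP q) (h1 : g ≤ p)
    (h2 : g ≤ q) : g ≤ p * q := by
  rw [hg.2.le_iff_mul_eq_left hp.2] at h1
  rw [hg.2.le_iff_mul_eq_left hq.2] at h2
  rw [hg.2.le_iff_mul_eq_left (hp.mul hq).2, ← mul_assoc, h1, h2]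

lemma wmP.ge_of_le {r p b : M} {c : ℝ} (hr : 𝒮.wmP r) (hp : 𝒮.wmP p) (hb : b ∈ 𝒮.A) (h : r ≤ p)
    (h' : c • p ≤ b * p) : c • r ≤ b * r := by
  have := 𝒮.wm_mul_le' hr.1 (𝒮.wm_smul_mem hp.1 c) (mul_mem hb hp.1) hr.2.nonneg h'
  rwa [smul_mul_assoc, mul_assoc, (hr.2.le_iff_mul_eq_right hp.2).1 h] at this

lemma wmP.le_of_le {r p b : M} {c : ℝ} (hr : 𝒮.wmP r) (hp : 𝒮.wmP p) (hb : b ∈ 𝒮.A) (h : r ≤ p)
    (h' : b * p ≤ c • p) : b * r ≤ c • r := by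
  have := 𝒮.wm_mul_le' hr.1 (mul_mem hb hp.1) (𝒮.wm_smul_mem hp.1 c) hr.2.nonneg h'
  rwa [smul_mul_assoc, mul_assoc, (hr.2.le_iff_mul_eq_right hp.2).1 h] at this

lemma wmP.part (e : Part 𝒮.A) {f : M} (hf : f ∈ e.s) : 𝒮.wmP f := ⟨e.mem f hf, e.proj f hf⟩

lemma wmP.one : 𝒮.wmP 1 := ⟨one_mem _, IsStarProjection.one M⟩

lemma wmP.zero : 𝒮.wmP 0 := ⟨zero_mem _, IsStarProjection.zero M⟩

variable (𝒮)

lemma wm_posPart {x r : M} (hx : IsSelfAdjoint x) (h : x * r = 0) : x⁺ * r = 0 := by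
  have h1 : x⁺ * x = x⁺ * x⁺ := by
    calc x⁺ * x = x⁺ * (x⁺ - x⁻) := by rw [CFC.posPart_sub_negPart x hx]
      _ = _ := by rw [mul_sub, CFC.posPart_mul_negPart, sub_zero]
  refine (CStarRing.star_mul_self_eq_zero_iff _).1 ?_
  rw [star_mul, (CFC.posPart_nonneg x).isSelfAdjoint.star_eq, mul_assoc, ← mul_assoc x⁺, ← h1,
    mul_assoc, h, mul_zero, mul_zero]

lemma wm_exists_ge {b : M} (hb : b ∈ 𝒮.A) (hb' : IsSelfAdjoint b) (c : ℝ) :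
    ∃ q ∈ 𝒮.A, IsStarProjection q ∧ c • q ≤ b * q ∧ b * (1 - q) ≤ c • (1 - q) ∧
      ∀ q' ∈ 𝒮.A, IsStarProjection q' → c • q' ≤ b * q' → q' ≤ q := by
  obtain ⟨q, h1, h2, h3, h4, h5⟩ := 𝒮.W.exists_spectral hb'.neg (-c)
  have hq : 𝒮.wmP q := ⟨𝒮.masa.mem_of_commutant (neg_mem hb) h2, h1⟩
  have k : ∀ p, 𝒮.wmP p → p * -b * p = -(b * p) := fun p hp => by
    rw [𝒮.masa.comm hp.1 (neg_mem hb), mul_assoc, hp.2.isIdempotentElem.eq, neg_mul]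
  rw [k q hq, neg_smul, neg_le_neg_iff] at h3
  rw [k _ hq.one_sub, neg_smul, neg_le_neg_iff] at h4
  refine ⟨q, hq.1, h1, h3, h4, fun q' hq1 hq2 h => ?_⟩
  have hq' : 𝒮.wmP q' := ⟨hq1, hq2⟩
  have hr := hq'.mul hq.one_sub
  have a1 := hr.ge_of_le hq' hb (hq'.mul_le_left hq.one_sub) h
  have a2 := hr.le_of_le hq.one_sub hb (hq'.mul_le_right hq.one_sub) h4
  have a3 : (-b - (-c) • (1 : M)) * (q' * (1 - q)) = 0 := by
    rw [sub_mul, neg_mul, smul_mul_assoc, one_mul, le_antisymm a2 a1, neg_smul, sub_self]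
  have a4 := wm_posPart (hb'.neg.sub ((IsSelfAdjoint.all (-c)).smul (.one M))) a3
  have a5 := h5 (conjP 𝒮.φ (q' * (1 - q))) (𝒮.normal.conjP _) (by
    rw [conjP_apply, mul_assoc, a4, mul_zero, map_zero])
  rw [conjP_apply, mul_assoc, (hr.2.le_iff_mul_eq_right hq.one_sub.2).1
    (hq'.mul_le_right hq.one_sub)] at a5
  have a6 := 𝒮.faithful _ a5
  rw [mul_sub, mul_one, sub_eq_zero] at a6
  exact (hq2.le_iff_mul_eq_left h1).2 a6.symm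

lemma wm_exists_sup {J : Type*} (s : Finset J) (q : J → M) (hq : ∀ j ∈ s, 𝒮.wmP (q j)) :
    ∃ ρ, 𝒮.wmP ρ ∧ (∀ j ∈ s, q j ≤ ρ) ∧ (∀ g, 𝒮.wmP g → (∀ j ∈ s, q j ≤ g) → ρ ≤ g) ∧
      ρ ≤ ∑ j ∈ s, q j := by
  classical
  induction s using Finset.induction_on with
  | empty => exact ⟨0, wmP.zero, by simp, fun g hg _ => hg.2.nonneg, by simp⟩
  | insert i s hi ih =>
    obtain ⟨ρ, h1, h2, h3, h4⟩ := ih fun j hj => hq j (Finset.mem_insert_of_mem hj)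
    have hi' := hq i (Finset.mem_insert_self i s)
    have hm := hi'.one_sub.mul h1.one_sub
    refine ⟨1 - (1 - q i) * (1 - ρ), hm.one_sub, fun j hj => ?_, fun g hg h => ?_, ?_⟩
    · rcases Finset.mem_insert.1 hj with rfl | hj
      · exact le_sub_comm.1 (hi'.one_sub.mul_le_left h1.one_sub)
      · exact (h2 j hj).trans (le_sub_comm.1 (hi'.one_sub.mul_le_right h1.one_sub))
    · refine sub_le_comm.1 (hg.one_sub.le_mul hi'.one_sub h1.one_sub ?_ ?_)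
      · exact sub_le_sub_left (h i (Finset.mem_insert_self i s)) 1
      · exact sub_le_sub_left (h3 g hg fun j hj => h j (Finset.mem_insert_of_mem hj)) 1
    · rw [Finset.sum_insert hi]
      have e : 1 - (1 - q i) * (1 - ρ) = q i + ρ - q i * ρ := by noncomm_ring
      rw [e]
      exact (sub_le_self _ (hi'.mul h1).2.nonneg).trans (add_le_add_right h4 _)

lemma wm_wlim_sum {I J : Type*} {l : Filter I} (s : Finset J) {f : J → I → M} {y : J → M}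
    (h : ∀ j ∈ s, 𝒮.W.WLim l (f j) (y j)) :
    𝒮.W.WLim l (fun i => ∑ j ∈ s, f j i) (∑ j ∈ s, y j) := by
  intro ω hω a b
  simp only [Finset.mul_sum, Finset.sum_mul, map_sum]
  exact tendsto_finsetSum s fun j hj => h j hj ω hω a b

lemma wm_exists_F (G : M → M) (hG : ∀ p, 𝒮.wmP p → 𝒮.wmP (G p))
    (hm : ∀ p q, 𝒮.wmP p → 𝒮.wmP q → p ≤ q → G p ≤ G q) :
    ∃ F : M → M, (∀ p, 𝒮.wmP p → 𝒮.wmP (F p)) ∧
      (∀ p q, 𝒮.wmP p → 𝒮.wmP q → p ≤ q → F p ≤ F q) ∧ (∀ p, 𝒮.wmP p → F p ≤ G p) ∧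
      (∀ (e : Part 𝒮.A) p, 𝒮.wmP p → F p ≤ ∑ f ∈ e.s, F (f * p)) ∧
      ∀ t : ℝ, (∀ (e : Part 𝒮.A) ρ, 𝒮.wmP ρ → (∀ f ∈ e.s, G f ≤ ρ) → t ≤ (𝒮.φ ρ).re) →
        t ≤ (𝒮.φ (F 1)).re := by
  have := Part.directed 𝒮.masa
  choose! R h1 h2 h3 _ using fun (p : M) (hp : 𝒮.wmP p) (e : Part 𝒮.A) =>
    𝒮.wm_exists_sup e.s (fun f => G (f * p)) fun f hf => hG _ ((wmP.part e hf).mul hp)
  have hanti : ∀ p, 𝒮.wmP p → Antitone (R p) := by
    intro p hp e e' he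
    refine h3 p hp e' _ (h1 p hp e) fun y hy => ?_
    obtain ⟨x, hx, hxy⟩ := he y hy
    refine (hm _ _ ((wmP.part e' hy).mul hp) ((wmP.part e hx).mul hp) ?_).trans (h2 p hp e x hx)
    refine 𝒮.wm_mul_le' hp.1 (e'.mem y hy) (e.mem x hx) hp.2.nonneg ?_
    exact ((e'.proj y hy).le_iff_mul_eq_right (e.proj x hx)).2 hxy
  choose! F k1 k2 k3 using fun (p : M) (hp : 𝒮.wmP p) =>
    𝒮.W.exists_wlim_anti (fun e => (h1 p hp e).2) (hanti p hp)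
  refine ⟨F, fun p hp => ⟨(k2 p hp).mem_masa 𝒮.masa (Eventually.of_forall fun e => (h1 p hp e).1),
    k1 p hp⟩, fun p q hp hq h => ?_, fun p hp => ?_, fun e p hp => ?_, fun t ht => ?_⟩
  · refine (k2 p hp).le (k2 q hq) (Eventually.of_forall fun e => ?_)
    refine h3 p hp e _ (h1 q hq e) fun f hf => ?_
    refine (hm _ _ ((wmP.part e hf).mul hp) ((wmP.part e hf).mul hq) ?_).trans (h2 q hq e f hf)
    exact 𝒮.wm_mul_le (e.mem f hf) hp.1 hq.1 (e.proj f hf).nonneg h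
  · obtain ⟨e⟩ : Nonempty (Part 𝒮.A) := inferInstance
    refine (k3 p hp e).trans (h3 p hp e _ (hG p hp) fun f hf => ?_)
    exact hm _ _ ((wmP.part e hf).mul hp) hp ((wmP.part e hf).mul_le_right hp)
  · refine (k2 p hp).le (𝒮.wm_wlim_sum e.s fun f hf => k2 _ ((wmP.part e hf).mul hp))
      ((eventually_ge_atTop e).mono fun e' he => ?_)
    obtain ⟨ρ, a1, a2, -, a4⟩ := 𝒮.wm_exists_sup e.s (fun f => R (f * p) e')
      fun f hf => h1 _ ((wmP.part e hf).mul hp) e'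
    refine (h3 p hp e' ρ a1 fun y hy => ?_).trans a4
    obtain ⟨x, hx, hxy⟩ := he y hy
    have a5 : y * p = y * (x * p) := by
      rw [← mul_assoc, 𝒮.masa.comm (e'.mem y hy) (e.mem x hx), hxy]
    rw [a5]
    exact (h2 _ ((wmP.part e hx).mul hp) e' y hy).trans (a2 x hx)
  · have a1 := (Complex.continuous_re.tendsto _).comp (k2 1 wmP.one 𝒮.φ rfl 1 1)
    simp only [one_mul, mul_one] at a1
    refine ge_of_tendsto' a1 fun e => ht e _ (h1 1 wmP.one e) fun f hf => ?_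
    simpa only [mul_one] using h2 1 wmP.one e f hf

lemma wm_re_smul (c : ℝ) (x : M) : (𝒮.φ (c • x)).re = c * (𝒮.φ x).re := by
  rw [← Complex.coe_smul, map_smul, smul_eq_mul, Complex.re_ofReal_mul]

lemma wm_φ_pos {g : M} (hg : IsStarProjection g) (h : g ≠ 0) : 0 < (𝒮.φ g).re := by
  have h1 := nrm_sq 𝒮.φ g
  rw [hg.isSelfAdjoint.star_eq, hg.isIdempotentElem.eq] at h1
  rw [← h1]
  exact pow_pos ((nrm_nonneg _ _).lt_of_ne fun k => h (𝒮.eq_zero_of_nrm k.symm)) 2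

theorem wm_exists_alpha (Θ : M → M) (hA : ∀ a ∈ 𝒮.A, Θ a ∈ 𝒮.A)
    (hadd : ∀ a ∈ 𝒮.A, ∀ b ∈ 𝒮.A, Θ (a + b) = Θ a + Θ b)
    (hpos : ∀ a ∈ 𝒮.A, 0 ≤ a → 0 ≤ Θ a) {c : ℝ} (hc : 0 < c)
    (h : ∀ e : Part 𝒮.A, c ≤ ∑ f ∈ e.s, nrm 𝒮.φ (Θ f) ^ 2) :
    ∃ (α : M → M) (c' : ℝ), 0 < c' ∧
      (∀ e ∈ 𝒮.A, IsStarProjection e → α e ∈ 𝒮.A ∧ IsStarProjection (α e)) ∧
      (∀ e ∈ 𝒮.A, ∀ f ∈ 𝒮.A, IsStarProjection e → IsStarProjection f →
        (e * f = 0 → α e * α f = 0) ∧ (e * f = f → α e * α f = α f)) ∧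
      ∀ e : Part 𝒮.A, c' ≤ ∑ f ∈ e.s, (𝒮.φ (Θ f * α f)).re := by
  classical
  have hmono : ∀ a ∈ 𝒮.A, ∀ b ∈ 𝒮.A, a ≤ b → Θ a ≤ Θ b := fun a ha b hb hab => by
    have h1 := hadd a ha (b - a) (sub_mem hb ha)
    rw [add_sub_cancel] at h1
    rw [h1]
    exact le_add_of_nonneg_right (hpos _ (sub_mem hb ha) (sub_nonneg.2 hab))
  have hsum : ∀ s : Finset M, (∀ f ∈ s, f ∈ 𝒮.A) → Θ (∑ f ∈ s, f) = ∑ f ∈ s, Θ f := by
    intro s
    induction s using Finset.induction_on with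
    | empty =>
      intro _
      have h1 := hadd 0 (zero_mem _) 0 (zero_mem _)
      rw [add_zero] at h1
      simpa using h1
    | insert i s hi ih =>
      intro hs
      have h1 : ∀ f ∈ s, f ∈ 𝒮.A := fun f hf => hs f (Finset.mem_insert_of_mem hf)
      rw [Finset.sum_insert hi, Finset.sum_insert hi,
        hadd _ (hs i (Finset.mem_insert_self _ _)) _ (sum_mem h1), ih h1]
  obtain ⟨L, hL⟩ : ∃ L : ℝ, L = ‖Θ 1‖ + 1 := ⟨_, rfl⟩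
  have hL0 : 0 < L := by rw [hL]; positivity
  have hΘ0 : ∀ p, 𝒮.wmP p → 0 ≤ Θ p := fun p hp => hpos p hp.1 hp.2.nonneg
  have hΘL : ∀ p, 𝒮.wmP p → Θ p ≤ L • (1 : M) := fun p hp => by
    refine (hmono p hp.1 1 (one_mem _) hp.2.le_one).trans ?_
    rw [← Algebra.algebraMap_eq_smul_one]
    exact (CStarAlgebra.norm_le_iff_le_algebraMap _ hL0.le (hΘ0 1 wmP.one)).1 (by linarith)
  obtain ⟨c₁, hc₁⟩ : ∃ c₁ : ℝ, c₁ = c / (2 * L) := ⟨_, rfl⟩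
  have hc₁0 : 0 < c₁ := by rw [hc₁]; positivity
  choose! G g1 g2 g3 g4 g5 using fun (p : M) (hp : 𝒮.wmP p) =>
    𝒮.wm_exists_ge (hA p hp.1) (hΘ0 p hp).isSelfAdjoint c₁
  have hG : ∀ p, 𝒮.wmP p → 𝒮.wmP (G p) := fun p hp => ⟨g1 p hp, g2 p hp⟩
  obtain ⟨F, f1, f2, f3, f4, f5⟩ := 𝒮.wm_exists_F G hG fun p q hp hq hpq =>
    g5 q hq _ (g1 p hp) (g2 p hp) ((g3 p hp).trans
      (𝒮.wm_mul_le' (g1 p hp) (hA p hp.1) (hA q hq.1) (g2 p hp).nonneg (hmono p hp.1 q hq.1 hpq)))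
  have hF : ∀ p g, 𝒮.wmP p → 𝒮.wmP g → g ≤ F p → c₁ • g ≤ Θ p * g := fun p g hp hg hgp =>
    hg.ge_of_le (hG p hp) (hA p hp.1) (hgp.trans (f3 p hp)) (g3 p hp)
  have hF1 : F 1 ≠ 0 := by
    intro h0
    have h1 := f5 (c / (2 * L ^ 2)) fun e ρ hρ hρe => by
      have kA : L • ρ + c₁ • (1 : M) ∈ 𝒮.A :=
        add_mem (𝒮.wm_smul_mem hρ.1 L) (𝒮.wm_smul_mem (one_mem _) c₁)
      have k0 : 0 ≤ L • ρ + c₁ • (1 : M) :=
        add_nonneg (smul_nonneg hL0.le hρ.2.nonneg) (smul_nonneg hc₁0.le zero_le_one)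
      have a1 : ∀ f ∈ e.s, Θ f ≤ L • ρ + c₁ • (1 : M) := fun f hf => by
        have hf' := wmP.part e hf
        have b1 := 𝒮.wm_mul_le' hρ.1 (hA f hf'.1) (𝒮.wm_smul_mem (one_mem _) L) hρ.2.nonneg
          (hΘL f hf')
        rw [smul_mul_assoc, one_mul] at b1
        have b2 := hρ.one_sub.le_of_le (hG f hf').one_sub (hA f hf'.1)
          (sub_le_sub_left (hρe f hf) 1) (g4 f hf')
        have b3 : c₁ • (1 - ρ) ≤ c₁ • (1 : M) :=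
          smul_le_smul_of_nonneg_left hρ.2.one_sub.le_one hc₁0.le
        calc Θ f = Θ f * ρ + Θ f * (1 - ρ) := by rw [← mul_add, add_sub_cancel, mul_one]
          _ ≤ _ := add_le_add b1 (b2.trans b3)
      have a2 : ∑ f ∈ e.s, star (Θ f) * Θ f ≤ L • (L • ρ + c₁ • (1 : M)) := by
        calc ∑ f ∈ e.s, star (Θ f) * Θ f ≤ ∑ f ∈ e.s, Θ f * (L • ρ + c₁ • (1 : M)) := by
              refine Finset.sum_le_sum fun f hf => ?_
              have hf' := wmP.part e hf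
              rw [(hΘ0 f hf').isSelfAdjoint.star_eq]
              exact 𝒮.wm_mul_le (hA f hf'.1) (hA f hf'.1) kA (hΘ0 f hf') (a1 f hf)
          _ = Θ 1 * (L • ρ + c₁ • (1 : M)) := by rw [← Finset.sum_mul, ← hsum e.s e.mem, e.sum]
          _ ≤ (L • (1 : M)) * (L • ρ + c₁ • (1 : M)) :=
              𝒮.wm_mul_le' kA (hA 1 (one_mem _)) (𝒮.wm_smul_mem (one_mem _) L) k0
                (hΘL 1 wmP.one)
          _ = _ := by rw [smul_mul_assoc, one_mul]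
      have a3 := re_mono 𝒮.φ a2
      rw [map_sum, Complex.re_sum, wm_re_smul, map_add, Complex.add_re, wm_re_smul, wm_re_smul,
        𝒮.one, Complex.one_re, mul_one] at a3
      have a4 := h e
      simp only [nrm_sq] at a4
      have a5 : L * c₁ = c / 2 := by rw [hc₁]; field_simp
      rw [div_le_iff₀ (by positivity)]
      nlinarith
    rw [h0, map_zero, Complex.zero_re] at h1
    have h2 : 0 < c / (2 * L ^ 2) := by positivity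
    linarith
  let Q : ℕ → Prop := fun n => ∃ g p r, 𝒮.wmP g ∧ 𝒮.wmP p ∧ 𝒮.wmP r ∧ g ≠ 0 ∧ p * r = 0 ∧
    g ≤ F p ∧ (n * c₁) • g ≤ Θ r * g
  have hQ0 : Q 0 := ⟨F 1, 1, 0, f1 1 wmP.one, wmP.one, wmP.zero, hF1, mul_zero _, le_rfl, by
    have c : Commute (Θ 0) (F 1) := 𝒮.masa.comm (hA 0 (zero_mem _)) (f1 1 wmP.one).1
    rw [Nat.cast_zero, zero_mul, zero_smul]
    exact c.mul_nonneg (hΘ0 0 wmP.zero) (f1 1 wmP.one).2.nonneg⟩
  have hQ1 : ∃ n, ¬ Q n := by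
    obtain ⟨n, hn⟩ := exists_nat_gt (L / c₁)
    refine ⟨n, ?_⟩
    rintro ⟨g, p, r, hg, -, hr, h0, -, -, h2⟩
    have b1 := 𝒮.wm_mul_le' hg.1 (hA r hr.1) (𝒮.wm_smul_mem (one_mem _) L) hg.2.nonneg
      (hΘL r hr)
    rw [smul_mul_assoc, one_mul] at b1
    exact h0 (proj_eq_zero hg.2 ((div_lt_iff₀ hc₁0).1 hn) (h2.trans b1))
  obtain ⟨n, ⟨g, p, r, hg, hp, hr, h0, hpr, hgp, h2⟩, hn⟩ : ∃ n, Q n ∧ ¬ Q (n + 1) := by
    by_contra hcon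
    push Not at hcon
    obtain ⟨n, hn⟩ := hQ1
    exact hn (Nat.rec hQ0 hcon n)
  have hα : ∀ e, 𝒮.wmP e → 𝒮.wmP (g * F (e * p)) := fun e he => hg.mul (f1 _ (he.mul hp))
  refine ⟨fun e => g * F (e * p), c₁ * (𝒮.φ g).re, mul_pos hc₁0 (𝒮.wm_φ_pos hg.2 h0),
    fun e he he' => hα e ⟨he, he'⟩, fun e he f hf he' hf' => ⟨fun hef => ?_, fun hef => ?_⟩,
    fun e => ?_⟩
  · have pe : 𝒮.wmP e := ⟨he, he'⟩
    have pf : 𝒮.wmP f := ⟨hf, hf'⟩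
    by_contra hne
    have hg' := (hα e pe).mul (hα f pf)
    have hfr : r * (f * p) = 0 := by
      rw [𝒮.masa.comm hr.1 (pf.mul hp).1, mul_assoc, hpr, mul_zero]
    have b1 : g * F (e * p) * (g * F (f * p)) ≤ g :=
      ((hα e pe).mul_le_left (hα f pf)).trans (hg.mul_le_left (f1 _ (pe.mul hp)))
    refine hn ⟨_, e * p, r + f * p, hg', pe.mul hp,
      ⟨add_mem hr.1 (pf.mul hp).1, hr.2.add (pf.mul hp).2 hfr⟩, hne, ?_,
      ((hα e pe).mul_le_left (hα f pf)).trans (hg.mul_le_right (f1 _ (pe.mul hp))), ?_⟩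
    · rw [mul_add, mul_assoc, hpr, mul_zero, zero_add, 𝒮.masa.comm he hp.1, mul_assoc,
        ← mul_assoc e, hef, zero_mul, mul_zero]
    · rw [hadd r hr.1 _ (pf.mul hp).1, add_mul, Nat.cast_succ, add_mul, one_mul, add_smul]
      exact add_le_add (hg'.ge_of_le hg (hA r hr.1) b1 h2) (hF _ _ (pf.mul hp) hg'
        (((hα e pe).mul_le_right (hα f pf)).trans (hg.mul_le_right (f1 _ (pf.mul hp)))))
  · have pe : 𝒮.wmP e := ⟨he, he'⟩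
    have pf : 𝒮.wmP f := ⟨hf, hf'⟩
    refine ((hα f pf).2.le_iff_mul_eq_right (hα e pe).2).1 ?_
    refine 𝒮.wm_mul_le hg.1 (f1 _ (pf.mul hp)).1 (f1 _ (pe.mul hp)).1 hg.2.nonneg ?_
    exact f2 _ _ (pf.mul hp) (pe.mul hp)
      (𝒮.wm_mul_le' hp.1 hf he hp.2.nonneg ((hf'.le_iff_mul_eq_right he').2 hef))
  · have b1 := 𝒮.wm_mul_le hg.1 (f1 p hp).1
      (sum_mem fun f hf => (f1 _ ((wmP.part e hf).mul hp)).1) hg.2.nonneg (f4 e p hp)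
    rw [(hg.2.le_iff_mul_eq_left (f1 p hp).2).1 hgp, Finset.mul_sum] at b1
    have b2 := re_mono 𝒮.φ b1
    rw [map_sum, Complex.re_sum] at b2
    refine (mul_le_mul_of_nonneg_left b2 hc₁0.le).trans ?_
    rw [Finset.mul_sum]
    refine Finset.sum_le_sum fun f hf => ?_
    have pf := wmP.part e hf
    rw [← wm_re_smul]
    exact re_mono 𝒮.φ (hF f _ pf (hα f pf) ((hg.mul_le_right (f1 _ (pf.mul hp))).trans
      (f2 _ _ (pf.mul hp) pf (pf.mul_le_left hp))))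

end WSys

end Vale.Agent.P078
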