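import Vale.Agent.P078.Gpd
import Vale.Agent.P078.WMAux

/-! Weak mixing of elements orthogonal to the groupoid.  See PROOF.md, section WM. -/

namespace Vale.Agent.P078

open Filter Topology
open scoped ComplexOrder

universe u

variable {M : Type u} [CStarAlgebra M] [PartialOrder M] [StarOrderedRing M]

namespace WSys

variable (𝒮 : WSys M)

/-- the largest projection `q ∈ A` with `c q ≤ b q` (`exists_spectral` for `-b`, `-c`) -/
lemma exists_ge {b : M} (hb : b ∈ 𝒮.A) (hb' : IsSelfAdjoint b) (c : ℝ) :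
    ∃ q ∈ 𝒮.A, IsStarProjection q ∧ c • q ≤ b * q ∧ b * (1 - q) ≤ c • (1 - q) ∧
      ∀ q' ∈ 𝒮.A, IsStarProjection q' → c • q' ≤ b * q' → q' ≤ q :=
  𝒮.wm_exists_ge hb hb' c

/-- atoms of a positive map give a homomorphism on projections -/
theorem exists_alpha (Θ : M → M) (hA : ∀ a ∈ 𝒮.A, Θ a ∈ 𝒮.A)
    (hadd : ∀ a ∈ 𝒮.A, ∀ b ∈ 𝒮.A, Θ (a + b) = Θ a + Θ b)
    (hpos : ∀ a ∈ 𝒮.A, 0 ≤ a → 0 ≤ Θ a) {c : ℝ} (hc : 0 < c)
    (h : ∀ e : Part 𝒮.A, c ≤ ∑ f ∈ e.s, nrm 𝒮.φ (Θ f) ^ 2) :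
    ∃ (α : M → M) (c' : ℝ), 0 < c' ∧
      (∀ e ∈ 𝒮.A, IsStarProjection e → α e ∈ 𝒮.A ∧ IsStarProjection (α e)) ∧
      (∀ e ∈ 𝒮.A, ∀ f ∈ 𝒮.A, IsStarProjection e → IsStarProjection f →
        (e * f = 0 → α e * α f = 0) ∧ (e * f = f → α e * α f = α f)) ∧
      ∀ e : Part 𝒮.A, c' ≤ ∑ f ∈ e.s, (𝒮.φ (Θ f * α f)).re :=
  𝒮.wm_exists_alpha Θ hA hadd hpos hc h

lemma exists_graph' {y : M} {c : ℝ} (hc : 0 < c)
    (h : ∀ e : Part 𝒮.A, c ≤ ∑ f ∈ e.s, nrm 𝒮.φ (𝒮.E (star y * f * y)) ^ 2) :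
    ∃ (α : M → M) (w : M), w ≠ 0 ∧
      (∀ e ∈ 𝒮.A, IsStarProjection e → α e ∈ 𝒮.A ∧ IsStarProjection (α e) ∧ e * w = w * α e) ∧
      (∀ a ∈ 𝒮.A, ∀ b ∈ 𝒮.A, y * a = b * y → w * a = b * w) ∧
      ∀ z, (∀ e ∈ 𝒮.A, IsStarProjection e → e * z = z * α e) →
        𝒮.φ (star z * y) = 𝒮.φ (star z * w) ∧ 𝒮.φ (y * star z) = 𝒮.φ (w * star z) := by
  obtain ⟨α, c', hc', h1, h2, h3⟩ := 𝒮.exists_alpha (fun a => 𝒮.E (star y * a * y))
    (fun a _ => 𝒮.E_mem _) (fun a _ b _ => by rw [mul_add, add_mul, 𝒮.E_add])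
    (fun a _ ha => 𝒮.E_nonneg (star_left_conjugate_nonneg ha y)) hc h
  have := Part.directed 𝒮.masa
  set W : Part 𝒮.A → M := fun e => ∑ f ∈ e.s, f * y * α f with hW
  have hb : ∀ e, ‖W e‖ ≤ ‖y‖ := fun e =>
    norm_sum_block_le e.s (e := fun f => f) (x := fun _ => y) (norm_nonneg y) e.proj
      (fun f hf => (h1 f (e.mem f hf) (e.proj f hf)).2) e.orth
      (fun f hf g hg hfg => (h2 f (e.mem f hf) g (e.mem g hg) (e.proj f hf) (e.proj g hg)).1
        (e.orth f hf g hg hfg)) fun _ _ => le_rfl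
  set 𝒰 : Ultrafilter (Part 𝒮.A) := Ultrafilter.of atTop
  have hU : (𝒰 : Filter (Part 𝒮.A)) ≤ atTop := Ultrafilter.of_le _
  obtain ⟨w, hw⟩ := 𝒮.W.exists_wlim 𝒰 (f := W) (Eventually.of_forall hb)
  have hl : ∀ a b, Tendsto (fun e => 𝒮.φ (a * W e * b)) 𝒰 (𝓝 (𝒮.φ (a * w * b))) := hw _ rfl
  refine ⟨α, w, ?_, fun p hpA hp => ⟨(h1 p hpA hp).1, (h1 p hpA hp).2, ?_⟩, ?_, ?_⟩
  · intro h0
    have k := (Complex.continuous_re.tendsto _).comp (hl (star y) 1)
    have k2 : c' ≤ (𝒮.φ (star y * w * 1)).re := by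
      refine ge_of_tendsto' k fun e => (h3 e).trans_eq ?_
      simp only [Function.comp_apply, hW, mul_one, Finset.mul_sum, map_sum, Complex.re_sum]
      refine Finset.sum_congr rfl fun f hf => ?_
      have hα := (h1 f (e.mem f hf) (e.proj f hf)).1
      rw [← 𝒮.central _ hα, 𝒮.E_char _ hα, 𝒮.central _ hα]
      simp only [mul_assoc]
    rw [h0] at k2
    simp at k2
    linarith
  · obtain ⟨e₀, he₀⟩ := Part.exists_adapted hp hpA
    have := hw.eq_of_eventually (a := p) (b := 1) (c := 1) (d := α p) (by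
      filter_upwards [hU (eventually_ge_atTop e₀)] with e he
      simp only [hW, mul_one, one_mul, Finset.mul_sum, Finset.sum_mul]
      refine Finset.sum_congr rfl fun f hf => ?_
      have k := h2 p hpA f (e.mem f hf) hp (e.proj f hf)
      have kc := 𝒮.masa.comm (h1 p hpA hp).1 (h1 f (e.mem f hf) (e.proj f hf)).1
      rw [mul_assoc (f * y), ← kc, ← mul_assoc p, ← mul_assoc p]
      rcases he₀ e he f hf with k1 | k1
      · rw [k1, k.2 k1]
      · rw [k1, k.1 k1]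
        simp)
    simpa using this
  · intro a ha b hb' hab
    have := hw.eq_of_eventually (a := 1) (b := a) (c := b) (d := 1) (by
      refine Eventually.of_forall fun e => ?_
      simp only [hW, mul_one, one_mul, Finset.mul_sum, Finset.sum_mul]
      refine Finset.sum_congr rfl fun f hf => ?_
      rw [mul_assoc (f * y), 𝒮.masa.comm (h1 f (e.mem f hf) (e.proj f hf)).1 ha, ← mul_assoc,
        mul_assoc f, hab, ← mul_assoc f, 𝒮.masa.comm (e.mem f hf) hb']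
      simp only [mul_assoc])
    simpa using this
  · intro z hz
    have hz' : ∀ (e : Part 𝒮.A), ∀ f ∈ e.s, α f * star z = star z * f := by
      intro e f hf
      have := congrArg star (hz f (e.mem f hf) (e.proj f hf))
      rw [star_mul, star_mul, (e.proj f hf).isSelfAdjoint.star_eq,
        (h1 f (e.mem f hf) (e.proj f hf)).2.isSelfAdjoint.star_eq] at this
      exact this.symm
    constructor
    · have k := hl (star z) 1
      rw [mul_one] at k
      refine tendsto_nhds_unique (tendsto_const_nhds.congr fun e => ?_) k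
      have e1 : star z * y = ∑ f ∈ e.s, star z * f * y := by
        rw [← Finset.sum_mul, ← Finset.mul_sum, e.sum, mul_one]
      simp only [hW, mul_one, Finset.mul_sum, map_sum, e1]
      refine Finset.sum_congr rfl fun f hf => ?_
      rw [← mul_assoc, ← 𝒮.central _ (h1 f (e.mem f hf) (e.proj f hf)).1, ← mul_assoc, hz' e f hf,
        ← mul_assoc, mul_assoc (star z) f f, (e.proj f hf).isIdempotentElem.eq]
    · have k := hl 1 (star z)
      rw [one_mul] at k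
      refine tendsto_nhds_unique (tendsto_const_nhds.congr fun e => ?_) k
      rw [← 𝒮.φ_S e, Part.S]
      simp only [hW, one_mul, Finset.sum_mul]
      congr 1
      refine Finset.sum_congr rfl fun f hf => ?_
      rw [mul_assoc (f * y), hz' e f hf]
      simp only [mul_assoc]

/-- the sum is antitone in the partition -/
lemma sum_E_anti' (y : M) {e e' : Part 𝒮.A} (h : e ≤ e') :
    ∑ f ∈ e'.s, nrm 𝒮.φ (𝒮.E (star y * f * y)) ^ 2 ≤
      ∑ f ∈ e.s, nrm 𝒮.φ (𝒮.E (star y * f * y)) ^ 2 := by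
  have hpos : ∀ f ∈ e.s, ∀ g ∈ e'.s, 0 ≤ 𝒮.E (star y * (f * g) * y) := by
    intro f hf g hg
    refine 𝒮.E_nonneg (star_left_conjugate_nonneg ?_ y)
    rcases Part.eq_or_zero h hf hg with k | k
    · rw [k]
      exact (e'.proj g hg).nonneg
    · rw [k]
  calc ∑ g ∈ e'.s, nrm 𝒮.φ (𝒮.E (star y * g * y)) ^ 2
      ≤ ∑ g ∈ e'.s, ∑ f ∈ e.s, nrm 𝒮.φ (𝒮.E (star y * (f * g) * y)) ^ 2 := by
        refine Finset.sum_le_sum fun g hg => ?_
        obtain ⟨f, hf, hfg⟩ := h g hg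
        have := Finset.single_le_sum (f := fun f => nrm 𝒮.φ (𝒮.E (star y * (f * g) * y)) ^ 2)
          (fun _ _ => sq_nonneg _) hf
        rwa [hfg] at this
    _ ≤ _ := by
        rw [Finset.sum_comm]
        refine Finset.sum_le_sum fun f hf => ?_
        have e1 : 𝒮.E (star y * f * y) = ∑ g ∈ e'.s, 𝒮.E (star y * (f * g) * y) := by
          rw [← 𝒮.E_sum, ← Finset.sum_mul, ← Finset.mul_sum, ← Finset.mul_sum, e'.sum, mul_one]
        rw [e1, nrm_sq, star_sum, Finset.sum_mul_sum]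
        simp only [map_sum, Complex.re_sum]
        refine Finset.sum_le_sum fun g hg => ?_
        rw [nrm_sq]
        refine Finset.single_le_sum (f := fun g' => (𝒮.φ (star (𝒮.E (star y * (f * g) * y)) *
          𝒮.E (star y * (f * g') * y))).re) (fun g' hg' => ?_) hg
        rw [(hpos f hf g hg).isSelfAdjoint.star_eq]
        exact (𝒮.φ.map_nonneg (Commute.mul_nonneg (hpos f hf g hg) (hpos f hf g' hg')
          (𝒮.masa.comm (𝒮.E_mem _) (𝒮.E_mem _)))).1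

/-- `w` is a weak limit of `∑ f y α f` along an ultrafilter finer than `atTop` -/
theorem exists_graph {y : M} {c : ℝ} (hc : 0 < c)
    (h : ∀ e : Part 𝒮.A, c ≤ ∑ f ∈ e.s, nrm 𝒮.φ (𝒮.E (star y * f * y)) ^ 2) :
    ∃ (α : M → M) (w : M), w ≠ 0 ∧
      (∀ e ∈ 𝒮.A, IsStarProjection e → α e ∈ 𝒮.A ∧ e * w = w * α e) ∧
      (∀ a ∈ 𝒮.A, ∀ b ∈ 𝒮.A, y * a = b * y → w * a = b * w) ∧
      ∀ z, (∀ e ∈ 𝒮.A, IsStarProjection e → e * z = z * α e) →
        𝒮.φ (star z * y) = 𝒮.φ (star z * w) ∧ 𝒮.φ (y * star z) = 𝒮.φ (w * star z) := by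
  obtain ⟨α, w, h1, h2, h3, h4⟩ := 𝒮.exists_graph' hc h
  exact ⟨α, w, h1, fun e he he' => ⟨(h2 e he he').1, (h2 e he he').2.2⟩, h3, h4⟩

/-- `∑ (w f w*)² = w (S e (w* w)) w*` is antitone with limit `φ (w E (w* w) w*) > 0` -/
lemma atoms_of_out {w : M} (hw : w ≠ 0) (h : ∀ a ∈ 𝒮.A, w * a * star w ∈ 𝒮.A) :
    ∃ c > 0, ∀ e : Part 𝒮.A, c ≤ ∑ f ∈ e.s, nrm 𝒮.φ (𝒮.E (w * f * star w)) ^ 2 := by
  have := Part.directed 𝒮.masa
  have hk : 0 ≤ 𝒮.E (star w * w) := 𝒮.E_nonneg (star_mul_self_nonneg w)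
  have hv : ∀ e : Part 𝒮.A, ∑ f ∈ e.s, nrm 𝒮.φ (𝒮.E (w * f * star w)) ^ 2 =
      (𝒮.φ (w * e.S (star w * w) * star w)).re := by
    intro e
    simp only [Part.S, Finset.mul_sum, Finset.sum_mul, map_sum, Complex.re_sum]
    refine Finset.sum_congr rfl fun f hf => ?_
    rw [𝒮.E_of_mem (h f (e.mem f hf)), nrm_sq]
    simp only [star_mul, star_star, (e.proj f hf).isSelfAdjoint.star_eq, mul_assoc]
  refine ⟨(𝒮.φ (w * 𝒮.E (star w * w) * star w)).re, ?_, fun e => ?_⟩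
  · obtain ⟨s, hs⟩ := CStarAlgebra.nonneg_iff_eq_star_mul_self.1 hk
    have e1 : w * 𝒮.E (star w * w) * star w = star (s * star w) * (s * star w) := by
      rw [hs]
      simp only [star_mul, star_star, mul_assoc]
    rw [e1, ← nrm_sq]
    refine sq_pos_of_pos (lt_of_le_of_ne (nrm_nonneg _ _) fun h0 => hw ?_)
    have k1 := 𝒮.eq_zero_of_nrm h0.symm
    have k2 : 𝒮.E (star w * w) * (star w * w) = 0 := by
      rw [hs, mul_assoc, ← mul_assoc s, k1]
      simp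
    have k3 := 𝒮.E_char (star w * w) (𝒮.E_mem (star w * w))
    rw [k2, map_zero] at k3
    have k4 := 𝒮.faithful (𝒮.E (star w * w)) (by rwa [hk.isSelfAdjoint.star_eq])
    refine 𝒮.faithful w ?_
    rw [← 𝒮.φ_E, k4, map_zero]
  · refine le_of_tendsto ((Complex.continuous_re.tendsto _).comp
      (𝒮.wlim_S (star w * w) _ rfl w (star w))) ?_
    filter_upwards [eventually_ge_atTop e] with e' he'
    have := 𝒮.sum_E_anti' (star w) he'
    rw [star_star, hv e'] at this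
    exact this

/-- `v = w k`, `k = h^(-1/2) p`, `h = w* w`, `p = 1[h ≥ κ]`, `nrm (w - w p) ≤ √κ` -/
lemma exists_G_of_normalising {w y : M} (h1 : ∀ a ∈ 𝒮.A, w * a * star w ∈ 𝒮.A)
    (h2 : ∀ a ∈ 𝒮.A, star w * a * w ∈ 𝒮.A) (hy : 𝒮.φ (star w * y) ≠ 0) :
    ∃ v, 𝒮.IsG v ∧ 𝒮.E (star v * y) ≠ 0 := by
  have hh : star w * w ∈ 𝒮.A := by simpa using h2 1 (one_mem _)
  have hy0 : 0 < ‖𝒮.φ (star w * y)‖ := norm_pos_iff.2 hy
  have hn := nrm_nonneg 𝒮.φ y
  obtain ⟨δ, hδ, hδ'⟩ : ∃ δ : ℝ, 0 < δ ∧ δ * nrm 𝒮.φ y < ‖𝒮.φ (star w * y)‖ := by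
    refine ⟨‖𝒮.φ (star w * y)‖ / (nrm 𝒮.φ y + 1), by positivity, ?_⟩
    rw [div_mul_eq_mul_div, div_lt_iff₀ (by positivity)]
    nlinarith
  obtain ⟨q, hq, hqc, hq1, hq2, -⟩ := 𝒮.W.exists_spectral (IsSelfAdjoint.star_mul_self w) (δ ^ 2)
  have hqA : q ∈ 𝒮.A := 𝒮.masa.mem_of_commutant hh hqc
  have hp := hq.one_sub
  have hpA : 1 - q ∈ 𝒮.A := sub_mem (one_mem _) hqA
  have k1 : nrm 𝒮.φ (w * q) ≤ δ := by
    refine (pow_le_pow_iff_left₀ (nrm_nonneg _ _) hδ.le two_ne_zero).1 ?_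
    rw [nrm_sq, star_mul, hq.isSelfAdjoint.star_eq, ← mul_assoc, mul_assoc q]
    have a1 : δ ^ 2 • q ≤ δ ^ 2 • (1 : M) := smul_le_smul_of_nonneg_left hq.le_one (sq_nonneg _)
    refine (re_mono 𝒮.φ (hq1.trans a1)).trans ?_
    rw [← Complex.coe_smul, map_smul, 𝒮.one]
    simp [← Complex.ofReal_pow]
  have k2 : 𝒮.φ ((1 - q) * (star w * y)) ≠ 0 := by
    intro h0
    rw [sub_mul, one_mul, map_sub, sub_eq_zero] at h0
    have a1 := norm_apply_le_nrm 𝒮.φ (w * q) y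
    rw [star_mul, hq.isSelfAdjoint.star_eq, mul_assoc, ← h0] at a1
    nlinarith [mul_le_mul_of_nonneg_right k1 hn]
  set p := 1 - q with hpd
  set b := p * (star w * w) * p + δ ^ 2 • q with hb
  have hbA : b ∈ 𝒮.A := add_mem (mul_mem (mul_mem hpA hh) hpA) (by
    rw [← Complex.coe_smul]
    exact SMulMemClass.smul_mem _ hqA)
  have hb1 : algebraMap ℝ M (δ ^ 2) ≤ b := by
    have : algebraMap ℝ M (δ ^ 2) = δ ^ 2 • p + δ ^ 2 • q := by
      rw [← smul_add, hpd, sub_add_cancel, Algebra.algebraMap_eq_smul_one]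
    rw [this]
    exact add_le_add hq2 le_rfl
  have hbs : IsSelfAdjoint b := by
    have : 0 ≤ b := le_trans (by
      rw [Algebra.algebraMap_eq_smul_one]
      exact smul_nonneg (sq_nonneg _) zero_le_one) hb1
    exact this.isSelfAdjoint
  have hsp := (algebraMap_le_iff_le_spectrum hbs).1 hb1
  set g : ℝ → ℝ := fun t => (Real.sqrt (max t (δ ^ 2)))⁻¹ with hg
  have hgc : Continuous g := by
    refine Continuous.inv₀ (by fun_prop) fun t => (Real.sqrt_pos.2 ?_).ne'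
    exact lt_max_of_lt_right (by positivity)
  set k := cfc g b with hk
  have hkA : k ∈ 𝒮.A := 𝒮.masa.cfc_mem hbA g
  have hks : IsSelfAdjoint k := cfc_predicate g b
  have hkb : k * b * k = 1 := by
    have a1 : k * b * k = cfc (fun t => g t * t * g t) b := by
      rw [cfc_mul _ _ b (by fun_prop) hgc.continuousOn, cfc_mul _ _ b hgc.continuousOn,
        cfc_id' ℝ b]
    rw [a1, ← cfc_const_one ℝ b]
    refine cfc_congr fun t ht => ?_
    have a2 := hsp t ht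
    have a3 : 0 < t := lt_of_lt_of_le (by positivity) a2
    have a4 := Real.sqrt_pos.2 a3
    simp only [hg, max_eq_left a2]
    field_simp
    exact (Real.sq_sqrt a3.le).symm
  have hqp : q * p = 0 := hq.mul_one_sub_self
  have hpp : p * p = p := hp.isIdempotentElem.eq
  have hkp : k * p = p * k := 𝒮.masa.comm hkA hpA
  have hvv : star (w * k * p) * (w * k * p) = p := by
    have a1 : b * p = p * (star w * w) * p := by
      rw [hb, add_mul, smul_mul_assoc, hqp, smul_zero, add_zero, mul_assoc _ p p, hpp]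
    calc star (w * k * p) * (w * k * p) = (p * k) * (star w * w) * (k * p) := by
          simp only [star_mul, hks.star_eq, hp.isSelfAdjoint.star_eq, mul_assoc]
      _ = k * (p * (star w * w) * p) * k := by
          rw [← hkp]
          nth_rewrite 2 [hkp]
          simp only [mul_assoc]
      _ = p := by rw [← a1, ← mul_assoc, mul_assoc _ p k, ← hkp, ← mul_assoc, hkb, one_mul]
  refine ⟨w * k * p, ⟨?_, fun a ha => ?_, fun a ha => ?_⟩, fun h0 => k2 ?_⟩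
  · rw [mul_assoc, hvv, mul_assoc, hpp]
  · have := mul_mem (mul_mem (mul_mem hpA hkA) (h2 a ha)) (mul_mem hkA hpA)
    simpa only [star_mul, hks.star_eq, hp.isSelfAdjoint.star_eq, mul_assoc] using this
  · have := h1 _ (mul_mem (mul_mem (mul_mem hkA hpA) ha) (mul_mem hpA hkA))
    simpa only [star_mul, hks.star_eq, hp.isSelfAdjoint.star_eq, mul_assoc] using this
  · have a1 : p * (star w * y) = (k * b) * (star (w * k * p) * y) := by
      rw [star_mul, star_mul, hks.star_eq, hp.isSelfAdjoint.star_eq, ← mul_assoc p k, ← hkp]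
      simp only [← mul_assoc]
      rw [hkb, one_mul]
    rw [a1, ← 𝒮.E_char _ (mul_mem hkA hbA), h0, mul_zero, map_zero]

theorem Perp.exists_small {𝒮 : WSys M} {y : M} (hy : 𝒮.Perp y) {c : ℝ} (hc : 0 < c) :
    ∃ e : Part 𝒮.A, ∑ f ∈ e.s, nrm 𝒮.φ (𝒮.E (star y * f * y)) ^ 2 < c := by
  by_contra hcon
  push Not at hcon
  have norm_of : ∀ (u : M) (α : M → M),
      (∀ e ∈ 𝒮.A, IsStarProjection e → α e ∈ 𝒮.A ∧ IsStarProjection (α e) ∧ e * u = u * α e) →
      (∀ e ∈ 𝒮.A, IsStarProjection e → star u * e = α e * star u) ∧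
      ∀ a ∈ 𝒮.A, u * a * star u ∈ 𝒮.A := by
    intro u α hα
    have k : ∀ e ∈ 𝒮.A, IsStarProjection e → star u * e = α e * star u := by
      intro e he he'
      have := congrArg star (hα e he he').2.2
      rwa [star_mul, star_mul, he'.isSelfAdjoint.star_eq,
        (hα e he he').2.1.isSelfAdjoint.star_eq] at this
    refine ⟨k, fun a ha => 𝒮.W.mem_of_commute_proj 𝒮.masa fun e he he' => ?_⟩
    rw [mul_assoc (u * a), k e he he', ← mul_assoc, ← mul_assoc, (hα e he he').2.2,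
      mul_assoc u (α e), 𝒮.masa.comm (hα e he he').1 ha]
    simp only [mul_assoc]
  obtain ⟨α, w0, h0, hα, -, hz⟩ := 𝒮.exists_graph' hc hcon
  obtain ⟨k1, k2⟩ := norm_of w0 α hα
  obtain ⟨c2, hc2, h2⟩ := 𝒮.atoms_of_out h0 k2
  obtain ⟨β, w1, h1, hβ, hper, hz'⟩ := 𝒮.exists_graph' (y := star w0) hc2 (by simpa using h2)
  have hw : ∀ e ∈ 𝒮.A, IsStarProjection e →
      α e ∈ 𝒮.A ∧ IsStarProjection (α e) ∧ e * star w1 = star w1 * α e := by
    intro e he he'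
    refine ⟨(hα e he he').1, (hα e he he').2.1, ?_⟩
    have := congrArg star (hper e he _ (hα e he he').1 (k1 e he he'))
    rwa [star_mul, star_mul, he'.isSelfAdjoint.star_eq,
      (hα e he he').2.1.isSelfAdjoint.star_eq] at this
  obtain ⟨v, hv, hv'⟩ := 𝒮.exists_G_of_normalising (w := star w1) (y := y) (norm_of _ α hw).2
    (by simpa using (norm_of _ β hβ).2) (by
      rw [(hz _ fun e he he' => (hw e he he').2.2).1]
      have a1 := (hz' w1 fun e he he' => (hβ e he he').2.2).2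
      rw [← star_mul, map_star] at a1
      rw [star_star]
      intro a2
      rw [a2, star_zero] at a1
      refine h1 (star_eq_zero.1 (𝒮.faithful _ ?_))
      rw [star_star, ← a1])
  exact hv' (hy v hv)

/-- the sum is antitone in the partition -/
lemma sum_E_anti (y : M) {e e' : Part 𝒮.A} (h : e ≤ e') :
    ∑ f ∈ e'.s, nrm 𝒮.φ (𝒮.E (star y * f * y)) ^ 2 ≤
      ∑ f ∈ e.s, nrm 𝒮.φ (𝒮.E (star y * f * y)) ^ 2 := by
  exact 𝒮.sum_E_anti' y h

theorem weak_mixing {I : Type*} [Finite I] {w : I → M} (hw : ∀ i, 𝒮.Perp (w i)) {ω : ℝ}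
    (hω : 0 < ω) : ∃ e₀ e₁ : Part 𝒮.A, e₀ ≤ e₁ ∧ ∀ f, e₁ ≤ f → ∀ i,
      ∑ t ∈ e₀.s, nrm 𝒮.φ (f.S (star (w i) * t * w i)) ^ 2 ≤ ω := by
  have := Part.directed 𝒮.masa
  choose e he using fun i => (hw i).exists_small (c := ω / 4) (by positivity)
  obtain ⟨e₀, he₀⟩ := Finite.exists_le e
  obtain ⟨δ, hδ, hδ'⟩ : ∃ δ : ℝ, 0 < δ ∧ e₀.s.card * δ ^ 2 ≤ ω / 4 := by
    refine ⟨Real.sqrt (ω / 4 / (e₀.s.card + 1)), Real.sqrt_pos.2 (by positivity), ?_⟩
    rw [Real.sq_sqrt (by positivity), ← mul_div_assoc, div_le_iff₀ (by positivity)]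
    nlinarith
  have hev : ∀ᶠ f : Part 𝒮.A in atTop, ∀ i, ∀ t ∈ e₀.s,
      nrm 𝒮.φ (f.S (star (w i) * t * w i) - 𝒮.E (star (w i) * t * w i)) ≤ δ := by
    rw [eventually_all]
    intro i
    rw [eventually_all_finset]
    intro t _
    exact eventually_atTop.2 (𝒮.S_tendsto _ hδ)
  obtain ⟨e₁, he₁⟩ := eventually_atTop.1 (hev.and (eventually_ge_atTop e₀))
  refine ⟨e₀, e₁, (he₁ e₁ le_rfl).2, fun f hf i => ?_⟩
  have k1 := (𝒮.sum_E_anti (w i) (he₀ i)).trans (he i).le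
  have k2 : ∑ t ∈ e₀.s, nrm 𝒮.φ (f.S (star (w i) * t * w i)) ^ 2 ≤
      ∑ t ∈ e₀.s, (2 * nrm 𝒮.φ (𝒮.E (star (w i) * t * w i)) ^ 2 + 2 * δ ^ 2) := by
    refine Finset.sum_le_sum fun t ht => ?_
    have a1 := (he₁ f hf).1 i t ht
    have a2 := nrm_add_le 𝒮.φ (f.S (star (w i) * t * w i) - 𝒮.E (star (w i) * t * w i))
      (𝒮.E (star (w i) * t * w i))
    rw [sub_add_cancel] at a2
    have a3 := pow_le_pow_left₀ (nrm_nonneg _ _) (a2.trans (add_le_add a1 le_rfl)) 2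
    nlinarith [sq_nonneg (δ - nrm 𝒮.φ (𝒮.E (star (w i) * t * w i)))]
  rw [Finset.sum_add_distrib, ← Finset.mul_sum, Finset.sum_const, nsmul_eq_mul] at k2
  linarith

end WSys

end Vale.Agent.P078
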