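import Vale.Agent.P078.GDefs
import Vale.Agent.P078.WM
import Vale.Agent.P078.Free

/-! Consequences of the link between a model and the algebra.  See PROOF.md, section GLink. -/

namespace Vale.Agent.P078

open Finset MeasureTheory
open scoped ComplexOrder BigOperators

universe u

variable {M : Type u} [CStarAlgebra M] [PartialOrder M] [StarOrderedRing M]

namespace Linked

variable {𝒮 : WSys M} {Ω V : Type u} [TopologicalSpace Ω] [CompactSpace Ω] [MeasurableSpace Ω]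
  [BorelSpace Ω] [DecidableEq V] {D : ℕ} {K : ℝ} {σ : Spec 𝒮 Ω} {𝓜 : Model Ω V D K} {x : M}
  {W : V → M}

omit [BorelSpace Ω] in
lemma exists_U (𝓜 : Model Ω V D K) (n : ℕ) : ∃ U : Finset V, ∀ s, 𝓜.B s n ⊆ U := by
  have h := (𝓜.ball_lc 𝓜.o n).range_finite
  refine ⟨h.toFinset.biUnion id, fun s u hu => Finset.mem_biUnion.2 ⟨𝓜.B s n, ?_, hu⟩⟩
  exact h.mem_toFinset.2 ⟨s, rfl⟩

lemma star_mul_eq {v a : M} (hv : 𝒮.IsG v) (ha : a ∈ 𝒮.A) :
    star v * a = star v * a * v * star v := by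
  have h1 : v * star v ∈ 𝒮.A := by simpa using hv.out 1 (one_mem _)
  have h2 : star v * (v * star v) = star v := by
    have := congrArg star hv.pi
    simpa [mul_assoc] using this
  rw [mul_assoc, mul_assoc, 𝒮.masa.comm ha h1, ← mul_assoc, h2]

omit [CompactSpace Ω] [BorelSpace Ω] in
lemma fs_star_mul (h : Linked σ 𝓜 x W) {s : Ω} {n : ℕ} {u : V} (hu : u ∈ 𝓜.B s n) {a : M}
    (ha : a ∈ 𝒮.A) (z : M) :
    σ.fs s (star (W u) * (a * z)) = σ.fs (𝓜.pt s u) a * σ.fs s (star (W u) * z) := by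
  obtain ⟨K', hK'⟩ := h.gb u
  rw [← mul_assoc, star_mul_eq hK'.toIsG ha, mul_assoc, σ.fs_mul s _ (hK'.inn a ha),
    h.pt_eq s n u hu]

omit [CompactSpace Ω] [BorelSpace Ω] in
lemma isClopen_mem_B (𝓜 : Model Ω V D K) (n : ℕ) (u : V) : IsClopen {s | u ∈ 𝓜.B s n} := by
  have := ((𝓜.ball_lc 𝓜.o n).comp fun S => u ∈ S).isClopen_fiber True
  simpa [Model.B] using this

open Classical in
omit [CompactSpace Ω] in
lemma separate_pair (h : Linked σ 𝓜 x W) (n : ℕ) {u u' : V} (hne : u ≠ u') {δ : ℝ} (hδ : 0 < δ) :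
    ∀ᶠ e : Part 𝒮.A in Filter.atTop, ∀ τ : Ω → e.s, IsLocallyConstant τ →
      (∀ s (f : e.s), σ.fs s f = if τ s = f then 1 else 0) →
      𝓜.μ.real {s | (u ∈ 𝓜.B s n ∧ u' ∈ 𝓜.B s n) ∧ τ (𝓜.pt s u) = τ (𝓜.pt s u')} ≤ δ := by
  obtain ⟨K₁, h₁⟩ := h.gb u
  obtain ⟨K₂, h₂⟩ := h.gb u'
  have hC : IsClopen {s | u ∈ 𝓜.B s n ∧ u' ∈ 𝓜.B s n} :=
    (isClopen_mem_B 𝓜 n u).inter (isClopen_mem_B 𝓜 n u')
  obtain ⟨c, hcA, -, hcf⟩ := σ.exists_proj hC
  have h0 : c * 𝒮.E (star (W u') * W u) = 0 := by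
    refine σ.inj _ (mul_mem hcA (𝒮.E_mem _)) fun s => ?_
    rw [σ.fs_mul s c hcA, σ.fs_E, hcf]
    split_ifs with hs
    · rw [h.orth s n u' hs.2 u hs.1 hne.symm, mul_zero]
    · rw [zero_mul]
  have h1 : star (W u) * 𝒮.E (W u * c * star (W u')) = 0 := by
    rw [star_mul_eq h₁.toIsG (𝒮.E_mem _), ← h₁.toIsG.E_conj]
    have : star (W u) * (W u * c * star (W u')) * W u =
        (star (W u) * W u * c) * (star (W u') * W u) := by simp only [mul_assoc]
    rw [this, 𝒮.E_mul_left (mul_mem h₁.toIsG.src.2 hcA), mul_assoc _ c, h0]; simp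
  have h2 := 𝒮.wlim_S (W u * c * star (W u')) 𝒮.φ rfl (star (W u)) (W u')
  rw [h1, zero_mul, map_zero] at h2
  have h3 := (Complex.continuous_re.tendsto 0).comp h2
  filter_upwards [h3.eventually (ge_mem_nhds (by simpa using hδ))] with e he τ hτ hτf
  have hC' : IsClopen {s | (u ∈ 𝓜.B s n ∧ u' ∈ 𝓜.B s n) ∧ τ (𝓜.pt s u) = τ (𝓜.pt s u')} := by
    have := ((hτ.comp_continuous (𝓜.pt_cont u)).comp₂ (hτ.comp_continuous (𝓜.pt_cont u'))
      fun a b => a = b).isClopen_fiber True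
    have h6 : IsClopen {s | τ (𝓜.pt s u) = τ (𝓜.pt s u')} := by simpa using this
    exact hC.inter h6
  have h4 := σ.φ_proj hC' (p := star (W u) * e.S (W u * c * star (W u')) * W u') fun s => by
    have e1 : star (W u) * e.S (W u * c * star (W u')) * W u' =
        ∑ f : e.s, (star (W u) * f * W u) * (c * (star (W u') * f * W u')) := by
      rw [Part.S_eq, Finset.mul_sum, Finset.sum_mul]
      exact Finset.sum_congr rfl fun f _ => by simp only [mul_assoc]
    rw [e1, map_sum]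
    have e2 : ∀ f : e.s, σ.fs s ((star (W u) * f * W u) * (c * (star (W u') * f * W u'))) =
        σ.fs s (star (W u) * f * W u) * (σ.fs s c * σ.fs s (star (W u') * f * W u')) := fun f => by
      rw [σ.fs_mul s _ (h₁.inn _ (e.mem _ f.2)), σ.fs_mul s c hcA]
    simp only [e2, hcf, Set.mem_ofPred_eq]
    by_cases hs : u ∈ 𝓜.B s n ∧ u' ∈ 𝓜.B s n
    · simp only [← h.pt_eq s n u hs.1, ← h.pt_eq s n u' hs.2, hτf, hs, and_self, if_true, one_mul,
        true_and, ite_mul, zero_mul]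
      rw [Finset.sum_ite_eq]
      simp [eq_comm]
    · simp [hs]
  rw [h.μ_eq]
  have h5 := congrArg Complex.re h4
  rw [Complex.ofReal_re] at h5
  exact h5 ▸ he

open Classical in
/-- fine partitions separate the balls off a small set -/
theorem separate (h : Linked σ 𝓜 x W) (n : ℕ) {δ : ℝ} (hδ : 0 < δ) :
    ∃ e₀ : Part 𝒮.A, ∀ e, e₀ ≤ e → ∀ τ : Ω → e.s, IsLocallyConstant τ →
      (∀ s (f : e.s), σ.fs s f = if τ s = f then 1 else 0) → 𝓜.μ.real (𝓜.Bad τ n) ≤ δ := by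
  obtain ⟨U, hU⟩ := exists_U 𝓜 n
  have := Part.directed 𝒮.masa
  have := 𝓜.prob
  have hη : 0 < δ / (U.offDiag.card + 1) := by positivity
  have h1 := (Filter.eventually_all_finset U.offDiag).2 fun z hz =>
    h.separate_pair n (Finset.mem_offDiag.1 hz).2.2 hη
  obtain ⟨e₀, he₀⟩ := Filter.eventually_atTop.1 h1
  refine ⟨e₀, fun e he τ hτ hτf => ?_⟩
  have h2 : 𝓜.Bad τ n ⊆ ⋃ z ∈ U.offDiag,
      {s | (z.1 ∈ 𝓜.B s n ∧ z.2 ∈ 𝓜.B s n) ∧ τ (𝓜.pt s z.1) = τ (𝓜.pt s z.2)} := by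
    intro s hs
    simp only [Model.Bad, Set.InjOn, Set.mem_ofPred_eq, not_forall] at hs
    obtain ⟨a, ha, b, hb, hab, hne⟩ := hs
    simp only [Set.mem_iUnion]
    exact ⟨(a, b), Finset.mem_offDiag.2 ⟨hU s ha, hU s hb, hne⟩, ⟨ha, hb⟩, hab⟩
  refine (measureReal_mono h2 (measure_ne_top _ _)).trans ((measureReal_biUnion_finset_le _ _).trans ?_)
  refine (Finset.sum_le_card_nsmul _ _ _ fun z hz => he₀ e he z hz τ hτ hτf).trans ?_
  rw [nsmul_eq_mul, mul_div_assoc', div_le_iff₀ (by positivity)]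
  nlinarith

lemma sum_ind {r : ℕ} [NeZero r] (a b : St r) (c : ℂ) :
    (∑ i : ZMod r, (if a = some i then (1 : ℂ) else 0) * (if b = some i then 1 else 0)) * c =
      if a = b ∧ a ≠ none then c else 0 := by
  rcases a with _ | a
  · simp
  · rcases b with _ | b
    · simp
    · simp [eq_comm]

omit [CompactSpace Ω] [BorelSpace Ω] in
lemma fs_pow (h : Linked σ 𝓜 x W) {r : ℕ} [NeZero r] {β : Ω → St r}
    {p : St r → M} (hp : ∀ i, p i ∈ 𝒮.A) (hf : ∀ s i, σ.fs s (p i) = if β s = i then 1 else 0)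
    (s : Ω) (k : ℕ) : ∀ n, ∀ u ∈ 𝓜.B s n,
      σ.fs s (star (W u) * (∑ i : ZMod r, p (some i) * x * p (some i)) ^ k) =
        walk (𝓜.net s) (𝓜.patt β s) 𝓜.o k u := by
  induction k with
  | zero =>
    intro n u hu
    rw [pow_zero]
    simp only [walk]
    split_ifs with ho
    · rw [ho, h.W_o, star_one, one_mul, σ.fs_one]
    · rw [← h.W_o]
      exact h.orth s n u hu _ ((𝓜.net s).mem_ball_self _ _) ho
  | succ k ih =>
    intro n u hu
    obtain ⟨Y, hY⟩ : ∃ Y, Y = (∑ i : ZMod r, p (some i) * x * p (some i)) ^ k := ⟨_, rfl⟩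
    rw [pow_succ', ← hY, Finset.sum_mul, Finset.mul_sum, map_sum]
    simp only [walk]
    rw [← hY] at ih
    have hn : ∀ u' ∈ (𝓜.net s).nbr u, u' ∈ 𝓜.B s (n + 1) := fun u' hu' =>
      (𝓜.net s).mem_ball_succ.2 (Or.inr ⟨u, hu, hu'⟩)
    have e1 : ∀ i : ZMod r, σ.fs s (star (W u) * (p (some i) * x * p (some i) * Y)) =
        ∑ u' ∈ (𝓜.net s).nbr u, (if β (𝓜.pt s u) = some i then 1 else 0) *
          (if β (𝓜.pt s u') = some i then 1 else 0) *
          ((𝓜.net s).x u u' * walk (𝓜.net s) (𝓜.patt β s) 𝓜.o k u') := fun i => by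
      rw [mul_assoc, mul_assoc, h.fs_star_mul hu (hp _), ← mul_assoc, h.res s n u hu, hf,
        Finset.mul_sum]
      refine Finset.sum_congr rfl fun u' hu' => ?_
      rw [h.fs_star_mul (hn u' hu') (hp _), hf, ih _ u' (hn u' hu')]
      ring
    simp only [e1]
    rw [Finset.sum_comm]
    refine Finset.sum_congr rfl fun u' _ => ?_
    rw [← Finset.sum_mul, ← mul_assoc, pinch]
    congr 1
    exact sum_ind (β (𝓜.pt s u)) (β (𝓜.pt s u')) _

omit [CompactSpace Ω] [BorelSpace Ω] in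
/-- `fs s ((W u)* X ^ k) = walk k u` for `u` in a ball -/
theorem moment (h : Linked σ 𝓜 x W) {r : ℕ} [NeZero r] {β : Ω → St r} (_hβ : IsLocallyConstant β)
    {p : St r → M} (hp : ∀ i, p i ∈ 𝒮.A) (hf : ∀ s i, σ.fs s (p i) = if β s = i then 1 else 0)
    (k : ℕ) : (𝒮.φ ((∑ i : ZMod r, p (some i) * x * p (some i)) ^ k)).re ≤
      ∫ s, ‖walk (𝓜.net s) (𝓜.patt β s) 𝓜.o k 𝓜.o‖ ∂𝓜.μ := by
  rw [σ.integral, h.μ_eq]
  refine (Complex.re_le_norm _).trans ((norm_integral_le_integral_norm _).trans (le_of_eq ?_))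
  congr 1
  funext s
  rw [← h.fs_pow hp hf s k 0 _ ((𝓜.net s).mem_ball_self _ _), h.W_o, star_one, one_mul]

lemma nrm_S_sq (𝒮 : WSys M) (e : Part 𝒮.A) (b : M) :
    ∑ m : e.s, nrm 𝒮.φ ((m : M) * b * m) ^ 2 = nrm 𝒮.φ (e.S b) ^ 2 := by
  rw [nrm_sq, Part.S_eq, star_sum, Finset.sum_mul_sum, map_sum, Complex.re_sum]
  refine Finset.sum_congr rfl fun m _ => ?_
  rw [nrm_sq, Finset.sum_eq_single m]
  · intro m' _ hm
    have := e.orth _ m.2 _ m'.2 fun h => hm (Subtype.ext h.symm)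
    rw [star_mul, star_mul, (e.proj _ m.2).isSelfAdjoint.star_eq]
    simp only [mul_assoc]
    rw [← mul_assoc (m : M) (m' : M), this]; simp
  · simp

open Classical in
/-- `free_bound` and `weak_mixing` -/
theorem free (h : Linked σ 𝓜 x W) {y : M} (hy : IsSelfAdjoint y) (hRB : RB 𝒮.φ y)
    (hperp : 𝒮.Perp y) (r : ℕ) [NeZero r] (k R : ℕ) {δ : ℝ} (hδ : 0 < δ) :
    ∃ e₀ : Part 𝒮.A, ∀ e, e₀ ≤ e → ∀ τ : Ω → e.s, IsLocallyConstant τ →
      (∀ s (f : e.s), σ.fs s f = if τ s = f then 1 else 0) →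
      ∀ (Λ : Type) [Fintype Λ] [Nonempty Λ] (col : (e.s → Λ) → Ω → St r),
        (∀ l, IsLocallyConstant (col l)) →
        (∀ s l l', (∀ u ∈ 𝓜.B s R, l (τ (𝓜.pt s u)) = l' (τ (𝓜.pt s u))) → col l s = col l' s) →
        ∀ i : ZMod r, (∀ s, (𝔼 l : e.s → Λ, if col l s = some i then (1 : ℝ) else 0) ≤ 1 / r) →
        ∀ p : (e.s → Λ) → M, (∀ l, p l ∈ 𝒮.A) →
          (∀ l s, σ.fs s (p l) = if col l s = some i then 1 else 0) →
          (𝔼 l : e.s → Λ, (𝒮.φ ((p l * y * p l) ^ (2 * k + 2))).re) ≤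
            ‖y‖ ^ 2 * (2 * ‖y‖ / √r) ^ (2 * k) + δ := by
  obtain ⟨U, hU⟩ := exists_U 𝓜 R
  choose Kf hKf using h.gb
  obtain ⟨K', hK'0, hK'⟩ : ∃ K' > 0, ∀ u : U, 𝒮.IsGb K' (W u) := by
    refine ⟨1 + ∑ u ∈ U, |Kf u|, by positivity, fun u => (hKf u).mono ?_⟩
    have := Finset.single_le_sum (f := fun u => |Kf u|) (fun _ _ => abs_nonneg _) u.2
    linarith [le_abs_self (Kf u)]
  obtain ⟨ω, hω, hfree⟩ := 𝒮.free_bound hy hRB (Nat.pos_of_ne_zero (NeZero.ne r)) k
    (Fintype.card U) hδ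
  obtain ⟨e₀, e₁, h01, hwm⟩ := 𝒮.weak_mixing (I := U × U)
    (w := fun z => W z.1 * y * star (W z.2))
    (fun z => hperp.conj (hKf _).toIsG (hKf _).toIsG) (show 0 < ω / K' by positivity)
  refine ⟨e₁, fun e he τ hτ hτf Λ _ _ col hcl hdep i hprob p hpA hpf => ?_⟩
  let lab : Ω → (U → Option e.s) × ((e.s → Λ) → St r) := fun s =>
    (fun u => if u.1 ∈ 𝓜.B s R then some (τ (𝓜.pt s u)) else none, fun l => col l s)
  have hlab : IsLocallyConstant (Set.rangeFactorization lab) := by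
    rw [IsLocallyConstant.iff_eventually_eq]
    intro s
    have a1 := (𝓜.ball_lc 𝓜.o R).eventually_eq s
    have a2 := Filter.eventually_all.2 fun u : U =>
      (hτ.comp_continuous (𝓜.pt_cont u)).eventually_eq s
    have a3 := Filter.eventually_all.2 fun l => (hcl l).eventually_eq s
    filter_upwards [a1, a2, a3] with t b1 b2 b3
    refine Subtype.ext (Prod.ext (funext fun u => ?_) (funext b3))
    have b4 : τ (𝓜.pt t u) = τ (𝓜.pt s u) := b2 u
    have b5 : 𝓜.B t R = 𝓜.B s R := b1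
    simp only [lab, Set.rangeFactorization_coe, b5, b4]
  have : Fintype (Set.range lab) := Fintype.ofFinite _
  obtain ⟨f, hf, hff⟩ := σ.exists_partn hlab
  choose π hπ hπ' using fun m : e.s => Part.le_def.1 (h01.trans he) m m.2
  have hproj : ∀ (u : U) (t : M), t ∈ 𝒮.A → IsStarProjection t →
      star (W u) * t * W u ∈ 𝒮.A ∧ IsStarProjection (star (W u) * t * W u) := fun u t ht ht' =>
    ⟨(hKf u).inn t ht, by
      rw [IsIdempotentElem, ← (hKf u).toIsG.conj_mul ht, ht'.isIdempotentElem.eq],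
      ht'.isSelfAdjoint.conjugate' _⟩
  have hsub : ∀ (a : Set.range lab) (u : U) (m : e.s), a.1.1 u = some m → ∀ t ∈ 𝒮.A, t * m = m →
      star (W u) * t * W u * f a = f a := fun a u m hj t ht htm => by
    refine σ.eq_of_fs (mul_mem ((hKf u).inn t ht) (hf.1 a).1) (hf.1 a).1 fun s => ?_
    rw [σ.fs_mul s _ ((hKf u).inn t ht), hff]
    split_ifs with hs
    · subst hs
      simp only [lab, Set.rangeFactorization_coe] at hj
      split_ifs at hj with hu
      have b1 : σ.fs (𝓜.pt s u) m = 1 := by rw [hτf, if_pos (Option.some.inj hj)]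
      have b2 := σ.fs_mul (𝓜.pt s u) t ht m
      rw [htm, b1, mul_one] at b2
      rw [← h.pt_eq s R u hu, ← b2, mul_one]
    · rw [mul_zero]
  have key := hfree U e.s e₀.s (Set.range lab) Λ le_rfl f (fun a => a.1.1)
    (fun a l => a.1.2 l = some i) (fun m => ⟨π m, hπ m⟩) (fun u t => star (W u) * t * W u)
    (fun u m => star (W u) * m * W u) hf
    (fun u t => hproj u t (e₀.mem _ t.2) (e₀.proj _ t.2))
    (fun u m => hproj u m (e.mem _ m.2) (e.proj _ m.2))
    (fun a u m hj => ⟨hsub a u m hj m (e.mem _ m.2) (e.proj _ m.2).isIdempotentElem.eq,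
      hsub a u m hj (π m) (e₀.mem _ (hπ m)) (hπ' m)⟩)
    (by
      rintro ⟨_, s, rfl⟩ l l' hl
      have : col l s = col l' s := hdep s l l' fun u hu =>
        hl ⟨u, hU s hu⟩ _ (by simp only [lab, if_pos hu])
      simp only [lab, this])
    (by
      rintro ⟨_, s, rfl⟩
      convert hprob s)
    (by
      intro u u'
      have b1 := hwm e he (u, u')
      rw [le_div_iff₀ hK'0, Finset.sum_mul, ← Finset.sum_coe_sort e₀.s] at b1
      refine le_trans (Finset.sum_le_sum fun t _ => ?_) b1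
      rw [← nrm_S_sq 𝒮 e, Finset.sum_mul]
      refine Finset.sum_le_sum fun m _ => ?_
      rw [mul_comm]
      refine le_trans (le_of_eq ?_) ((hK' u').nrm_conj_sq_le _)
      simp only [star_mul, star_star, hy.star_eq, mul_assoc])
  refine le_trans (le_of_eq ?_) key
  refine Finset.expect_congr rfl fun l _ => ?_
  have : p l = ∑ a : Set.range lab, if a.1.2 l = some i then f a else 0 := by
    refine σ.eq_of_fs (hpA l) (sum_mem fun a _ => ?_) fun s => ?_
    · split_ifs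
      · exact (hf.1 a).1
      · exact zero_mem _
    · rw [map_sum, hpf, Finset.sum_eq_single (Set.rangeFactorization lab s)]
      · by_cases hc : col l s = some i
        · have hc' : (Set.rangeFactorization lab s).1.2 l = some i := hc
          rw [if_pos hc, if_pos hc', hff, if_pos rfl]
        · have hc' : ¬ (Set.rangeFactorization lab s).1.2 l = some i := hc
          rw [if_neg hc, if_neg hc', map_zero]
      · intro a _ ha
        split_ifs
        · rw [hff, if_neg (Ne.symm ha)]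
        · rw [map_zero]
      · simp
  rw [this]
  congr!

end Linked

end Vale.Agent.P078
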