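import Vale.Agent.P078.GNet

/-! Mass transport and the model.  See PROOF.md, section GModel. -/

namespace Vale.Agent.P078

open Finset MeasureTheory
open scoped ComplexOrder

universe u

variable {M : Type u} [CStarAlgebra M] [PartialOrder M] [StarOrderedRing M]

namespace GModelAux

lemma cont_ite {Ω : Type u} [TopologicalSpace Ω] {p : Ω → Prop} [DecidablePred p]
    (hp : IsClopen {s | p s}) {g : Ω → ℝ} (hg : Continuous g) :
    Continuous fun s => if p s then g s else 0 := by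
  refine Continuous.if ?_ hg continuous_const
  intro a ha
  rw [hp.frontier_eq] at ha
  exact ha.elim

lemma integ {Ω : Type u} [TopologicalSpace Ω] [CompactSpace Ω] [MeasurableSpace Ω] [BorelSpace Ω]
    (μ : Measure Ω) [IsFiniteMeasure μ] {g : Ω → ℝ} (hg : Continuous g) : Integrable g μ :=
  (BoundedContinuousFunction.mkOfCompact ⟨g, hg⟩).integrable μ

end GModelAux

namespace GData

variable {𝒮 : WSys M} {Γ : Type u} [Fintype Γ] [DecidableEq Γ] {K : ℝ} (𝒢 : GData 𝒮 Γ K)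
  {Ω : Type u} [TopologicalSpace Ω] [CompactSpace Ω] [MeasurableSpace Ω] [BorelSpace Ω]
  (σ : Spec 𝒮 Ω)

open Classical in
omit [DecidableEq Γ] in
/-- change of variables along one word: `φ a = φ (W (W* a W) W*) = φ (W* a W * rn W)` for `a ∈ A`
supported under `W W*` -/
lemma transport (u : List Γ) (f : Ω → ℝ) (hf : Continuous f)
    (hs : ∀ t, f t ≠ 0 → 𝒢.Eqv σ t (𝒢.rev u) (𝒢.rev u)) :
    ∫ t, f t ∂σ.μ = ∫ s, (if 𝒢.Eqv σ s u u then
      (σ.fs s (𝒮.rn (𝒢.W u))).re * f (𝒢.pt σ s u) else 0) ∂σ.μ := by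
  obtain ⟨a, ha, hfa⟩ := σ.surj (fun t => (f t : ℂ)) (Complex.continuous_ofReal.comp hf)
  have hW := 𝒢.W_gb u
  have hb : star (𝒢.W u) * a * 𝒢.W u ∈ 𝒮.A := hW.inn a ha
  have hP : 𝒢.W u * star (𝒢.W u) ∈ 𝒮.A := by
    have := hW.out 1 (one_mem _)
    rwa [mul_one] at this
  have e1 : a = 𝒢.W u * (star (𝒢.W u) * a * 𝒢.W u) * star (𝒢.W u) := by
    refine σ.eq_of_fs ha (hW.out _ hb) fun t => ?_
    have e : 𝒢.W u * (star (𝒢.W u) * a * 𝒢.W u) * star (𝒢.W u) =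
        (𝒢.W u * star (𝒢.W u)) * (a * (𝒢.W u * star (𝒢.W u))) := by
      simp only [mul_assoc]
    rw [e, σ.fs_mul t _ hP, σ.fs_mul t _ ha, hfa]
    by_cases h0 : f t = 0
    · simp [h0]
    · have h1 := eqv_self_iff.1 (hs t h0)
      rw [𝒢.W_rev, star_star] at h1
      rw [h1, mul_one, one_mul]
  have e2 : 𝒮.φ a = 𝒮.φ ((star (𝒢.W u) * a * 𝒢.W u) * 𝒮.rn (𝒢.W u)) := by
    rw [← hW.rn_spec hb, ← e1]
  rw [σ.integral, σ.integral] at e2
  have e3 : ∀ s, σ.fs s ((star (𝒢.W u) * a * 𝒢.W u) * 𝒮.rn (𝒢.W u)) =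
      ((if 𝒢.Eqv σ s u u then (σ.fs s (𝒮.rn (𝒢.W u))).re * f (𝒢.pt σ s u) else 0 : ℝ) : ℂ) := by
    intro s
    rw [σ.fs_mul s _ hb]
    split_ifs with h
    · rw [← h.fs_pt, hfa]
      have h0 : 0 ≤ σ.fs s (𝒮.rn (𝒢.W u)) := map_nonneg (σ.fs s) hW.rn_nonneg
      have h1 : σ.fs s (𝒮.rn (𝒢.W u)) = ((σ.fs s (𝒮.rn (𝒢.W u))).re : ℂ) :=
        (Complex.eq_re_of_ofReal_le (r := 0) (by simpa using h0))
      rw [h1]
      push_cast
      simp only [Complex.ofReal_re]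
      ring
    · rw [mul_assoc, fs_eq_zero_of_not h]
      simp
  simp only [hfa, e3, integral_complex_ofReal] at e2
  exact_mod_cast e2

omit [DecidableEq Γ] [CompactSpace Ω] [BorelSpace Ω] in
lemma pt_pt_rev {s : Ω} {u : List Γ} (h : 𝒢.Eqv σ s u u) :
    𝒢.pt σ (𝒢.pt σ s u) (𝒢.rev u) = s := by
  have h1 := h.rev_append
  rw [← h1.left.pt_append, h1.pt_eq, pt_nil]

omit [DecidableEq Γ] [CompactSpace Ω] [BorelSpace Ω] in
lemma eqv_rev_pt {s : Ω} {u : List Γ} (h : 𝒢.Eqv σ s u u) :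
    𝒢.Eqv σ (𝒢.pt σ s u) (𝒢.rev u) (𝒢.rev u) := by
  have h1 := h.rev_append.left
  unfold Eqv at h1 ⊢
  rwa [h.ip_pt]

omit [CompactSpace Ω] [BorelSpace Ω] in
lemma net_ball_lc (n : ℕ) : IsLocallyConstant fun s => (𝒢.net σ s).ball [] n := by
  induction n with
  | zero => exact IsLocallyConstant.const _
  | succ n ih =>
    rw [IsLocallyConstant.iff_eventually_eq]
    intro s
    have h1 := ih.eventually_eq s
    have h2 : ∀ᶠ y in nhds s, ∀ a ∈ (𝒢.net σ s).ball [] n,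
        (𝒢.net σ y).nbr a = (𝒢.net σ s).nbr a :=
      (Filter.eventually_all_finset _).2 fun a _ => (𝒢.nbr_lc σ a).eventually_eq s
    filter_upwards [h1, h2] with y k1 k2
    simp only [Net.ball, k1]
    rw [Finset.biUnion_congr rfl k2]

omit [BorelSpace Ω] in
lemma exists_ball_bound (n : ℕ) :
    ∃ U : Finset (List Γ), ∀ s, (𝒢.net σ s).ball [] n ⊆ U := by
  have h := (𝒢.net_ball_lc σ n).range_finite
  refine ⟨h.toFinset.biUnion id, fun s => ?_⟩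
  exact Finset.subset_biUnion_of_mem id (h.mem_toFinset.2 ⟨s, rfl⟩)

omit [DecidableEq Γ] [BorelSpace Ω] in
lemma inv_lc (v : List Γ) : IsLocallyConstant fun s => 𝒢.rep σ (𝒢.pt σ s v) (𝒢.rev v) :=
  (rep_lc (𝒢.rev v)).comp_continuous (pt_cont v)

omit [CompactSpace Ω] [BorelSpace Ω] in
lemma swap_iff {n : ℕ} {s : Ω} {u u' : List Γ} (h : 𝒢.Eqv σ s u u) :
    (u' ∈ (𝒢.net σ (𝒢.pt σ s u)).ball [] n ∧
      𝒢.rep σ (𝒢.pt σ (𝒢.pt σ s u) u') (𝒢.rev u') = u) ↔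
    (u ∈ (𝒢.net σ s).ball [] n ∧ u' = 𝒢.rep σ (𝒢.pt σ s u) (𝒢.rev u)) := by
  constructor
  · rintro ⟨h1, h2⟩
    have h3 := inv_mem h1
    have h4 := inv_inv (𝒢.vert_of_ball σ h1)
    rw [h2] at h3 h4
    have h5 := (𝒢.vert_of_ball σ h3).1
    have h6 : 𝒢.pt σ (𝒢.pt σ s u) u' = s := by
      rw [← 𝒢.pt_pt_rev σ h5, h4.1, 𝒢.pt_pt_rev σ h]
    rw [h6] at h3
    exact ⟨h3, h4.2.symm⟩
  · rintro ⟨h1, rfl⟩
    have h4 := inv_inv (𝒢.vert_of_ball σ h1)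
    refine ⟨inv_mem h1, ?_⟩
    rw [h4.1, h4.2]

theorem mtp (n : ℕ) (F : Ω → List Γ → ℝ) (hF : ∀ v, Continuous fun s => F s v) :
    ∫ s, ∑ u ∈ (𝒢.net σ s).ball [] n, F s u ∂σ.μ =
      ∫ s, ∑ u ∈ (𝒢.net σ s).ball [] n, (𝒢.net σ s).w u *
        F (𝒢.pt σ s u) (𝒢.rep σ (𝒢.pt σ s u) (𝒢.rev u)) ∂σ.μ := by
  classical
  have := σ.prob
  obtain ⟨U, hU⟩ := 𝒢.exists_ball_bound σ n
  set f : List Γ → List Γ → Ω → ℝ := fun u u' t =>
    if u' ∈ (𝒢.net σ t).ball [] n ∧ 𝒢.rep σ (𝒢.pt σ t u') (𝒢.rev u') = u then F t u' else 0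
    with hf
  have hfc : ∀ u u', Continuous (f u u') := by
    intro u u'
    refine GModelAux.cont_ite ?_ (hF u')
    have h1 : IsClopen {t | u' ∈ (𝒢.net σ t).ball [] n} :=
      ⟨⟨𝒢.net_ball_lc σ n {B | u' ∈ B}ᶜ⟩, 𝒢.net_ball_lc σ n {B | u' ∈ B}⟩
    exact h1.inter ((𝒢.inv_lc σ u').isClopen_fiber u)
  set g : List Γ → List Γ → Ω → ℝ := fun u u' s =>
    if 𝒢.Eqv σ s u u then (σ.fs s (𝒮.rn (𝒢.W u))).re * f u u' (𝒢.pt σ s u) else 0 with hg
  have hgc : ∀ u u', Continuous (g u u') := by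
    intro u u'
    refine GModelAux.cont_ite (isClopen_eqv u u) ?_
    exact (Complex.continuous_re.comp (σ.cont _)).mul ((hfc u u').comp (pt_cont u))
  have hfg : ∀ u u', ∫ t, f u u' t ∂σ.μ = ∫ s, g u u' s ∂σ.μ := by
    intro u u'
    refine 𝒢.transport σ u (f u u') (hfc u u') fun t ht => ?_
    have h1 : u' ∈ (𝒢.net σ t).ball [] n ∧ 𝒢.rep σ (𝒢.pt σ t u') (𝒢.rev u') = u := by
      by_contra h
      exact ht (if_neg h)
    have h2 := 𝒢.vert_of_ball σ h1.1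
    have h3 := (Φ_inv h2).1.1
    have h4 := (inv_inv h2).1
    rw [h1.2] at h3 h4
    have h5 := 𝒢.eqv_rev_pt σ h3
    rwa [h4] at h5
  have e1 : ∀ t, ∑ u ∈ (𝒢.net σ t).ball [] n, F t u = ∑ u ∈ U, ∑ u' ∈ U, f u u' t := by
    intro t
    rw [Finset.sum_comm, ← Finset.sum_subset (hU t)]
    · refine Finset.sum_congr rfl fun u' hu' => ?_
      simp only [hf, hu', true_and, Finset.sum_ite_eq]
      rw [if_pos (hU _ (inv_mem hu'))]
    · intro u' _ hu'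
      simp only [hf, hu', false_and, if_false, Finset.sum_const_zero]
  have e2 : ∀ s, ∑ u ∈ (𝒢.net σ s).ball [] n, (𝒢.net σ s).w u *
      F (𝒢.pt σ s u) (𝒢.rep σ (𝒢.pt σ s u) (𝒢.rev u)) = ∑ u ∈ U, ∑ u' ∈ U, g u u' s := by
    intro s
    rw [← Finset.sum_subset (hU s)]
    · refine Finset.sum_congr rfl fun u hu => ?_
      have h2 := 𝒢.vert_of_ball σ hu
      simp only [hg, hf, h2.1, if_true, 𝒢.swap_iff σ h2.1, hu, true_and, ← Finset.mul_sum,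
        Finset.sum_ite_eq']
      rw [if_pos (hU _ (inv_mem hu))]
      congr 1
      exact if_pos h2
    · intro u _ hu
      refine Finset.sum_eq_zero fun u' _ => ?_
      simp only [hg, hf]
      split_ifs with h1 h2
      · exact (hu ((𝒢.swap_iff σ h1).1 h2).1).elim
      · exact mul_zero _
      · rfl
  simp only [e1, e2]
  rw [integral_finsetSum _ fun u _ => integrable_finsetSum _ fun u' _ =>
      GModelAux.integ _ (hfc u u'),
    integral_finsetSum _ fun u _ => integrable_finsetSum _ fun u' _ =>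
      GModelAux.integ _ (hgc u u')]
  refine Finset.sum_congr rfl fun u _ => ?_
  rw [integral_finsetSum _ fun u' _ => GModelAux.integ _ (hfc u u'),
    integral_finsetSum _ fun u' _ => GModelAux.integ _ (hgc u u')]
  exact Finset.sum_congr rfl fun u' _ => hfg u u'

theorem exists_model :
    ∃ 𝓜 : Model Ω (List Γ) (Fintype.card Γ) K, Linked σ 𝓜 𝒢.x 𝒢.W := by
  refine ⟨{
    μ := σ.μ
    prob := σ.prob
    net := 𝒢.net σ
    o := []
    pt := 𝒢.pt σ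
    Φ := fun s u z => 𝒢.rep σ s (z ++ u)
    inv := fun s u => 𝒢.rep σ (𝒢.pt σ s u) (𝒢.rev u)
    nbr_lc := 𝒢.nbr_lc σ
    x_cont := 𝒢.xm_cont σ
    w_cont := 𝒢.wt_cont σ
    pt_cont := fun v => pt_cont v
    inv_lc := 𝒢.inv_lc σ
    w_root := fun s => ?_
    pt_root := fun s => pt_nil s
    Φ_root := fun s n u hu => (𝒢.vert_of_ball σ hu).2
    Φ_inj := fun s n u hu m z hz z' hz' h => Φ_inj (𝒢.vert_of_ball σ hu)
      (𝒢.vert_of_ball σ hz) (𝒢.vert_of_ball σ hz') h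
    Φ_nbr := fun s n u hu m z hz => Φ_nbr (𝒢.vert_of_ball σ hu) (𝒢.vert_of_ball σ hz)
    Φ_pt := fun s n u hu m z hz => Φ_pt (𝒢.vert_of_ball σ hu) (𝒢.vert_of_ball σ hz)
    Φ_w := fun s n u hu m z hz => Φ_w (𝒢.vert_of_ball σ hu) (𝒢.vert_of_ball σ hz)
    Φ_x := fun s n u hu => ?_
    inv_mem := fun s n u hu => inv_mem hu
    Φ_inv := fun s n u hu => (Φ_inv (𝒢.vert_of_ball σ hu)).2
    mtp := 𝒢.mtp σ
    approx := fun f hf ε hε => σ.approx f hf hε }, ?_⟩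
  · change 𝒢.wt σ s [] = 1
    rw [wt, if_pos vert_nil, W_nil, WSys.rn_one, σ.fs_one, Complex.one_re]
  · obtain ⟨g, hg, hx⟩ := Φ_x (𝒢.vert_of_ball σ hu)
    exact ⟨g, hg, fun m a ha b hb => hx a b (𝒢.vert_of_ball σ ha) (𝒢.vert_of_ball σ hb)⟩
  · refine ⟨rfl, rfl, fun u => ⟨_, 𝒢.W_gb u⟩, fun s n u hu m => ?_,
      fun s n u hu u' hu' hne => ?_, fun s n u hu z => ?_⟩
    · exact (𝒢.vert_of_ball σ hu).1.fs_pt m
    · by_contra h
      exact hne ((𝒢.vert_of_ball σ hu).eq_of_eqv (𝒢.vert_of_ball σ hu') h)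
    · exact 𝒢.resolution σ (𝒢.vert_of_ball σ hu) z

end GData

end Vale.Agent.P078
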