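import Vale.Agent.P078.ALP
import Vale.Agent.P078.Decomp
import Vale.Agent.P078.GModel
import Vale.Agent.P078.GLink
import Vale.Agent.P078.CoreQ

/-! Paving for a MASA in the centraliser of a faithful normal state.
See PROOF.md, section Core. -/

namespace Vale.Agent.P078

open Finset MeasureTheory
open scoped ComplexOrder BigOperators

universe u

namespace CoreAux

section
variable {M : Type u} [CStarAlgebra M]

lemma block_pow {I : Type*} [Fintype I] {p : I → M} (h : ∀ i j, i ≠ j → p i * p j = 0) (y : M)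
    (n : ℕ) : (∑ i, p i * y * p i) ^ (n + 1) = ∑ i, (p i * y * p i) ^ (n + 1) := by
  induction n with
  | zero => simp
  | succ n ih =>
    rw [pow_succ, ih, Finset.sum_mul_sum]
    refine Finset.sum_congr rfl fun i _ => ?_
    rw [Finset.sum_eq_single i]
    · rw [← pow_succ]
    · intro j _ hj
      rw [pow_succ]
      simp only [mul_assoc]
      rw [← mul_assoc (p i) (p j), h i j (Ne.symm hj)]; simp
    · simp

lemma split {A : StarSubalgebra ℂ M} (hA : IsMasa A) {r : ℕ} [NeZero r] {p : St r → M}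
    (hp : IsPartn A p) {a : M} (ha : a ∈ A) (x x₀ y : M) :
    ∑ i, p i * x * p i - a = (∑ i : ZMod r, p (some i) * x₀ * p (some i)) +
      (∑ i : ZMod r, p (some i) * y * p (some i)) +
      ((∑ i, p i * (x - a - x₀ - y) * p i) + p none * (x₀ + y) * p none) := by
  have h1 : ∑ i, p i * a * p i = a := by
    have : ∀ i, p i * a * p i = a * p i := fun i => by
      rw [hA.comm (hp.1 i).1 ha, mul_assoc, (hp.1 i).2.isIdempotentElem.eq]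
    simp only [this, ← Finset.mul_sum, hp.2.2, mul_one]
  have h2 : ∑ i, p i * (x - a - x₀ - y) * p i = ∑ i, p i * x * p i - a -
      ∑ i, p i * x₀ * p i - ∑ i, p i * y * p i := by
    simp only [mul_sub, sub_mul, Finset.sum_sub_distrib, h1]
  rw [h2, Fintype.sum_option (fun i => p i * x₀ * p i), Fintype.sum_option (fun i => p i * y * p i)]
  simp only [mul_add, add_mul]; abel

lemma sa_pinch {I : Type*} (s : Finset I) {p : I → M} (h : ∀ i, IsSelfAdjoint (p i)) {y : M}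
    (hy : IsSelfAdjoint y) : IsSelfAdjoint (∑ i ∈ s, p i * y * p i) := by
  refine isSelfAdjoint_sum s fun i _ => ?_
  have := hy.conjugate' (p i)
  rwa [(h i).star_eq] at this

end

lemma arith {C₀ δ ρ θ m₁ m₂ m₃ δ₁ δ₂ Y : ℝ} {k : ℕ} (hC : 0 < C₀) (hρ : 0 < ρ)
    (hθ : θ = (10 * C₀ + 20) / √ρ) (hk : (1 / 4 : ℝ) ^ k * (1 + 25 * ρ / θ ^ 2) ≤ δ / 4)
    (hY0 : 0 ≤ Y) (hY : Y ≤ 5)
    (h1 : m₁ ≤ 5 ^ (2 * k + 2) * ((C₀ / √ρ) ^ (2 * (k + 1)) + δ₁))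
    (hδ₁ : δ₁ ≤ δ / 4 * θ ^ (2 * k + 2) / 5 ^ (2 * k + 2))
    (h2 : m₂ ≤ ρ * (Y ^ 2 * (2 * Y / √ρ) ^ (2 * k) + δ₂))
    (hδ₂ : δ₂ = δ / 4 * θ ^ (2 * k + 2) / ρ) (h3 : m₃ ≤ δ / 4 * θ ^ 2) :
    (m₁ + m₂) / θ ^ (2 * k + 2) + m₃ / θ ^ 2 ≤ δ := by
  have hs : 0 < √ρ := Real.sqrt_pos.2 hρ
  have hθ0 : 0 < θ := by rw [hθ]; positivity
  have hq : (1 / 2 : ℝ) ^ (2 * k) = (1 / 4) ^ k := by rw [pow_mul]; norm_num
  have a1 : 5 * (C₀ / √ρ) ≤ θ * (1 / 2) := by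
    rw [hθ, div_mul_eq_mul_div, ← mul_div_assoc]
    exact div_le_div_of_nonneg_right (by linarith) hs.le
  have a2 : 2 * Y / √ρ ≤ θ * (1 / 2) := by
    rw [hθ, div_mul_eq_mul_div]
    exact div_le_div_of_nonneg_right (by linarith) hs.le
  have b1 : m₁ ≤ θ ^ (2 * k + 2) * ((1 / 4) ^ k + δ / 4) := by
    have e1 : (5 : ℝ) ^ (2 * k + 2) * (C₀ / √ρ) ^ (2 * (k + 1)) ≤ θ ^ (2 * k + 2) * (1 / 4) ^ k := by
      rw [show 2 * (k + 1) = 2 * k + 2 by ring, ← mul_pow]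
      refine (pow_le_pow_left₀ (by positivity) a1 _).trans ?_
      rw [mul_pow, pow_add (1 / 2 : ℝ), hq]
      have : (0 : ℝ) ≤ (1 / 4) ^ k := by positivity
      gcongr
      nlinarith
    have e2 : (5 : ℝ) ^ (2 * k + 2) * δ₁ ≤ δ / 4 * θ ^ (2 * k + 2) := by
      rwa [le_div_iff₀ (by positivity), mul_comm] at hδ₁
    rw [mul_add] at h1 ⊢
    linarith
  have b2 : m₂ ≤ θ ^ (2 * k + 2) * ((1 / 4) ^ k * (25 * ρ / θ ^ 2) + δ / 4) := by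
    have e1 : Y ^ 2 * (2 * Y / √ρ) ^ (2 * k) ≤ 25 * (θ ^ (2 * k) * (1 / 4) ^ k) := by
      rw [← hq, ← mul_pow]
      exact mul_le_mul (by nlinarith) (pow_le_pow_left₀ (by positivity) a2 _) (by positivity)
        (by norm_num)
    have e2 : θ ^ (2 * k + 2) * ((1 / 4) ^ k * (25 * ρ / θ ^ 2) + δ / 4) =
        ρ * (25 * (θ ^ (2 * k) * (1 / 4) ^ k) + δ₂) := by
      rw [hδ₂]; field_simp; ring
    rw [e2]
    exact h2.trans (by gcongr)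
  have b3 : (m₁ + m₂) / θ ^ (2 * k + 2) ≤ (1 / 4) ^ k * (1 + 25 * ρ / θ ^ 2) + δ / 2 := by
    rw [div_le_iff₀ (by positivity)]
    nlinarith
  have b4 : m₃ / θ ^ 2 ≤ δ / 4 := by rwa [div_le_iff₀ (by positivity)]
  linarith

end CoreAux

open CoreAux in
theorem core_one : ∃ C > 0, ∀ (M : Type u) [CStarAlgebra M] [PartialOrder M] [StarOrderedRing M]
    (𝒮 : WSys M) (r : ℕ) [NeZero r] (x : M), IsSelfAdjoint x → ‖x‖ ≤ 1 → ∀ δ : ℝ, 0 < δ →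
    ∃ (p : St r → M) (q : M), IsPartn 𝒮.A p ∧ IsStarProjection q ∧ (𝒮.φ (1 - q)).re ≤ δ ∧
      ‖q * (∑ i, p i * x * p i - 𝒮.E x) * q‖ ≤ C / √r := by
  obtain ⟨C₀, hC₀, halp⟩ := alp.{u}
  refine ⟨4 * (10 * C₀ + 20), by positivity, fun M _ _ _ 𝒮 r _ x hx hx1 δ hδ => ?_⟩
  classical
  have hr0 : 0 < r := Nat.pos_of_ne_zero (NeZero.ne r)
  have hρ : (0 : ℝ) < r := by exact_mod_cast hr0
  obtain ⟨θ, hθ⟩ : ∃ θ : ℝ, θ = (10 * C₀ + 20) / √r := ⟨_, rfl⟩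
  have hθ0 : 0 < θ := by rw [hθ]; positivity
  obtain ⟨k, hk⟩ : ∃ k : ℕ, (1 / 4 : ℝ) ^ k * (1 + 25 * r / θ ^ 2) ≤ δ / 4 := by
    obtain ⟨k, hk⟩ := exists_pow_lt_of_lt_one
      (show 0 < δ / 4 / (1 + 25 * r / θ ^ 2) by positivity) (show (1 / 4 : ℝ) < 1 by norm_num)
    exact ⟨k, ((lt_div_iff₀ (by positivity)).1 hk).le⟩
  obtain ⟨δ₁, hδ₁0, hδ₁, hδ₁'⟩ : ∃ δ₁ : ℝ, 0 < δ₁ ∧
      δ₁ ≤ δ / 4 * θ ^ (2 * k + 2) / 5 ^ (2 * k + 2) ∧ δ₁ ≤ δ * θ ^ 2 / 1600 :=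
    ⟨min _ _, lt_min (by positivity) (by positivity), min_le_left _ _, min_le_right _ _⟩
  obtain ⟨δ₂, hδ₂⟩ : ∃ δ₂ : ℝ, δ₂ = δ / 4 * θ ^ (2 * k + 2) / r := ⟨_, rfl⟩
  have hδ₂0 : 0 < δ₂ := by rw [hδ₂]; positivity
  obtain ⟨x₀, hx₀, y, hx₀s, hEx₀, hx₀n, hys, hyRB, hyn, hyp, hd⟩ :=
    𝒮.decomp hx hx1 (show 0 < √δ * θ / 4 by positivity)
  obtain ⟨Γ, _, v, a, st, K, hK, hΓ, hxe⟩ := WSys.N0_presentation hx₀
  let 𝒢 : GData 𝒮 Γ K :=
    { v := v, a := fun γ => (5 : ℂ)⁻¹ • a γ, st := st, x := (5 : ℂ)⁻¹ • x₀, hK := hK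
      gb := fun γ => (hΓ γ).1
      mem := fun γ => 𝒮.A.smul_mem (hΓ γ).2.1 _
      v_st := fun γ => (hΓ γ).2.2
      x_eq := by rw [hxe, Finset.smul_sum]; simp
      sa := by
        rw [IsSelfAdjoint, star_smul, hx₀s.star_eq]; simp
      E_x := by rw [𝒮.E_smul, hEx₀, smul_zero]
      norm_x := by
        rw [norm_smul]; simp only [norm_inv, Complex.norm_ofNat]; linarith }
  obtain ⟨Ω, _, _, _, _, ⟨σ⟩⟩ := 𝒮.exists_spec
  obtain ⟨𝓜, hL⟩ := 𝒢.exists_model σ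
  obtain ⟨Λ, _, _, n, R, δ', hδ', hmain⟩ := halp (Fintype.card Γ) K hK r (k + 1) δ₁ hδ₁0
  obtain ⟨e₁, he₁⟩ := hL.separate n hδ'
  obtain ⟨e₂, he₂⟩ := hL.free hys hyRB hyp r k R hδ₂0
  have := Part.directed 𝒮.masa
  obtain ⟨e, hee₁, hee₂⟩ := exists_ge_ge e₁ e₂
  obtain ⟨τ, hτ, hτf⟩ := σ.exists_label e.isPartn
  obtain ⟨col, hcl, hdep, hprob, hun, hwalk⟩ :=
    hmain Ω (List Γ) 𝓜 e.s τ hτ (he₁ e hee₁ τ hτ (by convert hτf))
  choose p hp hpf using fun l => σ.exists_partn (hcl l)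
  -- the three pieces
  let T₁ : (e.s → Λ) → M := fun l => ∑ i : ZMod r, p l (some i) * x₀ * p l (some i)
  let T₂ : (e.s → Λ) → M := fun l => ∑ i : ZMod r, p l (some i) * y * p l (some i)
  let T₃ : (e.s → Λ) → M := fun l =>
    (∑ i, p l i * (x - 𝒮.E x - x₀ - y) * p l i) + p l none * (x₀ + y) * p l none
  have hEs : IsSelfAdjoint (𝒮.E x) := by rw [IsSelfAdjoint, ← 𝒮.E_star, hx.star_eq]
  have hps : ∀ l i, IsSelfAdjoint (p l i) := fun l i => ((hp l).1 i).2.isSelfAdjoint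
  have s₁ : ∀ l, IsSelfAdjoint (T₁ l) := fun l => sa_pinch _ (fun i => hps l _) hx₀s
  have s₂ : ∀ l, IsSelfAdjoint (T₂ l) := fun l => sa_pinch _ (fun i => hps l _) hys
  have s₃ : ∀ l, IsSelfAdjoint (T₃ l) := fun l => by
    refine (sa_pinch _ (hps l) (((hx.sub hEs).sub hx₀s).sub hys)).add ?_
    have := (hx₀s.add hys).conjugate' (p l none)
    rwa [(hps l none).star_eq] at this
  have m₁ : (𝔼 l, (𝒮.φ (T₁ l ^ (2 * k + 2))).re) ≤
      5 ^ (2 * k + 2) * ((C₀ / √r) ^ (2 * (k + 1)) + δ₁) := by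
    refine le_trans ?_ (mul_le_mul_of_nonneg_left hwalk (by positivity))
    rw [Finset.mul_expect]
    refine Finset.expect_le_expect fun l _ => ?_
    have h1 := hL.moment (hcl l) (fun i => ((hp l).1 i).1) (hpf l) (2 * (k + 1))
    have h2 : T₁ l = (5 : ℝ) • ∑ i : ZMod r, p l (some i) * 𝒢.x * p l (some i) := by
      simp only [T₁, 𝒢, Finset.smul_sum, mul_smul_comm, smul_mul_assoc, ← Complex.coe_smul,
        smul_smul]
      simp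
    rw [h2, smul_pow, apply_real_smul, show 2 * k + 2 = 2 * (k + 1) by ring]
    exact mul_le_mul_of_nonneg_left h1 (by positivity)
  have m₂ : (𝔼 l, (𝒮.φ (T₂ l ^ (2 * k + 2))).re) ≤
      r * (‖y‖ ^ 2 * (2 * ‖y‖ / √r) ^ (2 * k) + δ₂) := by
    have h1 : ∀ l, (𝒮.φ (T₂ l ^ (2 * k + 2))).re =
        ∑ i : ZMod r, (𝒮.φ ((p l (some i) * y * p l (some i)) ^ (2 * k + 2))).re := fun l => by
      rw [show 2 * k + 2 = 2 * k + 1 + 1 by ring, block_pow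
        (fun i j hij => (hp l).2.1 _ _ fun h => hij (Option.some.inj h)), map_sum, Complex.re_sum]
    simp only [h1]
    rw [Finset.expect_sum_comm]
    refine (Finset.sum_le_card_nsmul _ _ _ fun i _ => he₂ e hee₂ τ hτ (by convert hτf) Λ col hcl
      (by convert hdep) i (fun s => by convert hprob s i) (fun l => p l (some i))
      (fun l => ((hp l).1 _).1) (fun l s => by convert hpf l s (some i))).trans (le_of_eq ?_)
    rw [Finset.card_univ, ZMod.card, nsmul_eq_mul]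
  have m₃ : (𝔼 l, nrm 𝒮.φ (T₃ l) ^ 2) ≤ δ / 4 * θ ^ 2 := by
    have h1 : ∀ l, nrm 𝒮.φ (T₃ l) ^ 2 ≤ δ * θ ^ 2 / 8 + 200 * 𝓜.Un (col l) := fun l => by
      have a1 := ((hp l).nrm_pinch_le 𝒮.central (x - 𝒮.E x - x₀ - y)).trans hd
      have a2 : nrm 𝒮.φ (p l none * (x₀ + y) * p l none) ≤ 10 * nrm 𝒮.φ (p l none) := by
        refine (nrm_mul_le _ _ _).trans (mul_le_mul_of_nonneg_right ?_ (nrm_nonneg _ _))
        refine (norm_mul_le _ _).trans ?_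
        have := ((hp l).1 none).2.norm_le
        have := norm_add_le x₀ y
        nlinarith [norm_nonneg (p l none), norm_nonneg (x₀ + y)]
      have a3 : nrm 𝒮.φ (p l none) ^ 2 = 𝓜.Un (col l) := by
        rw [nrm_sq, (hps l none).star_eq, ((hp l).1 none).2.isIdempotentElem.eq,
          σ.φ_proj (C := {s | col l s = none}) ((hcl l).isClopen_fiber none)
            (fun s => by convert hpf l s none; rfl), Complex.ofReal_re, Model.Un, hL.μ_eq]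
      have a4 : nrm 𝒮.φ (T₃ l) ≤ √δ * θ / 4 + 10 * nrm 𝒮.φ (p l none) :=
        (nrm_add_le _ _ _).trans (add_le_add a1 a2)
      have a5 : (√δ * θ / 4) ^ 2 = δ * θ ^ 2 / 16 := by
        rw [div_pow, mul_pow, Real.sq_sqrt hδ.le]; norm_num
      have a6 := pow_le_pow_left₀ (nrm_nonneg _ _) a4 2
      rw [← a3]
      nlinarith [sq_nonneg (√δ * θ / 4 - 10 * nrm 𝒮.φ (p l none))]
    refine (Finset.expect_le_expect fun l _ => h1 l).trans ?_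
    rw [Finset.expect_add_distrib, Finset.expect_const Finset.univ_nonempty, ← Finset.mul_expect]
    linarith
  have hb := arith hC₀ hρ hθ hk (norm_nonneg y) hyn m₁ hδ₁ m₂ hδ₂ m₃
  rw [← Finset.expect_add_distrib, Finset.expect_div, Finset.expect_div,
    ← Finset.expect_add_distrib] at hb
  obtain ⟨l, -, hl⟩ := Finset.exists_le_of_expect_le Finset.univ_nonempty hb
  obtain ⟨q, hq, hqn, hqφ⟩ := 𝒮.W.exists_q 𝒮.φ (s₁ l) (s₂ l) (s₃ l) hθ0 k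
  refine ⟨p l, q, hp l, hq, hqφ.trans hl, ?_⟩
  rw [split 𝒮.masa (hp l) (𝒮.E_mem x) x x₀ y, mul_div_assoc, ← hθ]
  exact hqn

theorem core : ∃ C > 0, ∀ (M : Type u) [CStarAlgebra M] [PartialOrder M] [StarOrderedRing M]
    (𝒮 : WSys M) (r : ℕ) [NeZero r] (x : M), IsSelfAdjoint x → ∀ δ : ℝ, 0 < δ →
    ∃ (p : St r → M) (q : M), IsPartn 𝒮.A p ∧ IsStarProjection q ∧ (𝒮.φ (1 - q)).re ≤ δ ∧
      ‖q * (∑ i, p i * x * p i - 𝒮.E x) * q‖ ≤ C / √r * ‖x‖ := by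
  obtain ⟨C, hC, h⟩ := core_one.{u}
  refine ⟨C, hC, fun M _ _ _ 𝒮 r _ x hx δ hδ => ?_⟩
  have hs : IsSelfAdjoint (((‖x‖⁻¹ : ℝ) : ℂ) • x) := by
    rw [IsSelfAdjoint, star_smul, hx.star_eq]; simp
  have hn : ‖((‖x‖⁻¹ : ℝ) : ℂ) • x‖ ≤ 1 := by
    rw [norm_smul, Complex.norm_real, norm_inv, norm_norm]
    exact inv_mul_le_one_of_le₀ le_rfl (norm_nonneg _)
  obtain ⟨p, q, hp, hq, h1, h2⟩ := h M 𝒮 r _ hs hn δ hδ
  refine ⟨p, q, hp, hq, h1, ?_⟩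
  by_cases hx0 : x = 0
  · simp [hx0, 𝒮.E_zero]
  have hx' : 0 < ‖x‖ := norm_pos_iff.2 hx0
  have e : q * (∑ i, p i * (((‖x‖⁻¹ : ℝ) : ℂ) • x) * p i - 𝒮.E (((‖x‖⁻¹ : ℝ) : ℂ) • x)) * q =
      ((‖x‖⁻¹ : ℝ) : ℂ) • (q * (∑ i, p i * x * p i - 𝒮.E x) * q) := by
    simp only [𝒮.E_smul, mul_smul_comm, smul_mul_assoc, ← Finset.smul_sum, ← smul_sub]
  rw [e, norm_smul, Complex.norm_real, norm_inv, norm_norm, inv_mul_le_iff₀ hx'] at h2
  rwa [mul_comm]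

end Vale.Agent.P078
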