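import Vale.Agent.P078.Exp
import Vale.Agent.P078.Normal

/-! The corner `p M p` of the support of a central normal state. -/

namespace Vale.Agent.P078

open Filter Topology
open scoped ComplexOrder

universe u

variable {M : Type u} [CStarAlgebra M] [PartialOrder M] [StarOrderedRing M]

namespace CornerAux

variable {B : Type u} [CStarAlgebra B] {p : B} (hp : IsStarProjection p)

/-- the corner as a non-unital subalgebra -/
def sub : NonUnitalStarSubalgebra ℂ B where
  carrier := {x | p * x = x ∧ x * p = x}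
  add_mem' := fun ha hb => ⟨by rw [mul_add, ha.1, hb.1], by rw [add_mul, ha.2, hb.2]⟩
  zero_mem' := ⟨mul_zero _, zero_mul _⟩
  mul_mem' := fun ha hb => ⟨by rw [← mul_assoc, ha.1], by rw [mul_assoc, hb.2]⟩
  smul_mem' := fun c x hx => ⟨by rw [mul_smul_comm, hx.1], by rw [smul_mul_assoc, hx.2]⟩
  star_mem' := fun {x} hx =>
    ⟨by rw [← hp.isSelfAdjoint.star_eq, ← star_mul, hx.2],
      by rw [← hp.isSelfAdjoint.star_eq, ← star_mul, hx.1]⟩

lemma sub_closed : IsClosed (sub hp : Set B) :=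
  (isClosed_eq (f := fun x => p * x) (g := fun x => x) (by fun_prop) (by fun_prop)).inter
    (isClosed_eq (f := fun x => x * p) (g := fun x => x) (by fun_prop) (by fun_prop))

/-- the corner -/
def Cor : Type u := sub hp

/-- the non-unital structure -/
@[reducible] noncomputable def nu : NonUnitalCStarAlgebra (Cor hp) :=
  NonUnitalStarSubalgebra.nonUnitalCStarAlgebra (sub hp) (h_closed := sub_closed hp)

/-- the normed ring structure -/
@[reducible] noncomputable def nr : NormedRing (Cor hp) :=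
  { nu hp with
    one := ⟨p, hp.isIdempotentElem.eq, hp.isIdempotentElem.eq⟩
    one_mul := fun x => Subtype.ext x.2.1
    mul_one := fun x => Subtype.ext x.2.2 }

noncomputable instance : CStarAlgebra (Cor hp) :=
  letI := nr hp
  letI : Module ℂ (Cor hp) := (nu hp).toNormedSpace.toModule
  letI : Algebra ℂ (Cor hp) := Algebra.ofModule
    (fun r x y => Subtype.ext (smul_mul_assoc r x.1 y.1))
    (fun r x y => Subtype.ext (mul_smul_comm r x.1 y.1))
  { nr hp, nu hp, (inferInstance : Algebra ℂ (Cor hp)) with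
    norm_smul_le := fun r x => norm_smul_le r x.1 }

/-- the inclusion -/
noncomputable def inc : Cor hp →⋆ₙₐ[ℂ] B where
  toFun x := x.1
  map_smul' _ _ := rfl
  map_zero' := rfl
  map_add' _ _ := rfl
  map_mul' _ _ := rfl
  map_star' _ := rfl

lemma inc_one : inc hp 1 = p := rfl

lemma norm_inc (y : Cor hp) : ‖inc hp y‖ = ‖y‖ := rfl

lemma inc_inj {x y : Cor hp} (h : inc hp x = inc hp y) : x = y := Subtype.ext h

lemma exists_inc (x : B) : ∃ y, inc hp y = p * x * p :=
  ⟨⟨p * x * p, by rw [← mul_assoc, ← mul_assoc, hp.isIdempotentElem.eq],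
    by rw [mul_assoc, hp.isIdempotentElem.eq]⟩, rfl⟩

lemma mul_inc (y : Cor hp) : p * inc hp y = inc hp y := y.2.1

lemma inc_mul (y : Cor hp) : inc hp y * p = inc hp y := y.2.2

end CornerAux

open CornerAux

/-- `M' = {x // p * x * p = x}` with unit `p` (start from a closed `NonUnitalStarSubalgebra`) and the
order `CStarAlgebra.spectralOrder`. -/
theorem WAlg.exists_corner (𝒲 : WAlg M) {A : StarSubalgebra ℂ M} (hA : IsMasa A) {φ : M →ₚ[ℂ] ℂ}
    (hφ : 𝒲.Normal φ) (hc : Central A φ) {p : M} (hp : IsSupp φ p) (h1 : φ p = 1) :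
    ∃ (M' : Type u) (_ : CStarAlgebra M') (_ : PartialOrder M') (_ : StarOrderedRing M')
      (𝒮 : WSys M') (ι : M' →⋆ₙₐ[ℂ] M), ι 1 = p ∧ (∀ y, ‖ι y‖ = ‖y‖) ∧
      (∀ x, ∃ y, ι y = p * x * p) ∧ (∀ y, y ∈ 𝒮.A ↔ ι y ∈ A) ∧ ∀ y, 𝒮.φ y = φ (ι y) := by
  have hpA : p ∈ A := hp.mem hA hc
  letI : PartialOrder (Cor hp.1) := CStarAlgebra.spectralOrder _
  haveI : StarOrderedRing (Cor hp.1) := CStarAlgebra.spectralOrderedRing _
  let φ' : Cor hp.1 →ₚ[ℂ] ℂ := PositiveLinearMap.mk₀
    { toFun := fun y => φ (inc hp.1 y)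
      map_add' := fun x y => by rw [map_add, map_add]
      map_smul' := fun c x => by rw [map_smul, map_smul, RingHom.id_apply] }
    fun x hx => by
      obtain ⟨s, rfl⟩ := CStarAlgebra.nonneg_iff_eq_star_mul_self.1 hx
      change 0 ≤ φ (inc hp.1 (star s * s))
      rw [map_mul, map_star]
      exact φ.map_nonneg (star_mul_self_nonneg _)
  have hφ' : ∀ y, φ' y = φ (inc hp.1 y) := fun _ => rfl
  let A' : StarSubalgebra ℂ (Cor hp.1) :=
    { carrier := {y | inc hp.1 y ∈ A}
      mul_mem' := fun {x y} (ha : inc hp.1 x ∈ A) (hb : inc hp.1 y ∈ A) =>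
        (mul_mem ha hb : inc hp.1 x * inc hp.1 y ∈ A)
      add_mem' := fun {x y} (ha : inc hp.1 x ∈ A) (hb : inc hp.1 y ∈ A) =>
        (add_mem ha hb : inc hp.1 x + inc hp.1 y ∈ A)
      algebraMap_mem' := fun c => by
        rw [Algebra.algebraMap_eq_smul_one]
        exact A.smul_mem hpA c
      star_mem' := fun {y} (ha : inc hp.1 y ∈ A) => (star_mem ha : star (inc hp.1 y) ∈ A) }
  refine ⟨Cor hp.1, inferInstance, inferInstance, inferInstance,
    ⟨φ', A', fun y => ⟨fun hy a ha => inc_inj hp.1 ?_, fun hy => (hA _).2 fun a ha => ?_⟩, h1,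
      fun x hx => inc_inj hp.1 ?_, fun a ha x => ?_, fun 𝒰 R h => ?_⟩,
    inc hp.1, rfl, fun _ => rfl, exists_inc hp.1, fun _ => Iff.rfl, fun _ => rfl⟩
  · rw [map_mul, map_mul]
    exact hA.comm ha hy
  · obtain ⟨b, hb⟩ := exists_inc hp.1 a
    have k := congrArg (inc hp.1) (hy b (by
      change inc hp.1 b ∈ A
      rw [hb]
      exact mul_mem (mul_mem hpA ha) hpA))
    rw [map_mul, map_mul, hb, mul_assoc, mul_inc, ← hA.comm ha hpA, mul_assoc a, mul_inc,
      mul_assoc a, hp.1.isIdempotentElem.eq, hA.comm ha hpA, ← mul_assoc, inc_mul] at k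
    exact k
  · rw [hφ', map_mul, map_star] at hx
    rw [← inc_mul, hp.2.2 _ hx, map_zero]
  · rw [hφ', hφ', map_mul (inc hp.1), map_mul (inc hp.1)]
    exact hc _ ha _
  · obtain ⟨y, hy⟩ := 𝒲.exists_wlim 𝒰 (f := inc hp.1) h
    obtain ⟨z, hz⟩ := exists_inc hp.1 y
    refine ⟨z, fun a b => ?_⟩
    simp only [hφ', map_mul]
    rw [hz, ← mul_assoc, ← mul_assoc, inc_mul, mul_assoc _ p, mul_inc]
    exact (hφ.mul _ _).tendsto h hy

end Vale.Agent.P078
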