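import Mathlib

/-! Definitions used in the statement of the P078 result. -/

namespace Vale.Agent.P078

universe u

variable {H : Type u} [NormedAddCommGroup H] [InnerProductSpace ℂ H] [CompleteSpace H]

/-- `A` is a maximal abelian self-adjoint subalgebra of the von Neumann algebra `M`. -/
def IsMASA (M : VonNeumannAlgebra H) (A : StarSubalgebra ℂ (H →L[ℂ] H)) : Prop :=
  (∀ a ∈ A, a ∈ M) ∧ (∀ a ∈ A, ∀ b ∈ A, a * b = b * a) ∧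
    ∀ B : StarSubalgebra ℂ (H →L[ℂ] H), (∀ b ∈ B, b ∈ M) → (∀ a ∈ B, ∀ b ∈ B, a * b = b * a) →
      A ≤ B → B = A

/-- `p` is a family of `r` mutually orthogonal projections of `A` with sum `1`. -/
def IsPartition (A : StarSubalgebra ℂ (H →L[ℂ] H)) {r : ℕ} (p : Fin r → (H →L[ℂ] H)) : Prop :=
  (∀ i, p i ∈ A ∧ IsSelfAdjoint (p i) ∧ p i * p i = p i) ∧
    (∀ i j, i ≠ j → p i * p j = 0) ∧ ∑ i, p i = 1

/-- `x` is `(ε, r)` so-pavable over `A`. -/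
def SoPavable (M : VonNeumannAlgebra H) (A : StarSubalgebra ℂ (H →L[ℂ] H)) (x : H →L[ℂ] H)
    (ε : ℝ) (r : ℕ) : Prop :=
  ∀ (F : Finset H) (δ : ℝ), 0 < δ →
    ∃ (p : Fin r → (H →L[ℂ] H)) (a q : H →L[ℂ] H),
      IsPartition A p ∧ a ∈ A ∧ IsSelfAdjoint a ∧ ‖a‖ ≤ ‖x‖ ∧
      q ∈ M ∧ IsSelfAdjoint q ∧ q * q = q ∧ (∀ ξ ∈ F, ‖(1 - q) ξ‖ < δ) ∧
      ‖q * (∑ i, p i * x * p i - a) * q‖ ≤ ε * ‖x‖

/-- The paving number: the least `r ≥ 1` such that every self-adjoint `x ∈ M` is `(ε, r)`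
so-pavable over `A`, and `⊤` if there is none. -/
noncomputable def pavingNumber (M : VonNeumannAlgebra H) (A : StarSubalgebra ℂ (H →L[ℂ] H))
    (ε : ℝ) : ℕ∞ :=
  sInf {n : ℕ∞ | ∃ r : ℕ, n = r ∧ 1 ≤ r ∧ ∀ x ∈ M, IsSelfAdjoint x → SoPavable M A x ε r}

end Vale.Agent.P078
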