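import Mathlib

/-! Efron-Stein operators for functions on a finite product with values in a pre-Hilbert space. -/

namespace Vale.Agent.P078

open Finset
open scoped BigOperators InnerProductSpace

set_option linter.unusedSectionVars false

section ES
variable {J Λ : Type*} [Fintype J] [DecidableEq J] [Fintype Λ] [Nonempty Λ]
  {F : Type*} [SeminormedAddCommGroup F] [InnerProductSpace ℂ F]

/-- average over the coordinate `m` -/
noncomputable def avg (m : J) (ζ : (J → Λ) → F) : (J → Λ) → F :=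
  fun l => ((Fintype.card Λ : ℂ)⁻¹) • ∑ x : Λ, ζ (Function.update l m x)

lemma avg_comm (m m' : J) (ζ : (J → Λ) → F) : avg m (avg m' ζ) = avg m' (avg m ζ) := by
  by_cases h : m = m'
  · rw [h]
  funext l
  simp only [avg, ← Finset.smul_sum]
  rw [Finset.sum_comm]
  simp only [Function.update_comm h]

/-- `Δ m = 1 - avg m` -/
noncomputable def del (m : J) (ζ : (J → Λ) → F) : (J → Λ) → F := ζ - avg m ζ

instance : LeftCommutative (avg (J := J) (Λ := Λ) (F := F)) := ⟨avg_comm⟩

lemma ESAux.avg_sub (m : J) (ζ ξ : (J → Λ) → F) : avg m (ζ - ξ) = avg m ζ - avg m ξ := by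
  funext l
  simp only [avg, Pi.sub_apply, Finset.sum_sub_distrib, smul_sub]

lemma ESAux.del_avg (m m' : J) (ζ : (J → Λ) → F) : del m (avg m' ζ) = avg m' (del m ζ) := by
  rw [del, del, ESAux.avg_sub, avg_comm]

lemma del_comm (m m' : J) (ζ : (J → Λ) → F) : del m (del m' ζ) = del m' (del m ζ) := by
  simp only [del, ESAux.avg_sub]
  rw [avg_comm]
  abel

instance : LeftCommutative (del (J := J) (Λ := Λ) (F := F)) := ⟨del_comm⟩

/-- average over a set of coordinates -/
noncomputable def avgS (S : Finset J) (ζ : (J → Λ) → F) : (J → Λ) → F := S.val.foldr avg ζ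

/-- `Δ_S = ∏ Δ m` -/
noncomputable def delS (S : Finset J) (ζ : (J → Λ) → F) : (J → Λ) → F := S.val.foldr del ζ

/-- squared `L²` norm -/
noncomputable def sqn (ζ : (J → Λ) → F) : ℝ := 𝔼 l, ‖ζ l‖ ^ 2

/-- degree at most `d` -/
def Deg (d : ℕ) (ζ : (J → Λ) → F) : Prop := ∀ S : Finset J, d < S.card → delS S ζ = 0

namespace ESAux

lemma fold_comm {X : Type*} (o : J → X → X) [LeftCommutative o] (Φ : X → X) (s : Multiset J)
    (h : ∀ m ∈ s, ∀ x, Φ (o m x) = o m (Φ x)) (x : X) : Φ (s.foldr o x) = s.foldr o (Φ x) := by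
  induction s using Multiset.induction_on with
  | empty => rfl
  | cons m s ih =>
    rw [Multiset.foldr_cons, Multiset.foldr_cons, h m (Multiset.mem_cons_self m s),
      ih fun m' hm' => h m' (Multiset.mem_cons_of_mem hm')]

lemma avgS_insert {m : J} {S : Finset J} (hm : m ∉ S) (ζ : (J → Λ) → F) :
    avgS (insert m S) ζ = avg m (avgS S ζ) := by
  rw [avgS, Finset.insert_val_of_notMem hm, Multiset.foldr_cons]
  rfl

lemma delS_insert {m : J} {S : Finset J} (hm : m ∉ S) (ζ : (J → Λ) → F) :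
    delS (insert m S) ζ = del m (delS S ζ) := by
  rw [delS, Finset.insert_val_of_notMem hm, Multiset.foldr_cons]
  rfl

lemma avg_avgS (m : J) (S : Finset J) (ζ : (J → Λ) → F) : avg m (avgS S ζ) = avgS S (avg m ζ) :=
  fold_comm avg (avg m) S.val (fun m' _ x => avg_comm m m' x) ζ

lemma del_avgS (m : J) (S : Finset J) (ζ : (J → Λ) → F) : del m (avgS S ζ) = avgS S (del m ζ) :=
  fold_comm avg (del m) S.val (fun m' _ x => del_avg m m' x) ζ

lemma avg_delS (m : J) (S : Finset J) (ζ : (J → Λ) → F) : avg m (delS S ζ) = delS S (avg m ζ) :=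
  fold_comm del (avg m) S.val (fun m' _ x => (del_avg m' m x).symm) ζ

lemma del_delS (m : J) (S : Finset J) (ζ : (J → Λ) → F) : del m (delS S ζ) = delS S (del m ζ) :=
  fold_comm del (del m) S.val (fun m' _ x => del_comm m m' x) ζ

lemma delS_avgS (T S : Finset J) (ζ : (J → Λ) → F) : delS T (avgS S ζ) = avgS S (delS T ζ) :=
  fold_comm avg (delS T) S.val (fun m' _ x => (avg_delS m' T x).symm) ζ

lemma delS_delS (T S : Finset J) (ζ : (J → Λ) → F) : delS T (delS S ζ) = delS S (delS T ζ) :=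
  fold_comm del (delS T) S.val (fun m' _ x => (del_delS m' T x).symm) ζ

lemma del_sub (m : J) (ζ ξ : (J → Λ) → F) : del m (ζ - ξ) = del m ζ - del m ξ := by
  simp only [del, avg_sub]
  abel

lemma avgS_sub (S : Finset J) (ζ ξ : (J → Λ) → F) : avgS S (ζ - ξ) = avgS S ζ - avgS S ξ := by
  induction S using Finset.induction_on with
  | empty => rfl
  | insert m S hm ih => simp only [avgS_insert hm, ih, avg_sub]

lemma delS_sub (S : Finset J) (ζ ξ : (J → Λ) → F) : delS S (ζ - ξ) = delS S ζ - delS S ξ := by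
  induction S using Finset.induction_on with
  | empty => rfl
  | insert m S hm ih => simp only [delS_insert hm, ih, del_sub]

lemma avgS_zero (S : Finset J) : avgS S (0 : (J → Λ) → F) = 0 := by
  simpa using avgS_sub S (0 : (J → Λ) → F) 0

lemma delS_zero (S : Finset J) : delS S (0 : (J → Λ) → F) = 0 := by
  simpa using delS_sub S (0 : (J → Λ) → F) 0

lemma delS_sum {I : Type*} (s : Finset I) (T : Finset J) (ζ : I → (J → Λ) → F) :
    delS T (∑ i ∈ s, ζ i) = ∑ i ∈ s, delS T (ζ i) :=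
  map_sum (AddMonoidHom.ofMapSub (delS T) (delS_sub T)) ζ s

lemma del_sum {I : Type*} (s : Finset I) (m : J) (ζ : I → (J → Λ) → F) :
    del m (∑ i ∈ s, ζ i) = ∑ i ∈ s, del m (ζ i) := delS_sum s {m} ζ

lemma avg_of_inv {m : J} {ζ : (J → Λ) → F} (h : ∀ l x, ζ (Function.update l m x) = ζ l) :
    avg m ζ = ζ := by
  funext l
  have hc : (Fintype.card Λ : ℂ) ≠ 0 := Nat.cast_ne_zero.2 Fintype.card_ne_zero
  simp only [avg, h, Finset.sum_const, Finset.card_univ]
  rw [← Nat.cast_smul_eq_nsmul ℂ, smul_smul, inv_mul_cancel₀ hc, one_smul]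

lemma avg_avg (m : J) (ζ : (J → Λ) → F) : avg m (avg m ζ) = avg m ζ :=
  avg_of_inv fun l x => by simp only [avg, Function.update_idem]

lemma avgS_avgS (S : Finset J) (ζ : (J → Λ) → F) : avgS S (avgS S ζ) = avgS S ζ := by
  induction S using Finset.induction_on with
  | empty => rfl
  | insert m S hm ih => rw [avgS_insert hm, avgS_insert hm, ← avg_avgS, avg_avg, ih]

lemma del_smul (m : J) {c : (J → Λ) → ℂ} (hc : ∀ l x, c (Function.update l m x) = c l)
    (ζ : (J → Λ) → F) : (fun l => c l • del m ζ l) = del m fun l => c l • ζ l := by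
  funext l
  simp only [del, avg, Pi.sub_apply, hc, smul_sub, ← Finset.smul_sum]
  rw [smul_comm]

/-- the real inner product -/
noncomputable def ip (ζ ξ : (J → Λ) → F) : ℝ := 𝔼 l, (⟪ζ l, ξ l⟫_ℂ).re

lemma ip_self (ζ : (J → Λ) → F) : ip ζ ζ = sqn ζ :=
  Finset.expect_congr rfl fun l _ => (@norm_sq_eq_re_inner ℂ _ _ _ _ (ζ l)).symm

lemma ip_sub_left (ζ ξ η : (J → Λ) → F) : ip (ζ - ξ) η = ip ζ η - ip ξ η := by
  simp only [ip, Pi.sub_apply, inner_sub_left, Complex.sub_re, Finset.expect_sub_distrib]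

lemma ip_sub_right (ζ ξ η : (J → Λ) → F) : ip η (ζ - ξ) = ip η ζ - ip η ξ := by
  simp only [ip, Pi.sub_apply, inner_sub_right, Complex.sub_re, Finset.expect_sub_distrib]

lemma ip_avg (m : J) (ζ ξ : (J → Λ) → F) : ip (avg m ζ) ξ = ip ζ (avg m ξ) := by
  have σi : Function.Involutive
      (fun q : (J → Λ) × Λ => ((Function.update q.1 m q.2, q.1 m) : (J → Λ) × Λ)) := by
    intro q
    simp
  have k := Equiv.sum_comp σi.toPerm (fun q => ⟪ζ q.1, ξ (Function.update q.1 m q.2)⟫_ℂ)
  rw [Fintype.sum_prod_type, Fintype.sum_prod_type] at k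
  simp only [Function.Involutive.coe_toPerm, Function.update_idem, Function.update_eq_self] at k
  simp only [ip, avg, Fintype.expect_eq_sum_div_card, ← Complex.re_sum, inner_smul_left,
    inner_smul_right, sum_inner, inner_sum, ← Finset.mul_sum, k, map_inv₀, map_natCast]

lemma ip_avgS (S : Finset J) (ζ ξ : (J → Λ) → F) : ip (avgS S ζ) ξ = ip ζ (avgS S ξ) := by
  induction S using Finset.induction_on generalizing ξ with
  | empty => rfl
  | insert m S hm ih => rw [avgS_insert hm, avgS_insert hm, ip_avg, ih, avg_avgS]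

lemma ip_delS (S : Finset J) (ζ ξ : (J → Λ) → F) : ip (delS S ζ) ξ = ip ζ (delS S ξ) := by
  induction S using Finset.induction_on generalizing ξ with
  | empty => rfl
  | insert m S hm ih =>
    rw [delS_insert hm, delS_insert hm, del_delS m S ξ, ← ih, del, del, ip_sub_left, ip_sub_right,
      ip_avg]

lemma sqn_nonneg (ζ : (J → Λ) → F) : 0 ≤ sqn ζ :=
  Finset.expect_nonneg fun _ _ => sq_nonneg _

lemma sqn_zero : sqn (0 : (J → Λ) → F) = 0 := by simp [sqn]

end ESAux

open ESAux

lemma sqn_avgS_add (S : Finset J) (ζ : (J → Λ) → F) :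
    sqn (avgS S ζ) + sqn (ζ - avgS S ζ) = sqn ζ := by
  simp only [← ip_self, ip_sub_left, ip_sub_right, ip_avgS, avgS_avgS]
  ring

lemma ESAux.sqn_avg_add (m : J) (ζ : (J → Λ) → F) : sqn (avg m ζ) + sqn (del m ζ) = sqn ζ :=
  sqn_avgS_add {m} ζ

lemma sqn_sub_avgS_le (S : Finset J) (ζ : (J → Λ) → F) :
    sqn (ζ - avgS S ζ) ≤ ∑ m ∈ S, sqn (del m ζ) := by
  induction S using Finset.induction_on with
  | empty =>
    change sqn (ζ - ζ) ≤ _
    rw [sub_self, sqn_zero, Finset.sum_empty]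
  | insert m S hm ih =>
    have h1 := sqn_avg_add m (ζ - avg m (avgS S ζ))
    have h2 := sqn_avg_add m (ζ - avgS S ζ)
    have h3 := sqn_nonneg (del m (ζ - avgS S ζ))
    rw [del_sub, del.eq_1 m (avg m _), avg_avg, sub_self, sub_zero, avg_sub, avg_avg,
      ← avg_sub] at h1
    rw [avgS_insert hm, Finset.sum_insert hm]
    linarith

/-- inclusion-exclusion -/
lemma sub_avgS_eq (S : Finset J) (ζ : (J → Λ) → F) :
    ζ - avgS S ζ = ∑ T ∈ S.powerset.erase ∅, (-(-1 : ℂ) ^ T.card) • delS T ζ := by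
  have h : avgS S ζ = ∑ T ∈ S.powerset, ((-1 : ℂ) ^ T.card) • delS T ζ := by
    induction S using Finset.induction_on with
    | empty => simp [avgS, delS]
    | insert m S hm ih =>
      have e : avg m (avgS S ζ) = avgS S ζ - del m (avgS S ζ) := by rw [del, sub_sub_cancel]
      rw [avgS_insert hm, Finset.sum_powerset_insert hm, e, sub_eq_add_neg, ih, del_sum,
        ← Finset.sum_neg_distrib]
      congr 1
      refine Finset.sum_congr rfl fun T hT => ?_
      have hT' : m ∉ T := fun k => hm (Finset.mem_powerset.1 hT k)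
      rw [delS_insert hT', Finset.card_insert_of_notMem hT', pow_succ, mul_neg_one, neg_smul]
      congr 1
      exact (del_smul m (c := fun _ => (-1 : ℂ) ^ T.card) (fun _ _ => rfl) _).symm
  rw [h, ← Finset.add_sum_erase _ _ (Finset.empty_mem_powerset S), Finset.card_empty, pow_zero,
    one_smul]
  simp only [neg_smul, Finset.sum_neg_distrib]
  change ζ - (ζ + _) = _
  rw [sub_add_cancel_left]

lemma Deg.const (x : F) : Deg 0 fun _ : J → Λ => x := by
  intro S hS
  obtain ⟨m, hm⟩ := Finset.card_pos.1 hS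
  rw [← Finset.insert_erase hm, delS_insert (Finset.notMem_erase m S), del_delS, del,
    avg_of_inv fun _ _ => rfl, sub_self, delS_zero]

lemma Deg.map {d : ℕ} {ζ : (J → Λ) → F} (h : Deg d ζ) (L : F →ₗ[ℂ] F) :
    Deg d fun l => L (ζ l) := by
  intro S hS
  have k := fold_comm del (fun (ξ : (J → Λ) → F) l => L (ξ l)) S.val (fun m _ ξ => by
    funext l
    simp only [del, avg, Pi.sub_apply, map_sub, map_smul, map_sum]) ζ
  refine k.symm.trans ?_
  funext l
  change L (delS S ζ l) = 0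
  rw [h S hS, Pi.zero_apply, map_zero]

lemma Deg.sum {d : ℕ} {I : Type*} (s : Finset I) {ζ : I → (J → Λ) → F} (h : ∀ i ∈ s, Deg d (ζ i)) :
    Deg d (∑ i ∈ s, ζ i) := by
  intro S hS
  rw [delS_sum]
  exact Finset.sum_eq_zero fun i hi => h i hi S hS

lemma Deg.delS {d : ℕ} {ζ : (J → Λ) → F} (h : Deg d ζ) (S : Finset J) : Deg d (delS S ζ) := by
  intro T hT
  rw [delS_delS, h T hT, delS_zero]

lemma Deg.avgS {d : ℕ} {ζ : (J → Λ) → F} (h : Deg d ζ) (S : Finset J) : Deg d (avgS S ζ) := by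
  intro T hT
  rw [delS_avgS, h T hT, avgS_zero]

lemma Deg.smul {d : ℕ} {ζ : (J → Λ) → F} (h : Deg d ζ) {S : Finset J} {c : (J → Λ) → ℂ}
    (hc : ∀ l l', (∀ m ∈ S, l m = l' m) → c l = c l') :
    Deg (d + S.card) fun l => c l • ζ l := by
  intro T hT
  have h1 : d < (T \ S).card := by
    have := Finset.le_card_sdiff S T
    omega
  have k := fold_comm del (fun (ξ : (J → Λ) → F) l => c l • ξ l) (T \ S).val
    (fun m hm ξ => del_smul m (fun l x => hc _ _ fun m' hm' => Function.update_of_ne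
      (ne_of_mem_of_not_mem hm' (Finset.mem_sdiff.1 hm).2) _ _) ξ) ζ
  have e : T.val = (T ∩ S).val + (T \ S).val := by
    rw [← Finset.filter_mem_eq_inter, Finset.sdiff_eq_filter, Finset.filter_val,
      Finset.filter_val, Multiset.filter_add_not]
  rw [P078.delS, e, Multiset.foldr_add, ← k]
  change P078.delS (T ∩ S) (fun l => c l • P078.delS (T \ S) ζ l) = 0
  rw [h _ h1]
  simp only [Pi.zero_apply, smul_zero]
  exact delS_zero (T ∩ S)

namespace ESAux

lemma parseval (W : Finset J) (ξ : (J → Λ) → F) :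
    sqn ξ = ∑ S ∈ W.powerset, sqn (delS S (avgS (W \ S) ξ)) := by
  induction W using Finset.induction_on generalizing ξ with
  | empty => simp [avgS, delS]
  | insert m W hm ih =>
    rw [Finset.sum_powerset_insert hm, ← sqn_avg_add m ξ, ih (avg m ξ), ih (del m ξ)]
    congr 1 <;> refine Finset.sum_congr rfl fun S hS => ?_
    · have h : m ∉ S := fun k => hm (Finset.mem_powerset.1 hS k)
      rw [Finset.insert_sdiff_of_notMem _ h,
        avgS_insert fun k => hm (Finset.mem_sdiff.1 k).1, avg_avgS]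
    · have h : m ∉ S := fun k => hm (Finset.mem_powerset.1 hS k)
      rw [Finset.insert_sdiff_insert, Finset.sdiff_insert_of_notMem hm, delS_insert h, del_delS,
        del_avgS]

lemma sqn_delS_le (T : Finset J) (ξ : (J → Λ) → F) : sqn (delS T ξ) ≤ sqn ξ := by
  induction T using Finset.induction_on with
  | empty => exact le_rfl
  | insert m T hm ih =>
    have h1 := sqn_avg_add m (delS T ξ)
    have h2 := sqn_nonneg (avg m (delS T ξ))
    rw [delS_insert hm]
    linarith

lemma sqn_delS_le_sum (T : Finset J) (ξ : (J → Λ) → F) :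
    sqn (delS T ξ) ≤ ∑ S, if T ⊆ S then sqn (delS S (avgS (univ \ S) ξ)) else 0 := by
  rw [parseval univ, Finset.powerset_univ]
  refine Finset.sum_le_sum fun S _ => ?_
  rw [← delS_avgS, delS_delS]
  split_ifs with h
  · exact sqn_delS_le _ _
  · obtain ⟨m, h1, h2⟩ := Finset.not_subset.1 h
    have h3 : m ∈ univ \ S := Finset.mem_sdiff.2 ⟨mem_univ m, h2⟩
    rw [← Finset.insert_erase h1, delS_insert (Finset.notMem_erase m T), del_delS, del_delS,
      ← Finset.insert_erase h3, avgS_insert (Finset.notMem_erase m _), del, avg_avg, sub_self,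
      delS_zero, delS_zero, sqn_zero]

lemma weight_le {d : ℕ} {ζ : (J → Λ) → F} (h : Deg d ζ) {w : Finset J → ℝ} {c : ℝ}
    (hw : ∀ S, S.card ≤ d → w S ≤ c) :
    ∑ S, w S * sqn (delS S (avgS (univ \ S) ζ)) ≤ c * sqn ζ := by
  rw [parseval univ ζ, Finset.powerset_univ, Finset.mul_sum]
  refine Finset.sum_le_sum fun S _ => ?_
  rcases le_or_gt S.card d with k | k
  · exact mul_le_mul_of_nonneg_right (hw S k) (sqn_nonneg _)
  · rw [h.avgS _ S k, sqn_zero, mul_zero, mul_zero]

end ESAux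

/-- Efron-Stein: `ζ = ∑ S, delS S (avgS Sᶜ ζ)` orthogonally -/
lemma Deg.sum_del_le {d : ℕ} {ζ : (J → Λ) → F} (h : Deg d ζ) :
    ∑ m, sqn (del m ζ) ≤ d * sqn ζ := by
  refine (Finset.sum_le_sum fun m _ => sqn_delS_le_sum {m} ζ).trans ?_
  refine le_trans (le_of_eq ?_) (weight_le h (w := fun S => S.card) fun S hS => Nat.cast_le.2 hS)
  rw [Finset.sum_comm]
  refine Finset.sum_congr rfl fun S _ => ?_
  simp

lemma Deg.sum_delS_le {d : ℕ} {ζ : (J → Λ) → F} (h : Deg d ζ) :
    ∑ T : Finset J, sqn (P078.delS T ζ) ≤ 2 ^ d * sqn ζ := by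
  refine (Finset.sum_le_sum fun T _ => sqn_delS_le_sum T ζ).trans ?_
  refine le_trans (le_of_eq ?_) (weight_le h (w := fun S => 2 ^ S.card)
    fun S hS => pow_le_pow_right₀ one_le_two hS)
  rw [Finset.sum_comm]
  refine Finset.sum_congr rfl fun S _ => ?_
  have e : (univ.filter fun T : Finset J => T ⊆ S) = S.powerset := by
    ext T
    simp
  rw [← Finset.sum_filter, Finset.sum_const, e, Finset.card_powerset, nsmul_eq_mul]
  push_cast
  rfl

/-- dual form, by Cauchy-Schwarz -/
lemma sqn_sum_delS_le {d : ℕ} {ζ : Finset J → (J → Λ) → F} (h : ∀ T, Deg d (ζ T)) :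
    sqn (∑ T, delS T (ζ T)) ≤ 2 ^ d * ∑ T, sqn (ζ T) := by
  have h1 := (Deg.sum univ fun T _ => (h T).delS T).sum_delS_le
  generalize hw : ∑ T, delS T (ζ T) = w at h1
  have h2 : sqn w = ∑ T, ip (ζ T) (delS T w) := by
    rw [← ip_self]
    nth_rewrite 1 [← hw]
    simp only [← ip_delS]
    simp only [ip, Finset.sum_apply, sum_inner, Complex.re_sum, Finset.expect_sum_comm]
  have hc : (0 : ℝ) < 2 ^ d := by positivity
  have h3 : ∀ x y : (J → Λ) → F, 2 * 2 ^ d * ip x y ≤ (2 ^ d) ^ 2 * sqn x + sqn y := by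
    intro x y
    rw [ip, sqn, sqn, Finset.mul_expect, Finset.mul_expect, ← Finset.expect_add_distrib]
    refine Finset.expect_le_expect fun l _ => ?_
    have k : (⟪x l, y l⟫_ℂ).re ≤ ‖x l‖ * ‖y l‖ := re_inner_le_norm (𝕜 := ℂ) _ _
    nlinarith [sq_nonneg (2 ^ d * ‖x l‖ - ‖y l‖), mul_le_mul_of_nonneg_left k hc.le]
  have h4 := Finset.sum_le_sum fun T (_ : T ∈ univ) => h3 (ζ T) (delS T w)
  rw [← Finset.mul_sum, ← h2, Finset.sum_add_distrib, ← Finset.mul_sum] at h4
  refine le_of_mul_le_mul_left ?_ hc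
  linarith

end ES

end Vale.Agent.P078
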