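import Vale.Agent.P078.Part

/-! A MASA in the centraliser of a faithful normal state; the conditional expectation. -/

namespace Vale.Agent.P078

open Filter Topology
open scoped ComplexOrder

universe u

/-- a W*-algebra with a faithful normal state `φ` and a MASA `A` in its centraliser -/
structure WSys (M : Type u) [CStarAlgebra M] [PartialOrder M] [StarOrderedRing M] where
  φ : M →ₚ[ℂ] ℂ
  A : StarSubalgebra ℂ M
  masa : IsMasa A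
  one : φ 1 = 1
  faithful : ∀ x : M, φ (star x * x) = 0 → x = 0
  central : Central A φ
  wc : ∀ (𝒰 : Ultrafilter M) (R : ℝ), (∀ᶠ x in (𝒰 : Filter M), ‖x‖ ≤ R) →
    ∃ y, ∀ a b, Tendsto (fun x => φ (a * x * b)) 𝒰 (𝓝 (φ (a * y * b)))

variable {M : Type u} [CStarAlgebra M] [PartialOrder M] [StarOrderedRing M]

namespace WSys

variable (𝒮 : WSys M)

/-- the underlying abstract W*-algebra -/
def W : WAlg M where
  N := {𝒮.φ}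
  sep x h := 𝒮.faithful x (h _ rfl)
  wc 𝒰 R h := by
    obtain ⟨y, hy⟩ := 𝒮.wc 𝒰 R h
    exact ⟨y, fun ω hω => by rw [Set.mem_singleton_iff.1 hω]; exact hy⟩

lemma normal : 𝒮.W.Normal 𝒮.φ := WAlg.Normal.of_mem rfl

lemma φ_S (e : Part 𝒮.A) (x : M) : 𝒮.φ (e.S x) = 𝒮.φ x := by
  have := e.isPartn.apply_pinch 𝒮.central x
  rwa [Finset.sum_coe_sort e.s (fun f => f * x * f)] at this

lemma exists_wlim_S (x : M) (𝒰 : Ultrafilter (Part 𝒮.A)) (h : (𝒰 : Filter (Part 𝒮.A)) ≤ atTop) :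
    ∃ a ∈ 𝒮.A, 𝒮.W.WLim 𝒰 (fun e : Part 𝒮.A => e.S x) a ∧
      ∀ b ∈ 𝒮.A, 𝒮.φ (b * a) = 𝒮.φ (b * x) := by
  obtain ⟨a, ha⟩ := 𝒮.W.exists_wlim 𝒰 (Eventually.of_forall fun e : Part 𝒮.A => e.norm_S_le x)
  refine ⟨a, 𝒮.W.wlim_S_mem 𝒮.masa h ha, ha, fun b hb => ?_⟩
  have := ha 𝒮.φ rfl b 1
  simp only [← Part.S_mul _ 𝒮.masa hb (one_mem _), φ_S] at this
  simpa only [mul_one] using tendsto_nhds_unique this tendsto_const_nhds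

/-- weak limit of the pinchings along an ultrafilter finer than `atTop` -/
theorem exists_E (x : M) : ∃ a ∈ 𝒮.A, ∀ b ∈ 𝒮.A, 𝒮.φ (b * a) = 𝒮.φ (b * x) := by
  have := Part.directed 𝒮.masa
  obtain ⟨a, h1, -, h2⟩ := 𝒮.exists_wlim_S x _ (Ultrafilter.of_le atTop)
  exact ⟨a, h1, h2⟩

/-- the conditional expectation -/
noncomputable def E (x : M) : M := (𝒮.exists_E x).choose

lemma E_mem (x : M) : 𝒮.E x ∈ 𝒮.A := (𝒮.exists_E x).choose_spec.1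

lemma E_char (x : M) {b : M} (hb : b ∈ 𝒮.A) : 𝒮.φ (b * 𝒮.E x) = 𝒮.φ (b * x) :=
  (𝒮.exists_E x).choose_spec.2 b hb

lemma eq_of_mem {a a' : M} (ha : a ∈ 𝒮.A) (ha' : a' ∈ 𝒮.A)
    (h : ∀ b ∈ 𝒮.A, 𝒮.φ (b * a) = 𝒮.φ (b * a')) : a = a' := by
  refine sub_eq_zero.1 (𝒮.faithful _ ?_)
  rw [mul_sub, map_sub, h _ (star_mem (sub_mem ha ha')), sub_self]

lemma E_unique {x a : M} (ha : a ∈ 𝒮.A) (h : ∀ b ∈ 𝒮.A, 𝒮.φ (b * a) = 𝒮.φ (b * x)) :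
    𝒮.E x = a :=
  𝒮.eq_of_mem (𝒮.E_mem x) ha fun b hb => (𝒮.E_char x hb).trans (h b hb).symm

lemma φ_E (x : M) : 𝒮.φ (𝒮.E x) = 𝒮.φ x := by
  simpa only [one_mul] using 𝒮.E_char x (one_mem _)
lemma E_of_mem {a : M} (ha : a ∈ 𝒮.A) : 𝒮.E a = a :=
  𝒮.E_unique ha fun _ _ => rfl
lemma E_add (x y : M) : 𝒮.E (x + y) = 𝒮.E x + 𝒮.E y :=
  𝒮.E_unique (add_mem (𝒮.E_mem x) (𝒮.E_mem y)) fun b hb => by
    rw [mul_add, mul_add, map_add, map_add, 𝒮.E_char x hb, 𝒮.E_char y hb]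
lemma E_sub (x y : M) : 𝒮.E (x - y) = 𝒮.E x - 𝒮.E y :=
  𝒮.E_unique (sub_mem (𝒮.E_mem x) (𝒮.E_mem y)) fun b hb => by
    rw [mul_sub, mul_sub, map_sub, map_sub, 𝒮.E_char x hb, 𝒮.E_char y hb]
lemma E_smul (c : ℂ) (x : M) : 𝒮.E (c • x) = c • 𝒮.E x :=
  𝒮.E_unique (𝒮.A.smul_mem (𝒮.E_mem x) c) fun b hb => by
    rw [mul_smul_comm, mul_smul_comm, map_smul, map_smul, 𝒮.E_char x hb]
lemma E_zero : 𝒮.E 0 = 0 :=
  𝒮.E_of_mem (zero_mem _)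
lemma E_sum {I : Type*} (s : Finset I) (f : I → M) : 𝒮.E (∑ i ∈ s, f i) = ∑ i ∈ s, 𝒮.E (f i) :=
  map_sum (AddMonoidHom.mk' 𝒮.E 𝒮.E_add) f s
lemma E_star (x : M) : 𝒮.E (star x) = star (𝒮.E x) :=
  𝒮.E_unique (star_mem (𝒮.E_mem x)) fun b hb => by
    have := congrArg star (𝒮.E_char x (star_mem hb))
    rw [← map_star, ← map_star, star_mul, star_mul, star_star] at this
    rw [𝒮.central b hb, 𝒮.central b hb, this]
lemma E_mul_left {a : M} (ha : a ∈ 𝒮.A) (x : M) : 𝒮.E (a * x) = a * 𝒮.E x :=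
  𝒮.E_unique (mul_mem ha (𝒮.E_mem x)) fun b hb => by
    rw [← mul_assoc, ← mul_assoc, 𝒮.E_char x (mul_mem hb ha)]
lemma E_mul_right {a : M} (ha : a ∈ 𝒮.A) (x : M) : 𝒮.E (x * a) = 𝒮.E x * a :=
  𝒮.E_unique (mul_mem (𝒮.E_mem x) ha) fun b hb => by
    rw [← mul_assoc, ← mul_assoc, ← 𝒮.central a ha, ← 𝒮.central a ha, ← mul_assoc, ← mul_assoc,
      𝒮.E_char x (mul_mem ha hb)]
lemma wlim_S (x : M) : 𝒮.W.WLim atTop (fun e : Part 𝒮.A => e.S x) (𝒮.E x) := by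
  intro ω hω a b
  refine (tendsto_iff_ultrafilter _ _ _).2 fun 𝒰 h => ?_
  obtain ⟨y, h1, h2, h3⟩ := 𝒮.exists_wlim_S x 𝒰 h
  rw [𝒮.E_unique h1 h3]
  exact h2 ω hω a b
lemma nrm_S_sub {f g : Part 𝒮.A} (h : f ≤ g) (x : M) :
    nrm 𝒮.φ (f.S x - g.S x) ^ 2 = nrm 𝒮.φ (f.S x) ^ 2 - nrm 𝒮.φ (g.S x) ^ 2 := by
  have c : ∀ y ∈ g.s, ∀ z, y * g.S z = g.S z * y := fun y hy z =>
    g.comm_S 𝒮.masa (g.mem y hy) (fun _ hy' => Part.eq_or_zero le_rfl hy hy') z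
  have e1 : ∀ z u, g.S (g.S z * u) = g.S z * g.S u := fun z u => by
    change ∑ f ∈ g.s, _ = _ * ∑ f ∈ g.s, _
    rw [Finset.mul_sum]
    exact Finset.sum_congr rfl fun y hy => by simp only [← mul_assoc, c y hy]
  have e2 : ∀ z u, g.S (u * g.S z) = g.S u * g.S z := fun z u => by
    change ∑ f ∈ g.s, _ = (∑ f ∈ g.s, _) * _
    rw [Finset.sum_mul]
    exact Finset.sum_congr rfl fun y hy => by simp only [mul_assoc, c y hy]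
  have a1 : 𝒮.φ (star (g.S x) * f.S x) = 𝒮.φ (star (g.S x) * g.S x) := by
    rw [← 𝒮.φ_S g, ← Part.S_star, e1, (Part.S_S h x).1]
  have a2 : 𝒮.φ (star (f.S x) * g.S x) = 𝒮.φ (star (g.S x) * g.S x) := by
    rw [← 𝒮.φ_S g, e2, Part.S_star, (Part.S_S h x).1]
  simp only [nrm_sq, star_sub, sub_mul, mul_sub, map_sub, a1, a2, sub_self, sub_zero,
    Complex.sub_re]
/-- the pinchings are decreasing orthogonal projections of `L²(φ)` -/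
theorem S_tendsto (x : M) {ε : ℝ} (hε : 0 < ε) :
    ∃ e₀ : Part 𝒮.A, ∀ f, e₀ ≤ f → nrm 𝒮.φ (f.S x - 𝒮.E x) ≤ ε := by
  have := Part.directed 𝒮.masa
  have hb : BddBelow (Set.range fun e : Part 𝒮.A => nrm 𝒮.φ (e.S x) ^ 2) :=
    ⟨0, by rintro _ ⟨e, rfl⟩; positivity⟩
  obtain ⟨e₀, h0⟩ := exists_lt_of_ciInf_lt (f := fun e : Part 𝒮.A => nrm 𝒮.φ (e.S x) ^ 2)
    (lt_add_of_pos_right _ (pow_pos hε 2))
  refine ⟨e₀, fun f hf => 𝒮.normal.nrm_le (R := ‖x‖ + ‖x‖) (Eventually.of_forall fun g =>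
    (norm_sub_le _ _).trans (add_le_add (f.norm_S_le x) (Part.norm_S_le g x)))
    ((WAlg.WLim.const _).sub (𝒮.wlim_S x)) ((eventually_ge_atTop f).mono fun g hg => ?_)⟩
  refine (pow_le_pow_iff_left₀ (nrm_nonneg _ _) hε.le two_ne_zero).1 ?_
  have a1 := 𝒮.nrm_S_sub hf x
  have a2 := ciInf_le hb g
  rw [𝒮.nrm_S_sub hg x]
  linarith [sq_nonneg (nrm 𝒮.φ (e₀.S x - f.S x))]
lemma E_nonneg {x : M} (hx : 0 ≤ x) : 0 ≤ 𝒮.E x := by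
  have := Part.directed 𝒮.masa
  exact (𝒮.wlim_S x).nonneg (Eventually.of_forall fun e => e.S_nonneg hx)
lemma norm_E_le (x : M) : ‖𝒮.E x‖ ≤ ‖x‖ := by
  have := Part.directed 𝒮.masa
  exact (𝒮.wlim_S x).norm_le (Eventually.of_forall fun e => e.norm_S_le x)
lemma nrm_E_le (x : M) : nrm 𝒮.φ (𝒮.E x) ≤ nrm 𝒮.φ x := by
  have := Part.directed 𝒮.masa
  refine 𝒮.normal.nrm_le (Eventually.of_forall fun e : Part 𝒮.A => e.norm_S_le x) (𝒮.wlim_S x)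
    (Eventually.of_forall fun e => ?_)
  have := e.isPartn.nrm_pinch_le 𝒮.central x
  rwa [Finset.sum_coe_sort e.s (fun f => f * x * f)] at this
lemma nrm_one : nrm 𝒮.φ 1 = 1 := by
  simp [nrm, 𝒮.one]
lemma eq_zero_of_nrm {x : M} (h : nrm 𝒮.φ x = 0) : x = 0 :=
  𝒮.faithful x (by rw [← nrm_sq', h]; simp)
/-- right multiplication is `L²`-continuous on bounded sets (`WAlg.continuity`) -/
lemma nrm_mul_small (b : M) (R : ℝ) {ε : ℝ} (hε : 0 < ε) :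
    ∃ δ > 0, ∀ c, ‖c‖ ≤ R → nrm 𝒮.φ c ≤ δ → nrm 𝒮.φ (c * b) ≤ ε := by
  obtain ⟨δ, hδ, h⟩ := 𝒮.W.continuity (p := 1) 𝒮.normal
    (ω := PositiveLinearMap.mk₀ (𝒮.φ.toLinearMap ∘ₗ LinearMap.mulRight ℂ b ∘ₗ
      LinearMap.mulLeft ℂ (star b)) fun x hx => 𝒮.φ.map_nonneg (star_left_conjugate_nonneg hx b))
    (𝒮.normal.mul (star b) b) (fun x hx => by rw [𝒮.faithful x hx, zero_mul]) (pow_pos hε 2)
    (R * R)
  refine ⟨√δ, Real.sqrt_pos.2 hδ, fun c h1 h2 => ?_⟩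
  have h3 := h (star c * c) (star_mul_self_nonneg c) (by
    rw [CStarRing.norm_star_mul_self]
    exact mul_self_le_mul_self (norm_nonneg _) h1) (mul_one _) (by
    rw [← nrm_sq, ← Real.sq_sqrt hδ.le]
    exact pow_le_pow_left₀ (nrm_nonneg _ _) h2 2)
  refine (pow_le_pow_iff_left₀ (nrm_nonneg _ _) hε.le two_ne_zero).1 ?_
  rw [nrm_sq, star_mul, ← mul_assoc, mul_assoc (star b)]
  exact h3

/-- `E` as a continuous linear map -/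
lemma exists_E_clm : ∃ F : M →L[ℂ] M, ∀ x, F x = 𝒮.E x :=
  ⟨LinearMap.mkContinuous ⟨⟨𝒮.E, 𝒮.E_add⟩, 𝒮.E_smul⟩ 1
    (fun x => (𝒮.norm_E_le x).trans_eq (one_mul _).symm), fun _ => rfl⟩

end WSys

end Vale.Agent.P078
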