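import Vale.Agent.P078.General
import Vale.Agent.P078.Concrete

/-! The concrete theorem. -/

namespace Vale.Agent.P078

universe u

/-- `general` for `M'` of `exists_walg` and `A' = A.comap ι` -/
theorem so_paving : ∃ C > 0, ∀ ε : ℝ, 0 < ε → ε < 1 → ∃ r : ℕ, 1 ≤ r ∧ (r : ℝ) ≤ C / ε ^ 2 ∧
    ∀ (H : Type u) [NormedAddCommGroup H] [InnerProductSpace ℂ H] [CompleteSpace H]
      (M : VonNeumannAlgebra H) (A : StarSubalgebra ℂ (H →L[ℂ] H)), IsMASA M A →
      ∀ x ∈ M, IsSelfAdjoint x → SoPavable M A x ε r := by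
  obtain ⟨C, hC, h⟩ := general.{u}
  refine ⟨C, hC, fun ε h0 h1 => ?_⟩
  obtain ⟨r, hr1, hr, h⟩ := h ε h0 h1
  refine ⟨r, hr1, hr, fun H _ _ _ M A hA x hxM hx F δ hδ => ?_⟩
  obtain ⟨M', _, _, _, 𝒲, ι, hn, hM, hF⟩ := exists_walg M
  have hinj : ∀ y z, ι y = ι z → y = z := fun y z hyz => by
    have := hn (y - z)
    rw [map_sub, hyz, sub_self, norm_zero] at this
    exact sub_eq_zero.1 (norm_eq_zero.1 this.symm)
  have hA' : IsMasa (A.comap ι) := fun y => by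
    refine ⟨fun hy a ha => hinj _ _ ?_, fun hy => ?_⟩
    · rw [map_mul, map_mul]; exact hA.2.1 _ ha _ hy
    · change ι y ∈ A
      refine hA.mem_of_comm ((hM _).2 ⟨y, rfl⟩) fun a ha => ?_
      obtain ⟨b, rfl⟩ := (hM a).1 (hA.1 a ha)
      rw [← map_mul, ← map_mul, hy b ha]
  obtain ⟨ω, hω, hωF⟩ := hF F
  obtain ⟨y, rfl⟩ := (hM x).1 hxM
  have hy : IsSelfAdjoint y := hinj _ _ (by rw [map_star, hx.star_eq])
  obtain ⟨p, a, q, hp, ha, has, han, hq, hωq, hb⟩ :=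
    h M' 𝒲 _ hA' ω hω y hy (δ ^ 2 / 2) (by positivity)
  have hsa : ∀ z, IsSelfAdjoint z → IsSelfAdjoint (ι z) := fun z hz => by
    rw [IsSelfAdjoint, ← map_star, hz.star_eq]
  refine ⟨fun i => ι (p i), ι a, ι q, ⟨fun i => ⟨(hp.1 i).1, hsa _ (hp.1 i).2.isSelfAdjoint, by
    rw [← map_mul, (hp.1 i).2.isIdempotentElem.eq]⟩, fun i j hij => by
    rw [← map_mul, hp.2.1 i j hij, map_zero], by rw [← map_sum, hp.2.2, map_one]⟩, ha, hsa _ has,
    by rw [hn, hn]; exact han, (hM _).2 ⟨q, rfl⟩, hsa _ hq.isSelfAdjoint,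
    by rw [← map_mul, hq.isIdempotentElem.eq], fun ξ hξ => ?_, ?_⟩
  · have e1 : (1 : H →L[ℂ] H) - ι q = ι (1 - q) := by rw [map_sub, map_one]
    have e2 : ∀ η : H, (inner ℂ η (ι (1 - q) η)).re = ‖ι (1 - q) η‖ ^ 2 := fun η => by
      have e3 : ι (1 - q) = star (ι (1 - q)) * ι (1 - q) := by
        rw [← map_star, ← map_mul, hq.one_sub.isSelfAdjoint.star_eq, hq.one_sub.isIdempotentElem.eq]
      nth_rewrite 1 [e3]
      rw [mul_apply_eq_comp, ContinuousLinearMap.star_eq_adjoint,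
        ContinuousLinearMap.adjoint_inner_right, inner_self_eq_norm_sq_to_K]
      norm_cast
    rw [hωF, Complex.re_sum] at hωq
    simp only [e2] at hωq
    have e4 := (Finset.single_le_sum (f := fun η => ‖ι (1 - q) η‖ ^ 2)
      (fun _ _ => sq_nonneg _) hξ).trans hωq
    rw [e1]
    refine lt_of_pow_lt_pow_left₀ 2 hδ.le (lt_of_le_of_lt e4 ?_)
    have : 0 < δ ^ 2 := by positivity
    linarith
  · simp only [← map_mul, ← map_sum, ← map_sub, hn]
    exact hb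

end Vale.Agent.P078
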