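import Vale.Agent.P078.Net

/-! Random rooted networks with a (weighted) mass transport principle. -/

namespace Vale.Agent.P078

open Finset MeasureTheory

universe u

/-- A continuous family of rooted networks with root change maps. `pt s v` is the point of `Ω`
sitting at the vertex `v`; `Φ s u` embeds the network of `pt s u` into the network of `s`. -/
structure Model (Ω V : Type u) [TopologicalSpace Ω] [MeasurableSpace Ω] [DecidableEq V] (D : ℕ)
    (K : ℝ) where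
  μ : Measure Ω
  prob : IsProbabilityMeasure μ
  net : Ω → Net V D K
  o : V
  pt : Ω → V → Ω
  Φ : Ω → V → V → V
  inv : Ω → V → V
  nbr_lc : ∀ v, IsLocallyConstant fun s => (net s).nbr v
  x_cont : ∀ a b, Continuous fun s => (net s).x a b
  w_cont : ∀ a, Continuous fun s => (net s).w a
  pt_cont : ∀ v, Continuous fun s => pt s v
  inv_lc : ∀ v, IsLocallyConstant fun s => inv s v
  w_root : ∀ s, (net s).w o = 1
  pt_root : ∀ s, pt s o = s
  Φ_root : ∀ s n, ∀ u ∈ (net s).ball o n, Φ s u o = u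
  Φ_inj : ∀ s n, ∀ u ∈ (net s).ball o n, ∀ m, Set.InjOn (Φ s u) ((net (pt s u)).ball o m)
  Φ_nbr : ∀ s n, ∀ u ∈ (net s).ball o n, ∀ m, ∀ v ∈ (net (pt s u)).ball o m,
    (net s).nbr (Φ s u v) = ((net (pt s u)).nbr v).image (Φ s u)
  Φ_pt : ∀ s n, ∀ u ∈ (net s).ball o n, ∀ m, ∀ v ∈ (net (pt s u)).ball o m,
    pt s (Φ s u v) = pt (pt s u) v
  Φ_w : ∀ s n, ∀ u ∈ (net s).ball o n, ∀ m, ∀ v ∈ (net (pt s u)).ball o m,
    (net s).w (Φ s u v) = (net s).w u * (net (pt s u)).w v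
  Φ_x : ∀ s n, ∀ u ∈ (net s).ball o n, ∃ g : V → ℂ, (∀ v, ‖g v‖ = 1) ∧ ∀ m,
    ∀ a ∈ (net (pt s u)).ball o m, ∀ b ∈ (net (pt s u)).ball o m,
      (net s).x (Φ s u a) (Φ s u b) = g a * (net (pt s u)).x a b * star (g b)
  inv_mem : ∀ s n, ∀ u ∈ (net s).ball o n, inv s u ∈ (net (pt s u)).ball o n
  Φ_inv : ∀ s n, ∀ u ∈ (net s).ball o n, Φ s u (inv s u) = o
  mtp : ∀ (n : ℕ) (F : Ω → V → ℝ), (∀ v, Continuous fun s => F s v) →
    ∫ s, ∑ u ∈ (net s).ball o n, F s u ∂μ =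
      ∫ s, ∑ u ∈ (net s).ball o n, (net s).w u * F (pt s u) (inv s u) ∂μ
  approx : ∀ f : Ω → ℝ, Continuous f → ∀ ε > 0, ∃ g : Ω → ℝ, IsLocallyConstant g ∧
    ∀ s, |f s - g s| ≤ ε

variable {Ω V : Type u} [TopologicalSpace Ω] [CompactSpace Ω] [MeasurableSpace Ω] [BorelSpace Ω]
  [DecidableEq V] {D : ℕ} {K : ℝ}

namespace Model

/-- ball around the root -/
def B (𝓜 : Model Ω V D K) (s : Ω) (n : ℕ) : Finset V := (𝓜.net s).ball 𝓜.o n

/-- the pattern seen from `s` -/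
def patt (𝓜 : Model Ω V D K) {α : Type*} (β : Ω → α) (s : Ω) : V → α := fun v => β (𝓜.pt s v)

/-- the potential -/
noncomputable def Pot (𝓜 : Model Ω V D K) {r : ℕ} [NeZero r] (ζ : ℂ) (n : ℕ) (β : Ω → St r) : ℝ :=
  ∫ s, dens2 (𝓜.net s) ζ (𝓜.patt β s) (𝓜.B s n) 𝓜.o ∂𝓜.μ

/-- measure of the uncoloured part -/
noncomputable def Un (𝓜 : Model Ω V D K) {r : ℕ} (β : Ω → St r) : ℝ :=
  𝓜.μ.real {s | β s = none}

/-- points whose `n`-ball is not separated by the labelling `e` -/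
def Bad (𝓜 : Model Ω V D K) {J : Type*} (e : Ω → J) (n : ℕ) : Set Ω :=
  {s | ¬ Set.InjOn (𝓜.patt e s) (𝓜.B s n)}

omit [CompactSpace Ω] [BorelSpace Ω] in
lemma ball_lc (𝓜 : Model Ω V D K) (v : V) (n : ℕ) :
    IsLocallyConstant fun s => (𝓜.net s).ball v n := by
  induction n with
  | zero => exact IsLocallyConstant.const _
  | succ n ih =>
    rw [IsLocallyConstant.iff_eventually_eq]
    intro s
    have h1 := ih.eventually_eq s
    have h2 : ∀ᶠ y in nhds s, ∀ a ∈ (𝓜.net s).ball v n, (𝓜.net y).nbr a = (𝓜.net s).nbr a :=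
      (Filter.eventually_all_finset _).2 fun a _ => (𝓜.nbr_lc a).eventually_eq s
    filter_upwards [h1, h2] with y k1 k2
    simp only [Net.ball, k1]
    rw [Finset.biUnion_congr rfl k2]

omit [CompactSpace Ω] [BorelSpace Ω] in
lemma image_ball (𝓜 : Model Ω V D K) {s : Ω} {n : ℕ} {u : V} (hu : u ∈ 𝓜.B s n) {m : ℕ} {v : V}
    (hv : v ∈ 𝓜.B (𝓜.pt s u) m) (k : ℕ) :
    ((𝓜.net (𝓜.pt s u)).ball v k).image (𝓜.Φ s u) = (𝓜.net s).ball (𝓜.Φ s u v) k := by
  induction k with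
  | zero => simp [Net.ball]
  | succ k ih =>
    simp only [Net.ball, Finset.image_union, ← ih, Finset.biUnion_image, Finset.image_biUnion]
    congr 1
    refine Finset.biUnion_congr rfl fun y hy => ?_
    exact (𝓜.Φ_nbr s n u hu (m + k) y ((𝓜.net _).ball_trans hv hy)).symm

omit [CompactSpace Ω] [BorelSpace Ω] in
/-- root change for the density (`dens_image`) -/
lemma dens2_root (𝓜 : Model Ω V D K) {r : ℕ} [NeZero r] (ζ : ℂ) {s : Ω} {n : ℕ} {u : V}
    (hu : u ∈ 𝓜.B s n) (π : V → St r) (k : ℕ) :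
    dens2 (𝓜.net (𝓜.pt s u)) ζ (fun v => π (𝓜.Φ s u v)) (𝓜.B (𝓜.pt s u) k) 𝓜.o =
      dens2 (𝓜.net s) ζ π ((𝓜.net s).ball u k) u := by
  have e := 𝓜.image_ball hu (m := 0) (v := 𝓜.o) ((𝓜.net _).mem_ball_self _ 0) k
  obtain ⟨g, hg, hx⟩ := 𝓜.Φ_x s n u hu
  have key : ∀ σ : ℝ, dens (𝓜.net (𝓜.pt s u)) σ ζ (fun v => π (𝓜.Φ s u v))
      (𝓜.B (𝓜.pt s u) k) 𝓜.o = dens (𝓜.net s) σ ζ π ((𝓜.net s).ball u k) u := fun σ => by
    have := dens_image (𝓜.net s) (𝓜.net (𝓜.pt s u)) σ ζ π ((𝓜.net _).mem_ball_self 𝓜.o k)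
      (𝓜.Φ s u) (𝓜.Φ_inj s n u hu k) g hg (hx k) (𝓜.Φ_w s n u hu k)
    rw [e, 𝓜.Φ_root s n u hu] at this
    exact this.symm
  rw [dens2, dens2, key, key]

omit [CompactSpace Ω] [BorelSpace Ω] in
/-- a function of `s`, of a ball and of finitely many locally constant values is continuous -/
lemma continuous_of_pattern (𝓜 : Model Ω V D K) {α γ : Type*} [TopologicalSpace γ] (n : ℕ)
    (π : Ω → V → α) (hπ : ∀ v, IsLocallyConstant fun s => π s v)
    (f : Ω → (V → α) → Finset V → γ) (hf : ∀ p W, 𝓜.o ∈ W → Continuous fun s => f s p W)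
    (hloc : ∀ s p p' W, (∀ v ∈ W, p v = p' v) → f s p W = f s p' W) :
    Continuous fun s => f s (π s) (𝓜.B s n) := by
  refine continuous_iff_continuousAt.2 fun s => ?_
  refine (hf (π s) (𝓜.B s n) ((𝓜.net s).mem_ball_self _ n)).continuousAt.congr ?_
  have h1 := (𝓜.ball_lc 𝓜.o n).eventually_eq s
  have h2 : ∀ᶠ y in nhds s, ∀ a ∈ 𝓜.B s n, π y a = π s a :=
    (Filter.eventually_all_finset _).2 fun a _ => (hπ a).eventually_eq s
  filter_upwards [h1, h2] with y k1 k2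
  have k3 : 𝓜.B y n = 𝓜.B s n := k1
  rw [k3]
  exact hloc _ _ _ _ fun v hv => (k2 v hv).symm

/-- `mtp` with `F s u = f (pt s u)` -/
lemma integral_sum_ball_le (𝓜 : Model Ω V D K) (hK : 1 ≤ K) (n : ℕ) {f : Ω → ℝ}
    (hf : Continuous f) (h0 : ∀ s, 0 ≤ f s) :
    ∫ s, ∑ u ∈ 𝓜.B s n, f (𝓜.pt s u) ∂𝓜.μ ≤ ((D + 1) * K) ^ n * ∫ s, f s ∂𝓜.μ := by
  have := 𝓜.prob
  have hi : Integrable f 𝓜.μ :=
    (BoundedContinuousFunction.mkOfCompact ⟨f, hf⟩).integrable 𝓜.μ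
  have e := 𝓜.mtp n (fun s u => f (𝓜.pt s u)) (fun v => hf.comp (𝓜.pt_cont v))
  unfold B
  rw [e, ← integral_const_mul]
  refine integral_mono_of_nonneg (Filter.Eventually.of_forall fun s => ?_) (hi.const_mul _)
    (Filter.Eventually.of_forall fun s => ?_)
  · exact Finset.sum_nonneg fun u _ => mul_nonneg ((𝓜.net s).wpos u).le (h0 _)
  · have h1 : ∀ u ∈ (𝓜.net s).ball 𝓜.o n,
        (𝓜.net s).w u * f (𝓜.pt (𝓜.pt s u) (𝓜.inv s u)) ≤ K ^ n * f s := by
      intro u hu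
      rw [← 𝓜.Φ_pt s n u hu n _ (𝓜.inv_mem s n u hu), 𝓜.Φ_inv s n u hu, 𝓜.pt_root]
      have := (𝓜.net s).w_le hK hu
      rw [𝓜.w_root, mul_one] at this
      exact mul_le_mul_of_nonneg_right this (h0 s)
    refine (Finset.sum_le_card_nsmul _ _ _ h1).trans ?_
    have h2 : (((𝓜.net s).ball 𝓜.o n).card : ℝ) ≤ ((D : ℝ) + 1) ^ n := by
      exact_mod_cast (𝓜.net s).card_ball 𝓜.o n
    beta_reduce
    rw [nsmul_eq_mul, mul_pow, mul_assoc]
    exact mul_le_mul_of_nonneg_right h2 (mul_nonneg (by positivity) (h0 s))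

omit [CompactSpace Ω] [BorelSpace Ω] in
lemma isClopen_bad (𝓜 : Model Ω V D K) {J : Type*} {e : Ω → J} (he : IsLocallyConstant e) (n : ℕ) :
    IsClopen (𝓜.Bad e n) := by
  have : IsLocallyConstant fun s => ¬ Set.InjOn (𝓜.patt e s) (𝓜.B s n) := by
    rw [IsLocallyConstant.iff_eventually_eq]
    intro s
    have h1 := (𝓜.ball_lc 𝓜.o n).eventually_eq s
    have h2 : ∀ᶠ y in nhds s, ∀ a ∈ 𝓜.B s n, 𝓜.patt e y a = 𝓜.patt e s a :=
      (Filter.eventually_all_finset _).2 fun a _ =>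
        (he.comp_continuous (𝓜.pt_cont a)).eventually_eq s
    filter_upwards [h1, h2] with y k1 k2
    have k3 : 𝓜.B y n = 𝓜.B s n := k1
    rw [k3, Set.EqOn.injOn_iff (f₁ := 𝓜.patt e y) (f₂ := 𝓜.patt e s) fun a ha => k2 a ha]
  have h := this.isClopen_fiber True
  simp only [eq_iff_iff, iff_true] at h
  exact h

omit [CompactSpace Ω] [BorelSpace Ω] in
lemma walk_continuous (𝓜 : Model Ω V D K) {r : ℕ} {β : Ω → St r} (hβ : IsLocallyConstant β)
    (k : ℕ) (v : V) : Continuous fun s => walk (𝓜.net s) (𝓜.patt β s) 𝓜.o k v := by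
  induction k generalizing v with
  | zero => exact continuous_const
  | succ k ih =>
    refine continuous_iff_continuousAt.2 fun s => ?_
    have hc : Continuous fun y => ∑ u ∈ (𝓜.net s).nbr v,
        (if 𝓜.patt β s v = 𝓜.patt β s u ∧ 𝓜.patt β s v ≠ none then (𝓜.net y).x v u else 0) *
          walk (𝓜.net y) (𝓜.patt β y) 𝓜.o k u := by
      refine continuous_finsetSum _ fun u _ => Continuous.mul ?_ (ih u)
      split_ifs
      · exact 𝓜.x_cont v u
      · exact continuous_const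
    refine hc.continuousAt.congr ?_
    have h0 : ∀ a, ∀ᶠ y in nhds s, 𝓜.patt β y a = 𝓜.patt β s a := fun a =>
      (hβ.comp_continuous (𝓜.pt_cont a)).eventually_eq s
    have h1 := (𝓜.nbr_lc v).eventually_eq s
    have h2 : ∀ᶠ y in nhds s, ∀ a ∈ (𝓜.net s).nbr v, 𝓜.patt β y a = 𝓜.patt β s a :=
      (Filter.eventually_all_finset _).2 fun a _ => h0 a
    filter_upwards [h0 v, h1, h2] with y k0 k1 k2
    simp only [walk, k1]
    refine Finset.sum_congr rfl fun u hu => ?_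
    rw [pinch, k0, k2 u hu]

end Model

end Vale.Agent.P078
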