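import Vale.Agent.P078.Exp

/-! The spectrum of `A` with the fibre states `fs s = s ∘ E`. -/

namespace Vale.Agent.P078

open MeasureTheory
open scoped ComplexOrder

universe u

variable {M : Type u} [CStarAlgebra M] [PartialOrder M] [StarOrderedRing M]

/-- `A = C(Ω)`, `φ = ∫ fs s dμ` -/
structure Spec (𝒮 : WSys M) (Ω : Type u) [TopologicalSpace Ω] [MeasurableSpace Ω] where
  μ : Measure Ω
  prob : IsProbabilityMeasure μ
  fs : Ω → M →ₚ[ℂ] ℂ
  fs_one : ∀ s, fs s 1 = 1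
  fs_E : ∀ s x, fs s (𝒮.E x) = fs s x
  fs_mul : ∀ s, ∀ a ∈ 𝒮.A, ∀ x, fs s (a * x) = fs s a * fs s x
  cont : ∀ x, Continuous fun s => fs s x
  integral : ∀ x, 𝒮.φ x = ∫ s, fs s x ∂μ
  surj : ∀ f : Ω → ℂ, Continuous f → ∃ a ∈ 𝒮.A, ∀ s, fs s a = f s
  inj : ∀ a ∈ 𝒮.A, (∀ s, fs s a = 0) → a = 0
  ext : ∀ s t, (∀ a ∈ 𝒮.A, fs s a = fs t a) → s = t
  point : ∀ χ : M → ℂ, χ 1 = 1 → (∀ a ∈ 𝒮.A, ∀ b ∈ 𝒮.A, χ (a + b) = χ a + χ b) →
    (∀ (c : ℂ), ∀ a ∈ 𝒮.A, χ (c • a) = c * χ a) → (∀ a ∈ 𝒮.A, ∀ b ∈ 𝒮.A, χ (a * b) = χ a * χ b) →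
    ∃ s, ∀ a ∈ 𝒮.A, fs s a = χ a

namespace SpecAux

open CompactlySupported

lemma exists_measure {Ω : Type*} [TopologicalSpace Ω] [CompactSpace Ω] [T2Space Ω]
    [MeasurableSpace Ω] [BorelSpace Ω] (L : C(Ω, ℂ) →ₗ[ℂ] ℂ) (h1 : ∀ g, 0 ≤ L (star g * g))
    (h2 : ∀ g, L (star g) = star (L g)) :
    ∃ μ : Measure Ω, IsFiniteMeasure μ ∧ ∀ g : C(Ω, ℂ), L g = ∫ s, g s ∂μ := by
  let R : C_c(Ω, ℝ) → C(Ω, ℂ) := fun f => ⟨fun s => (f s : ℂ), by fun_prop⟩
  let Λ : C_c(Ω, ℝ) →ₚ[ℝ] ℝ := PositiveLinearMap.mk₀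
    { toFun := fun f => (L (R f)).re
      map_add' := fun f g => by
        have : R (f + g) = R f + R g := by ext s; simp [R]
        rw [this, map_add, Complex.add_re]
      map_smul' := fun c f => by
        have : R (c • f) = (c : ℂ) • R f := by ext s; simp [R]
        rw [this, map_smul, smul_eq_mul, Complex.re_ofReal_mul, RingHom.id_apply, smul_eq_mul] }
    fun f hf => by
      let g : C(Ω, ℂ) := ⟨fun s => (√(f s) : ℂ), by fun_prop⟩
      have : R f = star g * g := by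
        ext s
        have h0 : 0 ≤ f s := hf s
        simp [R, g, ← Complex.ofReal_mul, Real.mul_self_sqrt h0]
      change 0 ≤ (L (R f)).re
      rw [this]
      exact (Complex.nonneg_iff.1 (h1 g)).1
  have key : ∀ f, L (R f) = ∫ s, R f s ∂(RealRMK.rieszMeasure Λ) := fun f => by
    have e : star (R f) = R f := by ext s; simp [R]
    have k := h2 (R f)
    rw [e] at k
    change _ = ∫ s, (f s : ℂ) ∂_
    rw [integral_complex_ofReal, RealRMK.integral_rieszMeasure]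
    exact (Complex.conj_eq_iff_re.1 k.symm).symm
  refine ⟨RealRMK.rieszMeasure Λ, inferInstance, fun g => ?_⟩
  let a : C_c(Ω, ℝ) := ⟨⟨fun s => (g s).re, by fun_prop⟩, HasCompactSupport.of_compactSpace _⟩
  let b : C_c(Ω, ℝ) := ⟨⟨fun s => (g s).im, by fun_prop⟩, HasCompactSupport.of_compactSpace _⟩
  have e : g = R a + Complex.I • R b := by
    ext s
    change g s = ((g s).re : ℂ) + Complex.I * ((g s).im : ℂ)
    rw [mul_comm, Complex.re_add_im]
  have hi : ∀ F : C(Ω, ℂ), Integrable F (RealRMK.rieszMeasure Λ) := fun F =>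
    F.continuous.integrable_of_hasCompactSupport (HasCompactSupport.of_compactSpace _)
  rw [e, map_add, map_smul, key, key, smul_eq_mul, ← integral_const_mul,
    ← integral_add (hi _) ((hi _).const_mul _)]
  rfl

/-- the MASA as a type -/
def Alg (𝒮 : WSys M) : Type u := 𝒮.A

noncomputable instance (𝒮 : WSys M) : CommCStarAlgebra (Alg 𝒮) :=
  { StarSubalgebra.cstarAlgebra 𝒮.A (h_closed := 𝒮.masa.isClosed) with
    mul_comm := fun a b => Subtype.ext (𝒮.masa.comm a.2 b.2) }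

/-- the inclusion -/
noncomputable def inc (𝒮 : WSys M) : Alg 𝒮 →⋆ₐ[ℂ] M := 𝒮.A.subtype

lemma inc_mem (𝒮 : WSys M) (a : Alg 𝒮) : inc 𝒮 a ∈ 𝒮.A := a.2

lemma inc_inj {𝒮 : WSys M} {a b : Alg 𝒮} (h : inc 𝒮 a = inc 𝒮 b) : a = b := Subtype.ext h

/-- the expectation -/
noncomputable def ex (𝒮 : WSys M) : M →ₗ[ℂ] Alg 𝒮 where
  toFun x := ⟨𝒮.E x, 𝒮.E_mem x⟩
  map_add' x y := Subtype.ext (𝒮.E_add x y)
  map_smul' c x := Subtype.ext (𝒮.E_smul c x)

lemma inc_ex (𝒮 : WSys M) (x : M) : inc 𝒮 (ex 𝒮 x) = 𝒮.E x := rfl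

lemma ex_inc (𝒮 : WSys M) (a : Alg 𝒮) : ex 𝒮 (inc 𝒮 a) = a := Subtype.ext (𝒮.E_of_mem a.2)

/-- the fibre state -/
noncomputable def fib (𝒮 : WSys M) (s : WeakDual.characterSpace ℂ (Alg 𝒮)) : M →ₚ[ℂ] ℂ :=
  PositiveLinearMap.mk₀
    { toFun := fun x => s (ex 𝒮 x)
      map_add' := fun x y => by rw [map_add, map_add]
      map_smul' := fun c x => by rw [map_smul, map_smul, RingHom.id_apply] }
    fun x hx => by
      have h0 := 𝒮.E_nonneg hx
      have hb := 𝒮.masa.cfc_mem (𝒮.E_mem x) Real.sqrt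
      have e : ex 𝒮 x = star (ex 𝒮 (cfc Real.sqrt (𝒮.E x))) * ex 𝒮 (cfc Real.sqrt (𝒮.E x)) := by
        refine inc_inj ?_
        rw [map_mul, map_star, inc_ex, inc_ex, 𝒮.E_of_mem hb,
          (cfc_predicate Real.sqrt (𝒮.E x) : IsSelfAdjoint _).star_eq, ← cfc_mul ..]
        conv_lhs => rw [← cfc_id' ℝ (𝒮.E x)]
        exact cfc_congr fun t ht => (Real.mul_self_sqrt (spectrum_nonneg_of_nonneg h0 ht)).symm
      change 0 ≤ s (ex 𝒮 x)
      rw [e, map_mul, map_star]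
      exact star_mul_self_nonneg _

lemma fib_apply (𝒮 : WSys M) (s : WeakDual.characterSpace ℂ (Alg 𝒮)) (x : M) :
    fib 𝒮 s x = s (ex 𝒮 x) := rfl

end SpecAux

open SpecAux

/-- `Ω = characterSpace ℂ A` for the commutative C*-algebra `A`, `μ` from
`RealRMK.rieszMeasure`, Borel σ-algebra. -/
theorem WSys.exists_spec (𝒮 : WSys M) :
    ∃ (Ω : Type u) (_ : TopologicalSpace Ω) (_ : CompactSpace Ω) (_ : MeasurableSpace Ω)
      (_ : BorelSpace Ω), Nonempty (Spec 𝒮 Ω) := by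
  let Ω := WeakDual.characterSpace ℂ (Alg 𝒮)
  letI : MeasurableSpace Ω := borel Ω
  haveI : BorelSpace Ω := ⟨rfl⟩
  let G := gelfandStarTransform (Alg 𝒮)
  have hG : ∀ a s, G a s = s a := fun _ _ => rfl
  obtain ⟨μ, h1, h2⟩ := exists_measure (Ω := Ω)
    { toFun := fun g => 𝒮.φ (inc 𝒮 (G.symm g))
      map_add' := fun f g => by rw [map_add, map_add, map_add]
      map_smul' := fun c g => by rw [map_smul, map_smul, map_smul, RingHom.id_apply] }
    (fun g => by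
      change 0 ≤ 𝒮.φ (inc 𝒮 (G.symm (star g * g)))
      rw [map_mul, map_mul, map_star, map_star]
      exact 𝒮.φ.map_nonneg (star_mul_self_nonneg _))
    (fun g => by
      change 𝒮.φ (inc 𝒮 (G.symm (star g))) = star (𝒮.φ (inc 𝒮 (G.symm g)))
      rw [map_star, map_star, map_star])
  have hint : ∀ x, 𝒮.φ x = ∫ s, fib 𝒮 s x ∂μ := fun x => by
    have := h2 (G (ex 𝒮 x))
    change 𝒮.φ (inc 𝒮 (G.symm (G (ex 𝒮 x)))) = _ at this
    rwa [G.symm_apply_apply, inc_ex, 𝒮.φ_E] at this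
  have hone : ∀ s, fib 𝒮 s 1 = 1 := fun s => by
    rw [fib_apply, ← map_one (inc 𝒮), ex_inc, ← hG, map_one, ContinuousMap.one_apply]
  refine ⟨Ω, inferInstance, inferInstance, inferInstance, inferInstance,
    ⟨⟨μ, ?_, fib 𝒮, hone, fun s x => ?_, fun s a ha x => ?_, fun x => (G (ex 𝒮 x)).continuous,
      hint, fun f hf => ⟨inc 𝒮 (G.symm ⟨f, hf⟩), inc_mem _ _, fun s => ?_⟩, fun a ha h => ?_,
      fun s t h => ?_, fun χ k1 k2 k3 k4 => ?_⟩⟩⟩
  · have := hint 1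
    simp only [hone, 𝒮.one, integral_const, Complex.real_smul, mul_one] at this
    exact isProbabilityMeasure_iff_real.2 (by exact_mod_cast this.symm)
  · rw [fib_apply, fib_apply, ← inc_ex, ex_inc]
  · rw [fib_apply, fib_apply, fib_apply, ← map_mul]
    congr 1
    refine inc_inj ?_
    rw [map_mul (inc 𝒮), inc_ex, inc_ex, inc_ex, 𝒮.E_mul_left ha, 𝒮.E_of_mem ha]
  · rw [fib_apply, ex_inc, ← hG, G.apply_symm_apply]
    rfl
  · have : G (ex 𝒮 a) = 0 := ContinuousMap.ext h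
    rw [← 𝒮.E_of_mem ha, ← inc_ex, (map_eq_zero_iff G G.injective).1 this, map_zero]
  · refine WeakDual.CharacterSpace.ext fun a => ?_
    have := h _ (inc_mem 𝒮 a)
    rwa [fib_apply, fib_apply, ex_inc] at this
  · let f : Alg 𝒮 →ₐ[ℂ] ℂ := AlgHom.ofLinearMap
      { toFun := fun a => χ (inc 𝒮 a)
        map_add' := fun a b => by rw [map_add, k2 _ (inc_mem _ _) _ (inc_mem _ _)]
        map_smul' := fun c a => by
          rw [map_smul, k3 c _ (inc_mem _ _), RingHom.id_apply, smul_eq_mul] }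
      (by change χ (inc 𝒮 1) = 1; rw [map_one, k1])
      (fun a b => by
        change χ (inc 𝒮 (a * b)) = χ (inc 𝒮 a) * χ (inc 𝒮 b)
        rw [map_mul, k4 _ (inc_mem _ _) _ (inc_mem _ _)])
    refine ⟨WeakDual.CharacterSpace.equivAlgHom.symm f, fun a ha => ?_⟩
    change χ (inc 𝒮 (ex 𝒮 a)) = χ a
    rw [inc_ex, 𝒮.E_of_mem ha]

namespace Spec

variable {𝒮 : WSys M} {Ω : Type u} [TopologicalSpace Ω] [MeasurableSpace Ω] (σ : Spec 𝒮 Ω)

lemma fs_mul_right (s : Ω) {a : M} (ha : a ∈ 𝒮.A) (x : M) :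
    σ.fs s (x * a) = σ.fs s x * σ.fs s a := by
  have h := congrArg star (σ.fs_mul s _ (star_mem ha) (star x))
  rw [← star_mul, map_star, map_star, map_star, star_mul, star_star, star_star, star_star] at h
  exact h

lemma norm_fs_le (s : Ω) (x : M) : ‖σ.fs s x‖ ≤ ‖x‖ := by
  have h := norm_apply_le_one_mul (σ.fs s) x
  rwa [σ.fs_one, Complex.one_re, one_mul] at h

lemma eq_of_fs {a b : M} (ha : a ∈ 𝒮.A) (hb : b ∈ 𝒮.A) (h : ∀ s, σ.fs s a = σ.fs s b) : a = b := by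
  exact sub_eq_zero.1 (σ.inj _ (sub_mem ha hb) fun s => by rw [map_sub, h, sub_self])

lemma fs_proj (s : Ω) {p : M} (hp : IsStarProjection p) (hpA : p ∈ 𝒮.A) :
    σ.fs s p = 0 ∨ σ.fs s p = 1 := by
  have h := σ.fs_mul s p hpA p
  rw [hp.isIdempotentElem.eq] at h
  exact IsIdempotentElem.iff_eq_zero_or_one.1 h.symm

lemma isClopen_fs_proj {p : M} (hp : IsStarProjection p) (hpA : p ∈ 𝒮.A) :
    IsClopen {s | σ.fs s p = 1} := by
  refine ⟨isClosed_eq (σ.cont p) continuous_const, ?_⟩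
  have e : {s | σ.fs s p = 1} = {s | σ.fs s p = 0}ᶜ := by
    ext s
    rcases σ.fs_proj s hp hpA with h | h <;> simp [h]
  rw [e]
  exact (isClosed_eq (σ.cont p) continuous_const).isOpen_compl

/-- `s ↦ (fs s a)_a` is a continuous injection of a compact space into a Hausdorff space -/
lemma continuous_of [CompactSpace Ω] {T : Type*} [TopologicalSpace T] {g : T → Ω}
    (h : ∀ a ∈ 𝒮.A, Continuous fun t => σ.fs (g t) a) : Continuous g := by
  have hc : Continuous fun s (a : 𝒮.A) => σ.fs s a := continuous_pi fun a => σ.cont a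
  have he := hc.isClosedEmbedding fun s t hst => σ.ext s t fun a ha => congrFun hst ⟨a, ha⟩
  exact he.isInducing.continuous_iff.2 (continuous_pi fun a => h a a.2)

open Classical in
lemma exists_proj {C : Set Ω} (hC : IsClopen C) :
    ∃ p ∈ 𝒮.A, IsStarProjection p ∧ ∀ s, σ.fs s p = if s ∈ C then 1 else 0 := by
  obtain ⟨p, hp, h⟩ := σ.surj (fun s => if s ∈ C then 1 else 0)
    (continuous_if (p := fun s => s ∈ C) (fun s hs => by
      rw [Set.setOf_mem_eq, hC.frontier_eq] at hs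
      exact hs.elim) continuousOn_const continuousOn_const)
  refine ⟨p, hp, ⟨σ.eq_of_fs (mul_mem hp hp) hp fun s => ?_,
    σ.eq_of_fs (star_mem hp) hp fun s => ?_⟩, h⟩
  · rw [σ.fs_mul s p hp, h]
    split_ifs <;> simp
  · rw [map_star, h]
    split_ifs <;> simp

lemma exists_partn {I : Type*} [Fintype I] [DecidableEq I] {τ : Ω → I} (hτ : IsLocallyConstant τ) :
    ∃ p : I → M, IsPartn 𝒮.A p ∧ ∀ s i, σ.fs s (p i) = if τ s = i then 1 else 0 := by
  choose p h1 h2 h3 using fun i => σ.exists_proj (hτ.isClopen_fiber i)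
  have h4 : ∀ s i, σ.fs s (p i) = if τ s = i then 1 else 0 := fun s i => by
    rw [h3]
    simp
  refine ⟨p, ⟨fun i => ⟨h1 i, h2 i⟩, fun i j hij => σ.inj _ (mul_mem (h1 i) (h1 j)) fun s => ?_,
    σ.eq_of_fs (sum_mem fun i _ => h1 i) (one_mem _) fun s => ?_⟩, h4⟩
  · rw [σ.fs_mul s _ (h1 i), h4, h4]
    by_cases k : τ s = i
    · rw [if_neg (fun k' => hij (k.symm.trans k')), mul_zero]
    · rw [if_neg k, zero_mul]
  · simp [map_sum, h4, σ.fs_one]

lemma exists_label {I : Type*} [Fintype I] [DecidableEq I] {p : I → M} (hp : IsPartn 𝒮.A p) :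
    ∃ τ : Ω → I, IsLocallyConstant τ ∧ ∀ s i, σ.fs s (p i) = if τ s = i then 1 else 0 := by
  have h1 : ∀ s, ∃ i, σ.fs s (p i) = 1 := fun s => by
    by_contra h
    push Not at h
    have h2 : σ.fs s (∑ i, p i) = 0 := by
      rw [map_sum]
      exact Finset.sum_eq_zero fun i _ => (σ.fs_proj s (hp.1 i).2 (hp.1 i).1).resolve_right (h i)
    rw [hp.2.2, σ.fs_one] at h2
    exact one_ne_zero h2
  choose τ hτ using h1
  have h2 : ∀ s i, σ.fs s (p i) = if τ s = i then 1 else 0 := fun s i => by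
    split_ifs with k
    · rw [← k, hτ]
    · have := σ.fs_mul s _ (hp.1 (τ s)).1 (p i)
      rw [hp.2.1 _ _ k, map_zero, hτ, one_mul] at this
      exact this.symm
  refine ⟨τ, IsLocallyConstant.iff_isOpen_fiber.2 fun i => ?_, h2⟩
  have e : τ ⁻¹' {i} = {s | σ.fs s (p i) = 1} := by
    ext s
    simp [h2]
  rw [e]
  exact (σ.isClopen_fs_proj (hp.1 i).2 (hp.1 i).1).isOpen

open Classical in
lemma φ_proj [BorelSpace Ω] {C : Set Ω} (hC : IsClopen C) {p : M}
    (h : ∀ s, σ.fs s p = if s ∈ C then 1 else 0) : 𝒮.φ p = σ.μ.real C := by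
  have e : (fun s => σ.fs s p) = C.indicator fun _ => (1 : ℂ) := by
    ext s
    rw [h, Set.indicator_apply]
  rw [σ.integral, e, integral_indicator_const _ hC.isOpen.measurableSet, Complex.real_smul,
    mul_one]

include σ in
/-- from `WAlg.exists_simple` -/
lemma approx (f : Ω → ℝ) (hf : Continuous f) {ε : ℝ} (hε : 0 < ε) :
    ∃ g : Ω → ℝ, IsLocallyConstant g ∧ ∀ s, |f s - g s| ≤ ε := by
  obtain ⟨a, ha, h⟩ := σ.surj (fun s => (f s : ℂ)) (by fun_prop)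
  have hs : IsSelfAdjoint a := σ.eq_of_fs (star_mem ha) ha fun s => by
    rw [map_star, h, RCLike.star_def, Complex.conj_ofReal]
  obtain ⟨n, e, c, h1, h2, h3, h4, -, h6⟩ := 𝒮.W.exists_simple hs hε
  obtain ⟨τ, k1, k2⟩ := σ.exists_label (p := e)
    ⟨fun i => ⟨𝒮.masa.mem_of_commutant ha (h4 i), h1 i⟩, h2, h3⟩
  refine ⟨c ∘ τ, k1.comp c, fun s => ?_⟩
  have k := (σ.norm_fs_le s _).trans h6
  have e1 : σ.fs s (∑ i, c i • e i) = c (τ s) := by
    simp [map_sum, ← Complex.coe_smul, k2]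
  rwa [map_sub, h, e1, ← Complex.ofReal_sub, Complex.norm_real, Real.norm_eq_abs] at k

end Spec

end Vale.Agent.P078
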