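import Vale.Agent.P078.Gpd
import Vale.Agent.P078.Spec
import Vale.Agent.P078.Model

/-! The random rooted network of an element of `N0`: definitions and basic lemmas.
Picture: in the GNS space of `fs s` the vectors `W u` are zero or unit vectors, and two of them are
orthogonal or proportional. -/

namespace Vale.Agent.P078

open Finset
open scoped ComplexOrder

universe u

variable {M : Type u} [CStarAlgebra M] [PartialOrder M] [StarOrderedRing M]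

/-- a presented centred self-adjoint contraction -/
structure GData (𝒮 : WSys M) (Γ : Type u) [Fintype Γ] (K : ℝ) where
  v : Γ → M
  a : Γ → M
  st : Γ → Γ
  x : M
  hK : 1 ≤ K
  gb : ∀ γ, 𝒮.IsGb K (v γ)
  mem : ∀ γ, a γ ∈ 𝒮.A
  v_st : ∀ γ, v (st γ) = star (v γ)
  x_eq : x = ∑ γ, v γ * a γ
  sa : IsSelfAdjoint x
  E_x : 𝒮.E x = 0
  norm_x : ‖x‖ ≤ 1

/-- the link between a model and the algebra -/
structure Linked {𝒮 : WSys M} {Ω V : Type u} [TopologicalSpace Ω] [MeasurableSpace Ω]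
    [DecidableEq V] {D : ℕ} {K : ℝ} (σ : Spec 𝒮 Ω) (𝓜 : Model Ω V D K) (x : M) (W : V → M) :
    Prop where
  μ_eq : 𝓜.μ = σ.μ
  W_o : W 𝓜.o = 1
  gb : ∀ u, ∃ K', 𝒮.IsGb K' (W u)
  pt_eq : ∀ s n, ∀ u ∈ 𝓜.B s n, ∀ m, σ.fs (𝓜.pt s u) m = σ.fs s (star (W u) * m * W u)
  orth : ∀ s n, ∀ u ∈ 𝓜.B s n, ∀ u' ∈ 𝓜.B s n, u ≠ u' → σ.fs s (star (W u) * W u') = 0
  res : ∀ s n, ∀ u ∈ 𝓜.B s n, ∀ z, σ.fs s (star (W u) * x * z) =
    ∑ u' ∈ (𝓜.net s).nbr u, (𝓜.net s).x u u' * σ.fs s (star (W u') * z)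

namespace GData

variable {𝒮 : WSys M} {Γ : Type u} [Fintype Γ] [DecidableEq Γ] {K : ℝ} (𝒢 : GData 𝒮 Γ K)
  {Ω : Type u} [TopologicalSpace Ω] [MeasurableSpace Ω] (σ : Spec 𝒮 Ω)

/-- the product along a word -/
def W (u : List Γ) : M := (u.map 𝒢.v).prod

/-- the word of the adjoint -/
def rev (u : List Γ) : List Γ := (u.map 𝒢.st).reverse

/-- fibre inner product of two words -/
noncomputable def ip (s : Ω) (u u' : List Γ) : ℂ := σ.fs s (star (𝒢.W u) * 𝒢.W u')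

/-- `u` and `u'` are valid at `s` and represent the same vertex -/
def Eqv (s : Ω) (u u' : List Γ) : Prop := 𝒢.ip σ s u u' ≠ 0

/-- an injective rank on words, minimal at the empty word -/
noncomputable def rk (u : List Γ) : ℕ :=
  letI := Fintype.toEncodable Γ
  Encodable.encode u

open Classical in
/-- the representative of least rank -/
noncomputable def rep (s : Ω) (u : List Γ) : List Γ :=
  if h : {u' | 𝒢.Eqv σ s u' u}.Nonempty then Function.argminOn rk {u' | 𝒢.Eqv σ s u' u} h else u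

/-- vertices of the network at `s` -/
def Vert (s : Ω) (u : List Γ) : Prop := 𝒢.Eqv σ s u u ∧ 𝒢.rep σ s u = u

open Classical in
/-- neighbours -/
noncomputable def nbr (s : Ω) (u : List Γ) : Finset (List Γ) :=
  if 𝒢.Vert σ s u then
    (univ.filter fun γ => 𝒢.Eqv σ s (γ :: u) (γ :: u)).image fun γ => 𝒢.rep σ s (γ :: u)
  else ∅

open Classical in
/-- matrix entries -/
noncomputable def xm (s : Ω) (u u' : List Γ) : ℂ :=
  if 𝒢.Vert σ s u ∧ 𝒢.Vert σ s u' then σ.fs s (star (𝒢.W u) * 𝒢.x * 𝒢.W u') else 0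

open Classical in
/-- weights -/
noncomputable def wt (s : Ω) (u : List Γ) : ℝ :=
  if 𝒢.Vert σ s u then (σ.fs s (𝒮.rn (𝒢.W u))).re else 1

/-- the point sitting at a word (`s` itself if the word is not valid) -/
noncomputable def pt (s : Ω) (u : List Γ) : Ω :=
  @Classical.epsilon Ω ⟨s⟩ fun t => ∀ a ∈ 𝒮.A,
    σ.fs t a = σ.fs s (star (𝒢.W u) * a * 𝒢.W u + (1 - star (𝒢.W u) * 𝒢.W u) * a)

section words
omit [DecidableEq Γ]

@[simp] lemma W_nil : 𝒢.W [] = 1 := rfl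
@[simp] lemma W_cons (γ : Γ) (u : List Γ) : 𝒢.W (γ :: u) = 𝒢.v γ * 𝒢.W u := rfl
lemma W_append (u u' : List Γ) : 𝒢.W (u ++ u') = 𝒢.W u * 𝒢.W u' := by
  simp [W]
lemma W_rev (u : List Γ) : 𝒢.W (𝒢.rev u) = star (𝒢.W u) := by
  induction u with
  | nil => simp [rev]
  | cons γ u ih =>
    have e : 𝒢.rev (γ :: u) = 𝒢.rev u ++ [𝒢.st γ] := by simp [rev]
    rw [e, W_append, ih, W_cons, W_cons, W_nil, mul_one, star_mul, 𝒢.v_st]
lemma W_gb (u : List Γ) : 𝒮.IsGb (K ^ u.length) (𝒢.W u) := by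
  induction u with
  | nil => simpa using WSys.isGb_one
  | cons γ u ih =>
    have h0 : 0 ≤ K := zero_le_one.trans 𝒢.hK
    rw [List.length_cons, pow_succ', W_cons]
    exact (𝒢.gb γ).mul ih (pow_nonneg h0 _) h0
lemma rk_injective : Function.Injective (rk (Γ := Γ)) := by
  let _ := Fintype.toEncodable Γ
  exact Encodable.encode_injective
lemma rk_nil : rk ([] : List Γ) = 0 := rfl

lemma W_g (u : List Γ) : 𝒮.IsG (𝒢.W u) := (𝒢.W_gb u).toIsG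

lemma ip_star (s : Ω) (u u' : List Γ) : 𝒢.ip σ s u' u = star (𝒢.ip σ s u u') := by
  rw [ip, ip, ← map_star, star_mul, star_star]

lemma fs_sq (s : Ω) (u u' : List Γ) :
    σ.fs s (star (𝒮.E (star (𝒢.W u) * 𝒢.W u')) * 𝒮.E (star (𝒢.W u) * 𝒢.W u')) =
      𝒢.ip σ s u' u * 𝒢.ip σ s u u' := by
  rw [σ.fs_mul s _ (star_mem (𝒮.E_mem _)), map_star, σ.fs_E, ip_star 𝒢 σ s u u', ip]

lemma sq_proj (u u' : List Γ) :
    IsStarProjection (star (𝒮.E (star (𝒢.W u) * 𝒢.W u')) * 𝒮.E (star (𝒢.W u) * 𝒢.W u')) :=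
  ((𝒢.W_g u).star.mul (𝒢.W_g u')).E_proj.1

lemma sq_mem (u u' : List Γ) :
    star (𝒮.E (star (𝒢.W u) * 𝒢.W u')) * 𝒮.E (star (𝒢.W u) * 𝒢.W u') ∈ 𝒮.A :=
  mul_mem (star_mem (𝒮.E_mem _)) (𝒮.E_mem _)

variable {𝒢 σ} {s : Ω} {u u' u'' : List Γ}

lemma Eqv.symm (h : 𝒢.Eqv σ s u u') : 𝒢.Eqv σ s u' u := by
  rw [Eqv, ip_star]
  exact star_ne_zero.2 h
lemma eqv_iff_sq : 𝒢.Eqv σ s u u' ↔
    σ.fs s (star (𝒮.E (star (𝒢.W u) * 𝒢.W u')) * 𝒮.E (star (𝒢.W u) * 𝒢.W u')) = 1 := by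
  constructor
  · intro h
    refine (σ.fs_proj s (𝒢.sq_proj u u') (𝒢.sq_mem u u')).resolve_left ?_
    rw [fs_sq]
    exact mul_ne_zero h.symm h
  · intro h h0
    rw [fs_sq, h0, mul_zero] at h
    exact zero_ne_one h
lemma Eqv.ip_mul (h : 𝒢.Eqv σ s u u') : 𝒢.ip σ s u' u * 𝒢.ip σ s u u' = 1 := by
  rw [← fs_sq, eqv_iff_sq.1 h]
/-- `IsG.E_proj` -/
lemma Eqv.norm_ip (h : 𝒢.Eqv σ s u u') : ‖𝒢.ip σ s u u'‖ = 1 := by
  have h1 := congrArg norm h.ip_mul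
  rw [ip_star 𝒢 σ s u u', norm_mul, norm_star, norm_one] at h1
  exact (mul_self_eq_one_iff.1 h1).resolve_right
    (by linarith [norm_nonneg (𝒢.ip σ s u u')])
/-- `IsG.mul_E_proj` -/
lemma Eqv.par (h : 𝒢.Eqv σ s u u') (z : M) :
    σ.fs s (z * 𝒢.W u') = σ.fs s (z * 𝒢.W u) * 𝒢.ip σ s u u' := by
  have h1 := σ.fs_mul_right s (𝒢.sq_mem u u') (z * 𝒢.W u')
  rw [eqv_iff_sq.1 h, mul_one, mul_assoc, (𝒢.W_g u).mul_E_proj (𝒢.W_g u'), ← mul_assoc,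
    σ.fs_mul_right s (𝒮.E_mem _), σ.fs_E] at h1
  exact h1.symm
lemma Eqv.par' (h : 𝒢.Eqv σ s u u') (z : M) :
    σ.fs s (star (𝒢.W u') * z) = 𝒢.ip σ s u' u * σ.fs s (star (𝒢.W u) * z) := by
  have h1 := congrArg star (h.par (star z))
  rw [star_mul, ← map_star, ← map_star, star_mul, star_mul, star_star, ← ip_star] at h1
  exact h1
lemma Eqv.left (h : 𝒢.Eqv σ s u u') : 𝒢.Eqv σ s u u := by
  intro h0
  apply h
  rw [ip, h.par, ← ip, h0, zero_mul]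
lemma Eqv.trans (h : 𝒢.Eqv σ s u u') (h' : 𝒢.Eqv σ s u' u'') : 𝒢.Eqv σ s u u'' := by
  rw [Eqv, ip, h'.par]
  exact mul_ne_zero h h'
lemma eqv_self_iff : 𝒢.Eqv σ s u u ↔ σ.fs s (star (𝒢.W u) * 𝒢.W u) = 1 := by
  constructor
  · exact (σ.fs_proj s (𝒢.W_g u).src.1 (𝒢.W_g u).src.2).resolve_left
  · intro h
    rw [Eqv, ip, h]
    exact one_ne_zero
lemma fs_eq_zero_of_not (h : ¬ 𝒢.Eqv σ s u u) (z : M) : σ.fs s (star (𝒢.W u) * z) = 0 := by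
  have h1 := (𝒢.W_g u).star.pi
  rw [star_star] at h1
  have h2 : σ.fs s (star (𝒢.W u) * 𝒢.W u) = 0 := not_not.1 h
  rw [← h1, mul_assoc, σ.fs_mul s _ (𝒢.W_g u).src.2, h2, zero_mul]
lemma Eqv.append (h : 𝒢.Eqv σ s u u') {z z' : List Γ} (hz : 𝒢.Eqv σ s (z ++ u) (z' ++ u)) :
    𝒢.Eqv σ s (z ++ u) (z' ++ u') := by
  rw [Eqv, ip, 𝒢.W_append z' u', ← mul_assoc, h.par, mul_assoc, ← W_append]
  exact mul_ne_zero hz h
lemma Eqv.of_append {z : List Γ} (h : 𝒢.Eqv σ s (z ++ u) (z ++ u)) : 𝒢.Eqv σ s u u := by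
  by_contra h0
  apply h
  rw [ip, W_append, star_mul, mul_assoc, fs_eq_zero_of_not h0]
lemma Eqv.rev_append (h : 𝒢.Eqv σ s u u) : 𝒢.Eqv σ s (𝒢.rev u ++ u) [] := by
  rw [Eqv, ip, W_append, W_rev, W_nil, mul_one, star_mul, star_star]
  exact h
lemma Eqv.rn (h : 𝒢.Eqv σ s u u') : σ.fs s (𝒮.rn (𝒢.W u)) = σ.fs s (𝒮.rn (𝒢.W u')) := by
  have h1 := congrArg (σ.fs s) ((𝒢.W_gb u).rn_congr (𝒢.W_gb u') (𝒮.E_mem _) (𝒢.sq_proj u u')
    ((𝒢.W_g u).mul_E_proj (𝒢.W_g u')))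
  rw [σ.fs_mul_right s (𝒢.sq_mem u u'), σ.fs_mul_right s (𝒢.sq_mem u u'), eqv_iff_sq.1 h,
    mul_one, mul_one] at h1
  exact h1.symm
lemma Eqv.rep (h : 𝒢.Eqv σ s u u) : 𝒢.Eqv σ s (𝒢.rep σ s u) u := by
  have h1 : {u' | 𝒢.Eqv σ s u' u}.Nonempty := ⟨u, h⟩
  rw [GData.rep, dif_pos h1]
  exact Function.argminOn_mem rk _ h1
lemma Eqv.rk_rep_le (h : 𝒢.Eqv σ s u' u) : rk (𝒢.rep σ s u) ≤ rk u' := by
  have h1 : {u' | 𝒢.Eqv σ s u' u}.Nonempty := ⟨u', h⟩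
  rw [GData.rep, dif_pos h1]
  exact Function.argminOn_le rk _ h
lemma Eqv.rep_eq (h : 𝒢.Eqv σ s u u') : 𝒢.rep σ s u = 𝒢.rep σ s u' :=
  rk_injective (le_antisymm (h.symm.left.rep.trans h.symm).rk_rep_le
    (h.left.rep.trans h).rk_rep_le)
lemma Eqv.vert_rep (h : 𝒢.Eqv σ s u u) : 𝒢.Vert σ s (𝒢.rep σ s u) :=
  ⟨h.rep.left, h.rep.rep_eq⟩
lemma Vert.eq_of_eqv (hu : 𝒢.Vert σ s u) (hu' : 𝒢.Vert σ s u') (h : 𝒢.Eqv σ s u u') : u = u' := by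
  rw [← hu.2, ← hu'.2, h.rep_eq]
lemma vert_nil : 𝒢.Vert σ s [] := by
  have h : 𝒢.Eqv σ s [] [] := eqv_self_iff.2 (by simpa using σ.fs_one s)
  refine ⟨h, rk_injective (le_antisymm h.rk_rep_le ?_)⟩
  rw [rk_nil]
  exact Nat.zero_le _
lemma fs_split (s : Ω) (u : List Γ) (a : M) :
    σ.fs s (star (𝒢.W u) * a * 𝒢.W u + (1 - star (𝒢.W u) * 𝒢.W u) * a) =
      σ.fs s (star (𝒢.W u) * a * 𝒢.W u) +
        (1 - σ.fs s (star (𝒢.W u) * 𝒢.W u)) * σ.fs s a := by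
  rw [map_add, σ.fs_mul s _ (sub_mem (one_mem _) (𝒢.W_g u).src.2), map_sub, σ.fs_one]
/-- `Spec.point` -/
lemma pt_spec (s : Ω) (u : List Γ) {a : M} (ha : a ∈ 𝒮.A) : σ.fs (𝒢.pt σ s u) a =
    σ.fs s (star (𝒢.W u) * a * 𝒢.W u + (1 - star (𝒢.W u) * 𝒢.W u) * a) := by
  refine Classical.epsilon_spec (σ.point (fun a =>
    σ.fs s (star (𝒢.W u) * a * 𝒢.W u + (1 - star (𝒢.W u) * 𝒢.W u) * a)) ?_ ?_ ?_ ?_) a ha
  · simpa using σ.fs_one s
  · intro a _ b _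
    rw [← map_add]
    congr 1
    noncomm_ring
  · intro c a _
    rw [mul_smul_comm, smul_mul_assoc, mul_smul_comm, ← smul_add, map_smul, smul_eq_mul]
  · intro a ha b _
    simp only [fs_split]
    by_cases h : 𝒢.Eqv σ s u u
    · rw [eqv_self_iff.1 h, (𝒢.W_g u).conj_mul ha, σ.fs_mul s _ ((𝒢.W_g u).inn a ha)]
      simp
    · simp only [mul_assoc, fs_eq_zero_of_not h, σ.fs_mul s a ha]
      simp
/-- `IsG.E_conj` -/
lemma Eqv.fs_pt (h : 𝒢.Eqv σ s u u) (m : M) :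
    σ.fs (𝒢.pt σ s u) m = σ.fs s (star (𝒢.W u) * m * 𝒢.W u) := by
  rw [← σ.fs_E, pt_spec s u (𝒮.E_mem m), fs_split, eqv_self_iff.1 h, sub_self, zero_mul, add_zero,
    ← (𝒢.W_g u).E_conj, σ.fs_E]
lemma Eqv.ip_pt (h : 𝒢.Eqv σ s u u) (z z' : List Γ) :
    𝒢.ip σ (𝒢.pt σ s u) z z' = 𝒢.ip σ s (z ++ u) (z' ++ u) := by
  rw [ip, ip, h.fs_pt, W_append, W_append, star_mul]
  simp only [mul_assoc]
lemma Eqv.pt_eq (h : 𝒢.Eqv σ s u u') : 𝒢.pt σ s u = 𝒢.pt σ s u' := by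
  refine σ.ext _ _ fun a _ => ?_
  rw [h.left.fs_pt, h.symm.left.fs_pt, h.par, mul_assoc (star (𝒢.W u')), h.par', mul_right_comm,
    h.ip_mul, one_mul, mul_assoc]
lemma Eqv.pt_append {z : List Γ} (h : 𝒢.Eqv σ s (z ++ u) (z ++ u)) :
    𝒢.pt σ s (z ++ u) = 𝒢.pt σ (𝒢.pt σ s u) z := by
  refine σ.ext _ _ fun a _ => ?_
  have h1 : 𝒢.Eqv σ (𝒢.pt σ s u) z z := by
    rw [Eqv, h.of_append.ip_pt]
    exact h
  rw [h.fs_pt, h1.fs_pt, h.of_append.fs_pt, W_append, star_mul]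
  simp only [mul_assoc]
lemma pt_nil (s : Ω) : 𝒢.pt σ s [] = s := by
  refine σ.ext _ _ fun a _ => ?_
  rw [vert_nil.1.fs_pt]
  simp
lemma isClopen_eqv (u u' : List Γ) : IsClopen {s | 𝒢.Eqv σ s u u'} := by
  simp only [eqv_iff_sq]
  exact σ.isClopen_fs_proj (𝒢.sq_proj u u') (𝒢.sq_mem u u')
/-- only the finitely many words of rank `≤ rk u` matter -/
lemma rep_lc (u : List Γ) : IsLocallyConstant fun s => 𝒢.rep σ s u := by
  rw [IsLocallyConstant.iff_eventually_eq]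
  intro s0
  have hF : {u' : List Γ | rk u' ≤ rk u}.Finite :=
    (Set.finite_Iic (rk u)).preimage rk_injective.injOn
  have h1 : ∀ᶠ s in nhds s0, ∀ u' ∈ {u' : List Γ | rk u' ≤ rk u},
      (𝒢.Eqv σ s u' u ↔ 𝒢.Eqv σ s0 u' u) := by
    rw [Filter.eventually_all_finite hF]
    intro u' _
    by_cases h : 𝒢.Eqv σ s0 u' u
    · filter_upwards [(isClopen_eqv u' u).isOpen.mem_nhds h] with s hs
      exact iff_of_true hs h
    · filter_upwards [(isClopen_eqv u' u).compl.isOpen.mem_nhds h] with s hs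
      exact iff_of_false hs h
  filter_upwards [h1] with s hs
  by_cases h : 𝒢.Eqv σ s0 u u
  · have h2 := (hs u le_rfl).2 h
    exact rk_injective (le_antisymm ((hs _ h.rk_rep_le).2 h.rep).rk_rep_le
      ((hs _ h2.rk_rep_le).1 h2.rep).rk_rep_le)
  · have h2 := mt (hs u le_rfl).1 h
    rw [GData.rep, GData.rep, dif_neg, dif_neg]
    · exact fun ⟨_, e⟩ => h (Eqv.left (Eqv.symm e))
    · exact fun ⟨_, e⟩ => h2 (Eqv.left (Eqv.symm e))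
lemma isClopen_vert (u : List Γ) : IsClopen {s | 𝒢.Vert σ s u} :=
  (isClopen_eqv u u).inter ((rep_lc u).isClopen_fiber u)
lemma pt_cont [CompactSpace Ω] (u : List Γ) : Continuous fun s => 𝒢.pt σ s u :=
  σ.continuous_of fun a ha => by
    simp only [pt_spec _ u ha]
    exact σ.cont _

end words

end GData

end Vale.Agent.P078
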