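import Vale.Agent.P078.GDefs

/-! The network at a point `s`. -/

namespace Vale.Agent.P078

open Finset
open scoped ComplexOrder

universe u

variable {M : Type u} [CStarAlgebra M] [PartialOrder M] [StarOrderedRing M]

lemma norm_conj_le (f : M →ₚ[ℂ] ℂ) {x : M} (hx : IsSelfAdjoint x) (h1 : ‖x‖ ≤ 1) (z : M) :
    ‖f (star z * x * z)‖ ≤ (f (star z * z)).re := by
  have key : ∀ y : M, IsSelfAdjoint y → ‖y‖ ≤ 1 → f (star z * y * z) ≤ f (star z * z) := by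
    intro y hy h
    refine f.monotone' ((CStarAlgebra.star_left_conjugate_le_norm_smul hy).trans ?_)
    have := smul_le_smul_of_nonneg_right h (star_mul_self_nonneg z)
    rwa [one_smul] at this
  have e1 := Complex.le_def.1 (key x hx h1)
  have e2 := Complex.le_def.1 (key (-x) hx.neg (by rwa [norm_neg]))
  rw [mul_neg, neg_mul, map_neg, Complex.neg_re, Complex.neg_im] at e2
  have e3 : (f (star z * x * z)).im = 0 := by linarith [e1.2, e2.2]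
  rw [← Complex.abs_re_eq_norm.2 e3, abs_le]
  exact ⟨by linarith [e2.1], e1.1⟩

lemma pos_of_mul_pos_of_left_nonneg' {a b : ℝ} (h : 0 < a * b) (ha : 0 ≤ a) : 0 < b := by
  by_contra hb
  exact absurd h (not_lt.2 (mul_nonpos_of_nonneg_of_nonpos ha (not_lt.1 hb)))

lemma clopen_ev {Ω : Type u} [TopologicalSpace Ω] {p : Ω → Prop} (h : IsClopen {s | p s}) (s : Ω) :
    ∀ᶠ t in nhds s, p t ↔ p s := by
  by_cases hs : p s
  · filter_upwards [h.isOpen.mem_nhds hs] with t ht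
    exact iff_of_true ht hs
  · filter_upwards [h.isClosed.isOpen_compl.mem_nhds hs] with t ht
    exact iff_of_false ht hs

namespace GData

variable {𝒮 : WSys M} {Γ : Type u} [Fintype Γ] [DecidableEq Γ] {K : ℝ} (𝒢 : GData 𝒮 Γ K)
  {Ω : Type u} [TopologicalSpace Ω] [MeasurableSpace Ω] (σ : Spec 𝒮 Ω)

omit [DecidableEq Γ] in
lemma expand (s : Ω) (u : List Γ) : ∃ c : Γ → ℂ, ∀ z : M,
    σ.fs s (star (𝒢.W u) * 𝒢.x * z) = ∑ γ, c γ * σ.fs s (star (𝒢.W (γ :: u)) * z) := by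
  refine ⟨fun γ => σ.fs s (star (star (𝒢.W u) * 𝒢.a γ * 𝒢.W u)), fun z => ?_⟩
  have e : 𝒢.x * 𝒢.W u = ∑ γ, 𝒢.W (γ :: u) * (star (𝒢.W u) * 𝒢.a γ * 𝒢.W u) := by
    rw [𝒢.x_eq, sum_mul]
    refine sum_congr rfl fun γ _ => ?_
    rw [mul_assoc, (𝒢.W_gb u).toIsG.mul_eq (𝒢.mem γ), W_cons, mul_assoc (𝒢.v γ)]
  have e' : star (𝒢.W u) * 𝒢.x
      = ∑ γ, star (star (𝒢.W u) * 𝒢.a γ * 𝒢.W u) * star (𝒢.W (γ :: u)) := by
    rw [← 𝒢.sa.star_eq, ← star_mul, e, star_sum]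
    exact sum_congr rfl fun γ _ => star_mul _ _
  rw [e', sum_mul, map_sum]
  refine sum_congr rfl fun γ _ => ?_
  rw [mul_assoc, σ.fs_mul s _ (star_mem ((𝒢.W_gb u).toIsG.inn _ (𝒢.mem γ)))]

omit [DecidableEq Γ] in
variable {𝒢 σ} in
lemma eqv_pt {s : Ω} {u z z' : List Γ} (hu : 𝒢.Eqv σ s u u) :
    𝒢.Eqv σ (𝒢.pt σ s u) z z' ↔ 𝒢.Eqv σ s (z ++ u) (z' ++ u) := by
  unfold Eqv
  rw [hu.ip_pt]

omit [DecidableEq Γ] in
variable {𝒢 σ} in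
lemma rn_append {s : Ω} {u : List Γ} (hu : 𝒢.Eqv σ s u u) (z : List Γ) :
    (σ.fs s (𝒮.rn (𝒢.W (z ++ u)))).re =
      (σ.fs s (𝒮.rn (𝒢.W u))).re * (σ.fs (𝒢.pt σ s u) (𝒮.rn (𝒢.W z))).re := by
  have h := (Complex.nonneg_iff.1 ((σ.fs s).map_nonneg (𝒢.W_gb u).rn_nonneg)).2
  rw [W_append, (𝒢.W_gb z).rn_mul (𝒢.W_gb u),
    σ.fs_mul s _ ((𝒢.W_gb u).toIsG.inn _ (WSys.rn_mem _)), ← hu.fs_pt, Complex.mul_re, ← h,
    mul_zero, sub_zero, mul_comm]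

lemma mem_nbr {s : Ω} {u u' : List Γ} : u' ∈ 𝒢.nbr σ s u ↔
    𝒢.Vert σ s u ∧ 𝒢.Vert σ s u' ∧ ∃ γ, 𝒢.Eqv σ s u' (γ :: u) := by
  classical
  unfold nbr
  constructor
  · intro h
    by_cases hu : 𝒢.Vert σ s u
    · rw [if_pos hu, mem_image] at h
      obtain ⟨γ, hγ, rfl⟩ := h
      have h1 := (mem_filter.1 hγ).2
      exact ⟨hu, h1.vert_rep, γ, h1.rep⟩
    · rw [if_neg hu] at h
      exact absurd h (notMem_empty _)
  · rintro ⟨hu, hu', γ, h⟩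
    rw [if_pos hu, mem_image]
    exact ⟨γ, mem_filter.2 ⟨mem_univ _, h.symm.left⟩, h.rep_eq.symm.trans hu'.2⟩

lemma card_nbr (s : Ω) (u : List Γ) : (𝒢.nbr σ s u).card ≤ Fintype.card Γ := by
  classical
  unfold nbr
  split_ifs
  · exact card_image_le.trans ((card_filter_le _ _).trans card_univ.le)
  · exact Nat.zero_le _

/-- use `st γ` -/
lemma nbr_symm (s : Ω) (u u' : List Γ) (h : u ∈ 𝒢.nbr σ s u') : u' ∈ 𝒢.nbr σ s u := by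
  obtain ⟨hu', hu, γ, h⟩ := (𝒢.mem_nbr σ).1 h
  have h1 : 𝒢.Eqv σ s u' (𝒢.st γ :: γ :: u') := by
    have h2 := h.symm.left
    unfold Eqv ip at h2 ⊢
    rw [W_cons, star_mul, mul_assoc] at h2
    rwa [W_cons, W_cons, 𝒢.v_st]
  exact (𝒢.mem_nbr σ).2 ⟨hu, hu', 𝒢.st γ,
    h1.trans (h.symm.append (z := [𝒢.st γ]) (z' := [𝒢.st γ]) h1.symm.left)⟩

omit [DecidableEq Γ] in
lemma xm_herm (s : Ω) (u u' : List Γ) : 𝒢.xm σ s u' u = star (𝒢.xm σ s u u') := by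
  unfold xm
  by_cases h : 𝒢.Vert σ s u ∧ 𝒢.Vert σ s u'
  · rw [if_pos h, if_pos h.symm, ← map_star, star_mul, star_mul, star_star, 𝒢.sa.star_eq,
      mul_assoc]
  · rw [if_neg h, if_neg (fun h' => h h'.symm), star_zero]

omit [DecidableEq Γ] in
lemma xm_diag (s : Ω) (u : List Γ) : 𝒢.xm σ s u u = 0 := by
  unfold xm
  split_ifs with h
  · rw [← h.1.1.fs_pt, ← σ.fs_E, 𝒢.E_x, map_zero]
  · rfl

/-- `x W u = ∑ γ, W (γ :: u) * (W u)* (a γ) (W u)` -/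
lemma xm_supp (s : Ω) (u u' : List Γ) (h : 𝒢.xm σ s u u' ≠ 0) : u ∈ 𝒢.nbr σ s u' := by
  have h1 : 𝒢.xm σ s u' u ≠ 0 := by
    rw [𝒢.xm_herm σ s u u']
    exact star_ne_zero.2 h
  unfold xm at h1
  by_cases hv : 𝒢.Vert σ s u' ∧ 𝒢.Vert σ s u
  · obtain ⟨c, hc⟩ := 𝒢.expand σ s u'
    rw [if_pos hv, hc] at h1
    obtain ⟨γ, -, hγ⟩ := exists_ne_zero_of_sum_ne_zero h1
    exact (𝒢.mem_nbr σ).2 ⟨hv.1, hv.2, γ, Eqv.symm (right_ne_zero_of_mul hγ)⟩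
  · exact absurd (if_neg hv) h1

/-- with `z = ∑ ξ u • W u` over the vertices in `U`: `|fs (z* x z)| ≤ fs (z* z) = ∑ |ξ u|²` -/
lemma xm_contr (s : Ω) (U : Finset (List Γ)) : ContrOn (𝒢.xm σ s) U := by
  classical
  intro ξ
  have hbil : ∀ y : M, σ.fs s (star (∑ u ∈ U.filter (𝒢.Vert σ s), ξ u • 𝒢.W u) * y *
      ∑ u ∈ U.filter (𝒢.Vert σ s), ξ u • 𝒢.W u) = ∑ a ∈ U.filter (𝒢.Vert σ s),
        ∑ b ∈ U.filter (𝒢.Vert σ s), star (ξ a) * σ.fs s (star (𝒢.W a) * y * 𝒢.W b) * ξ b := by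
    intro y
    rw [star_sum, sum_mul, sum_mul, map_sum]
    refine sum_congr rfl fun a _ => ?_
    rw [mul_sum, map_sum]
    refine sum_congr rfl fun b _ => ?_
    rw [star_smul, smul_mul_assoc, smul_mul_assoc, mul_smul_comm, map_smul, map_smul,
      smul_eq_mul, smul_eq_mul]
    ring
  have e1 : qform (𝒢.xm σ s) U ξ = ∑ a ∈ U.filter (𝒢.Vert σ s), ∑ b ∈ U.filter (𝒢.Vert σ s),
      star (ξ a) * σ.fs s (star (𝒢.W a) * 𝒢.x * 𝒢.W b) * ξ b := by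
    rw [qform, sum_filter]
    refine sum_congr rfl fun a _ => ?_
    rw [sum_filter]
    unfold xm
    by_cases ha : 𝒢.Vert σ s a
    · rw [if_pos ha]
      refine sum_congr rfl fun b _ => ?_
      by_cases hb : 𝒢.Vert σ s b
      · rw [if_pos ⟨ha, hb⟩, if_pos hb]
      · rw [if_neg (fun h => hb h.2), if_neg hb, mul_zero, zero_mul]
    · rw [if_neg ha]
      exact sum_eq_zero fun b _ => by rw [if_neg (fun h => ha h.1), mul_zero, zero_mul]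
  have e2 : ∑ a ∈ U.filter (𝒢.Vert σ s), ∑ b ∈ U.filter (𝒢.Vert σ s),
      star (ξ a) * σ.fs s (star (𝒢.W a) * 1 * 𝒢.W b) * ξ b
        = ((∑ a ∈ U.filter (𝒢.Vert σ s), ‖ξ a‖ ^ 2 : ℝ) : ℂ) := by
    rw [Complex.ofReal_sum]
    refine sum_congr rfl fun a ha => ?_
    have hva := (mem_filter.1 ha).2
    rw [sum_eq_single_of_mem a ha]
    · rw [mul_one, eqv_self_iff.1 hva.1, mul_one, Complex.star_def, Complex.conj_mul',
        Complex.ofReal_pow]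
    · intro b hb hne
      have : σ.fs s (star (𝒢.W a) * 𝒢.W b) = 0 := by
        by_contra h
        exact hne (hva.eq_of_eqv (mem_filter.1 hb).2 h).symm
      rw [mul_one, this, mul_zero, zero_mul]
  rw [e1, ← hbil]
  rw [← hbil] at e2
  refine (norm_conj_le (σ.fs s) 𝒢.sa 𝒢.norm_x _).trans ?_
  rw [mul_one] at e2
  rw [e2, Complex.ofReal_re]
  exact sum_le_sum_of_subset_of_nonneg (filter_subset _ _) fun _ _ _ => sq_nonneg _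

omit [DecidableEq Γ] in
lemma wt_pos (s : Ω) (u : List Γ) : 0 < 𝒢.wt σ s u := by
  unfold wt
  split_ifs with h
  · have h1 := (σ.fs s).monotone' (𝒢.W_gb u).le_rn
    change σ.fs s _ ≤ σ.fs s _ at h1
    rw [eqv_self_iff.1 h.1, ← Complex.coe_smul, map_smul, smul_eq_mul] at h1
    have h2 := (Complex.le_def.1 h1).1
    rw [Complex.one_re, Complex.re_ofReal_mul] at h2
    exact pos_of_mul_pos_of_left_nonneg' (lt_of_lt_of_le one_pos h2)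
      (pow_nonneg (zero_le_one.trans 𝒢.hK) _)
  · exact one_pos

lemma wt_ratio (s : Ω) (u u' : List Γ) (h : u ∈ 𝒢.nbr σ s u') :
    𝒢.wt σ s u ≤ K * 𝒢.wt σ s u' := by
  obtain ⟨hu', hu, γ, h⟩ := (𝒢.mem_nbr σ).1 h
  unfold wt
  rw [if_pos hu, if_pos hu', h.rn]
  have h1 := rn_append hu'.1 [γ]
  have h2 : (σ.fs (𝒢.pt σ s u') (𝒮.rn (𝒢.W [γ]))).re ≤ K := by
    have h3 := (σ.fs (𝒢.pt σ s u')).monotone' ((𝒢.gb γ).rn_le (zero_le_one.trans 𝒢.hK))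
    change σ.fs _ _ ≤ σ.fs _ _ at h3
    rw [← Complex.coe_smul, map_smul, σ.fs_one, smul_eq_mul, mul_one] at h3
    rw [W_cons, W_nil, mul_one]
    exact (Complex.le_def.1 h3).1
  rw [List.singleton_append] at h1
  rw [h1, mul_comm]
  exact mul_le_mul_of_nonneg_right h2
    (Complex.nonneg_iff.1 ((σ.fs s).map_nonneg (𝒢.W_gb u').rn_nonneg)).1

/-- the network at `s` -/
noncomputable def net (s : Ω) : Net (List Γ) (Fintype.card Γ) K where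
  nbr := 𝒢.nbr σ s
  x := 𝒢.xm σ s
  w := 𝒢.wt σ s
  card_le := 𝒢.card_nbr σ s
  symm := 𝒢.nbr_symm σ s
  herm := 𝒢.xm_herm σ s
  diag := 𝒢.xm_diag σ s
  supp := 𝒢.xm_supp σ s
  contr := 𝒢.xm_contr σ s
  wpos := 𝒢.wt_pos σ s
  ratio := 𝒢.wt_ratio σ s

lemma vert_of_ball {s : Ω} {n : ℕ} {u : List Γ} (h : u ∈ (𝒢.net σ s).ball [] n) :
    𝒢.Vert σ s u := by
  induction n generalizing u with
  | zero =>
    rw [mem_singleton.1 h]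
    exact vert_nil
  | succ n ih =>
    rcases (𝒢.net σ s).mem_ball_succ.1 h with h | ⟨y, -, h⟩
    · exact ih h
    · exact ((𝒢.mem_nbr σ).1 h).2.1

lemma resolution {s : Ω} {u : List Γ} (h : 𝒢.Vert σ s u) (z : M) :
    σ.fs s (star (𝒢.W u) * 𝒢.x * z) =
      ∑ u' ∈ 𝒢.nbr σ s u, 𝒢.xm σ s u u' * σ.fs s (star (𝒢.W u') * z) := by
  obtain ⟨c, hc⟩ := 𝒢.expand σ s u
  have h1 : ∀ γ, σ.fs s (star (𝒢.W (γ :: u)) * z) = ∑ u' ∈ 𝒢.nbr σ s u,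
      𝒢.ip σ s (γ :: u) u' * σ.fs s (star (𝒢.W u') * z) := by
    intro γ
    by_cases hγ : 𝒢.Eqv σ s (γ :: u) (γ :: u)
    · rw [sum_eq_single_of_mem (𝒢.rep σ s (γ :: u))
        ((𝒢.mem_nbr σ).2 ⟨h, hγ.vert_rep, γ, hγ.rep⟩)]
      · exact hγ.rep.par' z
      · intro b hb hne
        have : 𝒢.ip σ s (γ :: u) b = 0 := by
          by_contra h0
          exact hne (hγ.vert_rep.eq_of_eqv ((𝒢.mem_nbr σ).1 hb).2.1 (hγ.rep.trans h0)).symm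
        rw [this, zero_mul]
    · rw [fs_eq_zero_of_not hγ]
      exact (sum_eq_zero fun b _ => by rw [ip, fs_eq_zero_of_not hγ, zero_mul]).symm
  rw [hc z]
  simp only [h1, mul_sum]
  rw [sum_comm]
  refine sum_congr rfl fun b hb => ?_
  unfold xm
  rw [if_pos ⟨h, ((𝒢.mem_nbr σ).1 hb).2.1⟩, hc, sum_mul]
  exact sum_congr rfl fun γ _ => (mul_assoc _ _ _).symm

lemma nbr_lc (u : List Γ) : IsLocallyConstant fun s => 𝒢.nbr σ s u := by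
  classical
  rw [IsLocallyConstant.iff_eventually_eq]
  intro s
  have h1 := clopen_ev (𝒢.isClopen_vert (σ := σ) u) s
  have h2 := Filter.eventually_all.2 fun γ : Γ =>
    clopen_ev (𝒢.isClopen_eqv (σ := σ) (γ :: u) (γ :: u)) s
  have h3 := Filter.eventually_all.2 fun γ : Γ =>
    (𝒢.rep_lc (σ := σ) (γ :: u)).eventually_eq s
  filter_upwards [h1, h2, h3] with t e1 e2 e3
  ext y
  unfold nbr
  by_cases hs : 𝒢.Vert σ s u
  · rw [if_pos hs, if_pos (e1.2 hs), mem_image, mem_image]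
    refine exists_congr fun γ => and_congr ?_ (by rw [e3 γ])
    rw [mem_filter, mem_filter]
    exact and_congr Iff.rfl (e2 γ)
  · rw [if_neg hs, if_neg (fun h => hs (e1.1 h))]

omit [DecidableEq Γ] in
lemma xm_cont (u u' : List Γ) : Continuous fun s => 𝒢.xm σ s u u' := by
  classical
  unfold xm
  refine Continuous.if (fun a ha => ?_) (σ.cont _) continuous_const
  have h : IsClopen {s | 𝒢.Vert σ s u ∧ 𝒢.Vert σ s u'} :=
    (𝒢.isClopen_vert (σ := σ) u).inter (𝒢.isClopen_vert (σ := σ) u')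
  rw [h.frontier_eq] at ha
  exact ha.elim

omit [DecidableEq Γ] in
lemma wt_cont (u : List Γ) : Continuous fun s => 𝒢.wt σ s u := by
  classical
  unfold wt
  refine Continuous.if (fun a ha => ?_) (Complex.continuous_re.comp (σ.cont _)) continuous_const
  rw [(𝒢.isClopen_vert (σ := σ) u).frontier_eq] at ha
  exact ha.elim

section root
variable {𝒢 σ} {s : Ω} {u : List Γ}

omit [DecidableEq Γ] in
lemma Φ_inj (hu : 𝒢.Vert σ s u) {z z' : List Γ} (hz : 𝒢.Vert σ (𝒢.pt σ s u) z)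
    (hz' : 𝒢.Vert σ (𝒢.pt σ s u) z') (h : 𝒢.rep σ s (z ++ u) = 𝒢.rep σ s (z' ++ u)) : z = z' := by
  have h1 := ((eqv_pt hu.1).1 hz.1).rep
  have h2 := ((eqv_pt hu.1).1 hz'.1).rep
  rw [h] at h1
  exact hz.eq_of_eqv hz' ((eqv_pt hu.1).2 (h1.symm.trans h2))

lemma Φ_nbr (hu : 𝒢.Vert σ s u) {z : List Γ} (hz : 𝒢.Vert σ (𝒢.pt σ s u) z) :
    𝒢.nbr σ s (𝒢.rep σ s (z ++ u)) =
      (𝒢.nbr σ (𝒢.pt σ s u) z).image fun z' => 𝒢.rep σ s (z' ++ u) := by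
  have hzu := (eqv_pt hu.1).1 hz.1
  ext y
  rw [mem_image, 𝒢.mem_nbr σ]
  constructor
  · rintro ⟨-, hy, γ, h⟩
    have h1 : 𝒢.Eqv σ s y (γ :: z ++ u) :=
      h.trans (hzu.rep.append (z := [γ]) (z' := [γ]) h.symm.left)
    have h2 : 𝒢.Eqv σ (𝒢.pt σ s u) (γ :: z) (γ :: z) := (eqv_pt hu.1).2 h1.symm.left
    exact ⟨_, (𝒢.mem_nbr σ).2 ⟨hz, h2.vert_rep, γ, h2.rep⟩,
      (((eqv_pt hu.1).1 h2.rep).trans h1.symm).rep_eq.trans hy.2⟩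
  · rintro ⟨z', hz', rfl⟩
    obtain ⟨-, -, γ, h⟩ := (𝒢.mem_nbr σ).1 hz'
    have h1 := (eqv_pt hu.1).1 h
    exact ⟨hzu.vert_rep, h1.left.vert_rep, γ, (h1.left.rep.trans h1).trans
      (hzu.rep.symm.append (z := [γ]) (z' := [γ]) h1.symm.left)⟩

omit [DecidableEq Γ] in
lemma Φ_pt (hu : 𝒢.Vert σ s u) {z : List Γ} (hz : 𝒢.Vert σ (𝒢.pt σ s u) z) :
    𝒢.pt σ s (𝒢.rep σ s (z ++ u)) = 𝒢.pt σ (𝒢.pt σ s u) z := by
  have hzu := (eqv_pt hu.1).1 hz.1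
  rw [hzu.rep.pt_eq, hzu.pt_append]

omit [DecidableEq Γ] in
lemma Φ_w (hu : 𝒢.Vert σ s u) {z : List Γ} (hz : 𝒢.Vert σ (𝒢.pt σ s u) z) :
    𝒢.wt σ s (𝒢.rep σ s (z ++ u)) = 𝒢.wt σ s u * 𝒢.wt σ (𝒢.pt σ s u) z := by
  have hzu := (eqv_pt hu.1).1 hz.1
  unfold wt
  rw [if_pos hzu.vert_rep, if_pos hu, if_pos hz, hzu.rep.rn, rn_append hu.1]

omit [DecidableEq Γ] in
/-- `g z = ip s (rep s (z ++ u)) (z ++ u)` if `z ++ u` is valid, else `1` -/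
lemma Φ_x (hu : 𝒢.Vert σ s u) : ∃ g : List Γ → ℂ, (∀ z, ‖g z‖ = 1) ∧ ∀ z z',
    𝒢.Vert σ (𝒢.pt σ s u) z → 𝒢.Vert σ (𝒢.pt σ s u) z' →
      𝒢.xm σ s (𝒢.rep σ s (z ++ u)) (𝒢.rep σ s (z' ++ u)) =
        g z * 𝒢.xm σ (𝒢.pt σ s u) z z' * star (g z') := by
  classical
  refine ⟨fun z => if 𝒢.Eqv σ s (z ++ u) (z ++ u) then
    𝒢.ip σ s (𝒢.rep σ s (z ++ u)) (z ++ u) else 1, fun z => ?_, fun z z' hz hz' => ?_⟩
  · beta_reduce
    split_ifs with h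
    · exact h.rep.norm_ip
    · exact norm_one
  · have hzu := (eqv_pt hu.1).1 hz.1
    have hzu' := (eqv_pt hu.1).1 hz'.1
    have e1 : star (𝒢.ip σ s (𝒢.rep σ s (z' ++ u)) (z' ++ u))
        = 𝒢.ip σ s (z' ++ u) (𝒢.rep σ s (z' ++ u)) := by
      rw [ip, ip, ← map_star, star_mul, star_star]
    have e2 : star (𝒢.W u) * (star (𝒢.W z) * 𝒢.x * 𝒢.W z') * 𝒢.W u
        = star (𝒢.W (z ++ u)) * (𝒢.x * 𝒢.W (z' ++ u)) := by
      simp only [W_append, star_mul, mul_assoc]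
    beta_reduce
    unfold xm
    rw [if_pos hzu, if_pos hzu', if_pos ⟨hzu.vert_rep, hzu'.vert_rep⟩, if_pos ⟨hz, hz'⟩,
      hzu'.rep.symm.par, mul_assoc, hzu.rep.symm.par', hu.1.fs_pt, e1, e2]

omit [DecidableEq Γ] in
lemma Φ_inv (hu : 𝒢.Vert σ s u) :
    𝒢.Vert σ (𝒢.pt σ s u) (𝒢.rep σ (𝒢.pt σ s u) (𝒢.rev u)) ∧
      𝒢.rep σ s (𝒢.rep σ (𝒢.pt σ s u) (𝒢.rev u) ++ u) = [] := by
  have h1 := hu.1.rev_append
  have h2 : 𝒢.Eqv σ (𝒢.pt σ s u) (𝒢.rev u) (𝒢.rev u) := (eqv_pt hu.1).2 h1.left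
  exact ⟨h2.vert_rep, (((eqv_pt hu.1).1 h2.rep).trans h1).rep_eq.trans vert_nil.2⟩

/-- `[] ∈ ball u n` (`mem_ball_comm`); by induction on `m`, `ball u m` at `s` is the image of
`ball [] m` at `pt s u` (`Φ_nbr`); then `Φ_inj`, `Φ_inv`. -/
lemma inv_mem {n : ℕ} (hu : u ∈ (𝒢.net σ s).ball [] n) :
    𝒢.rep σ (𝒢.pt σ s u) (𝒢.rev u) ∈ (𝒢.net σ (𝒢.pt σ s u)).ball [] n := by
  have hv := 𝒢.vert_of_ball σ hu
  have key : ∀ m, ∀ y ∈ (𝒢.net σ s).ball u m,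
      ∃ z ∈ (𝒢.net σ (𝒢.pt σ s u)).ball [] m, 𝒢.rep σ s (z ++ u) = y := by
    intro m
    induction m with
    | zero =>
      intro y hy
      rw [mem_singleton.1 hy]
      exact ⟨[], Net.mem_ball_self _ _ _, hv.2⟩
    | succ m ih =>
      intro y hy
      rcases (𝒢.net σ s).mem_ball_succ.1 hy with hy | ⟨y', hy', hy⟩
      · obtain ⟨z, hz, e⟩ := ih y hy
        exact ⟨z, (Net.mem_ball_succ _).2 (Or.inl hz), e⟩
      · obtain ⟨z, hz, rfl⟩ := ih y' hy'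
        change y ∈ 𝒢.nbr σ s _ at hy
        rw [Φ_nbr hv (𝒢.vert_of_ball σ hz), mem_image] at hy
        obtain ⟨z', hz', e⟩ := hy
        exact ⟨z', (Net.mem_ball_succ _).2 (Or.inr ⟨z, hz, hz'⟩), e⟩
  obtain ⟨z, hz, e⟩ := key n [] ((Net.mem_ball_comm _).1 hu)
  rwa [← Φ_inj hv (𝒢.vert_of_ball σ hz) (Φ_inv hv).1 (e.trans (Φ_inv hv).2.symm)]

omit [DecidableEq Γ] in
/-- the root change is an involution -/
lemma inv_inv (hu : 𝒢.Vert σ s u) :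
    𝒢.pt σ (𝒢.pt σ s u) (𝒢.rep σ (𝒢.pt σ s u) (𝒢.rev u)) = s ∧
      𝒢.rep σ s (𝒢.rev (𝒢.rep σ (𝒢.pt σ s u) (𝒢.rev u))) = u := by
  obtain ⟨h1, h2⟩ := Φ_inv hu
  refine ⟨by rw [← Φ_pt hu h1, h2, pt_nil], ?_⟩
  have h3 := ((eqv_pt hu.1).1 h1.1).rep
  rw [h2] at h3
  have h4 : 𝒢.Eqv σ s (𝒢.rev (𝒢.rep σ (𝒢.pt σ s u) (𝒢.rev u))) u := by
    unfold Eqv ip at h3 ⊢
    rw [W_nil, star_one, one_mul, W_append] at h3
    rwa [W_rev, star_star]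
  exact h4.rep_eq.trans hu.2

end root

end GData

end Vale.Agent.P078
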