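import Vale.Agent.P078.Part
import Vale.Agent.P078.ES

/-! Auxiliary lemmas for `Sing.lean`: the random two-level partition. -/

namespace Vale.Agent.P078.SingAux

open Finset
open scoped ComplexOrder BigOperators InnerProductSpace

lemma sum_update {Y β G : Type*} [Fintype Y] [DecidableEq Y] [Fintype β] [AddCommMonoid G]
    (a : Y) (g : (Y → β) → G) :
    ∑ c : Y → β, ∑ x, g (Function.update c a x) = Fintype.card β • ∑ c, g c := by
  have σi : Function.Involutive
      (fun q : (Y → β) × β => ((Function.update q.1 a q.2, q.1 a) : (Y → β) × β)) := by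
    intro q
    simp
  have k := Equiv.sum_comp σi.toPerm (fun q => g q.1)
  rw [Fintype.sum_prod_type, Fintype.sum_prod_type] at k
  simpa only [Function.Involutive.coe_toPerm, Finset.sum_const, Finset.card_univ,
    ← Finset.smul_sum] using k

lemma sum_ite_col {Y : Type*} [Fintype Y] [DecidableEq Y] {r : ℕ} [NeZero r] (a : Y)
    (i : (Y → Fin r) → Fin r) (hi : ∀ c x, i (Function.update c a x) = i c) :
    ∑ c : Y → Fin r, (if c a = i c then (1 : ℂ) else 0) =
      (Fintype.card (Y → Fin r) : ℂ) * (r : ℂ)⁻¹ := by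
  have k := sum_update a (fun c : Y → Fin r => if c a = i c then (1 : ℂ) else 0)
  simp only [Function.update_self, hi, Finset.sum_ite_eq', Finset.mem_univ, if_true,
    Finset.sum_const, Finset.card_univ, Fintype.card_fin, nsmul_eq_mul, mul_one] at k
  rw [k, mul_comm (r : ℂ), mul_assoc, mul_inv_cancel₀ (Nat.cast_ne_zero.2 (NeZero.ne r)), mul_one]

section ES
variable {J Λ : Type*} [Fintype J] [DecidableEq J] [Fintype Λ] [Nonempty Λ]
  {F : Type*} [SeminormedAddCommGroup F] [InnerProductSpace ℂ F]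

open ESAux

omit [Nonempty Λ] in
lemma ip_comm (ζ ξ : (J → Λ) → F) : ip ζ ξ = ip ξ ζ :=
  Finset.expect_congr rfl fun l _ => inner_re_symm (𝕜 := ℂ) (ζ l) (ξ l)

lemma ip_le (ζ ξ : (J → Λ) → F) : 2 * ip ζ ξ ≤ sqn ζ + sqn ξ := by
  have := sqn_nonneg (ζ - ξ)
  rw [← ip_self, ip_sub_left, ip_sub_right, ip_sub_right, ip_self, ip_self, ip_comm ξ ζ] at this
  linarith

/-- orthogonality of two-point fluctuations -/
lemma sqn_pairs (ζ : J × J → (J → Λ) → F)
    (h0 : ∀ a m, m = a.1 ∨ m = a.2 → avg m (ζ a) = 0)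
    (h1 : ∀ a m, m ≠ a.1 → m ≠ a.2 → avg m (ζ a) = ζ a) :
    sqn (∑ a, ζ a) ≤ 2 * ∑ a, sqn (ζ a) := by
  have z : ∀ a b m, m = a.1 ∨ m = a.2 → m ≠ b.1 → m ≠ b.2 → ip (ζ a) (ζ b) = 0 := by
    intro a b m k1 k2 k3
    rw [← h1 b m k2 k3, ← ip_avg, h0 a m k1]
    simp [ip]
  have key : ∀ a b, 2 * ip (ζ a) (ζ b) ≤ (if a = b then sqn (ζ a) + sqn (ζ b) else 0) +
      if a.swap = b then sqn (ζ a) + sqn (ζ b) else 0 := by
    intro a b
    have k0 := add_nonneg (sqn_nonneg (ζ a)) (sqn_nonneg (ζ b))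
    have k1 := ip_le (ζ a) (ζ b)
    by_cases e1 : a = b
    · rw [if_pos e1]
      split_ifs <;> linarith
    by_cases e2 : a.swap = b
    · rw [if_neg e1, if_pos e2]
      linarith
    rw [if_neg e1, if_neg e2]
    have : ip (ζ a) (ζ b) = 0 := by
      obtain ⟨a1, a2⟩ := a
      obtain ⟨b1, b2⟩ := b
      simp only [Prod.swap_prod_mk, Prod.mk.injEq] at e1 e2
      by_contra hne
      have c1 : a1 = b1 ∨ a1 = b2 := by
        by_contra k
        push Not at k
        exact hne (z _ _ a1 (Or.inl rfl) k.1 k.2)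
      have c2 : a2 = b1 ∨ a2 = b2 := by
        by_contra k
        push Not at k
        exact hne (z _ _ a2 (Or.inr rfl) k.1 k.2)
      have c3 : b1 = a1 ∨ b1 = a2 := by
        by_contra k
        push Not at k
        exact hne ((ip_comm _ _).trans (z _ _ b1 (Or.inl rfl) k.1 k.2))
      have c4 : b2 = a1 ∨ b2 = a2 := by
        by_contra k
        push Not at k
        exact hne ((ip_comm _ _).trans (z _ _ b2 (Or.inr rfl) k.1 k.2))
      clear hne k1 k0 z h0 h1
      rcases c1 with rfl | rfl <;> rcases c2 with rfl | rfl <;> simp_all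
    rw [this]
    simp
  have e : sqn (∑ a, ζ a) = ∑ a, ∑ b, ip (ζ a) (ζ b) := by
    rw [← ip_self]
    simp only [ip, Finset.sum_apply, sum_inner, inner_sum, Complex.re_sum, Finset.expect_sum_comm]
    exact Finset.sum_comm
  have k := Finset.sum_le_sum fun a (_ : a ∈ univ) =>
    Finset.sum_le_sum fun b (_ : b ∈ univ) => key a b
  simp only [← Finset.mul_sum, Finset.sum_add_distrib, Finset.sum_ite_eq, Finset.mem_univ,
    if_true] at k
  have k2 := Equiv.sum_comp (Equiv.prodComm J J) (fun a => sqn (ζ a))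
  simp only [Equiv.coe_prodComm] at k2
  rw [k2, ← e] at k
  linarith

end ES

universe u

variable {M : Type u} [CStarAlgebra M] [PartialOrder M] [StarOrderedRing M]
  {A : StarSubalgebra ℂ M}

omit [PartialOrder M] [StarOrderedRing M] in
/-- colouring the atoms of a partition -/
lemma partn_col {Y I : Type*} [Fintype Y] [Fintype I] [DecidableEq I] {f : Y → M}
    (hf : IsPartn A f) (c : Y → I) : IsPartn A fun i => ∑ y, if c y = i then f y else 0 := by
  refine ⟨fun i => ?_, fun i j hij => ?_, ?_⟩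
  · beta_reduce
    rw [← Finset.sum_filter]
    exact ⟨sum_mem fun y _ => (hf.1 y).1,
      PartAux.sum_proj _ (fun y _ => (hf.1 y).2) fun y _ z _ => hf.2.1 y z⟩
  · rw [Finset.sum_mul_sum]
    refine Finset.sum_eq_zero fun y _ => Finset.sum_eq_zero fun z _ => ?_
    by_cases h1 : c y = i
    · by_cases h2 : c z = j
      · rw [if_pos h1, if_pos h2]
        exact hf.2.1 y z fun k => hij (by rw [← h1, ← h2, k])
      · rw [if_neg h2, mul_zero]
    · rw [if_neg h1, zero_mul]
  · rw [Finset.sum_comm]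
    simp only [Finset.sum_ite_eq, Finset.mem_univ, if_true]
    exact hf.2.2

omit [PartialOrder M] [StarOrderedRing M] in
/-- one level chosen at random and coloured at random -/
lemma exists_rho (r : ℕ) [NeZero r] (x : M) {L : ℕ} (e : Fin (L + 1) → Part A) :
    ∃ (Λ : Type u) (_ : Fintype Λ) (_ : Nonempty Λ) (ρ : Λ → Fin r → M),
      (∀ l, IsPartn A (ρ l)) ∧ (∀ i, ∑ l, ρ l i = (Fintype.card Λ : ℂ) • ((r : ℂ))⁻¹ • (1 : M)) ∧
      ∑ l, ∑ i, ρ l i * x * ρ l i = (Fintype.card Λ : ℂ) • (((r : ℂ))⁻¹ • x +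
        (1 - ((r : ℂ))⁻¹) • (((L + 1 : ℂ))⁻¹ • ∑ j, (e j).S x)) := by
  classical
  let Y : Type u := (j : Fin (L + 1)) × (e j).s
  have hL : (L + 1 : ℂ) ≠ 0 := by exact_mod_cast Nat.succ_ne_zero L
  have hc : (Fintype.card (Fin (L + 1) × (Y → Fin r)) : ℂ) =
      (L + 1) * (Fintype.card (Y → Fin r) : ℂ) := by
    rw [Fintype.card_prod, Fintype.card_fin]
    push_cast
    rfl
  have ite1 : ∀ (P : Prop) [Decidable P] (y : M),
      (if P then y else 0) = (if P then (1 : ℂ) else 0) • y := by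
    intro P _ y
    split_ifs <;> simp
  refine ⟨Fin (L + 1) × (Y → Fin r), inferInstance, inferInstance,
    fun l i => ∑ y : (e l.1).s, if l.2 ⟨l.1, y⟩ = i then (y : M) else 0,
    fun l => partn_col (e l.1).isPartn _, fun i => ?_, ?_⟩
  · rw [Fintype.sum_prod_type, hc]
    have k : ∀ j : Fin (L + 1), ∑ c : Y → Fin r, ∑ y : (e j).s,
        (if c ⟨j, y⟩ = i then (y : M) else 0) =
        ((Fintype.card (Y → Fin r) : ℂ) * (r : ℂ)⁻¹) • (1 : M) := by
      intro j
      rw [Finset.sum_comm, ← (e j).isPartn.2.2, Finset.smul_sum]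
      refine Finset.sum_congr rfl fun y _ => ?_
      simp only [ite1]
      rw [← Finset.sum_smul, sum_ite_col (⟨j, y⟩ : Y) (fun _ => i) fun _ _ => rfl]
    simp only [k, Finset.sum_const, Finset.card_univ, Fintype.card_fin]
    rw [← Nat.cast_smul_eq_nsmul ℂ, smul_smul, smul_smul, mul_assoc]
    push_cast
    rfl
  · rw [Fintype.sum_prod_type, hc]
    have k : ∀ j : Fin (L + 1), ∑ c : Y → Fin r, ∑ i,
        (∑ y : (e j).s, if c ⟨j, y⟩ = i then (y : M) else 0) * x *
        (∑ y : (e j).s, if c ⟨j, y⟩ = i then (y : M) else 0) =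
        (Fintype.card (Y → Fin r) : ℂ) • ((r : ℂ)⁻¹ • x + (1 - ((r : ℂ))⁻¹) • (e j).S x) := by
      intro j
      have k1 : ∀ c : Y → Fin r, ∑ i,
          (∑ y : (e j).s, if c ⟨j, y⟩ = i then (y : M) else 0) * x *
          (∑ y : (e j).s, if c ⟨j, y⟩ = i then (y : M) else 0) =
          ∑ y : (e j).s, ∑ z : (e j).s,
            (if c ⟨j, y⟩ = c ⟨j, z⟩ then (1 : ℂ) else 0) • ((y : M) * x * z) := by
        intro c
        simp only [Finset.sum_mul, Finset.mul_sum]
        rw [Finset.sum_comm, Finset.sum_comm (f := fun (y z : (e j).s) =>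
          (if c ⟨j, y⟩ = c ⟨j, z⟩ then (1 : ℂ) else 0) • ((y : M) * x * z))]
        refine Finset.sum_congr rfl fun z _ => ?_
        rw [Finset.sum_comm]
        refine Finset.sum_congr rfl fun y _ => ?_
        rw [Finset.sum_eq_single (c ⟨j, z⟩) (fun i _ hi => by rw [if_neg hi.symm, mul_zero])
          (fun h => absurd (mem_univ _) h), if_pos rfl]
        split_ifs <;> simp
      have k2 : ∀ y z : (e j).s, ∑ c : Y → Fin r, (if c ⟨j, y⟩ = c ⟨j, z⟩ then (1 : ℂ) else 0) =
          (Fintype.card (Y → Fin r) : ℂ) * ((r : ℂ)⁻¹ + if y = z then 1 - (r : ℂ)⁻¹ else 0) := by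
        intro y z
        by_cases h : y = z
        · simp [h]
        · rw [if_neg h, add_zero]
          refine sum_ite_col (⟨j, y⟩ : Y) (fun c => c ⟨j, z⟩) fun c w => ?_
          refine Function.update_of_ne (fun k => h ?_) _ _
          exact (eq_of_heq (Sigma.mk.inj k).2).symm
      have k3 : ∑ y : (e j).s, ∑ z : (e j).s, (y : M) * x * z = x := by
        simp only [← Finset.mul_sum, ← Finset.sum_mul, (e j).isPartn.2.2, mul_one, one_mul]
      simp only [k1]
      rw [Finset.sum_comm]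
      simp only [Finset.sum_comm (s := (univ : Finset (Y → Fin r))), ← Finset.sum_smul, k2]
      simp only [mul_smul, add_smul, ← Finset.smul_sum, Finset.sum_add_distrib, k3, ite_smul, zero_smul,
        Finset.sum_ite_eq, Finset.mem_univ, if_true, Part.S_eq]
    simp only [k, ← Finset.smul_sum, Finset.sum_add_distrib, Finset.sum_const, Finset.card_univ,
      Fintype.card_fin]
    rw [mul_comm, mul_smul, smul_add (L + 1 : ℂ), smul_comm (L + 1 : ℂ) (1 - (r : ℂ)⁻¹),
      smul_inv_smul₀ hL, ← Nat.cast_smul_eq_nsmul ℂ, smul_comm (L + 1 : ℂ)]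
    push_cast
    rfl

end Vale.Agent.P078.SingAux
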