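import Vale.Agent.P078.Part
import Vale.Agent.P078.Gns
import Vale.Agent.P078.SingAux

/-! Paving on the singular part.  See PROOF.md, section Sing. -/

namespace Vale.Agent.P078

open Filter Topology Finset
open scoped ComplexOrder BigOperators

universe u

variable {M : Type u} [CStarAlgebra M] [PartialOrder M] [StarOrderedRing M]

namespace SingAux

lemma nrm_add_sq (ω : M →ₚ[ℂ] ℂ) (x y : M) :
    nrm ω (x + y) ^ 2 = nrm ω x ^ 2 + 2 * (ω (star x * y)).re + nrm ω y ^ 2 :=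
  norm_add_sq (𝕜 := ℂ) (ω.toPreGNS x) (ω.toPreGNS y)

omit [PartialOrder M] [StarOrderedRing M] in
lemma norm_mix {x y : M} {C : ℝ} (hx : ‖x‖ ≤ C) (hy : ‖y‖ ≤ C) (r : ℕ) [NeZero r] :
    ‖((r : ℂ))⁻¹ • x + (1 - ((r : ℂ))⁻¹) • y‖ ≤ C := by
  have h1 : (r : ℝ)⁻¹ ≤ 1 := inv_le_one_of_one_le₀ (by exact_mod_cast NeZero.one_le)
  have h0 : 0 ≤ (r : ℝ)⁻¹ := by positivity
  have e : (1 - ((r : ℂ))⁻¹) = ((1 - (r : ℝ)⁻¹ : ℝ) : ℂ) := by push_cast; rfl
  refine (norm_add_le _ _).trans ?_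
  rw [norm_smul, norm_smul, e, norm_inv, Complex.norm_natCast, Complex.norm_real,
    Real.norm_of_nonneg (sub_nonneg.2 h1)]
  nlinarith [mul_le_mul_of_nonneg_left hx h0, mul_le_mul_of_nonneg_left hy (sub_nonneg.2 h1)]

lemma norm_avg {A : StarSubalgebra ℂ M} {L : ℕ} (e : Fin (L + 1) → Part A) (x : M) :
    ‖((L + 1 : ℂ))⁻¹ • ∑ j, (e j).S x‖ ≤ ‖x‖ := by
  have e1 : (L + 1 : ℂ) = ((L + 1 : ℕ) : ℂ) := by push_cast; rfl
  rw [norm_smul, norm_inv, e1, Complex.norm_natCast, inv_mul_le_iff₀ (by positivity)]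
  refine (norm_sum_le _ _).trans ((Finset.sum_le_sum fun j _ => (e j).norm_S_le x).trans ?_)
  simp

omit [PartialOrder M] [StarOrderedRing M] in
lemma sa_avg {A : StarSubalgebra ℂ M} {L : ℕ} (e : Fin (L + 1) → Part A) {x : M}
    (hx : IsSelfAdjoint x) : IsSelfAdjoint (((L + 1 : ℂ))⁻¹ • ∑ j, (e j).S x) := by
  rw [IsSelfAdjoint, star_smul, star_sum]
  simp only [← Part.S_star, hx.star_eq]
  simp

omit [PartialOrder M] [StarOrderedRing M] in
lemma sa_mix {x y : M} (hx : IsSelfAdjoint x) (hy : IsSelfAdjoint y) (r : ℕ) :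
    IsSelfAdjoint (((r : ℂ))⁻¹ • x + (1 - ((r : ℂ))⁻¹) • y) := by
  rw [IsSelfAdjoint, star_add, star_smul, star_smul, hx.star_eq, hy.star_eq]
  simp

omit [PartialOrder M] [StarOrderedRing M] in
lemma sa_pinch {A : StarSubalgebra ℂ M} {I : Type*} [Fintype I] {p : I → M} (hp : IsPartn A p)
    {x : M} (hx : IsSelfAdjoint x) : IsSelfAdjoint (∑ i, p i * x * p i) := by
  rw [IsSelfAdjoint, star_sum]
  refine Finset.sum_congr rfl fun i _ => ?_
  rw [star_mul, star_mul, hx.star_eq, (hp.1 i).2.isSelfAdjoint.star_eq, mul_assoc]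

end SingAux

open SingAux

namespace WAlg

variable (𝒲 : WAlg M) {A : StarSubalgebra ℂ M}

/-- Banach-Saks for a bounded family converging weakly along `l` -/
lemma banach_saks {I : Type*} {l : Filter I} [l.NeBot] {f : I → M} {a : M} {R : ℝ}
    (hb : ∀ i, ‖f i‖ ≤ R) (hf : 𝒲.WLim l f a) {ω : M →ₚ[ℂ] ℂ} (hω : 𝒲.Normal ω) {S : Set I}
    (hS : S ∈ l) {η : ℝ} (hη : 0 < η) :
    ∃ (L : ℕ) (e : Fin (L + 1) → I), (∀ j, e j ∈ S) ∧
      nrm ω (((L + 1 : ℂ))⁻¹ • ∑ j, f (e j) - a) ≤ η := by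
  set K := ((R + ‖a‖) * nrm ω 1) ^ 2 + 1 with hK
  have key : ∀ n : ℕ, ∃ e : Fin n → I, (∀ j, e j ∈ S) ∧ nrm ω (∑ j, (f (e j) - a)) ^ 2 ≤ n * K := by
    intro n
    induction n with
    | zero => exact ⟨Fin.elim0, fun j => j.elim0, by simp [nrm]⟩
    | succ n ih =>
      obtain ⟨e, h1, h2⟩ := ih
      set s := ∑ j, (f (e j) - a) with hs
      have t := (hω.mul (Star.star s) 1).tendsto (Eventually.of_forall hb) hf
      obtain ⟨i, k1, k2⟩ := ((Metric.tendsto_nhds.1 t (1 / 2) one_half_pos).and hS).exists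
      refine ⟨Fin.snoc e i, fun j => Fin.lastCases (by rw [Fin.snoc_last]; exact k2)
        (by simpa using h1) j, ?_⟩
      rw [Fin.sum_univ_castSucc]
      simp only [Fin.snoc_castSucc, Fin.snoc_last]
      rw [← hs, nrm_add_sq]
      rw [dist_eq_norm, mul_one, mul_one, ← map_sub, ← mul_sub] at k1
      have k3 := (Complex.re_le_norm _).trans k1.le
      have k4 : nrm ω (f i - a) ^ 2 ≤ ((R + ‖a‖) * nrm ω 1) ^ 2 :=
        pow_le_pow_left₀ (nrm_nonneg _ _) ((nrm_le_norm _ _).trans (mul_le_mul_of_nonneg_right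
          ((norm_sub_le _ _).trans (add_le_add (hb i) le_rfl)) (nrm_nonneg _ _))) 2
      push_cast
      linarith
  obtain ⟨L, hL⟩ := exists_nat_ge (K / η ^ 2)
  obtain ⟨e, h1, h2⟩ := key (L + 1)
  refine ⟨L, e, h1, ?_⟩
  have hL0 : (L + 1 : ℂ) ≠ 0 := by exact_mod_cast Nat.succ_ne_zero L
  have e1 : (L + 1 : ℂ) = ((L + 1 : ℕ) : ℂ) := by push_cast; rfl
  have e2 : ((L + 1 : ℂ))⁻¹ • ∑ j, f (e j) - a = ((L + 1 : ℂ))⁻¹ • ∑ j, (f (e j) - a) := by
    rw [Finset.sum_sub_distrib, smul_sub, Finset.sum_const, Finset.card_univ, Fintype.card_fin,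
      ← Nat.cast_smul_eq_nsmul ℂ, ← e1, inv_smul_smul₀ hL0]
  rw [e2, nrm_smul, norm_inv, e1, Complex.norm_natCast, inv_mul_le_iff₀ (by positivity)]
  refine (pow_le_pow_iff_left₀ (nrm_nonneg _ _) (by positivity) two_ne_zero).1 (h2.trans ?_)
  rw [div_le_iff₀ (by positivity)] at hL
  rw [mul_pow, sq, mul_assoc]
  refine mul_le_mul_of_nonneg_left ?_ (by positivity)
  push_cast
  nlinarith [sq_nonneg η]

omit 𝒲 in
/-- The random partition: every atom `t` of `e₀` chooses a level `j` and colours the atoms of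
`e j` below `t` independently. `T l` is the fluctuation of the pinching. -/
lemma exists_random (hA : IsMasa A) (ω : M →ₚ[ℂ] ℂ) (r : ℕ) [NeZero r] {x : M}
    (hx : IsSelfAdjoint x) (e₀ : Part A) {L : ℕ} (e : Fin (L + 1) → Part A) (he : ∀ j, e₀ ≤ e j) :
    ∃ (Λ : Type u) (_ : Fintype Λ) (_ : Nonempty Λ) (p : Λ → Fin r → M) (T : Λ → M),
      (∀ l, IsPartn A (p l)) ∧ (∀ l, IsSelfAdjoint (T l) ∧ ‖T l‖ ≤ 2 * ‖x‖) ∧
      (∀ l, ∑ i, p l i * x * p l i = T l + ((r : ℂ))⁻¹ • x +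
        (1 - ((r : ℂ))⁻¹) • (((L + 1 : ℂ))⁻¹ • ∑ j, (e j).S x)) ∧
      ∀ q, (𝔼 l, nrm ω (q * T l) ^ 2) ≤ 8 * 𝔼 l, (ω (e₀.S (T l * e₀.S (star q * q) * T l))).re := by
  classical
  obtain ⟨Λ, _, _, ρ, h1, h2, h3⟩ := exists_rho r x e
  set m := ((r : ℂ))⁻¹ • x + (1 - ((r : ℂ))⁻¹) • (((L + 1 : ℂ))⁻¹ • ∑ j, (e j).S x) with hm
  have h0 := e₀.isPartn
  let p : (e₀.s → Λ) → Fin r → M := fun l i => ∑ t : e₀.s, (t : M) * ρ (l t) i
  have hc : ∀ (t : e₀.s) y i, ρ y i * t = t * ρ y i := fun t y i =>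
    hA.comm ((h1 y).1 i).1 (h0.1 t).1
  have hp1 : ∀ l i (t : e₀.s), t * p l i = t * ρ (l t) i := by
    intro l i t
    rw [Finset.mul_sum, Finset.sum_eq_single t (fun s _ hs => by
      rw [← mul_assoc, h0.2.1 t s hs.symm, zero_mul]) (fun h => absurd (mem_univ _) h),
      ← mul_assoc, (h0.1 t).2.isIdempotentElem.eq]
  have hpA : ∀ l i, p l i ∈ A := fun l i =>
    sum_mem fun t _ => mul_mem (h0.1 t).1 ((h1 _).1 i).1
  have hp2 : ∀ l i (t : e₀.s), p l i * t = ρ (l t) i * t := fun l i t => by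
    rw [hA.comm (hpA l i) (h0.1 t).1, hp1, hc]
  have hp : ∀ l, IsPartn A (p l) := by
    intro l
    refine ⟨fun i => ⟨hpA l i, PartAux.sum_proj _
      (fun t _ => (h0.1 t).2.mul ((h1 _).1 i).2 (hc t _ i).symm) fun t _ s _ hts => ?_⟩,
      fun i j hij => ?_, ?_⟩
    · rw [← hc, mul_assoc, ← mul_assoc (t : M), h0.2.1 t s hts, zero_mul, mul_zero]
    · rw [Finset.mul_sum]
      refine Finset.sum_eq_zero fun t _ => ?_
      rw [← mul_assoc, hp2, hc, mul_assoc, (h1 _).2.1 i j hij, mul_zero]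
    · rw [Finset.sum_comm]
      simp only [← Finset.mul_sum, (h1 _).2.2, mul_one]
      exact h0.2.2
  refine ⟨e₀.s → Λ, inferInstance, inferInstance, p, fun l => ∑ i, p l i * x * p l i - m, hp,
    fun l => ⟨(sa_pinch (hp l) hx).sub (sa_mix hx (sa_avg e hx) r), ?_⟩, fun l => ?_, fun q => ?_⟩
  · refine (norm_sub_le _ _).trans ?_
    rw [two_mul]
    exact add_le_add ((hp l).norm_pinch_le x) (norm_mix le_rfl (norm_avg e x) r)
  · rw [add_assoc, ← hm, sub_add_cancel]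
  have hT : ∀ l, IsSelfAdjoint (∑ i, p l i * x * p l i - m) := fun l =>
    (sa_pinch (hp l) hx).sub (sa_mix hx (sa_avg e hx) r)
  have hD : ∀ l (t s : e₀.s), t * (∑ i, p l i * x * p l i - m) * s =
      t * (∑ i, ρ (l t) i * x * ρ (l s) i - m) * s := by
    intro l t s
    simp only [mul_sub, sub_mul, Finset.mul_sum, Finset.sum_mul]
    congr 1
    refine Finset.sum_congr rfl fun i _ => ?_
    calc (t : M) * (p l i * x * p l i) * s = (t * p l i) * x * (p l i * s) := by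
          simp only [mul_assoc]
      _ = _ := by rw [hp1, hp2]; simp only [mul_assoc]
  have hoff : ∀ t s : e₀.s, t ≠ s → (t : M) * (((r : ℂ))⁻¹ • x - m) * s = 0 := by
    intro t s hts
    rw [hm, sub_add_cancel_left, mul_neg, neg_mul, neg_eq_zero]
    simp only [mul_smul_comm, smul_mul_assoc, Finset.mul_sum, Finset.sum_mul]
    rw [Finset.sum_eq_zero, smul_zero, smul_zero]
    intro j _
    rw [(e j).comm_S hA (h0.1 t).1 (fun y hy => Part.eq_or_zero (he j) t.2 hy), mul_assoc,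
      h0.2.1 t s hts, mul_zero]
  have hz : ∀ (l : e₀.s → Λ) (t s k : e₀.s), k = t ∨ k = s → ∑ y, (t : M) *
      (∑ i, ρ (Function.update l k y t) i * x * ρ (Function.update l k y s) i - m) * s = 0 := by
    intro l t s k hk
    rw [← Finset.sum_mul, ← Finset.mul_sum, Finset.sum_sub_distrib, Finset.sum_const,
      Finset.card_univ, ← Nat.cast_smul_eq_nsmul ℂ]
    by_cases hts : t = s
    · subst hts
      obtain rfl : k = t := hk.elim id id
      simp only [Function.update_self]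
      rw [h3, sub_self, mul_zero, zero_mul]
    have k1 : ∑ y, ∑ i, ρ (Function.update l k y t) i * x * ρ (Function.update l k y s) i =
        (Fintype.card Λ : ℂ) • ((r : ℂ))⁻¹ • x := by
      rw [Finset.sum_comm]
      rcases hk with rfl | rfl
      · simp only [Function.update_self, Function.update_of_ne (Ne.symm hts), ← Finset.sum_mul, h2,
          smul_mul_assoc, one_mul, ← Finset.smul_sum, ← Finset.mul_sum, (h1 _).2.2, mul_one]
      · simp only [Function.update_self, Function.update_of_ne hts, ← Finset.mul_sum, h2,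
          mul_smul_comm, mul_one, ← Finset.smul_sum, ← Finset.sum_mul, (h1 _).2.2, one_mul]
    rw [k1, ← smul_sub, mul_smul_comm, smul_mul_assoc, hoff t s hts, smul_zero]
  let ζ : e₀.s × e₀.s → (e₀.s → Λ) → ω.PreGNS := fun a l =>
    ω.toPreGNS (q * (a.1 * (∑ i, ρ (l a.1) i * x * ρ (l a.2) i - m) * a.2))
  have key := sqn_pairs ζ (fun a k hk => by
    funext l
    simp only [avg, ζ, ← map_sum, ← Finset.mul_sum, hz l a.1 a.2 k hk, mul_zero, map_zero,
      smul_zero, Pi.zero_apply]) fun a k k1 k2 => ESAux.avg_of_inv fun l y => by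
    simp only [ζ, Function.update_of_ne k1.symm, Function.update_of_ne k2.symm]
  have e1 : sqn (∑ a, ζ a) = 𝔼 l, nrm ω (q * (∑ i, p l i * x * p l i - m)) ^ 2 := by
    refine Finset.expect_congr rfl fun l _ => ?_
    simp only [Finset.sum_apply, ζ, ← map_sum, ← hD, Fintype.sum_prod_type, ← Finset.mul_sum,
      ← Finset.sum_mul, h0.2.2, mul_one, one_mul]
    rfl
  have e2 : ∑ a, sqn (ζ a) = 𝔼 l, (ω (e₀.S ((∑ i, p l i * x * p l i - m) * e₀.S (star q * q) *
      (∑ i, p l i * x * p l i - m)))).re := by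
    simp only [sqn]
    rw [← Finset.expect_sum_comm]
    refine Finset.expect_congr rfl fun l _ => ?_
    have := hT l
    simp only [ζ, ← hD]
    generalize ∑ i, p l i * x * p l i - m = T at this
    simp only [Part.S_eq, Finset.mul_sum, Finset.sum_mul, map_sum, Complex.re_sum]
    rw [Fintype.sum_prod_type_right]
    refine Finset.sum_congr rfl fun s _ => Finset.sum_congr rfl fun t _ => ?_
    refine (nrm_sq ω (q * (t * T * s))).trans ?_
    simp only [star_mul, this.star_eq, (h0.1 _).2.isSelfAdjoint.star_eq, mul_assoc]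
  have e3 : 0 ≤ ∑ a, sqn (ζ a) := Finset.sum_nonneg fun a _ => ESAux.sqn_nonneg _
  rw [← e1, ← e2]
  linarith

/-- pointwise limits of bounded positive functionals along an ultrafilter -/
lemma _root_.Vale.Agent.P078.exists_lim_pos {I : Type*} (𝒰 : Ultrafilter I) (V : I → M →ₚ[ℂ] ℂ)
    {C : ℝ} (h : ∀ i, (V i 1).re ≤ C) :
    ∃ ψ : M →ₚ[ℂ] ℂ, ∀ x, Tendsto (fun i => V i x) 𝒰 (𝓝 (ψ x)) := by
  have key : ∀ x, ∃ c, Tendsto (fun i => V i x) 𝒰 (𝓝 c) := by
    intro x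
    obtain ⟨c, -, hc⟩ := (isCompact_closedBall (0 : ℂ) (C * ‖x‖)).ultrafilter_le_nhds
      (𝒰.map fun i => V i x) (le_principal_iff.2 (Filter.mem_map.2 (Eventually.of_forall fun i =>
        mem_closedBall_zero_iff.2 ((norm_apply_le_one_mul (V i) x).trans
          (mul_le_mul_of_nonneg_right (h i) (norm_nonneg _))))))
    exact ⟨c, hc⟩
  choose ψ hψ using key
  exact ⟨PositiveLinearMap.mk₀
    { toFun := ψ
      map_add' := fun x y => tendsto_nhds_unique (hψ (x + y))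
        (by simpa only [map_add] using (hψ x).add (hψ y))
      map_smul' := fun c x => tendsto_nhds_unique (hψ (c • x))
        (by simpa only [map_smul, RingHom.id_apply] using (hψ x).const_smul c) }
    fun x hx => ge_of_tendsto' (hψ x) fun i => (V i).map_nonneg hx, hψ⟩

omit 𝒲 in
lemma exists_V (hA : IsMasa A) (ω : M →ₚ[ℂ] ℂ) (r : ℕ) [NeZero r] {x : M}
    (hx : IsSelfAdjoint x) (e₀ : Part A) {L : ℕ} (e : Fin (L + 1) → Part A) (he : ∀ j, e₀ ≤ e j) :
    ∃ V : M →ₚ[ℂ] ℂ, (V 1).re ≤ (ω 1).re * (2 * ‖x‖) ^ 2 ∧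
      (∀ m m', e₀.S m = e₀.S m' → V m = V m') ∧
      ∀ q, ∃ (p : Fin r → M) (T : M), IsPartn A p ∧ ∑ i, p i * x * p i = T + ((r : ℂ))⁻¹ • x +
        (1 - ((r : ℂ))⁻¹) • (((L + 1 : ℂ))⁻¹ • ∑ j, (e j).S x) ∧
        nrm ω (q * T) ^ 2 ≤ 8 * (V (Star.star q * q)).re := by
  obtain ⟨Λ, _, _, p, T, h1, h2, h3, h4⟩ := exists_random hA ω r hx e₀ e he
  refine ⟨PositiveLinearMap.mk₀
    { toFun := fun m => 𝔼 l, ω (e₀.S (T l * e₀.S m * T l))
      map_add' := fun m m' => by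
        simp only [Part.S_add, mul_add, add_mul, map_add, Finset.expect_add_distrib]
      map_smul' := fun c m => by
        simp only [Part.S_smul, mul_smul_comm, smul_mul_assoc, map_smul, smul_eq_mul,
          RingHom.id_apply, Finset.mul_expect] }
    fun m hm => Finset.expect_nonneg fun l _ =>
      ω.map_nonneg (e₀.S_nonneg ((h2 l).1.conjugate_nonneg (e₀.S_nonneg hm))), ?_,
    fun m m' hm => ?_, fun q => ?_⟩
  · change (𝔼 l, ω (e₀.S (T l * e₀.S 1 * T l))).re ≤ _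
    rw [Complex.re_expect]
    refine Finset.expect_le univ_nonempty fun l _ => (Complex.re_le_norm _).trans
      ((norm_apply_le_one_mul _ _).trans (mul_le_mul_of_nonneg_left ?_
        (ω.map_nonneg zero_le_one).1))
    rw [e₀.S_of_mem hA (one_mem _), mul_one, sq]
    exact (e₀.norm_S_le _).trans ((norm_mul_le _ _).trans
      (mul_le_mul (h2 l).2 (h2 l).2 (norm_nonneg _) (by positivity)))
  · change (𝔼 l, ω (e₀.S (T l * e₀.S m * T l))) = 𝔼 l, ω (e₀.S (T l * e₀.S m' * T l))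
    rw [hm]
  · obtain ⟨l, -, hl⟩ := Finset.exists_le_of_expect_le univ_nonempty (h4 q)
    refine ⟨p l, T l, h1 l, h3 l, hl.trans (le_of_eq ?_)⟩
    change _ = 8 * (𝔼 l, ω (e₀.S (T l * e₀.S (Star.star q * q) * T l))).re
    rw [Complex.re_expect]

include 𝒲 in
/-- cutting down by a spectral projection -/
lemma exists_cut {ω : M →ₚ[ℂ] ℂ} {q T : M} (hq : IsStarProjection q) (hT : IsSelfAdjoint T)
    {c : ℝ} (hc : 0 < c) : ∃ q', IsStarProjection q' ∧ q' ≤ q ∧
      c ^ 2 * (ω (q - q')).re ≤ nrm ω (q * T * q) ^ 2 ∧ ‖q' * T * q'‖ ≤ c := by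
  set b := q * T * q with hb
  have b1 : IsSelfAdjoint b := hT.conjugate_self hq.isSelfAdjoint
  have b2 : Commute q b := by
    change q * (q * T * q) = q * T * q * q
    rw [← mul_assoc, ← mul_assoc, mul_assoc (q * T) q, hq.isIdempotentElem.eq]
  obtain ⟨s, s1, s2, s3, s4, -⟩ := 𝒲.exists_spectral (IsSelfAdjoint.star_mul_self b) (c ^ 2)
  rw [b1.star_eq] at s2 s3 s4
  have c1 : Commute q s := s2 q (b2.mul_right b2)
  have c2 : Commute (b * b) s := s2 _ (Commute.refl _)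
  have hb0 : 0 ≤ b * b := by simpa only [b1.star_eq] using star_mul_self_nonneg b
  refine ⟨q * s, hq.mul s1 c1, ((hq.mul s1 c1).le_iff_mul_eq_right hq).2
    (by rw [← mul_assoc, hq.isIdempotentElem.eq]), ?_, ?_⟩
  · have k1 : q - q * s ≤ 1 - s := by
      have c3 : Commute q (1 - s) := (Commute.one_right q).sub_right c1
      rw [← mul_one_sub]
      exact ((hq.mul s1.one_sub c3).le_iff_mul_eq_left s1.one_sub).2
        (by rw [mul_assoc, s1.one_sub.isIdempotentElem.eq])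
    have k2 : (1 - s) * (b * b) * (1 - s) ≤ b * b := by
      have e : b * b - (1 - s) * (b * b) * (1 - s) = s * (b * b) * s := by
        rw [mul_assoc (1 - s), ((Commute.one_right _).sub_right c2).eq, ← mul_assoc (1 - s),
          s1.one_sub.isIdempotentElem.eq, mul_assoc s, c2.eq, ← mul_assoc s,
          s1.isIdempotentElem.eq, sub_mul, one_mul, sub_sub_cancel]
      rw [← sub_nonneg, e]
      exact s1.isSelfAdjoint.conjugate_nonneg hb0
    have k3 := re_mono ω ((smul_le_smul_of_nonneg_left k1 (sq_nonneg c)).trans (s4.trans k2))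
    rw [nrm_sq, b1.star_eq]
    rwa [← Complex.coe_smul, map_smul, smul_eq_mul, Complex.re_ofReal_mul] at k3
  · have e : q * s * T * (q * s) = s * (b * s) := by
      rw [hb]
      nth_rewrite 1 [c1.eq]
      simp only [mul_assoc]
    have k1 : ‖Star.star (b * s) * (b * s)‖ ≤ c ^ 2 := by
      refine (CStarAlgebra.norm_le_iff_le_algebraMap _ (sq_nonneg c)
        (star_mul_self_nonneg _)).2 ?_
      rw [star_mul, b1.star_eq, s1.isSelfAdjoint.star_eq, Algebra.algebraMap_eq_smul_one,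
        ← mul_assoc, mul_assoc s]
      exact s3.trans (smul_le_smul_of_nonneg_left s1.le_one (sq_nonneg c))
    rw [CStarRing.norm_star_mul_self, ← sq] at k1
    rw [e]
    exact (norm_mul_le _ _).trans ((mul_le_of_le_one_left (norm_nonneg _) s1.norm_le).trans
      ((pow_le_pow_iff_left₀ (norm_nonneg _) hc.le two_ne_zero).1 k1))

theorem sing (hA : IsMasa A) {ω : M →ₚ[ℂ] ℂ} (hω : 𝒲.Normal ω) (r : ℕ) [NeZero r] {x : M}
    (hx : IsSelfAdjoint x) {g : M} (hg : IsStarProjection g) {δ : ℝ} (hδ : 0 < δ)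
    (hs : ∀ ψ : M →ₚ[ℂ] ℂ, Central A ψ →
      ∃ q, IsStarProjection q ∧ q ≤ g ∧ ψ q = 0 ∧ (ω (g - q)).re ≤ δ) :
    ∃ (p : Fin r → M) (a q : M), IsPartn A p ∧ a ∈ A ∧ IsSelfAdjoint a ∧ ‖a‖ ≤ ‖x‖ ∧
      IsStarProjection q ∧ q ≤ g ∧ (ω (g - q)).re ≤ 26 * r ^ 2 * δ ∧
      ‖q * (∑ i, p i * x * p i - a) * q‖ ≤ 3 / r * ‖x‖ := by
  have hr : (0 : ℝ) < r := Nat.cast_pos.2 (NeZero.pos r)
  rcases (norm_nonneg x).eq_or_lt with h0 | h0
  · obtain ⟨e⟩ : Nonempty (Part A) := inferInstance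
    refine ⟨_, 0, g, partn_col e.isPartn fun _ => (0 : Fin r), zero_mem _, .zero M, by simp, hg,
      le_rfl, ?_, ?_⟩
    · rw [sub_self, map_zero, Complex.zero_re]
      positivity
    · simp [norm_eq_zero.1 h0.symm]
  have := Part.directed hA
  set 𝒰 : Ultrafilter (Part A) := Ultrafilter.of atTop
  have hl : (𝒰 : Filter (Part A)) ≤ atTop := Ultrafilter.of_le _
  obtain ⟨a, ha⟩ := 𝒲.exists_wlim 𝒰 (Eventually.of_forall fun e : Part A => e.norm_S_le x)
  have a1 : IsSelfAdjoint a := ha.isSelfAdjoint (Eventually.of_forall fun e => by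
    rw [IsSelfAdjoint, ← Part.S_star, hx.star_eq])
  have a2 : ‖a‖ ≤ ‖x‖ := ha.norm_le (Eventually.of_forall fun e => e.norm_S_le x)
  have hη : 0 < ‖x‖ * √δ := by positivity
  choose L e he1 he2 using fun e₀ : Part A => 𝒲.banach_saks (fun e : Part A => e.norm_S_le x) ha
    (hω.conjP g) (hl (eventually_ge_atTop e₀)) hη
  choose V V1 V2 V3 using fun e₀ : Part A => exists_V hA (conjP ω g) r hx e₀ (e e₀) (he1 e₀)
  obtain ⟨ψ, hψ⟩ := exists_lim_pos 𝒰 V V1
  obtain ⟨q, q1, q2, q3, q4⟩ := hs ψ fun b hb m => by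
    refine 𝒲.eqOn_of_proj hA
      ((⟨ψ.toLinearMap, map_continuous ψ⟩ : M →L[ℂ] ℂ).comp ((ContinuousLinearMap.mul ℂ M).flip m))
      ((⟨ψ.toLinearMap, map_continuous ψ⟩ : M →L[ℂ] ℂ).comp (ContinuousLinearMap.mul ℂ M m))
      (fun p hp hp' => ?_) b hb
    obtain ⟨f₀, hf₀⟩ := Part.exists_adapted hp' hp
    refine tendsto_nhds_unique ((hψ (p * m)).congr' ?_) (hψ (m * p))
    filter_upwards [hl (eventually_ge_atTop f₀)] with f hf
    refine V2 f _ _ ?_
    have k1 := f.S_mul hA hp (one_mem _) m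
    have k2 := f.S_mul hA (one_mem _) hp m
    simp only [mul_one, one_mul] at k1 k2
    rw [k1, k2, f.comm_S hA hp (hf₀ f hf)]
  obtain ⟨f, hf⟩ := (Metric.tendsto_nhds.1 (hψ q) ((‖x‖ * √δ) ^ 2 / 8) (by positivity)).exists
  obtain ⟨p, T, p1, p2, p3⟩ := V3 f q
  rw [q3, dist_zero_right] at hf
  rw [q1.isSelfAdjoint.star_eq, q1.isIdempotentElem.eq] at p3
  have p4 : nrm (conjP ω g) (q * T) ≤ ‖x‖ * √δ := by
    refine (pow_le_pow_iff_left₀ (nrm_nonneg _ _) hη.le two_ne_zero).1 (p3.trans ?_)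
    linarith [Complex.re_le_norm (V f q)]
  set b := ((L f + 1 : ℂ))⁻¹ • ∑ j, (e f j).S x with hb
  set R := ∑ i, p i * x * p i - (((r : ℂ))⁻¹ • x + (1 - ((r : ℂ))⁻¹) • a) with hR
  have R1 : IsSelfAdjoint R := (sa_pinch p1 hx).sub (sa_mix hx a1 r)
  have R2 : ‖R‖ ≤ 2 * ‖x‖ := by
    rw [two_mul]
    exact (norm_sub_le _ _).trans (add_le_add (p1.norm_pinch_le x) (norm_mix le_rfl a2 r))
  have R3 : R = T + (((r : ℂ))⁻¹ • (0 : M) + (1 - ((r : ℂ))⁻¹) • (1 : M)) * (b - a) := by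
    rw [hR, p2, smul_zero, zero_add, smul_mul_assoc, one_mul, smul_sub]
    abel
  have R4 : nrm (conjP ω g) (q * R) ≤ 2 * (‖x‖ * √δ) := by
    rw [R3, mul_add, two_mul]
    refine (nrm_add_le _ _ _).trans (add_le_add p4 ?_)
    refine (nrm_mul_le _ _ _).trans ((mul_le_of_le_one_left (nrm_nonneg _ _) q1.norm_le).trans
      ((nrm_mul_le _ _ _).trans ((mul_le_of_le_one_left (nrm_nonneg _ _) ?_).trans (he2 f))))
    exact norm_mix (by simp) (IsStarProjection.one M).norm_le r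
  have R5 : nrm ω (q * R * q) ≤ 4 * (‖x‖ * √δ) := by
    have e1 : q * R * q = q * R * g - q * R * (g - q) := by rw [← mul_sub, sub_sub_cancel]
    have e2 : nrm ω (q * R * g) = nrm (conjP ω g) (q * R) := by
      rw [nrm, nrm, conjP_apply, star_mul (q * R)]
      simp only [mul_assoc]
    have hp : IsStarProjection (g - q) :=
      q1.sub_of_mul_eq_left hg ((q1.le_iff_mul_eq_left hg).1 q2)
    have e3 : nrm ω (g - q) ≤ √δ := by
      rw [nrm, hp.isSelfAdjoint.star_eq, hp.isIdempotentElem.eq]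
      exact Real.sqrt_le_sqrt q4
    have e4 : ‖q * R‖ ≤ 2 * ‖x‖ :=
      (norm_mul_le _ _).trans ((mul_le_of_le_one_left (norm_nonneg _) q1.norm_le).trans R2)
    have e5 := (nrm_mul_le ω (q * R) (g - q)).trans
      (mul_le_mul e4 e3 (nrm_nonneg _ _) (by positivity))
    rw [e1]
    refine (nrm_sub_le _ _ _).trans ?_
    rw [e2]
    linarith
  obtain ⟨q', k1, k2, k3, k4⟩ := 𝒲.exists_cut (ω := ω) q1 R1 (div_pos h0 hr)
  refine ⟨p, a, q', p1, 𝒲.wlim_S_mem hA hl ha, a1, a2, k1, k2.trans q2, ?_, ?_⟩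
  · have k5 := k3.trans (pow_le_pow_left₀ (nrm_nonneg _ _) R5 2)
    rw [div_pow, mul_pow, mul_pow, Real.sq_sqrt hδ.le, div_mul_eq_mul_div,
      div_le_iff₀ (by positivity)] at k5
    have k6 : (ω (q - q')).re ≤ 16 * r ^ 2 * δ :=
      le_of_mul_le_mul_left (by linarith) (pow_pos h0 2)
    have k7 : δ ≤ r ^ 2 * δ :=
      le_mul_of_one_le_left hδ.le (one_le_pow₀ (by exact_mod_cast NeZero.one_le))
    rw [← sub_add_sub_cancel g q q', map_add, Complex.add_re]
    linarith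
  · have e1 : ∑ i, p i * x * p i - a = R + ((r : ℂ))⁻¹ • (x - a) := by
      rw [hR, sub_smul, one_smul, smul_sub]
      abel
    have e2 : ‖q' * (((r : ℂ))⁻¹ • (x - a)) * q'‖ ≤ (r : ℝ)⁻¹ * (‖x‖ + ‖x‖) := by
      refine (norm_mul_le _ _).trans ((mul_le_of_le_one_right (norm_nonneg _) k1.norm_le).trans
        ((norm_mul_le _ _).trans ((mul_le_of_le_one_left (norm_nonneg _) k1.norm_le).trans ?_)))
      rw [norm_smul, norm_inv, Complex.norm_natCast]
      exact mul_le_mul_of_nonneg_left ((norm_sub_le _ _).trans (add_le_add le_rfl a2))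
        (by positivity)
    rw [e1, mul_add, add_mul]
    refine (norm_add_le _ _).trans ((add_le_add k4 e2).trans (le_of_eq ?_))
    ring

end WAlg

end Vale.Agent.P078
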