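import Vale.Agent.P078.Core
import Vale.Agent.P078.Corner
import Vale.Agent.P078.Sing

/-! The abstract theorem.  See PROOF.md, section General. -/

namespace Vale.Agent.P078

open scoped ComplexOrder

universe u

/-- `core` in the corner, `WAlg.continuity`; the case `φ p = 0` (then `p = 0`) is trivial -/
theorem core_corner : ∃ C > 0, ∀ (M : Type u) [CStarAlgebra M] [PartialOrder M]
    [StarOrderedRing M] (𝒲 : WAlg M) (A : StarSubalgebra ℂ M), IsMasa A →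
    ∀ (φ ω : M →ₚ[ℂ] ℂ) (p : M), 𝒲.Normal φ → 𝒲.Normal ω → Central A φ → IsSupp φ p →
    ∀ (r : ℕ) [NeZero r] (x : M), IsSelfAdjoint x → ∀ δ : ℝ, 0 < δ →
    ∃ (e : St r → M) (a q : M), (∀ i, e i ∈ A ∧ IsStarProjection (e i)) ∧
      (∀ i j, i ≠ j → e i * e j = 0) ∧ ∑ i, e i = p ∧ a ∈ A ∧ IsSelfAdjoint a ∧ ‖a‖ ≤ ‖x‖ ∧
      IsStarProjection q ∧ q ≤ p ∧ (ω (p - q)).re ≤ δ ∧
      ‖q * (∑ i, e i * x * e i - a) * q‖ ≤ C / √r * ‖x‖ := by
  obtain ⟨C, hC, h⟩ := core.{u}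
  refine ⟨C, hC, fun M _ _ _ 𝒲 A hA φ ω p hφ hω hc hp r _ x hx δ hδ => ?_⟩
  by_cases hp0 : p = 0
  · refine ⟨fun _ => 0, 0, 0, fun _ => ⟨zero_mem _, IsStarProjection.zero M⟩, by simp,
      by simp [hp0], zero_mem _, IsSelfAdjoint.zero M, by simp, IsStarProjection.zero M,
      hp.1.nonneg, by simp [hp0, hδ.le], ?_⟩
    simp only [zero_mul, norm_zero]; positivity
  have hpp : star p * p = p := by rw [hp.1.isSelfAdjoint.star_eq, hp.1.isIdempotentElem.eq]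
  have hnn : 0 ≤ φ p := φ.map_nonneg hp.1.nonneg
  have hre : φ p = ((φ p).re : ℂ) := Complex.ext rfl (by simpa using hnn.2.symm)
  have ht : 0 < (φ p).re := by
    refine lt_of_le_of_ne hnn.1 fun h0 => hp0 ?_
    have := hp.2.2 p (by rw [hpp, hre, ← h0]; simp)
    rwa [hp.1.isIdempotentElem.eq] at this
  have hti : (0 : ℝ) ≤ (φ p).re⁻¹ := by positivity
  have hne : (((φ p).re⁻¹ : ℝ) : ℂ) ≠ 0 := by exact_mod_cast (inv_pos.2 ht).ne'
  have hp' : IsSupp (smulP (φ p).re⁻¹ φ) p := by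
    refine ⟨hp.1, by rw [smulP_apply hti, hp.2.1, mul_zero], fun z hz => hp.2.2 z ?_⟩
    rw [smulP_apply hti] at hz
    exact (mul_eq_zero.1 hz).resolve_left hne
  obtain ⟨M', _, _, _, 𝒮, ι, hι1, hιn, hιs, hιA, hιφ⟩ := 𝒲.exists_corner hA (hφ.smulP (φ p).re⁻¹)
    (fun a ha z => by rw [smulP_apply hti, smulP_apply hti, hc a ha z]) hp'
    (by
      rw [smulP_apply hti]
      nth_rewrite 2 [hre]
      exact_mod_cast inv_mul_cancel₀ ht.ne')
  obtain ⟨δ', hδ', hcont⟩ := 𝒲.continuity (hφ.smulP (φ p).re⁻¹) hω hp'.2.2 hδ 1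
  obtain ⟨y, hy⟩ := hιs x
  have hys : IsSelfAdjoint y := by
    have h1 : ι (star y - y) = 0 := by
      rw [map_sub, map_star, hy, star_mul, star_mul, hp.1.isSelfAdjoint.star_eq, hx.star_eq,
        mul_assoc, sub_self]
    have h2 := hιn (star y - y)
    rw [h1, norm_zero] at h2
    exact sub_eq_zero.1 (norm_eq_zero.1 h2.symm)
  have hyn : ‖y‖ ≤ ‖x‖ := by
    rw [← hιn, hy]
    have := hp.1.norm_le
    calc ‖p * x * p‖ ≤ ‖p‖ * ‖x‖ * ‖p‖ :=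
          (norm_mul_le _ _).trans (mul_le_mul_of_nonneg_right (norm_mul_le _ _) (norm_nonneg _))
      _ ≤ 1 * ‖x‖ * 1 := by gcongr
      _ = ‖x‖ := by ring
  have hproj : ∀ z, IsStarProjection z → IsStarProjection (ι z) := fun z hz =>
    ⟨by rw [IsIdempotentElem, ← map_mul, hz.isIdempotentElem.eq],
      by rw [IsSelfAdjoint, ← map_star, hz.isSelfAdjoint.star_eq]⟩
  have hl : ∀ z, ι z * p = ι z := fun z => by rw [← hι1, ← map_mul, mul_one]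
  have hr : ∀ z, p * ι z = ι z := fun z => by rw [← hι1, ← map_mul, one_mul]
  obtain ⟨e, q, he, hq, h1, h2⟩ := h M' 𝒮 r y hys δ' hδ'
  refine ⟨fun i => ι (e i), ι (𝒮.E y), ι q, fun i => ⟨(hιA _).1 (he.1 i).1, hproj _ (he.1 i).2⟩,
    fun i j hij => by rw [← map_mul, he.2.1 i j hij, map_zero],
    by rw [← map_sum, he.2.2, hι1], (hιA _).1 (𝒮.E_mem y),
    by rw [IsSelfAdjoint, ← map_star, ← 𝒮.E_star, hys.star_eq],
    by rw [hιn]; exact (𝒮.norm_E_le y).trans hyn, hproj _ hq,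
    ((hproj _ hq).le_iff_mul_eq_left hp.1).2 (hl q), ?_, ?_⟩
  · have e1 : p - ι q = ι (1 - q) := by rw [map_sub, hι1]
    rw [e1]
    exact hcont _ (hproj _ hq.one_sub).nonneg (hproj _ hq.one_sub).norm_le (hl _)
      (by rw [← hιφ]; exact h1)
  · have e1 : ∀ i, ι (e i) * x * ι (e i) = ι (e i * y * e i) := fun i => by
      rw [map_mul, map_mul, hy, ← mul_assoc, ← mul_assoc, hl, mul_assoc _ p, hr]
    simp only [e1]
    rw [← map_sum, ← map_sub, ← map_mul, ← map_mul, hιn]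
    exact h2.trans (mul_le_mul_of_nonneg_left hyn (by positivity))

namespace GenAux

variable {M : Type u} [CStarAlgebra M] [PartialOrder M] [StarOrderedRing M]

lemma norm_two_le {p q a b : M} (hp : IsStarProjection p) (hq : IsStarProjection q)
    (hpq : p * q = 0) {C : ℝ} (hC : 0 ≤ C) (ha : ‖a‖ ≤ C) (hb : ‖b‖ ≤ C) :
    ‖p * a * p + q * b * q‖ ≤ C := by
  have hqp : q * p = 0 := by
    rw [← star_eq_zero, star_mul, hp.isSelfAdjoint.star_eq, hq.isSelfAdjoint.star_eq, hpq]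
  have h1 : ∀ j ∈ (Finset.univ : Finset Bool), IsStarProjection (cond j p q) := by
    rintro (_ | _) - <;> assumption
  have h2 : ∀ i ∈ (Finset.univ : Finset Bool), ∀ j ∈ (Finset.univ : Finset Bool), i ≠ j →
      cond i p q * cond j p q = 0 := by
    rintro (_ | _) - (_ | _) - h <;> simp_all
  have := norm_sum_block_le (Finset.univ : Finset Bool) (e := fun j => cond j p q)
    (f := fun j => cond j p q) (x := fun j => cond j a b) hC h1 h1 h2 h2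
    (by rintro (_ | _) - <;> assumption)
  simpa using this

lemma glue {A : StarSubalgebra ℂ M} (hA : IsMasa A) {I J : Type*} [Fintype I] [Fintype J]
    {p x a₁ a₂ q₁ q₂ : M} (hp : IsStarProjection p) (hpA : p ∈ A) {e : I → M} {f : J → M}
    (he : ∀ i, e i ∈ A ∧ IsStarProjection (e i)) (he' : ∀ i j, i ≠ j → e i * e j = 0)
    (hes : ∑ i, e i = p) (hf : IsPartn A f)
    (hq₁ : IsStarProjection q₁) (hq₂ : IsStarProjection q₂) (h₁ : q₁ ≤ p) (h₂ : q₂ ≤ 1 - p) :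
    IsPartn A (Sum.elim e fun j => f j * (1 - p)) ∧ q₁ * q₂ = 0 ∧
      (q₁ + q₂) * (∑ i, Sum.elim e (fun j => f j * (1 - p)) i * x *
        Sum.elim e (fun j => f j * (1 - p)) i - (p * a₁ * p + (1 - p) * a₂ * (1 - p))) * (q₁ + q₂) =
      q₁ * (∑ i, e i * x * e i - a₁) * q₁ + q₂ * (∑ j, f j * x * f j - a₂) * q₂ := by
  have hg := hp.one_sub
  have hgA : 1 - p ∈ A := sub_mem (one_mem _) hpA
  obtain ⟨g, hgd⟩ : ∃ g, g = 1 - p := ⟨_, rfl⟩
  rw [← hgd] at hg hgA h₂ ⊢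
  have pg : p * g = 0 := by rw [hgd, mul_sub, mul_one, hp.isIdempotentElem.eq, sub_self]
  have gp : g * p = 0 := by rw [hgd, sub_mul, one_mul, hp.isIdempotentElem.eq, sub_self]
  have ep : ∀ i, e i * p = e i := fun i => by
    rw [← hes, Finset.mul_sum, Finset.sum_eq_single i (fun j _ hj => he' i j (Ne.symm hj))
      (by simp), (he i).2.isIdempotentElem.eq]
  have pe : ∀ i, p * e i = e i := fun i => by rw [← hA.comm (he i).1 hpA, ep]
  have fg : ∀ j, f j * g = g * f j := fun j => hA.comm (hf.1 j).1 hgA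
  have q1p : q₁ * p = q₁ := (hq₁.le_iff_mul_eq_left hp).1 h₁
  have pq1 : p * q₁ = q₁ := (hq₁.le_iff_mul_eq_right hp).1 h₁
  have q2g : q₂ * g = q₂ := (hq₂.le_iff_mul_eq_left hg).1 h₂
  have gq2 : g * q₂ = q₂ := (hq₂.le_iff_mul_eq_right hg).1 h₂
  have q1g : q₁ * g = 0 := by rw [← q1p, mul_assoc, pg, mul_zero]
  have gq1 : g * q₁ = 0 := by rw [← pq1, ← mul_assoc, gp, zero_mul]
  have q2p : q₂ * p = 0 := by rw [← q2g, mul_assoc, gp, mul_zero]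
  have pq2 : p * q₂ = 0 := by rw [← gq2, ← mul_assoc, pg, zero_mul]
  refine ⟨⟨?_, ?_, ?_⟩, by rw [← q1p, mul_assoc, pq2, mul_zero], ?_⟩
  · rintro (i | j)
    · exact he i
    · exact ⟨mul_mem (hf.1 j).1 hgA, (hf.1 j).2.mul hg (fg j)⟩
  · rintro (i | i) (j | j) h
    · exact he' i j fun h' => h (by rw [h'])
    · simp only [Sum.elim_inl, Sum.elim_inr]
      rw [fg, ← ep, mul_assoc, ← mul_assoc p, pg]; simp
    · simp only [Sum.elim_inl, Sum.elim_inr]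
      rw [← pe, mul_assoc, ← mul_assoc g, gp]; simp
    · simp only [Sum.elim_inr]
      rw [mul_assoc, ← mul_assoc g, ← fg, ← mul_assoc, ← mul_assoc,
        hf.2.1 i j fun h' => h (by rw [h'])]; simp
  · rw [Fintype.sum_sum_type]
    simp only [Sum.elim_inl, Sum.elim_inr]
    rw [hes, ← Finset.sum_mul, hf.2.2, one_mul, hgd, add_sub_cancel]
  · rw [Fintype.sum_sum_type]
    simp only [Sum.elim_inl, Sum.elim_inr]
    have s1 : ∑ i, e i * x * e i = p * (∑ i, e i * x * e i) * p := by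
      rw [Finset.mul_sum, Finset.sum_mul]
      refine Finset.sum_congr rfl fun i _ => ?_
      rw [← mul_assoc, ← mul_assoc, pe, mul_assoc _ (e i) p, ep]
    have s2 : ∑ j, f j * g * x * (f j * g) = g * (∑ j, f j * x * f j) * g := by
      rw [Finset.mul_sum, Finset.sum_mul]
      refine Finset.sum_congr rfl fun j _ => ?_
      rw [fg j, ← fg j]
      nth_rewrite 1 [fg j]
      simp only [mul_assoc]
    rw [s2]
    nth_rewrite 1 [s1]
    have s3 : ∀ S T : M, p * S * p + g * T * g - (p * a₁ * p + g * a₂ * g) =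
        p * (S - a₁) * p + g * (T - a₂) * g := fun S T => by noncomm_ring
    rw [s3]
    have s4 : ∀ S T : M, (q₁ + q₂) * (p * S * p + g * T * g) * (q₁ + q₂) =
        ((q₁ + q₂) * p) * S * (p * (q₁ + q₂)) + ((q₁ + q₂) * g) * T * (g * (q₁ + q₂)) :=
      fun S T => by noncomm_ring
    rw [s4]
    simp only [add_mul, mul_add, q1p, q2p, pq1, pq2, q1g, q2g, gq1, gq2, add_zero, zero_add]

omit [PartialOrder M] [StarOrderedRing M] in
lemma reindex {A : StarSubalgebra ℂ M} {I : Type*} [Fintype I] {p : I → M} (hp : IsPartn A p)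
    {n : ℕ} (h : Fintype.card I = n) :
    ∃ p' : Fin n → M, IsPartn A p' ∧ ∀ x, ∑ i, p' i * x * p' i = ∑ i, p i * x * p i := by
  let E := (Fintype.equivFinOfCardEq h).symm
  refine ⟨fun i => p (E i), ⟨fun i => hp.1 _, fun i j hij => hp.2.1 _ _ (E.injective.ne hij), ?_⟩,
    fun x => E.sum_comp fun i => p i * x * p i⟩
  rw [E.sum_comp p, hp.2.2]

end GenAux

open GenAux in
theorem general : ∃ C > 0, ∀ ε : ℝ, 0 < ε → ε < 1 → ∃ r : ℕ, 1 ≤ r ∧ (r : ℝ) ≤ C / ε ^ 2 ∧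
    ∀ (M : Type u) [CStarAlgebra M] [PartialOrder M] [StarOrderedRing M] (𝒲 : WAlg M)
      (A : StarSubalgebra ℂ M), IsMasa A → ∀ ω : M →ₚ[ℂ] ℂ, 𝒲.Normal ω →
      ∀ x : M, IsSelfAdjoint x → ∀ δ : ℝ, 0 < δ →
      ∃ (p : Fin r → M) (a q : M), IsPartn A p ∧ a ∈ A ∧ IsSelfAdjoint a ∧ ‖a‖ ≤ ‖x‖ ∧
        IsStarProjection q ∧ (ω (1 - q)).re ≤ δ ∧
        ‖q * (∑ i, p i * x * p i - a) * q‖ ≤ ε * ‖x‖ := by
  obtain ⟨C, hC, h⟩ := core_corner.{u}
  refine ⟨C ^ 2 + 6, by positivity, fun ε h0 h1 => ?_⟩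
  obtain ⟨r₁, hr₁⟩ : ∃ r₁, r₁ = ⌈C ^ 2 / ε ^ 2⌉₊ := ⟨_, rfl⟩
  obtain ⟨r₂, hr₂⟩ : ∃ r₂, r₂ = ⌈3 / ε⌉₊ := ⟨_, rfl⟩
  have a1 : C ^ 2 / ε ^ 2 ≤ r₁ := hr₁ ▸ Nat.le_ceil _
  have a2 : 3 / ε ≤ r₂ := hr₂ ▸ Nat.le_ceil _
  have a3 : (r₁ : ℝ) ≤ C ^ 2 / ε ^ 2 + 1 := hr₁ ▸ (Nat.ceil_lt_add_one (by positivity)).le
  have a4 : (r₂ : ℝ) ≤ 3 / ε + 1 := hr₂ ▸ (Nat.ceil_lt_add_one (by positivity)).le
  have p1 : (0 : ℝ) < r₁ := lt_of_lt_of_le (by positivity) a1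
  have p2 : (0 : ℝ) < r₂ := lt_of_lt_of_le (by positivity) a2
  have : NeZero r₁ := ⟨by exact_mod_cast p1.ne'⟩
  have : NeZero r₂ := ⟨by exact_mod_cast p2.ne'⟩
  have b1 : C / √r₁ ≤ ε := by
    rw [div_le_iff₀ (Real.sqrt_pos.2 p1), ← div_le_iff₀' h0]
    exact Real.le_sqrt_of_sq_le (by rwa [div_pow])
  have b2 : 3 / (r₂ : ℝ) ≤ ε := by
    rw [div_le_iff₀ p2, ← div_le_iff₀' h0]; exact a2
  refine ⟨r₁ + 1 + r₂, by omega, ?_, fun M _ _ _ 𝒲 A hA ω hω x hx δ hδ => ?_⟩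
  · have c1 : 1 ≤ 1 / ε ^ 2 := by
      rw [le_div_iff₀ (by positivity)]; nlinarith
    have c2 : 3 / ε ≤ 3 / ε ^ 2 := by
      refine div_le_div_of_nonneg_left (by norm_num) (by positivity) (by nlinarith)
    have c3 : (C ^ 2 + 6) / ε ^ 2 = C ^ 2 / ε ^ 2 + 3 / ε ^ 2 + 3 * (1 / ε ^ 2) := by ring
    push_cast
    linarith
  obtain ⟨φ, p, hφ, hc, hp, hs⟩ := 𝒲.exists_split hA hω
    (show 0 < δ / (52 * r₂ ^ 2) by positivity)
  obtain ⟨e, a₁, q₁, he, he', hes, ha₁, ha₁s, ha₁n, hq₁, hq₁p, hω₁, hn₁⟩ :=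
    h M 𝒲 A hA φ ω p hφ hω hc hp r₁ x hx (δ / 2) (by positivity)
  obtain ⟨f, a₂, q₂, hf, ha₂, ha₂s, ha₂n, hq₂, hq₂p, hω₂, hn₂⟩ :=
    𝒲.sing hA hω r₂ hx hp.1.one_sub (show 0 < δ / (52 * r₂ ^ 2) by positivity) hs
  have hpA := hp.mem hA hc
  have hgA : 1 - p ∈ A := sub_mem (one_mem _) hpA
  obtain ⟨hP, hqq, hid⟩ := glue (x := x) (a₁ := a₁) (a₂ := a₂) hA hp.1 hpA he he' hes hf hq₁ hq₂
    hq₁p hq₂p
  obtain ⟨P, hP', hPs⟩ := reindex hP (n := r₁ + 1 + r₂) (by simp [ZMod.card])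
  refine ⟨P, p * a₁ * p + (1 - p) * a₂ * (1 - p), q₁ + q₂, hP',
    add_mem (mul_mem (mul_mem hpA ha₁) hpA) (mul_mem (mul_mem hgA ha₂) hgA), ?_,
    norm_two_le hp.1 hp.1.one_sub hp.1.mul_one_sub_self (norm_nonneg _) ha₁n ha₂n,
    hq₁.add hq₂ hqq, ?_, ?_⟩
  · have t1 := ha₁s.conjugate' p
    have t2 := ha₂s.conjugate' (1 - p)
    rw [hp.1.isSelfAdjoint.star_eq] at t1
    rw [hp.1.one_sub.isSelfAdjoint.star_eq] at t2
    exact t1.add t2
  · have e1 : 1 - (q₁ + q₂) = (p - q₁) + (1 - p - q₂) := by abel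
    have e2 : 26 * (r₂ : ℝ) ^ 2 * (δ / (52 * r₂ ^ 2)) = δ / 2 := by field_simp; ring
    rw [e1, map_add, Complex.add_re]
    linarith
  · rw [hPs, hid]
    have k : ∀ {q T : M}, IsStarProjection q → q * T * q = q * (q * T * q) * q := fun hq => by
      simp only [← mul_assoc, hq.isIdempotentElem.eq]
      rw [mul_assoc _ _ _ , mul_assoc, mul_assoc, hq.isIdempotentElem.eq]
    rw [k hq₁, k hq₂]
    exact norm_two_le hq₁ hq₂ hqq (by positivity)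
      (hn₁.trans (mul_le_mul_of_nonneg_right b1 (norm_nonneg _)))
      (hn₂.trans (mul_le_mul_of_nonneg_right b2 (norm_nonneg _)))

end Vale.Agent.P078
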