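import Vale.Agent.P078.RB

/-! The normalising groupoid of `A` and the star algebra it spans. -/

namespace Vale.Agent.P078

open Filter Topology
open scoped ComplexOrder

universe u

variable {M : Type u} [CStarAlgebra M] [PartialOrder M] [StarOrderedRing M]

namespace WSys

variable (𝒮 : WSys M)

/-- normalising isometries between projections of `A` -/
structure IsG (v : M) : Prop where
  pi : v * star v * v = v
  inn : ∀ a ∈ 𝒮.A, star v * a * v ∈ 𝒮.A
  out : ∀ a ∈ 𝒮.A, v * a * star v ∈ 𝒮.A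

/-- the same with Radon-Nikodym derivatives bounded by `K` -/
structure IsGb (K : ℝ) (v : M) : Prop extends 𝒮.IsG v where
  inn_le : ∀ a ∈ 𝒮.A, 0 ≤ a → (𝒮.φ (star v * a * v)).re ≤ K * (𝒮.φ a).re
  out_le : ∀ a ∈ 𝒮.A, 0 ≤ a → (𝒮.φ (v * a * star v)).re ≤ K * (𝒮.φ a).re

open Classical in
/-- the density of `b ↦ φ (v b v*)` on `A` -/
noncomputable def rn (v : M) : M :=
  if h : ∃ k ∈ 𝒮.A, ∀ b ∈ 𝒮.A, 𝒮.φ (v * b * star v) = 𝒮.φ (b * k) then h.choose else 0

/-- the star algebra generated by `A` and the bounded groupoid -/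
def N0 : StarSubalgebra ℂ M := StarAlgebra.adjoin ℂ ({v | ∃ K, 𝒮.IsGb K v} ∪ 𝒮.A)

variable {𝒮}

lemma gpd_mul_le {a x y : M} (ha : a ∈ 𝒮.A) (h0 : 0 ≤ a) (hx : x ∈ 𝒮.A) (hy : y ∈ 𝒮.A)
    (h : x ≤ y) : a * x ≤ a * y := by
  have := Commute.mul_nonneg h0 (sub_nonneg.2 h) (𝒮.masa.comm ha (sub_mem hy hx))
  rwa [mul_sub, sub_nonneg] at this

lemma gpd_real_smul_mem {a : M} (ha : a ∈ 𝒮.A) (t : ℝ) : t • a ∈ 𝒮.A := by
  rw [← Complex.coe_smul]; exact 𝒮.A.smul_mem ha _

lemma gpd_re_smul (ψ : M →ₚ[ℂ] ℂ) (t : ℝ) (a : M) : (ψ (t • a)).re = t * (ψ a).re := by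
  rw [← Complex.coe_smul, map_smul, smul_eq_mul, Complex.re_ofReal_mul]

lemma gpd_nonneg {d : M} (hd : d ∈ 𝒮.A) (hs : IsSelfAdjoint d)
    (h : ∀ a ∈ 𝒮.A, 0 ≤ a → 0 ≤ (𝒮.φ (a * d)).re) : 0 ≤ d := by
  have hn : 0 ≤ d⁻ := CFC.negPart_nonneg d
  have hA : d⁻ ∈ 𝒮.A := by
    refine 𝒮.masa.mem_of_commutant hd fun c hc => ?_
    rw [CFC.negPart_def, cfcₙ_eq_cfc]
    exact (hc.symm.cfc_real _).symm
  have e1 : d⁻ * d = -(star d⁻ * d⁻) := by
    rw [hn.isSelfAdjoint.star_eq]
    calc d⁻ * d = d⁻ * (d⁺ - d⁻) := by rw [CFC.posPart_sub_negPart d hs]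
      _ = _ := by rw [mul_sub, CFC.negPart_mul_posPart, zero_sub]
  have k := h _ hA hn
  rw [e1, map_neg, Complex.neg_re, ← nrm_sq, neg_nonneg] at k
  have k2 : nrm 𝒮.φ d⁻ = 0 := pow_eq_zero_iff two_ne_zero |>.1 (le_antisymm k (sq_nonneg _))
  exact (CFC.negPart_eq_zero_iff d hs).1 (𝒮.eq_zero_of_nrm k2)

namespace IsG
variable {v w : M}

lemma star (h : 𝒮.IsG v) : 𝒮.IsG (star v) := by
  refine ⟨?_, fun a ha => ?_, fun a ha => ?_⟩
  · have := congrArg Star.star h.pi
    simpa only [star_mul, star_star, mul_assoc] using this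
  · rw [star_star]; exact h.out a ha
  · rw [star_star]; exact h.inn a ha
lemma src (h : 𝒮.IsG v) : IsStarProjection (Star.star v * v) ∧ Star.star v * v ∈ 𝒮.A := by
  refine ⟨⟨?_, IsSelfAdjoint.star_mul_self v⟩, by simpa only [mul_one] using h.inn 1 (one_mem _)⟩
  change Star.star v * v * (Star.star v * v) = _
  rw [mul_assoc, ← mul_assoc v, h.pi]
lemma rng (h : 𝒮.IsG v) : IsStarProjection (v * Star.star v) ∧ v * Star.star v ∈ 𝒮.A := by
  simpa only [star_star] using h.star.src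
lemma pi' (h : 𝒮.IsG v) : Star.star v * v * Star.star v = Star.star v := by
  simpa only [star_star] using h.star.pi
lemma mul (h : 𝒮.IsG v) (h' : 𝒮.IsG w) : 𝒮.IsG (v * w) := by
  refine ⟨?_, fun a ha => ?_, fun a ha => ?_⟩
  · calc v * w * Star.star (v * w) * (v * w)
        = v * ((w * Star.star w) * (Star.star v * v)) * w := by simp only [star_mul, mul_assoc]
      _ = (v * Star.star v * v) * (w * Star.star w * w) := by
        rw [𝒮.masa.comm h'.rng.2 h.src.2]; simp only [mul_assoc]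
      _ = _ := by rw [h.pi, h'.pi]
  · simpa only [star_mul, mul_assoc] using h'.inn _ (h.inn a ha)
  · simpa only [star_mul, mul_assoc] using h.out _ (h'.out a ha)
lemma norm_le (h : 𝒮.IsG v) : ‖v‖ ≤ 1 := by
  have := h.src.1.norm_le
  rw [CStarRing.norm_star_mul_self] at this
  nlinarith [norm_nonneg v]
/-- `a v = v (v* a v)` -/
lemma mul_eq (h : 𝒮.IsG v) {a : M} (ha : a ∈ 𝒮.A) : a * v = v * (Star.star v * a * v) := by
  calc a * v = a * (v * Star.star v) * v := by rw [mul_assoc, h.pi]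
    _ = _ := by rw [𝒮.masa.comm ha h.rng.2]; simp only [mul_assoc]
lemma mul_eq' (h : 𝒮.IsG v) {a : M} (ha : a ∈ 𝒮.A) :
    Star.star v * a = (Star.star v * a * v) * Star.star v := by
  have := congrArg Star.star (h.mul_eq (star_mem ha))
  simpa only [star_mul, star_star, mul_assoc] using this
lemma conj_mul (h : 𝒮.IsG v) {a b : M} (ha : a ∈ 𝒮.A) :
    Star.star v * (a * b) * v = (Star.star v * a * v) * (Star.star v * b * v) := by
  calc _ = (Star.star v * a) * b * v := by simp only [mul_assoc]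
    _ = (Star.star v * a * v * Star.star v) * b * v := by rw [← h.mul_eq' ha]
    _ = _ := by simp only [mul_assoc]
/-- for `d = m - E m` and `c ∈ A`: `φ (c v* (S e d) v) = φ (c v* d v)`; let `e → ∞` (`wlim_S`) -/
lemma E_conj (h : 𝒮.IsG v) (m : M) :
    𝒮.E (Star.star v * m * v) = Star.star v * 𝒮.E m * v := by
  refine 𝒮.E_unique (h.inn _ (𝒮.E_mem m)) fun b hb => ?_
  have := Part.directed 𝒮.masa
  have key : ∀ e : Part 𝒮.A, 𝒮.φ (b * Star.star v * e.S m * v) =
      𝒮.φ (b * (Star.star v * m * v)) := by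
    intro e
    have k : ∀ f ∈ e.s, 𝒮.φ (b * Star.star v * (f * m * f) * v) =
        𝒮.φ (b * Star.star v * f * (m * v)) := by
      intro f hf
      have hf' := h.inn f (e.mem f hf)
      have e1 : b * Star.star v * (f * m * f) * v =
          b * Star.star v * f * (m * v) * (Star.star v * f * v) := by
        calc _ = b * Star.star v * f * m * (f * v) := by simp only [mul_assoc]
          _ = _ := by rw [h.mul_eq (e.mem f hf)]; simp only [mul_assoc]
      have e2 : Star.star v * f * v * (b * Star.star v * f * (m * v)) =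
          b * Star.star v * f * (m * v) := by
        calc _ = (Star.star v * f * v * b) * Star.star v * f * (m * v) := by simp only [mul_assoc]
          _ = b * (Star.star v * f * v * Star.star v) * f * (m * v) := by
            rw [𝒮.masa.comm hf' hb]; simp only [mul_assoc]
          _ = b * Star.star v * (f * f) * (m * v) := by
            rw [← h.mul_eq' (e.mem f hf)]; simp only [mul_assoc]
          _ = _ := by rw [(e.proj f hf).isIdempotentElem.eq]
      rw [e1, ← 𝒮.central _ hf', e2]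
    rw [Part.S, Finset.mul_sum, Finset.sum_mul, map_sum, Finset.sum_congr rfl k, ← map_sum,
      ← Finset.sum_mul, ← Finset.mul_sum, e.sum]
    simp only [mul_one, mul_assoc]
  have t := 𝒮.wlim_S m 𝒮.φ rfl (b * Star.star v) v
  simp only [key] at t
  simpa only [mul_assoc] using (tendsto_nhds_unique tendsto_const_nhds t).symm
/-- `E (m v*) = v E (v* m) v*` -/
lemma E_eq_zero_iff (h : 𝒮.IsG v) (m : M) :
    𝒮.E (Star.star v * m) = 0 ↔ 𝒮.E (m * Star.star v) = 0 := by
  constructor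
  · intro h0
    have k := h.star.E_conj (Star.star v * m)
    rw [star_star, h0, mul_zero, zero_mul, ← mul_assoc, mul_assoc (v * Star.star v),
      𝒮.E_mul_left h.rng.2, 𝒮.masa.comm h.rng.2 (𝒮.E_mem _), ← 𝒮.E_mul_right h.rng.2,
      mul_assoc m, ← mul_assoc (Star.star v), h.pi'] at k
    exact k
  · intro h0
    have k := h.E_conj (m * Star.star v)
    rw [h0, mul_zero, zero_mul, ← mul_assoc, mul_assoc (Star.star v * m),
      𝒮.E_mul_right h.src.2, ← 𝒮.masa.comm h.src.2 (𝒮.E_mem _), ← 𝒮.E_mul_left h.src.2,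
      ← mul_assoc, h.pi'] at k
    exact k
/-- With `c = E v`: `v c*` commutes with `A`, so `v c* = c c*`. -/
lemma E_proj (h : 𝒮.IsG v) : IsStarProjection (Star.star (𝒮.E v) * 𝒮.E v) ∧
    v * (Star.star (𝒮.E v) * 𝒮.E v) = 𝒮.E v := by
  have hc := 𝒮.E_mem v
  have hc' := star_mem hc
  generalize hE : 𝒮.E v = c at hc hc' ⊢
  have k1 : ∀ a ∈ 𝒮.A, a * c = c * (Star.star v * a * v) := fun a ha => by
    rw [← hE, ← 𝒮.E_mul_left ha, ← 𝒮.E_mul_right (h.inn a ha), ← h.mul_eq ha]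
  have k2 : ∀ a ∈ 𝒮.A, Star.star v * a * v * Star.star c = Star.star c * a := fun a ha => by
    have := congrArg Star.star (k1 _ (star_mem ha))
    simpa only [star_mul, star_star, mul_assoc] using this.symm
  have k3 : v * Star.star c ∈ 𝒮.A := (𝒮.masa _).2 fun a ha => by
    rw [← mul_assoc, h.mul_eq ha, mul_assoc v, k2 a ha, mul_assoc]
  have k4 : v * Star.star c = Star.star c * c := by
    rw [← 𝒮.E_of_mem k3, 𝒮.E_mul_right hc', hE, 𝒮.masa.comm hc hc']
  have k5 : c * (Star.star v * v) = c := by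
    rw [← hE, ← 𝒮.E_mul_right h.src.2, ← mul_assoc, h.pi]
  have k6 : Star.star c * c * (Star.star c * c) = Star.star c * c := by
    calc _ = Star.star (v * Star.star c) * (v * Star.star c) := by
          rw [k4, (IsSelfAdjoint.star_mul_self c).star_eq]
      _ = c * (Star.star v * v) * Star.star c := by simp only [star_mul, star_star, mul_assoc]
      _ = _ := by rw [k5, 𝒮.masa.comm hc hc']
  refine ⟨⟨k6, IsSelfAdjoint.star_mul_self c⟩, ?_⟩
  rw [← mul_assoc, k4, ← 𝒮.masa.comm hc (mul_mem hc' hc), ← sub_eq_zero,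
    ← CStarRing.star_mul_self_eq_zero_iff]
  calc _ = Star.star c * c * (Star.star c * c) * (Star.star c * c) -
        Star.star c * c * (Star.star c * c) - Star.star c * c * (Star.star c * c) +
        Star.star c * c := by
        simp only [star_sub, star_mul, star_star]; noncomm_ring
    _ = 0 := by simp only [k6]; abel
/-- with `c = E (v* w)`, `π = c* c`: `w π = v c` (expand `(w π - v c)* (w π - v c) ≤ 0`) -/
lemma mul_E_proj (h : 𝒮.IsG v) (h' : 𝒮.IsG w) :
    w * (Star.star (𝒮.E (Star.star v * w)) * 𝒮.E (Star.star v * w)) =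
      v * 𝒮.E (Star.star v * w) := by
  obtain ⟨hp, k⟩ := (h.star.mul h').E_proj
  have hc := 𝒮.E_mem (Star.star v * w)
  generalize 𝒮.E (Star.star v * w) = c at hp k hc ⊢
  have hA := mul_mem (star_mem hc) hc
  generalize hπ : Star.star c * c = π at hp k hA ⊢
  have hr := h'.inn _ h.rng.2
  have k1 : Star.star w * (v * Star.star v) * w * π = π := by
    calc _ = π * (Star.star w * (v * Star.star v) * w) * π := by
          rw [← 𝒮.masa.comm hr hA, mul_assoc _ π π, hp.isIdempotentElem.eq]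
      _ = Star.star (Star.star v * w * π) * (Star.star v * w * π) := by
          simp only [star_mul, star_star, hp.isSelfAdjoint.star_eq, mul_assoc]
      _ = π := by rw [k, hπ]
  calc w * π = w * (Star.star w * (v * Star.star v) * w) * π := by rw [mul_assoc, k1]
    _ = v * (Star.star v * w * π) := by rw [← h'.mul_eq h.rng.2]; simp only [mul_assoc]
    _ = _ := by rw [k]
lemma of_proj {p : M} (hp : IsStarProjection p) (hpA : p ∈ 𝒮.A) : 𝒮.IsG p := by
  have e := hp.isSelfAdjoint.star_eq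
  refine ⟨?_, fun a ha => ?_, fun a ha => ?_⟩
  · rw [e, hp.isIdempotentElem.eq, hp.isIdempotentElem.eq]
  · rw [e]; exact mul_mem (mul_mem hpA ha) hpA
  · rw [e]; exact mul_mem (mul_mem hpA ha) hpA
/-- Radon-Nikodym of `φ` with respect to `φ + φ (v · v*)`: `h`; cut by `1[h (1 - h) ≥ κ]`. -/
theorem cut (h : 𝒮.IsG v) {y : M} (hy : 𝒮.E (Star.star v * y) ≠ 0) :
    ∃ K v', 𝒮.IsGb K v' ∧ 𝒮.E (Star.star v' * y) ≠ 0 := by
  obtain ⟨ψ, hψ, hN⟩ : ∃ ψ : M →ₚ[ℂ] ℂ, (∀ a, ψ a = 𝒮.φ a + 𝒮.φ (v * a * Star.star v)) ∧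
      𝒮.W.Normal ψ :=
    ⟨𝒮.φ + conjP 𝒮.φ (Star.star v), fun a => by
      change 𝒮.φ a + conjP 𝒮.φ (Star.star v) a = _
      rw [conjP_apply, star_star], 𝒮.normal.addP (𝒮.normal.conjP _)⟩
  obtain ⟨k, hk, k0, k1, kφ⟩ := 𝒮.W.radon_nikodym 𝒮.masa (ψ := 𝒮.φ) hN zero_le_one
    (fun a _ ha => by
      rw [hψ, one_mul, Complex.add_re]
      exact le_add_of_nonneg_right (𝒮.φ.map_nonneg (star_right_conjugate_nonneg ha v)).1)
  rw [one_smul] at k1
  have hk' : 1 - k ∈ 𝒮.A := sub_mem (one_mem _) hk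
  have k0' : 0 ≤ 1 - k := sub_nonneg.2 k1
  have kv : ∀ a ∈ 𝒮.A, 𝒮.φ (v * a * Star.star v) = ψ (a * (1 - k)) := fun a ha => by
    rw [mul_sub, mul_one, map_sub, ← kφ a ha, hψ, add_sub_cancel_left]
  have hg : k * (1 - k) ∈ 𝒮.A := mul_mem hk hk'
  have g0 : 0 ≤ k * (1 - k) := Commute.mul_nonneg k0 k0' (𝒮.masa.comm hk hk')
  have g1 : k * (1 - k) ≤ k := by
    simpa only [mul_one] using gpd_mul_le hk k0 hk' (one_mem _) (sub_le_self _ k0)
  have g2 : k * (1 - k) ≤ 1 - k := by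
    rw [𝒮.masa.comm hk hk']
    simpa only [mul_one] using gpd_mul_le hk' k0' hk (one_mem _) k1
  generalize hge : k * (1 - k) = g at hg g0 g1 g2
  by_contra hcon
  push Not at hcon
  have hz := 𝒮.E_mem (Star.star v * y)
  have hsz : Star.star v * v * 𝒮.E (Star.star v * y) = 𝒮.E (Star.star v * y) := by
    rw [← 𝒮.E_mul_left h.src.2, ← mul_assoc, h.pi']
  have key : ∀ κ : ℝ, 0 < κ → Star.star (𝒮.E (Star.star v * y)) * g * 𝒮.E (Star.star v * y) ≤
      κ • (Star.star (𝒮.E (Star.star v * y)) * 𝒮.E (Star.star v * y)) := by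
    intro κ hκ
    obtain ⟨p, hp, hpc, p1, p2, -⟩ := 𝒮.W.exists_spectral g0.isSelfAdjoint κ
    have hpA : p ∈ 𝒮.A := 𝒮.masa.mem_of_commutant hg hpc
    have hq := hp.one_sub
    have hqA : 1 - p ∈ 𝒮.A := sub_mem (one_mem _) hpA
    have hzp : (1 - p) * 𝒮.E (Star.star v * y) = 0 := by
      generalize 1 - p = q at hq hqA p2
      have qs := hq.isSelfAdjoint.star_eq
      have hG := h.mul (of_proj hq hqA)
      have main : ∀ b ∈ 𝒮.A, 0 ≤ b → b * q = b → ∀ x ∈ 𝒮.A, x ≤ 1 → ∀ x' ∈ 𝒮.A, g ≤ x' →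
          (ψ (b * x)).re ≤ κ⁻¹ * (ψ (b * x')).re := by
        intro b hb b0 bq x hx x1 x' hx' gx
        have a1 := re_mono ψ (gpd_mul_le hb b0 hx (one_mem _) x1)
        have a2 := re_mono ψ (gpd_mul_le hb b0 hg hx' gx)
        have a3 := re_mono ψ (gpd_mul_le hb b0 (gpd_real_smul_mem hqA κ)
          (mul_mem (mul_mem hqA hg) hqA) p2)
        rw [mul_smul_comm, bq, gpd_re_smul, mul_assoc q, ← mul_assoc b, bq, 𝒮.masa.comm hg hqA,
          ← mul_assoc, bq] at a3
        rw [mul_one] at a1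
        rw [inv_mul_eq_div, le_div_iff₀ hκ]
        nlinarith
      have hb : 𝒮.IsGb κ⁻¹ (v * q) := by
        refine ⟨hG, fun a ha a0 => ?_, fun a ha a0 => ?_⟩
        · have b1 := hG.inn a ha
          have b0 := star_left_conjugate_nonneg a0 (v * q)
          have b2 := main _ b1 b0 (by rw [mul_assoc, mul_assoc v, hq.isIdempotentElem.eq])
            k hk k1 _ hk' g2
          rw [← kφ _ b1, ← kv _ b1] at b2
          refine b2.trans (mul_le_mul_of_nonneg_left ?_ (inv_pos.2 hκ).le)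
          have e : v * (Star.star (v * q) * a * (v * q)) * Star.star v =
              (v * q * Star.star (v * q)) * a * (v * q * Star.star (v * q)) := by
            simp only [star_mul, qs, mul_assoc]
            simp only [← mul_assoc q q, hq.isIdempotentElem.eq]
          rw [e]
          exact (central_proj_le 𝒮.central hG.rng.1 hG.rng.2 a0).1
        · have b1 : q * a * q ∈ 𝒮.A := mul_mem (mul_mem hqA ha) hqA
          have b0 : 0 ≤ q * a * q := by
            simpa only [qs] using star_left_conjugate_nonneg a0 q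
          have b2 := main _ b1 b0 (by rw [mul_assoc, hq.isIdempotentElem.eq]) _ hk'
            (sub_le_self _ k0) k hk g1
          rw [← kφ _ b1, ← kv _ b1] at b2
          have e : v * q * a * Star.star (v * q) = v * (q * a * q) * Star.star v := by
            simp only [star_mul, qs, mul_assoc]
          rw [e]
          exact b2.trans (mul_le_mul_of_nonneg_left (central_proj_le 𝒮.central hq hqA a0).1
            (inv_pos.2 hκ).le)
      have := hcon _ _ hb
      rwa [star_mul, qs, mul_assoc, 𝒮.E_mul_left hqA] at this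
    generalize 𝒮.E (Star.star v * y) = z at hzp
    rw [sub_mul, one_mul, sub_eq_zero] at hzp
    have := star_left_conjugate_le_conjugate p1 z
    have e : Star.star z * p = Star.star z := by
      conv_rhs => rw [hzp, star_mul, hp.isSelfAdjoint.star_eq]
    rwa [mul_smul_comm, smul_mul_assoc, e, ← mul_assoc, ← mul_assoc, e, mul_assoc _ p,
      ← hzp] at this
  generalize 𝒮.E (Star.star v * y) = z at hy hz hsz key
  have hz' := star_mem hz
  have z0 : Star.star z * g * z = 0 := by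
    refine le_antisymm ?_ (star_left_conjugate_nonneg g0 z)
    have t : Tendsto (fun κ : ℝ => κ • (Star.star z * z)) (𝓝[>] 0) (𝓝 ((0 : ℝ) • (Star.star z * z))) :=
      (tendsto_id.smul_const _).mono_left nhdsWithin_le_nhds
    rw [zero_smul] at t
    exact ge_of_tendsto t (eventually_mem_nhdsWithin.mono fun κ hκ => key κ hκ)
  have z1 : (1 - k) * z = 0 := by
    refine 𝒮.faithful _ ?_
    rw [kφ _ (mul_mem (star_mem (mul_mem hk' hz)) (mul_mem hk' hz)), star_mul,
      k0'.isSelfAdjoint.star_eq]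
    have e : Star.star z * (1 - k) * ((1 - k) * z) * k = (1 - k) * (Star.star z * g * z) := by
      rw [← hge, 𝒮.masa.comm hz' hk', mul_assoc, mul_assoc, ← 𝒮.masa.comm hk (mul_mem hk' hz)]
      simp only [mul_assoc]
    rw [e, z0, mul_zero, map_zero]
  have z2 : Star.star (v * z) = 0 := by
    refine 𝒮.faithful _ ?_
    rw [star_star, star_mul, ← mul_assoc, mul_assoc v, kv _ (mul_mem hz hz'),
      ← 𝒮.masa.comm hk' (mul_mem hz hz'), ← mul_assoc, z1, zero_mul, map_zero]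
  apply hy
  rw [← hsz, mul_assoc, star_eq_zero.1 z2, mul_zero]
end IsG

lemma isGb_proj {p : M} (hp : IsStarProjection p) (hpA : p ∈ 𝒮.A) : 𝒮.IsGb 1 p := by
  have e := hp.isSelfAdjoint.star_eq
  refine ⟨IsG.of_proj hp hpA, fun a _ a0 => ?_, fun a _ a0 => ?_⟩ <;>
  · rw [e, one_mul]
    exact (central_proj_le 𝒮.central hp hpA a0).1

lemma isGb_one : 𝒮.IsGb 1 1 := isGb_proj (IsStarProjection.one M) (one_mem _)

lemma rn_mem (v : M) : 𝒮.rn v ∈ 𝒮.A := by
  unfold rn
  split_ifs with h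
  · exact h.choose_spec.1
  · exact zero_mem _

lemma rn_eq {v k : M} (hk : k ∈ 𝒮.A) (h : ∀ b ∈ 𝒮.A, 𝒮.φ (v * b * star v) = 𝒮.φ (b * k)) :
    𝒮.rn v = k := by
  have h' : ∃ k ∈ 𝒮.A, ∀ b ∈ 𝒮.A, 𝒮.φ (v * b * star v) = 𝒮.φ (b * k) := ⟨k, hk, h⟩
  rw [rn, dif_pos h']
  exact 𝒮.eq_of_mem h'.choose_spec.1 hk fun b hb => (h'.choose_spec.2 b hb).symm.trans (h b hb)

lemma rn_one : 𝒮.rn 1 = 1 := by
  exact rn_eq (one_mem _) fun b _ => by rw [star_one, one_mul]

namespace IsGb
variable {v w : M} {K K' : ℝ}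

lemma star (h : 𝒮.IsGb K v) : 𝒮.IsGb K (star v) := by
  refine ⟨h.toIsG.star, fun a ha a0 => ?_, fun a ha a0 => ?_⟩
  · rw [star_star]; exact h.out_le a ha a0
  · rw [star_star]; exact h.inn_le a ha a0
lemma mono (h : 𝒮.IsGb K v) (hK : K ≤ K') : 𝒮.IsGb K' v := by
  exact ⟨h.toIsG, fun a ha a0 => (h.inn_le a ha a0).trans
      (mul_le_mul_of_nonneg_right hK (𝒮.φ.map_nonneg a0).1),
    fun a ha a0 => (h.out_le a ha a0).trans (mul_le_mul_of_nonneg_right hK (𝒮.φ.map_nonneg a0).1)⟩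
lemma mul (h : 𝒮.IsGb K v) (h' : 𝒮.IsGb K' w) (hK' : 0 ≤ K') (hK : 0 ≤ K) :
    𝒮.IsGb (K * K') (v * w) := by
  refine ⟨h.toIsG.mul h'.toIsG, fun a ha a0 => ?_, fun a ha a0 => ?_⟩
  · have a1 := h'.inn_le _ (h.inn a ha) (star_left_conjugate_nonneg a0 v)
    have a2 := mul_le_mul_of_nonneg_left (h.inn_le a ha a0) hK'
    have e : Star.star (v * w) * a * (v * w) = Star.star w * (Star.star v * a * v) * w := by
      simp only [star_mul, mul_assoc]
    rw [e]
    linarith
  · have a1 := h.out_le _ (h'.out a ha) (star_right_conjugate_nonneg a0 w)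
    have a2 := mul_le_mul_of_nonneg_left (h'.out_le a ha a0) hK
    have e : v * w * a * Star.star (v * w) = v * (w * a * Star.star w) * Star.star v := by
      simp only [star_mul, mul_assoc]
    rw [e]
    linarith
lemma conj_le (h : 𝒮.IsGb K v) {c : M} (hc : 0 ≤ c) :
    (𝒮.φ (Star.star v * c * v)).re ≤ K * (𝒮.φ c).re := by
  rw [← 𝒮.φ_E, h.toIsG.E_conj, ← 𝒮.φ_E c]
  exact h.inn_le _ (𝒮.E_mem c) (𝒮.E_nonneg hc)
lemma nrm_conj_sq_le (h : 𝒮.IsGb K v) (b : M) :
    nrm 𝒮.φ (Star.star v * b * v) ^ 2 ≤ K * nrm 𝒮.φ b ^ 2 := by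
  rw [nrm_sq, nrm_sq]
  refine le_trans (re_mono 𝒮.φ ?_) (h.conj_le (star_mul_self_nonneg b))
  have := star_left_conjugate_le_conjugate h.toIsG.rng.1.le_one (b * v)
  simpa only [star_mul, star_star, mul_one, mul_assoc] using this
lemma RB (h : 𝒮.IsGb K v) : RB 𝒮.φ v := by
  refine ⟨|K| + 1, fun c => ?_⟩
  have a1 := h.conj_le (star_mul_self_nonneg c)
  have e : Star.star v * (Star.star c * c) * v = Star.star (c * v) * (c * v) := by
    simp only [star_mul, mul_assoc]
  rw [e, ← nrm_sq, ← nrm_sq] at a1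
  refine (pow_le_pow_iff_left₀ (nrm_nonneg _ _)
    (mul_nonneg (by positivity) (nrm_nonneg _ _)) two_ne_zero).1 (a1.trans ?_)
  rw [mul_pow]
  refine mul_le_mul_of_nonneg_right ?_ (sq_nonneg _)
  nlinarith [le_abs_self K, abs_nonneg K]
lemma rn_all (h : 𝒮.IsGb K v) (hK : 0 ≤ K) : 0 ≤ 𝒮.rn v ∧ 𝒮.rn v ≤ K • (1 : M) ∧
    ∀ b ∈ 𝒮.A, 𝒮.φ (v * b * Star.star v) = 𝒮.φ (b * 𝒮.rn v) := by
  obtain ⟨k, hk, k0, k1, k2⟩ := 𝒮.W.radon_nikodym 𝒮.masa (ψ := conjP 𝒮.φ (Star.star v))
    𝒮.normal hK (fun a ha a0 => by rw [conjP_apply, star_star]; exact h.out_le a ha a0)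
  simp only [conjP_apply, star_star] at k2
  rw [rn_eq hk k2]
  exact ⟨k0, k1, k2⟩
lemma rn_spec (h : 𝒮.IsGb K v) {b : M} (hb : b ∈ 𝒮.A) :
    𝒮.φ (v * b * Star.star v) = 𝒮.φ (b * 𝒮.rn v) := by
  exact ((h.mono (le_abs_self K)).rn_all (abs_nonneg K)).2.2 b hb
lemma rn_nonneg (h : 𝒮.IsGb K v) : 0 ≤ 𝒮.rn v := by
  exact ((h.mono (le_abs_self K)).rn_all (abs_nonneg K)).1
lemma rn_le (h : 𝒮.IsGb K v) (hK : 0 ≤ K) : 𝒮.rn v ≤ K • (1 : M) := by
  exact (h.rn_all hK).2.1
lemma le_rn (h : 𝒮.IsGb K v) : Star.star v * v ≤ K • 𝒮.rn v := by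
  have hs := h.toIsG.src
  refine sub_nonneg.1 (gpd_nonneg (sub_mem (gpd_real_smul_mem (rn_mem v) K) hs.2)
    (((IsSelfAdjoint.all K).smul h.rn_nonneg.isSelfAdjoint).sub hs.1.isSelfAdjoint)
    fun a ha a0 => ?_)
  have a1 := h.inn_le _ (h.out a ha) (star_right_conjugate_nonneg a0 v)
  have e : Star.star v * (v * a * Star.star v) * v = a * (Star.star v * v) := by
    calc _ = (Star.star v * v * a) * (Star.star v * v) := by simp only [mul_assoc]
      _ = _ := by rw [𝒮.masa.comm hs.2 ha, mul_assoc, hs.1.isIdempotentElem.eq]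
  rw [e, h.rn_spec ha] at a1
  rwa [mul_sub, map_sub, Complex.sub_re, mul_smul_comm, gpd_re_smul, sub_nonneg]
/-- cocycle identity -/
lemma rn_mul (h : 𝒮.IsGb K v) (h' : 𝒮.IsGb K' w) :
    𝒮.rn (v * w) = (Star.star w * 𝒮.rn v * w) * 𝒮.rn w := by
  have h1 := h'.inn _ (rn_mem v)
  refine rn_eq (mul_mem h1 (rn_mem w)) fun b hb => ?_
  have e : v * w * b * Star.star (v * w) = v * (w * b * Star.star w) * Star.star v := by
    simp only [star_mul, mul_assoc]
  have e' : w * b * Star.star w * 𝒮.rn v =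
      w * (b * (Star.star w * 𝒮.rn v * w)) * Star.star w := by
    calc _ = w * b * (Star.star w * 𝒮.rn v * w * Star.star w) := by
          rw [← h'.toIsG.mul_eq' (rn_mem v), mul_assoc]
      _ = _ := by simp only [mul_assoc]
  rw [e, h.rn_spec (h'.out b hb), e', h'.rn_spec (mul_mem hb h1), mul_assoc]
lemma rn_congr (h : 𝒮.IsGb K v) (h' : 𝒮.IsGb K' w) {c : M} (hc : c ∈ 𝒮.A)
    (hp : IsStarProjection (Star.star c * c)) (hw : w * (Star.star c * c) = v * c) :
    𝒮.rn w * (Star.star c * c) = 𝒮.rn v * (Star.star c * c) := by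
  have hc' := star_mem hc
  have hA := mul_mem hc' hc
  refine 𝒮.eq_of_mem (mul_mem (rn_mem w) hA) (mul_mem (rn_mem v) hA) fun b hb => ?_
  rw [𝒮.masa.comm (rn_mem w) hA, 𝒮.masa.comm (rn_mem v) hA, ← mul_assoc b _ (𝒮.rn w),
    ← mul_assoc b _ (𝒮.rn v),
    ← h'.rn_spec (mul_mem hb hA), ← h.rn_spec (mul_mem hb hA)]
  congr 1
  calc _ = w * (Star.star c * c) * b * Star.star (w * (Star.star c * c)) := by
        rw [star_mul, hp.isSelfAdjoint.star_eq, mul_assoc w _ b, 𝒮.masa.comm hA hb,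
          ← mul_assoc _ _ (Star.star w), mul_assoc w (b * _) (Star.star c * c),
          mul_assoc b (Star.star c * c) (Star.star c * c), hp.isIdempotentElem.eq]
    _ = v * (c * b * Star.star c) * Star.star v := by rw [hw]; simp only [star_mul, mul_assoc]
    _ = _ := by rw [𝒮.masa.comm hc hb, mul_assoc b, 𝒮.masa.comm hc hc']
end IsGb

lemma mem_N0_iff {x : M} : x ∈ 𝒮.N0 ↔ ∃ (F : Finset M) (a : M → M),
    (∀ v ∈ F, ∃ K, 𝒮.IsGb K v) ∧ (∀ v, a v ∈ 𝒮.A) ∧ x = ∑ v ∈ F, v * a v := by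
  classical
  refine ⟨fun hx => ?_, ?_⟩
  · have gen : ∀ {K v a}, 𝒮.IsGb K v → a ∈ 𝒮.A →
        v * a ∈ AddSubmonoid.closure {y | ∃ K v a, 𝒮.IsGb K v ∧ a ∈ 𝒮.A ∧ y = v * a} :=
      fun hv ha => AddSubmonoid.subset_closure ⟨_, _, _, hv, ha, rfl⟩
    have h1 : x ∈ AddSubmonoid.closure {y | ∃ K v a, 𝒮.IsGb K v ∧ a ∈ 𝒮.A ∧ y = v * a} := by
      induction hx using StarAlgebra.adjoin_induction with
      | mem y hy =>
        rcases hy with ⟨K, hy⟩ | hy
        · simpa only [mul_one] using gen hy (one_mem _)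
        · simpa only [one_mul] using gen isGb_one hy
      | algebraMap r => simpa only [one_mul] using gen isGb_one (algebraMap_mem _ r)
      | add y z _ _ hy hz => exact add_mem hy hz
      | mul y z h1 h2 hy hz =>
        clear h1 h2
        induction hy using AddSubmonoid.closure_induction with
        | zero => rw [zero_mul]; exact zero_mem _
        | add y y' _ _ a1 a2 => rw [add_mul]; exact add_mem a1 a2
        | mem y hy =>
          induction hz using AddSubmonoid.closure_induction with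
          | zero => rw [mul_zero]; exact zero_mem _
          | add z z' _ _ a1 a2 => rw [mul_add]; exact add_mem a1 a2
          | mem z hz =>
            obtain ⟨K, v, a, hv, ha, rfl⟩ := hy
            obtain ⟨K', w, b, hw, hb, rfl⟩ := hz
            have := gen ((hv.mono (le_abs_self _)).mul (hw.mono (le_abs_self _)) (abs_nonneg _)
              (abs_nonneg _)) (mul_mem (hw.inn a ha) hb)
            rwa [← mul_assoc, mul_assoc v, ← hw.toIsG.mul_eq ha, ← mul_assoc, mul_assoc _ w] at this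
      | star y h1 hy =>
        clear h1
        induction hy using AddSubmonoid.closure_induction with
        | zero => rw [star_zero]; exact zero_mem _
        | add y y' _ _ a1 a2 => rw [star_add]; exact add_mem a1 a2
        | mem y hy =>
          obtain ⟨K, v, a, hv, ha, rfl⟩ := hy
          rw [star_mul, hv.toIsG.star.mul_eq (star_mem ha)]
          exact gen hv.star (hv.star.inn _ (star_mem ha))
    clear hx
    induction h1 using AddSubmonoid.closure_induction with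
    | zero => exact ⟨∅, fun _ => 0, by simp, fun _ => zero_mem _, by simp⟩
    | mem y hy =>
      obtain ⟨K, v, a, hv, ha, rfl⟩ := hy
      exact ⟨{v}, fun _ => a, fun w hw => ⟨K, Finset.mem_singleton.1 hw ▸ hv⟩, fun _ => ha, by simp⟩
    | add y z _ _ hy hz =>
      obtain ⟨F, a, hF, ha, rfl⟩ := hy
      obtain ⟨G, b, hG, hb, rfl⟩ := hz
      refine ⟨F ∪ G, fun v => (if v ∈ F then a v else 0) + (if v ∈ G then b v else 0),
        fun v hv => (Finset.mem_union.1 hv).elim (hF v) (hG v), fun v => add_mem ?_ ?_, ?_⟩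
      · split_ifs
        · exact ha v
        · exact zero_mem _
      · split_ifs
        · exact hb v
        · exact zero_mem _
      · simp only [mul_add, Finset.sum_add_distrib, mul_ite, mul_zero, Finset.sum_ite_mem,
          Finset.union_inter_cancel_left, Finset.union_inter_cancel_right]
  · rintro ⟨F, a, hF, ha, rfl⟩
    exact sum_mem fun v hv => mul_mem (StarAlgebra.subset_adjoin ℂ _ (Or.inl (hF v hv)))
      (StarAlgebra.subset_adjoin ℂ _ (Or.inr (ha v)))

lemma mem_N0_of_mem {a : M} (ha : a ∈ 𝒮.A) : a ∈ 𝒮.N0 :=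
  StarAlgebra.subset_adjoin ℂ _ (Or.inr ha)

lemma IsGb.mem_N0 {K : ℝ} {v : M} (h : 𝒮.IsGb K v) : v ∈ 𝒮.N0 :=
  StarAlgebra.subset_adjoin ℂ _ (Or.inl ⟨K, h⟩)

lemma RB_of_mem_N0 {x : M} (hx : x ∈ 𝒮.N0) : RB 𝒮.φ x := by
  have : 𝒮.N0 ≤ RBalg 𝒮.φ := by
    refine StarAlgebra.adjoin_le ?_
    rintro y (⟨K, hy⟩ | hy)
    · exact ⟨hy.RB, hy.star.RB⟩
    · exact ⟨𝒮.RB_of_mem hy, 𝒮.RB_of_mem (star_mem hy)⟩
  exact (this hx).1

/-- presentation with a star-closed set of generators -/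
theorem N0_presentation {x : M} (hx : x ∈ 𝒮.N0) :
    ∃ (Γ : Type u) (_ : Fintype Γ) (v a : Γ → M) (st : Γ → Γ) (K : ℝ), 1 ≤ K ∧
      (∀ γ, 𝒮.IsGb K (v γ) ∧ a γ ∈ 𝒮.A ∧ v (st γ) = star (v γ)) ∧ x = ∑ γ, v γ * a γ := by
  classical
  obtain ⟨F, a, hF, ha, rfl⟩ := mem_N0_iff.1 hx
  have hF' : ∀ v ∈ F ∪ F.image star, ∃ K, 𝒮.IsGb K v := by
    intro v hv
    rcases Finset.mem_union.1 hv with hv | hv
    · exact hF v hv
    · obtain ⟨w, hw, rfl⟩ := Finset.mem_image.1 hv
      obtain ⟨K, hK⟩ := hF w hw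
      exact ⟨K, hK.star⟩
  have hst : ∀ v ∈ F ∪ F.image star, star v ∈ F ∪ F.image star := by
    intro v hv
    rcases Finset.mem_union.1 hv with hv | hv
    · exact Finset.mem_union_right _ (Finset.mem_image_of_mem _ hv)
    · obtain ⟨w, hw, rfl⟩ := Finset.mem_image.1 hv
      rw [star_star]
      exact Finset.mem_union_left _ hw
  choose K hK using fun γ : ↥(F ∪ F.image star) => hF' γ γ.2
  refine ⟨↥(F ∪ F.image star), inferInstance, fun γ => γ, fun γ => if (γ : M) ∈ F then a γ else 0,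
    fun γ => ⟨star γ, hst γ γ.2⟩, 1 + ∑ γ, |K γ|, ?_, fun γ => ⟨(hK γ).mono ?_, ?_, rfl⟩, ?_⟩
  · exact le_add_of_nonneg_right (Finset.sum_nonneg fun _ _ => abs_nonneg _)
  · have := Finset.single_le_sum (f := fun γ => |K γ|) (fun _ _ => abs_nonneg _) (Finset.mem_univ γ)
    linarith [le_abs_self (K γ)]
  · beta_reduce
    split_ifs
    · exact ha _
    · exact zero_mem _
  · rw [Finset.sum_coe_sort (F ∪ F.image star) (fun v => v * if v ∈ F then a v else 0),
      ← Finset.sum_subset Finset.subset_union_left (fun v _ hv => by rw [if_neg hv, mul_zero])]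
    exact Finset.sum_congr rfl fun v hv => by rw [if_pos hv]

/-- orthogonal to the groupoid -/
def Perp (𝒮 : WSys M) (y : M) : Prop := ∀ v, 𝒮.IsG v → 𝒮.E (star v * y) = 0

lemma Perp.conj {y v w : M} (hy : 𝒮.Perp y) (hv : 𝒮.IsG v) (hw : 𝒮.IsG w) :
    𝒮.Perp (v * y * star w) := by
  intro u hu
  rw [← mul_assoc]
  refine (hw.E_eq_zero_iff _).1 ?_
  simpa only [star_mul, star_star, mul_assoc] using hy _ ((hv.star.mul hu).mul hw)

end WSys

end Vale.Agent.P078
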