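import Vale.Agent.P078.NV
import Vale.Agent.P078.Car

/-! Locality of the Green function. -/

namespace Vale.Agent.P078

open Finset
open scoped ComplexOrder

variable {V ι : Type*} [DecidableEq V] [Fintype ι] [DecidableEq ι]

/-- accretive, layered system with off-diagonal row and column sums at most `C` -/
structure Lay (η C : ℝ) (ℓ : V → ℕ) (β : V → ι → ℂ) (X : ι → V → V → ℂ) (W : Finset V) :
    Prop where
  pos : PosW β W
  acc : ∀ i, ImGe (fun _ => η) (X i) W
  row : ∀ i, ∀ a ∈ W, ∑ b ∈ W.erase a, ‖X i a b‖ ≤ C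
  col : ∀ i, ∀ a ∈ W, ∑ b ∈ W.erase a, ‖X i b a‖ ≤ C
  lay : ∀ i, ∀ a ∈ W, ∀ b ∈ W, X i a b ≠ 0 → ℓ a ≤ ℓ b + 1 ∧ ℓ b ≤ ℓ a + 1

namespace LocAux

/-- product of the multipliers of all cuts separating `a` and `b` -/
noncomputable def mu (ℓ : V → ℕ) (R : ℕ) (lam : ℕ → ℂ) (a b : V) : ℂ :=
  ∏ k ∈ Finset.range R, if (ℓ a ≤ k ↔ ℓ b ≤ k) then 1 else lam k

omit [DecidableEq V] in
lemma imGe_mix {η t : ℝ} {Y : V → V → ℂ} {U : Finset V} (h : ImGe (fun _ => η) Y U)
    (p : V → Prop) [DecidablePred p] (ht0 : 0 ≤ t) (ht1 : t ≤ 1) :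
    ImGe (fun _ => η) (fun a b => (if (p a ↔ p b) then 1 else (t : ℂ)) * Y a b) U := by
  intro ξ
  set ξ' : V → ℂ := fun a => if p a then ξ a else -ξ a with hξ'
  have e : qform (fun a b => (if (p a ↔ p b) then 1 else (t : ℂ)) * Y a b) U ξ =
      (((1 + t) / 2 : ℝ) : ℂ) * qform Y U ξ + (((1 - t) / 2 : ℝ) : ℂ) * qform Y U ξ' := by
    unfold qform
    simp only [Finset.mul_sum, ← Finset.sum_add_distrib]
    refine Finset.sum_congr rfl fun a _ => Finset.sum_congr rfl fun b _ => ?_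
    by_cases ha : p a <;> by_cases hb : p b <;> simp [hξ', ha, hb] <;> ring
  have h1 := h ξ
  have h2 := h ξ'
  have e2 : ∑ a ∈ U, η * ‖ξ' a‖ ^ 2 = ∑ a ∈ U, η * ‖ξ a‖ ^ 2 :=
    Finset.sum_congr rfl fun a _ => by by_cases ha : p a <;> simp [hξ', ha]
  rw [e, Complex.add_im, Complex.im_ofReal_mul, Complex.im_ofReal_mul]
  simp only at h1 h2 ⊢
  rw [e2] at h2
  nlinarith

omit [DecidableEq V] in
lemma imGe_real {η : ℝ} {Y : V → V → ℂ} {U : Finset V} (h : ImGe (fun _ => η) Y U)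
    (ℓ : V → ℕ) (t : ℕ → ℝ) (ht : ∀ k, 0 ≤ t k ∧ t k ≤ 1) (R : ℕ) :
    ImGe (fun _ => η) (fun a b => mu ℓ R (fun k => t k) a b * Y a b) U := by
  induction R with
  | zero => simpa [mu] using h
  | succ R ih =>
    have := imGe_mix ih (fun a => ℓ a ≤ R) (ht R).1 (ht R).2
    convert this using 3 with a b
    rw [mu, Finset.prod_range_succ, mu]
    ring

omit [DecidableEq V] in
lemma mu_sub_le {ℓ : V → ℕ} {R : ℕ} {lam lam' : ℕ → ℂ} {ρ : ℝ} (hρ : 0 ≤ ρ)
    (h : ∀ k, ‖lam k - lam' k‖ ≤ ρ) {a b : V} (hab : ℓ a ≤ ℓ b + 1 ∧ ℓ b ≤ ℓ a + 1) :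
    ‖mu ℓ R lam a b - mu ℓ R lam' a b‖ ≤ ρ := by
  have e : ∀ l : ℕ → ℂ, mu ℓ R l a b = if min (ℓ a) (ℓ b) ∈ Finset.range R then
      (if (ℓ a ≤ min (ℓ a) (ℓ b) ↔ ℓ b ≤ min (ℓ a) (ℓ b)) then 1 else l (min (ℓ a) (ℓ b)))
      else 1 := fun l => by
    unfold mu
    refine Finset.prod_eq_ite _ fun k _ hk => if_pos ?_
    omega
  rw [e, e]
  split_ifs
  · simpa using hρ
  · exact h _
  · simpa using hρ

lemma imGe_stad {η C : ℝ} (hη : 0 < η) (hC : 0 < C) {ℓ : V → ℕ} {β : V → ι → ℂ}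
    {X : ι → V → V → ℂ} {W : Finset V} (h : Lay η C ℓ β X W) (R : ℕ) {lam : ℕ → ℂ}
    (hl : ∀ k, lam k ∈ stadium (η / (2 * C))) (i : ι) :
    ImGe (fun _ => η / 2) (fun a b => mu ℓ R lam a b * X i a b) W := by
  choose t ht0 ht1 ht using hl
  have hρ : 0 < η / (2 * C) := by positivity
  have h1 := imGe_real (h.acc i) ℓ t (fun k => ⟨ht0 k, ht1 k⟩) R
  set Z : V → V → ℂ := fun a b => (mu ℓ R lam a b - mu ℓ R (fun k => t k) a b) * X i a b with hZ
  have hZ1 : ∀ a ∈ W, ∀ b ∈ W, ‖Z a b‖ ≤ η / (2 * C) * ‖X i a b‖ := fun a ha b hb => by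
    by_cases h0 : X i a b = 0
    · simp [hZ, h0]
    · rw [hZ, norm_mul]
      exact mul_le_mul_of_nonneg_right
        (mu_sub_le hρ.le (fun k => (ht k).le) (h.lay i a ha b hb h0)) (norm_nonneg _)
  have hZ0 : ∀ a, Z a a = 0 := fun a => by simp [hZ, mu]
  have e0 : η / (2 * C) * C = η / 2 := by field_simp
  have h2 := h1.add_small (C := fun _ => η / 2) (Z := Z) fun a ha => by
    have r1 : ∑ b ∈ W, ‖Z a b‖ ≤ η / 2 := by
      rw [← Finset.add_sum_erase _ _ ha, hZ0, norm_zero, zero_add, ← e0]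
      refine (Finset.sum_le_sum fun b hb => hZ1 a ha b (Finset.mem_of_mem_erase hb)).trans ?_
      rw [← Finset.mul_sum]
      exact mul_le_mul_of_nonneg_left (h.row i a ha) hρ.le
    have r2 : ∑ b ∈ W, ‖Z b a‖ ≤ η / 2 := by
      rw [← Finset.add_sum_erase _ _ ha, hZ0, norm_zero, zero_add, ← e0]
      refine (Finset.sum_le_sum fun b hb => hZ1 b (Finset.mem_of_mem_erase hb) a ha).trans ?_
      rw [← Finset.mul_sum]
      exact mul_le_mul_of_nonneg_left (h.col i a ha) hρ.le
    linarith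
  have e1 : (fun _ : V => η - η / 2) = fun _ => η / 2 := by funext; ring
  have e2 : (fun a b => mu ℓ R (fun k => t k) a b * X i a b + Z a b) =
      fun a b => mu ℓ R lam a b * X i a b := by
    funext a b; simp only [hZ]; ring
  simp only [e1, e2] at h2
  exact h2

lemma G_block {β : V → ι → ℂ} {X : ι → V → V → ℂ} {W : Finset V} {o : V} (p : V → Prop)
    [DecidablePred p] (hp : p o) (hQ : Q β X W R0 ≠ 0)
    (h : ∀ i, ∀ a ∈ W, ∀ b ∈ W, p a → ¬ p b → X i a b = 0) :
    G β X W o = G β X (W.filter p) o := by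
  have e0 : ∀ (q : V → Prop) [DecidablePred q],
      (fun i => ((R0 : ι → Finset V) i).filter q) = R0 := fun q _ => by
    funext i; simp [R0]
  have h1 := Q_block β X W R0 p fun i a ha b hb =>
    h i a (by simpa [R0] using ha) b (by simpa [R0] using hb)
  have h2 := Q_block β X (W.erase o) R0 p fun i a ha b hb =>
    h i a (Finset.mem_of_mem_erase (by simpa only [R0, Finset.union_empty] using ha)) b
      (Finset.mem_of_mem_erase (by simpa only [R0, Finset.union_empty] using hb))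
  have e1 : (W.erase o).filter p = (W.filter p).erase o := Finset.filter_erase _ _ _
  have e2 : (W.erase o).filter (fun v => ¬ p v) = W.filter fun v => ¬ p v := by
    rw [Finset.filter_erase, Finset.erase_eq_of_notMem]
    simp [hp]
  rw [e0, e0] at h1 h2
  rw [e1, e2] at h2
  have h3 : Q β X (W.filter fun v => ¬ p v) R0 ≠ 0 := fun h' => hQ (by rw [h1, h', mul_zero])
  unfold G
  rw [h1, h2, ← mul_assoc, mul_div_mul_right _ _ h3]

omit [DecidableEq V] in
lemma mu_differentiableAt (ℓ : V → ℕ) (R : ℕ) (lam : ℕ → ℂ) (j : ℕ) (a b : V) (z : ℂ) :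
    DifferentiableAt ℂ (fun t => mu ℓ R (Function.update lam j t) a b) z := by
  unfold mu
  refine DifferentiableAt.fun_finsetProd fun k _ => ?_
  by_cases h : (ℓ a ≤ k ↔ ℓ b ≤ k)
  · simp only [if_pos h]; exact differentiableAt_const _
  · simp only [if_neg h]
    by_cases hk : k = j
    · subst hk; simp only [Function.update_self]; exact differentiableAt_id
    · simp only [Function.update_of_ne hk]; exact differentiableAt_const _

lemma Q_stad_ne {η C : ℝ} (hη : 0 < η) (hC : 0 < C) {ℓ : V → ℕ} {β : V → ι → ℂ}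
    {X : ι → V → V → ℂ} {W : Finset V} (h : Lay η C ℓ β X W) {o : V} (ho : o ∈ W) (R : ℕ)
    {lam : ℕ → ℂ} (hl : ∀ k, lam k ∈ stadium (η / (2 * C))) :
    Q β (fun i a b => mu ℓ R lam a b * X i a b) W R0 ≠ 0 := by
  have : Nonempty ι := by
    by_contra h'
    rw [not_nonempty_iff] at h'
    have h1 := (h.pos o ho).2
    simp [bsum] at h1
  refine Q_ne_zero (ρ := fun _ => η / 2) h.pos (fun _ => Finset.disjoint_empty_right W)
    (fun i => ?_) fun _ _ _ => by positivity
  simpa only [R0, Finset.union_empty] using imGe_stad hη hC h R hl i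

lemma G_stad_diff {η C : ℝ} (hη : 0 < η) (hC : 0 < C) {ℓ : V → ℕ} {β : V → ι → ℂ}
    {X : ι → V → V → ℂ} {W : Finset V} (h : Lay η C ℓ β X W) {o : V} (ho : o ∈ W) (R : ℕ)
    {lam : ℕ → ℂ} {j : ℕ} {z : ℂ}
    (hl : ∀ k, Function.update lam j z k ∈ stadium (η / (2 * C))) :
    DifferentiableAt ℂ
      (fun t => G β (fun i a b => mu ℓ R (Function.update lam j t) a b * X i a b) W o) z := by
  have hd : ∀ U : Finset V, DifferentiableAt ℂ
      (fun t => Q β (fun i a b => mu ℓ R (Function.update lam j t) a b * X i a b) U R0) z :=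
    fun U => Q_differentiableAt (β := fun _ => β)
      (X := fun t i a b => mu ℓ R (Function.update lam j t) a b * X i a b) U R0
      (fun _ _ => differentiableAt_const _)
      fun i a b => (mu_differentiableAt ℓ R lam j a b z).mul_const _
  unfold G
  exact ((hd _).const_mul _).fun_div (hd _) (Q_stad_ne hη hC h ho R hl)

end LocAux

open LocAux in
/-- Multiply the entries between layers `k` and `k+1` by `lam k` (`k < R`).  For `lam k` in the
stadium of width `ρ = η/(2C)` the system stays `η/2`-accretive (real part: convex combination of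
sign conjugations, by induction on `k`; complex part: `ImGe.add_small`).  The difference of the two
Green functions is holomorphic in each `lam k`, bounded by `4/η`, and vanishes if some `lam k = 0`
(`Q_block`, `G_congr`).  Iterate `stadium_bound`. -/
theorem G_local {η C : ℝ} (hη : 0 < η) (hC : 0 < C) {ℓ : V → ℕ} {o : V} (ho : ℓ o = 0) (R : ℕ)
    {β β' : V → ι → ℂ} {X X' : ι → V → V → ℂ} {W W' : Finset V}
    (h : Lay η C ℓ β X W) (h' : Lay η C ℓ β' X' W') (hoW : o ∈ W)
    (hW : ∀ a, ℓ a ≤ R → (a ∈ W ↔ a ∈ W')) (hβ : ∀ a ∈ W, ℓ a ≤ R → β a = β' a)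
    (hX : ∀ i, ∀ a ∈ W, ∀ b ∈ W, ℓ a ≤ R → ℓ b ≤ R → X i a b = X' i a b) :
    ‖G β X W o - G β' X' W' o‖ ≤ 4 / η * (1 - Real.exp (-4 * C / η)) ^ R := by
  have hoW' : o ∈ W' := (hW o (by omega)).1 hoW
  have hρ : 0 < η / (2 * C) := by positivity
  set D : (ℕ → ℂ) → ℂ := fun lam => G β (fun i a b => mu ℓ R lam a b * X i a b) W o -
    G β' (fun i a b => mu ℓ R lam a b * X' i a b) W' o with hD
  have hexp : -2 / (η / (2 * C)) = -4 * C / η := by field_simp; ring
  have hst : ∀ t : ℝ, 0 ≤ t → t ≤ 1 → (t : ℂ) ∈ stadium (η / (2 * C)) := fun t h0 h1 =>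
    ⟨t, h0, h1, by simpa using hρ⟩
  have hupd : ∀ (lam : ℕ → ℂ) (j : ℕ) (z : ℂ), (∀ k, lam k ∈ stadium (η / (2 * C))) →
      z ∈ stadium (η / (2 * C)) → ∀ k, Function.update lam j z k ∈ stadium (η / (2 * C)) := by
    intro lam j z hl hz k
    by_cases hk : k = j
    · subst hk; rwa [Function.update_self]
    · rw [Function.update_of_ne hk]; exact hl k
  have hzero : ∀ (lam : ℕ → ℂ) (j : ℕ), j < R → (∀ k, lam k ∈ stadium (η / (2 * C))) →
      lam j = 0 → D lam = 0 := by
    intro lam j hj hl h0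
    have hmu : ∀ a b, ℓ a ≤ j → ¬ ℓ b ≤ j → mu ℓ R lam a b = 0 := fun a b ha hb =>
      Finset.prod_eq_zero (Finset.mem_range.2 hj) (by rw [if_neg (fun h => hb (h.1 ha)), h0])
    have hoj : ℓ o ≤ j := by omega
    have e : W.filter (fun a => ℓ a ≤ j) = W'.filter (fun a => ℓ a ≤ j) := by
      ext a
      simp only [Finset.mem_filter]
      exact ⟨fun h => ⟨(hW a (by omega)).1 h.1, h.2⟩, fun h => ⟨(hW a (by omega)).2 h.1, h.2⟩⟩
    simp only [hD]
    rw [G_block (fun a => ℓ a ≤ j) hoj (Q_stad_ne hη hC h hoW R hl)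
        (fun i a _ b _ ha hb => by rw [hmu a b ha hb, zero_mul]),
      G_block (W := W') (fun a => ℓ a ≤ j) hoj (Q_stad_ne hη hC h' hoW' R hl)
        (fun i a _ b _ ha hb => by rw [hmu a b ha hb, zero_mul]), ← e, sub_eq_zero]
    refine G_congr (Finset.mem_filter.2 ⟨hoW, hoj⟩) (fun v hv => ?_) fun i a ha b hb => ?_
    · obtain ⟨h1, h2⟩ := Finset.mem_filter.1 hv
      exact hβ v h1 (by omega)
    · obtain ⟨h1, h2⟩ := Finset.mem_filter.1 ha
      obtain ⟨h3, h4⟩ := Finset.mem_filter.1 hb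
      rw [hX i a h1 b h3 (by omega) (by omega)]
  have key : ∀ j, j ≤ R → ∀ lam : ℕ → ℂ, (∀ k, lam k ∈ stadium (η / (2 * C))) →
      (∀ k < j, lam k = 1) → ‖D lam‖ ≤ 4 / η * (1 - Real.exp (-4 * C / η)) ^ j := by
    intro j
    induction j with
    | zero =>
      intro _ lam hl _
      have h1 := (norm_G_le hoW h.pos (imGe_stad hη hC h R hl) fun _ _ => by positivity).1
      have h2 := (norm_G_le hoW' h'.pos (imGe_stad hη hC h' R hl) fun _ _ => by positivity).1
      refine (norm_sub_le _ _).trans ?_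
      have : 4 / η * (1 - Real.exp (-4 * C / η)) ^ 0 = (η / 2)⁻¹ + (η / 2)⁻¹ := by
        field_simp; ring
      rw [this]
      exact add_le_add h1 h2
    | succ j ih =>
      intro hj lam hl h1
      have h2 := stadium_bound (g := fun z => D (Function.update lam j z))
        (M := 4 / η * (1 - Real.exp (-4 * C / η)) ^ j) hρ
        (fun z hz => ((G_stad_diff hη hC h hoW R (hupd lam j z hl hz)).fun_sub
          (G_stad_diff hη hC h' hoW' R (hupd lam j z hl hz))).differentiableWithinAt)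
        (fun z hz => ih (by omega) _ (hupd lam j z hl hz) fun k hk => by
          rw [Function.update_of_ne (by omega)]; exact h1 k (by omega))
        (hzero _ j (by omega) (hupd lam j 0 hl (by simpa using hst 0 le_rfl zero_le_one))
          (Function.update_self _ _ _))
      have e : Function.update lam j 1 = lam := by
        rw [← h1 j (by omega)]; exact Function.update_eq_self _ _
      simp only [e, hexp] at h2
      rw [pow_succ]
      linarith
  have := key R le_rfl (fun _ => 1) (fun _ => by simpa using hst 1 zero_le_one le_rfl)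
    fun _ _ => rfl
  simpa [hD, mu] using this

end Vale.Agent.P078
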