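import Vale.Agent.P078.Rep

/-! Monotonicity of the integrated argument in the measure. -/

namespace Vale.Agent.P078

open Set Filter Topology MeasureTheory

/-- change of the argument of `a + t + iη` caused by the self energy `m` -/
noncomputable def darg (a η : ℝ) (m : ℝ → ℂ) (t : ℝ) : ℝ :=
  Complex.arg (a + t + η * Complex.I - m t) - Complex.arg (a + t + η * Complex.I)

/-- `m t = CT ν (t + iε)` -/
noncomputable def ctl (ν : Measure ℝ) (ε : ℝ) (t : ℝ) : ℂ := CT ν (t + ε * Complex.I)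

namespace MonoAux

lemma norm_inv_le {z : ℂ} (hz : 0 < z.im) (u : ℝ) : ‖(z - u)⁻¹‖ ≤ z.im⁻¹ := by
  rw [norm_inv]
  refine inv_anti₀ hz ?_
  simpa using Complex.im_le_norm (z - u)

lemma ker_integrable (ν : Measure ℝ) [IsFiniteMeasure ν] {z : ℂ} (hz : 0 < z.im) :
    Integrable (fun u : ℝ => (z - u)⁻¹) ν :=
  Integrable.mono' (integrable_const z.im⁻¹)
    (Measurable.aestronglyMeasurable (by fun_prop)) (Eventually.of_forall (norm_inv_le hz))

lemma inv_im_nonpos {w : ℂ} (hw : 0 ≤ w.im) : (w⁻¹).im ≤ 0 := by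
  rw [Complex.inv_im]
  exact div_nonpos_of_nonpos_of_nonneg (by linarith) (Complex.normSq_nonneg _)

lemma norm_CT_le (ν : Measure ℝ) [IsFiniteMeasure ν] {z : ℂ} (hz : 0 < z.im) :
    ‖CT ν z‖ ≤ z.im⁻¹ * ν.real univ :=
  norm_integral_le_of_norm_le_const (Eventually.of_forall (norm_inv_le hz))

lemma CT_add (ν ν' : Measure ℝ) [IsFiniteMeasure ν] [IsFiniteMeasure ν'] {z : ℂ} (hz : 0 < z.im) :
    CT (ν + ν') z = CT ν z + CT ν' z :=
  integral_add_measure (ker_integrable ν hz) (ker_integrable ν' hz)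

lemma seg_im_pos {z m : ℂ} (hz : 0 < z.im) (hm : 0 < (z - m).im) {s : ℝ} (hs : s ∈ Icc (0 : ℝ) 1) :
    0 < (z - s * m).im := by
  simp only [Complex.sub_im, Complex.mul_im, Complex.ofReal_re, Complex.ofReal_im, zero_mul,
    add_zero] at hm ⊢
  rcases le_total m.im 0 with h | h
  · nlinarith [hs.1]
  · nlinarith [hs.2]

lemma ne_of_im_pos {w : ℂ} (hw : 0 < w.im) : w ≠ 0 := by
  rintro rfl
  simp at hw

lemma seg_contOn {z m : ℂ} (hz : 0 < z.im) (hm : 0 < (z - m).im) :
    ContinuousOn (fun s : ℝ => (z - s * m)⁻¹) (uIcc 0 1) := by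
  rw [uIcc_of_le zero_le_one]
  exact ContinuousOn.inv₀ (by fun_prop) fun s hs => ne_of_im_pos (seg_im_pos hz hm hs)

lemma log_sub_eq {z m : ℂ} (hz : 0 < z.im) (hm : 0 < (z - m).im) :
    Complex.log (z - m) - Complex.log z = ∫ s in (0 : ℝ)..1, -(m * (z - s * m)⁻¹) := by
  rw [intervalIntegral.integral_eq_sub_of_hasDerivAt
    (f := fun s : ℝ => Complex.log (z - s * m))]
  · simp
  · intro s hs
    rw [uIcc_of_le zero_le_one] at hs
    have h1 : HasDerivAt (fun s : ℝ => z - s * m) (-m) s := by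
      simpa using ((hasDerivAt_id s).ofReal_comp.mul_const m).const_sub z
    refine (h1.clog_real (Or.inr (seg_im_pos hz hm hs).ne')).congr_deriv ?_
    ring
  · exact ((continuousOn_const.mul (seg_contOn hz hm)).neg).intervalIntegrable

lemma arg_sub_eq {z m : ℂ} (hz : 0 < z.im) (hm : 0 < (z - m).im) :
    Complex.arg (z - m) - Complex.arg z = ∫ s in (0 : ℝ)..1, -(m * (z - s * m)⁻¹).im := by
  have h := congrArg Complex.im (log_sub_eq hz hm)
  rw [Complex.sub_im, Complex.log_im, Complex.log_im] at h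
  rw [h]
  have hi : IntervalIntegrable (fun s : ℝ => -(m * (z - s * m)⁻¹)) volume 0 1 :=
    ((continuousOn_const.mul (seg_contOn hz hm)).neg).intervalIntegrable
  exact (Complex.imCLM.intervalIntegral_comp_comm hi).symm

lemma inv_bound {D z : ℂ} {δ c : ℝ} (hδ : 0 < δ) (hD : δ ≤ D.im) (hc : ‖D - z‖ ≤ c) :
    ‖D⁻¹‖ ≤ ((1 + c) / δ + 1) / (1 + ‖z‖) := by
  have h1 : δ ≤ ‖D‖ := hD.trans (Complex.im_le_norm D)
  have h2 : ‖z‖ ≤ ‖D‖ + c := by
    have := norm_sub_le D (D - z)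
    rw [sub_sub_cancel] at this
    linarith
  have h3 : 0 < ‖D‖ := hδ.trans_le h1
  have hc0 : 0 ≤ c := (norm_nonneg _).trans hc
  rw [norm_inv, inv_eq_one_div, div_le_div_iff₀ h3 (by positivity)]
  have h4 : 1 + c ≤ (1 + c) / δ * ‖D‖ := by
    calc 1 + c = (1 + c) / δ * δ := by field_simp
      _ ≤ _ := mul_le_mul_of_nonneg_left h1 (by positivity)
  nlinarith

lemma norm_sq_inv (t : ℝ) (p : ℂ) : ‖((t : ℂ) - p)⁻¹‖ ^ 2 = ((t - p.re) ^ 2 + p.im ^ 2)⁻¹ := by
  rw [norm_inv, inv_pow, Complex.sq_norm, Complex.normSq_apply]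
  simp [pow_two]

lemma sq_integrable {p : ℂ} (hp : p.im < 0) :
    Integrable fun t : ℝ => ‖((t : ℂ) - p)⁻¹‖ ^ 2 := by
  have h := (RepAux.poisson_mass (x := p.re) (y := -p.im) (by linarith)).1
  simpa only [norm_sq_inv, neg_sq] using h

lemma prod_integrable {μ : Measure ℝ} (hμ : μ ≤ volume) (ν : Measure ℝ) [IsFiniteMeasure ν]
    {ε : ℝ} (hε : 0 < ε) {g : ℝ → ℂ} (hg : Measurable g) (hg2 : Integrable fun t => ‖g t‖ ^ 2) :
    Integrable (Function.uncurry fun (t : ℝ) (u : ℝ) => ((t : ℂ) + ε * Complex.I - u)⁻¹ * g t)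
      (μ.prod ν) := by
  refine Integrable.mono_measure ?_ (Measure.prod_mono hμ le_rfl)
  have h1 : Integrable (fun x : ℝ × ℝ => ((x.1 - x.2) ^ 2 + ε ^ 2)⁻¹) (volume.prod ν) := by
    rw [integrable_prod_iff' (Measurable.aestronglyMeasurable (by fun_prop))]
    refine ⟨Eventually.of_forall fun u => (RepAux.poisson_mass (x := u) hε).1, ?_⟩
    have e : (fun u : ℝ => ∫ t : ℝ, ‖((t - u) ^ 2 + ε ^ 2)⁻¹‖) = fun _ => Real.pi / ε := by
      funext u
      rw [← (RepAux.poisson_mass (x := u) hε).2]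
      exact integral_congr_ae (Eventually.of_forall fun t => Real.norm_of_nonneg (by positivity))
    simp only [e]
    exact integrable_const _
  refine Integrable.mono' (h1.add (hg2.comp_fst ν)) (Measurable.aestronglyMeasurable ?_)
    (Eventually.of_forall fun x => ?_)
  · unfold Function.uncurry
    fun_prop
  · have e : ((x.1 : ℂ) + ε * Complex.I - x.2) = x.1 - (x.2 - ε * Complex.I) := by ring
    have h2 := norm_sq_inv x.1 (x.2 - ε * Complex.I)
    simp only [Complex.sub_re, Complex.ofReal_re, Complex.mul_re, Complex.I_re, mul_zero,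
      Complex.ofReal_im, Complex.I_im, mul_one, sub_zero, Complex.sub_im, Complex.mul_im,
      add_zero, zero_sub, neg_sq, sub_self] at h2
    simp only [Function.uncurry, Pi.add_apply, norm_mul, e, ← h2]
    nlinarith [sq_nonneg (‖((x.1 : ℂ) - (x.2 - ε * Complex.I))⁻¹‖ - ‖g x.1‖),
      mul_nonneg (norm_nonneg ((x.1 : ℂ) - (x.2 - ε * Complex.I))⁻¹) (norm_nonneg (g x.1))]

lemma ctl_mul_integrable (ν : Measure ℝ) [IsFiniteMeasure ν]
    {ε : ℝ} (hε : 0 < ε) {g : ℝ → ℂ} (hg : Measurable g) (hg2 : Integrable fun t => ‖g t‖ ^ 2) :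
    Integrable fun t => ctl ν ε t * g t := by
  have h := (prod_integrable le_rfl ν hε hg hg2).integral_prod_left
  simpa only [Function.uncurry, integral_mul_const, ctl, CT] using h

lemma ctl_mul_sign {σ : ℝ} {μ : Measure ℝ} [SFinite μ] (hμ : μ ≤ volume) (ν : Measure ℝ)
    [IsFiniteMeasure ν] {ε : ℝ} (hε : 0 < ε) {g : ℝ → ℂ} (hg : Measurable g)
    (hg2 : Integrable fun t => ‖g t‖ ^ 2)
    (h : ∀ p : ℂ, p.im < 0 → σ * (∫ t : ℝ, ((t : ℂ) - p)⁻¹ * g t ∂μ).im ≤ 0) :
    σ * (∫ t, ctl ν ε t * g t ∂μ).im ≤ 0 := by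
  have hi := prod_integrable hμ ν hε hg hg2
  have h1 := integral_integral_swap hi
  simp only [integral_mul_const] at h1
  have h2 : ∫ t, ctl ν ε t * g t ∂μ =
      ∫ u : ℝ, (∫ t : ℝ, ((t : ℂ) + ε * Complex.I - u)⁻¹ * g t ∂μ) ∂ν := h1
  have h3 : Integrable (fun u : ℝ => ∫ t : ℝ, ((t : ℂ) + ε * Complex.I - u)⁻¹ * g t ∂μ) ν :=
    hi.integral_prod_right
  have h4 : (∫ u : ℝ, (∫ t : ℝ, ((t : ℂ) + ε * Complex.I - u)⁻¹ * g t ∂μ) ∂ν).im =
      ∫ u : ℝ, (∫ t : ℝ, ((t : ℂ) + ε * Complex.I - u)⁻¹ * g t ∂μ).im ∂ν := (integral_im h3).symm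
  rw [h2, h4, ← integral_const_mul]
  refine integral_nonpos fun u => ?_
  have e : (fun t : ℝ => ((t : ℂ) + ε * Complex.I - u)⁻¹ * g t) =
      fun t : ℝ => ((t : ℂ) - (u - ε * Complex.I))⁻¹ * g t := by
    funext t
    rw [sub_sub_eq_add_sub]
  simp only [e]
  exact h _ (by simpa using hε)

end MonoAux

lemma CT_im_nonpos (ν : Measure ℝ) [IsFiniteMeasure ν] {z : ℂ} (hz : 0 < z.im) :
    (CT ν z).im ≤ 0 := by
  have h : (CT ν z).im = ∫ u : ℝ, ((z - u)⁻¹).im ∂ν :=
    (integral_im (MonoAux.ker_integrable ν hz)).symm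
  rw [h]
  exact integral_nonpos fun u => MonoAux.inv_im_nonpos (by simpa using hz.le)

lemma CT_differentiableOn (ν : Measure ℝ) [IsFiniteMeasure ν] :
    DifferentiableOn ℂ (CT ν) {z | 0 < z.im} := by
  have e : CT ν = fun z => -resolventTransform ν z := by
    funext z
    rw [CT, resolventTransform_apply, ← integral_neg]
    refine integral_congr_ae (Eventually.of_forall fun u => ?_)
    simp only [resolvent, Ring.inverse_eq_inv', Complex.coe_algebraMap]
    rw [← inv_neg, neg_sub]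
  rw [e]
  intro z hz
  refine (hasDerivAt_resolventTransform z ?_).differentiableAt.neg.differentiableWithinAt
  rintro ⟨u, -, rfl⟩
  simp at hz

/-- for `z`, `z - m` in the upper half plane, `|arg (z - m) - arg z| ≤ 2π ‖m‖/‖z‖` -/
lemma abs_arg_sub_le {z m : ℂ} (hz : 0 < z.im) (hm : m.im ≤ 0) :
    |Complex.arg (z - m) - Complex.arg z| ≤ 2 * Real.pi * ‖m‖ / ‖z‖ := by
  have hzm : 0 < (z - m).im := by
    rw [Complex.sub_im]; linarith
  have hz0 : 0 < ‖z‖ := norm_pos_iff.mpr (MonoAux.ne_of_im_pos hz)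
  rw [le_div_iff₀ hz0]
  rcases le_total ‖z‖ (2 * ‖m‖) with h | h
  · have h1 : |Complex.arg (z - m) - Complex.arg z| ≤ Real.pi := by
      have a1 := Complex.arg_nonneg_iff.mpr hz.le
      have a2 := Complex.arg_nonneg_iff.mpr hzm.le
      have a3 := Complex.arg_le_pi z
      have a4 := Complex.arg_le_pi (z - m)
      rw [abs_le]
      constructor <;> linarith
    have := mul_le_mul h1 h hz0.le Real.pi_pos.le
    linarith
  · have h1 : ‖∫ s in (0 : ℝ)..1, -(m * (z - s * m)⁻¹).im‖ ≤ ‖m‖ * (‖z‖ / 2)⁻¹ * |1 - 0| := by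
      refine intervalIntegral.norm_integral_le_of_norm_le_const fun s hs => ?_
      rw [uIoc_of_le zero_le_one] at hs
      rw [norm_neg, Real.norm_eq_abs]
      refine (Complex.abs_im_le_norm _).trans ?_
      rw [norm_mul, norm_inv]
      refine mul_le_mul_of_nonneg_left (inv_anti₀ (by positivity) ?_) (norm_nonneg _)
      have h2 := norm_sub_norm_le z (s * m)
      rw [norm_mul, Complex.norm_real, Real.norm_eq_abs, abs_of_pos hs.1] at h2
      nlinarith [hs.2, norm_nonneg m]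
    rw [← MonoAux.arg_sub_eq hz hzm, Real.norm_eq_abs] at h1
    have h2 := mul_le_mul_of_nonneg_right h1 hz0.le
    have e : ‖m‖ * (‖z‖ / 2)⁻¹ * |1 - 0| * ‖z‖ = 2 * ‖m‖ := by
      rw [sub_zero, abs_one]
      field_simp
    rw [e] at h2
    nlinarith [Real.pi_gt_three, norm_nonneg m]

lemma MonoAux.ctl_continuous (ν : Measure ℝ) [IsFiniteMeasure ν] {ε : ℝ} (hε : 0 < ε) :
    Continuous (ctl ν ε) :=
  (CT_differentiableOn ν).continuousOn.comp_continuous (by fun_prop) fun t => by simpa using hε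

lemma darg_integrable (ν : Measure ℝ) [IsFiniteMeasure ν] (a : ℝ) {η ε : ℝ} (hη : 0 < η)
    (hε : 0 < ε) : Integrable (darg a η (ctl ν ε)) := by
  have hp : (-(a : ℂ) - η * Complex.I).im < 0 := by simpa using hη
  have h1 := MonoAux.ctl_mul_integrable ν hε (g := fun t : ℝ => ((t : ℂ) - (-a - η * Complex.I))⁻¹)
    (by fun_prop) (MonoAux.sq_integrable hp)
  refine Integrable.mono' (h1.norm.const_mul (2 * Real.pi)) (Measurable.aestronglyMeasurable ?_)
    (Eventually.of_forall fun t => ?_)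
  · have hm := (MonoAux.ctl_continuous ν hε).measurable
    unfold darg
    exact (Complex.measurable_arg.comp (by fun_prop)).sub (Complex.measurable_arg.comp (by fun_prop))
  · have h2 := abs_arg_sub_le (z := a + t + η * Complex.I) (m := ctl ν ε t) (by simpa using hη)
      (CT_im_nonpos ν (by simpa using hε))
    have e : (t : ℂ) - (-a - η * Complex.I) = a + t + η * Complex.I := by ring
    rw [norm_mul, norm_inv, e, ← mul_assoc, ← div_eq_mul_inv]
    exact h2

lemma MonoAux.prod_two {p p' : ℂ} (hp : p.im < 0) (hp' : p'.im < 0) :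
    Integrable (fun t : ℝ => ((t : ℂ) - p)⁻¹ * ((t : ℂ) - p')⁻¹) ∧
      ∫ t : ℝ, ((t : ℂ) - p)⁻¹ * ((t : ℂ) - p')⁻¹ = 0 := by
  have h1 : 0 < ((starRingEnd ℂ) p).im := by simpa using hp
  have h2 : 0 < ((starRingEnd ℂ) p').im := by simpa using hp'
  obtain ⟨L, -, hL⟩ := RepAux.conj_lower h1
  have h := RepAux.cauchy_conj (F := fun w => (w - (starRingEnd ℂ) ((starRingEnd ℂ) p))⁻¹)
    ((differentiableOn_id.sub_const _).inv fun w hw => RepAux.conj_ne h1 (le_of_lt hw))
    ((continuousOn_id.sub continuousOn_const).inv₀ fun w hw => RepAux.conj_ne h1 hw) hL h2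
  simpa only [Complex.conj_conj] using h

/-- Closed form: the integral is the divided difference of `-log (t₀ - p)`, i.e.
`∫₀¹ (t₀ - q_s)⁻¹ ds` with `q_s` on the segment from `p'` to `p`. -/
lemma prod_Ioi_im_nonpos (t₀ : ℝ) {p p' : ℂ} (hp : p.im < 0) (hp' : p'.im < 0) :
    (∫ t in Ioi t₀, ((t : ℂ) - p)⁻¹ * ((t : ℂ) - p')⁻¹).im ≤ 0 := by
  have hz : ∀ t : ℝ, 0 < ((t : ℂ) - p').im := fun t => by simpa using hp'
  have hm : ∀ t : ℝ, 0 < ((t : ℂ) - p' - (p - p')).im := fun t => by simpa using hp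
  have hz1 : ∀ t : ℝ, 0 < ((t : ℂ) - p).im := fun t => by simpa using hp
  set Ψ : ℝ → ℂ := fun t => ∫ s in (0 : ℝ)..1, ((t : ℂ) - p' - s * (p - p'))⁻¹ with hΨ
  have hder : ∀ t : ℝ, HasDerivAt (fun t => -Ψ t) (((t : ℂ) - p)⁻¹ * ((t : ℂ) - p')⁻¹) t := by
    intro t
    have d1 : ∀ q : ℂ, HasDerivAt (fun t : ℝ => (t : ℂ) - q) 1 t := fun q => by
      simpa using (hasDerivAt_id t).ofReal_comp.sub_const q
    have n1 := MonoAux.ne_of_im_pos (hz t)
    have n2 := MonoAux.ne_of_im_pos (hz1 t)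
    rcases eq_or_ne p p' with h | h
    · subst h
      have e : (fun t => -Ψ t) = fun t : ℝ => -((t : ℂ) - p)⁻¹ := by
        funext t
        simp [hΨ]
      rw [e]
      refine ((d1 p).inv n1).neg.congr_deriv ?_
      field_simp
    · have hne : p - p' ≠ 0 := sub_ne_zero.mpr h
      have e : (fun t => -Ψ t) = fun t : ℝ =>
          (p - p')⁻¹ * (Complex.log ((t : ℂ) - p) - Complex.log ((t : ℂ) - p')) := by
        funext t
        have h1 := MonoAux.log_sub_eq (hz t) (hm t)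
        rw [sub_sub_sub_cancel_right, intervalIntegral.integral_neg,
          intervalIntegral.integral_const_mul] at h1
        rw [h1, mul_neg, ← mul_assoc, inv_mul_cancel₀ hne, one_mul]
      rw [e]
      refine ((((d1 p).clog_real (Or.inr (hz1 t).ne')).sub
        ((d1 p').clog_real (Or.inr (hz t).ne'))).const_mul _).congr_deriv ?_
      field_simp
      ring
  have hlim : Tendsto (fun t => -Ψ t) atTop (𝓝 0) := by
    refine squeeze_zero_norm' (a := fun t : ℝ => (t - (‖p'‖ + ‖p - p'‖))⁻¹) ?_ ?_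
    · filter_upwards [eventually_gt_atTop (‖p'‖ + ‖p - p'‖)] with t ht
      have h1 : ‖Ψ t‖ ≤ (t - (‖p'‖ + ‖p - p'‖))⁻¹ * |1 - 0| := by
        refine intervalIntegral.norm_integral_le_of_norm_le_const fun s hs => ?_
        rw [uIoc_of_le zero_le_one] at hs
        rw [norm_inv]
        refine inv_anti₀ (by linarith) ?_
        have h2 := norm_sub_norm_le ((t : ℂ) - p') (s * (p - p'))
        have h3 := norm_sub_norm_le (t : ℂ) p'
        rw [norm_mul, Complex.norm_real, Real.norm_eq_abs, abs_of_pos hs.1] at h2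
        rw [Complex.norm_real, Real.norm_eq_abs] at h3
        nlinarith [hs.2, norm_nonneg (p - p'), le_abs_self t]
      simpa using h1
    · exact tendsto_inv_atTop_zero.comp (tendsto_atTop_add_const_right _ _ tendsto_id)
  rw [integral_Ioi_of_hasDerivAt_of_tendsto' (fun t _ => hder t)
    (MonoAux.prod_two hp hp').1.integrableOn hlim, zero_sub, neg_neg]
  have hi : IntervalIntegrable (fun s : ℝ => ((t₀ : ℂ) - p' - s * (p - p'))⁻¹) volume 0 1 :=
    (MonoAux.seg_contOn (hz t₀) (hm t₀)).intervalIntegrable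
  have h5 : (Ψ t₀).im = ∫ s in (0 : ℝ)..1, (((t₀ : ℂ) - p' - s * (p - p'))⁻¹).im :=
    (Complex.imCLM.intervalIntegral_comp_comm hi).symm
  rw [h5, ← neg_nonneg, ← intervalIntegral.integral_neg]
  exact intervalIntegral.integral_nonneg zero_le_one fun s hs =>
    neg_nonneg.mpr (MonoAux.inv_im_nonpos (MonoAux.seg_im_pos (hz t₀) (hm t₀) hs).le)

lemma prod_univ_eq_zero {p p' : ℂ} (hp : p.im < 0) (hp' : p'.im < 0) :
    ∫ t : ℝ, ((t : ℂ) - p)⁻¹ * ((t : ℂ) - p')⁻¹ = 0 := by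
  exact (MonoAux.prod_two hp hp').2

namespace MonoAux

lemma den_bound {M : ℂ} {a η η' B : ℝ} (z : ℂ) (hη : 0 < η) (h1 : 0 ≤ η') (h2 : η' ≤ η / 2)
    (hz : 0 ≤ z.im) (hM : M.im ≤ 0) (hB : ‖M‖ ≤ B) :
    η / 2 ≤ (a + (z - η' * Complex.I) + η * Complex.I - M).im ∧
      ‖(a + (z - η' * Complex.I) + η * Complex.I - M)⁻¹‖ ≤
        ((1 + (|a| + η + B)) / (η / 2) + 1) / (1 + ‖z‖) := by
  have h3 : η / 2 ≤ (a + (z - η' * Complex.I) + η * Complex.I - M).im := by
    simp only [Complex.sub_im, Complex.add_im, Complex.ofReal_im, Complex.mul_im,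
      Complex.ofReal_re, Complex.I_im, mul_one, Complex.I_re, mul_zero, add_zero, zero_add]
    linarith
  refine ⟨h3, inv_bound (by positivity) h3 ?_⟩
  have e : a + (z - η' * Complex.I) + η * Complex.I - M - z =
      a + ((η - η' : ℝ) : ℂ) * Complex.I - M := by
    push_cast
    ring
  rw [e]
  refine (norm_sub_le _ _).trans (add_le_add ((norm_add_le _ _).trans (add_le_add ?_ ?_)) hB)
  · simp
  · rw [norm_mul, Complex.norm_I, mul_one, Complex.norm_real, Real.norm_eq_abs,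
      abs_of_nonneg (by linarith)]
    linarith

/-- the reciprocal of `a + z + iη - M (z + iε)` is a Cauchy transform -/
lemma inv_rep {M : ℂ → ℂ} {B : ℝ} (hd : DifferentiableOn ℂ M {z | 0 < z.im})
    (him : ∀ z : ℂ, 0 < z.im → (M z).im ≤ 0) (hb : ∀ z : ℂ, 0 < z.im → ‖M z‖ ≤ z.im⁻¹ * B)
    (hB : 0 ≤ B) (a : ℝ) {η ε : ℝ} (hη : 0 < η) (hε : 0 < ε) :
    ∃ (ρ : Measure ℝ) (ε' : ℝ), IsFiniteMeasure ρ ∧ 0 < ε' ∧
      ∀ t : ℝ, (a + t + η * Complex.I - M (t + ε * Complex.I))⁻¹ = ctl ρ ε' t := by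
  set ε' : ℝ := min ε η / 2 with hε'
  have e0 : 0 < ε' := by positivity
  have e1 : ε' ≤ ε / 2 := by linarith [min_le_left ε η]
  have e2 : ε' ≤ η / 2 := by linarith [min_le_right ε η]
  have hpos : ∀ z : ℂ, 0 ≤ z.im → ε / 2 ≤ (z - ε' * Complex.I + ε * Complex.I).im := by
    intro z hz
    simp only [Complex.sub_im, Complex.add_im, Complex.ofReal_im, Complex.mul_im,
      Complex.ofReal_re, Complex.I_im, mul_one, Complex.I_re, mul_zero, add_zero]
    linarith
  have hpos' : ∀ z : ℂ, 0 ≤ z.im → 0 < (z - ε' * Complex.I + ε * Complex.I).im :=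
    fun z hz => lt_of_lt_of_le (by positivity) (hpos z hz)
  have hden := fun (z : ℂ) (hz : 0 ≤ z.im) =>
    den_bound (a := a) (M := M (z - ε' * Complex.I + ε * Complex.I)) (B := (ε / 2)⁻¹ * B) z hη
      e0.le e2 hz (him _ (hpos' z hz))
      ((hb _ (hpos' z hz)).trans
        (mul_le_mul_of_nonneg_right (inv_anti₀ (by positivity) (hpos z hz)) hB))
  have hF : DifferentiableOn ℂ (fun z : ℂ => (a + (z - ε' * Complex.I) + η * Complex.I -
      M (z - ε' * Complex.I + ε * Complex.I))⁻¹) {z | 0 ≤ z.im} := by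
    refine DifferentiableOn.inv (DifferentiableOn.sub (by fun_prop) ?_) fun z hz =>
      ne_of_im_pos (lt_of_lt_of_le (by positivity) (hden z hz).1)
    exact hd.comp (by fun_prop) fun z hz => hpos' z hz
  obtain ⟨ρ, h1, -, h3⟩ := rep_measure
    (hF.mono fun z (hz : 0 < z.im) => show 0 ≤ z.im from hz.le) hF.continuousOn
    (fun z hz => inv_im_nonpos (le_trans (by positivity) (hden z hz).1))
    (fun z hz => (hden z hz).2)
  refine ⟨ρ, ε', h1, e0, fun t => ?_⟩
  have := h3 (t + ε' * Complex.I) (by simpa using e0)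
  simpa only [add_sub_cancel_right, ctl] using this

lemma step {σ : ℝ} {μ : Measure ℝ} [SFinite μ] (hμ : μ ≤ volume)
    (hS : ∀ p p' : ℂ, p.im < 0 → p'.im < 0 →
      σ * (∫ t : ℝ, ((t : ℂ) - p)⁻¹ * ((t : ℂ) - p')⁻¹ ∂μ).im ≤ 0)
    (ν' ν'' : Measure ℝ) [IsFiniteMeasure ν'] [IsFiniteMeasure ν''] (a : ℝ)
    {η ε : ℝ} (hη : 0 < η) (hε : 0 < ε) :
    0 ≤ σ * ∫ t, (darg a η (ctl (ν' + ν'') ε) t - darg a η (ctl ν' ε) t) ∂μ := by
  have hte : ∀ t : ℝ, 0 < ((t : ℂ) + ε * Complex.I).im := fun t => by simpa using hε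
  have m1 := (ctl_continuous ν' hε).measurable
  have m2 := (ctl_continuous ν'' hε).measurable
  set g : ℝ → ℝ → ℂ := fun s t => (a + t + η * Complex.I - ctl ν' ε t - s * ctl ν'' ε t)⁻¹ with hg
  have hM : ∀ s ∈ Icc (0 : ℝ) 1, ∀ z : ℂ, 0 < z.im → (CT ν' z + s * CT ν'' z).im ≤ 0 ∧
      ‖CT ν' z + s * CT ν'' z‖ ≤ z.im⁻¹ * (ν'.real univ + ν''.real univ) := by
    intro s hs z hz
    constructor
    · rw [Complex.add_im, Complex.im_ofReal_mul]
      nlinarith [CT_im_nonpos ν' hz, CT_im_nonpos ν'' hz, hs.1]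
    · refine (norm_add_le _ _).trans ?_
      rw [norm_mul, Complex.norm_real, Real.norm_eq_abs, abs_of_nonneg hs.1, mul_add]
      refine add_le_add (norm_CT_le ν' hz) (le_trans ?_ (norm_CT_le ν'' hz))
      exact mul_le_of_le_one_left (norm_nonneg _) hs.2
  have hgM : ∀ s t : ℝ, g s t = (a + t + η * Complex.I -
      (CT ν' (t + ε * Complex.I) + s * CT ν'' (t + ε * Complex.I)))⁻¹ := by
    intro s t
    simp only [hg, ctl, sub_sub]
  set L : ℝ := (1 + (|a| + η + ε⁻¹ * (ν'.real univ + ν''.real univ))) / (η / 2) + 1 with hL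
  have hL0 : 0 ≤ L := by positivity
  have hI : (-Complex.I).im < 0 := by simp
  have hgb : ∀ s ∈ Icc (0 : ℝ) 1, ∀ t : ℝ, ‖g s t‖ ≤ L * ‖((t : ℂ) - -Complex.I)⁻¹‖ := by
    intro s hs t
    have h1 := (hM s hs _ (hte t)).2
    have h0 : ((t : ℂ) + ε * Complex.I).im = ε := by simp
    rw [h0] at h1
    have h2 := (den_bound (a := a) (η' := 0) (t : ℂ) hη le_rfl (by positivity) (by simp)
      (hM s hs _ (hte t)).1 h1).2
    simp only [Complex.ofReal_zero, zero_mul, sub_zero] at h2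
    rw [hgM]
    refine h2.trans ?_
    rw [div_eq_mul_inv, norm_inv]
    refine mul_le_mul_of_nonneg_left (inv_anti₀ (norm_pos_iff.mpr (ne_of_im_pos (by simp))) ?_) hL0
    refine (norm_sub_le _ _).trans ?_
    simp [add_comm]
  have hgm : ∀ s, Measurable (g s) := fun s => by
    simp only [hg]
    fun_prop
  have hg2 : ∀ s ∈ Icc (0 : ℝ) 1, Integrable fun t => ‖g s t‖ ^ 2 := by
    intro s hs
    refine Integrable.mono' ((sq_integrable hI).const_mul (L ^ 2))
      (Measurable.aestronglyMeasurable (((hgm s).norm).pow_const 2))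
      (Eventually.of_forall fun t => ?_)
    rw [Real.norm_of_nonneg (by positivity), ← mul_pow]
    exact pow_le_pow_left₀ (norm_nonneg _) (hgb s hs t) 2
  have hsign : ∀ s ∈ Icc (0 : ℝ) 1, σ * (∫ t, ctl ν'' ε t * g s t ∂μ).im ≤ 0 := by
    intro s hs
    refine ctl_mul_sign hμ ν'' hε (hgm s) (hg2 s hs) fun p hp => ?_
    obtain ⟨ρ, ε', hρ, hε', h⟩ := inv_rep (M := fun z => CT ν' z + s * CT ν'' z)
      ((CT_differentiableOn ν').add ((CT_differentiableOn ν'').const_mul _))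
      (fun z hz => (hM s hs z hz).1) (fun z hz => (hM s hs z hz).2) (by positivity) a hη hε
    have e : (fun t : ℝ => ((t : ℂ) - p)⁻¹ * g s t) =
        fun t : ℝ => ctl ρ ε' t * ((t : ℂ) - p)⁻¹ := by
      funext t
      rw [hgM, h, mul_comm]
    rw [e]
    exact ctl_mul_sign hμ ρ hε' (by fun_prop) (sq_integrable hp) fun p' hp' => hS p' p hp' hp
  have hpt : ∀ t : ℝ, darg a η (ctl (ν' + ν'') ε) t - darg a η (ctl ν' ε) t =
      ∫ s in (0 : ℝ)..1, -(ctl ν'' ε t * g s t).im := by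
    intro t
    have i1 := CT_im_nonpos ν' (hte t)
    have i2 := CT_im_nonpos ν'' (hte t)
    have h1 : 0 < (a + t + η * Complex.I - ctl ν' ε t).im := by
      simp only [Complex.sub_im, Complex.add_im, Complex.ofReal_im, Complex.mul_im,
        Complex.ofReal_re, Complex.I_im, mul_one, Complex.I_re, mul_zero, add_zero, zero_add, ctl]
      linarith
    have h2 : 0 < (a + t + η * Complex.I - ctl ν' ε t - ctl ν'' ε t).im := by
      rw [Complex.sub_im]
      simp only [ctl] at h1 ⊢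
      linarith
    rw [← arg_sub_eq h1 h2]
    simp only [darg, ctl, CT_add ν' ν'' (hte t), sub_sub]
    ring
  have hdom : Integrable fun t : ℝ => L * ‖ctl ν'' ε t * ((t : ℂ) - -Complex.I)⁻¹‖ :=
    (ctl_mul_integrable ν'' hε (by fun_prop) (sq_integrable hI)).norm.const_mul L
  have hprod : Integrable (Function.uncurry fun s t : ℝ => -(ctl ν'' ε t * g s t).im)
      ((volume.restrict (uIoc (0 : ℝ) 1)).prod μ) := by
    have : IsFiniteMeasure (volume.restrict (uIoc (0 : ℝ) 1)) := by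
      rw [uIoc_of_le zero_le_one]
      infer_instance
    refine Integrable.mono' ((hdom.mono_measure hμ).comp_snd _)
      (Measurable.aestronglyMeasurable ?_) ?_
    · simp only [hg]
      unfold Function.uncurry
      fun_prop
    · have h1 : ∀ᵐ s ∂(volume.restrict (uIoc (0 : ℝ) 1)), s ∈ uIoc (0 : ℝ) 1 :=
        ae_restrict_mem measurableSet_uIoc
      filter_upwards [Measure.quasiMeasurePreserving_fst.ae h1] with x hx
      rw [uIoc_of_le zero_le_one] at hx
      simp only [Function.uncurry, norm_neg, Real.norm_eq_abs]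
      refine (Complex.abs_im_le_norm _).trans ?_
      rw [norm_mul, norm_mul, mul_left_comm]
      exact mul_le_mul_of_nonneg_left (hgb _ (Ioc_subset_Icc_self hx) _) (norm_nonneg _)
  simp only [hpt]
  rw [← intervalIntegral_integral_swap hprod, ← intervalIntegral.integral_const_mul]
  refine intervalIntegral.integral_nonneg zero_le_one fun s hs => ?_
  have h1 : ∫ t, (ctl ν'' ε t * g s t).im ∂μ = (∫ t, ctl ν'' ε t * g s t ∂μ).im :=
    integral_im ((ctl_mul_integrable ν'' hε (hgm s) (hg2 s hs)).mono_measure hμ)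
  rw [integral_neg, h1]
  linarith [hsign s hs]

end MonoAux

/-- `arg f₁ - arg f₀ = ∫₀¹ Im (-m'' g_θ) dθ` with `g_θ = 1/(a + z + iη - CT (ν' + θ ν'') (z + iε))`;
`z ↦ g_θ (z - iε')` for small `ε' > 0` satisfies the hypotheses of
`rep_measure`, so `g_θ t = CT ν_θ (t + iε')`; Fubini and `prod_Ioi_im_nonpos`. -/
theorem darg_mono (ν' ν'' : Measure ℝ) [IsFiniteMeasure ν'] [IsFiniteMeasure ν''] (a t₀ : ℝ)
    {η ε : ℝ} (hη : 0 < η) (hε : 0 < ε) :
    ∫ t in Ioi t₀, darg a η (ctl ν' ε) t ≤ ∫ t in Ioi t₀, darg a η (ctl (ν' + ν'') ε) t := by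
  have h := MonoAux.step (σ := 1) (μ := volume.restrict (Ioi t₀)) Measure.restrict_le_self
    (fun p p' hp hp' => by rw [one_mul]; exact prod_Ioi_im_nonpos t₀ hp hp') ν' ν'' a hη hε
  rw [one_mul, integral_sub (darg_integrable _ a hη hε).integrableOn
    (darg_integrable _ a hη hε).integrableOn] at h
  linarith

/-- the sum rule (same proof with `prod_univ_eq_zero`, `ν' = 0`) -/
theorem darg_sum_rule (ν : Measure ℝ) [IsFiniteMeasure ν] (a : ℝ) {η ε : ℝ} (hη : 0 < η)
    (hε : 0 < ε) : ∫ t, darg a η (ctl ν ε) t = 0 := by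
  have h : ∀ σ : ℝ, 0 ≤ σ * ∫ t, darg a η (ctl ν ε) t := by
    intro σ
    have h := MonoAux.step (σ := σ) (μ := volume) le_rfl
      (fun p p' hp hp' => by rw [prod_univ_eq_zero hp hp']; simp) 0 ν a hη hε
    simpa [darg, ctl, CT] using h
  have h1 := h 1
  have h2 := h (-1)
  linarith

/-- on left half lines the integrated argument is nonpositive (from the two facts above) -/
theorem darg_Iic_nonpos (ν : Measure ℝ) [IsFiniteMeasure ν] (a t₀ : ℝ) {η ε : ℝ} (hη : 0 < η)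
    (hε : 0 < ε) : ∫ t in Iic t₀, darg a η (ctl ν ε) t ≤ 0 := by
  have h1 := darg_mono 0 ν a t₀ hη hε
  have h2 := darg_sum_rule ν a hη hε
  have h3 := darg_integrable ν a hη hε
  rw [← intervalIntegral.integral_Iic_add_Ioi h3.integrableOn h3.integrableOn] at h2
  have h4 : ∫ t in Ioi t₀, darg a η (ctl 0 ε) t = 0 := by simp [darg, ctl, CT]
  rw [h4, zero_add] at h1
  linarith

end Vale.Agent.P078
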