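import Vale.Agent.P078.QSchur

/-! Non-vanishing of `Q` for accretive data. -/

namespace Vale.Agent.P078

open Finset
open scoped ComplexOrder

variable {V ι : Type*} [DecidableEq V] [Fintype ι] [DecidableEq ι]

omit [DecidableEq V] in
lemma ImGe.mono {ρ ρ' : V → ℝ} {Y : V → V → ℂ} {U U' : Finset V} (h : ImGe ρ Y U) (hU : U' ⊆ U)
    (hρ : ∀ a ∈ U', ρ' a ≤ ρ a) : ImGe ρ' Y U' := by
  classical
  intro ξ
  have h1 := h (fun a => if a ∈ U' then ξ a else 0)
  have e1 : qform Y U (fun a => if a ∈ U' then ξ a else 0) = qform Y U' ξ := by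
    unfold qform
    rw [← Finset.sum_subset hU (fun a _ ha => by simp [ha])]
    refine Finset.sum_congr rfl fun a ha => ?_
    rw [← Finset.sum_subset hU (fun b _ hb => by simp [hb])]
    refine Finset.sum_congr rfl fun b hb => ?_
    simp [ha, hb]
  rw [e1, ← Finset.sum_subset hU (fun a _ ha => by simp [ha])] at h1
  refine le_trans (Finset.sum_le_sum fun a ha => ?_) h1
  simp only [ha, if_true]
  exact mul_le_mul_of_nonneg_right (hρ a ha) (by positivity)

/-- Schur test -/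
lemma qform_le_of_rowcol {Y : V → V → ℂ} {U : Finset V} {C : V → ℝ}
    (h : ∀ a ∈ U, (∑ b ∈ U, ‖Y a b‖) + ∑ b ∈ U, ‖Y b a‖ ≤ 2 * C a) (ξ : V → ℂ) :
    ‖qform Y U ξ‖ ≤ ∑ a ∈ U, C a * ‖ξ a‖ ^ 2 := by
  have h1 : ‖qform Y U ξ‖ ≤ ∑ a ∈ U, ∑ b ∈ U, (‖Y a b‖ * ‖ξ a‖ ^ 2 / 2 + ‖Y a b‖ * ‖ξ b‖ ^ 2 / 2) := by
    unfold qform
    refine (norm_sum_le _ _).trans (Finset.sum_le_sum fun a _ => ?_)
    refine (norm_sum_le _ _).trans (Finset.sum_le_sum fun b _ => ?_)
    rw [norm_mul, norm_mul, norm_star]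
    nlinarith [mul_nonneg (norm_nonneg (Y a b)) (sq_nonneg (‖ξ a‖ - ‖ξ b‖))]
  refine h1.trans ?_
  simp only [Finset.sum_add_distrib]
  rw [Finset.sum_comm (f := fun a b => ‖Y a b‖ * ‖ξ b‖ ^ 2 / 2), ← Finset.sum_add_distrib]
  refine Finset.sum_le_sum fun a ha => ?_
  rw [← Finset.sum_div, ← Finset.sum_div, ← Finset.sum_mul, ← Finset.sum_mul]
  nlinarith [mul_le_mul_of_nonneg_right (h a ha) (sq_nonneg ‖ξ a‖)]

lemma ImGe.add_small {ρ C : V → ℝ} {Y Z : V → V → ℂ} {U : Finset V} (h : ImGe ρ Y U)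
    (hZ : ∀ a ∈ U, (∑ b ∈ U, ‖Z a b‖) + ∑ b ∈ U, ‖Z b a‖ ≤ 2 * C a) :
    ImGe (fun a => ρ a - C a) (fun a b => Y a b + Z a b) U := by
  intro ξ
  have e : qform (fun a b => Y a b + Z a b) U ξ = qform Y U ξ + qform Z U ξ := by
    unfold qform
    simp only [mul_add, add_mul, Finset.sum_add_distrib]
  have h1 := h ξ
  have h2 := qform_le_of_rowcol hZ ξ
  have h3 := (abs_le.1 (Complex.abs_im_le_norm (qform Z U ξ))).1
  rw [e, Complex.add_im]
  simp only [sub_mul, Finset.sum_sub_distrib]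
  linarith

/-- `diag z - Y` with `Y` Hermitian -/
lemma ImGe_dm {Y : ι → V → V → ℂ} (hY : Herm Y) (z : V → ℂ) (U : Finset V) (i : ι) :
    ImGe (fun a => (z a).im) (dm z Y i) U := by
  intro ξ
  have e : qform (dm z Y i) U ξ = ∑ a ∈ U, z a * ((‖ξ a‖ ^ 2 : ℝ) : ℂ) - qform (Y i) U ξ := by
    unfold qform dm
    simp only [mul_sub, sub_mul, Finset.sum_sub_distrib]
    congr 1
    refine Finset.sum_congr rfl fun a ha => ?_
    rw [Finset.sum_eq_single a (fun b _ hb => by simp [Ne.symm hb]) (fun h => (h ha).elim)]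
    simp only [if_true]
    push_cast
    rw [← Complex.conj_mul']
    simp only [RCLike.star_def]
    ring
  have e2 : (qform (Y i) U ξ).im = 0 := by
    rw [← Complex.conj_eq_iff_im]
    unfold qform
    rw [map_sum]
    simp only [map_sum]
    rw [Finset.sum_comm]
    refine Finset.sum_congr rfl fun a _ => Finset.sum_congr rfl fun b _ => ?_
    rw [hY i b a]
    simp only [map_mul, RCLike.star_def, Complex.conj_conj]
    ring
  rw [e, Complex.sub_im, e2, Complex.im_sum, sub_zero]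
  refine le_of_eq (Finset.sum_congr rfl fun a _ => ?_)
  rw [Complex.mul_im, Complex.ofReal_im, Complex.ofReal_re]
  ring

namespace NVAux

omit [Fintype ι] in
lemma mem_ins {R : ι → Finset V} {v a : V} {i j : ι} (h : a ∈ ins R v i j) : a = v ∨ a ∈ R j := by
  by_cases hj : j = i
  · subst hj; simpa [ins] using h
  · right; simpa [ins, Function.update_of_ne hj] using h

omit [Fintype ι] in
lemma subset_ins (R : ι → Finset V) (v : V) (i j : ι) : R j ⊆ ins R v i j := by
  by_cases hj : j = i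
  · subst hj; simp [ins]
  · simp [ins, Function.update_of_ne hj]

lemma minor_ne_zero {Y : V → V → ℂ} {U : Finset V} {ρ : V → ℝ} (h : ImGe ρ Y U)
    (hρ : ∀ a ∈ U, 0 < ρ a) : minor Y U ≠ 0 := by
  intro h0
  obtain ⟨x, hx, hm⟩ := Matrix.exists_mulVec_eq_zero_iff.2 h0
  let ξ : V → ℂ := fun a => if h : a ∈ U then x ⟨a, h⟩ else 0
  have hξ : ∀ a : U, ξ a = x a := fun a => by simp [ξ, a.2]
  have e : qform Y U ξ = 0 := by
    unfold qform
    rw [← Finset.sum_coe_sort U]
    refine Finset.sum_eq_zero fun a _ => ?_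
    rw [← Finset.sum_coe_sort U]
    have := congrFun hm a
    simp only [Matrix.mulVec, dotProduct, Matrix.of_apply, Pi.zero_apply] at this
    simp only [mul_assoc, ← Finset.mul_sum, hξ, this, mul_zero]
  have h1 := h ξ
  rw [e, Complex.zero_im] at h1
  have h2 : ∀ a ∈ U, 0 ≤ ρ a * ‖ξ a‖ ^ 2 := fun a ha => mul_nonneg (hρ a ha).le (by positivity)
  have h3 := (Finset.sum_eq_zero_iff_of_nonneg h2).1 (le_antisymm h1 (Finset.sum_nonneg h2))
  apply hx
  funext a
  have := h3 a a.2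
  rw [hξ] at this
  simpa [(hρ a a.2).ne'] using this

/-- the non-vanishing statement for a fixed `W` -/
def NVS (β : V → ι → ℂ) (W : Finset V) : Prop :=
  ∀ (R : ι → Finset V) (X : ι → V → V → ℂ) (ρ : V → ℝ), (∀ i, Disjoint W (R i)) →
    (∀ i, ImGe ρ (X i) (W ∪ R i)) → (∀ i, ∀ a ∈ W ∪ R i, 0 < ρ a) → Q β X W R ≠ 0

lemma piv_ge {β : V → ι → ℂ} {X : ι → V → V → ℂ} {W : Finset V} {R : ι → Finset V}
    {ρ : V → ℝ} {v : V} {i : ι} (H : NVS β W) (hd : ∀ i, Disjoint W (R i))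
    (hvW : v ∉ W) (hvR : v ∉ R i)
    (hX : ∀ j, ImGe ρ (X j) (W ∪ ins R v i j)) (hρ : ∀ j, ∀ a ∈ W ∪ ins R v i j, 0 < ρ a) :
    ρ v ≤ (piv β X W R v i).im := by
  have hs : ∀ j, W ∪ R j ⊆ W ∪ ins R v i j := fun j =>
    Finset.union_subset_union_right (subset_ins R v i j)
  have hQ := H R X ρ hd (fun j => (hX j).mono (hs j) fun _ _ => le_rfl)
    (fun j a ha => hρ j a (hs j ha))
  by_contra hlt
  push Not at hlt
  set z := piv β X W R v i with hz
  have h0 : Q β (addDiag X i v (-z)) W (ins R v i) = 0 := by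
    rw [Q_ins_addDiag β X hvW hvR, hz, piv]; field_simp; ring
  have hvi : v ∈ W ∪ ins R v i i := by simp [ins]
  refine H _ _ (Function.update ρ v (min (ρ v) (ρ v - z.im))) (fun j => ?_) (fun j => ?_)
    (fun j a ha => ?_) h0
  · rw [Finset.disjoint_left]
    intro a ha h
    rcases mem_ins h with rfl | h
    · exact hvW ha
    · exact Finset.disjoint_left.1 (hd j) ha h
  · by_cases hj : j = i
    swap
    · rw [addDiag, Function.update_of_ne hj]
      refine (hX j).mono subset_rfl (fun a _ => ?_)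
      by_cases ha : a = v
      · subst ha; simp
      · rw [Function.update_of_ne ha]
    subst hj
    rw [addDiag, Function.update_self]
    intro ξ
    set U := W ∪ ins R v j j with hU
    have e : qform (fun a b => X j a b + if a = v ∧ b = v then -z else 0) U ξ =
        qform (X j) U ξ - z * ((‖ξ v‖ ^ 2 : ℝ) : ℂ) := by
      unfold qform
      simp only [mul_add, add_mul, Finset.sum_add_distrib]
      rw [sub_eq_add_neg]
      congr 1
      rw [Finset.sum_eq_single v (fun a _ ha => by simp [ha]) (fun h => (h hvi).elim),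
        Finset.sum_eq_single v (fun a _ ha => by simp [ha]) (fun h => (h hvi).elim)]
      simp only [and_self, if_true]
      push_cast
      rw [← Complex.conj_mul']
      simp only [RCLike.star_def]
      ring
    have h1 := hX j ξ
    rw [e, Complex.sub_im, Complex.mul_im, Complex.ofReal_im, Complex.ofReal_re]
    rw [← Finset.add_sum_erase _ _ hvi] at h1 ⊢
    rw [Finset.sum_congr rfl (fun a ha => by
      rw [Function.update_of_ne (Finset.ne_of_mem_erase ha)])]
    rw [Function.update_self]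
    have := mul_le_mul_of_nonneg_right (min_le_right (ρ v) (ρ v - z.im)) (sq_nonneg ‖ξ v‖)
    nlinarith
  · by_cases ha' : a = v
    · subst ha'
      rw [Function.update_self]
      exact lt_min (hρ j a ha) (by linarith)
    · rw [Function.update_of_ne ha']; exact hρ j a ha

omit [DecidableEq V] [DecidableEq ι] in
lemma im_sum_ge {β : V → ι → ℂ} {v : V} {r : ℝ} {y : ι → ℂ} (h0 : ∀ i, 0 ≤ β v i)
    (hy : ∀ i, r ≤ (y i).im) : r * (bsum β v).re ≤ (∑ i, β v i * y i).im := by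
  rw [bsum, Complex.re_sum, Complex.im_sum, Finset.mul_sum]
  refine Finset.sum_le_sum fun i _ => ?_
  obtain ⟨h1, h2⟩ := Complex.nonneg_iff.1 (h0 i)
  rw [Complex.mul_im, ← h2]
  nlinarith [mul_le_mul_of_nonneg_left (hy i) h1]

lemma nv {β : V → ι → ℂ} (W : Finset V) (hβ : PosW β W) : NVS β W := by
  induction W using Finset.induction_on with
  | empty =>
    intro R X ρ _ hX hρ
    rw [Q_empty]
    refine Finset.prod_ne_zero_iff.2 fun i _ => minor_ne_zero (ρ := ρ) ?_ ?_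
    · simpa using hX i
    · simpa using hρ i
  | insert v W hv ih =>
    intro R X ρ hd hX hρ
    have H := ih (fun u hu => hβ u (Finset.mem_insert_of_mem hu))
    have hd' : ∀ i, Disjoint W (R i) := fun i =>
      (hd i).mono_left (Finset.subset_insert v W)
    have hvR : ∀ i, v ∉ R i := fun i =>
      Finset.disjoint_left.1 (hd i) (Finset.mem_insert_self v W)
    have hs : ∀ j, W ∪ R j ⊆ insert v W ∪ R j := fun j =>
      Finset.union_subset_union_left (Finset.subset_insert v W)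
    have hQ := H R X ρ hd' (fun j => (hX j).mono (hs j) fun _ _ => le_rfl)
      (fun j a ha => hρ j a (hs j ha))
    have hs' : ∀ i j, W ∪ ins R v i j ⊆ insert v W ∪ R j := by
      intro i j a ha
      rcases Finset.mem_union.1 ha with h | h
      · exact hs j (Finset.mem_union_left _ h)
      · rcases mem_ins h with rfl | h
        · simp
        · exact Finset.mem_union_right _ h
    have hp : ∀ i, ρ v ≤ (piv β X W R v i).im := fun i =>
      piv_ge H hd' hv (hvR i) (fun j => (hX j).mono (hs' i j) fun _ _ => le_rfl)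
        (fun j a ha => hρ j a (hs' i j ha))
    obtain ⟨h0, h1⟩ := hβ v (Finset.mem_insert_self v W)
    have h2 := im_sum_ge h0 hp
    have hne : Nonempty ι := by
      by_contra h
      rw [not_nonempty_iff] at h
      simp [bsum] at h1
    obtain ⟨i0⟩ := hne
    have h3 : 0 < ρ v * (bsum β v).re :=
      mul_pos (hρ i0 v (by simp)) (Complex.pos_iff.1 h1).1
    intro h4
    rw [Q_insert β X hv] at h4
    have e : ∑ i, β v i * piv β X W R v i = 0 := by
      simp only [piv, ← mul_div_assoc, ← Finset.sum_div, h4, zero_div]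
    rw [e, Complex.zero_im] at h2
    linarith

end NVAux

/-- Induction on `W` (for all `R`, `X`, `ρ`).  Base: a matrix with positive imaginary part is
invertible.  Step: by the induction hypothesis `Q W (ins R v i) ≠ 0`; if `Im piv < ρ v`, subtract
`piv` from the diagonal entry (`Q_ins_addDiag`) to contradict it. -/
theorem Q_ne_zero {β : V → ι → ℂ} {X : ι → V → V → ℂ} {W : Finset V} {R : ι → Finset V}
    {ρ : V → ℝ} (hβ : PosW β W) (hd : ∀ i, Disjoint W (R i))
    (hX : ∀ i, ImGe ρ (X i) (W ∪ R i)) (hρ : ∀ i, ∀ a ∈ W ∪ R i, 0 < ρ a) [Nonempty ι] :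
    Q β X W R ≠ 0 := by
  exact NVAux.nv W hβ R X ρ hd hX hρ

theorem piv_im_ge {β : V → ι → ℂ} {X : ι → V → V → ℂ} {W : Finset V} {R : ι → Finset V}
    {ρ : V → ℝ} {v : V} {i : ι} (hβ : PosW β W) (hd : ∀ i, Disjoint W (R i))
    (hvW : v ∉ W) (hvR : v ∉ R i)
    (hX : ∀ j, ImGe ρ (X j) (W ∪ ins R v i j)) (hρ : ∀ j, ∀ a ∈ W ∪ ins R v i j, 0 < ρ a) :
    ρ v ≤ (piv β X W R v i).im := by
  exact NVAux.piv_ge (NVAux.nv W hβ) hd hvW hvR hX hρ

/-- If `‖z‖` exceeds the right side then `rk1 X i v z⁻¹` is still accretive, so `z ≠ se`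
by `Q_rk1`. -/
theorem norm_se_le {β : V → ι → ℂ} {X : ι → V → V → ℂ} {W : Finset V} {R : ι → Finset V}
    {ρ : V → ℝ} {v : V} {i : ι} (hβ : PosW β W) (hd : ∀ i, Disjoint W (R i))
    (hvW : v ∉ W) (hvR : v ∉ R i)
    (hX : ∀ j, ImGe ρ (X j) (W ∪ R j)) (hρ : ∀ j, ∀ a ∈ W ∪ R j, 0 < ρ a) :
    ‖se β X W R v i‖ ≤ √(∑ a ∈ W ∪ R i, ‖X i a v‖ ^ 2 / ρ a) *
      √(∑ b ∈ W ∪ R i, ‖X i v b‖ ^ 2 / ρ b) := by
  have : Nonempty ι := ⟨i⟩
  by_contra hlt
  push Not at hlt
  have hQ := Q_ne_zero hβ hd hX hρ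
  set A := √(∑ a ∈ W ∪ R i, ‖X i a v‖ ^ 2 / ρ a) with hA
  set B := √(∑ b ∈ W ∪ R i, ‖X i v b‖ ^ 2 / ρ b) with hB
  set z := se β X W R v i with hz
  have hAB : 0 ≤ A * B := by positivity
  have hz0 : 0 < ‖z‖ := hAB.trans_lt hlt
  have hzne : z ≠ 0 := norm_pos_iff.1 hz0
  have h0 : Q β (rk1 X i v z⁻¹) W R = 0 := by
    rw [Q_rk1 β X hvW hvR]
    have : X i v v * Q β X W R - Q β X W (ins R v i) = z * Q β X W R := by
      rw [hz, se, piv]; field_simp
    rw [this]; field_simp; ring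
  have hc : 0 < 1 - A * B / ‖z‖ := by
    rw [sub_pos, div_lt_one hz0]; exact hlt
  have hc1 : 0 ≤ A * B / ‖z‖ := by positivity
  refine Q_ne_zero (ρ := fun a => (1 - A * B / ‖z‖) * ρ a) hβ hd (fun j => ?_)
    (fun j a ha => mul_pos hc (hρ j a ha)) h0
  by_cases hj : j = i
  swap
  · rw [rk1, Function.update_of_ne hj]
    exact (hX j).mono subset_rfl (fun a ha => by nlinarith [hρ j a ha])
  subst hj
  rw [rk1, Function.update_self]
  intro ξ
  set U := W ∪ R j with hU
  have e : qform (fun a b => X j a b - z⁻¹ * (X j a v * X j v b)) U ξ =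
      qform (X j) U ξ - z⁻¹ * ((∑ a ∈ U, star (ξ a) * X j a v) * ∑ b ∈ U, X j v b * ξ b) := by
    unfold qform
    rw [Finset.sum_mul_sum, Finset.mul_sum, ← Finset.sum_sub_distrib]
    refine Finset.sum_congr rfl fun a _ => ?_
    rw [Finset.mul_sum, ← Finset.sum_sub_distrib]
    refine Finset.sum_congr rfl fun b _ => ?_
    ring
  set N := ∑ a ∈ U, ρ a * ‖ξ a‖ ^ 2 with hN
  have hN0 : 0 ≤ N := Finset.sum_nonneg fun a ha => mul_nonneg (hρ j a ha).le (by positivity)
  have cs : ∀ y : V → ℂ, ∑ a ∈ U, ‖ξ a‖ * ‖y a‖ ≤ √N * √(∑ a ∈ U, ‖y a‖ ^ 2 / ρ a) := by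
    intro y
    rw [← Real.sqrt_mul hN0]
    refine Real.le_sqrt_of_sq_le ?_
    refine Finset.sum_sq_le_sum_mul_sum_of_sq_eq_mul U
      (fun a ha => mul_nonneg (hρ j a ha).le (by positivity))
      (fun a ha => div_nonneg (by positivity) (hρ j a ha).le) (fun a ha => ?_)
    have := (hρ j a ha).ne'
    field_simp
  have b1 : ‖∑ a ∈ U, star (ξ a) * X j a v‖ ≤ √N * A := by
    refine (norm_sum_le _ _).trans (le_trans (le_of_eq ?_) (cs fun a => X j a v))
    exact Finset.sum_congr rfl fun a _ => by rw [norm_mul, norm_star]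
  have b2 : ‖∑ b ∈ U, X j v b * ξ b‖ ≤ √N * B := by
    refine (norm_sum_le _ _).trans (le_trans (le_of_eq ?_) (cs fun a => X j v a))
    exact Finset.sum_congr rfl fun a _ => by rw [norm_mul, mul_comm]
  have b3 : ‖z⁻¹ * ((∑ a ∈ U, star (ξ a) * X j a v) * ∑ b ∈ U, X j v b * ξ b)‖ ≤
      A * B / ‖z‖ * N := by
    rw [norm_mul, norm_mul, norm_inv]
    have : ‖∑ a ∈ U, star (ξ a) * X j a v‖ * ‖∑ b ∈ U, X j v b * ξ b‖ ≤ (√N * A) * (√N * B) :=
      mul_le_mul b1 b2 (norm_nonneg _) (by positivity)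
    have e2 : (√N * A) * (√N * B) = A * B * N := by
      have := Real.mul_self_sqrt hN0
      calc (√N * A) * (√N * B) = A * B * (√N * √N) := by ring
        _ = A * B * N := by rw [this]
    rw [e2] at this
    calc _ ≤ ‖z‖⁻¹ * (A * B * N) := mul_le_mul_of_nonneg_left this (by positivity)
      _ = _ := by ring
  have h1 := hX j ξ
  have h3 := (abs_le.1 (Complex.abs_im_le_norm
    (z⁻¹ * ((∑ a ∈ U, star (ξ a) * X j a v) * ∑ b ∈ U, X j v b * ξ b)))).2
  rw [e, Complex.sub_im]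
  simp only [mul_assoc, ← Finset.mul_sum]
  rw [← hN]
  linarith

theorem nbar_im_ge {β : V → ι → ℂ} {X : ι → V → V → ℂ} {W : Finset V} {ρ : V → ℝ} {v : V}
    (hv : v ∈ W) (hβ : PosW β W) (hX : ∀ i, ImGe ρ (X i) W) (hρ : ∀ a ∈ W, 0 < ρ a) :
    ρ v ≤ (nbar β X W v).im := by
  obtain ⟨h0, h1⟩ := hβ v hv
  have hsub : ∀ i j : ι, W.erase v ∪ ins (R0 : ι → Finset V) v i j ⊆ W := by
    intro i j a ha
    rcases Finset.mem_union.1 ha with h | h
    · exact Finset.mem_of_mem_erase h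
    · rcases NVAux.mem_ins h with rfl | h
      · exact hv
      · simp [R0] at h
  have hp : ∀ i, ρ v ≤ (piv β X (W.erase v) R0 v i).im := fun i =>
    piv_im_ge (fun u hu => hβ u (Finset.mem_of_mem_erase hu)) (fun _ => by simp [R0])
      (Finset.notMem_erase v W) (by simp [R0])
      (fun j => (hX j).mono (hsub i j) fun _ _ => le_rfl) (fun j a ha => hρ a (hsub i j ha))
  have h2 := NVAux.im_sum_ge h0 hp
  obtain ⟨h3, h4⟩ := Complex.pos_iff.1 h1
  have e : bsum β v = ((bsum β v).re : ℂ) := Complex.ext rfl (by simp [← h4])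
  unfold nbar
  rw [e, Complex.div_ofReal_im, le_div_iff₀ h3]
  exact h2

theorem norm_G_le {β : V → ι → ℂ} {X : ι → V → V → ℂ} {W : Finset V} {ρ : V → ℝ} {v : V}
    (hv : v ∈ W) (hβ : PosW β W) (hX : ∀ i, ImGe ρ (X i) W) (hρ : ∀ a ∈ W, 0 < ρ a) :
    ‖G β X W v‖ ≤ (ρ v)⁻¹ ∧ (G β X W v).im ≤ 0 ∧ G β X W v = (nbar β X W v)⁻¹ := by
  have h1 := (hβ v hv).2
  have : Nonempty ι := by
    by_contra h
    rw [not_nonempty_iff] at h
    simp [bsum] at h1
  have hQ : Q β X (W.erase v) R0 ≠ 0 :=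
    Q_ne_zero (ρ := ρ) (fun u hu => hβ u (Finset.mem_of_mem_erase hu)) (fun _ => by simp [R0])
      (fun j => (hX j).mono (by simp [R0, Finset.erase_subset]) fun _ _ => le_rfl)
      (fun j a ha => hρ a (by simp [R0] at ha; exact ha.2))
  have e := G_eq_inv_nbar β X hv hQ h1.ne'
  have h2 := nbar_im_ge hv hβ hX hρ
  have h3 := hρ v hv
  refine ⟨?_, ?_, e⟩
  · rw [e, norm_inv]
    exact inv_anti₀ h3 (h2.trans ((le_abs_self _).trans (Complex.abs_im_le_norm _)))
  · rw [e, Complex.inv_im]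
    exact div_nonpos_of_nonpos_of_nonneg (by linarith) (Complex.normSq_nonneg _)

end Vale.Agent.P078
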