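import Vale.Agent.P078.SelCT

/-! The selection lemma.  See PROOF.md, section Selection. -/

namespace Vale.Agent.P078

open Set Filter Topology MeasureTheory

/-- the selection kernel -/
noncomputable def selK (a δ u : ℝ) : ℝ := ((a + δ + max u 0) * (δ + max (-u) 0))⁻¹

/-- the slack factor -/
def lam : ℝ := 24576

namespace SelAux

open Real
open scoped NNReal

section
variable {a δ : ℝ}

lemma selK_pos (ha : 0 < a) (hδ : 0 < δ) (u : ℝ) : 0 < selK a δ u := by
  have h1 := le_max_right u 0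
  have h2 := le_max_right (-u) 0
  unfold selK
  positivity

lemma selK_integrable (ha : 0 < a) (hδ : 0 < δ) (ν : Measure ℝ) [IsFiniteMeasure ν] :
    Integrable (selK a δ) ν := by
  refine Integrable.of_bound (C := ((a + δ) * δ)⁻¹) ?_ (Eventually.of_forall fun u => ?_)
  · have : Measurable (selK a δ) := by unfold selK; fun_prop
    exact this.aestronglyMeasurable
  · rw [Real.norm_eq_abs, abs_of_pos (selK_pos ha hδ u)]
    have h1 := le_max_right u 0
    have h2 := le_max_right (-u) 0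
    refine inv_anti₀ (by positivity) ?_
    exact mul_le_mul (by linarith) (by linarith) hδ.le (by positivity)

lemma selK_neg {u : ℝ} (hu : u ≤ 0) : selK a δ u = ((a + δ) * (δ - u))⁻¹ := by
  unfold selK
  rw [max_eq_right hu, max_eq_left (neg_nonneg.2 hu), add_zero, sub_eq_add_neg]

lemma selK_nn {u : ℝ} (hu : 0 ≤ u) : selK a δ u = ((a + δ + u) * δ)⁻¹ := by
  unfold selK
  rw [max_eq_left hu, max_eq_right (neg_nonpos.2 hu), add_zero]

lemma selK_div (ha : 0 < a) (hδ : 0 < δ) (u : ℝ) : selK a (δ / 16) u ≤ 256 * selK a δ u := by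
  have h1 := le_max_right u 0
  have h2 := le_max_right (-u) 0
  unfold selK
  rw [← div_eq_mul_inv, inv_eq_one_div, div_le_div_iff₀ (by positivity) (by positivity), one_mul]
  calc (a + δ + max u 0) * (δ + max (-u) 0)
      ≤ (16 * (a + δ / 16 + max u 0)) * (16 * (δ / 16 + max (-u) 0)) := by
        gcongr <;> linarith
    _ = _ := by ring

end

lemma ker_ge {s L ε : ℝ} (hε : 0 < ε) (h1 : ε ≤ s) (h2 : s ≤ L) :
    (2 * L)⁻¹ ≤ s / (s ^ 2 + ε ^ 2) := by
  have hs : 0 < s := hε.trans_le h1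
  have hL : 0 < L := hs.trans_le h2
  rw [inv_eq_one_div, div_le_div_iff₀ (by positivity) (by positivity)]
  nlinarith [mul_le_mul h1 h1 hε.le hs.le, mul_le_mul_of_nonneg_left h2 hs.le]

lemma ker_le {s L ε : ℝ} (hL : 0 < L) (h : L ≤ s) : s / (s ^ 2 + ε ^ 2) ≤ L⁻¹ := by
  have hs : 0 < s := hL.trans_le h
  rw [inv_eq_one_div, div_le_div_iff₀ (by positivity) hL]
  nlinarith [mul_le_mul_of_nonneg_left h hs.le, sq_nonneg ε]

lemma ker_flip (t u ε : ℝ) :
    (t - u) / ((t - u) ^ 2 + ε ^ 2) = -((u - t) / ((u - t) ^ 2 + ε ^ 2)) := by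
  rw [← neg_div, neg_sub, ← neg_sub t u, neg_sq]

section
variable {ν : Measure ℝ} [IsFiniteMeasure ν] {a δ ε t : ℝ}

lemma neg_re_nonneg (hε : 0 < ε) (hν : ∀ᵐ u ∂ν, u ≤ 0) (ht : 0 ≤ t) : 0 ≤ (ctl ν ε t).re := by
  rw [ctl_re ν t hε]
  refine integral_nonneg_of_ae ?_
  filter_upwards [hν] with u hu
  exact div_nonneg (by linarith) (by positivity)

lemma neg_re_ge (ha : 0 < a) (hδ : 0 < δ) (hε : 0 < ε) (hν : ∀ᵐ u ∂ν, u ≤ 0) (h1 : ε ≤ t)
    (h2 : t ≤ δ) : (a + δ) / 2 * ∫ u, selK a δ u ∂ν ≤ (ctl ν ε t).re := by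
  rw [← integral_const_mul]
  refine le_re hε ((selK_integrable ha hδ ν).const_mul _) ?_
  filter_upwards [hν] with u hu
  refine le_trans (le_of_eq ?_) (ker_ge (L := δ - u) hε (by linarith) (by linarith))
  have : 0 < δ - u := by linarith
  rw [selK_neg hu]
  field_simp

lemma neg_re_le (ha : 0 < a) (hδ : 0 < δ) (hε : 0 < ε) (hν : ∀ᵐ u ∂ν, u ≤ 0) (h : δ ≤ t) :
    (ctl ν ε t).re ≤ (a + δ) * ∫ u, selK a δ u ∂ν := by
  rw [← integral_const_mul]
  refine re_le hε ((selK_integrable ha hδ ν).const_mul _) ?_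
  filter_upwards [hν] with u hu
  have : 0 < δ - u := by linarith
  refine le_trans (ker_le (L := δ - u) this (by linarith)) (le_of_eq ?_)
  rw [selK_neg hu]
  field_simp

lemma pos_re_nonpos (hε : 0 < ε) (hν : ∀ᵐ u ∂ν, 0 ≤ u) (ht : t ≤ 0) : (ctl ν ε t).re ≤ 0 := by
  rw [ctl_re ν t hε]
  refine integral_nonpos_of_ae ?_
  filter_upwards [hν] with u hu
  exact div_nonpos_of_nonpos_of_nonneg (by linarith) (by positivity)

lemma pos_re_le (ha : 0 < a) (hδ : 0 < δ) (hε : 0 < ε) (hν : ∀ᵐ u ∂ν, 0 ≤ u)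
    (h1 : -(a + δ) ≤ t) (h2 : t ≤ -ε) : (ctl ν ε t).re ≤ -(δ / 2) * ∫ u, selK a δ u ∂ν := by
  rw [← integral_const_mul]
  refine re_le hε ((selK_integrable ha hδ ν).const_mul _) ?_
  filter_upwards [hν] with u hu
  rw [ker_flip, neg_mul, neg_le_neg_iff]
  refine le_trans (le_of_eq ?_) (ker_ge (L := a + δ + u) hε (by linarith) (by linarith))
  have : 0 < a + δ + u := by linarith
  rw [selK_nn hu]
  field_simp

lemma pos_re_ge (ha : 0 < a) (hδ : 0 < δ) (hε : 0 < ε) (hν : ∀ᵐ u ∂ν, 0 ≤ u)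
    (h : t ≤ -(a + δ)) : -δ * ∫ u, selK a δ u ∂ν ≤ (ctl ν ε t).re := by
  rw [← integral_const_mul]
  refine le_re hε ((selK_integrable ha hδ ν).const_mul _) ?_
  filter_upwards [hν] with u hu
  rw [ker_flip, neg_mul, neg_le_neg_iff]
  have : 0 < a + δ + u := by linarith
  refine le_trans (ker_le (L := a + δ + u) this (by linarith)) (le_of_eq ?_)
  rw [selK_nn hu]
  field_simp

omit [IsFiniteMeasure ν] in
lemma neg_far (hν : ∀ᵐ u ∂ν, u ≤ 0) (ht : 0 ≤ t) : ∀ᵐ u ∂ν, |t| ≤ |t - u| := by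
  filter_upwards [hν] with u hu
  rw [abs_of_nonneg ht, abs_of_nonneg (by linarith)]
  linarith

omit [IsFiniteMeasure ν] in
lemma pos_far (hν : ∀ᵐ u ∂ν, 0 ≤ u) (ht : t ≤ 0) : ∀ᵐ u ∂ν, |t| ≤ |t - u| := by
  filter_upwards [hν] with u hu
  rw [abs_of_nonpos ht, abs_of_nonpos (by linarith)]
  linarith

variable {η B : ℝ}

lemma zm_pos (hη : 0 < η) (hε : 0 < ε) (a t : ℝ) :
    0 < ((a : ℂ) + t + η * Complex.I - ctl ν ε t).im := by
  rw [zm_im]; linarith [ctl_im_nonpos ν t hε]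

lemma z_pos (hη : 0 < η) (a t : ℝ) : 0 < ((a : ℂ) + t + η * Complex.I).im := by
  rw [z_im]; exact hη

lemma lower_neg (ha : 0 < a) (hη : 0 < η) (hηa : η ≤ a) (hδ : 0 < δ) (hε : 0 < ε)
    (hεδ : ε ≤ δ / 2) (hν : ∀ᵐ u ∂ν, u ≤ 0) (hK : 2 ≤ ∫ u, selK a δ u ∂ν) :
    π * δ / 8 ≤ ∫ t in Ioi 0, darg a η (ctl ν ε) t := by
  have e : π * δ / 8 = ∫ t, π / 4 * blk (δ / 2) δ t := by
    rw [integral_const_mul, blk_integral (by linarith)]; ring
  rw [e]
  refine le_setIntegral measurableSet_Ioi (darg_integrable ν a hη hε)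
    ((blk_integrable _ _).const_mul _) (fun t ht => ?_) (fun t ht => ?_)
  · have ht : 0 < t := ht
    have hw := zm_pos (ν := ν) hη hε a t
    have hz := z_pos hη a t
    unfold darg
    by_cases h : δ / 2 < t ∧ t ≤ δ
    · rw [blk_of_mem h.1 h.2]
      have h1 := neg_re_ge ha hδ hε hν (hεδ.trans h.1.le) h.2
      have h2 : (a + δ) / 2 * 2 ≤ (a + δ) / 2 * ∫ u, selK a δ u ∂ν :=
        mul_le_mul_of_nonneg_left hK (by positivity)
      have h3 := arg_ge_half hw (by rw [zm_re]; linarith [h.2])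
      have h4 := arg_le_quarter hz (by rw [z_re, z_im]; linarith)
      linarith
    · rw [blk_of_not (by by_contra k; push Not at k; exact h k), mul_zero, sub_nonneg]
      refine arg_le_arg hz hw ?_
      rw [zm_re, zm_im, z_re, z_im]
      have h1 := neg_re_nonneg hε hν ht.le
      have h2 := ctl_im_nonpos ν t hε
      nlinarith [mul_nonneg h1 hη.le, mul_nonneg (show 0 ≤ a + t by linarith) (neg_nonneg.2 h2)]
  · have ht : t ≤ 0 := not_lt.1 ht
    rw [blk_of_not (Or.inl (by linarith)), mul_zero]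

lemma arg_shift {z m : ℂ} (hz : 0 < z.im) (h1 : m.re ≤ 0) (h2 : m.im ≤ 0) :
    Complex.arg (z - m) ≤ Complex.arg z + 2 * π * (-m.im) / z.im := by
  have hz' : 0 < (z - m.re).im := by simpa using hz
  have k1 : Complex.arg (z - m.re) ≤ Complex.arg z := by
    refine arg_le_arg hz' hz ?_
    simp only [Complex.sub_im, Complex.ofReal_im, sub_zero, Complex.sub_re, Complex.ofReal_re]
    nlinarith [mul_nonneg (neg_nonneg.2 h1) hz.le]
  have k2 := abs_arg_sub_le (z := z - m.re) (m := m.im * Complex.I) hz' (by simpa using h2)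
  have e : z - m.re - m.im * Complex.I = z - m := by
    rw [sub_sub, Complex.re_add_im]
  rw [e] at k2
  have k3 : ‖(m.im : ℂ) * Complex.I‖ = -m.im := by
    rw [norm_mul, Complex.norm_I, mul_one, Complex.norm_real, Real.norm_eq_abs, abs_of_nonpos h2]
  rw [k3] at k2
  have k4 : z.im ≤ ‖z - m.re‖ := by
    have := Complex.abs_im_le_norm (z - m.re)
    simp only [Complex.sub_im, Complex.ofReal_im, sub_zero] at this
    exact (le_abs_self _).trans this
  have k5 : 2 * π * (-m.im) / ‖z - m.re‖ ≤ 2 * π * (-m.im) / z.im :=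
    div_le_div_of_nonneg_left (mul_nonneg (by positivity) (neg_nonneg.2 h2)) hz k4
  linarith [(abs_le.1 k2).2]

lemma lower_pos (ha : 0 < a) (hη : 0 < η) (hδ : 2 * η ≤ δ) (hε : 0 < ε)
    (hεδ : ε ≤ δ / 2) (hν : ∀ᵐ u ∂ν, 0 ≤ u) (hB : ν.real univ ≤ B)
    (hK : 2 ≤ ∫ u, selK a δ u ∂ν) :
    π * δ / 8 - π * η - ε * (2 * π / η * (B * (1 + (η ^ 2)⁻¹)) * π) ≤
      ∫ t in Ioi 0, darg a η (ctl ν ε) t := by
  have hδ0 : 0 < δ := by linarith
  have hB0 : 0 ≤ B := measureReal_nonneg.trans hB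
  set K := 2 * π / η * (B * (1 + (η ^ 2)⁻¹)) with hKdef
  have hK0 : 0 ≤ K := by positivity
  have i1 := (blk_integrable (-a - δ) (-a - δ / 2)).const_mul (π / 4)
  have i2 := (blk_integrable (-η) 0).const_mul π
  have i3 := (poi_integrable one_pos 0).const_mul (ε * K)
  have e : π * δ / 8 - π * η - ε * (K * π) =
      ∫ t, (π / 4 * blk (-a - δ) (-a - δ / 2) t - π * blk (-η) 0 t - ε * K * poi 1 0 t) := by
    rw [integral_sub (i1.sub' i2) i3, integral_sub i1 i2, integral_const_mul, integral_const_mul,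
      integral_const_mul, blk_integral (by linarith), blk_integral (by linarith),
      poi_integral one_pos]
    ring
  rw [e, darg_Ioi_eq ν a hη hε]
  refine le_setIntegral measurableSet_Iic (darg_integrable ν a hη hε).neg
    ((i1.sub i2).sub i3) (fun t ht => ?_) (fun t ht => ?_)
  · have ht : t ≤ 0 := ht
    have hw := zm_pos (ν := ν) hη hε a t
    have hz := z_pos hη a t
    have p2 : 0 ≤ π * blk (-η) 0 t := mul_nonneg pi_pos.le (blk_nonneg _ _ _)
    have p3 : 0 ≤ ε * K * poi 1 0 t := mul_nonneg (by positivity) (poi_nonneg one_pos _ _)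
    unfold darg
    by_cases h : -a - δ < t ∧ t ≤ -a - δ / 2
    · rw [blk_of_mem h.1 h.2]
      have h1 := pos_re_le (t := t) ha hδ0 hε hν (by linarith [h.1]) (by linarith [h.2])
      have h2 : δ / 2 * 2 ≤ δ / 2 * ∫ u, selK a δ u ∂ν :=
        mul_le_mul_of_nonneg_left hK (by positivity)
      have h3 := arg_le_half hw (by rw [zm_re]; linarith [h.1])
      have h4 := arg_ge_three_quarter hz (by rw [z_re, z_im]; linarith [h.2])
      linarith
    · rw [blk_of_not (by by_contra k; push Not at k; exact h k), mul_zero]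
      by_cases h' : -η < t
      · rw [blk_of_mem h' ht]
        have h1 := Complex.arg_le_pi ((a : ℂ) + t + η * Complex.I - ctl ν ε t)
        have h2 := Complex.arg_nonneg_iff.2 hz.le
        linarith
      · have h' : t ≤ -η := not_lt.1 h'
        have h1 := arg_shift hz (pos_re_nonpos hε hν ht) (ctl_im_nonpos ν t hε)
        have h2 := im_le hε hη (by rw [abs_of_nonpos ht]; linarith) hB (pos_far hν ht)
        rw [z_im] at h1
        have h3 : 2 * π * -(ctl ν ε t).im / η ≤ ε * K * poi 1 0 t := by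
          calc 2 * π * -(ctl ν ε t).im / η = 2 * π / η * -(ctl ν ε t).im := by ring
            _ ≤ 2 * π / η * (ε * (B * (1 + (η ^ 2)⁻¹)) * poi 1 0 t) :=
              mul_le_mul_of_nonneg_left h2 (by positivity)
            _ = _ := by rw [hKdef]; ring
        linarith
  · have ht : 0 < t := not_le.1 ht
    have p2 : 0 ≤ π * blk (-η) 0 t := mul_nonneg pi_pos.le (blk_nonneg _ _ _)
    have p3 : 0 ≤ ε * K * poi 1 0 t := mul_nonneg (by positivity) (poi_nonneg one_pos _ _)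
    rw [blk_of_not (Or.inr (by linarith)), mul_zero]
    linarith

lemma upper_neg (ha : 0 < a) (hη : 0 < η) (hδ : 0 < δ) (hε : 0 < ε)
    (hν : ∀ᵐ u ∂ν, u ≤ 0) (hB : ν.real univ ≤ B) (hK : ∫ u, selK a δ u ∂ν ≤ 1 / 2) (ht : 0 < t) :
    darg a η (ctl ν ε) t ≤ π * blk 0 δ t + 2 * η * poi (a + δ) (-a) t +
      ε * (2 / a * (B * (1 + (δ ^ 2)⁻¹))) * poi 1 0 t := by
  have hB0 : 0 ≤ B := measureReal_nonneg.trans hB
  have hw := zm_pos (ν := ν) hη hε a t
  have hz := z_pos hη a t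
  have p1 : 0 ≤ π * blk 0 δ t := mul_nonneg pi_pos.le (blk_nonneg _ _ _)
  have p2 : 0 ≤ 2 * η * poi (a + δ) (-a) t :=
    mul_nonneg (by positivity) (poi_nonneg (by positivity) _ _)
  have p3 : 0 ≤ ε * (2 / a * (B * (1 + (δ ^ 2)⁻¹))) * poi 1 0 t :=
    mul_nonneg (by positivity) (poi_nonneg one_pos _ _)
  unfold darg
  by_cases h : t ≤ δ
  · rw [blk_of_mem ht h]
    have h1 := Complex.arg_le_pi ((a : ℂ) + t + η * Complex.I - ctl ν ε t)
    have h2 := Complex.arg_nonneg_iff.2 hz.le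
    linarith
  · have h : δ < t := not_le.1 h
    have h1 := neg_re_nonneg hε hν ht.le
    have h2 := neg_re_le ha hδ hε hν h.le
    have h3 : (a + δ) * ∫ u, selK a δ u ∂ν ≤ (a + δ) * (1 / 2) :=
      mul_le_mul_of_nonneg_left hK (by positivity)
    have h4 := neg_nonneg.2 (ctl_im_nonpos ν t hε)
    have h5 := im_le hε hδ (by rw [abs_of_pos ht]; exact h.le) hB (neg_far hν ht.le)
    have hx : 0 < a + t := by positivity
    rw [arg_eq_right hw (by rw [zm_re]; linarith), arg_eq_right hz (by rw [z_re]; exact hx),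
      zm_re, zm_im, z_re, z_im, sub_eq_add_neg η]
    have h6 := atan_diff hx h1 (by linarith) hη.le h4
    have h7 : 2 * -(ctl ν ε t).im / (a + t) ≤
        ε * (2 / a * (B * (1 + (δ ^ 2)⁻¹))) * poi 1 0 t := by
      calc 2 * -(ctl ν ε t).im / (a + t) ≤ 2 * -(ctl ν ε t).im / a :=
            div_le_div_of_nonneg_left (by positivity) ha (by linarith)
        _ = 2 / a * -(ctl ν ε t).im := by ring
        _ ≤ 2 / a * (ε * (B * (1 + (δ ^ 2)⁻¹)) * poi 1 0 t) :=
            mul_le_mul_of_nonneg_left h5 (by positivity)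
        _ = _ := by ring
    have h8 : 2 * η * (ctl ν ε t).re / (a + t) ^ 2 ≤ 2 * η * poi (a + δ) (-a) t := by
      have k := le_poi (c := a + δ) (x := -a) (t := t) (by positivity)
        (by rw [abs_of_pos (by linarith)]; linarith)
      have e : t - -a = a + t := by ring
      rw [e] at k
      calc 2 * η * (ctl ν ε t).re / (a + t) ^ 2 = η * (2 * (ctl ν ε t).re / (a + t) ^ 2) := by ring
        _ ≤ η * ((a + δ) / (a + t) ^ 2) := by gcongr; linarith
        _ ≤ η * (2 * poi (a + δ) (-a) t) := by gcongr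
        _ = _ := by ring
    linarith

lemma upper_pos (ha : 0 < a) (hη : 0 < η) (hδ : 0 < δ) (hε : 0 < ε)
    (hν : ∀ᵐ u ∂ν, 0 ≤ u) (hB : ν.real univ ≤ B) (hK : ∫ u, selK a δ u ∂ν ≤ 1 / 2) (ht : t ≤ 0) :
    -darg a η (ctl ν ε) t ≤ π * blk (-a - δ) (-a) t + 2 * blk (-a) (η - a) t +
      η * lg a (η - a) 0 t + 2 * η * poi δ (-a) t +
      ε * (2 / δ * (B * (1 + (δ ^ 2)⁻¹))) * poi 1 0 t := by
  have hB0 : 0 ≤ B := measureReal_nonneg.trans hB
  have hw := zm_pos (ν := ν) hη hε a t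
  have hz := z_pos hη a t
  have p1 : 0 ≤ π * blk (-a - δ) (-a) t := mul_nonneg pi_pos.le (blk_nonneg _ _ _)
  have p2 : 0 ≤ 2 * blk (-a) (η - a) t := mul_nonneg zero_le_two (blk_nonneg _ _ _)
  have p3 : 0 ≤ η * lg a (η - a) 0 t := mul_nonneg hη.le (lg_nonneg (by linarith) _ _)
  have p4 : 0 ≤ 2 * η * poi δ (-a) t := mul_nonneg (by positivity) (poi_nonneg hδ _ _)
  have p5 : 0 ≤ ε * (2 / δ * (B * (1 + (δ ^ 2)⁻¹))) * poi 1 0 t :=
    mul_nonneg (by positivity) (poi_nonneg one_pos _ _)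
  have h0 := Complex.arg_nonneg_iff.2 hw.le
  unfold darg
  by_cases c1 : η - a < t
  · rw [lg_of_mem a c1 ht]
    have := arg_le_div hz (by rw [z_re]; linarith)
    rw [z_re, z_im, div_eq_mul_inv] at this
    linarith
  by_cases c2 : -a < t
  · rw [blk_of_mem c2 (not_lt.1 c1)]
    have := arg_le_half hz (by rw [z_re]; linarith)
    linarith [pi_le_four]
  by_cases c3 : -a - δ < t
  · rw [blk_of_mem c3 (not_lt.1 c2)]
    have := Complex.arg_le_pi ((a : ℂ) + t + η * Complex.I)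
    linarith
  have h : t ≤ -a - δ := not_lt.1 c3
  have h1 := neg_nonneg.2 (pos_re_nonpos hε hν ht)
  have h2 := pos_re_ge (t := t) ha hδ hε hν (by linarith)
  have h3 : δ * ∫ u, selK a δ u ∂ν ≤ δ * (1 / 2) := mul_le_mul_of_nonneg_left hK hδ.le
  have h4 := neg_nonneg.2 (ctl_im_nonpos ν t hε)
  have h5 := im_le hε hδ (by rw [abs_of_nonpos ht]; linarith) hB (pos_far hν ht)
  have hx : 0 < -(a + t) := by linarith
  have e1 : -(a + t - (ctl ν ε t).re) = -(a + t) - -(ctl ν ε t).re := by ring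
  rw [arg_eq_left hw (by rw [zm_re]; linarith), arg_eq_left hz (by rw [z_re]; linarith),
    zm_re, zm_im, z_re, z_im, sub_eq_add_neg η, e1]
  have h6 := atan_diff hx h1 (by linarith) hη.le h4
  have h7 : 2 * -(ctl ν ε t).im / -(a + t) ≤
      ε * (2 / δ * (B * (1 + (δ ^ 2)⁻¹))) * poi 1 0 t := by
    calc 2 * -(ctl ν ε t).im / -(a + t) ≤ 2 * -(ctl ν ε t).im / δ :=
          div_le_div_of_nonneg_left (by positivity) hδ (by linarith)
      _ = 2 / δ * -(ctl ν ε t).im := by ring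
      _ ≤ 2 / δ * (ε * (B * (1 + (δ ^ 2)⁻¹)) * poi 1 0 t) :=
          mul_le_mul_of_nonneg_left h5 (by positivity)
      _ = _ := by ring
  have h8 : 2 * η * -(ctl ν ε t).re / (-(a + t)) ^ 2 ≤ 2 * η * poi δ (-a) t := by
    have k := le_poi (c := δ) (x := -a) (t := t) hδ
      (by rw [abs_of_neg (by linarith)]; linarith)
    have e : (t - -a) ^ 2 = (-(a + t)) ^ 2 := by ring
    rw [e] at k
    calc 2 * η * -(ctl ν ε t).re / (-(a + t)) ^ 2
        = η * (2 * -(ctl ν ε t).re / (-(a + t)) ^ 2) := by ring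
      _ ≤ η * (δ / (-(a + t)) ^ 2) := by gcongr; linarith
      _ ≤ η * (2 * poi δ (-a) t) := by gcongr
      _ = _ := by ring
  linarith

lemma upper_pos_int (ha : 0 < a) (hη : 0 < η) (hηa : η ≤ a) (hδ : 0 < δ) (hε : 0 < ε)
    (hν : ∀ᵐ u ∂ν, 0 ≤ u) (hB : ν.real univ ≤ B) (hK : ∫ u, selK a δ u ∂ν ≤ 1 / 2) :
    ∫ t in Ioi 0, darg a η (ctl ν ε) t ≤ π * δ + 2 * η + η * log (a / η) + 2 * η * π +
      ε * (2 / δ * (B * (1 + (δ ^ 2)⁻¹))) * π := by
  have hB0 : 0 ≤ B := measureReal_nonneg.trans hB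
  have hl : 0 < a + (η - a) := by linarith
  have i1 := (blk_integrable (-a - δ) (-a)).const_mul π
  have i2 := (blk_integrable (-a) (η - a)).const_mul 2
  have i3 := (lg_integrable hl 0).const_mul η
  have i4 := (poi_integrable hδ (-a)).const_mul (2 * η)
  have i5 := (poi_integrable one_pos 0).const_mul (ε * (2 / δ * (B * (1 + (δ ^ 2)⁻¹))))
  rw [darg_Ioi_eq ν a hη hε]
  refine (setIntegral_le measurableSet_Iic (darg_integrable ν a hη hε).neg
    ((((i1.add i2).add i3).add i4).add i5)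
    (fun t ht => upper_pos ha hη hδ hε hν hB hK ht) (fun t _ => ?_)).trans (le_of_eq ?_)
  · have p1 : 0 ≤ π * blk (-a - δ) (-a) t := mul_nonneg pi_pos.le (blk_nonneg _ _ _)
    have p2 : 0 ≤ 2 * blk (-a) (η - a) t := mul_nonneg zero_le_two (blk_nonneg _ _ _)
    have p3 : 0 ≤ η * lg a (η - a) 0 t := mul_nonneg hη.le (lg_nonneg hl _ _)
    have p4 : 0 ≤ 2 * η * poi δ (-a) t := mul_nonneg (by positivity) (poi_nonneg hδ _ _)
    have p5 : 0 ≤ ε * (2 / δ * (B * (1 + (δ ^ 2)⁻¹))) * poi 1 0 t :=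
      mul_nonneg (by positivity) (poi_nonneg one_pos _ _)
    simp only [Pi.add_apply]
    linarith
  · simp only [Pi.add_apply]
    rw [integral_add (((i1.fun_add i2).fun_add i3).fun_add i4) i5,
      integral_add ((i1.fun_add i2).fun_add i3) i4,
      integral_add (i1.fun_add i2) i3, integral_add i1 i2]
    simp only [integral_const_mul]
    rw [blk_integral (by linarith), blk_integral (by linarith), lg_integral hl (by linarith),
      poi_integral hδ, poi_integral one_pos]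
    have e1 : (a + 0) / (a + (η - a)) = a / η := by congr 1 <;> ring
    rw [e1]
    ring

end

lemma split (ν : Measure ℝ) [IsFiniteMeasure ν] : ∃ ν₁ ν₂ : Measure ℝ, IsFiniteMeasure ν₁ ∧
    IsFiniteMeasure ν₂ ∧ ν = ν₁ + ν₂ ∧ (∀ᵐ u ∂ν₁, u ≤ 0) ∧ (∀ᵐ u ∂ν₂, 0 ≤ u) := by
  refine ⟨ν.restrict (Iio 0), ν.restrict (Iio 0)ᶜ, inferInstance, inferInstance,
    (Measure.restrict_add_restrict_compl measurableSet_Iio).symm, ?_, ?_⟩
  · filter_upwards [ae_restrict_mem measurableSet_Iio] with u hu using le_of_lt hu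
  · filter_upwards [ae_restrict_mem measurableSet_Iio.compl] with u hu using not_lt.1 hu

lemma exists_eps (K : ℝ) {η : ℝ} (hη : 0 < η) :
    ∃ ε₁ > 0, ∀ ε, 0 < ε → ε ≤ ε₁ → ε * K ≤ η := by
  refine ⟨η / (|K| + 1), by positivity, fun ε h1 h2 => ?_⟩
  rw [le_div_iff₀ (by positivity)] at h2
  nlinarith [le_abs_self K]

lemma exists_eta (K q : ℝ) {e : ℝ} (he : 0 < e) :
    ∃ η₀ > 0, ∀ η, 0 < η → η ≤ η₀ → η * K - q * (η * log η) ≤ e := by
  have hc : Continuous fun η : ℝ => η * K - q * (η * log η) :=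
    (continuous_id.mul continuous_const).sub (continuous_const.mul continuous_mul_log)
  have h0 : ∀ᶠ η in 𝓝 (0 : ℝ), η * K - q * (η * log η) < e :=
    hc.continuousAt.eventually_lt continuousAt_const (by simpa using he)
  obtain ⟨r, hr, h⟩ := Metric.eventually_nhds_iff.1 h0
  refine ⟨r / 2, half_pos hr, fun η h1 h2 => (h ?_).le⟩
  rw [Real.dist_eq, sub_zero, abs_of_pos h1]
  linarith

lemma exists_rep {m : ℂ → ℂ} {ε₀ ε C : ℝ} (hε : 0 < ε) (h1 : ε < ε₀) (h2 : ε ≤ 1) (hC : 0 ≤ C)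
    (hd : DifferentiableOn ℂ m {z | -ε₀ < z.im})
    (hb : ∀ z : ℂ, -ε₀ < z.im → (m z).im ≤ 0 ∧ ‖m z‖ ≤ C / (1 + ‖z‖)) :
    ∃ ν : Measure ℝ, IsFiniteMeasure ν ∧ ν.real univ ≤ 2 * C ∧ ∀ t : ℝ, m t = ctl ν ε t := by
  have hs : ∀ z : ℂ, 0 ≤ z.im → -ε₀ < (z - ε * Complex.I).im := by
    intro z hz
    have : (z - ε * Complex.I).im = z.im - ε := by simp
    rw [this]; linarith
  have hD : DifferentiableOn ℂ (fun z => m (z - ε * Complex.I)) {z | 0 ≤ z.im} :=
    hd.comp (differentiableOn_id.sub_const _) (fun z hz => hs z hz)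
  obtain ⟨ν, hν, hm, hr⟩ := rep_measure (F := fun z => m (z - ε * Complex.I)) (C := 2 * C)
    (hD.mono fun z (hz : 0 < z.im) => (hz.le : 0 ≤ z.im)) hD.continuousOn
    (fun z hz => (hb _ (hs z hz)).1) (fun z hz => ((hb _ (hs z hz)).2).trans (by
      have k1 : ‖z‖ ≤ ‖z - ε * Complex.I‖ + ‖(ε : ℂ) * Complex.I‖ := by
        simpa using norm_add_le (z - ε * Complex.I) (ε * Complex.I)
      have k2 : ‖(ε : ℂ) * Complex.I‖ = ε := by simp [abs_of_pos hε]
      rw [k2] at k1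
      have k3 := norm_nonneg (z - ε * Complex.I)
      rw [div_le_div_iff₀ (by positivity) (by positivity)]
      nlinarith [mul_le_mul_of_nonneg_left
        (show 1 + ‖z‖ ≤ 2 * (1 + ‖z - ε * Complex.I‖) by linarith) hC]))
  refine ⟨ν, hν, hm, fun t => ?_⟩
  have := hr ((t : ℂ) + ε * Complex.I) (by rw [im_pt]; exact hε)
  simpa only [add_sub_cancel_right, ctl] using this

lemma tail_le (ν : Measure ℝ) [IsFiniteMeasure ν] {a η ε T C : ℝ} (ha : 0 < a) (hη : 0 < η)
    (hε : 0 < ε) (hT : 0 < T) (hC : 0 ≤ C) (hb : ∀ t : ℝ, 0 < t → ‖ctl ν ε t‖ ≤ C / (1 + t)) :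
    ∫ t in Ioi T, darg a η (ctl ν ε) t ≤ 4 * π * C / T * π := by
  refine (setIntegral_le measurableSet_Ioi (darg_integrable ν a hη hε)
    ((poi_integrable hT 0).const_mul (4 * π * C / T)) (fun t ht => ?_)
    (fun t _ => mul_nonneg (by positivity) (poi_nonneg hT _ _))).trans (le_of_eq ?_)
  · have ht : T < t := ht
    have ht0 : 0 < t := hT.trans ht
    have k1 := abs_arg_sub_le (z_pos hη a t) (ctl_im_nonpos ν t hε)
    have k2 : t ≤ ‖(a : ℂ) + t + η * Complex.I‖ := by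
      have := Complex.abs_re_le_norm ((a : ℂ) + t + η * Complex.I)
      rw [z_re] at this
      linarith [le_abs_self (a + t)]
    have k3 : ‖ctl ν ε t‖ ≤ C / t :=
      (hb t ht0).trans (div_le_div_of_nonneg_left hC ht0 (by linarith))
    have k4 := le_poi (c := T) (x := 0) (t := t) hT (by rw [sub_zero, abs_of_pos ht0]; exact ht.le)
    rw [sub_zero] at k4
    calc darg a η (ctl ν ε) t ≤ 2 * π * ‖ctl ν ε t‖ / ‖(a : ℂ) + t + η * Complex.I‖ :=
          (le_abs_self _).trans k1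
      _ ≤ 2 * π * (C / t) / t := by gcongr
      _ = 2 * π * C / T * (T / t ^ 2) := by field_simp
      _ ≤ 2 * π * C / T * (2 * poi T 0 t) := by gcongr
      _ = _ := by ring
  · rw [integral_const_mul, poi_integral hT]

lemma avg_integral {J : Type} [Fintype J] (ν : J → Measure ℝ) (c : ℝ≥0) {f : ℝ → ℝ}
    (hf : ∀ j, Integrable f (ν j)) :
    ∫ u, f u ∂(c • ∑ j, ν j) = c * ∑ j, ∫ u, f u ∂(ν j) := by
  rw [integral_smul_nnreal_measure, integral_finsetSum_measure (fun j _ => hf j), NNReal.smul_def,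
    smul_eq_mul]

lemma real_univ_eq (ν : Measure ℝ) : ν.real univ = ∫ _u, (1 : ℝ) ∂ν := by
  rw [integral_const, smul_eq_mul, mul_one]

lemma log_budget {a η : ℝ} (p : ℕ) (ha : 0 < a) (hη : 0 < η) (h1 : η ≤ 1) :
    log (1 + (η ^ (p + 1))⁻¹ / a) + log (1 + a / η) ≤
      log (1 + a⁻¹) + log (1 + a) - (p + 2) * log η := by
  have hp : 0 < η ^ (p + 1) := by positivity
  have hp1 : η ^ (p + 1) ≤ 1 := pow_le_one₀ hη.le h1
  have k1 : 1 + (η ^ (p + 1))⁻¹ / a ≤ (1 + a⁻¹) / η ^ (p + 1) := by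
    have : 1 ≤ 1 / η ^ (p + 1) := by rw [le_div_iff₀ hp]; linarith
    have e : (1 + a⁻¹) / η ^ (p + 1) = 1 / η ^ (p + 1) + (η ^ (p + 1))⁻¹ / a := by
      field_simp
    rw [e]; linarith
  have k2 : 1 + a / η ≤ (1 + a) / η := by
    have : 1 ≤ 1 / η := by rw [le_div_iff₀ hη]; linarith
    rw [add_div]; linarith
  have l1 := log_le_log (by positivity) k1
  have l2 := log_le_log (by positivity) k2
  rw [log_div (by positivity) hp.ne', log_pow] at l1
  rw [log_div (by positivity) hη.ne'] at l2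
  push_cast at l1
  linarith

lemma markov {J : Type} [Fintype J] [Nonempty J] (k : J → ℝ) (h0 : ∀ j, 0 ≤ k j)
    (h : ∑ j, k j < 4 * (Fintype.card J + 1)) (s : Finset J) (hs : ∀ j ∈ s, 24 < k j) :
    3 * s.card < Fintype.card J := by
  have h1 : (s.card : ℝ) * 24 ≤ ∑ j ∈ s, k j := by
    have := Finset.card_nsmul_le_sum s k 24 (fun j hj => (hs j hj).le)
    simpa using this
  have h2 : ∑ j ∈ s, k j ≤ ∑ j, k j :=
    Finset.sum_le_sum_of_subset_of_nonneg (Finset.subset_univ s) (fun j _ _ => h0 j)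
  have h3 : (1 : ℝ) ≤ Fintype.card J := by exact_mod_cast Fintype.card_pos
  have h4 : (3 * s.card : ℝ) < Fintype.card J := by linarith
  exact_mod_cast h4

end SelAux

open SelAux

/-- Lower bound. -/
theorem sel_lower {a η B δ : ℝ} (ha : 0 < a) (hη : 0 < η) (hηa : η ≤ a) (hδ : 2 * η ≤ δ) :
    ∃ ε₁ > 0, ∀ ε, 0 < ε → ε ≤ ε₁ → ∀ (ν : Measure ℝ) [IsFiniteMeasure ν], ν.real univ ≤ B →
      4 ≤ ∫ u, selK a δ u ∂ν →
      Real.pi * δ / 8 - 4 * η ≤ ∫ t in Ioi 0, darg a η (ctl ν ε) t := by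
  have hδ0 : 0 < δ := by linarith
  obtain ⟨ε₂, h₂, hε₂⟩ := exists_eps (2 * Real.pi / η * (B * (1 + (η ^ 2)⁻¹)) * Real.pi)
    (half_pos hη)
  refine ⟨min (δ / 2) ε₂, by positivity, fun ε hε hle ν _ hB hK => ?_⟩
  obtain ⟨ν₁, ν₂, _, _, rfl, h1, h2⟩ := split ν
  rw [integral_add_measure (selK_integrable ha hδ0 _) (selK_integrable ha hδ0 _)] at hK
  rw [measureReal_add_apply] at hB
  have hεδ := hle.trans (min_le_left _ _)
  by_cases c : 2 ≤ ∫ u, selK a δ u ∂ν₁
  · have k1 := lower_neg ha hη hηa hδ0 hε hεδ h1 c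
    have k2 := darg_mono ν₁ ν₂ a 0 hη hε
    linarith
  · have k0 : 0 ≤ ν₁.real univ := measureReal_nonneg
    have k1 := lower_pos (B := B) ha hη hδ hε hεδ h2 (by linarith) (by linarith)
    have k2 := darg_mono ν₂ ν₁ a 0 hη hε
    rw [add_comm ν₂] at k2
    have k3 := hε₂ ε hε (hle.trans (min_le_right _ _))
    have k4 : Real.pi * η ≤ 3.15 * η := mul_le_mul_of_nonneg_right Real.pi_lt_d2.le hη.le
    linarith

/-- Upper bound on `[0, T]`. -/
theorem sel_upper {a η B δ T : ℝ} (ha : 0 < a) (hη : 0 < η) (hηa : η ≤ a) (hδ : 0 < δ)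
    (hT : 0 < T) :
    ∃ ε₁ > 0, ∀ ε, 0 < ε → ε ≤ ε₁ → ∀ (ν : Measure ℝ) [IsFiniteMeasure ν], ν.real univ ≤ B →
      ∫ u, selK a δ u ∂ν ≤ 1 / 4 →
      ∫ t in Ioc 0 T, darg a η (ctl ν ε) t ≤
        2 * Real.pi * δ + η * (20 + Real.log (1 + T / a) + Real.log (1 + a / η)) := by
  obtain ⟨ε₁, h₁, hε₁⟩ := exists_eps (2 / a * (2 * B * (1 + (δ ^ 2)⁻¹)) * Real.pi) hη
  obtain ⟨ε₂, h₂, hε₂⟩ := exists_eps (2 / δ * (2 * B * (1 + (δ ^ 2)⁻¹)) * Real.pi) hη
  refine ⟨min ε₁ ε₂, by positivity, fun ε hε hle ν _ hB hK => ?_⟩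
  have hB0 : 0 ≤ B := measureReal_nonneg.trans hB
  obtain ⟨ν₁, ν₂, _, _, rfl, h1, h2⟩ := split ν
  rw [integral_add_measure (selK_integrable ha hδ _) (selK_integrable ha hδ _)] at hK
  rw [measureReal_add_apply] at hB
  have m1 : 0 ≤ ν₁.real univ := measureReal_nonneg
  have m2 : 0 ≤ ν₂.real univ := measureReal_nonneg
  have n1 : 0 ≤ ∫ u, selK a δ u ∂ν₁ := integral_nonneg fun u => (selK_pos ha hδ u).le
  have n2 : 0 ≤ ∫ u, selK a δ u ∂ν₂ := integral_nonneg fun u => (selK_pos ha hδ u).le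
  have a1 : ∀ᵐ u ∂(ν₁ + ν₁), u ≤ 0 := ae_add_measure_iff.2 ⟨h1, h1⟩
  have a2 : ∀ᵐ u ∂(ν₂ + ν₂), 0 ≤ u := ae_add_measure_iff.2 ⟨h2, h2⟩
  have b1 : (ν₁ + ν₁).real univ ≤ 2 * B := by rw [measureReal_add_apply]; linarith
  have b2 : (ν₂ + ν₂).real univ ≤ 2 * B := by rw [measureReal_add_apply]; linarith
  have c1 : ∫ u, selK a δ u ∂(ν₁ + ν₁) ≤ 1 / 2 := by
    rw [integral_add_measure (selK_integrable ha hδ _) (selK_integrable ha hδ _)]; linarith
  have c2 : ∫ u, selK a δ u ∂(ν₂ + ν₂) ≤ 1 / 2 := by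
    rw [integral_add_measure (selK_integrable ha hδ _) (selK_integrable ha hδ _)]; linarith
  have hl : 0 < a + 0 := by linarith
  have i0 := darg_integrable (ν₁ + ν₂) a hη hε
  have i2 := darg_integrable (ν₂ + ν₂) a hη hε
  have j1 := (blk_integrable 0 δ).const_mul Real.pi
  have j2 := (poi_integrable (add_pos ha hδ) (-a)).const_mul (2 * η)
  have j3 := (poi_integrable one_pos 0).const_mul (ε * (2 / a * (2 * B * (1 + (δ ^ 2)⁻¹))))
  have j4 := (lg_integrable hl T).const_mul η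
  have g0 : ∀ t, 0 ≤ Real.pi * blk 0 δ t + 2 * η * poi (a + δ) (-a) t +
      ε * (2 / a * (2 * B * (1 + (δ ^ 2)⁻¹))) * poi 1 0 t := by
    intro t
    have p1 : 0 ≤ Real.pi * blk 0 δ t := mul_nonneg Real.pi_pos.le (blk_nonneg _ _ _)
    have p2 : 0 ≤ 2 * η * poi (a + δ) (-a) t :=
      mul_nonneg (by positivity) (poi_nonneg (by positivity) _ _)
    have p3 : 0 ≤ ε * (2 / a * (2 * B * (1 + (δ ^ 2)⁻¹))) * poi 1 0 t :=
      mul_nonneg (by positivity) (poi_nonneg one_pos _ _)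
    linarith
  have k1 := setIntegral_le (s := Ioc 0 T) measurableSet_Ioc (i0.sub i2)
    (((j1.add j2).add j3).add j4) (fun t ht => ?_) (fun t _ => ?_)
  · simp only [Pi.add_apply, Pi.sub_apply] at k1
    rw [integral_sub i0.integrableOn i2.integrableOn,
      integral_add ((j1.fun_add j2).fun_add j3) j4,
      integral_add (j1.fun_add j2) j3, integral_add j1 j2] at k1
    simp only [integral_const_mul] at k1
    rw [blk_integral hδ.le, poi_integral (add_pos ha hδ), poi_integral one_pos,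
      lg_integral hl hT.le] at k1
    have e1 : (a + T) / (a + 0) = 1 + T / a := by field_simp; ring
    rw [e1] at k1
    have k2 := upper_pos_int ha hη hηa hδ hε a2 b2 c2
    have k3 := darg_Ioi_split (ν₂ + ν₂) a hη hε hT.le
    have k4 := darg_Ioi_nonneg (ν₂ + ν₂) a T hη hε
    have k5 := hε₁ ε hε (hle.trans (min_le_left _ _))
    have k6 := hε₂ ε hε (hle.trans (min_le_right _ _))
    have k7 : η * Real.pi ≤ η * 4 := mul_le_mul_of_nonneg_left Real.pi_le_four hη.le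
    have k8 : η * Real.log (a / η) ≤ η * Real.log (1 + a / η) :=
      mul_le_mul_of_nonneg_left (Real.log_le_log (by positivity) (by linarith)) hη.le
    linarith
  · simp only [Pi.add_apply, Pi.sub_apply]
    have u1 := upper_neg ha hη hδ hε a1 b1 c1 ht.1
    have w1 := zm_pos (ν := ν₁ + ν₁) hη hε a t
    have w2 := zm_pos (ν := ν₂ + ν₂) hη hε a t
    have hz := z_pos hη a t
    have u2 := arg_le_div hz (by rw [z_re]; linarith [ht.1])
    rw [z_re, z_im, div_eq_mul_inv] at u2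
    have u3 := Complex.arg_nonneg_iff.2 w2.le
    have u4 := Complex.arg_nonneg_iff.2 hz.le
    have u5 := g0 t
    rw [lg_of_mem a ht.1 ht.2]
    have := arg_avg_le (w := (a : ℂ) + t + η * Complex.I - ctl (ν₁ + ν₂) ε t) w1 w2
      (by simp only [ctl_add _ _ t hε]; ring)
    unfold darg at u1 ⊢
    rcases this with k | k <;> linarith
  · simp only [Pi.add_apply]
    have p4 : 0 ≤ η * lg a 0 T t := mul_nonneg hη.le (lg_nonneg hl _ _)
    linarith [g0 t]

/-- Selection: for at least two thirds of the indices, `m j / lam` costs no more than the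
average.  `m j` is holomorphic a little below the real axis. -/
theorem selection {a B e : ℝ} (p : ℕ) (ha : 0 < a) (he : 0 < e) :
    ∃ η₀ > 0, ∀ η, 0 < η → η ≤ η₀ → ∀ (J : Type) [Fintype J] [Nonempty J] (m : J → ℂ → ℂ)
      (ε₀ : ℝ), 0 < ε₀ → (∀ j, DifferentiableOn ℂ (m j) {z | -ε₀ < z.im}) →
      (∀ j z, -ε₀ < z.im → (m j z).im ≤ 0 ∧ ‖m j z‖ ≤ B / (η ^ p * (1 + ‖z‖))) →
      3 * (Finset.univ.filter fun j =>
        (∫ t in Ioi 0, darg a η (fun t => (∑ j, m j t) / (Fintype.card J + 1)) t) + e <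
          ∫ t in Ioi 0, darg a η (fun t => m j t / lam) t).card < Fintype.card J := by
  obtain ⟨η₁, hη₁, hsmall⟩ := exists_eta
    (26 + 4 * Real.pi * |B| * Real.pi + (Real.log (1 + a⁻¹) + Real.log (1 + a))) (p + 2) he
  refine ⟨min η₁ (min a 1), by positivity, fun η hη hle J _ _ m ε₀ hε₀ hd hb => ?_⟩
  have hη1 : η ≤ η₁ := hle.trans (min_le_left _ _)
  have hηa : η ≤ a := hle.trans ((min_le_right _ _).trans (min_le_left _ _))
  have hη2 : η ≤ 1 := hle.trans ((min_le_right _ _).trans (min_le_right _ _))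
  have hp : 0 < η ^ p := by positivity
  obtain ⟨j₀⟩ := ‹Nonempty J›
  have hB : 0 ≤ B := by
    have := (norm_nonneg _).trans (hb j₀ 0 (by simpa using hε₀)).2
    by_contra k
    exact absurd this (not_le.2 (div_neg_of_neg_of_pos (not_le.1 k) (by positivity)))
  set I := ∫ t in Ioi 0, darg a η (fun t => (∑ j, m j t) / (Fintype.card J + 1)) t with hI
  set δ := 8 / Real.pi * (max I 0 + 5 * η) + 2 * η with hδ
  have hpi := Real.pi_pos
  have hI0 := le_max_right I 0
  have hδ2 : 2 * η ≤ δ := by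
    have : 0 ≤ 8 / Real.pi * (max I 0 + 5 * η) := by positivity
    linarith
  have hδ0 : 0 < δ := by linarith
  have hπδ : Real.pi * δ / 8 = max I 0 + 5 * η + Real.pi * η / 4 := by
    rw [hδ]; field_simp; ring
  set T := (η ^ (p + 1))⁻¹ with hT
  have hT0 : 0 < T := by positivity
  have hC : 0 ≤ B / η ^ p := by positivity
  obtain ⟨ε₁, hε₁, hlow⟩ := sel_lower (B := 2 * (B / η ^ p)) ha hη hηa hδ2
  obtain ⟨ε₂, hε₂, hup⟩ := sel_upper (B := 2 * (B / η ^ p)) (δ := δ / 16) ha hη hηa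
    (by positivity) hT0
  set ε := min (min (ε₀ / 2) 1) (min ε₁ ε₂) with hεdef
  have hε : 0 < ε := by positivity
  have e1 : ε < ε₀ := lt_of_le_of_lt ((min_le_left _ _).trans (min_le_left _ _)) (by linarith)
  have e2 : ε ≤ 1 := (min_le_left _ _).trans (min_le_right _ _)
  have e3 : ε ≤ ε₁ := (min_le_right _ _).trans (min_le_left _ _)
  have e4 : ε ≤ ε₂ := (min_le_right _ _).trans (min_le_right _ _)
  have hb' : ∀ j (z : ℂ), -ε₀ < z.im → (m j z).im ≤ 0 ∧ ‖m j z‖ ≤ B / η ^ p / (1 + ‖z‖) := by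
    intro j z hz
    rw [div_div]; exact hb j z hz
  choose ν hfin hmass hrep using fun j => exists_rep hε e1 e2 hC (hd j) (hb' j)
  have hN : (0 : ℝ) < Fintype.card J + 1 := by positivity
  let c : NNReal := ⟨(Fintype.card J + 1 : ℝ)⁻¹, by positivity⟩
  have hc : (c : ℝ) = (Fintype.card J + 1 : ℝ)⁻¹ := rfl
  have havg : (fun t : ℝ => (∑ j, m j t) / (Fintype.card J + 1)) = ctl (c • ∑ j, ν j) ε := by
    funext t
    rw [ctl_smul, ctl_sum ν t hε, hc, div_eq_inv_mul]
    simp only [hrep]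
    push_cast
    rfl
  have hIpos : 0 ≤ I := by rw [hI, havg]; exact darg_Ioi_nonneg _ a 0 hη hε
  rw [max_eq_left hIpos] at hπδ
  have hmass' : (c • ∑ j, ν j).real univ ≤ 2 * (B / η ^ p) := by
    rw [real_univ_eq, avg_integral ν c (fun j => integrable_const _), hc,
      inv_mul_le_iff₀ hN]
    simp only [← real_univ_eq]
    have := Finset.sum_le_card_nsmul Finset.univ (fun j => (ν j).real univ) _
      (fun j _ => hmass j)
    rw [Finset.card_univ, nsmul_eq_mul] at this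
    nlinarith
  have hsum : ∑ j, ∫ u, selK a δ u ∂(ν j) < 4 * (Fintype.card J + 1) := by
    by_contra k
    have k1 : 4 ≤ ∫ u, selK a δ u ∂(c • ∑ j, ν j) := by
      rw [avg_integral ν c (fun j => selK_integrable ha hδ0 _), hc, le_inv_mul_iff₀ hN]
      linarith [not_lt.1 k]
    have k2 := hlow ε hε e3 _ hmass' k1
    rw [← havg, ← hI, hπδ] at k2
    have : 0 < Real.pi * η / 4 := by positivity
    linarith
  refine markov (fun j => ∫ u, selK a δ u ∂(ν j))
    (fun j => integral_nonneg fun u => (selK_pos ha hδ0 u).le) hsum _ (fun j hj => ?_)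
  by_contra k
  have k : ∫ u, selK a δ u ∂(ν j) ≤ 24 := not_lt.1 k
  have hj := (Finset.mem_filter.1 hj).2
  let l : NNReal := ⟨(24576 : ℝ)⁻¹, by positivity⟩
  have hl : (l : ℝ) = (24576 : ℝ)⁻¹ := rfl
  have hm : (fun t : ℝ => m j t / (lam : ℝ)) = ctl (l • ν j) ε := by
    funext t
    rw [ctl_smul, hl, hrep, lam, div_eq_inv_mul]
    push_cast
    rfl
  have m0 : 0 ≤ (ν j).real univ := measureReal_nonneg
  have k1 : (l • ν j).real univ ≤ 2 * (B / η ^ p) := by
    rw [real_univ_eq, integral_smul_nnreal_measure, ← real_univ_eq, NNReal.smul_def, hl,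
      smul_eq_mul]
    linarith [hmass j]
  have k2 : ∫ u, selK a (δ / 16) u ∂(l • ν j) ≤ 1 / 4 := by
    rw [integral_smul_nnreal_measure, NNReal.smul_def, hl, smul_eq_mul]
    have := integral_mono (selK_integrable ha (show 0 < δ / 16 by positivity) (ν j))
      ((selK_integrable ha hδ0 (ν j)).const_mul 256) (fun u => selK_div ha hδ0 u)
    rw [integral_const_mul] at this
    linarith
  have k3 := hup ε hε e4 _ k1 k2
  have k4 := tail_le (l • ν j) ha hη hε hT0 hC (fun t ht => by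
    have := (hb' j t (by simpa using hε₀)).2
    rw [Complex.norm_real, Real.norm_eq_abs, abs_of_pos ht] at this
    rw [ctl_smul, ← hrep, norm_mul, Complex.norm_real, hl, Real.norm_eq_abs,
      abs_of_pos (by positivity)]
    linarith [norm_nonneg (m j t)])
  have k5 := darg_Ioi_split (l • ν j) a hη hε hT0.le
  have k6 : 4 * Real.pi * (B / η ^ p) / T * Real.pi = η * (4 * Real.pi * |B| * Real.pi) := by
    rw [hT, abs_of_nonneg hB, pow_succ]; field_simp
  have k7 := mul_le_mul_of_nonneg_left (log_budget p ha hη hη2) hη.le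
  have k8 := hsmall η hη hη1
  have k9 : Real.pi * η ≤ 4 * η := mul_le_mul_of_nonneg_right Real.pi_le_four hη.le
  rw [hm, k5] at hj
  rw [k6] at k4
  rw [← hT] at k7
  linarith

end Vale.Agent.P078
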