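import Vale.Agent.P078.Tame
import Vale.Agent.P078.Sel
import Vale.Agent.P078.Barrier

/-! Weighted networks, states, the potential density (definitions and basic lemmas). -/

namespace Vale.Agent.P078

open Finset MeasureTheory
open scoped ComplexOrder

universe u

/-- a bounded degree network with a Hermitian contraction and vertex weights -/
structure Net (V : Type u) (D : ℕ) (K : ℝ) where
  nbr : V → Finset V
  x : V → V → ℂ
  w : V → ℝ
  card_le : ∀ v, (nbr v).card ≤ D
  symm : ∀ u v, u ∈ nbr v → v ∈ nbr u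
  herm : ∀ a b, x b a = star (x a b)
  diag : ∀ a, x a a = 0
  supp : ∀ a b, x a b ≠ 0 → a ∈ nbr b
  contr : ∀ U, ContrOn x U
  wpos : ∀ a, 0 < w a
  ratio : ∀ a b, a ∈ nbr b → w a ≤ K * w b

variable {V : Type u} [DecidableEq V] {D : ℕ} {K : ℝ}

/-- balls -/
def Net.ball (N : Net V D K) (v : V) : ℕ → Finset V
  | 0 => {v}
  | n + 1 => N.ball v n ∪ (N.ball v n).biUnion N.nbr

/-- states of a vertex (`none` = not yet coloured); also the index set of the copies
(`none` = the diagonal copy) -/
abbrev St (r : ℕ) := Option (ZMod r)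

/-- weights attached to a state -/
noncomputable def wtS {r : ℕ} (s : St r) (i : St r) : ℂ :=
  match s with
  | none => 1
  | some j => if i = some j then 1 else if i = none then (lam : ℂ) - 1 else 0

/-- the copies -/
noncomputable def Ycop {r : ℕ} (σ : ℝ) (x : V → V → ℂ) : St r → V → V → ℂ :=
  fun i a b => if i = none then 0 else σ * x a b

/-- potential density at `u` computed in `W` -/
noncomputable def dens {r : ℕ} [NeZero r] (N : Net V D K) (σ : ℝ) (ζ : ℂ) (π : V → St r)
    (W : Finset V) (u : V) : ℝ :=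
  ∫ t in Set.Ioi (0 : ℝ), t * ((ζ + t)⁻¹ -
    GT (fun v => wtS (π v)) (Ycop σ N.x) N.w ζ W ((t * N.w u : ℝ) : ℂ) u).im

/-- both signs -/
noncomputable def dens2 {r : ℕ} [NeZero r] (N : Net V D K) (ζ : ℂ) (π : V → St r)
    (W : Finset V) (u : V) : ℝ := dens N 1 ζ π W u + dens N (-1) ζ π W u

/-- change of the total weighted potential of `W` when `o` gets colour `j` -/
noncomputable def gain {r : ℕ} [NeZero r] (N : Net V D K) (ζ : ℂ) (π : V → St r)
    (W : Finset V) (o : V) (j : ZMod r) : ℝ :=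
  ∑ u ∈ W, N.w u * (dens2 N ζ (Function.update π o (some j)) W u - dens2 N ζ π W u)

/-- the pinched matrix -/
noncomputable def pinch {r : ℕ} (N : Net V D K) (π : V → St r) (a b : V) : ℂ :=
  if π a = π b ∧ π a ≠ none then N.x a b else 0

/-- `walk N π o k v = (pinch ^ k) v o` -/
noncomputable def walk {r : ℕ} (N : Net V D K) (π : V → St r) (o : V) : ℕ → V → ℂ
  | 0 => fun v => if v = o then 1 else 0
  | k + 1 => fun v => ∑ u ∈ N.nbr v, pinch N π v u * walk N π o k u

namespace Net

lemma mem_ball_self (N : Net V D K) (v : V) (n : ℕ) : v ∈ N.ball v n := by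
  induction n with
  | zero => simp [ball]
  | succ n ih => exact Finset.mem_union_left _ ih

lemma ball_mono (N : Net V D K) (v : V) {m n : ℕ} (h : m ≤ n) : N.ball v m ⊆ N.ball v n := by
  induction h with
  | refl => exact subset_rfl
  | step _ ih => exact ih.trans Finset.subset_union_left

lemma mem_ball_succ (N : Net V D K) {u v : V} {n : ℕ} :
    u ∈ N.ball v (n + 1) ↔ u ∈ N.ball v n ∨ ∃ y ∈ N.ball v n, u ∈ N.nbr y := by
  simp only [ball, Finset.mem_union, Finset.mem_biUnion]

lemma ball_trans' (N : Net V D K) {u v z : V} {m n : ℕ} (h : u ∈ N.ball v m)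
    (h' : z ∈ N.ball u n) : z ∈ N.ball v (m + n) := by
  induction n generalizing z with
  | zero => simp only [ball, Finset.mem_singleton] at h'; subst h'; exact h
  | succ n ih =>
    rcases N.mem_ball_succ.1 h' with k | ⟨y, hy, k⟩
    · exact N.mem_ball_succ.2 (Or.inl (ih k))
    · exact N.mem_ball_succ.2 (Or.inr ⟨y, ih hy, k⟩)

lemma mem_ball_comm (N : Net V D K) {u v : V} {n : ℕ} : u ∈ N.ball v n ↔ v ∈ N.ball u n := by
  have key : ∀ (n : ℕ) (u v : V), u ∈ N.ball v n → v ∈ N.ball u n := by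
    intro n
    induction n with
    | zero => intro u v h; simp only [ball, Finset.mem_singleton] at h ⊢; exact h.symm
    | succ n ih =>
      intro u v h
      rcases N.mem_ball_succ.1 h with h | ⟨y, hy, h⟩
      · exact Finset.mem_union_left _ (ih u v h)
      · have h1 : y ∈ N.ball u 1 :=
          N.mem_ball_succ.2 (Or.inr ⟨u, N.mem_ball_self u 0, N.symm _ _ h⟩)
        have := N.ball_trans' h1 (ih y v hy)
        rwa [Nat.add_comm] at this
  exact ⟨key n u v, key n v u⟩

lemma ball_trans (N : Net V D K) {u v z : V} {m n : ℕ} (h : u ∈ N.ball v m) (h' : z ∈ N.ball u n) :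
    z ∈ N.ball v (m + n) := by
  exact N.ball_trans' h h'

lemma card_ball (N : Net V D K) (v : V) (n : ℕ) : (N.ball v n).card ≤ (D + 1) ^ n := by
  induction n with
  | zero => simp [ball]
  | succ n ih =>
    have h1 : ((N.ball v n).biUnion N.nbr).card ≤ (N.ball v n).card * D :=
      Finset.card_biUnion_le_card_mul _ _ _ fun a _ => N.card_le a
    calc (N.ball v (n + 1)).card ≤ (N.ball v n).card + (N.ball v n).card * D :=
          (Finset.card_union_le _ _).trans (Nat.add_le_add_left h1 _)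
      _ = (N.ball v n).card * (D + 1) := by ring
      _ ≤ (D + 1) ^ n * (D + 1) := Nat.mul_le_mul_right _ ih
      _ = _ := by ring

lemma w_le (N : Net V D K) (hK : 1 ≤ K) {u v : V} {n : ℕ} (h : u ∈ N.ball v n) :
    N.w u ≤ K ^ n * N.w v := by
  induction n generalizing u with
  | zero => simp only [ball, Finset.mem_singleton] at h; subst h; simp
  | succ n ih =>
    have h0 : 0 ≤ K ^ n * N.w v := mul_nonneg (by positivity) (N.wpos v).le
    rcases N.mem_ball_succ.1 h with h | ⟨y, hy, h⟩
    · refine (ih h).trans ?_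
      rw [pow_succ]; nlinarith
    · refine (N.ratio _ _ h).trans ?_
      rw [pow_succ', mul_assoc]
      exact mul_le_mul_of_nonneg_left (ih hy) (by linarith)

/-- truncated distance from `o` -/
lemma exists_layer (N : Net V D K) (o : V) (n : ℕ) :
    ∃ ℓ : V → ℕ, ℓ o = 0 ∧ (∀ a b, a ∈ N.nbr b → ℓ a ≤ ℓ b + 1) ∧
      ∀ v m, m ≤ n → (ℓ v ≤ m ↔ v ∈ N.ball o m) := by
  classical
  have ex : ∀ v, ∃ m, v ∈ N.ball o m ∨ n + 1 ≤ m := fun v => ⟨n + 1, Or.inr le_rfl⟩
  refine ⟨fun v => Nat.find (ex v), ?_, fun a b h => ?_, fun v m hm => ?_⟩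
  · exact (Nat.find_eq_zero _).2 (Or.inl (N.mem_ball_self o 0))
  · refine Nat.find_min' _ ?_
    rcases Nat.find_spec (ex b) with k | k
    · exact Or.inl (N.mem_ball_succ.2 (Or.inr ⟨b, k, h⟩))
    · exact Or.inr (Nat.le_succ_of_le k)
  · rw [Nat.find_le_iff]
    constructor
    · rintro ⟨k, hk, h | h⟩
      · exact N.ball_mono o hk h
      · omega
    · exact fun h => ⟨m, le_rfl, Or.inl h⟩

lemma norm_x_le (N : Net V D K) (a b : V) : ‖N.x a b‖ ≤ 1 := by
  by_cases hab : a = b
  · subst hab; simp [N.diag]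
  have h := N.contr {a, b} (fun v => if v = a then N.x a b else (‖N.x a b‖ : ℂ))
  have hba : b ≠ a := Ne.symm hab
  simp only [qform, Finset.sum_pair hab, if_true, if_neg hba, N.diag, N.herm a b] at h
  have e : star (N.x a b) * 0 * N.x a b + star (N.x a b) * N.x a b * (‖N.x a b‖ : ℂ) +
      (star (‖N.x a b‖ : ℂ) * star (N.x a b) * N.x a b +
        star (‖N.x a b‖ : ℂ) * 0 * (‖N.x a b‖ : ℂ)) = ((2 * ‖N.x a b‖ ^ 3 : ℝ) : ℂ) := by
    have := Complex.conj_mul' (N.x a b)
    simp only [RCLike.star_def, Complex.conj_ofReal]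
    push_cast
    linear_combination (2 * (‖N.x a b‖ : ℂ)) * this
  rw [e, Complex.norm_real, Complex.norm_real, norm_norm, Real.norm_of_nonneg (by positivity)] at h
  by_contra hlt
  push Not at hlt
  nlinarith [mul_pos (sub_pos.2 hlt) (pow_pos (zero_lt_one.trans hlt) 2)]

lemma tame (N : Net V D K) {r : ℕ} {σ : ℝ} (hσ : |σ| = 1) (W : Finset V) :
    Tame ((D : ℝ) + 1) K N.w (Ycop (r := r) σ N.x) W := by
  refine ⟨fun i a b => ?_, fun i a => ?_, fun i a _ => ?_, N.wpos, fun i a b h => ?_⟩
  · simp only [Ycop]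
    split_ifs
    · simp
    · rw [N.herm a b]; simp
  · simp [Ycop, N.diag]
  · calc ∑ b ∈ W, ‖Ycop (r := r) σ N.x i a b‖ ≤ ∑ b ∈ W, if b ∈ N.nbr a then (1 : ℝ) else 0 := by
          refine Finset.sum_le_sum fun b _ => ?_
          have h1 : ‖Ycop (r := r) σ N.x i a b‖ ≤ ‖N.x a b‖ := by
            simp only [Ycop]
            split_ifs
            · simp
            · rw [norm_mul, Complex.norm_real, Real.norm_eq_abs, hσ, one_mul]
          split_ifs with hb
          · exact h1.trans (N.norm_x_le a b)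
          · refine h1.trans (le_of_eq (norm_eq_zero.2 ?_))
            by_contra h
            exact hb (N.symm _ _ (N.supp _ _ h))
      _ ≤ (D : ℝ) + 1 := by
          rw [Finset.sum_boole]
          have : (W.filter (· ∈ N.nbr a)).card ≤ D :=
            (Finset.card_le_card fun b hb => (Finset.mem_filter.1 hb).2).trans (N.card_le a)
          have : ((W.filter (· ∈ N.nbr a)).card : ℝ) ≤ D := by exact_mod_cast this
          linarith
  · refine N.ratio _ _ (N.supp _ _ fun k => h ?_)
    simp [Ycop, k]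

end Net

lemma posW_wtS {r : ℕ} [NeZero r] (π : V → St r) (W : Finset V) :
    PosW (fun v => wtS (π v)) W := by
  intro v _
  have h0 : ∀ i, 0 ≤ wtS (π v) i := by
    intro i
    cases π v with
    | none => exact zero_le_one
    | some j =>
      simp only [wtS]
      split_ifs
      · exact zero_le_one
      · have : ((lam : ℂ) - 1) = ((lam - 1 : ℝ) : ℂ) := by push_cast; rfl
        rw [this, Complex.zero_le_real, lam]; norm_num
      · exact le_rfl
  refine ⟨h0, Finset.sum_pos' (fun i _ => h0 i) ⟨π v, Finset.mem_univ _, ?_⟩⟩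
  show 0 < wtS (π v) (π v)
  cases π v with
  | none => simp [wtS]
  | some j => simp [wtS]

lemma dens_congr {r : ℕ} [NeZero r] (N : Net V D K) (σ : ℝ) (ζ : ℂ) {π π' : V → St r}
    {W : Finset V} {u : V} (hu : u ∈ W) (h : ∀ v ∈ W, π v = π' v) :
    dens N σ ζ π W u = dens N σ ζ π' W u := by
  unfold dens GT
  congr 1
  funext t
  rw [G_congr hu (fun v hv => by rw [h v hv]) (fun _ _ _ _ _ => rfl)]

/-- invariance under relabelling of vertices, gauge, and rescaling of the weights -/
lemma dens_image {r : ℕ} [NeZero r] (N N' : Net V D K) (σ : ℝ) (ζ : ℂ) (π : V → St r)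
    {W : Finset V} {u : V} (hu : u ∈ W) (f : V → V) (hf : Set.InjOn f W) (g : V → ℂ)
    (hg : ∀ v, ‖g v‖ = 1) (hx : ∀ a ∈ W, ∀ b ∈ W, N.x (f a) (f b) = g a * N'.x a b * star (g b))
    {c : ℝ} (hw : ∀ a ∈ W, N.w (f a) = c * N'.w a) :
    dens N σ ζ π (W.image f) (f u) = dens N' σ ζ (fun v => π (f v)) W u := by
  have hc : c ≠ 0 := by
    rintro rfl
    have := N.wpos (f u)
    rw [hw u hu, zero_mul] at this
    exact lt_irrefl _ this
  have hg2 : ∀ a, g a * star (g a) = 1 := fun a => by
    rw [RCLike.star_def, Complex.mul_conj', hg a]; simp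
  unfold dens GT
  congr 1
  funext t
  rw [G_image f _ _ hf hu, ← G_gauge _ (dm (zf ζ N'.w ((t * N'.w u : ℝ) : ℂ)) (Ycop σ N'.x))
    W u g hg]
  congr 3
  refine G_congr hu (fun _ _ => rfl) (fun i a ha b hb => ?_)
  have e1 : Ycop σ N.x i (f a) (f b) = g a * Ycop σ N'.x i a b * star (g b) := by
    simp only [Ycop]
    split_ifs
    · simp
    · rw [hx a ha b hb]; ring
  simp only [dm, e1]
  by_cases hab : a = b
  · subst hab
    have e2 : zf ζ N.w ((t * N.w (f u) : ℝ) : ℂ) (f a) = zf ζ N'.w ((t * N'.w u : ℝ) : ℂ) a := by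
      simp only [zf, hw u hu, hw a ha]
      have : (c : ℂ) ≠ 0 := by exact_mod_cast hc
      have : (N'.w a : ℂ) ≠ 0 := by exact_mod_cast (N'.wpos a).ne'
      push_cast
      field_simp
    simp only [if_true, e2]
    linear_combination (-zf ζ N'.w ((t * N'.w u : ℝ) : ℂ) a) * hg2 a
  · rw [if_neg hab, if_neg (fun k => hab (hf ha hb k))]; ring

/-- invariance under a cyclic shift of the colours (`G_perm`) -/
lemma dens_shift {r : ℕ} [NeZero r] (N : Net V D K) (σ : ℝ) (ζ : ℂ) (π : V → St r)
    (W : Finset V) (u : V) (g : ZMod r) :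
    dens N σ ζ (fun v => (π v).map (· + g)) W u = dens N σ ζ π W u := by
  unfold dens GT
  congr 1
  funext t
  rw [← G_perm (Equiv.optionCongr (Equiv.subRight g)) (fun v => wtS (π v))]
  congr 4
  · funext v i
    beta_reduce
    cases π v with
    | none => rfl
    | some j =>
      cases i with
      | none => simp [wtS]
      | some i => simp [wtS, sub_eq_iff_eq_add]
  · funext i
    cases i with
    | none => rfl
    | some i => rfl

lemma dens_meas {r : ℕ} [NeZero r] (N : Net V D K) (σ : ℝ) (ζ : ℂ) (π : V → St r)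
    (W : Finset V) (u : V) : Measurable fun t : ℝ => t * ((ζ + t)⁻¹ -
      GT (fun v => wtS (π v)) (Ycop σ N.x) N.w ζ W ((t * N.w u : ℝ) : ℂ) u).im := by
  have hQ : ∀ W' : Finset V, Continuous fun t : ℝ => Q (fun v => wtS (π v))
      (dm (zf ζ N.w ((t * N.w u : ℝ) : ℂ)) (Ycop (r := r) σ N.x)) W' R0 := fun W' =>
    continuous_iff_continuousAt.2 fun s => Q_continuousAt (β := fun _ v => wtS (π v)) W' R0
      (fun _ _ => continuousAt_const) (fun i a' b' => by
        simp only [dm, zf]
        split_ifs <;> fun_prop)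
  refine measurable_id.mul (Complex.measurable_im.comp (Measurable.sub ?_ ?_))
  · exact (continuous_const.add Complex.continuous_ofReal).measurable.inv
  · exact (continuous_const.mul (hQ _)).measurable.div (hQ _).measurable

lemma dens_ptw {a η : ℝ} (ha : 0 < a) (hη : 0 < η) (hη1 : η ≤ 1) (D : ℕ) {K : ℝ} (hK : 1 ≤ K) :
    ∃ B ≥ 0, ∀ (V : Type u) [DecidableEq V] (r : ℕ) [NeZero r] (N : Net V D K) (σ : ℝ)
      (π : V → St r) (W : Finset V) (u : V), |σ| = 1 → u ∈ W → ∀ t : ℝ, 0 ≤ t →
      ‖t * ((a + η * Complex.I + t)⁻¹ - GT (fun v => wtS (π v))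
        (Ycop σ N.x) N.w (a + η * Complex.I) W ((t * N.w u : ℝ) : ℂ) u).im‖ ≤
        B * (1 + t ^ 2)⁻¹ := by
  obtain ⟨B, hB, h⟩ := tame_bound.{u} (D := (D : ℝ) + 1) ha (by positivity) hK
  refine ⟨B / η ^ 3, by positivity, fun V _ r _ N σ π W u hσ hu t ht => ?_⟩
  have h1 := h η hη hη1 V (St r) (fun v => wtS (π v)) (Ycop σ N.x) N.w W u (t * N.w u)
    (posW_wtS π W) (N.tame hσ W) hu (mul_nonneg ht (N.wpos u).le)
  have e1 : t * N.w u / N.w u = t := mul_div_cancel_right₀ t (N.wpos u).ne'
  have e2 : ((t * N.w u : ℝ) : ℂ) / N.w u = t := by rw [← Complex.ofReal_div, e1]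
  rw [e1, e2, norm_sub_rev] at h1
  rw [norm_mul, Real.norm_of_nonneg ht, Real.norm_eq_abs]
  refine (mul_le_mul_of_nonneg_left ((Complex.abs_im_le_norm _).trans h1) ht).trans ?_
  have : t / (1 + t) ^ 3 ≤ (1 + t ^ 2)⁻¹ := by
    rw [← one_div, div_le_div_iff₀ (by positivity) (by positivity)]
    nlinarith [sq_nonneg t]
  calc t * (B / (η ^ 3 * (1 + t) ^ 3)) = B / η ^ 3 * (t / (1 + t) ^ 3) := by field_simp
    _ ≤ _ := mul_le_mul_of_nonneg_left this (by positivity)

/-- integrability and a uniform bound (`tame_bound`) -/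
lemma dens_bound {a η : ℝ} (ha : 0 < a) (hη : 0 < η) (hη1 : η ≤ 1) (D : ℕ) {K : ℝ} (hK : 1 ≤ K) :
    ∃ C ≥ 0, ∀ (V : Type u) [DecidableEq V] (r : ℕ) [NeZero r] (N : Net V D K) (σ : ℝ)
      (π : V → St r) (W : Finset V) (u : V), |σ| = 1 → u ∈ W →
      IntegrableOn (fun t : ℝ => t * ((a + η * Complex.I + t)⁻¹ - GT (fun v => wtS (π v))
        (Ycop σ N.x) N.w (a + η * Complex.I) W ((t * N.w u : ℝ) : ℂ) u).im) (Set.Ioi 0) ∧
      |dens N σ (a + η * Complex.I) π W u| ≤ C := by
  obtain ⟨B, hB, h⟩ := dens_ptw.{u} ha hη hη1 D hK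
  have hi : IntegrableOn (fun t : ℝ => B * (1 + t ^ 2)⁻¹) (Set.Ioi 0) :=
    (integrable_inv_one_add_sq.const_mul B).integrableOn
  refine ⟨∫ t in Set.Ioi (0 : ℝ), B * (1 + t ^ 2)⁻¹,
    integral_nonneg fun t => by positivity, fun V _ r _ N σ π W u hσ hu => ?_⟩
  have hb : ∀ᵐ t ∂(volume.restrict (Set.Ioi (0 : ℝ))), _ :=
    (ae_restrict_mem measurableSet_Ioi).mono fun t ht => h V r N σ π W u hσ hu t (le_of_lt ht)
  exact ⟨hi.mono' (dens_meas N σ _ π W u).aestronglyMeasurable hb,
    norm_integral_le_of_norm_le hi hb⟩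

lemma dens_continuous_aux {a η : ℝ} (ha : 0 < a) (hη : 0 < η) (hη1 : η ≤ 1) (hK : 1 ≤ K)
    {r : ℕ} [NeZero r] {T : Type*} [TopologicalSpace T] [FirstCountableTopology T]
    (N : T → Net V D K) {W : Finset V}
    (hx : ∀ a ∈ W, ∀ b ∈ W, Continuous fun s => (N s).x a b)
    (hw : ∀ a ∈ W, Continuous fun s => (N s).w a)
    {σ : ℝ} (hσ : |σ| = 1) (π : V → St r) {u : V} (hu : u ∈ W) :
    Continuous fun s => dens (N s) σ (a + η * Complex.I) π W u := by
  obtain ⟨B, hB, h⟩ := dens_ptw.{u} ha hη hη1 D hK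
  have hi : IntegrableOn (fun t : ℝ => B * (1 + t ^ 2)⁻¹) (Set.Ioi 0) :=
    (integrable_inv_one_add_sq.const_mul B).integrableOn
  refine continuous_of_dominated (bound := fun t : ℝ => B * (1 + t ^ 2)⁻¹)
    (fun s => (dens_meas (N s) σ _ π W u).aestronglyMeasurable)
    (fun s => (ae_restrict_mem measurableSet_Ioi).mono fun t ht =>
      h V r (N s) σ π W u hσ hu t (le_of_lt ht)) hi (Filter.Eventually.of_forall fun t => ?_)
  refine continuous_const.mul (Complex.continuous_im.comp (continuous_const.sub ?_))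
  have hX : ∀ i, ∀ a' ∈ W, ∀ b' ∈ W, Continuous fun s => dm (zf (a + η * Complex.I) (N s).w
      ((t * (N s).w u : ℝ) : ℂ)) (Ycop (r := r) σ (N s).x) i a' b' := by
    intro i a' ha' b' hb'
    simp only [dm, zf, Ycop]
    refine Continuous.sub ?_ ?_
    · split_ifs
      · refine continuous_const.add (Continuous.div ?_ ?_ fun s => ?_)
        · exact Complex.continuous_ofReal.comp (continuous_const.mul (hw u hu))
        · exact Complex.continuous_ofReal.comp (hw a' ha')
        · exact_mod_cast ((N s).wpos a').ne'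
      · exact continuous_const
    · split_ifs
      · exact continuous_const
      · exact continuous_const.mul (hx a' ha' b' hb')
  have hQ : ∀ W' : Finset V, W' ⊆ W → Continuous fun s => Q (fun v => wtS (π v))
      (dm (zf (a + η * Complex.I) (N s).w ((t * (N s).w u : ℝ) : ℂ))
        (Ycop (r := r) σ (N s).x)) W' R0 := by
    intro W' hW'
    have : Continuous fun s => Q (fun v => wtS (π v))
        (fun i a' b' => if a' ∈ W ∧ b' ∈ W then
          dm (zf (a + η * Complex.I) (N s).w ((t * (N s).w u : ℝ) : ℂ))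
            (Ycop (r := r) σ (N s).x) i a' b' else 0) W' R0 :=
      continuous_iff_continuousAt.2 fun s => Q_continuousAt (β := fun _ v => wtS (π v)) W' R0
        (fun _ _ => continuousAt_const) (fun i a' b' => by
          split_ifs with k
          · exact (hX i a' k.1 b' k.2).continuousAt
          · exact continuousAt_const)
    refine this.congr fun s => Q_congr (fun _ _ => rfl) fun i a' ha' b' hb' => ?_
    simp only [R0, Finset.union_empty] at ha' hb'
    rw [if_pos ⟨hW' ha', hW' hb'⟩]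
  refine (continuous_const.mul (hQ _ (Finset.erase_subset _ _))).div (hQ _ subset_rfl) fun s => ?_
  refine Q_ne_zero (posW_wtS π W) (fun _ => by simp [R0])
    (fun i => ImGe_dm ((N s).tame hσ W).herm _ _ i) (fun i v _ => ?_)
  simp only [zf, ← Complex.ofReal_div]
  simpa using hη

/-- continuity in a parameter (dominated convergence) -/
lemma dens_continuous {a η : ℝ} (ha : 0 < a) (hη : 0 < η) (hη1 : η ≤ 1) (hK : 1 ≤ K)
    {r : ℕ} [NeZero r] {T : Type*} [TopologicalSpace T] (N : T → Net V D K)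
    (hx : ∀ a b, Continuous fun s => (N s).x a b) (hw : ∀ a, Continuous fun s => (N s).w a)
    {σ : ℝ} (hσ : |σ| = 1) (π : V → St r) {W : Finset V} {u : V} (hu : u ∈ W) :
    Continuous fun s => dens (N s) σ (a + η * Complex.I) π W u := by
  let φ : T → (W → W → ℂ) × (W → ℝ) := fun s => (fun a b => (N s).x a b, fun a => (N s).w a)
  have hφ : Continuous φ :=
    (continuous_pi fun a : W => continuous_pi fun b : W => hx a b).prodMk
      (continuous_pi fun a : W => hw a)
  refine continuous_le_dom hφ.le_induced ?_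
  letI : TopologicalSpace T := TopologicalSpace.induced φ inferInstance
  haveI : FirstCountableTopology T := TopologicalSpace.firstCountableTopology_induced T _ φ
  have h0 : Continuous φ := continuous_induced_dom
  refine dens_continuous_aux ha hη hη1 hK N (fun a ha b hb => ?_) (fun a ha => ?_) hσ π hu
  · exact (continuous_apply (⟨b, hb⟩ : W)).comp ((continuous_apply (⟨a, ha⟩ : W)).comp h0.fst)
  · exact (continuous_apply (⟨a, ha⟩ : W)).comp h0.snd

end Vale.Agent.P078
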