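import Vale.Agent.P078.Net
import Vale.Agent.P078.NetABAux

/-! Near and far contributions to the change of the potential. -/

namespace Vale.Agent.P078

open Finset MeasureTheory

universe u

namespace NetABAux

open scoped ComplexOrder

lemma env_nonneg {ε C t : ℝ} (hε : 0 ≤ ε) (hC : 0 ≤ C) (ht : 0 ≤ t) : 0 ≤ env ε C t :=
  le_min hε (by positivity)

/-- far part -/
lemma far {a η e : ℝ} (ha : 0 < a) (hη : 0 < η) (hη1 : η ≤ 1) (he : 0 < e) (D : ℕ) {K : ℝ}
    (hK : 1 ≤ K) (r : ℕ) [NeZero r] :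
    ∃ R : ℕ, ∀ L n, R ≤ L → L ≤ n → ∀ (V : Type u) [DecidableEq V] (N : Net V D K)
      (π : V → St r) (o : V), N.w o = 1 → ∀ (j : ZMod r) (σ : ℝ), |σ| = 1 →
      ∑ v ∈ (N.ball o n \ N.ball o L).filter (fun v => π v = none),
        |dens N σ (a + η * Complex.I) (Function.update π v (some j)) (N.ball o n) o -
          dens N σ (a + η * Complex.I) π (N.ball o n) o| ≤ e := by
  have hlam : (1 : ℝ) ≤ lam := by norm_num [lam]
  have hΛ : (1 : ℝ) ≤ lam + r + 1 := by
    have : (0 : ℝ) ≤ r := Nat.cast_nonneg r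
    linarith
  obtain ⟨C, hC, h⟩ := tame_col.{u} (D := (D : ℝ) + 1) ha hη hη1 (by positivity) hK hΛ
  obtain ⟨ε, hε, hint⟩ := env_small hC he
  obtain ⟨R, hR⟩ := h ε hε
  refine ⟨R, fun L n hRL hLn V _ N π o hw j σ hσ => ?_⟩
  obtain ⟨ℓ, hℓ0, hℓ1, hℓ2⟩ := N.exists_layer o n
  have ho := N.mem_ball_self o n
  set T := (N.ball o n \ N.ball o L).filter (fun v => π v = none) with hT
  refine le_trans (sum_abs_integral_sub_le T
    (fun v => ft N σ (a + η * Complex.I) (Function.update π v (some j)) (N.ball o n) o)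
    (fun _ => ft N σ (a + η * Complex.I) π (N.ball o n) o) _
    (fun v _ => ft_integrable ha hη hη1 hK N hσ _ ho)
    (fun v _ => ft_integrable ha hη hη1 hK N hσ _ ho) (env_integrableOn hε.le hC) ?_) hint
  intro t ht
  have key := hR V (St r) (fun v => wtS (π v)) (fun _ => wtS (some j)) (Ycop σ N.x) N.w
    (N.ball o n) T ℓ o (t * N.w o) (posW_wtS π _) (posW_wtS (fun _ => some j) _)
    (N.tame hσ _) (fun i a b h => hℓ1 a b (Ycop_supp N σ h)) hℓ0 ho
    (by rw [hw]; positivity) ((filter_subset _ _).trans sdiff_subset)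
    (fun v hv => by
      have h1 := (mem_sdiff.mp (mem_filter.mp hv).1).2
      have h2 := mt (hℓ2 v L hLn).mp h1
      omega)
    (fun v hv i => by
      rw [(mem_filter.mp hv).2]
      have hr : (0 : ℝ) ≤ r := Nat.cast_nonneg r
      simp only [wtS, mul_one]
      split_ifs
      · exact_mod_cast hΛ
      · have : lam - 1 ≤ lam + r + 1 := by linarith
        exact_mod_cast this
      · have : (0 : ℝ) ≤ lam + r + 1 := by linarith
        exact_mod_cast this)
    (fun v hv => by
      have e1 : bsum (fun v => wtS (π v)) v = (r : ℂ) + 1 := by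
        have := bsum_none (r := r) v
        simp only [bsum] at this ⊢
        rwa [(mem_filter.mp hv).2]
      have e2 : bsum (fun _ : V => wtS (some j)) v = (lam : ℂ) := by
        have := sum_wtS_some j fun _ => 1
        simp only [mul_one] at this
        simp only [bsum, this]; ring
      rw [e1, e2]
      have hr : (0 : ℝ) ≤ r := Nat.cast_nonneg r
      have : (r : ℝ) + 1 ≤ (lam + r + 1) * lam := by nlinarith
      exact_mod_cast this)
  rw [mul_div_cancel_right₀ t (N.wpos o).ne'] at key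
  calc _ ≤ ∑ v ∈ T, t * ‖GT (Function.update (fun v => wtS (π v)) v (wtS (some j))) (Ycop σ N.x)
          N.w (a + η * Complex.I) (N.ball o n) ((t * N.w o : ℝ) : ℂ) o -
        GT (fun v => wtS (π v)) (Ycop σ N.x) N.w (a + η * Complex.I) (N.ball o n)
          ((t * N.w o : ℝ) : ℂ) o‖ := by
        refine sum_le_sum fun v _ => ?_
        simp only [ft, wt_update]
        exact abs_mul_im_sub ht.le _ _ _
    _ ≤ t * env ε C t := by
        rw [← mul_sum]
        exact mul_le_mul_of_nonneg_left key ht.le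
    _ ≤ (1 + t) * env ε C t :=
        mul_le_mul_of_nonneg_right (by linarith) (env_nonneg hε.le hC ht.le)

/-- row tail -/
lemma tail {a η e : ℝ} (ha : 0 < a) (hη : 0 < η) (hη1 : η ≤ 1) (he : 0 < e) (D : ℕ) {K : ℝ}
    (hK : 1 ≤ K) (r : ℕ) [NeZero r] :
    ∃ R : ℕ, ∀ L n, R ≤ L → L ≤ n → ∀ (V : Type u) [DecidableEq V] (N : Net V D K)
      (π : V → St r) (o : V), N.w o = 1 → ∀ (j : ZMod r) (σ : ℝ), |σ| = 1 →
      ∑ u ∈ N.ball o n \ N.ball o L,
        |N.w u * dens N σ (a + η * Complex.I) (Function.update π o (some j)) (N.ball o n) u -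
          N.w u * dens N σ (a + η * Complex.I) π (N.ball o n) u| ≤ e := by
  obtain ⟨C, hC, h⟩ := tame_row.{u} (D := (D : ℝ) + 1) ha hη hη1 (by positivity) hK
  obtain ⟨ε, hε, hint⟩ := env_small hC he
  obtain ⟨R, hR⟩ := h ε hε
  refine ⟨R, fun L n hRL hLn V _ N π o hw j σ hσ => ?_⟩
  obtain ⟨ℓ, hℓ0, hℓ1, hℓ2⟩ := N.exists_layer o n
  have ho := N.mem_ball_self o n
  set T := N.ball o n \ N.ball o L with hT
  simp only [w_mul_dens]
  refine le_trans (sum_abs_integral_sub_le T
    (fun u => fs N σ (a + η * Complex.I) (Function.update π o (some j)) (N.ball o n) u)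
    (fun u => fs N σ (a + η * Complex.I) π (N.ball o n) u) _
    (fun v hv => fs_integrable ha hη hη1 hK N hσ _ (mem_sdiff.mp hv).1)
    (fun v hv => fs_integrable ha hη hη1 hK N hσ _ (mem_sdiff.mp hv).1)
    (env_integrableOn hε.le hC) ?_) hint
  intro t ht
  have key := hR V (St r) (fun v => wtS (π v)) (wtS (some j)) (Ycop σ N.x) N.w
    (N.ball o n) T ℓ o t (posW_wtS π _) (by rw [← wt_update]; exact posW_wtS _ _)
    (N.tame hσ _) (fun i a b h => hℓ1 a b (Ycop_supp N σ h)) hℓ0 ho ht.le sdiff_subset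
    (fun v hv => by
      have h1 := (mem_sdiff.mp hv).2
      have h2 := mt (hℓ2 v L hLn).mp h1
      omega)
  rw [hw, div_one] at key
  refine le_trans (sum_le_sum fun v _ => ?_) key
  simp only [fs, wt_update]
  exact abs_mul_im_sub (div_nonneg ht.le (N.wpos v).le) _ _ _

/-- locality -/
lemma loc {a η e : ℝ} (ha : 0 < a) (hη : 0 < η) (hη1 : η ≤ 1) (he : 0 < e) (D : ℕ) {K : ℝ}
    (hK : 1 ≤ K) (r : ℕ) [NeZero r] :
    ∃ R : ℕ, ∀ (V : Type u) [DecidableEq V] (N : Net V D K)
      (π : V → St r) (u : V) (W W' : Finset V), N.ball u R ⊆ W → N.ball u R ⊆ W' →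
      ∀ (σ : ℝ), |σ| = 1 →
        |dens N σ (a + η * Complex.I) π W u - dens N σ (a + η * Complex.I) π W' u| ≤ e := by
  obtain ⟨C, hC, h⟩ := tame_loc.{u} (D := (D : ℝ) + 1) ha hη hη1 (by positivity) hK
  obtain ⟨ε, hε, hint⟩ := env_small hC he
  obtain ⟨R, hR⟩ := h ε hε
  refine ⟨R, fun V _ N π u W W' hW hW' σ hσ => ?_⟩
  obtain ⟨ℓ, hℓ0, hℓ1, hℓ2⟩ := N.exists_layer u R
  have hu := N.mem_ball_self u R
  have := sum_abs_integral_sub_le ({()} : Finset Unit)
    (fun _ => ft N σ (a + η * Complex.I) π W u) (fun _ => ft N σ (a + η * Complex.I) π W' u) _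
    (fun v _ => ft_integrable ha hη hη1 hK N hσ _ (hW hu))
    (fun v _ => ft_integrable ha hη hη1 hK N hσ _ (hW' hu)) (env_integrableOn hε.le hC) ?_
  · rw [sum_singleton] at this
    exact this.trans hint
  intro t ht
  rw [sum_singleton]
  have key := hR V (St r) (fun v => wtS (π v)) (Ycop σ N.x) N.w W W' ℓ u (t * N.w u)
    (posW_wtS π _) (posW_wtS π _) (N.tame hσ _) (N.tame hσ _)
    (fun i a b h => hℓ1 a b (Ycop_supp N σ h)) hℓ0 (hW hu) (mul_nonneg ht.le (N.wpos u).le)
    (fun v hv => by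
      have h1 := (hℓ2 v R le_rfl).mp hv
      exact ⟨fun _ => hW' h1, fun _ => hW h1⟩)
  rw [mul_div_cancel_right₀ t (N.wpos u).ne'] at key
  calc _ ≤ _ := abs_mul_im_sub ht.le _ _ _
    _ ≤ t * env ε C t := mul_le_mul_of_nonneg_left key ht.le
    _ ≤ (1 + t) * env ε C t :=
        mul_le_mul_of_nonneg_right (by linarith) (env_nonneg hε.le hC ht.le)

end NetABAux

open NetABAux in
/-- `L` comes from `tame_row`, `tame_col`, `env_small`; then `n₀` from `tame_loc`. -/
theorem near_far {a η e : ℝ} (ha : 0 < a) (hη : 0 < η) (hη1 : η ≤ 1) (he : 0 < e) (D : ℕ) {K : ℝ}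
    (hK : 1 ≤ K) (r : ℕ) [NeZero r] :
    ∃ L n₀ : ℕ, L ≤ n₀ ∧ ∀ n, n₀ ≤ n → ∀ (V : Type u) [DecidableEq V] (N : Net V D K)
      (π : V → St r) (o : V), N.w o = 1 → ∀ j : ZMod r,
      (∑ u ∈ N.ball o L, N.w u *
          (dens2 N (a + η * Complex.I) (Function.update π o (some j)) (N.ball u n) u -
            dens2 N (a + η * Complex.I) π (N.ball u n) u) ≤
        gain N (a + η * Complex.I) π (N.ball o n) o j + e) ∧
      ∑ v ∈ (N.ball o n \ N.ball o L).filter (fun v => π v = none),
        |dens2 N (a + η * Complex.I) (Function.update π v (some j)) (N.ball o n) o -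
          dens2 N (a + η * Complex.I) π (N.ball o n) o| ≤ e := by
  obtain ⟨R₁, h₁⟩ := far.{u} ha hη hη1 (half_pos he) D hK r
  obtain ⟨R₂, h₂⟩ := tail.{u} ha hη hη1 (e := e / 4) (by positivity) D hK r
  set L := max R₁ R₂ with hL
  set M : ℝ := ((D : ℝ) + 1) ^ L * K ^ L with hM
  have hM0 : 0 < M := by positivity
  obtain ⟨R₃, h₃⟩ := loc.{u} ha hη hη1 (e := e / (8 * M)) (by positivity) D hK r
  refine ⟨L, L + R₃, by omega, fun n hn V _ N π o hw j => ⟨?_, ?_⟩⟩
  · set ζ : ℂ := a + η * Complex.I with hζ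
    set π' := Function.update π o (some j) with hπ'
    have hsub : N.ball o L ⊆ N.ball o n := N.ball_mono o (by omega)
    have e1 : gain N ζ π (N.ball o n) o j =
        ∑ u ∈ N.ball o n \ N.ball o L, N.w u * (dens2 N ζ π' (N.ball o n) u -
          dens2 N ζ π (N.ball o n) u) +
        ∑ u ∈ N.ball o L, N.w u * (dens2 N ζ π' (N.ball o n) u - dens2 N ζ π (N.ball o n) u) := by
      rw [gain, sum_sdiff hsub]
    have t1 := h₂ L n (le_max_right _ _) (by omega) V N π o hw j 1 (by simp)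
    have t2 := h₂ L n (le_max_right _ _) (by omega) V N π o hw j (-1) (by simp)
    have e2 : -(e / 2) ≤ ∑ u ∈ N.ball o n \ N.ball o L, N.w u * (dens2 N ζ π' (N.ball o n) u -
          dens2 N ζ π (N.ball o n) u) := by
      have : -(∑ u ∈ N.ball o n \ N.ball o L, (|N.w u * dens N 1 ζ π' (N.ball o n) u -
          N.w u * dens N 1 ζ π (N.ball o n) u| + |N.w u * dens N (-1) ζ π' (N.ball o n) u -
          N.w u * dens N (-1) ζ π (N.ball o n) u|)) ≤ ∑ u ∈ N.ball o n \ N.ball o L,
            N.w u * (dens2 N ζ π' (N.ball o n) u - dens2 N ζ π (N.ball o n) u) := by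
        rw [← sum_neg_distrib]
        refine sum_le_sum fun u _ => ?_
        have b1 := neg_abs_le (N.w u * dens N 1 ζ π' (N.ball o n) u -
          N.w u * dens N 1 ζ π (N.ball o n) u)
        have b2 := neg_abs_le (N.w u * dens N (-1) ζ π' (N.ball o n) u -
          N.w u * dens N (-1) ζ π (N.ball o n) u)
        simp only [dens2]
        linarith
      rw [sum_add_distrib] at this
      linarith
    have e3 : ∑ u ∈ N.ball o L, N.w u * (dens2 N ζ π' (N.ball u n) u -
          dens2 N ζ π (N.ball u n) u) ≤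
        ∑ u ∈ N.ball o L, (N.w u * (dens2 N ζ π' (N.ball o n) u - dens2 N ζ π (N.ball o n) u) +
          K ^ L * (e / (2 * M))) := by
      refine sum_le_sum fun u hu => ?_
      have s1 : N.ball u R₃ ⊆ N.ball u n := N.ball_mono u (by omega)
      have s2 : N.ball u R₃ ⊆ N.ball o n := fun z hz =>
        N.ball_mono o hn (N.ball_trans hu hz)
      have c1 := abs_le.mp (h₃ V N π' u _ _ s1 s2 1 (by simp))
      have c2 := abs_le.mp (h₃ V N π' u _ _ s1 s2 (-1) (by simp))
      have c3 := abs_le.mp (h₃ V N π u _ _ s1 s2 1 (by simp))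
      have c4 := abs_le.mp (h₃ V N π u _ _ s1 s2 (-1) (by simp))
      have hwu := N.w_le hK hu
      rw [hw, mul_one] at hwu
      have d1 : (dens2 N ζ π' (N.ball u n) u - dens2 N ζ π (N.ball u n) u) -
          (dens2 N ζ π' (N.ball o n) u - dens2 N ζ π (N.ball o n) u) ≤ e / (2 * M) := by
        have : e / (2 * M) = 4 * (e / (8 * M)) := by field_simp; norm_num
        simp only [dens2]
        linarith [c1.2, c2.2, c3.1, c4.1]
      have d2 := mul_le_mul_of_nonneg_left d1 (N.wpos u).le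
      have d3 : N.w u * (e / (2 * M)) ≤ K ^ L * (e / (2 * M)) :=
        mul_le_mul_of_nonneg_right hwu (by positivity)
      linarith
    rw [sum_add_distrib, sum_const, nsmul_eq_mul] at e3
    have e4 : ((N.ball o L).card : ℝ) * (K ^ L * (e / (2 * M))) ≤ e / 2 := by
      have c1 : ((N.ball o L).card : ℝ) ≤ ((D : ℝ) + 1) ^ L := by
        exact_mod_cast N.card_ball o L
      calc ((N.ball o L).card : ℝ) * (K ^ L * (e / (2 * M)))
          ≤ ((D : ℝ) + 1) ^ L * (K ^ L * (e / (2 * M))) :=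
            mul_le_mul_of_nonneg_right c1 (by positivity)
        _ = e / 2 := by rw [← mul_assoc, ← hM]; field_simp
    linarith
  · have t1 := h₁ L n (le_max_left _ _) (by omega) V N π o hw j 1 (by simp)
    have t2 := h₁ L n (le_max_left _ _) (by omega) V N π o hw j (-1) (by simp)
    have := add_le_add t1 t2
    rw [← sum_add_distrib, add_halves] at this
    refine le_trans (sum_le_sum fun v _ => ?_) this
    refine le_trans (le_of_eq ?_) (abs_add_le _ _)
    simp only [dens2]
    congr 1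
    ring

end Vale.Agent.P078
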