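import Vale.Agent.P078.Net

/-! Linear algebra for `NetC`. -/

namespace Vale.Agent.P078.NetCAux

open Finset MeasureTheory Matrix

theorem sq_le_of_qform {V : Type*} {P : V → V → ℂ} (hP : ∀ a b, P b a = star (P a b))
    {U : Finset V} {θ : ℝ} (hθ : 0 ≤ θ) (h : ∀ ξ, ‖qform P U ξ‖ ≤ θ * ∑ v ∈ U, ‖ξ v‖ ^ 2)
    (ξ : V → ℂ) : ∑ v ∈ U, ‖∑ u ∈ U, P v u * ξ u‖ ^ 2 ≤ θ ^ 2 * ∑ v ∈ U, ‖ξ v‖ ^ 2 := by
  set y : V → ℂ := fun v => ∑ u ∈ U, P v u * ξ u with hy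
  have n1 : ∑ a ∈ U, ∑ b ∈ U, star (y a) * P a b * ξ b = ((∑ v ∈ U, ‖y v‖ ^ 2 : ℝ) : ℂ) := by
    push_cast
    refine sum_congr rfl fun a _ => ?_
    simp only [mul_assoc, ← mul_sum]
    exact Complex.conj_mul' _
  have n2 : ∑ a ∈ U, ∑ b ∈ U, star (ξ a) * P a b * y b = ((∑ v ∈ U, ‖y v‖ ^ 2 : ℝ) : ℂ) := by
    rw [← Complex.conj_ofReal, ← n1, sum_comm]
    simp only [map_sum, map_mul, Complex.star_def, Complex.conj_conj]
    refine sum_congr rfl fun a _ => sum_congr rfl fun b _ => ?_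
    rw [hP a b, Complex.star_def]
    ring
  have key : ∀ s : ℝ, 4 * s * ∑ v ∈ U, ‖y v‖ ^ 2 ≤
      θ * (2 * s ^ 2 * ∑ v ∈ U, ‖ξ v‖ ^ 2 + 2 * ∑ v ∈ U, ‖y v‖ ^ 2) := fun s => by
    have e : qform P U (fun v => s * ξ v + y v) - qform P U (fun v => s * ξ v - y v) =
        ((4 * s * ∑ v ∈ U, ‖y v‖ ^ 2 : ℝ) : ℂ) := by
      have : ((4 * s * ∑ v ∈ U, ‖y v‖ ^ 2 : ℝ) : ℂ) =
          2 * s * ((∑ v ∈ U, ‖y v‖ ^ 2 : ℝ) : ℂ) + 2 * s * ((∑ v ∈ U, ‖y v‖ ^ 2 : ℝ) : ℂ) := by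
        push_cast; ring
      rw [this]
      nth_rewrite 1 [← n1]
      rw [← n2]
      simp only [qform, mul_sum, ← sum_sub_distrib, ← sum_add_distrib]
      refine sum_congr rfl fun a _ => sum_congr rfl fun b _ => ?_
      simp only [star_add, star_sub, star_mul', Complex.star_def, Complex.conj_ofReal]
      ring
    have e2 : ∑ v ∈ U, ‖s * ξ v + y v‖ ^ 2 + ∑ v ∈ U, ‖s * ξ v - y v‖ ^ 2 =
        2 * s ^ 2 * ∑ v ∈ U, ‖ξ v‖ ^ 2 + 2 * ∑ v ∈ U, ‖y v‖ ^ 2 := by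
      simp only [mul_sum, ← sum_add_distrib]
      refine sum_congr rfl fun v _ => ?_
      have := parallelogram_law_with_norm ℂ (s * ξ v) (y v)
      rw [norm_mul, Complex.norm_real, Real.norm_eq_abs] at this
      nlinarith [sq_abs s]
    have e3 := (Complex.re_le_norm _).trans ((norm_sub_le _ _).trans
      (add_le_add (h fun v => s * ξ v + y v) (h fun v => s * ξ v - y v)))
    rwa [e, Complex.ofReal_re, ← mul_add, e2] at e3
  change ∑ v ∈ U, ‖y v‖ ^ 2 ≤ _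
  rcases hθ.eq_or_lt with rfl | h0
  · have := key 1
    linarith
  · have := key θ
    nlinarith

variable {n : Type*} [Fintype n] [DecidableEq n]

/-- the matrix to be inverted -/
noncomputable def mat (Y : Matrix n n ℂ) (w : n → ℝ) (ζ z : ℂ) : Matrix n n ℂ :=
  diagonal (fun i => ζ + z / w i) - Y

omit [DecidableEq n] in
theorem dot_self (y : n → ℂ) : star y ⬝ᵥ y = ((∑ i, ‖y i‖ ^ 2 : ℝ) : ℂ) := by
  simp [dotProduct, Complex.conj_mul']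

theorem im_form {Y : Matrix n n ℂ} (hY : Y.IsHermitian) (w : n → ℝ) (ζ z : ℂ) (y : n → ℂ) :
    (star y ⬝ᵥ mat Y w ζ z *ᵥ y).im = ∑ i, (ζ.im + z.im / w i) * ‖y i‖ ^ 2 := by
  have := hY.im_star_dotProduct_mulVec_self y
  rw [mat, sub_mulVec, dotProduct_sub, Complex.sub_im, show (star y ⬝ᵥ Y *ᵥ y).im = 0 from this,
    sub_zero, dotProduct, Complex.im_sum]
  refine sum_congr rfl fun i _ => ?_
  rw [mulVec_diagonal, Pi.star_apply, mul_left_comm, Complex.star_def, Complex.conj_mul']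
  simp [← Complex.ofReal_pow, Complex.div_ofReal_im]

omit [DecidableEq n] in
theorem dot_le (p y : n → ℂ) (c : n → ℝ) (hc : ∀ i, 0 < c i) :
    2 * ‖star p ⬝ᵥ y‖ ≤ ∑ i, c i * ‖p i‖ ^ 2 + ∑ i, ‖y i‖ ^ 2 / c i := by
  rw [← sum_add_distrib, dotProduct]
  refine (mul_le_mul_of_nonneg_left (norm_sum_le _ _) zero_le_two).trans ?_
  rw [mul_sum]
  refine sum_le_sum fun i _ => ?_
  have := hc i
  rw [norm_mul, Pi.star_apply, norm_star, ← sub_nonneg]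
  have e : c i * ‖p i‖ ^ 2 + ‖y i‖ ^ 2 / c i - 2 * (‖p i‖ * ‖y i‖) =
      (c i * ‖p i‖ - ‖y i‖) ^ 2 / c i := by field_simp; ring
  rw [e]
  positivity

variable {Y : Matrix n n ℂ} (hY : Y.IsHermitian) {w : n → ℝ} (hw : ∀ i, 0 < w i) {ζ z : ℂ}
  (hζ : 0 < ζ.im)
include hY hw hζ

omit hζ in
theorem im_ge (hz : 0 ≤ z.im) (y : n → ℂ) :
    ζ.im * ∑ i, ‖y i‖ ^ 2 ≤ (star y ⬝ᵥ mat Y w ζ z *ᵥ y).im := by
  rw [im_form hY, mul_sum]
  exact sum_le_sum fun i _ => mul_le_mul_of_nonneg_right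
    (le_add_of_nonneg_right (div_nonneg hz (hw i).le)) (sq_nonneg _)

theorem mat_unit (hz : 0 ≤ z.im) : IsUnit (mat Y w ζ z).det := by
  rw [isUnit_iff_ne_zero]
  intro h
  obtain ⟨y, hy, e⟩ := exists_mulVec_eq_zero_iff.mpr h
  have := im_ge hY hw (ζ := ζ) hz y
  rw [e, dotProduct_zero, Complex.zero_im] at this
  have h2 : ∑ i, ‖y i‖ ^ 2 ≤ 0 := nonpos_of_mul_nonpos_right this hζ |>.trans le_rfl
  exact hy (funext fun i => by
    simpa using (single_le_sum (f := fun i => ‖y i‖ ^ 2) (fun _ _ => sq_nonneg _)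
      (mem_univ i)).trans h2)

theorem mul_inv_vec (hz : 0 ≤ z.im) (x : n → ℂ) :
    mat Y w ζ z *ᵥ ((mat Y w ζ z)⁻¹ *ᵥ x) = x := by
  rw [mulVec_mulVec, mul_nonsing_inv _ (mat_unit hY hw hζ hz), one_mulVec]

theorem im_inv (hz : 0 ≤ z.im) (x : n → ℂ) : -(star x ⬝ᵥ (mat Y w ζ z)⁻¹ *ᵥ x).im =
    ∑ i, (ζ.im + z.im / w i) * ‖((mat Y w ζ z)⁻¹ *ᵥ x) i‖ ^ 2 := by
  rw [← im_form hY, mul_inv_vec hY hw hζ hz, star_dotProduct _ x]
  simp

theorem inv_bound (x : n → ℂ) : ∃ C, ∀ z : ℂ, 0 ≤ z.im →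
    ‖star x ⬝ᵥ (mat Y w ζ z)⁻¹ *ᵥ x‖ ≤ C / (1 + ‖z‖) := by
  let M : ℝ := 1 + (∑ i, ‖x i‖ ^ 2) / ζ.im ^ 2
  refine ⟨∑ i, ‖x i‖ * (M + w i * (‖x i‖ + ‖ζ‖ * M + ∑ j, ‖Y i j‖ * M)), fun z hz => ?_⟩
  set y := (mat Y w ζ z)⁻¹ *ᵥ x with hy
  have e : mat Y w ζ z *ᵥ y = x := mul_inv_vec hY hw hζ hz x
  have h1 := im_ge hY hw (ζ := ζ) hz y
  have h2 := dot_le y x (fun _ => ζ.im) fun _ => hζ
  rw [e] at h1
  rw [← mul_sum, ← sum_div] at h2
  have h3 : ∑ i, ‖y i‖ ^ 2 ≤ (∑ i, ‖x i‖ ^ 2) / ζ.im ^ 2 := by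
    have := (Complex.im_le_norm _).trans' h1
    rw [sq ζ.im, ← div_div, le_div_iff₀ hζ]
    linarith
  have h4 : ∀ i, ‖y i‖ ≤ M := fun i => by
    have := (single_le_sum (f := fun i => ‖y i‖ ^ 2) (fun _ _ => sq_nonneg _)
      (mem_univ i)).trans h3
    change _ ≤ 1 + _
    nlinarith [sq_nonneg (‖y i‖ - 1)]
  rw [le_div_iff₀ (by positivity), dotProduct]
  refine (mul_le_mul_of_nonneg_right (norm_sum_le _ _) (by positivity)).trans ?_
  rw [sum_mul]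
  refine sum_le_sum fun i _ => ?_
  rw [norm_mul, Pi.star_apply, norm_star, mul_assoc, mul_add, mul_one]
  refine mul_le_mul_of_nonneg_left (add_le_add (h4 i) ?_) (norm_nonneg _)
  have h5 : y i * z = w i * (x i - ζ * y i + ∑ j, Y i j * y j) := by
    have := congrFun e i
    rw [mat, sub_mulVec, Pi.sub_apply, mulVec_diagonal] at this
    have h0 : (w i : ℂ) ≠ 0 := by exact_mod_cast (hw i).ne'
    rw [← this]
    change _ = _ * (_ - _ - _ + (Y *ᵥ y) i)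
    field_simp
    ring
  rw [← norm_mul, h5, norm_mul, Complex.norm_real, Real.norm_of_nonneg (hw i).le]
  refine mul_le_mul_of_nonneg_left ((norm_add_le _ _).trans (add_le_add ((norm_sub_le _ _).trans
    (add_le_add_right ?_ _)) (norm_sum_le_of_le _ fun j _ => ?_))) (hw i).le <;>
  · rw [norm_mul]
    exact mul_le_mul_of_nonneg_left (h4 _) (norm_nonneg _)

omit hY hw hζ in
theorem diff_det {f : ℂ → Matrix n n ℂ} (h : ∀ i j, Differentiable ℂ fun z => f z i j) :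
    Differentiable ℂ fun z => (f z).det := by
  simp only [det_apply']
  fun_prop

theorem diff_inv (x : n → ℂ) (hz : 0 ≤ z.im) :
    DifferentiableAt ℂ (fun z => star x ⬝ᵥ (mat Y w ζ z)⁻¹ *ᵥ x) z := by
  have h1 : ∀ i j, Differentiable ℂ fun z => mat Y w ζ z i j := fun i j => by
    simp only [mat, Matrix.sub_apply, diagonal_apply]
    split_ifs <;> fun_prop
  have h2 : ∀ i j, Differentiable ℂ fun z => (mat Y w ζ z).adjugate i j := fun i j => by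
    simp only [adjugate_apply]
    refine diff_det fun a b => ?_
    simp only [updateRow_apply]
    split_ifs
    · fun_prop
    · exact h1 a b
  have h3 := ((diff_det h1) z).inv (mat_unit hY hw hζ hz).ne_zero
  simp only [Matrix.inv_def, Ring.inverse_eq_inv', dotProduct, mulVec, Matrix.smul_apply, smul_eq_mul]
  exact .fun_sum fun i _ => .const_mul (.fun_sum fun j _ => (h3.mul (h2 i j z)).mul_const _) _

theorem rep (x : n → ℂ) : Integrable (fun u : ℝ => (star x ⬝ᵥ (mat Y w ζ u)⁻¹ *ᵥ x).im) ∧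
    ∀ z : ℂ, 0 < z.im → star x ⬝ᵥ (mat Y w ζ z)⁻¹ *ᵥ x = ∫ u : ℝ,
      ((-(star x ⬝ᵥ (mat Y w ζ u)⁻¹ *ᵥ x).im / Real.pi : ℝ) : ℂ) * (z - u)⁻¹ := by
  obtain ⟨C, hC⟩ := inv_bound hY hw hζ x
  obtain ⟨h1, -, h2⟩ := rep_integral (F := fun z => star x ⬝ᵥ (mat Y w ζ z)⁻¹ *ᵥ x)
    (fun z hz => (diff_inv hY hw hζ x (le_of_lt hz)).differentiableWithinAt)
    (fun z hz => (diff_inv hY hw hζ x hz).continuousAt.continuousWithinAt)
    (fun z hz => neg_nonneg.mp ((im_inv hY hw hζ hz x).ge.trans' (sum_nonneg fun i _ =>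
      mul_nonneg (add_nonneg hζ.le (div_nonneg hz (hw i).le)) (sq_nonneg _)))) hC
  exact ⟨h1, h2⟩

theorem expand (hz : 0 ≤ z.im) (ξ : n → ℂ) :
    z ^ 2 * (star (fun i => ξ i / w i) ⬝ᵥ (mat Y w ζ z)⁻¹ *ᵥ fun i => ξ i / w i) =
      z * ((∑ i, ‖ξ i‖ ^ 2 / w i : ℝ) : ℂ) - star ξ ⬝ᵥ (ζ • ξ - Y *ᵥ ξ) +
        star (star ζ • ξ - Y *ᵥ ξ) ⬝ᵥ (mat Y w ζ z)⁻¹ *ᵥ (ζ • ξ - Y *ᵥ ξ) := by
  have hu := mat_unit hY hw hζ hz
  have e1 : z • (fun i => ξ i / w i) = mat Y w ζ z *ᵥ ξ - (ζ • ξ - Y *ᵥ ξ) := by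
    ext i
    simp only [mat, sub_mulVec, Pi.sub_apply, mulVec_diagonal, Pi.smul_apply, smul_eq_mul]
    ring
  have e2 : z • star (fun i => ξ i / w i) =
      star ξ ᵥ* mat Y w ζ z - star (star ζ • ξ - Y *ᵥ ξ) := by
    rw [star_sub, star_mulVec, hY.eq]
    ext i
    simp only [mat, vecMul_sub, Pi.sub_apply, vecMul_diagonal, Pi.smul_apply, smul_eq_mul,
      Pi.star_apply, star_mul', star_div₀, Complex.star_def, Complex.conj_ofReal,
      Complex.conj_conj]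
    ring
  have e3 : star (fun i => ξ i / w i) ⬝ᵥ ξ = ((∑ i, ‖ξ i‖ ^ 2 / w i : ℝ) : ℂ) := by
    simp [dotProduct, ← Complex.conj_mul', div_mul_eq_mul_div]
  rw [sq, mul_assoc, ← smul_eq_mul z (_ ⬝ᵥ _), ← dotProduct_smul, ← mulVec_smul, e1, mulVec_sub,
    mulVec_mulVec, nonsing_inv_mul _ hu, one_mulVec, dotProduct_sub, mul_sub, e3,
    ← smul_eq_mul z (_ ⬝ᵥ _), ← smul_dotProduct, e2, sub_dotProduct, ← dotProduct_mulVec,
    mul_inv_vec hY hw hζ hz]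
  ring

theorem cross_le {S : ℝ} (hS : 0 < S) (p q : n → ℂ) :
    2 * ‖star p ⬝ᵥ (mat Y w ζ (S * Complex.I))⁻¹ *ᵥ q‖ ≤
      (∑ i, w i * ‖p i‖ ^ 2 + ∑ i, w i * ‖q i‖ ^ 2) / S := by
  have hz : 0 ≤ (S * Complex.I).im := by simpa using hS.le
  set y := (mat Y w ζ (S * Complex.I))⁻¹ *ᵥ q
  have h1 := im_form hY w ζ (S * Complex.I) y
  rw [mul_inv_vec hY hw hζ hz, star_dotProduct, Complex.star_def] at h1
  have h2 := dot_le q y (fun i => w i / S) fun i => div_pos (hw i) hS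
  have h3 := dot_le p y (fun i => w i / S) fun i => div_pos (hw i) hS
  have h4 : ∑ i, ‖y i‖ ^ 2 / (w i / S) ≤ ‖star q ⬝ᵥ y‖ := by
    rw [← Complex.norm_conj]
    refine le_trans (sum_le_sum fun i _ => ?_) (h1.ge.trans (Complex.im_le_norm _))
    have := mul_nonneg hζ.le (sq_nonneg ‖y i‖)
    rw [div_div_eq_mul_div, add_mul]
    simp only [Complex.mul_im, Complex.ofReal_re, Complex.I_im, mul_one, Complex.ofReal_im,
      Complex.I_re, mul_zero, add_zero]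
    rw [mul_div_assoc, mul_comm]
    linarith
  simp only [div_mul_eq_mul_div, ← sum_div] at h2 h3
  rw [add_div]
  linarith

theorem cs (t : ℝ) (ξ : n → ℂ) (T : Finset n) (hT : ∀ i, i ∉ T → ξ i = 0) :
    -(star (fun i => ξ i / w i) ⬝ᵥ (mat Y w ζ t)⁻¹ *ᵥ fun i => ξ i / w i).im ≤
      (∑ i, ‖ξ i‖ ^ 2) * ∑ i ∈ T, (w i)⁻¹ ^ 2 * -((mat Y w ζ t)⁻¹ i i).im := by
  have h1 : ∀ i, -((mat Y w ζ t)⁻¹ i i).im = ∑ j, ζ.im * ‖(mat Y w ζ t)⁻¹ j i‖ ^ 2 := fun i => by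
    simpa using im_inv hY hw hζ (z := t) (by simp) (Pi.single i 1)
  rw [im_inv hY hw hζ (by simp)]
  simp only [h1, mul_sum]
  rw [sum_comm]
  refine sum_le_sum fun j _ => ?_
  have h2 : ‖((mat Y w ζ t)⁻¹ *ᵥ fun i => ξ i / w i) j‖ ≤
      ∑ i ∈ T, ‖ξ i‖ * ((w i)⁻¹ * ‖(mat Y w ζ t)⁻¹ j i‖) := by
    rw [mulVec, dotProduct, ← sum_subset (subset_univ T) fun i _ hi => by simp [hT i hi]]
    refine norm_sum_le_of_le _ fun i _ => le_of_eq ?_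
    rw [norm_mul, norm_div, Complex.norm_real, Real.norm_of_nonneg (hw i).le]
    ring
  have h3 := (pow_le_pow_left₀ (norm_nonneg _) h2 2).trans (sum_mul_sq_le_sq_mul_sq T _ _)
  have h4 := mul_le_mul_of_nonneg_left (h3.trans (mul_le_mul_of_nonneg_right
    (sum_le_sum_of_subset_of_nonneg (subset_univ T) fun _ _ _ => sq_nonneg _)
    (sum_nonneg fun _ _ => sq_nonneg _))) hζ.le
  simp only [Complex.ofReal_im, zero_div, add_zero]
  refine h4.trans (le_of_eq ?_)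
  simp only [mul_sum]
  exact sum_congr rfl fun i _ => by ring

theorem main (hc : ∀ ξ : n → ℂ, ‖star ξ ⬝ᵥ Y *ᵥ ξ‖ ≤ ∑ i, ‖ξ i‖ ^ 2) {S wm : ℝ} (hS : 0 < S)
    (hwm0 : 0 ≤ wm) (ξ : n → ℂ) (T : Finset n) (hT : ∀ i, i ∉ T → ξ i = 0)
    (hwm : ∀ i, (i ∈ T ∨ ∃ j ∈ T, Y i j ≠ 0) → w i ≤ wm) :
    (star ξ ⬝ᵥ Y *ᵥ ξ).re ≤ (∑ i, ‖ξ i‖ ^ 2) * (ζ.re + ((‖ζ‖ + 1) ^ 2 * wm / S +
      Real.pi⁻¹ * ∑ i ∈ T, ∫ t in Set.Ioi (0 : ℝ), t * (S ^ 2 / (S ^ 2 + t ^ 2)) * (w i)⁻¹ ^ 2 *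
        -((mat Y w ζ t)⁻¹ i i).im)) := by
  have hz : 0 < (S * Complex.I).im := by simpa using hS
  have hY1 : ∑ i, ‖(Y *ᵥ ξ) i‖ ^ 2 ≤ ∑ i, ‖ξ i‖ ^ 2 := by
    simpa [mulVec, dotProduct] using sq_le_of_qform (P := Y) (fun a b => (hY.apply b a).symm) (U := univ) zero_le_one
      (fun ξ => by
        simpa [qform, dotProduct, mulVec, mul_sum, mul_assoc] using hc ξ) ξ
  have hq : ∀ c : ℂ, ‖c‖ = ‖ζ‖ → ∑ i, w i * ‖(c • ξ - Y *ᵥ ξ) i‖ ^ 2 ≤
      (∑ i, ‖ξ i‖ ^ 2) * ((‖ζ‖ + 1) ^ 2 * wm) := fun c hc => by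
    have h1 : ∀ i, w i * ‖(c • ξ - Y *ᵥ ξ) i‖ ^ 2 ≤
        wm * (‖ζ‖ + 1) * (‖ζ‖ * ‖ξ i‖ ^ 2 + ‖(Y *ᵥ ξ) i‖ ^ 2) := fun i => by
      by_cases hi : i ∈ T ∨ ∃ j ∈ T, Y i j ≠ 0
      · rw [mul_assoc]
        refine mul_le_mul (hwm i hi) ?_ (sq_nonneg _) hwm0
        refine (pow_le_pow_left₀ (norm_nonneg _) (norm_sub_le _ _) 2).trans ?_
        rw [Pi.smul_apply, norm_smul, hc]
        nlinarith [mul_nonneg (norm_nonneg ζ) (sq_nonneg (‖ξ i‖ - ‖(Y *ᵥ ξ) i‖))]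
      · push Not at hi
        have : (Y *ᵥ ξ) i = 0 := sum_eq_zero fun j _ => by
          by_cases hj : j ∈ T
          · simp [hi.2 j hj]
          · simp [hT j hj]
        simp [this, hT i hi.1]
    refine (sum_le_sum fun i _ => h1 i).trans ?_
    rw [← mul_sum, sum_add_distrib, ← mul_sum]
    nlinarith [mul_le_mul_of_nonneg_left hY1 (mul_nonneg hwm0 (by positivity : 0 ≤ ‖ζ‖ + 1))]
  have h1 := cross_le hY hw hζ hS (star ζ • ξ - Y *ᵥ ξ) (ζ • ξ - Y *ᵥ ξ)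
  have h2 := congrArg Complex.re (expand hY hw hζ hz.le ξ)
  obtain ⟨i1, h3⟩ := rep hY hw hζ fun i => ξ i / w i
  let g : ℂ → ℂ := fun z => star (fun i => ξ i / w i) ⬝ᵥ (mat Y w ζ z)⁻¹ *ᵥ fun i => ξ i / w i
  replace i1 : Integrable fun t : ℝ => -(g t).im := i1.neg
  change ∀ z : ℂ, 0 < z.im → g z = ∫ u : ℝ, ((-(g u).im / Real.pi : ℝ) : ℂ) * (z - u)⁻¹ at h3
  have g0 : ∀ t : ℝ, 0 ≤ -(g t).im := fun t => (im_inv hY hw hζ (z := t) (by simp) _).ge.trans'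
    (sum_nonneg fun i _ => mul_nonneg (by simpa using hζ.le) (sq_nonneg _))
  have bd : ∀ {f : ℝ → ℝ}, Integrable f →
      Integrable fun t => t * (S ^ 2 / (S ^ 2 + t ^ 2)) * f t := fun hf =>
    hf.bdd_mul (c := S) (by fun_prop) (.of_forall fun t => by
      rw [norm_mul, Real.norm_of_nonneg (r := _ / _) (by positivity), Real.norm_eq_abs,
        ← mul_div_assoc, div_le_iff₀ (by positivity), ← sq_abs t]
      nlinarith [mul_nonneg hS.le (sq_nonneg (S - |t|)), abs_nonneg t,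
        mul_nonneg (abs_nonneg t) (sq_nonneg S)])
  have h4 : ((S * Complex.I) ^ 2 * g (S * Complex.I)).re =
      Real.pi⁻¹ * ∫ t : ℝ, t * (S ^ 2 / (S ^ 2 + t ^ 2)) * -(g t).im := by
    have i2 : Integrable fun u : ℝ => (S * Complex.I) ^ 2 *
        (((-(g u).im / Real.pi : ℝ) : ℂ) * (S * Complex.I - u)⁻¹) := by
      refine .const_mul (Integrable.mul_bdd (c := S⁻¹) (i1.div_const _).ofReal (by fun_prop)
        (.of_forall fun u => ?_)) _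
      rw [norm_inv]
      exact inv_anti₀ hS (le_trans (by simp) (Complex.im_le_norm _))
    rw [h3 _ hz, ← integral_const_mul, ← integral_const_mul]
    refine (integral_re i2).symm.trans (integral_congr_ae (.of_forall fun u => ?_))
    have : S ^ 2 + u ^ 2 ≠ 0 := by positivity
    simp only [RCLike.re_to_complex, mul_pow, Complex.I_sq, ← Complex.ofReal_pow, mul_neg, mul_one,
      neg_mul, Complex.neg_re, Complex.re_ofReal_mul, Complex.inv_re, Complex.normSq_apply]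
    simp
    field_simp
    ring
  have h5 : ∫ t : ℝ, t * (S ^ 2 / (S ^ 2 + t ^ 2)) * -(g t).im ≤ (∑ i, ‖ξ i‖ ^ 2) *
      ∑ i ∈ T, ∫ t in Set.Ioi (0 : ℝ), t * (S ^ 2 / (S ^ 2 + t ^ 2)) * (w i)⁻¹ ^ 2 *
        -((mat Y w ζ t)⁻¹ i i).im := by
    have i3 : ∀ i, IntegrableOn (fun t : ℝ => t * (S ^ 2 / (S ^ 2 + t ^ 2)) * (w i)⁻¹ ^ 2 *
        -((mat Y w ζ t)⁻¹ i i).im) (Set.Ioi 0) := fun i => by
      have := (rep hY hw hζ (Pi.single i 1)).1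
      simp only [mul_assoc (_ * _)]
      exact (bd (.const_mul (by simpa using this.neg) _)).integrableOn
    rw [← integral_finsetSum _ fun i _ => i3 i, ← integral_const_mul,
      ← setIntegral_univ, ← Set.Iic_union_Ioi (a := (0 : ℝ)),
      setIntegral_union (Set.Iic_disjoint_Ioi le_rfl) measurableSet_Ioi (bd i1).integrableOn (bd i1).integrableOn]
    refine add_le_of_nonpos_of_le (setIntegral_nonpos measurableSet_Iic fun t ht =>
      mul_nonpos_of_nonpos_of_nonneg (mul_nonpos_of_nonpos_of_nonneg ht (by positivity)) (g0 t))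
      (setIntegral_mono_on (bd i1).integrableOn ((integrable_finsetSum _ fun i _ =>
        i3 i).const_mul _) measurableSet_Ioi fun t ht => ?_)
    have : 0 < t := ht
    refine (mul_le_mul_of_nonneg_left (cs hY hw hζ t ξ T hT) (by positivity)).trans (le_of_eq ?_)
    simp only [mul_assoc (_ * _), ← mul_sum]
    ring
  have h6 := mul_le_mul_of_nonneg_left h5 (inv_pos.mpr Real.pi_pos).le
  have h7 := div_le_div_of_nonneg_right (add_le_add (hq (star ζ) (norm_star _)) (hq ζ rfl)) hS.le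
  have h8 := (Complex.abs_re_le_norm _).trans (le_of_mul_le_mul_left (h1.trans (h7.trans_eq
    (by rw [← two_mul, mul_div_assoc]))) two_pos)
  rw [h4, dotProduct_sub, dotProduct_smul, dot_self] at h2
  simp only [Complex.add_re, Complex.sub_re, smul_eq_mul, Complex.re_mul_ofReal, Complex.mul_re S,
    Complex.I_re, Complex.ofReal_im, mul_zero, zero_mul, sub_zero] at h2
  have h9 := (abs_le.mp h8).1
  rw [mul_div_assoc] at h9
  rw [mul_add, mul_add, mul_left_comm _ Real.pi⁻¹]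
  linarith

end Vale.Agent.P078.NetCAux
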