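import Vale.Agent.P078.WProj

/-! The directed set of finite partitions in `A`, pinchings, Radon-Nikodym in `A`. -/

namespace Vale.Agent.P078

open Filter Topology
open scoped ComplexOrder

universe u

variable {M : Type u} [CStarAlgebra M] [PartialOrder M] [StarOrderedRing M]

/-- finite partitions of unity in `A` -/
structure Part (A : StarSubalgebra ℂ M) where
  s : Finset M
  mem : ∀ e ∈ s, e ∈ A
  proj : ∀ e ∈ s, IsStarProjection e
  orth : ∀ e ∈ s, ∀ f ∈ s, e ≠ f → e * f = 0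
  sum : ∑ e ∈ s, e = 1

variable {A : StarSubalgebra ℂ M}

/-- `e ≤ f` iff `f` refines `e` -/
instance : Preorder (Part A) where
  le e f := ∀ y ∈ f.s, ∃ x ∈ e.s, x * y = y
  le_refl e y hy := ⟨y, hy, (e.proj y hy).isIdempotentElem⟩
  le_trans e f g hef hfg z hz := by
    obtain ⟨y, hy, hyz⟩ := hfg z hz
    obtain ⟨x, hx, hxy⟩ := hef y hy
    exact ⟨x, hx, by rw [← hyz, ← mul_assoc, hxy]⟩

instance : Nonempty (Part A) :=
  ⟨⟨{1}, by simp, by simp, by simp, by simp⟩⟩

/-- pinching -/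
noncomputable def Part.S (e : Part A) (x : M) : M := ∑ f ∈ e.s, f * x * f

omit [PartialOrder M] [StarOrderedRing M] in
lemma Part.le_def {e f : Part A} : e ≤ f ↔ ∀ y ∈ f.s, ∃ x ∈ e.s, x * y = y := Iff.rfl

omit [PartialOrder M] [StarOrderedRing M] in
lemma Part.isPartn (e : Part A) : IsPartn A (fun f : e.s => (f : M)) := by
  refine ⟨fun f => ⟨e.mem f f.2, e.proj f f.2⟩,
    fun f g h => e.orth f f.2 g g.2 (fun k => h (Subtype.ext k)), ?_⟩
  rw [Finset.sum_coe_sort e.s (fun f => f)]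
  exact e.sum

omit [PartialOrder M] [StarOrderedRing M] in
/-- every indexed partition is refined by (indeed gives) a `Part` -/
lemma IsPartn.exists_part {I : Type*} [Fintype I] {p : I → M} (hp : IsPartn A p) :
    ∃ e : Part A, (∀ y ∈ e.s, ∃ i, y = p i) ∧ ∀ i, p i ≠ 0 → p i ∈ e.s := by
  classical
  obtain ⟨h1, h2, h3⟩ := hp
  refine ⟨⟨Finset.univ.image p, ?_, ?_, ?_, ?_⟩, ?_, ?_⟩
  · intro e he
    obtain ⟨i, -, rfl⟩ := Finset.mem_image.1 he
    exact (h1 i).1
  · intro e he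
    obtain ⟨i, -, rfl⟩ := Finset.mem_image.1 he
    exact (h1 i).2
  · intro e he f hf hne
    obtain ⟨i, -, rfl⟩ := Finset.mem_image.1 he
    obtain ⟨j, -, rfl⟩ := Finset.mem_image.1 hf
    exact h2 i j (fun k => hne (by rw [k]))
  · rw [Finset.sum_image_of_pairwise_eq_zero (g := fun y : M => y), h3]
    intro i _ j _ hne k
    rw [← (h1 i).2.isIdempotentElem.eq]
    nth_rewrite 2 [k]
    exact h2 i j hne
  · intro y hy
    obtain ⟨i, -, rfl⟩ := Finset.mem_image.1 hy
    exact ⟨i, rfl⟩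
  · exact fun i _ => Finset.mem_image_of_mem p (Finset.mem_univ i)

omit [PartialOrder M] [StarOrderedRing M] in
/-- join: the image of `(x, y) ↦ x * y` -/
lemma Part.directed (hA : IsMasa A) : IsDirectedOrder (Part A) := by
  refine ⟨fun e f => ?_⟩
  have c : ∀ (x : e.s) (y : f.s), (x : M) * y = y * x :=
    fun x y => hA.comm (e.mem x x.2) (f.mem y y.2)
  have hp : IsPartn A (fun q : e.s × f.s => (q.1 : M) * q.2) := by
    refine ⟨fun q => ⟨mul_mem (e.mem _ q.1.2) (f.mem _ q.2.2),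
      (e.proj _ q.1.2).mul (f.proj _ q.2.2) (c _ _)⟩, fun q q' hne => ?_, ?_⟩
    · have k : (q.1 : M) * q.2 * (q'.1 * q'.2) = (q.1 * q'.1) * (q.2 * q'.2) := by
        rw [mul_assoc, ← mul_assoc (q.2 : M), ← c, mul_assoc, mul_assoc]
      rw [k]
      by_cases h1 : q.1 = q'.1
      · have h2 : q.2 ≠ q'.2 := fun h2 => hne (Prod.ext h1 h2)
        rw [f.isPartn.2.1 _ _ h2, mul_zero]
      · rw [e.isPartn.2.1 _ _ h1, zero_mul]
    · rw [Fintype.sum_prod_type, ← Finset.sum_mul_sum, e.isPartn.2.2, f.isPartn.2.2, mul_one]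
  obtain ⟨g, hg, -⟩ := hp.exists_part
  refine ⟨g, fun y hy => ?_, fun y hy => ?_⟩
  · obtain ⟨q, rfl⟩ := hg y hy
    exact ⟨q.1, q.1.2, by rw [← mul_assoc, (e.proj _ q.1.2).isIdempotentElem.eq]⟩
  · obtain ⟨q, rfl⟩ := hg y hy
    exact ⟨q.2, q.2.2, by rw [c, ← mul_assoc, (f.proj _ q.2.2).isIdempotentElem.eq]⟩

omit [PartialOrder M] [StarOrderedRing M] in
/-- a partition adapted to a projection; every finer partition is adapted as well -/
lemma Part.exists_adapted {p : M} (hp : IsStarProjection p) (hpA : p ∈ A) :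
    ∃ e : Part A, ∀ f, e ≤ f → ∀ y ∈ f.s, p * y = y ∨ p * y = 0 := by
  have h : IsPartn A (fun b : Bool => cond b p (1 - p)) := by
    refine ⟨fun b => ?_, fun b c hne => ?_, by simp⟩
    · cases b
      · exact ⟨sub_mem (one_mem _) hpA, hp.one_sub⟩
      · exact ⟨hpA, hp⟩
    · cases b <;> cases c
      · exact absurd rfl hne
      · exact hp.one_sub_mul_self
      · exact hp.mul_one_sub_self
      · exact absurd rfl hne
  obtain ⟨e, he, -⟩ := h.exists_part
  refine ⟨e, fun f hf y hy => ?_⟩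
  obtain ⟨x, hx, k⟩ := hf y hy
  obtain ⟨b, rfl⟩ := he x hx
  cases b
  · right
    change (1 - p) * y = y at k
    rw [← k, ← mul_assoc, hp.mul_one_sub_self, zero_mul]
  · exact Or.inl k

omit [PartialOrder M] [StarOrderedRing M] in
lemma Part.eq_or_zero {e f : Part A} (h : e ≤ f) {x y : M} (hx : x ∈ e.s) (hy : y ∈ f.s) :
    x * y = y ∨ x * y = 0 := by
  obtain ⟨x', hx', k⟩ := h y hy
  by_cases c : x = x'
  · exact Or.inl (c ▸ k)
  · right
    rw [← k, ← mul_assoc, e.orth x hx x' hx' c, zero_mul]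

section pinch
variable {I : Type*} [Fintype I] {p : I → M}

omit [PartialOrder M] [StarOrderedRing M] in
lemma PartAux.sum_proj {J : Type*} (s : Finset J) {f : J → M}
    (hf : ∀ j ∈ s, IsStarProjection (f j)) (hf' : ∀ i ∈ s, ∀ j ∈ s, i ≠ j → f i * f j = 0) :
    IsStarProjection (∑ j ∈ s, f j) := by
  refine ⟨?_, ?_⟩
  · change (∑ j ∈ s, f j) * (∑ j ∈ s, f j) = ∑ j ∈ s, f j
    rw [Finset.sum_mul_sum]
    refine Finset.sum_congr rfl (fun i hi => ?_)
    rw [Finset.sum_eq_single i (fun j hj hne => hf' i hi j hj hne.symm) (fun h => absurd hi h)]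
    exact (hf i hi).isIdempotentElem
  · change star (∑ j ∈ s, f j) = ∑ j ∈ s, f j
    rw [star_sum]
    exact Finset.sum_congr rfl (fun i hi => (hf i hi).isSelfAdjoint)

omit [PartialOrder M] [StarOrderedRing M] in
lemma PartAux.star_mul_block {J : Type*} (s : Finset J) {e f x : J → M}
    (he : ∀ j ∈ s, IsStarProjection (e j))
    (he' : ∀ i ∈ s, ∀ j ∈ s, i ≠ j → e i * e j = 0) :
    star (∑ j ∈ s, e j * x j * f j) * (∑ j ∈ s, e j * x j * f j) =
      ∑ j ∈ s, star (x j * f j) * e j * (x j * f j) := by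
  rw [star_sum, Finset.sum_mul_sum]
  refine Finset.sum_congr rfl (fun i hi => ?_)
  have k : ∀ j, star (e i * x i * f i) * (e j * x j * f j) =
      star (x i * f i) * (e i * e j) * (x j * f j) := by
    intro j
    rw [mul_assoc (e i), star_mul (e i), (he i hi).isSelfAdjoint.star_eq]
    simp only [mul_assoc]
  rw [Finset.sum_eq_single i (fun j hj hne => by rw [k, he' i hi j hj hne.symm]; simp)
    (fun h => absurd hi h), k, (he i hi).isIdempotentElem.eq]

/-- block diagonal operators -/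
lemma norm_sum_block_le {J : Type*} (s : Finset J) {e f x : J → M} {C : ℝ} (hC : 0 ≤ C)
    (he : ∀ j ∈ s, IsStarProjection (e j)) (hf : ∀ j ∈ s, IsStarProjection (f j))
    (he' : ∀ i ∈ s, ∀ j ∈ s, i ≠ j → e i * e j = 0) (hf' : ∀ i ∈ s, ∀ j ∈ s, i ≠ j → f i * f j = 0)
    (hx : ∀ j ∈ s, ‖x j‖ ≤ C) : ‖∑ j ∈ s, e j * x j * f j‖ ≤ C := by
  have h1 : star (∑ j ∈ s, e j * x j * f j) * (∑ j ∈ s, e j * x j * f j) ≤
      algebraMap ℝ M (C ^ 2) := by
    rw [PartAux.star_mul_block s he he']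
    calc ∑ j ∈ s, star (x j * f j) * e j * (x j * f j) ≤ ∑ j ∈ s, C ^ 2 • f j := by
          refine Finset.sum_le_sum (fun j hj => ?_)
          calc star (x j * f j) * e j * (x j * f j) ≤ star (x j * f j) * 1 * (x j * f j) :=
                star_left_conjugate_le_conjugate (he j hj).le_one _
            _ = star (f j) * (star (x j) * x j) * f j := by simp [mul_assoc]
            _ ≤ ‖star (x j) * x j‖ • (star (f j) * f j) :=
                CStarAlgebra.star_left_conjugate_le_norm_smul (IsSelfAdjoint.star_mul_self _)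
            _ ≤ C ^ 2 • f j := by
                rw [(hf j hj).isSelfAdjoint.star_eq, (hf j hj).isIdempotentElem.eq,
                  CStarRing.norm_star_mul_self, ← sq]
                exact smul_le_smul_of_nonneg_right
                  (pow_le_pow_left₀ (norm_nonneg _) (hx j hj) 2) (hf j hj).nonneg
      _ = C ^ 2 • ∑ j ∈ s, f j := Finset.smul_sum.symm
      _ ≤ C ^ 2 • (1 : M) :=
          smul_le_smul_of_nonneg_left (PartAux.sum_proj s hf hf').le_one (sq_nonneg C)
      _ = _ := (Algebra.algebraMap_eq_smul_one _).symm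
  have h3 := (CStarAlgebra.norm_le_iff_le_algebraMap _ (sq_nonneg C)
    (star_mul_self_nonneg _)).2 h1
  rw [CStarRing.norm_star_mul_self, ← sq] at h3
  exact (pow_le_pow_iff_left₀ (norm_nonneg _) hC two_ne_zero).1 h3

lemma IsPartn.norm_pinch_le (hp : IsPartn A p) (x : M) : ‖∑ i, p i * x * p i‖ ≤ ‖x‖ := by
  exact norm_sum_block_le Finset.univ (x := fun _ => x) (norm_nonneg x) (fun i _ => (hp.1 i).2)
    (fun i _ => (hp.1 i).2) (fun i _ j _ => hp.2.1 i j) (fun i _ j _ => hp.2.1 i j)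
    (fun _ _ => le_rfl)

/-- Kadison-Schwarz -/
lemma IsPartn.pinch_schwarz (hp : IsPartn A p) (x : M) :
    star (∑ i, p i * x * p i) * (∑ i, p i * x * p i) ≤ ∑ i, p i * (star x * x) * p i := by
  rw [PartAux.star_mul_block Finset.univ (x := fun _ => x) (fun i _ => (hp.1 i).2)
    (fun i _ j _ => hp.2.1 i j)]
  refine Finset.sum_le_sum (fun j _ => ?_)
  calc star (x * p j) * p j * (x * p j) ≤ star (x * p j) * 1 * (x * p j) :=
        star_left_conjugate_le_conjugate (hp.1 j).2.le_one _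
    _ = _ := by simp [mul_assoc, (hp.1 j).2.isSelfAdjoint.star_eq]

lemma IsPartn.apply_pinch (hp : IsPartn A p) {ψ : M →ₚ[ℂ] ℂ} (hψ : Central A ψ) (x : M) :
    ψ (∑ i, p i * x * p i) = ψ x := by
  have k : ∀ i, ψ (p i * x * p i) = ψ (x * p i) := by
    intro i
    rw [mul_assoc, hψ _ (hp.1 i).1, mul_assoc, (hp.1 i).2.isIdempotentElem.eq]
  rw [map_sum]
  simp only [k]
  rw [← map_sum, ← Finset.mul_sum, hp.2.2, mul_one]

lemma IsPartn.nrm_pinch_le (hp : IsPartn A p) {ψ : M →ₚ[ℂ] ℂ} (hψ : Central A ψ) (x : M) :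
    nrm ψ (∑ i, p i * x * p i) ≤ nrm ψ x := by
  refine Real.sqrt_le_sqrt ?_
  have := re_mono ψ (hp.pinch_schwarz x)
  rwa [hp.apply_pinch hψ] at this

lemma central_proj_le {ψ : M →ₚ[ℂ] ℂ} (hψ : Central A ψ) {e c : M} (he : IsStarProjection e)
    (heA : e ∈ A) (hc : 0 ≤ c) : ψ (e * c * e) ≤ ψ c := by
  have k1 : ψ (e * c * e) = ψ (c * e) := by
    rw [mul_assoc, hψ _ heA, mul_assoc, he.isIdempotentElem.eq]
  have k2 : ψ ((1 - e) * c * (1 - e)) = ψ (c * (1 - e)) := by
    rw [mul_assoc, hψ _ (sub_mem (one_mem _) heA), mul_assoc, he.one_sub.isIdempotentElem.eq]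
  have k3 : 0 ≤ ψ ((1 - e) * c * (1 - e)) := by
    have := star_left_conjugate_nonneg hc (1 - e)
    rw [he.one_sub.isSelfAdjoint.star_eq] at this
    exact ψ.map_nonneg this
  rw [k2, mul_sub, mul_one, map_sub, sub_nonneg] at k3
  rwa [k1]

lemma central_nrm_mul_le {ψ : M →ₚ[ℂ] ℂ} (hA : IsMasa A) (hψ : Central A ψ) (x : M) {a : M}
    (ha : a ∈ A) : nrm ψ (x * a) ≤ ‖a‖ * nrm ψ x := by
  set d := algebraMap ℝ M (‖a‖ ^ 2) - a * star a with hd
  have hd0 : 0 ≤ d := sub_nonneg.2 CStarAlgebra.mul_star_le_algebraMap_norm_sq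
  have e1 : algebraMap ℝ M (‖a‖ ^ 2) = ((‖a‖ ^ 2 : ℝ) : ℂ) • (1 : M) := by
    rw [Algebra.algebraMap_eq_smul_one, Complex.coe_smul]
  have hdA : d ∈ A := by
    rw [hd, e1]
    exact sub_mem (A.smul_mem (one_mem _) _) (mul_mem ha (star_mem ha))
  have hb : cfc Real.sqrt d ∈ A := hA.cfc_mem hdA _
  have hbb : cfc Real.sqrt d * cfc Real.sqrt d = d := by
    rw [← cfc_mul _ _ d]
    refine (cfc_congr (g := fun t : ℝ => t) (fun t ht => ?_)).trans (cfc_id' ℝ d)
    exact Real.mul_self_sqrt (spectrum_nonneg_of_nonneg hd0 ht)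
  have hbs : IsSelfAdjoint (cfc Real.sqrt d) := cfc_predicate _ _
  have k1 : 0 ≤ ψ (star x * x * d) := by
    have := star_left_conjugate_nonneg (star_mul_self_nonneg x) (cfc Real.sqrt d)
    rw [hbs.star_eq] at this
    have k := ψ.map_nonneg this
    rwa [mul_assoc, hψ _ hb, mul_assoc, hbb] at k
  have k2 : ψ (star (x * a) * (x * a)) = ψ (star x * x * (a * star a)) := by
    rw [star_mul, mul_assoc, hψ _ (star_mem ha)]
    simp only [mul_assoc]
  rw [hd, e1, mul_sub, map_sub, ← k2, mul_smul_comm, mul_one, map_smul, ← nrm_sq', ← nrm_sq',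
    smul_eq_mul, ← Complex.ofReal_mul, ← Complex.ofReal_sub, Complex.zero_le_real, sub_nonneg,
    ← mul_pow] at k1
  exact (pow_le_pow_iff_left₀ (nrm_nonneg _ _)
    (mul_nonneg (norm_nonneg _) (nrm_nonneg _ _)) two_ne_zero).1 k1

end pinch

namespace Part
variable (e : Part A)

omit [PartialOrder M] [StarOrderedRing M] in
lemma S_eq (x : M) : e.S x = ∑ f : e.s, (f : M) * x * f :=
  (Finset.sum_coe_sort e.s (fun f => f * x * f)).symm

omit [PartialOrder M] [StarOrderedRing M] in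
lemma comm_of_le {e f : Part A} (h : e ≤ f) {x y : M} (hx : x ∈ e.s) (hy : y ∈ f.s) :
    y * x = x * y := by
  have k : star (x * y) = y * x := by
    rw [star_mul, (e.proj x hx).isSelfAdjoint.star_eq, (f.proj y hy).isSelfAdjoint.star_eq]
  rcases Part.eq_or_zero h hx hy with k1 | k1
  · rw [← k, k1, (f.proj y hy).isSelfAdjoint.star_eq]
  · rw [← k, k1, star_zero]

omit [PartialOrder M] [StarOrderedRing M] in
lemma sum_of_le {e f : Part A} (h : e ≤ f) {y : M} (hy : y ∈ f.s) (z : M) :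
    ∑ x ∈ e.s, (x * y) * z * (x * y) = y * z * y := by
  obtain ⟨x₀, hx₀, k⟩ := h y hy
  rw [Finset.sum_eq_single x₀ (fun x hx hne => ?_) (fun h => absurd hx₀ h), k]
  rw [← k, ← mul_assoc x, e.orth x hx x₀ hx₀ hne]
  simp

lemma norm_S_le (x : M) : ‖e.S x‖ ≤ ‖x‖ := by
  rw [S_eq]
  exact e.isPartn.norm_pinch_le x
omit [PartialOrder M] [StarOrderedRing M] in
lemma S_add (x y : M) : e.S (x + y) = e.S x + e.S y := by
  simp only [S, mul_add, add_mul, Finset.sum_add_distrib]
omit [PartialOrder M] [StarOrderedRing M] in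
lemma S_sub (x y : M) : e.S (x - y) = e.S x - e.S y := by
  simp only [S, mul_sub, sub_mul, Finset.sum_sub_distrib]
omit [PartialOrder M] [StarOrderedRing M] in
lemma S_smul (c : ℂ) (x : M) : e.S (c • x) = c • e.S x := by
  simp only [S, mul_smul_comm, smul_mul_assoc, Finset.smul_sum]
omit [PartialOrder M] [StarOrderedRing M] in
lemma S_star (x : M) : e.S (star x) = star (e.S x) := by
  rw [S, S, star_sum]
  refine Finset.sum_congr rfl (fun f hf => ?_)
  simp only [star_mul, (e.proj f hf).isSelfAdjoint.star_eq, mul_assoc]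
lemma S_nonneg {x : M} (hx : 0 ≤ x) : 0 ≤ e.S x := by
  refine Finset.sum_nonneg (fun f hf => ?_)
  have := star_left_conjugate_nonneg hx f
  rwa [(e.proj f hf).isSelfAdjoint.star_eq] at this
omit [PartialOrder M] [StarOrderedRing M] in
lemma S_mul (hA : IsMasa A) {a b : M} (ha : a ∈ A) (hb : b ∈ A) (x : M) :
    e.S (a * x * b) = a * e.S x * b := by
  rw [S, S, Finset.mul_sum, Finset.sum_mul]
  refine Finset.sum_congr rfl (fun f hf => ?_)
  calc f * (a * x * b) * f = (f * a) * x * (b * f) := by simp only [mul_assoc]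
    _ = (a * f) * x * (f * b) := by rw [hA.comm ha (e.mem f hf), hA.comm hb (e.mem f hf)]
    _ = _ := by simp only [mul_assoc]
omit [PartialOrder M] [StarOrderedRing M] in
lemma S_of_mem (hA : IsMasa A) {a : M} (ha : a ∈ A) : e.S a = a := by
  calc e.S a = ∑ f ∈ e.s, a * f := by
        refine Finset.sum_congr rfl (fun f hf => ?_)
        rw [← hA.comm ha (e.mem f hf), mul_assoc, (e.proj f hf).isIdempotentElem.eq]
    _ = a := by rw [← Finset.mul_sum, e.sum, mul_one]
omit [PartialOrder M] [StarOrderedRing M] in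
lemma S_S {e f : Part A} (h : e ≤ f) (x : M) : f.S (e.S x) = f.S x ∧ e.S (f.S x) = f.S x := by
  constructor
  · refine Finset.sum_congr rfl (fun y hy => ?_)
    rw [← sum_of_le h hy x, S, Finset.mul_sum, Finset.sum_mul]
    refine Finset.sum_congr rfl (fun z hz => ?_)
    calc y * (z * x * z) * y = (y * z) * x * (z * y) := by simp only [mul_assoc]
      _ = _ := by rw [comm_of_le h hz hy]
  · simp only [S, Finset.mul_sum, Finset.sum_mul]
    rw [Finset.sum_comm]
    refine Finset.sum_congr rfl (fun y hy => ?_)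
    refine Eq.trans ?_ (sum_of_le h hy x)
    refine Finset.sum_congr rfl (fun z hz => ?_)
    calc z * (y * x * y) * z = (z * y) * x * (y * z) := by simp only [mul_assoc]
      _ = _ := by rw [comm_of_le h hz hy]
omit [PartialOrder M] [StarOrderedRing M] in
lemma comm_S {p : M} (hA : IsMasa A) (hp : p ∈ A) (h : ∀ y ∈ e.s, p * y = y ∨ p * y = 0) (x : M) :
    p * e.S x = e.S x * p := by
  rw [S, Finset.mul_sum, Finset.sum_mul]
  refine Finset.sum_congr rfl (fun y hy => ?_)
  have c := hA.comm hp (e.mem y hy)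
  calc p * (y * x * y) = (p * y) * x * y := by simp only [mul_assoc]
    _ = y * x * (p * y) := by rcases h y hy with k | k <;> simp [k]
    _ = _ := by rw [c]; simp only [mul_assoc]

end Part

/-- a weak limit of pinchings along a filter finer than `atTop` lies in `A` -/
theorem WAlg.wlim_S_mem (𝒲 : WAlg M) (hA : IsMasa A) {l : Filter (Part A)} [l.NeBot]
    (hl : l ≤ atTop) {x a : M} (h : 𝒲.WLim l (fun e => e.S x) a) : a ∈ A := by
  refine 𝒲.mem_of_commute_proj hA (fun p hp hp' => ?_)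
  obtain ⟨e, he⟩ := Part.exists_adapted hp' hp
  have := h.eq_of_eventually (a := p) (b := 1) (c := 1) (d := p) (by
    filter_upwards [hl (eventually_ge_atTop e)] with f hf
    rw [mul_one, one_mul]
    exact f.comm_S hA hp (he f hf) x)
  simpa using this

/-- Radon-Nikodym: `h` is a weak limit of `∑ (ψ f / φ f) f`. -/
theorem WAlg.radon_nikodym (𝒲 : WAlg M) (hA : IsMasa A) {φ ψ : M →ₚ[ℂ] ℂ} (hφ : 𝒲.Normal φ)
    {C : ℝ} (hC : 0 ≤ C) (h : ∀ a ∈ A, 0 ≤ a → (ψ a).re ≤ C * (φ a).re) :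
    ∃ k ∈ A, 0 ≤ k ∧ k ≤ C • (1 : M) ∧ ∀ a ∈ A, ψ a = φ (a * k) := by
  have := Part.directed hA
  set 𝒰 : Ultrafilter (Part A) := Ultrafilter.of atTop
  have hl : (𝒰 : Filter (Part A)) ≤ atTop := Ultrafilter.of_le _
  let c : M → ℝ := fun f => (ψ f).re / (φ f).re
  let K : Part A → M := fun e => ∑ f ∈ e.s, c f • f
  have c0 : ∀ (e : Part A), ∀ f ∈ e.s, 0 ≤ c f := fun e f hf =>
    div_nonneg (ψ.map_nonneg (e.proj f hf).nonneg).1 (φ.map_nonneg (e.proj f hf).nonneg).1
  have c1 : ∀ (e : Part A), ∀ f ∈ e.s, c f ≤ C := fun e f hf =>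
    div_le_of_le_mul₀ (φ.map_nonneg (e.proj f hf).nonneg).1 hC
      (h f (e.mem f hf) (e.proj f hf).nonneg)
  have c2 : ∀ (e : Part A), ∀ f ∈ e.s, (c f : ℂ) * φ f = ψ f := by
    intro e f hf
    have p1 := φ.map_nonneg (e.proj f hf).nonneg
    have p2 := ψ.map_nonneg (e.proj f hf).nonneg
    have p3 := h f (e.mem f hf) (e.proj f hf).nonneg
    have q1 : φ f = ((φ f).re : ℂ) := Complex.ext rfl (by simpa using p1.2.symm)
    have q2 : ψ f = ((ψ f).re : ℂ) := Complex.ext rfl (by simpa using p2.2.symm)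
    rw [q1, q2, ← Complex.ofReal_mul, Complex.ofReal_inj]
    by_cases z : (φ f).re = 0
    · rw [z, mul_zero] at p3 ⊢
      exact le_antisymm p2.1 p3
    · exact div_mul_cancel₀ _ z
  have K0 : ∀ e, 0 ≤ K e := fun e =>
    Finset.sum_nonneg (fun f hf => smul_nonneg (c0 e f hf) (e.proj f hf).nonneg)
  have K1 : ∀ e, K e ≤ C • (1 : M) := by
    intro e
    rw [← e.sum, Finset.smul_sum]
    exact Finset.sum_le_sum (fun f hf =>
      smul_le_smul_of_nonneg_right (c1 e f hf) (e.proj f hf).nonneg)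
  have K2 : ∀ e, ‖K e‖ ≤ C := fun e =>
    (CStarAlgebra.norm_le_iff_le_algebraMap _ hC (K0 e)).2
      (by rw [Algebra.algebraMap_eq_smul_one]; exact K1 e)
  have KA : ∀ e, K e ∈ A := fun e => sum_mem (fun f hf => by
    rw [← Complex.coe_smul]; exact A.smul_mem (e.mem f hf) _)
  obtain ⟨k, hk⟩ := 𝒲.exists_wlim 𝒰 (f := K) (Eventually.of_forall K2)
  refine ⟨k, hk.mem_masa hA (Eventually.of_forall KA), hk.nonneg (Eventually.of_forall K0),
    hk.le (WLim.const _) (Eventually.of_forall K1), ?_⟩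
  refine 𝒲.eqOn_of_proj hA ⟨ψ.toLinearMap, map_continuous ψ⟩
    ((⟨φ.toLinearMap, map_continuous φ⟩ : M →L[ℂ] ℂ).comp
      ((ContinuousLinearMap.mul ℂ M).flip k)) (fun p hp hp' => ?_)
  change ψ p = φ (p * k)
  obtain ⟨e, he⟩ := Part.exists_adapted hp' hp
  have t1 := (hφ.mul p 1).tendsto (Eventually.of_forall K2) hk
  simp only [mul_one] at t1
  refine tendsto_nhds_unique (tendsto_const_nhds.congr' ?_) t1
  filter_upwards [hl (eventually_ge_atTop e)] with f hf
  calc ψ p = ψ (∑ y ∈ f.s, p * y) := by rw [← Finset.mul_sum, f.sum, mul_one]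
    _ = φ (p * K f) := by
      rw [Finset.mul_sum, map_sum, map_sum]
      refine Finset.sum_congr rfl (fun y hy => ?_)
      rw [← Complex.coe_smul, mul_smul_comm, map_smul, smul_eq_mul]
      rcases he f hf y hy with z | z
      · rw [z, c2 f y hy]
      · rw [z, map_zero, map_zero, mul_zero]

end Vale.Agent.P078
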