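import Mathlib

/-! The mixed determinant `Q` (definitions only).
`Q β X W R = ∑ over assignments c : W → ι of (∏ β v (c v)) * ∏ i, det (X i)[R i ∪ c⁻¹ i]`. -/

namespace Vale.Agent.P078

open Finset
open scoped ComplexOrder

variable {V ι : Type*} [DecidableEq V] [Fintype ι] [DecidableEq ι]

/-- principal minor -/
noncomputable def minor (Y : V → V → ℂ) (S : Finset V) : ℂ :=
  Matrix.det (Matrix.of fun a b : S => Y a b)

/-- put `v` into copy `i` -/
def ins (R : ι → Finset V) (v : V) (i : ι) : ι → Finset V :=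
  Function.update R i (insert v (R i))

/-- the operator distributing `v` over the copies -/
noncomputable def Tstep (β : V → ι → ℂ) (v : V) (F : (ι → Finset V) → ℂ) :
    (ι → Finset V) → ℂ := fun R => ∑ i, β v i * F (ins R v i)

lemma ins_comm (R : ι → Finset V) (u v : V) (i j : ι) :
    ins (ins R u i) v j = ins (ins R v j) u i := by
  funext k
  by_cases hi : k = i <;> by_cases hj : k = j
  · subst hi; subst hj; simp [ins, Finset.insert_comm]
  · subst hi; simp [ins, Function.update_of_ne hj, Function.update_of_ne (Ne.symm hj)]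
  · subst hj; simp [ins, Function.update_of_ne hi, Function.update_of_ne (Ne.symm hi)]
  · simp [ins, Function.update_of_ne hi, Function.update_of_ne hj]

instance instLeftCommTstep (β : V → ι → ℂ) : LeftCommutative (Tstep β) := ⟨by
  intro u v F
  funext R
  simp only [Tstep, Finset.mul_sum]
  rw [Finset.sum_comm]
  refine Finset.sum_congr rfl fun i _ => Finset.sum_congr rfl fun j _ => ?_
  rw [ins_comm]; ring⟩

/-- the mixed determinant -/
noncomputable def Q (β : V → ι → ℂ) (X : ι → V → V → ℂ) (W : Finset V) (R : ι → Finset V) : ℂ :=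
  Multiset.foldr (Tstep β) (fun R => ∏ i, minor (X i) (R i)) W.val R

@[simp] lemma Q_empty (β : V → ι → ℂ) (X : ι → V → V → ℂ) (R : ι → Finset V) :
    Q β X ∅ R = ∏ i, minor (X i) (R i) := by
  simp [Q]

lemma Q_insert (β : V → ι → ℂ) (X : ι → V → V → ℂ) {W : Finset V} {v : V} (hv : v ∉ W)
    (R : ι → Finset V) : Q β X (insert v W) R = ∑ i, β v i * Q β X W (ins R v i) := by
  have h1 : ∀ (W : Finset V) (F : (ι → Finset V) → ℂ) (R : ι → Finset V),
      Multiset.foldr (Tstep β) (Tstep β v F) W.val R =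
        ∑ i, β v i * Multiset.foldr (Tstep β) F W.val (ins R v i) := by
    intro W
    induction W using Finset.induction_on with
    | empty => intro F R; simp [Tstep]
    | insert u W hu ih =>
      intro F R
      rw [Finset.insert_val_of_notMem hu]
      simp only [Multiset.foldr_cons]
      simp only [Tstep, ih, Finset.mul_sum]
      rw [Finset.sum_comm]
      refine Finset.sum_congr rfl fun i _ => Finset.sum_congr rfl fun j _ => ?_
      rw [ins_comm]; ring
  unfold Q
  rw [Finset.insert_val_of_notMem hv, Multiset.foldr_cons]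
  rfl

/-- the empty family -/
def R0 : ι → Finset V := fun _ => ∅

/-- add `τ` to the `(v,v)` entry of copy `i` -/
noncomputable def addDiag (X : ι → V → V → ℂ) (i : ι) (v : V) (τ : ℂ) : ι → V → V → ℂ :=
  Function.update X i fun a b => X i a b + if a = v ∧ b = v then τ else 0

/-- add the diagonal matrix `c` to every copy -/
noncomputable def shiftD (X : ι → V → V → ℂ) (c : V → ℂ) : ι → V → V → ℂ :=
  fun i a b => X i a b + if a = b then c a else 0

/-- total weight of a vertex -/
noncomputable def bsum (β : V → ι → ℂ) (v : V) : ℂ := ∑ i, β v i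

/-- pivot of `v` in copy `i` (for `v ∉ W ∪ R i`) -/
noncomputable def piv (β : V → ι → ℂ) (X : ι → V → V → ℂ) (W : Finset V) (R : ι → Finset V)
    (v : V) (i : ι) : ℂ := Q β X W (ins R v i) / Q β X W R

/-- self energy of `v` in copy `i` -/
noncomputable def se (β : V → ι → ℂ) (X : ι → V → V → ℂ) (W : Finset V) (R : ι → Finset V)
    (v : V) (i : ι) : ℂ := X i v v - piv β X W R v i

/-- averaged self energy of `v ∈ W` -/
noncomputable def mbar (β : V → ι → ℂ) (X : ι → V → V → ℂ) (W : Finset V) (v : V) : ℂ :=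
  (∑ i, β v i * se β X (W.erase v) R0 v i) / bsum β v

/-- averaged pivot of `v ∈ W` -/
noncomputable def nbar (β : V → ι → ℂ) (X : ι → V → V → ℂ) (W : Finset V) (v : V) : ℂ :=
  (∑ i, β v i * piv β X (W.erase v) R0 v i) / bsum β v

/-- the Green function `∂_{z_v} log Q` -/
noncomputable def G (β : V → ι → ℂ) (X : ι → V → V → ℂ) (W : Finset V) (v : V) : ℂ :=
  bsum β v * Q β X (W.erase v) R0 / Q β X W R0

/-- quadratic form of `Y` on `U` -/
noncomputable def qform (Y : V → V → ℂ) (U : Finset V) (ξ : V → ℂ) : ℂ :=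
  ∑ a ∈ U, ∑ b ∈ U, star (ξ a) * Y a b * ξ b

/-- `Im Y ≥ diag ρ` on `U` -/
def ImGe (ρ : V → ℝ) (Y : V → V → ℂ) (U : Finset V) : Prop :=
  ∀ ξ : V → ℂ, ∑ a ∈ U, ρ a * ‖ξ a‖ ^ 2 ≤ (qform Y U ξ).im

/-- nonnegative weights with positive sum -/
def PosW (β : V → ι → ℂ) (W : Finset V) : Prop :=
  ∀ v ∈ W, (∀ i, 0 ≤ β v i) ∧ 0 < bsum β v

/-- all copies are Hermitian -/
def Herm (X : ι → V → V → ℂ) : Prop := ∀ i a b, X i b a = star (X i a b)

/-- positive semidefinite on `U` -/
def PSDOn (Y : V → V → ℂ) (U : Finset V) : Prop := ∀ ξ : V → ℂ, 0 ≤ (qform Y U ξ).re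

/-- contraction on `U` -/
def ContrOn (Y : V → V → ℂ) (U : Finset V) : Prop :=
  ∀ ξ : V → ℂ, ‖qform Y U ξ‖ ≤ ∑ a ∈ U, ‖ξ a‖ ^ 2

/-- feasibility (above the roots) -/
def Feas (β : V → ι → ℂ) (X : ι → V → V → ℂ) (W : Finset V) (R : ι → Finset V) : Prop :=
  ∀ t : ℝ, 0 ≤ t → 0 < Q β (shiftD X fun _ => (t : ℂ)) W R

/-- `diag z - Y` -/
noncomputable def dm (z : V → ℂ) (Y : ι → V → V → ℂ) : ι → V → V → ℂ :=
  fun i a b => (if a = b then z a else 0) - Y i a b

end Vale.Agent.P078
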