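import Vale.Agent.P078.Q

/-! Structural properties of `Q`.  All are proved by `Finset.induction_on W` generalizing `R`
(with `Q_empty`, `Q_insert`), the base case being a fact about determinants. -/

namespace Vale.Agent.P078

open Finset
open scoped ComplexOrder

namespace QBasicAux

variable {V : Type*} [DecidableEq V]

lemma minor_congr {Y Y' : V → V → ℂ} {S : Finset V} (h : ∀ a ∈ S, ∀ b ∈ S, Y a b = Y' a b) :
    minor Y S = minor Y' S := by
  unfold minor
  congr 1
  ext a b
  exact h a a.2 b b.2

lemma minor_empty (Y : V → V → ℂ) : minor Y ∅ = 1 := by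
  unfold minor
  exact Matrix.det_isEmpty

lemma minor_singleton (Y : V → V → ℂ) (v : V) : minor Y {v} = Y v v := by
  unfold minor
  rw [Matrix.det_unique]
  simp

/-- the subtype of a subtype versus the filtered finite set -/
def filterEquiv (S : Finset V) (p : V → Prop) [DecidablePred p] :
    {a : S // p a.1} ≃ (S.filter p) where
  toFun a := ⟨a.1.1, Finset.mem_filter.2 ⟨a.1.2, a.2⟩⟩
  invFun a := ⟨⟨a.1, (Finset.mem_filter.1 a.2).1⟩, (Finset.mem_filter.1 a.2).2⟩
  left_inv _ := rfl
  right_inv _ := rfl

lemma minor_filter (Y : V → V → ℂ) (S : Finset V) (p : V → Prop) [DecidablePred p] :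
    minor Y (S.filter p) =
      (Matrix.toSquareBlockProp (Matrix.of fun a b : S => Y a b) fun a : S => p a.1).det := by
  unfold minor
  rw [← Matrix.det_submatrix_equiv_self (filterEquiv S p)]
  rfl

lemma minor_block (Y : V → V → ℂ) (S : Finset V) (p : V → Prop) [DecidablePred p]
    (h : ∀ a ∈ S, ∀ b ∈ S, p a → ¬ p b → Y a b = 0) :
    minor Y S = minor Y (S.filter p) * minor Y (S.filter fun v => ¬ p v) := by
  rw [minor_filter, minor_filter]
  unfold minor
  have := Matrix.twoBlockTriangular_det' (Matrix.of fun a b : S => Y a b) (fun a : S => p a.1)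
    (fun a ha b hb => h a a.2 b b.2 ha hb)
  convert this

lemma minor_insert_addDiag (Y : V → V → ℂ) {S : Finset V} {v : V} (hv : v ∉ S) (τ : ℂ) :
    minor (fun a b => Y a b + if a = v ∧ b = v then τ else 0) (insert v S) =
      minor Y (insert v S) + τ * minor Y S := by
  set v' : (insert v S : Finset V) := ⟨v, Finset.mem_insert_self v S⟩ with hv'
  set M : Matrix (insert v S : Finset V) (insert v S : Finset V) ℂ :=
    Matrix.of fun a b => Y a b with hM
  have h1 : (Matrix.of fun a b : (insert v S : Finset V) =>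
      Y a b + if a.1 = v ∧ b.1 = v then τ else 0) =
      M.updateRow v' (M v' + τ • (fun b => if b.1 = v then (1 : ℂ) else 0)) := by
    ext a b
    by_cases ha : a = v'
    · subst ha
      simp [hM, hv']
    · have : a.1 ≠ v := fun h => ha (Subtype.ext h)
      simp [hM, Matrix.updateRow_ne ha, this]
  have h2 : (M.updateRow v' (fun b => if b.1 = v then (1 : ℂ) else 0)).det = minor Y S := by
    set Y' : V → V → ℂ := fun a b => if a = v then (if b = v then 1 else 0) else Y a b with hY'
    have h3 : (M.updateRow v' (fun b => if b.1 = v then (1 : ℂ) else 0)).det =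
        minor Y' (insert v S) := by
      unfold minor
      congr 1
      ext a b
      by_cases ha : a = v'
      · subst ha
        simp [hY', hv']
      · have : a.1 ≠ v := fun h => ha (Subtype.ext h)
        simp [hM, hY', Matrix.updateRow_ne ha, this]
    rw [h3, minor_block Y' (insert v S) (fun a => a = v)]
    · have e1 : (insert v S).filter (fun a => a = v) = {v} := by
        ext a; simp only [Finset.mem_filter, Finset.mem_insert, Finset.mem_singleton]; tauto
      have e2 : (insert v S).filter (fun a => ¬ a = v) = S := by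
        ext a
        simp only [Finset.mem_filter, Finset.mem_insert]
        constructor
        · rintro ⟨h | h, h'⟩
          · exact absurd h h'
          · exact h
        · intro h
          exact ⟨Or.inr h, fun h' => hv (h' ▸ h)⟩
      rw [e1, e2, minor_singleton]
      have e3 : minor Y' S = minor Y S := minor_congr fun a ha b _ => by
        have : a ≠ v := fun h' => hv (h' ▸ ha)
        simp [hY', this]
      rw [e3]
      simp [hY']
    · intro a _ b _ ha hb
      simp [hY', ha, hb]
  unfold minor at h2 ⊢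
  rw [h1, Matrix.det_updateRow_add, Matrix.det_updateRow_smul, Matrix.updateRow_eq_self, h2]

lemma minor_scale (Y : V → V → ℂ) (S : Finset V) (d d' : V → ℂ) :
    minor (fun a b => d a * Y a b * d' b) S = (∏ v ∈ S, d v * d' v) * minor Y S := by
  unfold minor
  have h1 : (Matrix.of fun a b : S => d a * Y a b * d' b) =
      Matrix.diagonal (fun a : S => d a) * (Matrix.of fun a b : S => Y a b) *
        Matrix.diagonal (fun a : S => d' a) := by
    ext a b
    simp [Matrix.mul_diagonal, Matrix.diagonal_mul]
  rw [h1, Matrix.det_mul, Matrix.det_mul, Matrix.det_diagonal, Matrix.det_diagonal,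
    Finset.prod_mul_distrib, Finset.prod_coe_sort S d, Finset.prod_coe_sort S d']
  ring

lemma minor_image {V' : Type*} [DecidableEq V'] (f : V → V') (Y : V' → V' → ℂ) {S : Finset V}
    (hf : Set.InjOn f S) : minor Y (S.image f) = minor (fun a b => Y (f a) (f b)) S := by
  unfold minor
  let g : S → (S.image f) := fun a => ⟨f a, Finset.mem_image_of_mem f a.2⟩
  have hg : Function.Bijective g := by
    constructor
    · intro a b hab
      exact Subtype.ext (hf a.2 b.2 (congrArg Subtype.val hab))
    · rintro ⟨b, hb⟩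
      obtain ⟨a, ha, rfl⟩ := Finset.mem_image.1 hb
      exact ⟨⟨a, ha⟩, rfl⟩
  rw [← Matrix.det_submatrix_equiv_self (Equiv.ofBijective g hg)]
  rfl

lemma minor_star (Y : V → V → ℂ) (S : Finset V) :
    minor (fun a b => star (Y b a)) S = star (minor Y S) := by
  unfold minor
  rw [← Matrix.det_conjTranspose]
  rfl

lemma minor_differentiableAt {Y : ℂ → V → V → ℂ} {z : ℂ} (S : Finset V)
    (hY : ∀ a b, DifferentiableAt ℂ (fun t => Y t a b) z) :
    DifferentiableAt ℂ (fun t => minor (Y t) S) z := by
  unfold minor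
  simp only [Matrix.det_apply', Matrix.of_apply]
  refine DifferentiableAt.fun_sum fun σ _ => DifferentiableAt.const_mul ?_ _
  exact DifferentiableAt.fun_finsetProd fun a _ => hY _ _

lemma minor_continuousAt {T : Type*} [TopologicalSpace T] {Y : T → V → V → ℂ} {z : T}
    (S : Finset V) (hY : ∀ a b, ContinuousAt (fun t => Y t a b) z) :
    ContinuousAt (fun t => minor (Y t) S) z := by
  unfold minor
  simp only [Matrix.det_apply', Matrix.of_apply]
  refine tendsto_finsetSum _ fun σ _ => Filter.Tendsto.const_mul _ ?_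
  exact tendsto_finsetProd _ fun a _ => hY _ _

lemma ins_self {ι : Type*} [DecidableEq ι] (R : ι → Finset V) (v : V) (i : ι) :
    ins R v i i = insert v (R i) := by simp [ins]

lemma ins_ne {ι : Type*} [DecidableEq ι] (R : ι → Finset V) (v : V) {i j : ι} (h : j ≠ i) :
    ins R v i j = R j := by simp [ins, Function.update_of_ne h]

lemma mem_ins {ι : Type*} [DecidableEq ι] {R : ι → Finset V} {v a : V} {i j : ι}
    (h : a ∈ ins R v i j) : a = v ∨ a ∈ R j := by
  by_cases hj : j = i
  · subst hj; rw [ins_self] at h; exact Finset.mem_insert.1 h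
  · rw [ins_ne _ _ hj] at h; exact Or.inr h

lemma mem_union_ins {ι : Type*} [DecidableEq ι] {R : ι → Finset V} {W : Finset V} {v a : V}
    {i j : ι} (h : a ∈ W ∪ ins R v i j) : a ∈ insert v W ∪ R j := by
  rcases Finset.mem_union.1 h with h | h
  · exact Finset.mem_union_left _ (Finset.mem_insert_of_mem h)
  · rcases mem_ins h with rfl | h
    · exact Finset.mem_union_left _ (Finset.mem_insert_self _ _)
    · exact Finset.mem_union_right _ h

end QBasicAux

open QBasicAux

variable {V ι : Type*} [DecidableEq V] [Fintype ι] [DecidableEq ι]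

lemma Q_erase (β : V → ι → ℂ) (X : ι → V → V → ℂ) {W : Finset V} {v : V} (hv : v ∈ W)
    (R : ι → Finset V) : Q β X W R = ∑ i, β v i * Q β X (W.erase v) (ins R v i) := by
  conv_lhs => rw [← Finset.insert_erase hv]
  exact Q_insert β X (Finset.notMem_erase v W) R

lemma Q_congr {β β' : V → ι → ℂ} {X X' : ι → V → V → ℂ} {W : Finset V} {R : ι → Finset V}
    (hβ : ∀ v ∈ W, β v = β' v)
    (hX : ∀ i, ∀ a ∈ W ∪ R i, ∀ b ∈ W ∪ R i, X i a b = X' i a b) :
    Q β X W R = Q β' X' W R := by
  induction W using Finset.induction_on generalizing R with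
  | empty =>
    simp only [Q_empty]
    exact Finset.prod_congr rfl fun i _ => minor_congr fun a ha b hb =>
      hX i a (Finset.mem_union_right _ ha) b (Finset.mem_union_right _ hb)
  | insert u W hu ih =>
    rw [Q_insert _ _ hu, Q_insert _ _ hu, hβ u (Finset.mem_insert_self _ _)]
    refine Finset.sum_congr rfl fun j _ => ?_
    rw [ih (fun v hv => hβ v (Finset.mem_insert_of_mem hv))
      (fun i a ha b hb => hX i a (mem_union_ins ha) b (mem_union_ins hb))]

/-- affine in a diagonal entry -/
lemma Q_ins_addDiag (β : V → ι → ℂ) (X : ι → V → V → ℂ) {W : Finset V} {R : ι → Finset V}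
    {v : V} {i : ι} (hvW : v ∉ W) (hvR : v ∉ R i) (τ : ℂ) :
    Q β (addDiag X i v τ) W (ins R v i) = Q β X W (ins R v i) + τ * Q β X W R := by
  induction W using Finset.induction_on generalizing R with
  | empty =>
    simp only [Q_empty]
    rw [← Finset.mul_prod_erase _ _ (Finset.mem_univ i),
      ← Finset.mul_prod_erase _ (fun j => minor (X j) (ins R v i j)) (Finset.mem_univ i),
      ← Finset.mul_prod_erase _ (fun j => minor (X j) (R j)) (Finset.mem_univ i)]
    have e1 : ∏ j ∈ Finset.univ.erase i, minor (addDiag X i v τ j) (ins R v i j) =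
        ∏ j ∈ Finset.univ.erase i, minor (X j) (R j) :=
      Finset.prod_congr rfl fun j hj => by
        have hj' := Finset.ne_of_mem_erase hj
        rw [ins_ne _ _ hj', addDiag, Function.update_of_ne hj']
    have e2 : ∏ j ∈ Finset.univ.erase i, minor (X j) (ins R v i j) =
        ∏ j ∈ Finset.univ.erase i, minor (X j) (R j) :=
      Finset.prod_congr rfl fun j hj => by rw [ins_ne _ _ (Finset.ne_of_mem_erase hj)]
    rw [e1, e2, ins_self, addDiag, Function.update_self, minor_insert_addDiag _ hvR]
    ring
  | insert u W hu ih =>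
    have huv : v ≠ u := fun h => hvW (h ▸ Finset.mem_insert_self _ _)
    have hvW' : v ∉ W := fun h => hvW (Finset.mem_insert_of_mem h)
    rw [Q_insert _ _ hu, Q_insert _ _ hu, Q_insert _ _ hu, Finset.mul_sum,
      ← Finset.sum_add_distrib]
    refine Finset.sum_congr rfl fun j _ => ?_
    have h : v ∉ ins R u j i := fun h => (mem_ins h).elim huv hvR
    rw [ins_comm R v u i j, ih hvW' h]
    ring

lemma Q_shift_single (β : V → ι → ℂ) (X : ι → V → V → ℂ) {W : Finset V} {R : ι → Finset V}
    {v : V} (hv : v ∈ W) (hR : ∀ i, v ∉ R i) (τ : ℂ) :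
    Q β (shiftD X (Pi.single v τ)) W R = Q β X W R + τ * (bsum β v * Q β X (W.erase v) R) := by
  rw [Q_erase _ _ hv, Q_erase β X hv, bsum, Finset.sum_mul, Finset.mul_sum,
    ← Finset.sum_add_distrib]
  refine Finset.sum_congr rfl fun i _ => ?_
  have h : Q β (shiftD X (Pi.single v τ)) (W.erase v) (ins R v i) =
      Q β (addDiag X i v τ) (W.erase v) (ins R v i) := by
    refine Q_congr (fun _ _ => rfl) fun j a ha b hb => ?_
    by_cases hj : j = i
    · subst hj
      simp only [shiftD, addDiag, Function.update_self, Pi.single_apply]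
      by_cases h1 : a = v <;> by_cases h2 : b = v <;> by_cases h3 : a = b <;> simp_all
    · rw [ins_ne _ _ hj] at ha
      have hav : a ≠ v := by
        rintro rfl
        rcases Finset.mem_union.1 ha with h | h
        · exact Finset.notMem_erase _ _ h
        · exact hR j h
      simp [shiftD, addDiag, Function.update_of_ne hj, hav]
  rw [h, Q_ins_addDiag β X (Finset.notMem_erase v W) (hR i)]
  ring

lemma Q_update_add (β : V → ι → ℂ) (X : ι → V → V → ℂ) {W : Finset V} (R : ι → Finset V)
    {v : V} (hv : v ∈ W) (γ γ' : ι → ℂ) (c : ℂ) :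
    Q (Function.update β v (γ + c • γ')) X W R =
      Q (Function.update β v γ) X W R + c * Q (Function.update β v γ') X W R := by
  have h : ∀ (δ : ι → ℂ) (R' : ι → Finset V),
      Q (Function.update β v δ) X (W.erase v) R' = Q β X (W.erase v) R' := fun δ R' =>
    Q_congr (fun u hu => Function.update_of_ne (Finset.ne_of_mem_erase hu) _ _)
      fun _ _ _ _ _ => rfl
  rw [Q_erase _ _ hv, Q_erase _ _ hv, Q_erase _ _ hv, Finset.mul_sum, ← Finset.sum_add_distrib]
  refine Finset.sum_congr rfl fun i _ => ?_
  simp only [h, Function.update_self, Pi.add_apply, Pi.smul_apply, smul_eq_mul]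
  ring

/-- left and right diagonal scalings -/
lemma Q_scale (β : V → ι → ℂ) (X : ι → V → V → ℂ) {W : Finset V} {R : ι → Finset V}
    (hd : ∀ i, Disjoint W (R i)) (d d' : V → ι → ℂ) :
    Q β (fun i a b => d a i * X i a b * d' b i) W R =
      (∏ i, ∏ v ∈ R i, d v i * d' v i) * Q (fun v i => β v i * (d v i * d' v i)) X W R := by
  induction W using Finset.induction_on generalizing R with
  | empty =>
    simp only [Q_empty]
    rw [← Finset.prod_mul_distrib]
    exact Finset.prod_congr rfl fun i _ => minor_scale (X i) (R i) (fun a => d a i) fun a => d' a i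
  | insert u W hu ih =>
    rw [Q_insert _ _ hu, Q_insert _ _ hu, Finset.mul_sum]
    refine Finset.sum_congr rfl fun j _ => ?_
    have huR : u ∉ R j := fun h =>
      Finset.disjoint_left.1 (hd j) (Finset.mem_insert_self _ _) h
    have hd' : ∀ i, Disjoint W (ins R u j i) := fun i =>
      Finset.disjoint_left.2 fun a ha ha' => (mem_ins ha').elim (fun h => hu (h ▸ ha))
        fun h => Finset.disjoint_left.1 (hd i) (Finset.mem_insert_of_mem ha) h
    have e : (∏ i, ∏ v ∈ ins R u j i, d v i * d' v i) =
        (d u j * d' u j) * ∏ i, ∏ v ∈ R i, d v i * d' v i := by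
      rw [← Finset.mul_prod_erase _ _ (Finset.mem_univ j),
        ← Finset.mul_prod_erase _ (fun i => ∏ v ∈ R i, d v i * d' v i) (Finset.mem_univ j),
        ins_self, Finset.prod_insert huR, mul_assoc]
      congr 2
      exact Finset.prod_congr rfl fun i hi => by rw [ins_ne _ _ (Finset.ne_of_mem_erase hi)]
    rw [ih hd', e]
    ring

lemma Q_smul_beta (β : V → ι → ℂ) (X : ι → V → V → ℂ) (W : Finset V) (R : ι → Finset V)
    (c : V → ℂ) : Q (fun v i => c v * β v i) X W R = (∏ v ∈ W, c v) * Q β X W R := by
  induction W using Finset.induction_on generalizing R with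
  | empty => simp
  | insert u W hu ih =>
    rw [Q_insert _ _ hu, Q_insert _ _ hu, Finset.mul_sum, Finset.prod_insert hu]
    refine Finset.sum_congr rfl fun j _ => ?_
    rw [ih]
    ring

/-- gauge invariance -/
lemma Q_gauge (β : V → ι → ℂ) (X : ι → V → V → ℂ) {W : Finset V} {R : ι → Finset V}
    (hd : ∀ i, Disjoint W (R i)) (g : V → ι → ℂ) (hg : ∀ v i, ‖g v i‖ = 1) :
    Q β (fun i a b => g a i * X i a b * star (g b i)) W R = Q β X W R := by
  have h1 : ∀ v i, g v i * star (g v i) = 1 := fun v i => by
    rw [Complex.star_def, Complex.mul_conj, Complex.normSq_eq_norm_sq, hg]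
    simp
  rw [Q_scale β X hd g fun v i => star (g v i)]
  simp only [h1, Finset.prod_const_one, mul_one, one_mul]

lemma Q_image {V' : Type*} [DecidableEq V'] (f : V → V') (β : V' → ι → ℂ) (X : ι → V' → V' → ℂ)
    {W : Finset V} {R : ι → Finset V} {U : Finset V} (hf : Set.InjOn f U) (hW : W ⊆ U)
    (hR : ∀ i, R i ⊆ U) :
    Q β X (W.image f) (fun i => (R i).image f) =
      Q (fun v => β (f v)) (fun i a b => X i (f a) (f b)) W R := by
  induction W using Finset.induction_on generalizing R with
  | empty =>
    simp only [Finset.image_empty, Q_empty]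
    exact Finset.prod_congr rfl fun i _ => minor_image f (X i) (hf.mono (hR i))
  | insert u W hu ih =>
    have huU : u ∈ U := hW (Finset.mem_insert_self _ _)
    have hWU : W ⊆ U := fun a ha => hW (Finset.mem_insert_of_mem ha)
    have hu' : f u ∉ W.image f := fun h => by
      obtain ⟨a, ha, h⟩ := Finset.mem_image.1 h
      exact hu (hf (hWU ha) huU h ▸ ha)
    rw [Finset.image_insert, Q_insert _ _ hu', Q_insert _ _ hu]
    refine Finset.sum_congr rfl fun j _ => ?_
    have e : ins (fun i => (R i).image f) (f u) j = fun i => (ins R u j i).image f := by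
      funext i
      by_cases hi : i = j
      · subst hi; rw [ins_self, ins_self, Finset.image_insert]
      · rw [ins_ne _ _ hi, ins_ne _ _ hi]
    rw [e, ih hWU fun i a ha => (mem_ins ha).elim (fun h => h ▸ huU) fun h => hR i h]

lemma Q_perm {ι' : Type*} [Fintype ι'] [DecidableEq ι'] (σ : ι' ≃ ι) (β : V → ι → ℂ)
    (X : ι → V → V → ℂ) (W : Finset V) (R : ι → Finset V) :
    Q (fun v i => β v (σ i)) (fun i => X (σ i)) W (fun i => R (σ i)) = Q β X W R := by
  induction W using Finset.induction_on generalizing R with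
  | empty =>
    simp only [Q_empty]
    exact Equiv.prod_comp σ fun i => minor (X i) (R i)
  | insert u W hu ih =>
    rw [Q_insert _ _ hu, Q_insert _ _ hu,
      ← Equiv.sum_comp σ fun i => β u i * Q β X W (ins R u i)]
    refine Finset.sum_congr rfl fun j _ => ?_
    have e : ins (fun i => R (σ i)) u j = fun i => ins R u (σ j) (σ i) := by
      funext i
      by_cases hi : i = j
      · subst hi; rw [ins_self, ins_self]
      · rw [ins_ne _ _ hi, ins_ne _ _ fun h => hi (σ.injective h)]
    rw [e, ih]

lemma Q_star (β : V → ι → ℂ) (X : ι → V → V → ℂ) (W : Finset V) (R : ι → Finset V) :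
    Q (fun v i => star (β v i)) (fun i a b => star (X i b a)) W R = star (Q β X W R) := by
  induction W using Finset.induction_on generalizing R with
  | empty =>
    simp only [Q_empty]
    rw [star_prod]
    exact Finset.prod_congr rfl fun i _ => minor_star (X i) (R i)
  | insert u W hu ih =>
    rw [Q_insert _ _ hu, Q_insert _ _ hu, star_sum]
    refine Finset.sum_congr rfl fun j _ => ?_
    rw [ih, star_mul']

/-- block triangular factorisation -/
lemma Q_block (β : V → ι → ℂ) (X : ι → V → V → ℂ) (W : Finset V) (R : ι → Finset V)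
    (p : V → Prop) [DecidablePred p]
    (h : ∀ i, ∀ a ∈ W ∪ R i, ∀ b ∈ W ∪ R i, p a → ¬ p b → X i a b = 0) :
    Q β X W R = Q β X (W.filter p) (fun i => (R i).filter p) *
      Q β X (W.filter fun v => ¬ p v) (fun i => (R i).filter fun v => ¬ p v) := by
  induction W using Finset.induction_on generalizing R with
  | empty =>
    simp only [Finset.filter_empty, Q_empty]
    rw [← Finset.prod_mul_distrib]
    exact Finset.prod_congr rfl fun i _ => minor_block (X i) (R i) p fun a ha b hb =>
      h i a (Finset.mem_union_right _ ha) b (Finset.mem_union_right _ hb)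
  | insert u W hu ih =>
    have ih' := fun j => ih (ins R u j)
      fun i a ha b hb => h i a (mem_union_ins ha) b (mem_union_ins hb)
    have e1 : ∀ (q : V → Prop) [DecidablePred q], q u → ∀ j,
        (fun i => (ins R u j i).filter q) = ins (fun i => (R i).filter q) u j := by
      intro q _ hq j
      funext i
      by_cases hi : i = j
      · subst hi; rw [ins_self, ins_self, Finset.filter_insert, if_pos hq]
      · rw [ins_ne _ _ hi, ins_ne _ _ hi]
    have e2 : ∀ (q : V → Prop) [DecidablePred q], ¬ q u → ∀ j,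
        (fun i => (ins R u j i).filter q) = fun i => (R i).filter q := by
      intro q _ hq j
      funext i
      by_cases hi : i = j
      · subst hi; rw [ins_self, Finset.filter_insert, if_neg hq]
      · rw [ins_ne _ _ hi]
    have hu' : ∀ (q : V → Prop) [DecidablePred q], u ∉ W.filter q := fun q _ h =>
      hu (Finset.mem_filter.1 h).1
    rw [Q_insert _ _ hu, Finset.filter_insert, Finset.filter_insert]
    by_cases hp : p u
    · rw [if_pos hp, if_neg (not_not.2 hp), Q_insert _ _ (hu' p), Finset.sum_mul]
      refine Finset.sum_congr rfl fun j _ => ?_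
      rw [ih' j, e1 p hp, e2 (fun v => ¬ p v) (not_not.2 hp)]
      ring
    · rw [if_neg hp, if_pos hp, Q_insert _ _ (hu' fun v => ¬ p v), Finset.mul_sum]
      refine Finset.sum_congr rfl fun j _ => ?_
      rw [ih' j, e2 p hp, e1 (fun v => ¬ p v) hp]
      ring

lemma Q_differentiableAt {β : ℂ → V → ι → ℂ} {X : ℂ → ι → V → V → ℂ} {z : ℂ}
    (W : Finset V) (R : ι → Finset V) (hβ : ∀ v i, DifferentiableAt ℂ (fun t => β t v i) z)
    (hX : ∀ i a b, DifferentiableAt ℂ (fun t => X t i a b) z) :
    DifferentiableAt ℂ (fun t => Q (β t) (X t) W R) z := by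
  induction W using Finset.induction_on generalizing R with
  | empty =>
    simp only [Q_empty]
    exact DifferentiableAt.fun_finsetProd fun i _ => minor_differentiableAt (R i) (hX i)
  | insert u W hu ih =>
    simp only [Q_insert _ _ hu]
    exact DifferentiableAt.fun_sum fun j _ => (hβ u j).fun_mul (ih _)

lemma Q_continuousAt {T : Type*} [TopologicalSpace T] {β : T → V → ι → ℂ}
    {X : T → ι → V → V → ℂ} {z : T} (W : Finset V) (R : ι → Finset V)
    (hβ : ∀ v i, ContinuousAt (fun t => β t v i) z)
    (hX : ∀ i a b, ContinuousAt (fun t => X t i a b) z) :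
    ContinuousAt (fun t => Q (β t) (X t) W R) z := by
  induction W using Finset.induction_on generalizing R with
  | empty =>
    simp only [Q_empty]
    exact tendsto_finsetProd _ fun i _ => minor_continuousAt (R i) (hX i)
  | insert u W hu ih =>
    simp only [Q_insert _ _ hu]
    exact tendsto_finsetSum _ fun j _ => (hβ u j).mul (ih _)

/-! Consequences for `G`, `piv`, `se`, `mbar`, `nbar`. -/

lemma G_congr {β β' : V → ι → ℂ} {X X' : ι → V → V → ℂ} {W : Finset V} {v : V} (hv : v ∈ W)
    (hβ : ∀ v ∈ W, β v = β' v) (hX : ∀ i, ∀ a ∈ W, ∀ b ∈ W, X i a b = X' i a b) :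
    G β X W v = G β' X' W v := by
  have h1 : Q β X W R0 = Q β' X' W R0 :=
    Q_congr hβ fun i a ha b hb => hX i a (by simpa [R0] using ha) b (by simpa [R0] using hb)
  have h2 : Q β X (W.erase v) R0 = Q β' X' (W.erase v) R0 :=
    Q_congr (fun u hu => hβ u (Finset.mem_of_mem_erase hu)) fun i a ha b hb =>
      hX i a (Finset.mem_of_mem_erase (by simpa only [R0, Finset.union_empty] using ha)) b
        (Finset.mem_of_mem_erase (by simpa only [R0, Finset.union_empty] using hb))
  simp only [G, bsum, h1, h2, hβ v hv]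

lemma G_image {V' : Type*} [DecidableEq V'] (f : V → V') (β : V' → ι → ℂ) (X : ι → V' → V' → ℂ)
    {W : Finset V} (hf : Set.InjOn f W) {v : V} (hv : v ∈ W) :
    G β X (W.image f) (f v) = G (fun v => β (f v)) (fun i a b => X i (f a) (f b)) W v := by
  have e0 : (R0 : ι → Finset V') = fun i => ((R0 : ι → Finset V) i).image f := by
    funext i; simp [R0]
  have e1 : (W.image f).erase (f v) = (W.erase v).image f := by
    ext b
    simp only [Finset.mem_erase, Finset.mem_image]
    constructor
    · rintro ⟨hb, a, ha, rfl⟩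
      exact ⟨a, ⟨fun h => hb (h ▸ rfl), ha⟩, rfl⟩
    · rintro ⟨a, ⟨h, ha⟩, rfl⟩
      exact ⟨fun h' => h (hf ha hv h'), a, ha, rfl⟩
  have hR : ∀ i, (R0 : ι → Finset V) i ⊆ W := fun i => Finset.empty_subset _
  unfold G
  rw [e1, e0, Q_image f β X hf (Finset.erase_subset v W) hR,
    Q_image f β X hf (Finset.Subset.refl W) hR]
  rfl

lemma G_gauge (β : V → ι → ℂ) (X : ι → V → V → ℂ) (W : Finset V) (v : V)
    (g : V → ℂ) (hg : ∀ v, ‖g v‖ = 1) :
    G β (fun i a b => g a * X i a b * star (g b)) W v = G β X W v := by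
  have h : ∀ U : Finset V, Q β (fun i a b => g a * X i a b * star (g b)) U R0 = Q β X U R0 :=
    fun U => Q_gauge β X (fun _ => Finset.disjoint_empty_right U) (fun a _ => g a) fun a _ => hg a
  simp only [G, h]

lemma G_smul (β : V → ι → ℂ) (X : ι → V → V → ℂ) {W : Finset V} {v : V} (hv : v ∈ W)
    {c : ℂ} (hc : c ≠ 0) : G β (fun i a b => c * X i a b) W v = G β X W v / c := by
  have h : ∀ U : Finset V, Q β (fun i a b => c * X i a b) U R0 = c ^ U.card * Q β X U R0 :=
    fun U => by
      have h1 := Q_scale β X (R := R0) (fun _ => Finset.disjoint_empty_right U)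
        (fun _ _ => c) fun _ _ => 1
      have h2 := Q_smul_beta β X U R0 fun _ => c
      simp only [mul_one, R0, Finset.prod_empty, Finset.prod_const_one, one_mul] at h1
      simp only [Finset.prod_const, mul_comm c (β _ _)] at h2
      rw [← h2]
      exact h1
  have hc' : W.card = (W.erase v).card + 1 := (Finset.card_erase_add_one hv).symm
  unfold G
  rw [h, h, hc', pow_succ]
  by_cases h0 : Q β X W R0 = 0
  · simp [h0]
  · field_simp

lemma se_smul (β : V → ι → ℂ) (X : ι → V → V → ℂ) {W : Finset V} {v : V} (hv : v ∉ W)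
    (i : ι) {c : ℂ} (hc : c ≠ 0) :
    se β (fun i a b => c * X i a b) W R0 v i = c * se β X W R0 v i := by
  have h : ∀ R : ι → Finset V, (∀ j, Disjoint W (R j)) → Q β (fun i a b => c * X i a b) W R =
      (∏ j, c ^ (R j).card) * (c ^ W.card * Q β X W R) := fun R hR => by
    have h1 := Q_scale β X hR (fun _ _ => c) fun _ _ => 1
    have h2 := Q_smul_beta β X W R fun _ => c
    simp only [mul_one, Finset.prod_const] at h1 h2
    simp only [mul_comm c (β _ _)] at h2
    rw [← h2]
    exact h1
  have hd : ∀ j, Disjoint W (ins R0 v i j) := fun j =>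
    Finset.disjoint_left.2 fun a ha ha' => (mem_ins ha').elim (fun h => hv (h ▸ ha))
      fun h => Finset.notMem_empty a h
  have e1 : (∏ j, c ^ (ins (R0 : ι → Finset V) v i j).card) = c := by
    rw [Finset.prod_eq_single i]
    · simp [ins_self, R0]
    · intro j _ hj
      simp [ins_ne _ _ hj, R0]
    · simp
  have e2 : (∏ j, c ^ ((R0 : ι → Finset V) j).card) = 1 := by simp [R0]
  unfold se piv
  rw [h _ hd, h R0 fun _ => Finset.disjoint_empty_right W, e1, e2]
  by_cases h0 : Q β X W R0 = 0
  · simp [h0]
  · field_simp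

lemma G_perm {ι' : Type*} [Fintype ι'] [DecidableEq ι'] (σ : ι' ≃ ι) (β : V → ι → ℂ)
    (X : ι → V → V → ℂ) (W : Finset V) (v : V) :
    G (fun v i => β v (σ i)) (fun i => X (σ i)) W v = G β X W v := by
  have h : ∀ U : Finset V, Q (fun v i => β v (σ i)) (fun i => X (σ i)) U R0 = Q β X U R0 :=
    fun U => Q_perm σ β X U R0
  have hb : bsum (fun v i => β v (σ i)) v = bsum β v := Equiv.sum_comp σ (β v)
  simp only [G, h, hb]

/-- `G = 1 / nbar` -/
lemma G_eq_inv_nbar (β : V → ι → ℂ) (X : ι → V → V → ℂ) {W : Finset V} {v : V} (hv : v ∈ W)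
    (h1 : Q β X (W.erase v) R0 ≠ 0) (h2 : bsum β v ≠ 0) : G β X W v = (nbar β X W v)⁻¹ := by
  have h : (∑ i, β v i * piv β X (W.erase v) R0 v i) = Q β X W R0 / Q β X (W.erase v) R0 := by
    rw [Q_erase β X hv, Finset.sum_div]
    refine Finset.sum_congr rfl fun i _ => ?_
    rw [piv, mul_div_assoc]
  unfold G nbar
  rw [h, div_div, inv_div, mul_comm]

lemma nbar_eq (β : V → ι → ℂ) (X : ι → V → V → ℂ) (W : Finset V) (v : V) {z : ℂ}
    (hz : ∀ i, X i v v = z) (h2 : bsum β v ≠ 0) : nbar β X W v = z - mbar β X W v := by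
  unfold nbar mbar se
  simp only [hz, mul_sub, Finset.sum_sub_distrib, ← Finset.sum_mul]
  have : (∑ i, β v i) = bsum β v := rfl
  rw [this]
  field_simp
  ring

/-- the self energy does not depend on the diagonal entry at `v` (nor on `β v`) -/
lemma se_congr {β β' : V → ι → ℂ} {X X' : ι → V → V → ℂ} {W : Finset V} {R : ι → Finset V}
    {v : V} {i : ι} (hvW : v ∉ W) (hvR : v ∉ R i) (hQ : Q β X W R ≠ 0) (hβ : ∀ u ∈ W, β u = β' u)
    (hX : ∀ j, j ≠ i → ∀ a ∈ W ∪ R j, ∀ b ∈ W ∪ R j, X j a b = X' j a b)
    (hXi : ∀ a ∈ insert v (W ∪ R i), ∀ b ∈ insert v (W ∪ R i), ¬ (a = v ∧ b = v) →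
      X i a b = X' i a b) :
    se β X W R v i = se β' X' W R v i := by
  have hv : ∀ a ∈ W ∪ R i, a ≠ v := fun a ha h => by
    rcases Finset.mem_union.1 ha with h' | h'
    · exact hvW (h ▸ h')
    · exact hvR (h ▸ h')
  have h1 : Q β X W R = Q β' X' W R := by
    refine Q_congr hβ fun j a ha b hb => ?_
    by_cases hj : j = i
    · subst hj
      exact hXi a (Finset.mem_insert_of_mem ha) b (Finset.mem_insert_of_mem hb)
        fun h => hv a ha h.1
    · exact hX j hj a ha b hb
  have h2 : Q β (addDiag X i v (X' i v v - X i v v)) W (ins R v i) = Q β' X' W (ins R v i) := by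
    refine Q_congr hβ fun j a ha b hb => ?_
    by_cases hj : j = i
    · subst hj
      rw [ins_self, Finset.union_insert] at ha hb
      simp only [addDiag, Function.update_self]
      by_cases h : a = v ∧ b = v
      · rw [if_pos h, h.1, h.2]; ring
      · rw [if_neg h, add_zero, hXi a ha b hb h]
    · rw [ins_ne _ _ hj] at ha hb
      rw [addDiag, Function.update_of_ne hj]
      exact hX j hj a ha b hb
  unfold se piv
  rw [← h1, ← h2, Q_ins_addDiag β X hvW hvR]
  field_simp
  ring

end Vale.Agent.P078
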