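import Vale.Agent.P078.QBasic

/-! Schur complement identity, determinantal states, derivative formulas. -/

namespace Vale.Agent.P078

open Finset
open scoped ComplexOrder

variable {V ι : Type*} [DecidableEq V] [Fintype ι] [DecidableEq ι]

/-- subtract `s * (column v) (row v)` from copy `i` -/
noncomputable def rk1 (X : ι → V → V → ℂ) (i : ι) (v : V) (s : ℂ) : ι → V → V → ℂ :=
  Function.update X i fun a b => X i a b - s * (X i a v * X i v b)

namespace QSchurAux

omit [Fintype ι] [DecidableEq ι] in
lemma minor_insert (Y : V → V → ℂ) {S : Finset V} {v : V} (hv : v ∉ S) (hz : Y v v ≠ 0) :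
    minor Y (insert v S) =
      Y v v * minor (fun a b => Y a b - (Y v v)⁻¹ * (Y a v * Y v b)) S := by
  let e : S ⊕ Unit ≃ (insert v S : Finset V) :=
    (Equiv.optionEquivSumPUnit S).symm.trans (Finset.subtypeInsertEquivOption hv).symm
  have e1 : ∀ a : S, ((e (Sum.inl a) : (insert v S : Finset V)) : V) = a := fun a => rfl
  have e2 : ∀ a : Unit, ((e (Sum.inr a) : (insert v S : Finset V)) : V) = v := fun a => rfl
  have h : (Matrix.of fun a b : (insert v S : Finset V) => Y a b).submatrix e e =
      Matrix.fromBlocks (Matrix.of fun a b : S => Y a b) (Matrix.of fun (a : S) (_ : Unit) => Y a v)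
        (Matrix.of fun (_ : Unit) (b : S) => Y v b) (Matrix.of fun _ _ : Unit => Y v v) := by
    ext (a | a) (b | b) <;> simp [e1, e2]
  letI : Invertible (Matrix.of fun _ _ : Unit => Y v v) :=
    ⟨Matrix.of fun _ _ => (Y v v)⁻¹, by ext; simp [Matrix.mul_apply, hz],
      by ext; simp [Matrix.mul_apply, hz]⟩
  have h2 : ⅟(Matrix.of fun _ _ : Unit => Y v v) = Matrix.of fun _ _ : Unit => (Y v v)⁻¹ := rfl
  rw [minor, ← Matrix.det_submatrix_equiv_self e, h, Matrix.det_fromBlocks₂₂, h2, minor]
  congr 1
  · simp
  · congr 1
    ext a b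
    simp [Matrix.mul_apply]
    ring

omit [Fintype ι] [DecidableEq ι] in
lemma minor_congr {Y Y' : V → V → ℂ} {S : Finset V} (h : ∀ a ∈ S, ∀ b ∈ S, Y a b = Y' a b) :
    minor Y S = minor Y' S := by
  unfold minor
  congr 1
  ext a b
  exact h a a.2 b b.2

omit [Fintype ι] [DecidableEq ι] in
lemma minor_addDiag (Y : V → V → ℂ) {S : Finset V} {v : V} (hv : v ∉ S) (τ : ℂ) :
    minor (fun a b => Y a b + if a = v ∧ b = v then τ else 0) (insert v S) =
      minor Y (insert v S) + τ * minor Y S := by
  have := Q_ins_addDiag (ι := Unit) (fun _ _ => 0) (fun _ => Y) (W := ∅) (R := fun _ => S)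
    (v := v) (i := ()) (by simp) hv τ
  simpa [ins, addDiag] using this

omit [Fintype ι] [DecidableEq ι] in
lemma minor_block (Y : V → V → ℂ) (S : Finset V) (p : V → Prop) [DecidablePred p]
    (h : ∀ a ∈ S, ∀ b ∈ S, p a → ¬ p b → Y a b = 0) :
    minor Y S = minor Y (S.filter p) * minor Y (S.filter fun v => ¬ p v) := by
  have := Q_block (ι := Unit) (fun _ _ => 0) (fun _ => Y) ∅ (fun _ => S) p (by simpa using h)
  simpa using this

omit [Fintype ι] [DecidableEq ι] in
lemma minor_diag (Y : V → V → ℂ) (h0 : ∀ a b, a ≠ b → Y a b = 0) (S : Finset V) :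
    minor Y S = ∏ a ∈ S, Y a a := by
  have : (Matrix.of fun a b : S => Y a b) = Matrix.diagonal fun a : S => Y a a := by
    ext a b
    by_cases h : a = b
    · subst h; simp
    · rw [Matrix.diagonal_apply_ne _ h]
      exact h0 _ _ fun h' => h (Subtype.ext h')
  rw [minor, this, Matrix.det_diagonal, Finset.prod_coe_sort S (fun a => Y a a)]

omit [Fintype ι] in
lemma minor_fiber (X : ι → V → V → ℂ) (c : V → ι) (U : Finset V) (J : Finset ι) :
    minor (fun a b => if c a = c b then X (c a) a b else 0) (U.filter fun a => c a ∈ J) =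
      ∏ i ∈ J, minor (X i) (U.filter fun a => c a = i) := by
  induction J using Finset.induction_on with
  | empty => rw [Finset.filter_false_of_mem (by simp)]; simp [minor]
  | insert j J hj ih =>
    rw [Finset.prod_insert hj, ← ih, minor_block _ (U.filter fun a => c a ∈ insert j J)
      (fun a => c a = j)
      (fun a _ b _ ha hb => if_neg fun h => hb (h.symm.trans ha)), Finset.filter_filter,
      Finset.filter_filter]
    congr 1
    · rw [show (U.filter fun a => c a ∈ insert j J ∧ c a = j) = U.filter fun a => c a = j from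
        Finset.filter_congr fun a _ => ⟨fun h => h.2, fun h => ⟨by simp [h], h⟩⟩]
      refine minor_congr fun a ha b hb => ?_
      rw [(mem_filter.1 ha).2, (mem_filter.1 hb).2, if_pos rfl]
    · congr 1
      refine Finset.filter_congr fun a _ => ?_
      simp only [mem_insert]
      constructor
      · rintro ⟨h | h, h'⟩
        · exact absurd h h'
        · exact h
      · exact fun h => ⟨Or.inr h, fun h' => hj (h' ▸ h)⟩

lemma Q_det_gen (X : ι → V → V → ℂ) (β : V → ι → ℂ) (c : V → ι) (i0 : ι) (μ : V → ℂ)
    (h0 : ∀ a b, a ≠ b → X i0 a b = 0) (W : Finset V) :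
    ∀ U T : Finset V, (∀ v ∈ W, c v ≠ i0) →
      (∀ v ∈ W, β v = Pi.single (c v) 1 + Pi.single i0 (μ v)) → (∀ v ∈ U, c v ≠ i0) →
      Disjoint W U → Disjoint W T →
      Q β X W (fun i => if i = i0 then T else U.filter fun a => c a = i) =
        (∏ a ∈ T, X i0 a a) * minor (fun a b => (if c a = c b then X (c a) a b else 0) +
          if a = b ∧ a ∈ W then μ a * X i0 a a else 0) (W ∪ U) := by
  induction W using Finset.induction_on with
  | empty =>
    intro U T _ _ hU _ _
    rw [Q_empty, ← Finset.mul_prod_erase univ _ (mem_univ i0), if_pos rfl, minor_diag _ h0]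
    congr 1
    have := minor_fiber X c U (univ.erase i0)
    rw [Finset.filter_true_of_mem (fun a ha => by simpa using hU a ha)] at this
    simp only [notMem_empty, and_false, if_false, add_zero, empty_union]
    rw [this]
    exact Finset.prod_congr rfl fun i hi => by rw [if_neg (mem_erase.1 hi).1]
  | insert v W hv ih =>
    intro U T hc hβ hU hWU hWT
    have hcv : c v ≠ i0 := hc v (mem_insert_self _ _)
    have hvU : v ∉ U := Finset.disjoint_left.1 hWU (mem_insert_self _ _)
    have hvT : v ∉ T := Finset.disjoint_left.1 hWT (mem_insert_self _ _)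
    have hWU' : Disjoint W U := hWU.mono_left (subset_insert _ _)
    have hWT' : Disjoint W T := hWT.mono_left (subset_insert _ _)
    have e1 : ins (fun i => if i = i0 then T else U.filter fun a => c a = i) v (c v) =
        fun i => if i = i0 then T else (insert v U).filter fun a => c a = i := by
      funext i
      by_cases hi : i = c v
      · subst hi; simp [ins, hcv, Finset.filter_insert]
      · simp [ins, Function.update_of_ne hi, Finset.filter_insert, Ne.symm hi]
    have e2 : ins (fun i => if i = i0 then T else U.filter fun a => c a = i) v i0 =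
        fun i => if i = i0 then insert v T else U.filter fun a => c a = i := by
      funext i
      by_cases hi : i = i0
      · subst hi; simp [ins]
      · simp [ins, hi]
    rw [Q_insert _ _ hv, hβ v (mem_insert_self _ _)]
    simp only [Pi.add_apply, add_mul, Finset.sum_add_distrib, Pi.single_apply, ite_mul, zero_mul,
      Finset.sum_ite_eq', mem_univ, if_true, one_mul]
    rw [e1, e2, ih (insert v U) T (fun a ha => hc a (mem_insert_of_mem ha))
      (fun a ha => hβ a (mem_insert_of_mem ha)) (fun a ha => by
        rcases mem_insert.1 ha with rfl | ha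
        · exact hcv
        · exact hU a ha) (Finset.disjoint_insert_right.2 ⟨hv, hWU'⟩) hWT',
      ih U (insert v T) (fun a ha => hc a (mem_insert_of_mem ha))
      (fun a ha => hβ a (mem_insert_of_mem ha)) hU hWU'
      (Finset.disjoint_insert_right.2 ⟨hv, hWT'⟩), Finset.prod_insert hvT, Finset.union_insert,
      Finset.insert_union]
    have e3 := minor_addDiag (fun a b => (if c a = c b then X (c a) a b else 0) +
      if a = b ∧ a ∈ W then μ a * X i0 a a else 0) (S := W ∪ U) (v := v) (by simp [hv, hvU])
      (μ v * X i0 v v)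
    rw [minor_congr (Y' := fun a b => ((if c a = c b then X (c a) a b else 0) +
      if a = b ∧ a ∈ W then μ a * X i0 a a else 0) + if a = v ∧ b = v then μ v * X i0 v v else 0)
      (S := insert v (W ∪ U)) (Y := fun a b => (if c a = c b then X (c a) a b else 0) +
          if a = b ∧ a ∈ insert v W then μ a * X i0 a a else 0) (fun a _ b _ => ?_), e3]
    · ring
    · by_cases hab : a = b
      · subst hab
        by_cases hav : a = v
        · subst hav; simp [hv]
        · simp [hav]
      · have : ¬ (a = v ∧ b = v) := fun h => hab (h.1.trans h.2.symm)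
        simp [hab, this]

lemma shift_gen (β : V → ι → ℂ) (X : ι → V → V → ℂ) (c : V → ℂ) (t₀ : ℂ) (S : Finset V) :
    ∀ W : Finset V,
      HasDerivAt (fun t => Q β (shiftD X fun a => if a ∈ S then t * c a else 0) W R0)
      (∑ v ∈ W ∩ S, c v * (bsum β v *
        Q β (shiftD X fun a => if a ∈ S then t₀ * c a else 0) (W.erase v) R0)) t₀ := by
  induction S using Finset.induction_on with
  | empty =>
    intro W
    simpa using hasDerivAt_const t₀ _
  | insert u S hu ih =>
    have e1 : ∀ t, (shiftD X fun a => if a ∈ insert u S then t * c a else 0) =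
        shiftD (shiftD X fun a => if a ∈ S then t * c a else 0) (Pi.single u (t * c u)) := by
      intro t
      funext i a b
      by_cases hab : a = b
      · subst hab
        by_cases hau : a = u
        · subst hau; simp [shiftD, hu]
        · simp [shiftD, hau]
      · simp [shiftD, hab]
    have e2 : ∀ (t : ℂ) (W : Finset V), u ∉ W →
        Q β (shiftD X fun a => if a ∈ insert u S then t * c a else 0) W R0 =
        Q β (shiftD X fun a => if a ∈ S then t * c a else 0) W R0 := by
      intro t W hW
      refine Q_congr (fun _ _ => rfl) fun i a ha b _ => ?_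
      have : a ≠ u := fun h => hW (by simpa [R0, h] using ha)
      simp [shiftD, this]
    have e3 : ∀ (t : ℂ) (W : Finset V), u ∈ W →
        Q β (shiftD X fun a => if a ∈ insert u S then t * c a else 0) W R0 =
        Q β (shiftD X fun a => if a ∈ S then t * c a else 0) W R0 + t * c u * (bsum β u *
          Q β (shiftD X fun a => if a ∈ S then t * c a else 0) (W.erase u) R0) := by
      intro t W hW
      rw [e1, Q_shift_single _ _ hW (by simp [R0])]
    intro W
    by_cases hW : u ∈ W
    · simp only [e3 _ W hW]
      have h1 := (ih W).add ((((hasDerivAt_id t₀).mul_const (c u))).mul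
        ((ih (W.erase u)).const_mul (bsum β u)))
      refine HasDerivAt.congr_deriv h1 (Eq.symm ?_)
      rw [Finset.inter_insert_of_mem hW, Finset.sum_insert (by simp [hu]),
        e2 _ _ (notMem_erase u W), Finset.erase_inter, Finset.erase_eq_of_notMem (s := W ∩ S) (by simp [hu])]
      simp only [Finset.mul_sum, id, one_mul]
      rw [add_left_comm, ← Finset.sum_add_distrib]
      congr 1
      refine Finset.sum_congr rfl fun v hv => ?_
      have hvu : u ≠ v := fun h => hu (h ▸ (mem_inter.1 hv).2)
      rw [e3 _ _ (mem_erase.2 ⟨hvu, hW⟩), Finset.erase_right_comm]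
      ring
    · simp only [e2 _ W hW]
      refine HasDerivAt.congr_deriv (ih W) (Eq.symm ?_)
      rw [Finset.inter_insert_of_notMem hW]
      exact Finset.sum_congr rfl fun v _ => by rw [e2 _ _ (fun h => hW (mem_erase.1 h).2)]

end QSchurAux

/-- Schur complement; base case: `det [[Y, b],[b', z]] = z * det (Y - b b' / z)`. -/
lemma Q_schur (β : V → ι → ℂ) (X : ι → V → V → ℂ) {W : Finset V} {R : ι → Finset V}
    {v : V} {i : ι} (hvW : v ∉ W) (hvR : v ∉ R i) (hz : X i v v ≠ 0) :
    Q β X W (ins R v i) = X i v v * Q β (rk1 X i v (X i v v)⁻¹) W R := by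
  induction W using Finset.induction_on generalizing R with
  | empty =>
    rw [Q_empty, Q_empty, ← Finset.mul_prod_erase univ _ (mem_univ i),
      ← Finset.mul_prod_erase univ _ (mem_univ i), ← mul_assoc]
    congr 1
    · simp only [ins, rk1, Function.update_self]
      exact QSchurAux.minor_insert _ hvR hz
    · refine Finset.prod_congr rfl fun j hj => ?_
      simp [ins, rk1, Function.update_of_ne (mem_erase.1 hj).1]
  | insert u W hu ih =>
    rw [Q_insert _ _ hu, Q_insert _ _ hu, Finset.mul_sum]
    refine Finset.sum_congr rfl fun j _ => ?_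
    rw [ins_comm, ih (fun h => hvW (mem_insert_of_mem h))]
    · ring
    · have hvu : v ≠ u := fun h => hvW (h ▸ mem_insert_self _ _)
      by_cases hj : i = j
      · subst hj; simp [ins, hvu, hvR]
      · simp [ins, Function.update_of_ne hj, hvR]

/-- rank one updates are affine: use `Q_schur` after moving the diagonal entry to `1/s`
(`Q_ins_addDiag`, `Q_congr`). -/
lemma Q_rk1 (β : V → ι → ℂ) (X : ι → V → V → ℂ) {W : Finset V} {R : ι → Finset V}
    {v : V} {i : ι} (hvW : v ∉ W) (hvR : v ∉ R i) (s : ℂ) :
    Q β (rk1 X i v s) W R =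
      Q β X W R - s * (X i v v * Q β X W R - Q β X W (ins R v i)) := by
  by_cases hs : s = 0
  · subst hs
    simp [rk1]
  have h0 : addDiag X i v (s⁻¹ - X i v v) i v v = s⁻¹ := by simp [addDiag]
  have h1 := Q_schur β (addDiag X i v (s⁻¹ - X i v v)) hvW hvR (by rw [h0]; exact inv_ne_zero hs)
  rw [Q_ins_addDiag β X hvW hvR, h0, inv_inv, Q_congr (β' := β) (X' := rk1 X i v s)
    (X := rk1 (addDiag X i v (s⁻¹ - X i v v)) i v s) (fun _ _ => rfl) (fun j a ha b hb => ?_)] at h1
  · field_simp at h1
    linear_combination -h1
  · by_cases hj : j = i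
    · subst hj
      have h2 : a ≠ v := fun h => by simp [h, hvW, hvR] at ha
      have h3 : b ≠ v := fun h => by simp [h, hvW, hvR] at hb
      simp [rk1, addDiag, h2, h3]
    · simp [rk1, addDiag, Function.update_of_ne hj]

/-- a state in which every vertex has one real copy `c v ≠ i0` and weight `μ v` on the diagonal
copy `i0` is a determinant. -/
lemma Q_det (X : ι → V → V → ℂ) (W : Finset V) (β : V → ι → ℂ) (c : V → ι) (i0 : ι) (μ : V → ℂ)
    (h0 : ∀ a b, a ≠ b → X i0 a b = 0) (hc : ∀ v ∈ W, c v ≠ i0)
    (hβ : ∀ v ∈ W, β v = Pi.single (c v) 1 + Pi.single i0 (μ v)) :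
    Q β X W R0 = minor (fun a b => (if c a = c b then X (c a) a b else 0) +
      if a = b then μ a * X i0 a a else 0) W := by
  have h := QSchurAux.Q_det_gen X β c i0 μ h0 W ∅ ∅ hc hβ (by simp) (by simp) (by simp)
  rw [show (fun i => if i = i0 then (∅ : Finset V) else (∅ : Finset V).filter fun a => c a = i) =
    R0 by funext i; simp [R0], Finset.prod_empty, one_mul, Finset.union_empty] at h
  rw [h]
  exact QSchurAux.minor_congr fun a ha b _ => by simp [ha]

/-- Cramer -/
lemma minor_erase_div (Y : V → V → ℂ) {W : Finset V} {v : V} (hv : v ∈ W) (h : minor Y W ≠ 0) :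
    minor Y (W.erase v) / minor Y W = (Matrix.of fun a b : W => Y a b)⁻¹ ⟨v, hv⟩ ⟨v, hv⟩ := by
  rw [Matrix.inv_def, Matrix.smul_apply, Matrix.adjugate_apply, Ring.inverse_eq_inv', smul_eq_mul,
    div_eq_inv_mul]
  congr 1
  have h1 := QSchurAux.minor_insert (fun a b => if a = v then (if b = v then 1 else 0) else Y a b)
    (notMem_erase v W) (by simp)
  rw [Finset.insert_erase hv] at h1
  rw [QSchurAux.minor_congr (Y' := Y) (S := W.erase v) (fun a ha b hb => by
    simp [(mem_erase.1 ha).1, (mem_erase.1 hb).1])] at h1
  simp only [if_true, one_mul] at h1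
  rw [← h1, minor]
  congr 1
  ext a b
  by_cases ha : a = ⟨v, hv⟩
  · subst ha
    simp [Pi.single_apply, Subtype.ext_iff]
  · have : (a : V) ≠ v := fun h => ha (Subtype.ext h)
    simp [Matrix.updateRow_ne ha, this]

/-- derivative along a diagonal direction (induct on the support of `c` inside `W`) -/
lemma Q_hasDerivAt_shift (β : V → ι → ℂ) (X : ι → V → V → ℂ) (W : Finset V) (c : V → ℂ) (t₀ : ℂ) :
    HasDerivAt (fun t => Q β (shiftD X fun a => t * c a) W R0)
      (∑ v ∈ W, c v * (bsum β v * Q β (shiftD X fun a => t₀ * c a) (W.erase v) R0)) t₀ := by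
  have e : ∀ (t : ℂ) (W' : Finset V), W' ⊆ W →
      Q β (shiftD X fun a => if a ∈ W then t * c a else 0) W' R0 =
      Q β (shiftD X fun a => t * c a) W' R0 := by
    intro t W' hW
    refine Q_congr (fun _ _ => rfl) fun i a ha b _ => ?_
    have : a ∈ W := hW (by simpa [R0] using ha)
    simp [shiftD, this]
  have h := QSchurAux.shift_gen β X c t₀ W W
  simpa only [e _ W (Finset.Subset.refl _), e _ _ (Finset.erase_subset _ _), Finset.inter_self]
    using h

/-- derivative along a direction of weights -/
lemma Q_hasDerivAt_beta (β γ : V → ι → ℂ) (X : ι → V → V → ℂ) (W : Finset V) (R : ι → Finset V) :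
    HasDerivAt (fun t => Q (fun v i => β v i + t * γ v i) X W R)
      (∑ v ∈ W, Q (Function.update β v (γ v)) X W R) 0 := by
  induction W using Finset.induction_on generalizing R with
  | empty => simpa using hasDerivAt_const (0 : ℂ) _
  | insert u W hu ih =>
    simp only [Q_insert _ _ hu]
    have h1 := HasDerivAt.fun_sum (u := univ) fun i _ =>
      (((hasDerivAt_id (0 : ℂ)).mul_const (γ u i)).const_add (β u i)).fun_mul (ih (ins R u i))
    refine HasDerivAt.congr_deriv h1 (Eq.symm ?_)
    rw [Finset.sum_insert hu, Finset.sum_add_distrib]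
    congr 1
    · refine Finset.sum_congr rfl fun i _ => ?_
      rw [Function.update_self, one_mul]
      congr 1
      refine Q_congr (fun v hv => ?_) fun _ _ _ _ _ => rfl
      rw [Function.update_of_ne (fun h : v = u => hu (h ▸ hv))]
      funext j; simp
    · rw [Finset.sum_comm]
      refine Finset.sum_congr rfl fun i _ => ?_
      rw [Finset.mul_sum]
      refine Finset.sum_congr rfl fun v hv => ?_
      rw [Function.update_of_ne (fun h : u = v => hu (h ▸ hv))]
      simp

/-- simultaneous rank one update of all copies, derivative at `0` -/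
lemma Q_hasDerivAt_rk1 (β : V → ι → ℂ) (X : ι → V → V → ℂ) {W : Finset V} {R : ι → Finset V}
    {v : V} (hvW : v ∉ W) (hvR : ∀ i, v ∉ R i) :
    HasDerivAt (fun s => Q β (fun i a b => X i a b - s * (X i a v * X i v b)) W R)
      (-∑ i, (X i v v * Q β X W R - Q β X W (ins R v i))) 0 := by
  have key : ∀ J : Finset ι, HasDerivAt (fun s => Q β
      (fun i a b => if i ∈ J then X i a b - s * (X i a v * X i v b) else X i a b) W R)
      (-∑ i ∈ J, (X i v v * Q β X W R - Q β X W (ins R v i))) 0 := by
    intro J
    induction J using Finset.induction_on with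
    | empty => simpa using hasDerivAt_const (0 : ℂ) _
    | insert j J hj ih =>
      have e1 : ∀ s : ℂ, (fun i a b => if i ∈ insert j J then
          X i a b - s * (X i a v * X i v b) else X i a b) =
          rk1 (fun i a b => if i ∈ J then X i a b - s * (X i a v * X i v b) else X i a b) j v s := by
        intro s
        funext i a b
        by_cases hi : i = j
        · subst hi; simp [rk1, hj]
        · simp [rk1, hi]
      simp only [e1, Q_rk1 β _ hvW (hvR j), hj, if_false]
      have d1 : ∀ R', DifferentiableAt ℂ (fun s => Q β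
          (fun i a b => if i ∈ J then X i a b - s * (X i a v * X i v b) else X i a b) W R') 0 :=
        fun R' => Q_differentiableAt (β := fun _ => β) W R' (fun _ _ => differentiableAt_const _)
          (fun i a b => by split_ifs <;> fun_prop)
      have h1 := ih.fun_sub ((hasDerivAt_id (0 : ℂ)).fun_mul
        (((d1 R).hasDerivAt.const_mul (X j v v)).fun_sub (d1 (ins R v j)).hasDerivAt))
      refine HasDerivAt.congr_deriv h1 (Eq.symm ?_)
      rw [Finset.sum_insert hj]
      simp
      ring
  simpa using key univ

end Vale.Agent.P078
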