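import Vale.Agent.P078.Sakai

/-! The Hilbert space part of the density of right bounded elements (Rieffel-van Daele). -/

namespace Vale.Agent.P078

open Filter Topology
open scoped InnerProductSpace

section real

variable {V : Type*} [NormedAddCommGroup V] [InnerProductSpace ℝ V] [CompleteSpace V]

lemma rba_proj_real (S : Submodule ℝ V) (η : V) :
    ∃ p ∈ closure (S : Set V), ∀ u ∈ S, ⟪u, η - p⟫_ℝ = 0 := by
  have := S.isClosed_topologicalClosure.completeSpace_coe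
  refine ⟨S.topologicalClosure.starProjection η, S.topologicalClosure.starProjection_apply_mem η,
    fun u hu => ?_⟩
  exact (Submodule.mem_orthogonal _ _).1 (S.topologicalClosure.sub_starProjection_mem_orthogonal η)
    u (S.le_topologicalClosure hu)

lemma rba_lm_real (S : Submodule ℝ V) (J : V →L[ℝ] V) (hJ : ∀ u, ⟪u, J u⟫_ℝ = 0) (κ : V) :
    ∃ β ∈ closure (S : Set V), ∀ u ∈ S, ⟪β, u + J u⟫_ℝ = ⟪κ, u⟫_ℝ := by
  have := S.isClosed_topologicalClosure.completeSpace_coe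
  let B : S.topologicalClosure →L[ℝ] S.topologicalClosure →L[ℝ] ℝ :=
    (innerSL ℝ : V →L[ℝ] V →L[ℝ] ℝ).bilinearComp S.topologicalClosure.subtypeL
      ((ContinuousLinearMap.id ℝ V + J).comp S.topologicalClosure.subtypeL)
  have hB : ∀ β u, B β u = ⟪(β : V), (u : V) + J u⟫_ℝ := fun _ _ => rfl
  have hc : IsCoercive B := ⟨1, one_pos, fun u => by
    rw [hB, inner_add_right, hJ, add_zero, real_inner_self_eq_norm_mul_norm, one_mul]
    exact le_rfl⟩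
  refine ⟨(hc.continuousLinearEquivOfBilin.symm (S.topologicalClosure.orthogonalProjection κ) :
    S.topologicalClosure), Subtype.property _, fun u hu => ?_⟩
  have h1 := hc.continuousLinearEquivOfBilin_apply
    (hc.continuousLinearEquivOfBilin.symm (S.topologicalClosure.orthogonalProjection κ))
    ⟨u, S.le_topologicalClosure hu⟩
  rw [ContinuousLinearEquiv.apply_symm_apply, hB,
    Submodule.inner_orthogonalProjection_eq_of_mem_right] at h1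
  exact h1.symm

end real

variable {H : Type*} [NormedAddCommGroup H] [InnerProductSpace ℂ H] [CompleteSpace H]

lemma rba_proj (S : AddSubgroup H) (hS : ∀ r : ℝ, ∀ u ∈ S, (r : ℂ) • u ∈ S) (η : H) :
    ∃ p ∈ closure (S : Set H), ∀ u ∈ S, (⟪u, η - p⟫_ℂ).re = 0 := by
  letI : InnerProductSpace ℝ H := InnerProductSpace.rclikeToReal ℂ H
  exact rba_proj_real { S with smul_mem' := fun r u hu => hS r u hu } η

lemma rba_lm (S : AddSubgroup H) (hS : ∀ r : ℝ, ∀ u ∈ S, (r : ℂ) • u ∈ S) (κ : H) :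
    ∃ β ∈ closure (S : Set H), ∀ u ∈ S,
      ((1 + Complex.I) * ⟪β, u⟫_ℂ).re = (⟪κ, u⟫_ℂ).re := by
  letI : InnerProductSpace ℝ H := InnerProductSpace.rclikeToReal ℂ H
  let J : H →L[ℝ] H :=
    { toFun := fun u => Complex.I • u
      map_add' := fun u v => smul_add _ _ _
      map_smul' := fun r u => smul_comm Complex.I (r : ℂ) u
      cont := by fun_prop }
  obtain ⟨β, h1, h2⟩ := rba_lm_real { S with smul_mem' := fun r u hu => hS r u hu } J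
    (fun u => by
      show (⟪u, Complex.I • u⟫_ℂ).re = 0
      rw [inner_smul_right, inner_self_eq_norm_sq_to_K]
      simp [← Complex.ofReal_pow]) κ
  refine ⟨β, h1, fun u hu => ?_⟩
  have h3 : (⟪β, u + Complex.I • u⟫_ℂ).re = (⟪κ, u⟫_ℂ).re := h2 u hu
  rw [← h3, inner_add_right, inner_smul_right, add_mul, one_mul]

omit [CompleteSpace H] in
lemma rba_closure {S : Set H} {f : H → ℝ} (hf : Continuous f) (h : ∀ u ∈ S, f u = 0) :
    ∀ u ∈ closure S, f u = 0 := fun _ hu =>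
  closure_minimal h (isClosed_eq hf continuous_const) hu

variable {B : Type*} [CStarAlgebra B] (π : B →⋆ₐ[ℂ] (H →L[ℂ] H)) (ξ : H)

lemma rba_comm {c : H →L[ℂ] H} (hc : c ∈ StarSubalgebra.centralizer ℂ (Set.range π)) (a : B) :
    π a * c = c * π a :=
  (((StarSubalgebra.mem_centralizer_iff ℂ).1 hc) _ ⟨a, rfl⟩).1

lemma rba_im {c : H →L[ℂ] H} (hc : c ∈ StarSubalgebra.centralizer ℂ (Set.range π))
    (hc' : IsSelfAdjoint c) {a : B} (ha : IsSelfAdjoint a) : (⟪c ξ, π a ξ⟫_ℂ).im = 0 := by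
  have h1 : ∀ x y, ⟪c x, y⟫_ℂ = ⟪x, c y⟫_ℂ := hc'.isSymmetric
  have h2 : ∀ x y, ⟪π a x, y⟫_ℂ = ⟪x, π a y⟫_ℂ := (ha.map π).isSymmetric
  rw [← Complex.conj_eq_iff_im, inner_conj_symm, h2, h1, ← ContinuousLinearMap.mul_apply,
    rba_comm π hc, ContinuousLinearMap.mul_apply]

lemma rba_im' {c : H →L[ℂ] H} (hc : c ∈ StarSubalgebra.centralizer ℂ (Set.range π))
    (hc' : IsSelfAdjoint c) {a : B} (ha : IsSelfAdjoint a) : (⟪π a ξ, c ξ⟫_ℂ).im = 0 := by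
  rw [← inner_conj_symm, Complex.conj_im, rba_im π ξ hc hc' ha, neg_zero]

lemma rba_real_sa {A : Type*} [AddCommGroup A] [StarAddMonoid A] [Module ℂ A] [StarModule ℂ A]
    (r : ℝ) {a : A} (ha : IsSelfAdjoint a) : IsSelfAdjoint ((r : ℂ) • a) := by
  rw [IsSelfAdjoint, star_smul, ha.star_eq, RCLike.star_def, Complex.conj_ofReal]

/-- `c π(B_sa) ξ` -/
def rbaK (c : ℂ) : AddSubgroup H where
  carrier := {v | ∃ a, IsSelfAdjoint a ∧ v = c • π a ξ}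
  zero_mem' := ⟨0, IsSelfAdjoint.zero _, by simp⟩
  add_mem' := by
    rintro _ _ ⟨a, ha, rfl⟩ ⟨b, hb, rfl⟩
    exact ⟨a + b, ha.add hb, by simp⟩
  neg_mem' := by
    rintro _ ⟨a, ha, rfl⟩
    exact ⟨-a, ha.neg, by simp⟩

/-- `M'_sa ξ` -/
def rbaK' : AddSubgroup H where
  carrier := {v | ∃ c ∈ StarSubalgebra.centralizer ℂ (Set.range π), IsSelfAdjoint c ∧ v = c ξ}
  zero_mem' := ⟨0, zero_mem _, IsSelfAdjoint.zero _, by simp⟩
  add_mem' := by
    rintro _ _ ⟨a, ha, ha', rfl⟩ ⟨b, hb, hb', rfl⟩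
    exact ⟨a + b, add_mem ha hb, ha'.add hb', by simp⟩
  neg_mem' := by
    rintro _ ⟨a, ha, ha', rfl⟩
    exact ⟨-a, neg_mem ha, ha'.neg, by simp⟩

/-- `π(B_sa) ξ ∩ M' ξ` -/
def rbaZ : AddSubgroup H where
  carrier := {v | (∃ a, IsSelfAdjoint a ∧ v = π a ξ) ∧
    ∃ w ∈ StarSubalgebra.centralizer ℂ (Set.range π), v = w ξ}
  zero_mem' := ⟨⟨0, IsSelfAdjoint.zero _, by simp⟩, 0, zero_mem _, by simp⟩
  add_mem' := by
    rintro _ _ ⟨⟨a, ha, rfl⟩, c, hc, e⟩ ⟨⟨b, hb, rfl⟩, d, hd, e'⟩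
    exact ⟨⟨a + b, ha.add hb, by simp⟩, c + d, add_mem hc hd, by simp [e, e']⟩
  neg_mem' := by
    rintro _ ⟨⟨a, ha, rfl⟩, c, hc, e⟩
    exact ⟨⟨-a, ha.neg, by simp⟩, -c, neg_mem hc, by simp [e]⟩

theorem rba_step (hξ : DenseRange fun b => π b ξ)
    (hwc : ∀ (𝒰 : Ultrafilter B) (R : ℝ), (∀ᶠ x in (𝒰 : Filter B), IsSelfAdjoint x ∧ ‖x‖ ≤ R) →
      ∃ y, IsSelfAdjoint y ∧ ‖y‖ ≤ R ∧
        ∀ c, Tendsto (fun x => ⟪π c ξ, π x ξ⟫_ℂ) 𝒰 (𝓝 ⟪π c ξ, π y ξ⟫_ℂ))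
    {y : B} (hy : IsSelfAdjoint y) :
    ∃ u ∈ rbaK' π ξ, ∃ v ∈ rbaZ π ξ,
      (∀ k ∈ rbaK' π ξ, (⟪k, π y ξ⟫_ℂ).re = ((1 + Complex.I) * ⟪k, u⟫_ℂ).re) ∧
      ∀ k ∈ rbaK π ξ 1, (⟪k, u⟫_ℂ).re = (⟪k, v⟫_ℂ).re := by
  obtain ⟨a', ha, ha', h1⟩ := sakai_commutant (Set.range π) ξ (hy.map π)
    (fun b hb => (rba_comm π hb y).symm) (lam := 1 + Complex.I) (by simp)
  obtain ⟨b', hb, hb', h2⟩ := sakai_commutant (Set.range π) ξ (hy.map π)
    (fun b hb => (rba_comm π hb y).symm) (lam := 1) (by simp)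
  obtain ⟨z, hz, h3⟩ := sakai π ξ hwc ha' (rba_comm π ha) (lam := 1) (by simp)
  simp only [one_mul] at h2 h3
  have key : Complex.I • (π z ξ - ((1 - Complex.I) • a' + Complex.I • b') ξ) = 0 := by
    refine rvd_duality π hξ (fun a hsa => ?_) fun c hc hc' => ?_
    · have k1 := h3 a hsa
      have k2 := rba_im' π ξ ha ha' hsa
      have k3 := rba_im' π ξ hb hb' hsa
      simp only [inner_smul_right, inner_sub_right, inner_add_right, ContinuousLinearMap.add_apply,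
        ContinuousLinearMap.smul_apply]
      simp [k1, k2, k3]
    · have k1 := h1 c hc hc'
      have k2 := h2 c hc hc'
      have k3 := rba_im π ξ hc hc' hz
      simp only [inner_smul_right, inner_sub_right, inner_add_right, ContinuousLinearMap.add_apply,
        ContinuousLinearMap.smul_apply]
      simp [k3] at k1 ⊢
      linarith
  refine ⟨a' ξ, ⟨a', ha, ha', rfl⟩, π z ξ, ⟨⟨z, hz, rfl⟩, _,
    add_mem (SMulMemClass.smul_mem _ ha) (SMulMemClass.smul_mem _ hb),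
    sub_eq_zero.1 ((smul_eq_zero.1 key).resolve_left Complex.I_ne_zero)⟩, ?_, ?_⟩
  · rintro _ ⟨c, hc, hc', rfl⟩
    exact h1 c hc hc'
  · rintro _ ⟨c, hc, rfl⟩
    rw [one_smul]
    exact h3 c hc

theorem rba_zero (hξ : DenseRange fun b => π b ξ)
    (hwc : ∀ (𝒰 : Ultrafilter B) (R : ℝ), (∀ᶠ x in (𝒰 : Filter B), IsSelfAdjoint x ∧ ‖x‖ ≤ R) →
      ∃ y, IsSelfAdjoint y ∧ ‖y‖ ≤ R ∧
        ∀ c, Tendsto (fun x => ⟪π c ξ, π x ξ⟫_ℂ) 𝒰 (𝓝 ⟪π c ξ, π y ξ⟫_ℂ))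
    (hcl : ∀ (b : ℕ → B) (η : H), Tendsto (fun k => π (b k) ξ) atTop (𝓝 0) →
      Tendsto (fun k => π (star (b k)) ξ) atTop (𝓝 η) → η = 0)
    {κ : H} (hκ : κ ∈ closure (rbaK π ξ 1 : Set H))
    (hZ : ∀ v ∈ rbaZ π ξ, (⟪κ, v⟫_ℂ).re = 0) : κ = 0 := by
  obtain ⟨β, hβ, hβ'⟩ := rba_lm (rbaK' π ξ) (by
    rintro r _ ⟨c, hc, hc', rfl⟩
    exact ⟨(r : ℂ) • c, SMulMemClass.smul_mem _ hc, rba_real_sa r hc', rfl⟩) κ
  have b1 : ∀ y, IsSelfAdjoint y → ⟪β, π y ξ⟫_ℂ = 0 := by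
    intro y hy
    obtain ⟨u, hu, v, hv, k1, k2⟩ := rba_step π ξ hξ hwc hy
    have k3 := rba_closure (f := fun k => (⟪k, π y ξ⟫_ℂ).re - ((1 + Complex.I) * ⟪k, u⟫_ℂ).re)
      (by fun_prop) (fun k hk => sub_eq_zero.2 (k1 k hk)) β hβ
    have k4 := rba_closure (f := fun k => (⟪k, u⟫_ℂ).re - (⟪k, v⟫_ℂ).re)
      (by fun_prop) (fun k hk => sub_eq_zero.2 (k2 k hk)) κ hκ
    have k5 := rba_closure (f := fun k => (⟪k, π y ξ⟫_ℂ).im) (by fun_prop)
      (by rintro _ ⟨c, hc, hc', rfl⟩; exact rba_im π ξ hc hc' hy) β hβ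
    have k6 := hβ' u hu
    have k7 := hZ v hv
    exact Complex.ext (by rw [Complex.zero_re]; linarith) k5
  have b2 : β = 0 := by
    refine hξ.eq_zero_of_inner_left (𝕜 := ℂ) fun y => ?_
    rw [← realPart_add_I_smul_imaginaryPart y, map_add, map_smul, ContinuousLinearMap.add_apply,
      ContinuousLinearMap.smul_apply, inner_add_right, inner_smul_right,
      b1 _ (realPart y).2, b1 _ (imaginaryPart y).2]
    simp
  obtain ⟨p, hp, hp'⟩ := rba_proj (rbaK π ξ Complex.I) (by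
    rintro r _ ⟨a, ha, rfl⟩
    exact ⟨(r : ℂ) • a, rba_real_sa r ha, by
      rw [map_smul, ContinuousLinearMap.smul_apply, smul_comm]⟩) κ
  have b3 : κ - p = 0 := by
    refine rvd_duality π hξ (fun a ha => ?_) fun c hc hc' => ?_
    · have k1 := hp' _ ⟨a, ha, rfl⟩
      rw [inner_smul_left] at k1
      generalize ⟪π a ξ, κ - p⟫_ℂ = t at k1 ⊢
      simpa using k1
    · have k1 := hβ' _ ⟨c, hc, hc', rfl⟩
      have k2 := rba_closure (f := fun k => (⟪c ξ, k⟫_ℂ).re) (by fun_prop) (by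
        rintro _ ⟨a, ha, rfl⟩
        have := rba_im π ξ hc hc' ha
        simp [inner_smul_right, this]) p hp
      rw [b2, inner_zero_left, mul_zero, Complex.zero_re, ← inner_conj_symm, Complex.conj_re] at k1
      rw [inner_sub_right, Complex.sub_re, ← k1, k2, sub_zero]
  rw [← sub_eq_zero.1 b3] at hp
  obtain ⟨u, hu, hu'⟩ := mem_closure_iff_seq_limit.1 hκ
  obtain ⟨v, hv, hv'⟩ := mem_closure_iff_seq_limit.1 hp
  choose a ha ha' using hu
  choose c hc hc' using hv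
  have b4 := hcl (fun k => a k - Complex.I • c k) (κ + κ)
    (by
      have := hu'.sub hv'
      rw [sub_self] at this
      refine this.congr fun k => ?_
      rw [ha' k, hc' k]
      simp)
    ((hu'.add hv').congr fun k => by
      rw [ha' k, hc' k, star_sub, star_smul, (ha k).star_eq, (hc k).star_eq]
      simp)
  rw [← two_smul ℂ] at b4
  exact (smul_eq_zero.1 b4).resolve_left two_ne_zero

theorem rb_dense_aux (hξ : DenseRange fun b => π b ξ)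
    (hwc : ∀ (𝒰 : Ultrafilter B) (R : ℝ), (∀ᶠ x in (𝒰 : Filter B), IsSelfAdjoint x ∧ ‖x‖ ≤ R) →
      ∃ y, IsSelfAdjoint y ∧ ‖y‖ ≤ R ∧
        ∀ c, Tendsto (fun x => ⟪π c ξ, π x ξ⟫_ℂ) 𝒰 (𝓝 ⟪π c ξ, π y ξ⟫_ℂ))
    (hcl : ∀ (b : ℕ → B) (η : H), Tendsto (fun k => π (b k) ξ) atTop (𝓝 0) →
      Tendsto (fun k => π (star (b k)) ξ) atTop (𝓝 η) → η = 0)
    {x : B} (hx : IsSelfAdjoint x) {ε : ℝ} (hε : 0 < ε) :
    ∃ z, IsSelfAdjoint z ∧ (∃ C, ∀ c, ‖π c (π z ξ)‖ ≤ C * ‖π c ξ‖) ∧ ‖π x ξ - π z ξ‖ ≤ ε := by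
  obtain ⟨p, hp, hp'⟩ := rba_proj (rbaZ π ξ) (by
    rintro r _ ⟨⟨a, ha, rfl⟩, w, hw, e⟩
    exact ⟨⟨(r : ℂ) • a, rba_real_sa r ha, by rw [map_smul, ContinuousLinearMap.smul_apply]⟩,
      (r : ℂ) • w, SMulMemClass.smul_mem _ hw, by simp [e]⟩) (π x ξ)
  have h1 : π x ξ - p ∈ closure (rbaK π ξ 1 : Set H) := by
    refine (rbaK π ξ 1).topologicalClosure.sub_mem
      (subset_closure ⟨x, hx, (one_smul _ _).symm⟩) (closure_mono ?_ hp)
    rintro _ ⟨⟨a, ha, rfl⟩, -⟩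
    exact ⟨a, ha, (one_smul _ _).symm⟩
  have h2 := rba_zero π ξ hξ hwc hcl h1 fun v hv => by
    rw [← inner_conj_symm, Complex.conj_re]
    exact hp' v hv
  rw [← sub_eq_zero.1 h2] at hp
  obtain ⟨_, ⟨⟨z, hz, rfl⟩, w, hw, e⟩, hd⟩ := Metric.mem_closure_iff.1 hp ε hε
  refine ⟨z, hz, ⟨‖w‖, fun c => ?_⟩, by rw [← dist_eq_norm]; exact hd.le⟩
  rw [e, ← ContinuousLinearMap.mul_apply, rba_comm π hw, ContinuousLinearMap.mul_apply]
  exact w.le_opNorm _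

end Vale.Agent.P078
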