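import Vale.Agent.P078.Exp
import Vale.Agent.P078.Gns
import Vale.Agent.P078.RBAux

/-! Right bounded elements.  See PROOF.md, section RB. -/

namespace Vale.Agent.P078

open Filter Topology
open scoped ComplexOrder InnerProductSpace

universe u

variable {M : Type u} [CStarAlgebra M] [PartialOrder M] [StarOrderedRing M]

/-- right multiplication by `y` is bounded on `L²(ω)` -/
def RB (ω : M →ₚ[ℂ] ℂ) (y : M) : Prop := ∃ C, ∀ c, nrm ω (c * y) ≤ C * nrm ω c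

section
variable {ω : M →ₚ[ℂ] ℂ} {y z : M}

lemma RB.one : RB ω 1 := by
  exact ⟨1, fun c => by rw [mul_one, one_mul]⟩
lemma RB.add (hy : RB ω y) (hz : RB ω z) : RB ω (y + z) := by
  obtain ⟨C, hC⟩ := hy
  obtain ⟨D, hD⟩ := hz
  refine ⟨C + D, fun c => ?_⟩
  rw [mul_add, add_mul]
  exact (nrm_add_le ω _ _).trans (add_le_add (hC c) (hD c))
lemma RB.sub (hy : RB ω y) (hz : RB ω z) : RB ω (y - z) := by
  obtain ⟨C, hC⟩ := hy
  obtain ⟨D, hD⟩ := hz
  refine ⟨C + D, fun c => ?_⟩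
  rw [mul_sub, add_mul]
  exact (nrm_sub_le ω _ _).trans (add_le_add (hC c) (hD c))
lemma RB.smul (hy : RB ω y) (c : ℂ) : RB ω (c • y) := by
  obtain ⟨C, hC⟩ := hy
  refine ⟨‖c‖ * C, fun d => ?_⟩
  rw [mul_smul_comm, nrm_smul, mul_assoc]
  exact mul_le_mul_of_nonneg_left (hC d) (norm_nonneg c)
lemma RB.mul (hy : RB ω y) (hz : RB ω z) : RB ω (y * z) := by
  obtain ⟨C, hC⟩ := hy
  obtain ⟨D, hD⟩ := hz
  refine ⟨|D| * C, fun c => ?_⟩
  rw [← mul_assoc, mul_assoc |D|]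
  exact (hD _).trans ((mul_le_mul_of_nonneg_right (le_abs_self D) (nrm_nonneg _ _)).trans
    (mul_le_mul_of_nonneg_left (hC c) (abs_nonneg D)))
end

/-- the star algebra of elements that are right bounded together with their adjoints -/
def RBalg (ω : M →ₚ[ℂ] ℂ) : StarSubalgebra ℂ M where
  carrier := {y | RB ω y ∧ RB ω (star y)}
  mul_mem' ha hb := ⟨ha.1.mul hb.1, by rw [star_mul]; exact hb.2.mul ha.2⟩
  add_mem' ha hb := ⟨ha.1.add hb.1, by rw [star_add]; exact ha.2.add hb.2⟩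
  algebraMap_mem' c := by
    rw [Algebra.algebraMap_eq_smul_one]
    exact ⟨RB.one.smul c, by rw [star_smul, star_one]; exact RB.one.smul _⟩
  star_mem' ha := ⟨ha.2, by rw [star_star]; exact ha.1⟩

lemma RB.abs {ω : M →ₚ[ℂ] ℂ} {y : M} (hy : RB ω y) :
    ∃ C, 0 < C ∧ ∀ c, nrm ω (c * y) ≤ C * nrm ω c := by
  obtain ⟨C, hC⟩ := hy
  refine ⟨|C| + 1, by positivity, fun c => (hC c).trans ?_⟩
  exact mul_le_mul_of_nonneg_right (by linarith [le_abs_self C]) (nrm_nonneg _ _)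

/-- `hat` as a linear map -/
noncomputable def rbHatL (ω : M →ₚ[ℂ] ℂ) : M →ₗ[ℂ] ω.GNS where
  toFun := hat ω
  map_add' := hat_add ω
  map_smul' := hat_smul ω

omit [PartialOrder M] [StarOrderedRing M] in
lemma rb_exists_near_cfc {B : StarSubalgebra ℂ M} {a : M} (ha : a ∈ B) (f : ℝ → ℝ) {δ : ℝ}
    (hδ : 0 < δ) : ∃ m ∈ B, IsSelfAdjoint m ∧ ‖cfc f a - m‖ ≤ δ := by
  have hcl : IsClosed (B.topologicalClosure : Set M) := B.isClosed_topologicalClosure
  have h1 : cfc f a ∈ B.topologicalClosure :=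
    cfc_mem (𝕜' := ℂ) f (B.le_topologicalClosure ha)
  obtain ⟨b, hb, hd⟩ := Metric.mem_closure_iff.1 h1 δ hδ
  have hsa : IsSelfAdjoint (cfc f a) := cfc_predicate f a
  rw [dist_eq_norm] at hd
  refine ⟨(1 / 2 : ℂ) • (b + star b), B.smul_mem (add_mem hb (star_mem hb)) _, ?_, ?_⟩
  · rw [IsSelfAdjoint, star_smul, star_add, star_star, add_comm]
    simp
  · have e : cfc f a - (1 / 2 : ℂ) • (b + star b) =
        (1 / 2 : ℂ) • ((cfc f a - b) + star (cfc f a - b)) := by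
      rw [star_sub, hsa.star_eq]
      module
    have h2 := norm_add_le (cfc f a - b) (star (cfc f a - b))
    rw [norm_star] at h2
    rw [e, norm_smul, show ‖(1 / 2 : ℂ)‖ = 1 / 2 by norm_num]
    linarith

lemma rb_exists_bdd_transform (b : M) : ∃ v : M, IsSelfAdjoint v ∧ ‖b * v‖ ≤ 1 ∧ ‖1 - v‖ ≤ 1 ∧
    star (b * v) * (b * v) ≤ star b * b ∧ 1 - v = star (b * v) * b := by
  have hh : 0 ≤ star b * b := star_mul_self_nonneg b
  obtain ⟨u, hu⟩ : IsUnit (1 + star b * b) :=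
    CStarAlgebra.isUnit_of_le 1 (le_add_of_nonneg_right hh) isStrictlyPositive_one
  obtain ⟨v, e1, e2⟩ : ∃ v : M, v * (1 + star b * b) = 1 ∧ (1 + star b * b) * v = 1 :=
    ⟨↑u⁻¹, hu ▸ u.inv_mul, hu ▸ u.mul_inv⟩
  have hv : IsSelfAdjoint v := by
    have := congrArg star e2
    rw [star_mul, star_add, star_one, hh.isSelfAdjoint.star_eq] at this
    rw [IsSelfAdjoint, ← mul_one (star v), ← e2, ← mul_assoc, this, one_mul]
  have ec : star (b * v) * (b * v) = v * (star b * b) * v := by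
    rw [star_mul, hv.star_eq]
    simp only [mul_assoc]
  have ec' : star (b * v) * b = v * (star b * b) := by rw [star_mul, hv.star_eq, mul_assoc]
  have hc0 := star_mul_self_nonneg (b * v)
  rw [ec] at hc0
  generalize star b * b = h at *
  have e3 : v * h = 1 - v := by rw [← e1]; noncomm_ring
  have e4 : h * v = 1 - v := by rw [← e2]; noncomm_ring
  have hv0 : 0 ≤ v := by
    have h1 := add_nonneg (star_mul_self_nonneg v) hc0
    rw [hv.star_eq, e3] at h1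
    convert h1 using 1
    noncomm_ring
  have hw : IsSelfAdjoint (1 - v) := (IsSelfAdjoint.one M).sub hv
  have hw0 := star_mul_self_nonneg (1 - v)
  rw [hw.star_eq] at hw0
  have e5 : v * h * v + (1 - v) * (1 - v) = 1 - v := by rw [e3]; noncomm_ring
  have l1 : 1 - v ≤ 1 := sub_le_self _ hv0
  have l2 : v * h * v ≤ 1 - v := e5 ▸ le_add_of_nonneg_right hw0
  have l3 : 1 - v ≤ h := by
    have h1 := star_left_conjugate_nonneg hv0 h
    rw [hh.isSelfAdjoint.star_eq, e4, sub_mul, one_mul, e3] at h1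
    exact sub_nonneg.1 h1
  refine ⟨v, hv, ?_, (CStarAlgebra.norm_le_one_iff_of_nonneg _ (hc0.trans l2)).2 l1,
    ec ▸ l2.trans l3, ec' ▸ e3.symm⟩
  have h2 := (CStarAlgebra.norm_le_one_iff_of_nonneg _ hc0).2 (l2.trans l1)
  rw [← ec, CStarRing.norm_star_mul_self] at h2
  nlinarith [norm_nonneg (b * v)]

namespace WSys

variable (𝒮 : WSys M)

lemma RB_of_mem {a : M} (ha : a ∈ 𝒮.A) : RB 𝒮.φ a := by
  exact ⟨‖a‖, fun c => central_nrm_mul_le 𝒮.masa 𝒮.central c ha⟩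

/-- Kaplansky density in `M`. In the GNS space let `K` be the closure of `B`, `P` its projection,
`T = P π(x) P`; `n i z → T z` for `z ∈ B` (Cauchy by `RB`, limit identified by `hw`). Apply
`kaplansky`, let `y` be a weak limit of `cfc kapF (n i)` along an ultrafilter, and approximate
`kapF` by real polynomials on the spectrum. -/
theorem kap_M {B : StarSubalgebra ℂ M} (hB : ∀ z ∈ B, RB 𝒮.φ z) {x : M} (hx : IsSelfAdjoint x)
    (hx1 : ‖x‖ ≤ 1) (n : ℕ → M) (hn : ∀ i, n i ∈ B ∧ IsSelfAdjoint (n i))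
    (hc : ∀ ε > 0, ∃ N, ∀ i ≥ N, ∀ j ≥ N, nrm 𝒮.φ (n i - n j) ≤ ε)
    (hw : ∀ w ∈ B, ∀ z ∈ B,
      Tendsto (fun i => 𝒮.φ (star w * n i * z)) atTop (𝓝 (𝒮.φ (star w * x * z)))) :
    ∃ y, IsSelfAdjoint y ∧ ‖y‖ ≤ 1 ∧
      (∀ ε > 0, ∃ m ∈ B, IsSelfAdjoint m ∧ ‖m‖ ≤ 1 + ε ∧ nrm 𝒮.φ (y - m) ≤ ε) ∧
      ∀ w ∈ B, ∀ z ∈ B, 𝒮.φ (star w * y * z) = 𝒮.φ (star w * x * z) := by
  obtain ⟨K0, hK0⟩ : ∃ K0 : Submodule ℂ 𝒮.φ.GNS,
    K0 = (Subalgebra.toSubmodule B.toSubalgebra).map (rbHatL 𝒮.φ) := ⟨_, rfl⟩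
  have mem0 : ∀ z ∈ B, hat 𝒮.φ z ∈ K0 := fun z hz => hK0 ▸ ⟨z, hz, rfl⟩
  have mem1 : ∀ η ∈ K0, ∃ z ∈ B, η = hat 𝒮.φ z := fun η hη => by
    obtain ⟨z, hz, rfl⟩ := hK0 ▸ hη
    exact ⟨z, hz, rfl⟩
  have hK := K0.isClosed_topologicalClosure
  have := hK.completeSpace_coe
  have mem : ∀ z ∈ B, hat 𝒮.φ z ∈ K0.topologicalClosure := fun z hz =>
    K0.le_topologicalClosure (mem0 z hz)
  obtain ⟨T, hT⟩ : ∃ T, T = K0.topologicalClosure.starProjection * 𝒮.φ.gnsStarAlgHom x *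
    K0.topologicalClosure.starProjection := ⟨_, rfl⟩
  have hP := isSelfAdjoint_starProjection K0.topologicalClosure
  have T1 : IsSelfAdjoint T := hT ▸ (hx.map 𝒮.φ.gnsStarAlgHom).conjugate_self hP
  have T2 : ‖T‖ ≤ 1 := by
    have h1 := K0.topologicalClosure.starProjection_norm_le
    have h2 := (NonUnitalStarAlgHom.norm_apply_le 𝒮.φ.gnsStarAlgHom x).trans hx1
    rw [hT]
    exact (norm_mul_le _ _).trans (mul_le_one₀
      ((norm_mul_le _ _).trans (mul_le_one₀ h1 (norm_nonneg _) h2)) (norm_nonneg _) h1)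
  have T3 : ∀ η, T η ∈ K0.topologicalClosure := fun η =>
    hT ▸ K0.topologicalClosure.starProjection_apply_mem _
  have T4 : ∀ w ∈ B, ∀ z ∈ B, ⟪hat 𝒮.φ w, T (hat 𝒮.φ z)⟫_ℂ = 𝒮.φ (star w * x * z) := by
    intro w hw z hz
    rw [hT, ContinuousLinearMap.mul_apply, ContinuousLinearMap.mul_apply,
      Submodule.starProjection_eq_self_iff.2 (mem z hz),
      ← Submodule.inner_starProjection_left_eq_right,
      Submodule.starProjection_eq_self_iff.2 (mem w hw), gns_hat, inner_hat, mul_assoc]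
  have hlim : ∀ η ∈ (K0 : Set 𝒮.φ.GNS),
      Tendsto (fun i => 𝒮.φ.gnsStarAlgHom (n i) η) atTop (𝓝 (T η)) := by
    intro η hη
    obtain ⟨z, hz, rfl⟩ := mem1 η hη
    simp only [gns_hat]
    obtain ⟨C, hC0, hC⟩ := (hB z hz).abs
    have h1 : CauchySeq fun i => hat 𝒮.φ (n i * z) := by
      refine Metric.cauchySeq_iff.2 fun ε hε => ?_
      obtain ⟨N, hN⟩ := hc (ε / 2 / C) (by positivity)
      refine ⟨N, fun i hi j hj => ?_⟩
      rw [dist_eq_norm, ← hat_sub, norm_hat, ← sub_mul]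
      have h2 := (hC _).trans (mul_le_mul_of_nonneg_left (hN i hi j hj) hC0.le)
      rw [mul_div_cancel₀ _ hC0.ne'] at h2
      linarith
    obtain ⟨ζ, hζ⟩ := cauchySeq_tendsto_of_complete h1
    have h2 : ζ ∈ K0.topologicalClosure :=
      hK.mem_of_tendsto hζ (Eventually.of_forall fun i => mem _ (mul_mem (hn i).1 hz))
    have h3 : ζ - T (hat 𝒮.φ z) ∈ K0.topologicalClosureᗮ := by
      rw [Submodule.orthogonal_closure, Submodule.mem_orthogonal]
      intro u hu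
      obtain ⟨w, hw', rfl⟩ := mem1 u hu
      have k1 := (tendsto_const_nhds (x := hat 𝒮.φ w)).inner (𝕜 := ℂ) hζ
      simp only [inner_hat, ← mul_assoc] at k1
      rw [inner_sub_right, T4 w hw' z hz, tendsto_nhds_unique k1 (hw w hw' z hz), sub_self]
    have h4 := (Submodule.mem_orthogonal _ _).1 h3 _ (sub_mem h2 (T3 (hat 𝒮.φ z)))
    rwa [← sub_eq_zero.1 (inner_self_eq_zero.1 h4)]
  have key := kaplansky (fun i => (hn i).2.map 𝒮.φ.gnsStarAlgHom) T1 T2 hK (fun η _ => T3 η)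
    (D := (K0 : Set 𝒮.φ.GNS)) subset_rfl hlim
  have hm : ∀ i, ‖cfc kapF (n i)‖ ≤ 1 := fun i => norm_cfc_le zero_le_one fun t _ => abs_kapF_le t
  have key2 : ∀ z ∈ B, Tendsto (fun i => hat 𝒮.φ (cfc kapF (n i) * z)) atTop
      (𝓝 (T (hat 𝒮.φ z))) := fun z hz => (key _ (mem z hz)).congr fun i => by
    rw [← gns_hat, StarAlgHomClass.map_cfc (S := ℂ) 𝒮.φ.gnsStarAlgHom kapF (n i)
      continuous_kapF.continuousOn (map_continuous _) (hn i).2 ((hn i).2.map _)]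
  obtain ⟨y, hy⟩ := 𝒮.W.exists_wlim (hyperfilter ℕ) (Eventually.of_forall hm)
  have key3 : ∀ z ∈ B, hat 𝒮.φ (y * z) = T (hat 𝒮.φ z) := by
    intro z hz
    refine (denseRange_hat 𝒮.φ).eq_of_inner_right (𝕜 := ℂ) fun a => ?_
    have k1 := (tendsto_const_nhds (x := hat 𝒮.φ a)).inner (𝕜 := ℂ) (key2 z hz)
    simp only [inner_hat, ← mul_assoc] at k1
    rw [inner_hat, ← mul_assoc]
    exact tendsto_nhds_unique (hy _ rfl (star a) z) (k1.mono_left Nat.hyperfilter_le_atTop)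
  refine ⟨y, hy.isSelfAdjoint (Eventually.of_forall fun i => cfc_predicate _ _),
    hy.norm_le (Eventually.of_forall hm), fun ε hε => ?_, fun w hw z hz => ?_⟩
  · have k1 := key2 1 (one_mem B)
    rw [← key3 1 (one_mem B)] at k1
    obtain ⟨i, hi⟩ := (Metric.tendsto_nhds.1 k1 (ε / 2) (half_pos hε)).exists
    rw [dist_comm, dist_eq_norm, ← hat_sub, norm_hat, mul_one, mul_one] at hi
    obtain ⟨m, hm1, hm2, hm3⟩ := rb_exists_near_cfc (hn i).1 kapF (half_pos hε)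
    refine ⟨m, hm1, hm2, ?_, ?_⟩
    · have k2 := norm_sub_le (cfc kapF (n i)) (cfc kapF (n i) - m)
      rw [sub_sub_cancel] at k2
      linarith [hm i]
    · have k2 := nrm_add_le 𝒮.φ (y - cfc kapF (n i)) (cfc kapF (n i) - m)
      have k3 := nrm_le_norm 𝒮.φ (cfc kapF (n i) - m)
      rw [sub_add_sub_cancel] at k2
      rw [𝒮.nrm_one, mul_one] at k3
      linarith
  · rw [← T4 w hw z hz, ← key3 z hz, inner_hat, mul_assoc]

/-- Closability of the involution. With `v k = (1 + b* b)⁻¹`, `c k = b v k`: `c k → 0` and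
`1 - v k = (c k)* b → 0` in `L²`, hence strongly (`nrm_mul_small`);
`(c k)* = v k b*`, so `η` is the weak limit of `hat ((c k)*)`, which is `0`. -/
theorem closable (b : ℕ → M) (η : 𝒮.φ.GNS) (h0 : Tendsto (fun k => nrm 𝒮.φ (b k)) atTop (𝓝 0))
    (h1 : Tendsto (fun k => hat 𝒮.φ (star (b k))) atTop (𝓝 η)) : η = 0 := by
  choose v hv h2 h3 h4 h5 using fun k => rb_exists_bdd_transform (b k)
  have strong : ∀ c : ℕ → M, (∀ k, ‖c k‖ ≤ 1) → (∀ k, nrm 𝒮.φ (c k) ≤ nrm 𝒮.φ (b k)) → ∀ a,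
      Tendsto (fun k => nrm 𝒮.φ (c k * a)) atTop (𝓝 0) := by
    intro c hc hc' a
    refine Metric.tendsto_nhds.2 fun ε hε => ?_
    obtain ⟨δ, hδ, h⟩ := 𝒮.nrm_mul_small a 1 (half_pos hε)
    refine (h0.eventually (ge_mem_nhds hδ)).mono fun k hk => ?_
    rw [Real.dist_eq, sub_zero, abs_of_nonneg (nrm_nonneg _ _)]
    linarith [h (c k) (hc k) ((hc' k).trans hk)]
  have s1 := strong (fun k => b k * v k) h2 fun k => Real.sqrt_le_sqrt (re_mono _ (h4 k))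
  have s2 := strong (fun k => 1 - v k) h3 fun k => by
    rw [h5 k]
    exact (nrm_mul_le _ _ _).trans
      (mul_le_of_le_one_left (nrm_nonneg _ _) (by rw [norm_star]; exact h2 k))
  refine (denseRange_hat 𝒮.φ).eq_zero_of_inner_right (𝕜 := ℂ) fun a => ?_
  have t1 : Tendsto (fun k => hat 𝒮.φ (v k * a)) atTop (𝓝 (hat 𝒮.φ a)) := by
    refine tendsto_iff_norm_sub_tendsto_zero.2 ((s2 a).congr fun k => ?_)
    rw [norm_sub_rev, ← hat_sub, norm_hat, sub_mul, one_mul]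
  refine tendsto_nhds_unique (t1.inner (𝕜 := ℂ) h1) (squeeze_zero_norm (fun k => ?_)
    (by simpa using (s1 a).mul_const (nrm 𝒮.φ 1)))
  have e : star (v k * a) * star (b k) = star (b k * v k * a) * 1 := by
    rw [mul_one, mul_assoc, star_mul (b k)]
  rw [inner_hat, e]
  exact norm_apply_le_nrm _ _ _

/-- self-adjoint right bounded elements are dense (Rieffel-van Daele) -/
theorem rb_dense {x : M} (hx : IsSelfAdjoint x) {ε : ℝ} (hε : 0 < ε) :
    ∃ z, IsSelfAdjoint z ∧ RB 𝒮.φ z ∧ nrm 𝒮.φ (x - z) ≤ ε := by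
  have e : ∀ a, 𝒮.φ.gnsStarAlgHom a (hat 𝒮.φ 1) = hat 𝒮.φ a := fun a => by rw [gns_hat, mul_one]
  obtain ⟨z, hz, ⟨C, hC⟩, hd⟩ := rb_dense_aux 𝒮.φ.gnsStarAlgHom (hat 𝒮.φ 1)
    (by simpa only [e] using denseRange_hat 𝒮.φ)
    (fun 𝒰 R h => by
      obtain ⟨y, hy⟩ := 𝒮.W.exists_wlim 𝒰 (f := id) (h.mono fun x hx => hx.2)
      refine ⟨y, hy.isSelfAdjoint (h.mono fun x hx => hx.1), hy.norm_le (h.mono fun x hx => hx.2),
        fun c => ?_⟩
      simpa only [e, inner_hat, mul_one, id] using hy _ rfl (star c) 1)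
    (fun b η h0 h1 => 𝒮.closable b η
      (by simpa only [e, norm_hat, norm_zero] using h0.norm) (by simpa only [e] using h1))
    hx hε
  refine ⟨z, hz, ⟨C, fun c => ?_⟩, ?_⟩
  · simpa only [e, gns_hat, norm_hat, mul_one] using hC c
  · rwa [e, e, ← hat_sub, norm_hat] at hd

/-- `rb_dense` and `kap_M` for `RBalg` -/
theorem rb_approx {x : M} (hx : IsSelfAdjoint x) (hx1 : ‖x‖ ≤ 1) {ε : ℝ} (hε : 0 < ε) :
    ∃ z, IsSelfAdjoint z ∧ RB 𝒮.φ z ∧ ‖z‖ ≤ 1 + ε ∧ nrm 𝒮.φ (x - z) ≤ ε := by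
  choose n hn1 hn2 hn3 using fun i : ℕ => 𝒮.rb_dense hx (Nat.one_div_pos_of_nat (α := ℝ) (n := i))
  have hl : Tendsto (fun i => nrm 𝒮.φ (x - n i)) atTop (𝓝 0) :=
    squeeze_zero (fun _ => nrm_nonneg _ _) hn3 tendsto_one_div_add_atTop_nhds_zero_nat
  have mem : ∀ z, IsSelfAdjoint z → RB 𝒮.φ z → z ∈ RBalg 𝒮.φ := fun z h1 h2 =>
    ⟨h2, h1.star_eq.symm ▸ h2⟩
  obtain ⟨y, hy, -, h1, h2⟩ := 𝒮.kap_M (B := RBalg 𝒮.φ) (fun z hz => hz.1) hx hx1 n
    (fun i => ⟨mem _ (hn1 i) (hn2 i), hn1 i⟩)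
    (fun δ hδ => by
      obtain ⟨N, hN⟩ := eventually_atTop.1 (hl.eventually (ge_mem_nhds (half_pos hδ)))
      refine ⟨N, fun i hi j hj => ?_⟩
      have k := nrm_sub_le 𝒮.φ (x - n j) (x - n i)
      rw [sub_sub_sub_cancel_left] at k
      linarith [hN i hi, hN j hj])
    (fun w _ z hz => by
      obtain ⟨C, -, hC⟩ := hz.1.abs
      refine tendsto_iff_norm_sub_tendsto_zero.2 (squeeze_zero (fun _ => norm_nonneg _)
        (fun i => ?_) (by simpa using (hl.const_mul C).const_mul (nrm 𝒮.φ w)))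
      rw [norm_sub_rev, ← map_sub, ← sub_mul, ← mul_sub, mul_assoc]
      exact (norm_apply_le_nrm _ _ _).trans (mul_le_mul_of_nonneg_left (hC _) (nrm_nonneg _ _)))
  have e : y = x := by
    refine sub_eq_zero.1 (𝒮.eq_zero_of_nrm ?_)
    by_contra h0
    have hp : 0 < nrm 𝒮.φ (y - x) := lt_of_le_of_ne (nrm_nonneg _ _) (Ne.symm h0)
    obtain ⟨w, hw1, hw2, hw3⟩ := 𝒮.rb_dense (hy.sub hx) (half_pos hp)
    have k1 := h2 w (mem w hw1 hw2) 1 (one_mem _)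
    rw [mul_one, mul_one, ← sub_eq_zero, ← map_sub, ← mul_sub] at k1
    have k2 := norm_apply_le_nrm 𝒮.φ (y - x - w) (y - x)
    rw [star_sub _ w, sub_mul, map_sub, k1, sub_zero, ← nrm_sq', Complex.norm_real,
      Real.norm_eq_abs, abs_of_nonneg (sq_nonneg _)] at k2
    nlinarith
  obtain ⟨m, hm1, hm2, hm3, hm4⟩ := h1 ε hε
  exact ⟨m, hm2, hm1.1, hm3, e ▸ hm4⟩

end WSys

end Vale.Agent.P078
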