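import Mathlib

/-! Half-plane Cauchy representation of a function with nonpositive imaginary part. -/

namespace Vale.Agent.P078

open Set Filter Topology MeasureTheory

/-- Cauchy transform -/
noncomputable def CT (ν : Measure ℝ) (z : ℂ) : ℂ := ∫ u, (z - u)⁻¹ ∂ν

namespace RepAux

lemma cont_real {G : ℂ → ℂ} (hc : ContinuousOn G {z | 0 ≤ z.im}) :
    Continuous fun u : ℝ => G u :=
  hc.comp_continuous Complex.continuous_ofReal fun u => by simp

lemma integrable_real {G : ℂ → ℂ} {K : ℝ} (hc : ContinuousOn G {z | 0 ≤ z.im})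
    (hb : ∀ w : ℂ, 0 ≤ w.im → ‖G w‖ ≤ K * (1 + ‖w‖ ^ 2)⁻¹) : Integrable fun u : ℝ => G u := by
  refine Integrable.mono' (integrable_inv_one_add_sq.const_mul K)
    (cont_real hc).aestronglyMeasurable (Eventually.of_forall fun u => ?_)
  have := hb u (by simp)
  rwa [Complex.norm_real, Real.norm_eq_abs, sq_abs] at this

/-- Cauchy-Goursat on the half plane -/
lemma goursat {G : ℂ → ℂ} {K : ℝ} (hd : DifferentiableOn ℂ G {z | 0 < z.im})
    (hc : ContinuousOn G {z | 0 ≤ z.im})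
    (hb : ∀ w : ℂ, 0 ≤ w.im → ‖G w‖ ≤ K * (1 + ‖w‖ ^ 2)⁻¹) : ∫ u : ℝ, G u = 0 := by
  have hK : 0 ≤ K := by
    have := (norm_nonneg _).trans (hb 0 (by simp))
    simpa using this
  have hlim := intervalIntegral_tendsto_integral (integrable_real hc hb)
    (tendsto_neg_atTop_atBot) (tendsto_id (α := ℝ) (x := atTop))
  have hsmall : ∀ R : ℝ, 0 < R → ‖∫ x in (-R)..R, G x‖ ≤ 4 * K * R⁻¹ := by
    intro R hR
    have hbR : ∀ w : ℂ, 0 ≤ w.im → R ≤ ‖w‖ → ‖G w‖ ≤ K * (R ^ 2)⁻¹ := by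
      intro w h1 h2
      refine (hb w h1).trans (mul_le_mul_of_nonneg_left ?_ hK)
      exact inv_anti₀ (by positivity) (by nlinarith)
    have h := Complex.integral_boundary_rect_eq_zero_of_continuousOn_of_differentiableOn G
      ⟨-R, 0⟩ ⟨R, R⟩ (hc.mono fun w hw => by
        have h2 := hw.2
        simp only [mem_preimage, uIcc_of_le hR.le] at h2
        exact h2.1) (hd.mono fun w hw => by
        have h2 := hw.2
        simp only [mem_preimage, min_eq_left hR.le] at h2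
        exact h2.1)
    simp only [Complex.ofReal_zero, zero_mul, add_zero] at h
    have h1 : ‖∫ x : ℝ in (-R)..R, G (x + R * Complex.I)‖ ≤ K * (R ^ 2)⁻¹ * |R - -R| := by
      refine intervalIntegral.norm_integral_le_of_norm_le_const fun x _ => hbR _ (by simp [hR.le]) ?_
      have := Complex.abs_im_le_norm (x + R * Complex.I)
      simpa [abs_of_pos hR] using this
    have h2 : ‖∫ y : ℝ in (0 : ℝ)..R, G (R + y * Complex.I)‖ ≤ K * (R ^ 2)⁻¹ * |R - 0| := by
      refine intervalIntegral.norm_integral_le_of_norm_le_const fun y hy => hbR _ ?_ ?_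
      · rw [uIoc_of_le hR.le] at hy
        simpa using hy.1.le
      · have := Complex.abs_re_le_norm (R + y * Complex.I)
        simpa [abs_of_pos hR] using this
    have h3 : ‖∫ y : ℝ in (0 : ℝ)..R, G ((-R : ℝ) + y * Complex.I)‖ ≤ K * (R ^ 2)⁻¹ * |R - 0| := by
      refine intervalIntegral.norm_integral_le_of_norm_le_const fun y hy => hbR _ ?_ ?_
      · rw [uIoc_of_le hR.le] at hy
        simpa using hy.1.le
      · have := Complex.abs_re_le_norm ((-R : ℝ) + y * Complex.I)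
        simpa [abs_of_pos hR] using this
    have e1 : |R - -R| = 2 * R := by rw [abs_of_pos (by linarith)]; ring
    have e2 : |R - 0| = R := by rw [sub_zero, abs_of_pos hR]
    rw [e1] at h1
    rw [e2] at h2 h3
    generalize (∫ x : ℝ in (-R)..R, G (x + R * Complex.I)) = b at h h1
    generalize (∫ y : ℝ in (0 : ℝ)..R, G (R + y * Complex.I)) = c at h h2
    generalize (∫ y : ℝ in (0 : ℝ)..R, G ((-R : ℝ) + y * Complex.I)) = d at h h3
    generalize (∫ x : ℝ in (-R)..R, G x) = a at h ⊢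
    have e3 : a = b - Complex.I * c + Complex.I * d := by
      simp only [smul_eq_mul] at h
      linear_combination h
    have h4 : ‖a‖ ≤ ‖b‖ + ‖c‖ + ‖d‖ := by
      rw [e3]
      refine (norm_add_le _ _).trans (add_le_add ((norm_sub_le _ _).trans ?_) ?_) <;> simp
    have e4 : 4 * K * R⁻¹ = K * (R ^ 2)⁻¹ * (2 * R) + K * (R ^ 2)⁻¹ * R + K * (R ^ 2)⁻¹ * R := by
      field_simp
      ring
    linarith
  have hlim0 : Tendsto (fun R : ℝ => ∫ x in (-R)..R, G x) atTop (𝓝 0) := by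
    refine squeeze_zero_norm' (a := fun R : ℝ => 4 * K * R⁻¹) ?_ ?_
    · filter_upwards [eventually_gt_atTop 0] with R hR using hsmall R hR
    · simpa using tendsto_inv_atTop_zero.const_mul (4 * K)
  exact tendsto_nhds_unique hlim hlim0

lemma global_bound {G : ℂ → ℂ} {K R : ℝ} (hc : ContinuousOn G {z | 0 ≤ z.im})
    (hb : ∀ w : ℂ, 0 ≤ w.im → R ≤ ‖w‖ → ‖G w‖ ≤ K * (1 + ‖w‖ ^ 2)⁻¹) :
    ∃ K' : ℝ, ∀ w : ℂ, 0 ≤ w.im → ‖G w‖ ≤ K' * (1 + ‖w‖ ^ 2)⁻¹ := by
  have hcomp : IsCompact (Metric.closedBall (0 : ℂ) R ∩ {z | 0 ≤ z.im}) :=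
    (isCompact_closedBall _ _).inter_right (isClosed_le continuous_const Complex.continuous_im)
  obtain ⟨M, hM⟩ := hcomp.exists_bound_of_continuousOn (hc.mono inter_subset_right)
  refine ⟨max K (max M 0 * (1 + R ^ 2)), fun w hw => ?_⟩
  have hp : 0 < 1 + ‖w‖ ^ 2 := by positivity
  rcases le_total R ‖w‖ with h | h
  · exact (hb w hw h).trans (mul_le_mul_of_nonneg_right (le_max_left _ _) (by positivity))
  · have h1 := (hM w ⟨by simpa using h, hw⟩).trans (le_max_left M 0)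
    rw [← div_eq_mul_inv, le_div_iff₀ hp]
    refine le_trans ?_ (le_max_right _ _)
    exact mul_le_mul h1 (by nlinarith [norm_nonneg w]) hp.le (le_max_right _ _)

lemma sq_bound {K x : ℝ} (hK : 0 ≤ K) (hx : 0 ≤ x) : K / (1 + x) / (1 + x) ≤ K * (1 + x ^ 2)⁻¹ := by
  rw [div_div, div_eq_mul_inv]
  exact mul_le_mul_of_nonneg_left (inv_anti₀ (by positivity) (by nlinarith)) hK

lemma conj_lower {z : ℂ} (hz : 0 < z.im) :
    ∃ L : ℝ, 0 < L ∧ ∀ w : ℂ, 0 ≤ w.im → ‖(w - (starRingEnd ℂ) z)⁻¹‖ ≤ L / (1 + ‖w‖) := by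
  refine ⟨(1 + ‖z‖) / z.im + 1, by positivity, fun w hw => ?_⟩
  have h1 : z.im ≤ ‖w - (starRingEnd ℂ) z‖ := by
    have := Complex.im_le_norm (w - (starRingEnd ℂ) z)
    simp only [Complex.sub_im, Complex.conj_im] at this
    linarith
  have h2 : ‖w‖ ≤ ‖w - (starRingEnd ℂ) z‖ + ‖z‖ := by
    have := norm_add_le (w - (starRingEnd ℂ) z) ((starRingEnd ℂ) z)
    simpa using this
  have h3 : 0 < ‖w - (starRingEnd ℂ) z‖ := hz.trans_le h1
  rw [norm_inv, inv_eq_one_div, div_le_div_iff₀ h3 (by positivity)]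
  have h4 : 1 + ‖z‖ ≤ (1 + ‖z‖) / z.im * ‖w - (starRingEnd ℂ) z‖ := by
    calc 1 + ‖z‖ = (1 + ‖z‖) / z.im * z.im := by field_simp
      _ ≤ _ := mul_le_mul_of_nonneg_left h1 (by positivity)
  nlinarith

lemma conj_ne {z w : ℂ} (hz : 0 < z.im) (hw : 0 ≤ w.im) : w - (starRingEnd ℂ) z ≠ 0 := by
  intro h
  have := congrArg Complex.im h
  simp only [Complex.sub_im, Complex.conj_im, Complex.zero_im] at this
  linarith

lemma real_ne {z : ℂ} (hz : 0 < z.im) (u : ℝ) : (u : ℂ) - z ≠ 0 := by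
  intro h
  have := congrArg Complex.im h
  simp only [Complex.sub_im, Complex.ofReal_im, Complex.zero_im] at this
  linarith

lemma C_nonneg {F : ℂ → ℂ} {C : ℝ} (hb : ∀ z : ℂ, 0 ≤ z.im → ‖F z‖ ≤ C / (1 + ‖z‖)) : 0 ≤ C := by
  have := (norm_nonneg _).trans (hb 0 (by simp))
  simpa using this

/-- the pole in the lower half plane -/
lemma cauchy_conj {F : ℂ → ℂ} {C : ℝ} (hd : DifferentiableOn ℂ F {z | 0 < z.im})
    (hc : ContinuousOn F {z | 0 ≤ z.im})
    (hb : ∀ z : ℂ, 0 ≤ z.im → ‖F z‖ ≤ C / (1 + ‖z‖)) {z : ℂ} (hz : 0 < z.im) :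
    Integrable (fun u : ℝ => F u * (u - (starRingEnd ℂ) z)⁻¹) ∧
      ∫ u : ℝ, F u * (u - (starRingEnd ℂ) z)⁻¹ = 0 := by
  obtain ⟨L, hL, hLw⟩ := conj_lower hz
  have hC := C_nonneg hb
  have h1 : DifferentiableOn ℂ (fun w => F w * (w - (starRingEnd ℂ) z)⁻¹) {z | 0 < z.im} :=
    hd.mul ((differentiableOn_id.sub_const _).inv fun w hw => conj_ne hz (le_of_lt hw))
  have h2 : ContinuousOn (fun w => F w * (w - (starRingEnd ℂ) z)⁻¹) {z | 0 ≤ z.im} :=
    hc.mul ((continuousOn_id.sub continuousOn_const).inv₀ fun w hw => conj_ne hz hw)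
  have h3 : ∀ w : ℂ, 0 ≤ w.im →
      ‖F w * (w - (starRingEnd ℂ) z)⁻¹‖ ≤ C * L * (1 + ‖w‖ ^ 2)⁻¹ := by
    intro w hw
    refine le_trans ?_ (sq_bound (mul_nonneg hC hL.le) (norm_nonneg w))
    rw [norm_mul]
    refine (mul_le_mul (hb w hw) (hLw w hw) (norm_nonneg _) (by positivity)).trans (le_of_eq ?_)
    ring
  exact ⟨integrable_real h2 h3, goursat h1 h2 h3⟩

/-- a removable pole in the upper half plane -/
lemma cauchy_zero {H : ℂ → ℂ} {C : ℝ} (hd : DifferentiableOn ℂ H {z | 0 < z.im})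
    (hc : ContinuousOn H {z | 0 ≤ z.im})
    (hb : ∀ z : ℂ, 0 ≤ z.im → ‖H z‖ ≤ C / (1 + ‖z‖)) {z : ℂ} (hz : 0 < z.im) (h0 : H z = 0) :
    ∫ u : ℝ, H u * (u - z)⁻¹ = 0 := by
  have hC := C_nonneg hb
  have hopen : IsOpen {w : ℂ | 0 < w.im} := isOpen_lt continuous_const Complex.continuous_im
  have hn : {w : ℂ | 0 < w.im} ∈ 𝓝 z := hopen.mem_nhds hz
  have h1 : DifferentiableOn ℂ (dslope H z) {w | 0 < w.im} :=
    (Complex.differentiableOn_dslope hn).mpr hd
  have h2 : ContinuousOn (dslope H z) {w | 0 ≤ w.im} :=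
    (continuousOn_dslope (s := {w : ℂ | 0 ≤ w.im})
      (mem_of_superset hn fun w (hw : 0 < w.im) => show 0 ≤ w.im from le_of_lt hw)).mpr
      ⟨hc, hd.differentiableAt hn⟩
  have hval : ∀ w : ℂ, w ≠ z → dslope H z w = H w * (w - z)⁻¹ := by
    intro w hw
    rw [dslope_of_ne _ hw, slope_def_field, h0, sub_zero, div_eq_mul_inv]
  obtain ⟨K, hK⟩ := global_bound (K := 2 * C) (R := 2 * ‖z‖ + 1) h2 (fun w hw hR => by
    have h3 : ‖w‖ ≤ ‖w - z‖ + ‖z‖ := by
      simpa using norm_add_le (w - z) z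
    have h4 : (1 + ‖w‖) / 2 ≤ ‖w - z‖ := by linarith
    have h5 : 0 < (1 + ‖w‖) / 2 := by positivity
    have hwz : w ≠ z := by
      rintro rfl
      simp only [sub_self, norm_zero] at h4
      linarith
    refine le_trans ?_ (sq_bound (by positivity) (norm_nonneg w))
    rw [hval w hwz, norm_mul, norm_inv]
    refine (mul_le_mul (hb w hw) (inv_anti₀ h5 h4) (by positivity) (by positivity)).trans
      (le_of_eq ?_)
    field_simp)
  rw [← goursat h1 h2 hK]
  refine integral_congr_ae (Eventually.of_forall fun u => ?_)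
  exact (hval u (sub_ne_zero.mp (real_ne hz u))).symm

lemma poisson_mass {x y : ℝ} (hy : 0 < y) :
    Integrable (fun u : ℝ => ((u - x) ^ 2 + y ^ 2)⁻¹) ∧
      ∫ u : ℝ, ((u - x) ^ 2 + y ^ 2)⁻¹ = Real.pi / y := by
  have e : (fun u : ℝ => ((u - x) ^ 2 + y ^ 2)⁻¹) =
      fun u : ℝ => (y ^ 2)⁻¹ * (1 + ((u - x) / y) ^ 2)⁻¹ := by
    funext u
    field_simp
    ring
  rw [e]
  constructor
  · exact ((integrable_inv_one_add_sq.comp_div hy.ne').comp_sub_right x).const_mul _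
  · rw [integral_const_mul,
      integral_sub_right_eq_self (fun u : ℝ => (1 + (u / y) ^ 2)⁻¹) x,
      Measure.integral_comp_div (fun u : ℝ => (1 + u ^ 2)⁻¹) y, integral_univ_inv_one_add_sq,
      abs_of_pos hy, smul_eq_mul]
    field_simp

lemma prod_conj (z : ℂ) (u : ℝ) :
    ((u : ℂ) - (starRingEnd ℂ) z)⁻¹ * ((u : ℂ) - z)⁻¹ =
      ((((u - z.re) ^ 2 + z.im ^ 2)⁻¹ : ℝ) : ℂ) := by
  rw [← mul_inv, Complex.ofReal_inv]
  refine congrArg _ ?_
  apply Complex.ext
  · simp [pow_two]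
  · simp [pow_two]
    ring

/-- Cauchy integral formula on the half plane -/
lemma cauchy {F : ℂ → ℂ} {C : ℝ} (hd : DifferentiableOn ℂ F {z | 0 < z.im})
    (hc : ContinuousOn F {z | 0 ≤ z.im})
    (hb : ∀ z : ℂ, 0 ≤ z.im → ‖F z‖ ≤ C / (1 + ‖z‖)) {z : ℂ} (hz : 0 < z.im) :
    Integrable (fun u : ℝ => F u * (u - z)⁻¹) ∧
      ∫ u : ℝ, F u * (u - z)⁻¹ = 2 * Real.pi * Complex.I * F z := by
  obtain ⟨L, hL, hLw⟩ := conj_lower hz
  have hC := C_nonneg hb
  have hint : Integrable (fun u : ℝ => F u * (u - z)⁻¹) := by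
    refine Integrable.mono (cauchy_conj hd hc hb hz).1 ?_ (Eventually.of_forall fun u => ?_)
    · refine Continuous.aestronglyMeasurable ((cont_real hc).mul ?_)
      exact (Complex.continuous_ofReal.sub continuous_const).inv₀ (real_ne hz)
    · have : ‖(u : ℂ) - (starRingEnd ℂ) z‖ = ‖(u : ℂ) - z‖ := by
        rw [← Complex.norm_conj ((u : ℂ) - z)]
        simp
      rw [norm_mul, norm_mul, norm_inv, norm_inv, this]
  refine ⟨hint, ?_⟩
  set a : ℂ := F z * (z - (starRingEnd ℂ) z) with ha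
  have h0 := cauchy_zero (H := fun w => F w - a * (w - (starRingEnd ℂ) z)⁻¹) (C := C + ‖a‖ * L)
    (hd.sub (((differentiableOn_id.sub_const _).inv
      fun w hw => conj_ne hz (le_of_lt hw)).const_mul a))
    (hc.sub (continuousOn_const.mul
      ((continuousOn_id.sub continuousOn_const).inv₀ fun w hw => conj_ne hz hw)))
    (fun w hw => by
      refine (norm_sub_le _ _).trans ?_
      rw [add_div, norm_mul, mul_div_assoc]
      exact add_le_add (hb w hw) (mul_le_mul_of_nonneg_left (hLw w hw) (norm_nonneg _))) hz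
    (by
      have := conj_ne hz hz.le
      simp only [ha]
      field_simp
      ring)
  have e : (fun u : ℝ => (F u - a * (u - (starRingEnd ℂ) z)⁻¹) * (u - z)⁻¹) =
      fun u : ℝ => F u * (u - z)⁻¹ - a * ((((u - z.re) ^ 2 + z.im ^ 2)⁻¹ : ℝ) : ℂ) := by
    funext u
    rw [← prod_conj]
    ring
  obtain ⟨hp1, hp2⟩ := poisson_mass (x := z.re) hz
  have hp3 : Integrable fun u : ℝ => a * ((((u - z.re) ^ 2 + z.im ^ 2)⁻¹ : ℝ) : ℂ) :=
    hp1.ofReal.const_mul a
  rw [e, integral_sub hint hp3, integral_const_mul, integral_complex_ofReal,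
    hp2, sub_eq_zero] at h0
  rw [h0, ha, Complex.sub_conj]
  have : (z.im : ℂ) ≠ 0 := Complex.ofReal_ne_zero.mpr hz.ne'
  push_cast
  field_simp

lemma rep_formula {F : ℂ → ℂ} {C : ℝ} (hd : DifferentiableOn ℂ F {z | 0 < z.im})
    (hc : ContinuousOn F {z | 0 ≤ z.im})
    (hb : ∀ z : ℂ, 0 ≤ z.im → ‖F z‖ ≤ C / (1 + ‖z‖)) {z : ℂ} (hz : 0 < z.im) :
    Integrable (fun u : ℝ => ((-(F u).im / Real.pi : ℝ) : ℂ) * (z - u)⁻¹) ∧
      F z = ∫ u : ℝ, ((-(F u).im / Real.pi : ℝ) : ℂ) * (z - u)⁻¹ := by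
  obtain ⟨a1, a2⟩ := cauchy hd hc hb hz
  obtain ⟨b1, b2⟩ := cauchy_conj hd hc hb hz
  have hpi : (Real.pi : ℂ) ≠ 0 := Complex.ofReal_ne_zero.mpr Real.pi_ne_zero
  have c1 : Integrable (fun u : ℝ => (starRingEnd ℂ) (F u * (u - (starRingEnd ℂ) z)⁻¹)) :=
    (Complex.conjCLE : ℂ →L[ℝ] ℂ).integrable_comp b1
  have c2 : ∫ u : ℝ, (starRingEnd ℂ) (F u * (u - (starRingEnd ℂ) z)⁻¹) = 0 := by
    rw [integral_conj, b2, map_zero]
  have e : (fun u : ℝ => ((-(F u).im / Real.pi : ℝ) : ℂ) * (z - u)⁻¹) =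
      fun u : ℝ => (2 * Real.pi * Complex.I)⁻¹ *
        (F u * (u - z)⁻¹ - (starRingEnd ℂ) (F u * (u - (starRingEnd ℂ) z)⁻¹)) := by
    funext u
    have h1 := real_ne hz u
    have h2 : z - u ≠ 0 := fun h => h1 (by linear_combination -h)
    rw [map_mul, map_inv₀, map_sub, Complex.conj_conj, Complex.conj_ofReal, ← sub_mul,
      Complex.sub_conj]
    push_cast
    field_simp
    ring
  rw [e]
  refine ⟨(a1.sub c1).const_mul _, ?_⟩
  rw [integral_const_mul, integral_sub a1 c1, a2, c2, sub_zero]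
  field_simp

lemma mass_bound {φ : ℝ → ℝ} {M : ℝ} (hφ : Continuous φ) (h0 : ∀ u, 0 ≤ φ u)
    (h : ∀ y : ℝ, 0 < y → Integrable (fun u => φ u * (y ^ 2 / (u ^ 2 + y ^ 2))) ∧
      ∫ u, φ u * (y ^ 2 / (u ^ 2 + y ^ 2)) ≤ M) : Integrable φ ∧ ∫ u, φ u ≤ M := by
  have hM : 0 ≤ M := le_trans (integral_nonneg fun u => by have := h0 u; positivity) (h 1 one_pos).2
  have hR : ∀ R : ℝ, 0 < R → ∫ u in (-R)..R, φ u ≤ M := by
    intro R hR
    have h1 : ∀ y : ℝ, 0 < y → ∫ u in (-R)..R, φ u ≤ (1 + R ^ 2 * (y ^ 2)⁻¹) * M := by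
      intro y hy
      obtain ⟨i1, i2⟩ := h y hy
      have hq : 0 ≤ 1 + R ^ 2 * (y ^ 2)⁻¹ := by positivity
      refine le_trans ?_ (mul_le_mul_of_nonneg_left i2 hq)
      rw [← integral_const_mul, intervalIntegral.integral_of_le (by linarith)]
      refine le_trans (setIntegral_mono_on (hφ.integrableOn_Ioc) (i1.const_mul _).integrableOn
        measurableSet_Ioc fun u hu => ?_)
        (setIntegral_le_integral (i1.const_mul _) (Eventually.of_forall fun u => ?_))
      · have hu2 : u ^ 2 ≤ R ^ 2 := sq_le_sq' hu.1.le hu.2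
        have e : (1 + R ^ 2 * (y ^ 2)⁻¹) * (φ u * (y ^ 2 / (u ^ 2 + y ^ 2))) =
            φ u * ((R ^ 2 + y ^ 2) / (u ^ 2 + y ^ 2)) := by
          field_simp
          ring
        rw [e]
        refine le_mul_of_one_le_right (h0 u) ?_
        rw [one_le_div (by positivity)]
        linarith
      · have := h0 u
        simp only [Pi.zero_apply]
        positivity
    have h2 : Tendsto (fun y : ℝ => (1 + R ^ 2 * (y ^ 2)⁻¹) * M) atTop (𝓝 ((1 + R ^ 2 * 0) * M)) :=
      (((tendsto_inv_atTop_zero.comp (tendsto_pow_atTop two_ne_zero)).const_mul _).const_add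
        _).mul_const _
    rw [mul_zero, add_zero, one_mul] at h2
    refine ge_of_tendsto h2 ?_
    filter_upwards [eventually_gt_atTop 0] with y hy using h1 y hy
  have hint : Integrable φ := by
    refine integrable_of_intervalIntegral_norm_bounded (l := atTop) (a := fun R : ℝ => -R)
      (b := fun R : ℝ => R) M (fun R => hφ.integrableOn_Ioc) tendsto_neg_atTop_atBot tendsto_id ?_
    filter_upwards [eventually_gt_atTop 0] with R hR0
    have e : (fun x => ‖φ x‖) = φ := funext fun x => Real.norm_of_nonneg (h0 x)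
    rw [e]
    exact hR R hR0
  refine ⟨hint, le_of_tendsto (intervalIntegral_tendsto_integral hint
    (tendsto_neg_atTop_atBot) (tendsto_id (α := ℝ) (x := atTop))) ?_⟩
  filter_upwards [eventually_gt_atTop 0] with R hR0 using hR R hR0

end RepAux

/-- Cauchy-Goursat on big rectangles gives `∫ F u / (u - z) du = 2πi F z` and
`∫ F u / (u - conj z) du = 0`; subtract the conjugate.  Integrability of `Im F`: evaluate at
`z = iy`, `y → ∞`, and use Fatou / monotone convergence. -/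
theorem rep_integral {F : ℂ → ℂ} {C : ℝ} (hd : DifferentiableOn ℂ F {z | 0 < z.im})
    (hc : ContinuousOn F {z | 0 ≤ z.im}) (him : ∀ z : ℂ, 0 ≤ z.im → (F z).im ≤ 0)
    (hb : ∀ z : ℂ, 0 ≤ z.im → ‖F z‖ ≤ C / (1 + ‖z‖)) :
    Integrable (fun u : ℝ => (F u).im) ∧ ∫ u : ℝ, -(F u).im ≤ Real.pi * C ∧
      ∀ z : ℂ, 0 < z.im → F z = ∫ u : ℝ, ((-(F u).im / Real.pi : ℝ) : ℂ) * (z - u)⁻¹ := by
  have hC := RepAux.C_nonneg hb
  have key := RepAux.mass_bound (φ := fun u : ℝ => -(F u).im) (M := Real.pi * C)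
    (Complex.continuous_im.comp (RepAux.cont_real hc)).neg
    (fun u => neg_nonneg.mpr (him u (by simp))) (fun y hy => by
      have hz : 0 < ((y : ℂ) * Complex.I).im := by simpa using hy
      obtain ⟨a1, a2⟩ := RepAux.rep_formula hd hc hb hz
      have e : (fun u : ℝ => -(F u).im * (y ^ 2 / (u ^ 2 + y ^ 2))) = fun u : ℝ =>
          -(Real.pi * y) * (((-(F u).im / Real.pi : ℝ) : ℂ) * (y * Complex.I - u)⁻¹).im := by
        funext u
        rw [Complex.im_ofReal_mul, Complex.inv_im, Complex.normSq_apply]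
        have : 0 < u * u + y * y := by nlinarith [mul_self_nonneg u, mul_pos hy hy]
        simp only [Complex.sub_im, Complex.mul_im, Complex.ofReal_re, Complex.I_im, mul_one,
          Complex.ofReal_im, Complex.I_re, mul_zero, add_zero, sub_zero, Complex.sub_re,
          Complex.mul_re, zero_sub, neg_mul_neg]
        field_simp
      rw [e]
      refine ⟨(a1.im).const_mul _, ?_⟩
      have a3 : ∫ u : ℝ, (((-(F u).im / Real.pi : ℝ) : ℂ) * (y * Complex.I - u)⁻¹).im =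
          (F (y * Complex.I)).im := by
        rw [a2]
        exact integral_im a1
      rw [integral_const_mul, a3]
      have h1 := hb _ hz.le
      have h2 : ‖(y : ℂ) * Complex.I‖ = y := by simp [abs_of_pos hy]
      rw [h2, le_div_iff₀ (by positivity)] at h1
      have h3 : -(F (y * Complex.I)).im ≤ ‖F (y * Complex.I)‖ := by
        simpa using Complex.im_le_norm (-(F (y * Complex.I)))
      have h4 : y * -(F (y * Complex.I)).im ≤ C := by
        nlinarith [norm_nonneg (F (y * Complex.I))]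
      nlinarith [Real.pi_pos])
  refine ⟨?_, key.2, fun z hz => (RepAux.rep_formula hd hc hb hz).2⟩
  simpa using key.1.neg

theorem rep_measure {F : ℂ → ℂ} {C : ℝ} (hd : DifferentiableOn ℂ F {z | 0 < z.im})
    (hc : ContinuousOn F {z | 0 ≤ z.im}) (him : ∀ z : ℂ, 0 ≤ z.im → (F z).im ≤ 0)
    (hb : ∀ z : ℂ, 0 ≤ z.im → ‖F z‖ ≤ C / (1 + ‖z‖)) :
    ∃ ν : Measure ℝ, IsFiniteMeasure ν ∧ ν.real univ ≤ C ∧ ∀ z : ℂ, 0 < z.im → F z = CT ν z := by
  obtain ⟨h1, h2, h3⟩ := rep_integral hd hc him hb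
  have hint : Integrable (fun u : ℝ => -(F u).im / Real.pi) := h1.neg.div_const _
  have hnn : ∀ u : ℝ, 0 ≤ -(F u).im / Real.pi := fun u =>
    div_nonneg (neg_nonneg.mpr (him u (by simp))) Real.pi_pos.le
  have hmeas : Measurable fun u : ℝ => ENNReal.ofReal (-(F u).im / Real.pi) :=
    ((Complex.continuous_im.comp (RepAux.cont_real hc)).neg.div_const _).measurable.ennreal_ofReal
  refine ⟨volume.withDensity fun u : ℝ => ENNReal.ofReal (-(F u).im / Real.pi),
    isFiniteMeasure_withDensity_ofReal hint.2, ?_, fun z hz => ?_⟩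
  · rw [Measure.real, withDensity_apply _ MeasurableSet.univ, Measure.restrict_univ,
      ← ofReal_integral_eq_lintegral_ofReal hint (Eventually.of_forall hnn),
      ENNReal.toReal_ofReal (integral_nonneg hnn), integral_div, div_le_iff₀ Real.pi_pos]
    linarith
  · rw [CT, integral_withDensity_eq_integral_toReal_smul hmeas
      (Eventually.of_forall fun u => ENNReal.ofReal_lt_top), h3 z hz]
    refine integral_congr_ae (Eventually.of_forall fun u => ?_)
    simp only [ENNReal.toReal_ofReal (hnn u), Complex.real_smul]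

end Vale.Agent.P078
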