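import Vale.Agent.P078.Mono

/-! Elementary facts on the argument in the upper half plane, and three explicit kernels. -/

namespace Vale.Agent.P078.SelAux

open Set Filter Topology MeasureTheory Real

lemma arg_eq {w : ℂ} (h : 0 < w.im) : Complex.arg w = π / 2 - arctan (w.re / w.im) := by
  have h0 : 0 ≤ Complex.arg w := Complex.arg_nonneg_iff.2 h.le
  have h1 : Complex.arg w < π := Complex.arg_lt_pi_iff.2 (Or.inr h.ne')
  have h2 : Complex.arg w ≠ 0 := fun e => h.ne' (Complex.arg_eq_zero_iff.1 e).2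
  have h3 : 0 < Complex.arg w := lt_of_le_of_ne h0 h2.symm
  have e : w.re / w.im = tan (π / 2 - Complex.arg w) := by
    rw [Real.tan_pi_div_two_sub, Complex.tan_arg, inv_div]
  rw [e, arctan_tan (by linarith) (by linarith)]
  ring

lemma arctan_sub_le {x y : ℝ} (h : y ≤ x) : arctan x - arctan y ≤ x - y := by
  have hm : Monotone (fun x : ℝ => x - arctan x) := by
    refine monotone_of_deriv_nonneg (differentiable_id.sub differentiable_arctan) (fun x => ?_)
    have hd : HasDerivAt (fun x : ℝ => x - arctan x) (1 - 1 / (1 + x ^ 2)) x :=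
      (hasDerivAt_id x).sub (hasDerivAt_arctan x)
    rw [hd.deriv]
    have : 1 / (1 + x ^ 2) ≤ 1 := by
      rw [div_le_one (by positivity)]; nlinarith [sq_nonneg x]
    linarith
  have := hm h
  simp only at this
  linarith

lemma arg_le_arg {w z : ℂ} (hw : 0 < w.im) (hz : 0 < z.im) (h : z.re * w.im ≤ w.re * z.im) :
    Complex.arg w ≤ Complex.arg z := by
  rw [arg_eq hw, arg_eq hz]
  have : z.re / z.im ≤ w.re / w.im := by rwa [div_le_div_iff₀ hz hw]
  linarith [arctan_mono this]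

lemma arg_ge_half {w : ℂ} (hw : 0 < w.im) (h : w.re ≤ 0) : π / 2 ≤ Complex.arg w := by
  rw [arg_eq hw]
  have : arctan (w.re / w.im) ≤ 0 := arctan_le_zero.2 (div_nonpos_of_nonpos_of_nonneg h hw.le)
  linarith

lemma arg_le_half {w : ℂ} (hw : 0 < w.im) (h : 0 ≤ w.re) : Complex.arg w ≤ π / 2 := by
  rw [arg_eq hw]
  have : 0 ≤ arctan (w.re / w.im) := arctan_nonneg.2 (div_nonneg h hw.le)
  linarith

lemma arg_le_quarter {w : ℂ} (hw : 0 < w.im) (h : w.im ≤ w.re) : Complex.arg w ≤ π / 4 := by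
  rw [arg_eq hw]
  have : arctan 1 ≤ arctan (w.re / w.im) := arctan_mono (by rwa [le_div_iff₀ hw, one_mul])
  rw [arctan_one] at this
  linarith

lemma arg_ge_three_quarter {w : ℂ} (hw : 0 < w.im) (h : w.im ≤ -w.re) :
    3 * π / 4 ≤ Complex.arg w := by
  rw [arg_eq hw]
  have : arctan (w.re / w.im) ≤ arctan (-1) :=
    arctan_mono (by rw [div_le_iff₀ hw]; linarith)
  rw [arctan_neg, arctan_one] at this
  linarith

lemma arg_eq_right {w : ℂ} (hw : 0 < w.im) (h : 0 < w.re) :
    Complex.arg w = arctan (w.im / w.re) := by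
  rw [arg_eq hw, ← arctan_inv_of_pos (div_pos h hw), inv_div]

lemma arg_eq_left {w : ℂ} (hw : 0 < w.im) (h : w.re < 0) :
    Complex.arg w = π - arctan (w.im / -w.re) := by
  have h1 : 0 < -w.re / w.im := div_pos (by linarith) hw
  have := arctan_inv_of_pos h1
  rw [inv_div] at this
  rw [arg_eq hw, this, neg_div, arctan_neg]
  ring

lemma arg_le_div {w : ℂ} (hw : 0 < w.im) (h : 0 < w.re) : Complex.arg w ≤ w.im / w.re := by
  rw [arg_eq_right hw h]
  simpa using arctan_sub_le (div_pos hw h).le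

lemma atan_diff {x r η I : ℝ} (hx : 0 < x) (hr : 0 ≤ r) (hrx : 2 * r ≤ x) (hη : 0 ≤ η)
    (hI : 0 ≤ I) :
    arctan ((η + I) / (x - r)) - arctan (η / x) ≤ 2 * I / x + 2 * η * r / x ^ 2 := by
  have hy : 0 < x - r := by linarith
  have h1 : η / x ≤ (η + I) / (x - r) := by
    rw [div_le_div_iff₀ hx hy]; nlinarith [mul_nonneg hη hr, mul_nonneg hI hx.le]
  refine (arctan_sub_le h1).trans ?_
  have e : (η + I) / (x - r) - η / x = (I * x + η * r) / (x * (x - r)) := by
    field_simp; ring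
  have e2 : 2 * I / x + 2 * η * r / x ^ 2 = (I * x + η * r) / (x * (x / 2)) := by
    field_simp
  rw [e, e2]
  refine div_le_div_of_nonneg_left (by positivity) (by positivity) ?_
  exact mul_le_mul_of_nonneg_left (by linarith) hx.le

lemma arg_avg_le {w w₁ w₂ : ℂ} (h₁ : 0 < w₁.im) (h₂ : 0 < w₂.im) (h : 2 * w = w₁ + w₂) :
    Complex.arg w ≤ Complex.arg w₁ ∨ Complex.arg w ≤ Complex.arg w₂ := by
  have hre : 2 * w.re = w₁.re + w₂.re := by simpa using congrArg Complex.re h
  have him : 2 * w.im = w₁.im + w₂.im := by simpa using congrArg Complex.im h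
  have hw : 0 < w.im := by linarith
  have e1 : w.re = (w₁.re + w₂.re) / 2 := by linarith
  have e2 : w.im = (w₁.im + w₂.im) / 2 := by linarith
  rcases le_total (w₁.re * w₂.im) (w₂.re * w₁.im) with k | k
  · exact Or.inl (arg_le_arg hw h₁ (by rw [e1, e2]; nlinarith))
  · exact Or.inr (arg_le_arg hw h₂ (by rw [e1, e2]; nlinarith))

/-! ### kernels -/

/-- indicator of an interval -/
noncomputable def blk (p q t : ℝ) : ℝ := (Ioc p q).indicator (fun _ => (1 : ℝ)) t

/-- Poisson kernel -/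
noncomputable def poi (c x t : ℝ) : ℝ := c / (c ^ 2 + (t - x) ^ 2)

/-- truncated logarithmic kernel -/
noncomputable def lg (a p q t : ℝ) : ℝ := (Ioc p q).indicator (fun t => (a + t)⁻¹) t

lemma blk_nonneg (p q t : ℝ) : 0 ≤ blk p q t := indicator_nonneg (fun _ _ => zero_le_one) t

lemma blk_le_one (p q t : ℝ) : blk p q t ≤ 1 := by
  unfold blk; by_cases h : t ∈ Ioc p q <;> simp [h]

lemma blk_of_mem {p q t : ℝ} (h1 : p < t) (h2 : t ≤ q) : blk p q t = 1 :=
  indicator_of_mem (show t ∈ Ioc p q from ⟨h1, h2⟩) _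

lemma blk_of_not {p q t : ℝ} (h : t ≤ p ∨ q < t) : blk p q t = 0 :=
  indicator_of_notMem (fun k => by rcases h with h | h <;> linarith [k.1, k.2]) _

lemma blk_integrable (p q : ℝ) : Integrable (blk p q) := by
  unfold blk
  exact (integrable_indicator_iff measurableSet_Ioc).2 (integrableOn_const (by simp))

lemma blk_integral {p q : ℝ} (h : p ≤ q) : ∫ t, blk p q t = q - p := by
  unfold blk
  rw [integral_indicator measurableSet_Ioc]
  simp [h]

lemma poi_nonneg {c : ℝ} (hc : 0 < c) (x t : ℝ) : 0 ≤ poi c x t := by unfold poi; positivity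

lemma poi_eq {c : ℝ} (hc : 0 < c) (x : ℝ) :
    poi c x = fun t => c⁻¹ * (1 + ((t - x) / c) ^ 2)⁻¹ := by
  funext t; unfold poi; field_simp

lemma poi_integrable {c : ℝ} (hc : 0 < c) (x : ℝ) : Integrable (poi c x) := by
  rw [poi_eq hc]
  exact ((integrable_inv_one_add_sq.comp_div hc.ne').comp_sub_right x).const_mul _

lemma poi_integral {c : ℝ} (hc : 0 < c) (x : ℝ) : ∫ t, poi c x t = π := by
  rw [poi_eq hc, integral_const_mul,
    integral_sub_right_eq_self (fun t : ℝ => (1 + (t / c) ^ 2)⁻¹) x,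
    Measure.integral_comp_div (fun t : ℝ => (1 + t ^ 2)⁻¹) c, integral_univ_inv_one_add_sq,
    abs_of_pos hc, smul_eq_mul]
  field_simp

lemma le_poi {c x t : ℝ} (hc : 0 < c) (h : c ≤ |t - x|) : c / (t - x) ^ 2 ≤ 2 * poi c x t := by
  have h1 : c ^ 2 ≤ (t - x) ^ 2 := by rw [← sq_abs (t - x)]; gcongr
  have h2 : 0 < (t - x) ^ 2 := lt_of_lt_of_le (by positivity) h1
  unfold poi
  rw [← mul_div_assoc, div_le_div_iff₀ h2 (by positivity)]
  nlinarith

lemma lg_nonneg {a p : ℝ} (h : 0 < a + p) (q t : ℝ) : 0 ≤ lg a p q t :=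
  indicator_nonneg (fun s hs => inv_nonneg.2 (by linarith [hs.1])) t

lemma lg_of_mem (a : ℝ) {p q t : ℝ} (h1 : p < t) (h2 : t ≤ q) : lg a p q t = (a + t)⁻¹ :=
  indicator_of_mem (show t ∈ Ioc p q from ⟨h1, h2⟩) _

lemma lg_cont {a p : ℝ} (h : 0 < a + p) (q : ℝ) :
    ContinuousOn (fun t : ℝ => (a + t)⁻¹) (Icc p q) :=
  (continuousOn_const.add continuousOn_id).inv₀ (fun t ht => by
    have : 0 < a + t := by linarith [ht.1]
    exact this.ne')

lemma lg_integrable {a p : ℝ} (h : 0 < a + p) (q : ℝ) : Integrable (lg a p q) := by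
  unfold lg
  exact (integrable_indicator_iff measurableSet_Ioc).2
    (((lg_cont h q).integrableOn_Icc).mono_set Ioc_subset_Icc_self)

lemma lg_integral {a p q : ℝ} (h : 0 < a + p) (hpq : p ≤ q) :
    ∫ t, lg a p q t = log ((a + q) / (a + p)) := by
  unfold lg
  rw [integral_indicator measurableSet_Ioc, ← intervalIntegral.integral_of_le hpq,
    intervalIntegral.integral_comp_add_left (fun t : ℝ => t⁻¹) a, integral_inv]
  rw [uIcc_of_le (by linarith)]
  intro k
  linarith [k.1]

/-- comparison of a set integral with a global one -/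
lemma setIntegral_le {f g : ℝ → ℝ} {s : Set ℝ} (hs : MeasurableSet s) (hf : Integrable f)
    (hg : Integrable g) (h1 : ∀ t ∈ s, f t ≤ g t) (h2 : ∀ t, t ∉ s → 0 ≤ g t) :
    ∫ t in s, f t ≤ ∫ t, g t := by
  rw [← integral_indicator hs]
  refine integral_mono (hf.indicator hs) hg (fun t => ?_)
  by_cases h : t ∈ s
  · rw [indicator_of_mem h]; exact h1 t h
  · rw [indicator_of_notMem h]; exact h2 t h

lemma le_setIntegral {f g : ℝ → ℝ} {s : Set ℝ} (hs : MeasurableSet s) (hf : Integrable f)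
    (hg : Integrable g) (h1 : ∀ t ∈ s, g t ≤ f t) (h2 : ∀ t, t ∉ s → g t ≤ 0) :
    ∫ t, g t ≤ ∫ t in s, f t := by
  rw [← integral_indicator hs]
  refine integral_mono hg (hf.indicator hs) (fun t => ?_)
  by_cases h : t ∈ s
  · rw [indicator_of_mem h]; exact h1 t h
  · rw [indicator_of_notMem h]; exact h2 t h

end Vale.Agent.P078.SelAux
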