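import Vale.Agent.P078.SelArg

/-! Real and imaginary parts of the Cauchy transform; linearity in the measure. -/

namespace Vale.Agent.P078.SelAux

open Set Filter Topology MeasureTheory Real
open scoped NNReal

lemma ker_integrable (ν : Measure ℝ) [IsFiniteMeasure ν] {z : ℂ} (hz : 0 < z.im) :
    Integrable (fun u : ℝ => (z - u)⁻¹) ν := by
  refine Integrable.of_bound (C := z.im⁻¹) ?_ (Eventually.of_forall fun u => ?_)
  · exact (measurable_const.sub Complex.measurable_ofReal).inv.aestronglyMeasurable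
  · rw [norm_inv]
    refine inv_anti₀ hz ?_
    have := Complex.abs_im_le_norm (z - u)
    simp only [Complex.sub_im, Complex.ofReal_im, sub_zero] at this
    exact (le_abs_self _).trans this

lemma im_pt (t ε : ℝ) : ((t : ℂ) + ε * Complex.I).im = ε := by simp

lemma ker_int (ν : Measure ℝ) [IsFiniteMeasure ν] (t : ℝ) {ε : ℝ} (hε : 0 < ε) :
    Integrable (fun u : ℝ => ((t : ℂ) + ε * Complex.I - u)⁻¹) ν :=
  ker_integrable ν (by rw [im_pt]; exact hε)

lemma ker_re (t ε u : ℝ) :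
    (((t : ℂ) + ε * Complex.I - u)⁻¹).re = (t - u) / ((t - u) ^ 2 + ε ^ 2) := by
  simp [Complex.inv_re, Complex.normSq_apply, sq]

lemma ker_im (t ε u : ℝ) :
    (((t : ℂ) + ε * Complex.I - u)⁻¹).im = -(ε / ((t - u) ^ 2 + ε ^ 2)) := by
  simp [Complex.inv_im, Complex.normSq_apply, sq, neg_div]

section
variable (ν : Measure ℝ) [IsFiniteMeasure ν] (t : ℝ) {ε : ℝ}

lemma re_integrable (hε : 0 < ε) :
    Integrable (fun u : ℝ => (t - u) / ((t - u) ^ 2 + ε ^ 2)) ν := by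
  simpa only [RCLike.re_to_complex, ker_re] using (ker_int ν t hε).re

lemma im_integrable (hε : 0 < ε) :
    Integrable (fun u : ℝ => ε / ((t - u) ^ 2 + ε ^ 2)) ν := by
  have := (ker_int ν t hε).im.neg
  simp only [RCLike.im_to_complex, ker_im] at this
  refine this.congr (Eventually.of_forall fun u => ?_)
  simp

lemma ctl_re (hε : 0 < ε) : (ctl ν ε t).re = ∫ u, (t - u) / ((t - u) ^ 2 + ε ^ 2) ∂ν := by
  have := integral_re (ker_int ν t hε)
  simp only [RCLike.re_to_complex, ker_re] at this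
  exact this.symm

lemma ctl_im (hε : 0 < ε) : -(ctl ν ε t).im = ∫ u, ε / ((t - u) ^ 2 + ε ^ 2) ∂ν := by
  have := integral_im (ker_int ν t hε)
  simp only [RCLike.im_to_complex, ker_im, integral_neg] at this
  rw [ctl, CT, ← this, neg_neg]

lemma ctl_im_nonpos (hε : 0 < ε) : (ctl ν ε t).im ≤ 0 :=
  CT_im_nonpos ν (by rw [im_pt]; exact hε)

variable {ν t}

lemma re_le (hε : 0 < ε) {g : ℝ → ℝ} (hg : Integrable g ν)
    (h : ∀ᵐ u ∂ν, (t - u) / ((t - u) ^ 2 + ε ^ 2) ≤ g u) : (ctl ν ε t).re ≤ ∫ u, g u ∂ν := by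
  rw [ctl_re ν t hε]
  exact integral_mono_ae (re_integrable ν t hε) hg h

lemma le_re (hε : 0 < ε) {g : ℝ → ℝ} (hg : Integrable g ν)
    (h : ∀ᵐ u ∂ν, g u ≤ (t - u) / ((t - u) ^ 2 + ε ^ 2)) : ∫ u, g u ∂ν ≤ (ctl ν ε t).re := by
  rw [ctl_re ν t hε]
  exact integral_mono_ae hg (re_integrable ν t hε) h

/-- away from the support the imaginary part is small -/
lemma im_le (hε : 0 < ε) {c B : ℝ} (hc : 0 < c) (hct : c ≤ |t|) (hB : ν.real univ ≤ B)
    (h : ∀ᵐ u ∂ν, |t| ≤ |t - u|) :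
    -(ctl ν ε t).im ≤ ε * (B * (1 + (c ^ 2)⁻¹)) * poi 1 0 t := by
  have ht : 0 < t ^ 2 := by rw [← sq_abs]; have := hc.trans_le hct; positivity
  have hct2 : c ^ 2 ≤ t ^ 2 := by rw [← sq_abs t]; gcongr
  have h1 : -(ctl ν ε t).im ≤ ∫ _u, ε / t ^ 2 ∂ν := by
    rw [ctl_im ν t hε]
    refine integral_mono_ae (im_integrable ν t hε) (integrable_const _) ?_
    filter_upwards [h] with u hu
    refine div_le_div_of_nonneg_left hε.le ht ?_
    have : t ^ 2 ≤ (t - u) ^ 2 := by rw [← sq_abs t, ← sq_abs (t - u)]; gcongr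
    nlinarith [sq_nonneg ε]
  rw [integral_const, smul_eq_mul] at h1
  have h0 : 0 ≤ ν.real univ := measureReal_nonneg
  have h2 : (t ^ 2)⁻¹ ≤ (1 + (c ^ 2)⁻¹) * poi 1 0 t := by
    unfold poi
    have h3 : (t ^ 2)⁻¹ ≤ (c ^ 2)⁻¹ := inv_anti₀ (by positivity) hct2
    have e : (t ^ 2)⁻¹ = (1 + (t ^ 2)⁻¹) * (1 / (1 ^ 2 + (t - 0) ^ 2)) := by
      have ht0 : t ≠ 0 := by rintro rfl; simp at ht
      field_simp; ring
    rw [e]
    gcongr
  calc -(ctl ν ε t).im ≤ ν.real univ * (ε / t ^ 2) := h1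
    _ = ε * (ν.real univ * (t ^ 2)⁻¹) := by ring
    _ ≤ ε * (B * ((1 + (c ^ 2)⁻¹) * poi 1 0 t)) := by
      have hB0 : 0 ≤ B := h0.trans hB
      gcongr
    _ = _ := by ring

end

lemma ctl_add (ν μ : Measure ℝ) [IsFiniteMeasure ν] [IsFiniteMeasure μ] (t : ℝ) {ε : ℝ}
    (hε : 0 < ε) : ctl (ν + μ) ε t = ctl ν ε t + ctl μ ε t :=
  integral_add_measure (ker_int ν t hε) (ker_int μ t hε)

lemma ctl_smul (c : ℝ≥0) (ν : Measure ℝ) (t ε : ℝ) :
    ctl (c • ν) ε t = ((c : ℝ) : ℂ) * ctl ν ε t := by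
  rw [ctl, CT, integral_smul_nnreal_measure, ctl, CT, NNReal.smul_def, Complex.real_smul]

lemma ctl_sum {J : Type} [Fintype J] (ν : J → Measure ℝ) [∀ j, IsFiniteMeasure (ν j)] (t : ℝ)
    {ε : ℝ} (hε : 0 < ε) : ctl (∑ j, ν j) ε t = ∑ j, ctl (ν j) ε t :=
  integral_finsetSum_measure (fun j _ => ker_int (ν j) t hε)

lemma darg_zero (a η ε t : ℝ) : darg a η (ctl 0 ε) t = 0 := by
  simp [darg, ctl, CT]

lemma darg_Ioi_nonneg (ν : Measure ℝ) [IsFiniteMeasure ν] (a t₀ : ℝ) {η ε : ℝ} (hη : 0 < η)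
    (hε : 0 < ε) : 0 ≤ ∫ t in Ioi t₀, darg a η (ctl ν ε) t := by
  have := darg_mono 0 ν a t₀ hη hε
  simpa only [darg_zero, integral_zero, zero_add] using this

lemma darg_Ioi_eq (ν : Measure ℝ) [IsFiniteMeasure ν] (a : ℝ) {η ε : ℝ} (hη : 0 < η)
    (hε : 0 < ε) :
    ∫ t in Ioi 0, darg a η (ctl ν ε) t = ∫ t in Iic 0, -darg a η (ctl ν ε) t := by
  have hi := darg_integrable ν a hη hε
  have h1 := intervalIntegral.integral_Iic_add_Ioi (b := 0) hi.integrableOn hi.integrableOn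
  rw [darg_sum_rule ν a hη hε] at h1
  rw [integral_neg]
  linarith

lemma darg_Ioi_split (ν : Measure ℝ) [IsFiniteMeasure ν] (a : ℝ) {η ε T : ℝ} (hη : 0 < η)
    (hε : 0 < ε) (hT : 0 ≤ T) :
    ∫ t in Ioi 0, darg a η (ctl ν ε) t =
      (∫ t in Ioc 0 T, darg a η (ctl ν ε) t) + ∫ t in Ioi T, darg a η (ctl ν ε) t := by
  have hi := darg_integrable ν a hη hε
  rw [← Ioc_union_Ioi_eq_Ioi hT,
    setIntegral_union Ioc_disjoint_Ioi_same measurableSet_Ioi hi.integrableOn hi.integrableOn]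

lemma z_re (a t η : ℝ) : ((a : ℂ) + t + η * Complex.I).re = a + t := by simp
lemma z_im (a t η : ℝ) : ((a : ℂ) + t + η * Complex.I).im = η := by simp
lemma zm_re (a t η : ℝ) (m : ℂ) : ((a : ℂ) + t + η * Complex.I - m).re = a + t - m.re := by simp
lemma zm_im (a t η : ℝ) (m : ℂ) : ((a : ℂ) + t + η * Complex.I - m).im = η - m.im := by simp

end Vale.Agent.P078.SelAux
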