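import Vale.Agent.P078.Model
import Vale.Agent.P078.NetA

/-! One step of the colouring process.  See PROOF.md, section Step. -/

namespace Vale.Agent.P078

open Finset MeasureTheory
open scoped BigOperators

universe u

/-- points whose label has clock `0` and which are uncoloured get the colour `ch shift s` -/
def upd {Ω J : Type*} {r M : ℕ} (e : Ω → J) (β : Ω → St r) (ch : ZMod r → Ω → ZMod r)
    (l : J → Fin (M + 1) × ZMod r) : Ω → St r :=
  fun s => if (l (e s)).1 = 0 ∧ β s = none then some (ch (l (e s)).2 s) else β s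

lemma upd_lc {Ω J : Type*} [TopologicalSpace Ω] {r M : ℕ} {e : Ω → J} {β : Ω → St r}
    {ch : ZMod r → Ω → ZMod r} (he : IsLocallyConstant e) (hβ : IsLocallyConstant β)
    (hch : ∀ g, IsLocallyConstant (ch g)) (l : J → Fin (M + 1) × ZMod r) :
    IsLocallyConstant (upd e β ch l) := by
  rw [IsLocallyConstant.iff_eventually_eq]
  intro x
  filter_upwards [he.eventually_eq x, hβ.eventually_eq x, (hch (l (e x)).2).eventually_eq x]
    with y h1 h2 h3
  simp only [upd, h1, h2, h3]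

namespace StepAux

lemma expect_prod {J X : Type*} [Fintype J] [DecidableEq J] [Fintype X] (h : J → X → ℝ) :
    𝔼 l : J → X, ∏ j, h j (l j) = ∏ j, 𝔼 x, h j x := by
  simp only [Finset.expect_eq_sum_div_card, Finset.prod_div_distrib, Finset.prod_univ_sum,
    Fintype.piFinset_univ, Finset.prod_const, card_univ, Fintype.card_fun, Nat.cast_pow]

lemma expect_one {J X : Type*} [Fintype J] [DecidableEq J] [Fintype X] [Nonempty X] (j0 : J)
    (f : X → ℝ) : 𝔼 l : J → X, f (l j0) = 𝔼 x, f x := by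
  have h := expect_prod fun j x => if j = j0 then f x else 1
  have h2 : ∀ j, (𝔼 x, if j = j0 then f x else 1) = if j = j0 then 𝔼 x, f x else 1 := by
    intro j; split_ifs <;> simp
  simpa [h2] using h

lemma expect_two {J X : Type*} [Fintype J] [DecidableEq J] [Fintype X] [Nonempty X] {j0 j1 : J}
    (hj : j0 ≠ j1) (f : X → ℝ) :
    𝔼 l : J → X, f (l j0) * f (l j1) = (𝔼 x, f x) * 𝔼 x, f x := by
  have h := expect_prod fun j x => if j ∈ ({j0, j1} : Finset J) then f x else 1
  have h2 : ∀ j, (𝔼 x, if j ∈ ({j0, j1} : Finset J) then f x else 1) =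
      if j ∈ ({j0, j1} : Finset J) then 𝔼 x, f x else 1 := by
    intro j; split_ifs <;> simp
  simp only [h2, Finset.prod_ite_mem, Finset.univ_inter, Finset.prod_pair hj] at h
  exact h

lemma expect_clock {M r : ℕ} [NeZero r] :
    (𝔼 x : Fin (M + 1) × ZMod r, if x.1 = 0 then (1 : ℝ) else 0) = 1 / (M + 1) := by
  rw [Finset.expect_eq_sum_div_card, Fintype.sum_prod_type]
  have : (r : ℝ) ≠ 0 := by exact_mod_cast NeZero.ne r
  have h : (∑ x : Fin (M + 1), ∑ _y : ZMod r, if x = 0 then (1 : ℝ) else 0) = r := by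
    rw [Finset.sum_comm]; simp
  simp only [h, card_univ, ZMod.card, Fintype.card_prod, Fintype.card_fin]
  push_cast
  field_simp

lemma expect_integral {Ω L : Type*} [MeasurableSpace Ω] [Fintype L] (μ : Measure Ω)
    (g : L → Ω → ℝ) (hg : ∀ l, Integrable (g l) μ) :
    𝔼 l, ∫ s, g l s ∂μ = ∫ s, 𝔼 l, g l s ∂μ := by
  simp only [Finset.expect_eq_sum_div_card, integral_div]
  rw [integral_finsetSum _ fun l _ => hg l]

lemma integrable_cont {Ω : Type*} [TopologicalSpace Ω] [CompactSpace Ω] [MeasurableSpace Ω]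
    [BorelSpace Ω] (μ : Measure Ω) [IsFiniteMeasure μ] {f : Ω → ℝ} (hf : Continuous f) :
    Integrable f μ := hf.integrable_of_hasCompactSupport (HasCompactSupport.of_compactSpace f)

lemma real_eq_integral {Ω : Type*} [TopologicalSpace Ω] [MeasurableSpace Ω]
    [BorelSpace Ω] (μ : Measure Ω) (p : Ω → Prop) [DecidablePred p] (hp : IsOpen {s | p s}) :
    μ.real {s | p s} = ∫ s, if p s then (1 : ℝ) else 0 ∂μ := by
  rw [← integral_indicator_one hp.measurableSet]
  congr 1
  funext s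
  simp [Set.indicator_apply]

lemma act_lc {Ω J : Type*} [TopologicalSpace Ω] {r M : ℕ} {e : Ω → J} {β : Ω → St r}
    (he : IsLocallyConstant e) (hβ : IsLocallyConstant β) (l : J → Fin (M + 1) × ZMod r) :
    IsLocallyConstant fun s => if (l (e s)).1 = 0 ∧ β s = none then (1 : ℝ) else 0 :=
  (he.prodMk hβ).comp fun x => if (l x.1).1 = 0 ∧ x.2 = none then (1 : ℝ) else 0

lemma act_expect {Ω V : Type u} [TopologicalSpace Ω] [CompactSpace Ω] [MeasurableSpace Ω]
    [BorelSpace Ω] [DecidableEq V] {D : ℕ} {K : ℝ} (𝓜 : Model Ω V D K) {r M : ℕ} [NeZero r]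
    {J : Type u} [Fintype J] [DecidableEq J] {e : Ω → J} {β : Ω → St r}
    (he : IsLocallyConstant e) (hβ : IsLocallyConstant β) :
    𝔼 l : J → Fin (M + 1) × ZMod r, ∫ s, (if (l (e s)).1 = 0 ∧ β s = none then (1 : ℝ) else 0)
      ∂𝓜.μ = 𝓜.Un β / (M + 1) := by
  haveI := 𝓜.prob
  rw [expect_integral _ _ fun l => integrable_cont _ (act_lc he hβ l).continuous, Model.Un,
    real_eq_integral _ _ (hβ.isOpen_fiber none), ← integral_div]
  congr 1
  funext s
  by_cases h : β s = none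
  · simp only [h, and_true, if_true]
    rw [expect_one (e s) fun x : Fin (M + 1) × ZMod r => if x.1 = 0 then (1 : ℝ) else 0,
      expect_clock]
  · simp [h]

/-- pointwise linearisation of the change of a bounded local functional -/
lemma pointwise {V α : Type*} [DecidableEq V] (B : Finset V) (d : (V → α) → ℝ)
    (hd : ∀ p p', (∀ v ∈ B, p v = p' v) → d p = d p') {C : ℝ} (hC : ∀ p, |d p| ≤ C)
    (p q : V → α) (T : ℝ) (hT0 : 0 ≤ T)
    (hT : ∀ u ∈ B, ∀ u' ∈ B, u ≠ u' → q u ≠ p u → q u' ≠ p u' → 1 ≤ T) :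
    d q - d p ≤ ∑ u ∈ B, (d (Function.update p u (q u)) - d p) + 2 * C * (1 + B.card) * T := by
  have hC0 : 0 ≤ C := (abs_nonneg _).trans (hC p)
  have hpos : 0 ≤ 2 * C * (1 + B.card) * T := by positivity
  by_cases h1 : ∃ u ∈ B, q u ≠ p u
  · obtain ⟨u, hu, hqu⟩ := h1
    by_cases h2 : ∃ u' ∈ B, u ≠ u' ∧ q u' ≠ p u'
    · obtain ⟨u', hu', hne, hqu'⟩ := h2
      have h3 := hT u hu u' hu' hne hqu hqu'
      have h4 : ∑ _u ∈ B, (-(2 * C)) ≤ ∑ u ∈ B, (d (Function.update p u (q u)) - d p) :=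
        Finset.sum_le_sum fun v _ => by
          linarith [(abs_le.1 (hC (Function.update p v (q v)))).1, (abs_le.1 (hC p)).2]
      rw [Finset.sum_const, nsmul_eq_mul] at h4
      have h5 : 2 * C * (1 + B.card) * 1 ≤ 2 * C * (1 + B.card) * T := by gcongr
      linarith [(abs_le.1 (hC q)).2, (abs_le.1 (hC p)).1]
    · push Not at h2
      rw [Finset.sum_eq_single u (fun v hv hvu => by
        rw [h2 v hv hvu.symm, Function.update_eq_self, sub_self]) (fun h => absurd hu h),
        hd q (Function.update p u (q u)) fun v hv => by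
          by_cases hvu : v = u
          · rw [hvu, Function.update_self]
          · rw [Function.update_of_ne hvu, h2 v hv (Ne.symm hvu)]]
      linarith
  · push Not at h1
    rw [hd q p h1, Finset.sum_eq_zero fun v hv => by
      rw [h1 v hv, Function.update_eq_self, sub_self]]
    linarith

end StepAux

theorem step_un {Ω V : Type u} [TopologicalSpace Ω] [CompactSpace Ω] [MeasurableSpace Ω]
    [BorelSpace Ω] [DecidableEq V] {D : ℕ} {K : ℝ} (𝓜 : Model Ω V D K) {r M : ℕ} [NeZero r]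
    {J : Type u} [Fintype J] [DecidableEq J] {e : Ω → J} {β : Ω → St r}
    {ch : ZMod r → Ω → ZMod r} (he : IsLocallyConstant e) (hβ : IsLocallyConstant β) :
    𝔼 l : J → Fin (M + 1) × ZMod r, 𝓜.Un (upd e β ch l) = (1 - 1 / (M + 1 : ℝ)) * 𝓜.Un β := by
  haveI := 𝓜.prob
  have h1 : ∀ l : J → Fin (M + 1) × ZMod r, 𝓜.Un (upd e β ch l) = 𝓜.Un β -
      ∫ s, (if (l (e s)).1 = 0 ∧ β s = none then (1 : ℝ) else 0) ∂𝓜.μ := by
    intro l
    have h2 : {s | upd e β ch l s = none} = {s | ¬ (l (e s)).1 = 0 ∧ β s = none} := by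
      ext s
      by_cases h3 : (l (e s)).1 = 0 <;> by_cases h4 : β s = none <;> simp [upd, h3, h4]
    rw [Model.Un, Model.Un, h2, StepAux.real_eq_integral _ _ (hβ.isOpen_fiber none),
      StepAux.real_eq_integral _ (fun s => ¬ (l (e s)).1 = 0 ∧ β s = none)
        ((he.prodMk hβ) {x | ¬ (l x.1).1 = 0 ∧ x.2 = none}),
      ← integral_sub (f := fun s => if β s = none then (1 : ℝ) else 0) (StepAux.integrable_cont _
        (hβ.comp fun x => if x = none then (1 : ℝ) else 0).continuous)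
        (StepAux.integrable_cont _ (StepAux.act_lc he hβ l).continuous)]
    congr 1
    funext s
    by_cases h3 : (l (e s)).1 = 0 <;> by_cases h4 : β s = none <;> simp [h3, h4]
  simp only [h1]
  rw [Finset.expect_sub_distrib, StepAux.act_expect 𝓜 he hβ, Finset.expect_const univ_nonempty]
  ring

theorem step_pot {a η e₁ : ℝ} (ha : 0 < a) (hη : 0 < η) (hη1 : η ≤ 1) (he₁ : 0 < e₁) (D : ℕ)
    {K : ℝ} (hK : 1 ≤ K) (r : ℕ) [NeZero r] :
    ∃ n₀ : ℕ, ∀ n, n₀ ≤ n → ∃ C ≥ 0, ∀ (Ω V : Type u) [TopologicalSpace Ω] [CompactSpace Ω]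
      [MeasurableSpace Ω] [BorelSpace Ω] [DecidableEq V] (𝓜 : Model Ω V D K) (M : ℕ) (J : Type u)
      [Fintype J] [DecidableEq J] (e : Ω → J) (β : Ω → St r) (ch : ZMod r → Ω → ZMod r) (e₀ : ℝ),
      0 ≤ e₀ → IsLocallyConstant e → IsLocallyConstant β → (∀ g, IsLocallyConstant (ch g)) →
      (∀ g s, β s = none →
        gain (𝓜.net s) (a + η * Complex.I) (𝓜.patt β s) (𝓜.B s n) 𝓜.o (ch g s) ≤ e₀) →
      𝔼 l : J → Fin (M + 1) × ZMod r, 𝓜.Pot (a + η * Complex.I) n (upd e β ch l) ≤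
        𝓜.Pot (a + η * Complex.I) n β + e₀ * 𝓜.Un β / (M + 1) + e₁ / (M + 1) +
          C / (M + 1) ^ 2 + C * 𝓜.μ.real (𝓜.Bad e n) := by
  have hr : (0 : ℝ) < r + 1 := by positivity
  obtain ⟨L, n₀, hL, hnf⟩ := near_far.{u} ha hη hη1 (div_pos he₁ hr) D hK r
  obtain ⟨C, hC0, hC⟩ := dens_bound.{u} ha hη hη1 D hK
  refine ⟨n₀, fun n hn => ⟨4 * C * (1 + (D + 1) ^ n) * ((D + 1) ^ n) ^ 2, by positivity, ?_⟩⟩
  intro Ω V _ _ _ _ _ 𝓜 M J _ _ e β ch e₀ he₀ he hβ hch hgain
  classical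
  haveI := 𝓜.prob
  set ζ : ℂ := a + η * Complex.I with hζ
  set e' := e₁ / (r + 1) with he'
  have he'0 : 0 < e' := div_pos he₁ hr
  have hM : (0 : ℝ) < M + 1 := by positivity
  have hLn : L ≤ n := hL.trans hn
  let d : Ω → (V → St r) → ℝ := fun s p => dens2 (𝓜.net s) ζ p (𝓜.B s n) 𝓜.o
  have ho : ∀ s m, 𝓜.o ∈ 𝓜.B s m := fun s m => Net.mem_ball_self _ _ _
  have dcongr : ∀ s p p', (∀ v ∈ 𝓜.B s n, p v = p' v) → d s p = d s p' := fun s p p' h => by
    simp only [d, dens2, dens_congr _ _ _ (ho s n) h]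
  have dbd : ∀ s p, |d s p| ≤ 2 * C := fun s p => by
    have h1 := (hC V r (𝓜.net s) 1 p _ _ (by simp) (ho s n)).2
    have h2 := (hC V r (𝓜.net s) (-1) p _ _ (by simp) (ho s n)).2
    exact (abs_add_le _ _).trans (by linarith)
  have dcont : ∀ π : Ω → V → St r, (∀ v, IsLocallyConstant fun s => π s v) →
      Continuous fun s => d s (π s) := by
    intro π hπ
    have key : ∀ σ : ℝ, |σ| = 1 →
        Continuous fun s => dens (𝓜.net s) σ ζ (π s) (𝓜.B s n) 𝓜.o := by
      intro σ hσ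
      have := 𝓜.continuous_of_pattern n π hπ
        (fun s p W => if 𝓜.o ∈ W then dens (𝓜.net s) σ ζ p W 𝓜.o else 0)
        (fun p W hW => by
          simp only [hW, if_true]
          exact dens_continuous ha hη hη1 hK 𝓜.net 𝓜.x_cont 𝓜.w_cont hσ p hW)
        (fun s p p' W h => by
          split_ifs with hW
          · exact dens_congr _ _ _ hW h
          · rfl)
      simpa only [ho, if_true] using this
    exact (key 1 (by simp)).add (key (-1) (by simp))
  have hP : ∀ γ : Ω → St r, IsLocallyConstant γ → ∀ v, IsLocallyConstant fun s => 𝓜.patt γ s v :=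
    fun γ hγ v => hγ.comp_continuous (𝓜.pt_cont v)
  let F : (J → Fin (M + 1) × ZMod r) → Ω → V → ℝ := fun l s v =>
    d s (Function.update (𝓜.patt β s) v (𝓜.patt (upd e β ch l) s v)) - d s (𝓜.patt β s)
  have Fcont : ∀ l v, Continuous fun s => F l s v := by
    intro l v
    refine (dcont _ fun u => ?_).sub (dcont _ (hP β hβ))
    by_cases hu : u = v
    · subst hu
      simpa only [Function.update_self] using hP _ (upd_lc he hβ hch l) u
    · simpa only [Function.update_of_ne hu] using hP β hβ u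
  have Ncont : ∀ l, Continuous fun s => ∑ u ∈ 𝓜.B s L, F l s u := fun l =>
    𝓜.continuous_of_pattern L (fun _ _ => ()) (fun _ => IsLocallyConstant.const _)
      (fun s _ W => ∑ u ∈ W, F l s u) (fun _ W _ => continuous_finsetSum _ fun u _ => Fcont l u)
      (fun _ _ _ _ _ => rfl)
  -- the near part
  have near : ∀ l, ∫ s, ∑ u ∈ 𝓜.B s L, F l s u ∂𝓜.μ ≤
      (e₀ + e') * ∫ s, (if (l (e s)).1 = 0 ∧ β s = none then (1 : ℝ) else 0) ∂𝓜.μ := by
    intro l
    have h1 := 𝓜.mtp L (F l) (Fcont l)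
    have h2 : ∀ s, ∑ u ∈ (𝓜.net s).ball 𝓜.o L, (𝓜.net s).w u * F l (𝓜.pt s u) (𝓜.inv s u) ≤
        (e₀ + e') * if (l (e s)).1 = 0 ∧ β s = none then (1 : ℝ) else 0 := by
      intro s
      have h3 : ∀ u ∈ (𝓜.net s).ball 𝓜.o L, F l (𝓜.pt s u) (𝓜.inv s u) =
          dens2 (𝓜.net s) ζ (Function.update (𝓜.patt β s) 𝓜.o (upd e β ch l s))
            ((𝓜.net s).ball u n) u - dens2 (𝓜.net s) ζ (𝓜.patt β s) ((𝓜.net s).ball u n) u := by
        intro u hu
        have hi := 𝓜.inv_mem s L u hu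
        have hi' := Net.ball_mono _ _ hLn hi
        have h4 : 𝓜.pt (𝓜.pt s u) (𝓜.inv s u) = s := by
          rw [← 𝓜.Φ_pt s L u hu L _ hi, 𝓜.Φ_inv s L u hu, 𝓜.pt_root]
        have h5 : ∀ v ∈ 𝓜.B (𝓜.pt s u) n, 𝓜.patt β (𝓜.pt s u) v = 𝓜.patt β s (𝓜.Φ s u v) :=
          fun v hv => by simp only [Model.patt, 𝓜.Φ_pt s L u hu n v hv]
        rw [← 𝓜.dens2_root ζ (n := L) hu, ← 𝓜.dens2_root ζ (n := L) hu]
        simp only [F]
        congr 1
        · refine dcongr _ _ _ fun v hv => ?_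
          by_cases hvi : v = 𝓜.inv s u
          · rw [hvi, Function.update_self, 𝓜.Φ_inv s L u hu, Function.update_self, Model.patt, h4]
          · rw [Function.update_of_ne hvi, h5 v hv, Function.update_of_ne]
            intro h6
            exact hvi (𝓜.Φ_inj s L u hu n hv hi' (h6.trans (𝓜.Φ_inv s L u hu).symm))
        · exact dcongr _ _ _ h5
      rw [Finset.sum_congr rfl fun u hu => by rw [h3 u hu]]
      simp only [upd]
      split_ifs with hact
      · have h6 := (hnf n hn V (𝓜.net s) (𝓜.patt β s) 𝓜.o (𝓜.w_root s) (ch (l (e s)).2 s)).1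
        have h7 := hgain (l (e s)).2 s hact.2
        simp only [Model.B] at h7
        linarith
      · rw [show β s = 𝓜.patt β s 𝓜.o by rw [Model.patt, 𝓜.pt_root], Function.update_eq_self]
        simp
    rw [← integral_const_mul]
    simp only [Model.B]
    rw [h1]
    by_cases hint : Integrable (fun s => ∑ u ∈ (𝓜.net s).ball 𝓜.o L,
        (𝓜.net s).w u * F l (𝓜.pt s u) (𝓜.inv s u)) 𝓜.μ
    · exact integral_mono hint
        ((StepAux.integrable_cont _ (StepAux.act_lc he hβ l).continuous).const_mul _) h2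
    · rw [integral_undef hint]
      exact integral_nonneg fun s => by dsimp only; split_ifs <;> positivity
  -- the pointwise bound for the rest
  let c : Fin (M + 1) × ZMod r → ℝ := fun x => if x.1 = 0 then 1 else 0
  have c0 : ∀ x, 0 ≤ c x := fun x => by simp only [c]; split_ifs <;> norm_num
  have hc : 𝔼 x, c x = 1 / (M + 1) := StepAux.expect_clock
  have rest : ∀ s, (𝔼 l : J → Fin (M + 1) × ZMod r,
      (d s (𝓜.patt (upd e β ch l) s) - d s (𝓜.patt β s) - ∑ u ∈ 𝓜.B s L, F l s u)) ≤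
      r * e' / (M + 1) + 4 * C * (1 + (D + 1) ^ n) * ((D + 1) ^ n) ^ 2 / (M + 1) ^ 2 +
        4 * C * (1 + (D + 1) ^ n) * ((D + 1) ^ n) ^ 2 * if s ∈ 𝓜.Bad e n then 1 else 0 := by
    intro s
    let A : V → ℝ := fun v => if 𝓜.patt β s v = none then
      ∑ j : ZMod r, |d s (Function.update (𝓜.patt β s) v (some j)) - d s (𝓜.patt β s)| else 0
    let Pr := (𝓜.B s n ×ˢ 𝓜.B s n).filter fun q => e (𝓜.pt s q.1) ≠ e (𝓜.pt s q.2)
    let b : ℝ := if s ∈ 𝓜.Bad e n then 1 else 0
    have b0 : 0 ≤ b := by simp only [b]; split_ifs <;> norm_num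
    have hcard : ((𝓜.B s n).card : ℝ) ≤ (D + 1) ^ n := by
      exact_mod_cast Net.card_ball (𝓜.net s) 𝓜.o n
    have hact : ∀ (l : J → Fin (M + 1) × ZMod r) u,
        𝓜.patt (upd e β ch l) s u ≠ 𝓜.patt β s u → c (l (e (𝓜.pt s u))) = 1 := by
      intro l u h
      simp only [Model.patt, upd] at h
      split_ifs at h with h'
      · simp [c, h'.1]
      · exact absurd rfl h
    have h1 : ∀ l : J → Fin (M + 1) × ZMod r,
        d s (𝓜.patt (upd e β ch l) s) - d s (𝓜.patt β s) - ∑ u ∈ 𝓜.B s L, F l s u ≤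
        ∑ u ∈ 𝓜.B s n \ 𝓜.B s L, c (l (e (𝓜.pt s u))) * A u + 4 * C * (1 + (D + 1) ^ n) *
          (∑ q ∈ Pr, c (l (e (𝓜.pt s q.1))) * c (l (e (𝓜.pt s q.2))) + b) := by
      intro l
      have hs0 : 0 ≤ ∑ q ∈ Pr, c (l (e (𝓜.pt s q.1))) * c (l (e (𝓜.pt s q.2))) :=
        Finset.sum_nonneg fun q _ => mul_nonneg (c0 _) (c0 _)
      have h2 := StepAux.pointwise (𝓜.B s n) (d s) (dcongr s) (dbd s) (𝓜.patt β s)
        (𝓜.patt (upd e β ch l) s)
        (∑ q ∈ Pr, c (l (e (𝓜.pt s q.1))) * c (l (e (𝓜.pt s q.2))) + b) (by linarith)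
        (fun u hu u' hu' hne h3 h4 => by
          by_cases h5 : e (𝓜.pt s u) = e (𝓜.pt s u')
          · have : s ∈ 𝓜.Bad e n := fun h6 => hne (h6 hu hu' h5)
            simp only [b, this, if_true]; linarith
          · have h6 := Finset.single_le_sum (s := Pr)
              (f := fun q => c (l (e (𝓜.pt s q.1))) * c (l (e (𝓜.pt s q.2))))
              (fun q _ => mul_nonneg (c0 _) (c0 _)) (a := (u, u'))
              (mem_filter.2 ⟨mem_product.2 ⟨hu, hu'⟩, h5⟩)
            simp only [hact l u h3, hact l u' h4] at h6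
            linarith)
      have h3 := Finset.sum_sdiff (f := F l s) (show 𝓜.B s L ⊆ 𝓜.B s n from Net.ball_mono _ _ hLn)
      have h4 : ∑ u ∈ 𝓜.B s n \ 𝓜.B s L, F l s u ≤
          ∑ u ∈ 𝓜.B s n \ 𝓜.B s L, c (l (e (𝓜.pt s u))) * A u := by
        refine Finset.sum_le_sum fun u _ => ?_
        by_cases h5 : (l (e (𝓜.pt s u))).1 = 0 ∧ β (𝓜.pt s u) = none
        · simp only [F, c, A, Model.patt, upd, h5, and_self, if_true, one_mul]
          exact (le_abs_self _).trans (Finset.single_le_sum (f := fun j : ZMod r =>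
            |d s (Function.update (𝓜.patt β s) u (some j)) - d s (𝓜.patt β s)|)
            (fun _ _ => abs_nonneg _) (mem_univ _))
        · have h6 : 𝓜.patt (upd e β ch l) s u = 𝓜.patt β s u := by
            simp only [Model.patt, upd, h5, if_false]
          simp only [F, h6, Function.update_eq_self, sub_self]
          refine mul_nonneg (c0 _) ?_
          simp only [A]; split_ifs
          · positivity
          · rfl
      have h5 : 2 * (2 * C) * (1 + ((𝓜.B s n).card : ℝ)) *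
          (∑ q ∈ Pr, c (l (e (𝓜.pt s q.1))) * c (l (e (𝓜.pt s q.2))) + b) ≤
          4 * C * (1 + (D + 1) ^ n) *
          (∑ q ∈ Pr, c (l (e (𝓜.pt s q.1))) * c (l (e (𝓜.pt s q.2))) + b) := by
        rw [show 2 * (2 * C) = 4 * C by ring]
        gcongr
      simp only [F] at h3 h4 ⊢
      linarith
    refine (Finset.expect_le_expect fun l _ => h1 l).trans ?_
    rw [Finset.expect_add_distrib, ← Finset.mul_expect, Finset.expect_add_distrib,
      Finset.expect_sum_comm, Finset.expect_sum_comm, Finset.expect_const univ_nonempty,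
      Finset.sum_congr rfl fun u _ => by
        rw [← Finset.expect_mul, StepAux.expect_one (e (𝓜.pt s u)) c, hc],
      Finset.sum_congr (s₁ := Pr) rfl fun q hq => by
        rw [StepAux.expect_two (mem_filter.1 hq).2 c, hc], ← Finset.mul_sum, Finset.sum_const,
      nsmul_eq_mul]
    have h2 : ∑ u ∈ 𝓜.B s n \ 𝓜.B s L, A u ≤ r * e' := by
      simp only [A]
      rw [← Finset.sum_filter, Finset.sum_comm]
      refine (Finset.sum_le_card_nsmul _ _ e' fun j _ =>
        (hnf n hn V (𝓜.net s) (𝓜.patt β s) 𝓜.o (𝓜.w_root s) j).2).trans ?_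
      simp
    have h3 : (Pr.card : ℝ) ≤ ((D + 1) ^ n) ^ 2 := by
      have h4 : Pr.card ≤ (𝓜.B s n).card * (𝓜.B s n).card := by
        rw [← Finset.card_product]; exact Finset.card_filter_le _ _
      calc (Pr.card : ℝ) ≤ (𝓜.B s n).card * (𝓜.B s n).card := by exact_mod_cast h4
        _ ≤ (D + 1) ^ n * (D + 1) ^ n := by gcongr
        _ = _ := by ring
    have h4 : (1 : ℝ) ≤ ((D + 1) ^ n) ^ 2 := one_le_pow₀ (one_le_pow₀ (by simp))
    have h5 : 1 / ((M : ℝ) + 1) * ∑ u ∈ 𝓜.B s n \ 𝓜.B s L, A u ≤ r * e' / (M + 1) := by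
      rw [div_eq_mul_one_div (r * e'), mul_comm]; gcongr
    have h6 : (Pr.card : ℝ) * (1 / (M + 1) * (1 / (M + 1))) + b ≤
        ((D + 1) ^ n) ^ 2 / (M + 1) ^ 2 + ((D + 1) ^ n) ^ 2 * b := by
      refine add_le_add ?_ (le_mul_of_one_le_left b0 h4)
      rw [div_mul_div_comm, one_mul, ← sq, mul_one_div]; gcongr
    have h7 := mul_le_mul_of_nonneg_left h6 (show 0 ≤ 4 * C * (1 + ((D : ℝ) + 1) ^ n) by positivity)
    calc _ ≤ r * e' / (M + 1) + 4 * C * (1 + (D + 1) ^ n) *
          (((D + 1) ^ n) ^ 2 / (M + 1) ^ 2 + ((D + 1) ^ n) ^ 2 * b) := add_le_add h5 h7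
      _ = _ := by ring
  have i1 := fun l : J → Fin (M + 1) × ZMod r =>
    StepAux.integrable_cont 𝓜.μ (dcont _ (hP _ (upd_lc he hβ hch l)))
  have i2 := StepAux.integrable_cont 𝓜.μ (dcont _ (hP β hβ))
  have i3 := fun l => StepAux.integrable_cont 𝓜.μ (Ncont l)
  have i4 : Integrable (fun s => if s ∈ 𝓜.Bad e n then (1 : ℝ) else 0) 𝓜.μ := by
    have := (integrable_const (μ := 𝓜.μ) (1 : ℝ)).indicator
      (𝓜.isClopen_bad he n).isOpen.measurableSet
    refine this.congr (Filter.Eventually.of_forall fun s => ?_)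
    simp [Set.indicator_apply]
  have i5 : ∀ l : J → Fin (M + 1) × ZMod r, Integrable (fun s =>
      d s (𝓜.patt (upd e β ch l) s) - d s (𝓜.patt β s)) 𝓜.μ := fun l => (i1 l).sub i2
  have i6 : ∀ l : J → Fin (M + 1) × ZMod r, Integrable (fun s =>
      d s (𝓜.patt (upd e β ch l) s) - d s (𝓜.patt β s) - ∑ u ∈ 𝓜.B s L, F l s u) 𝓜.μ :=
    fun l => (i5 l).sub (i3 l)
  have i7 : Integrable (fun s => r * e' / (M + 1) +
      4 * C * (1 + (D + 1) ^ n) * ((D + 1) ^ n) ^ 2 / (M + 1) ^ 2 +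
        4 * C * (1 + (D + 1) ^ n) * ((D + 1) ^ n) ^ 2 * if s ∈ 𝓜.Bad e n then (1 : ℝ) else 0)
      𝓜.μ := (integrable_const _).add (i4.const_mul _)
  have h1 := integral_mono (by
    simp only [Finset.expect_eq_sum_div_card]
    exact (integrable_finsetSum _ fun l _ => i6 l).div_const _) i7 rest
  rw [← StepAux.expect_integral _ _ i6,
    integral_add (integrable_const _) (i4.const_mul _), integral_const, integral_const_mul,
    ← StepAux.real_eq_integral 𝓜.μ (· ∈ 𝓜.Bad e n) (𝓜.isClopen_bad he n).isOpen,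
    Finset.expect_congr rfl fun l _ => by
      rw [integral_sub (i5 l) (i3 l), integral_sub (i1 l) i2],
    Finset.expect_sub_distrib, Finset.expect_sub_distrib,
    Finset.expect_const univ_nonempty] at h1
  have h2 := Finset.expect_le_expect (s := univ) fun l _ => near l
  rw [← Finset.mul_expect, StepAux.act_expect 𝓜 he hβ] at h2
  have h3 : e' * (𝓜.Un β / (M + 1)) ≤ e' / (M + 1) := by
    rw [mul_div_assoc']
    gcongr
    exact mul_le_of_le_one_right he'0.le measureReal_le_one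
  have h4 : e₁ / (M + 1) = r * e' / (M + 1) + e' / (M + 1) := by
    rw [he']; field_simp
  simp only [probReal_univ, smul_eq_mul, one_mul, Set.setOf_mem_eq] at h1
  simp only [Model.Pot]
  rw [h4, mul_div_assoc e₀]
  simp only [d] at h1
  linarith

end Vale.Agent.P078
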