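import Vale.Agent.P078.Loc

/-! Weighted systems `diag (ζ + t / w) - Y`: decay in `t`, locality, row and column tails.
Key trick (rotation): with `c = exp (± iφ)`, `sin φ = η / (4 (1 + a + D))`, the system `c • X` satisfies
`ImGe ρ` with `ρ v = η' (1 + ‖t‖ / w v)`, `η' = η / (4 (1 + a + D))`; use `G_smul`, `se_smul`. -/

namespace Vale.Agent.P078

open Finset
open scoped ComplexOrder

universe u

/-- the diagonal -/
noncomputable def zf {V : Type*} (ζ : ℂ) (w : V → ℝ) (t : ℂ) : V → ℂ := fun v => ζ + t / w v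

/-- standing hypotheses on the off-diagonal part and the weights -/
structure Tame {V ι : Type*} (D K : ℝ) (w : V → ℝ) (Y : ι → V → V → ℂ) (W : Finset V) :
    Prop where
  herm : Herm Y
  diag : ∀ i a, Y i a a = 0
  row : ∀ i, ∀ a ∈ W, ∑ b ∈ W, ‖Y i a b‖ ≤ D
  wpos : ∀ a, 0 < w a
  ratio : ∀ i a b, Y i a b ≠ 0 → w a ≤ K * w b

/-- Green function of the weighted system -/
noncomputable def GT {V ι : Type*} [DecidableEq V] [Fintype ι] [DecidableEq ι] (β : V → ι → ℂ)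
    (Y : ι → V → V → ℂ) (w : V → ℝ) (ζ : ℂ) (W : Finset V) (t : ℂ) (u : V) : ℂ :=
  G β (dm (zf ζ w t) Y) W u

namespace TameAux

variable {V ι : Type*} [DecidableEq V] [Fintype ι] [DecidableEq ι]

/-- a system that is accretive after multiplication by `c` -/
structure Nice (ρ τ : ℝ) (c : ℂ) (w : V → ℝ) (Y X : ι → V → V → ℂ) (W : Finset V) : Prop where
  ρpos : 0 < ρ
  τnn : 0 ≤ τ
  c1 : 1 ≤ ‖c‖
  c2 : ‖c‖ ≤ 2
  acc : ∀ i, ImGe (fun v => ρ * (1 + τ / w v)) (fun a b => c * X i a b) W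
  off : ∀ i a b, a ≠ b → ‖X i a b‖ ≤ 2 * ‖Y i a b‖

omit [DecidableEq V] [DecidableEq ι] in
lemma nonempty_of_posW {β : V → ι → ℂ} {W : Finset V} {u : V} (h : PosW β W) (hu : u ∈ W) :
    Nonempty ι := by
  by_contra hn
  rw [not_nonempty_iff] at hn
  have := (h u hu).2
  simp [bsum] at this

omit [DecidableEq V] [DecidableEq ι] in
lemma posW_mono {β : V → ι → ℂ} {W W' : Finset V} (h : PosW β W) (hW : W' ⊆ W) : PosW β W' :=
  fun v hv => h v (hW hv)

lemma imGe_diag {ρ : V → ℝ} {Y : V → V → ℂ} {U : Finset V} (h : ImGe ρ Y U) {u : V} (hu : u ∈ U) :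
    ρ u ≤ (Y u u).im := by
  have h1 := h (Pi.single u 1)
  have h2 : ∑ a ∈ U, ρ a * ‖(Pi.single u (1 : ℂ) : V → ℂ) a‖ ^ 2 = ρ u := by
    rw [Finset.sum_eq_single u]
    · simp
    · intro b _ hb; simp [Pi.single_eq_of_ne hb]
    · intro h; exact absurd hu h
  have h3 : qform Y U (Pi.single u 1) = Y u u := by
    unfold qform
    rw [Finset.sum_eq_single u]
    · rw [Finset.sum_eq_single u]
      · simp
      · intro b _ hb; simp [Pi.single_eq_of_ne hb]
      · intro h; exact absurd hu h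
    · intro b _ hb; simp [Pi.single_eq_of_ne hb]
    · intro h; exact absurd hu h
  rwa [h2, h3] at h1

lemma Q_smul (β : V → ι → ℂ) (X : ι → V → V → ℂ) (W : Finset V) (c : ℂ) :
    Q β (fun i a b => c * X i a b) W R0 = (∏ _v ∈ W, c) * Q β X W R0 := by
  have h1 := Q_scale β X (W := W) (R := R0) (fun i => by simp [R0]) (fun _ _ => c) (fun _ _ => 1)
  simp only [mul_one, R0, Finset.prod_empty, Finset.prod_const_one, one_mul] at h1
  have h2 := Q_smul_beta β X W R0 (fun _ => c)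
  have h3 : (fun v i => β v i * c) = fun v i => c * β v i := by
    funext v i; ring
  rw [h3] at h1
  exact h1.trans h2

variable {ρ τ D K : ℝ} {c : ℂ} {w : V → ℝ} {Y X : ι → V → V → ℂ} {W : Finset V}
  {β : V → ι → ℂ} {u : V}

omit [DecidableEq V] [Fintype ι] [DecidableEq ι] in
lemma Nice.rpos (h : Nice ρ τ c w Y X W) (hT : Tame D K w Y W) (v : V) :
    0 < ρ * (1 + τ / w v) := by
  have := h.ρpos
  have := h.τnn
  have := hT.wpos v
  positivity

omit [DecidableEq V] [Fintype ι] [DecidableEq ι] in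
lemma Nice.cne (h : Nice ρ τ c w Y X W) : c ≠ 0 := by
  intro h0
  have := h.c1
  rw [h0, norm_zero] at this
  linarith

lemma Nice.Q_ne [Nonempty ι] (h : Nice ρ τ c w Y X W) (hT : Tame D K w Y W) {W' : Finset V}
    (hW : W' ⊆ W) (hβ : PosW β W') : Q β X W' R0 ≠ 0 := by
  have h1 : Q β (fun i a b => c * X i a b) W' R0 ≠ 0 := by
    refine Q_ne_zero (ρ := fun v => ρ * (1 + τ / w v)) hβ (fun i => by simp [R0])
      (fun i => (h.acc i).mono (by simpa [R0] using hW) fun _ _ => le_rfl) fun i a _ => h.rpos hT a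
  rw [Q_smul] at h1
  exact right_ne_zero_of_mul h1

lemma Nice.G_eq (h : Nice ρ τ c w Y X W) (hT : Tame D K w Y W) (hβ : PosW β W) (hu : u ∈ W) :
    G β X W u = (nbar β X W u)⁻¹ := by
  have := nonempty_of_posW hβ hu
  exact G_eq_inv_nbar β X hu
    (h.Q_ne hT (Finset.erase_subset _ _) (posW_mono hβ (Finset.erase_subset _ _)))
    (hβ u hu).2.ne'

lemma Nice.G_ne (h : Nice ρ τ c w Y X W) (hT : Tame D K w Y W) (hβ : PosW β W) (hu : u ∈ W) :
    G β X W u ≠ 0 := by
  have := nonempty_of_posW hβ hu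
  unfold G
  exact div_ne_zero (mul_ne_zero (hβ u hu).2.ne'
    (h.Q_ne hT (Finset.erase_subset _ _) (posW_mono hβ (Finset.erase_subset _ _))))
    (h.Q_ne hT subset_rfl hβ)

lemma Nice.norm_G (h : Nice ρ τ c w Y X W) (hT : Tame D K w Y W) (hβ : PosW β W) (hu : u ∈ W) :
    ‖G β X W u‖ ≤ 2 / (ρ * (1 + τ / w u)) := by
  have h1 := (norm_G_le (X := fun i a b => c * X i a b) hu hβ h.acc fun a _ => h.rpos hT a).1
  rw [G_smul β X hu h.cne, norm_div, div_le_iff₀ (norm_pos_iff.mpr h.cne)] at h1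
  refine h1.trans ?_
  rw [div_eq_inv_mul 2]
  exact mul_le_mul_of_nonneg_left h.c2 (inv_nonneg.mpr (h.rpos hT u).le)

omit [Fintype ι] [DecidableEq ι] in
lemma sum_bound (h : Nice ρ τ c w Y X W) (hT : Tame D K w Y W) (hK : 1 ≤ K) (hu : u ∈ W)
    (i : ι) (f : V → ℂ) (hf : ∀ a, a ≠ u → ‖f a‖ ≤ 2 * ‖Y i u a‖) :
    ∑ a ∈ W.erase u, ‖c * f a‖ ^ 2 / (ρ * (1 + τ / w a)) ≤
      16 * D ^ 2 * K / (ρ * (1 + τ / w u)) := by
  have hru := h.rpos hT u
  have hD : ∀ a ∈ W, ‖Y i u a‖ ≤ D := fun a ha =>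
    (Finset.single_le_sum (f := fun b => ‖Y i u b‖) (fun b _ => norm_nonneg _) ha).trans
      (hT.row i u hu)
  have hD0 : 0 ≤ D := (norm_nonneg _).trans (hD u hu)
  have h1 : ∀ a ∈ W.erase u, ‖c * f a‖ ^ 2 / (ρ * (1 + τ / w a)) ≤
      16 * D * K / (ρ * (1 + τ / w u)) * ‖Y i u a‖ := by
    intro a ha
    have hau := Finset.ne_of_mem_erase ha
    have haW := Finset.mem_of_mem_erase ha
    have hra := h.rpos hT a
    by_cases hY : Y i u a = 0
    · have : f a = 0 := by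
        have := hf a hau
        rw [hY, norm_zero, mul_zero] at this
        exact norm_le_zero_iff.mp this
      simp [this, hY]
    · have hY' : Y i a u ≠ 0 := by
        rw [hT.herm i u a]; simpa using hY
      have hw := hT.ratio i a u hY'
      have hwa := hT.wpos a
      have hwu := hT.wpos u
      have h2 : τ / w u ≤ K * (τ / w a) := by
        rw [← mul_div_assoc, div_le_div_iff₀ hwu hwa]
        have := mul_le_mul_of_nonneg_left hw h.τnn
        linarith
      have h3 : ρ * (1 + τ / w u) ≤ K * (ρ * (1 + τ / w a)) := by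
        have := h.ρpos
        nlinarith
      have h4 : ‖c * f a‖ ≤ 4 * ‖Y i u a‖ := by
        rw [norm_mul]
        have := mul_le_mul h.c2 (hf a hau) (norm_nonneg _) (by norm_num)
        linarith
      have h5 : ‖c * f a‖ ^ 2 ≤ 16 * D * ‖Y i u a‖ := by
        have h6 := pow_le_pow_left₀ (norm_nonneg _) h4 2
        have h7 := mul_le_mul_of_nonneg_right (hD a haW) (norm_nonneg (Y i u a))
        nlinarith
      rw [div_mul_eq_mul_div, div_le_div_iff₀ hra hru]
      calc ‖c * f a‖ ^ 2 * (ρ * (1 + τ / w u))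
          ≤ (16 * D * ‖Y i u a‖) * (K * (ρ * (1 + τ / w a))) :=
            mul_le_mul h5 h3 hru.le (by positivity)
        _ = _ := by ring
  refine (Finset.sum_le_sum h1).trans ?_
  rw [← Finset.mul_sum]
  have h2 : ∑ a ∈ W.erase u, ‖Y i u a‖ ≤ D :=
    (Finset.sum_le_sum_of_subset_of_nonneg (Finset.erase_subset _ _)
      fun _ _ _ => norm_nonneg _).trans (hT.row i u hu)
  calc 16 * D * K / (ρ * (1 + τ / w u)) * ∑ a ∈ W.erase u, ‖Y i u a‖
      ≤ 16 * D * K / (ρ * (1 + τ / w u)) * D := by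
        refine mul_le_mul_of_nonneg_left h2 ?_
        have : 0 ≤ K := by linarith
        positivity
    _ = _ := by ring

lemma Nice.norm_se (h : Nice ρ τ c w Y X W) (hT : Tame D K w Y W) (hK : 1 ≤ K) (hu : u ∈ W)
    (hβ : PosW β (W.erase u)) (i : ι) :
    ‖se β X (W.erase u) R0 u i‖ ≤ 16 * D ^ 2 * K / (ρ * (1 + τ / w u)) := by
  have h1 := norm_se_le (X := fun i a b => c * X i a b) (ρ := fun v => ρ * (1 + τ / w v))
    (W := W.erase u) (R := R0) (v := u) (i := i) hβ (fun i => by simp [R0])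
    (Finset.notMem_erase u W) (by simp [R0])
    (fun j => (h.acc j).mono (by simpa [R0] using Finset.erase_subset u W) fun _ _ => le_rfl)
    fun j a _ => h.rpos hT a
  have hU : W.erase u ∪ (R0 : ι → Finset V) i = W.erase u := by simp [R0]
  rw [hU, se_smul β X (Finset.notMem_erase u W) i h.cne, norm_mul] at h1
  have h2 := sum_bound h hT hK hu i (fun a => X i a u) fun a ha => by
    have := h.off i a u ha
    rwa [hT.herm i u a, norm_star] at this
  have h3 := sum_bound h hT hK hu i (fun a => X i u a) fun a ha => h.off i u a ha.symm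
  have h0 : 0 ≤ 16 * D ^ 2 * K / (ρ * (1 + τ / w u)) := by
    have := h.rpos hT u
    have : 0 ≤ K := by linarith
    positivity
  have h4 := mul_le_mul (Real.sqrt_le_sqrt h2) (Real.sqrt_le_sqrt h3) (Real.sqrt_nonneg _)
    (Real.sqrt_nonneg _)
  rw [Real.mul_self_sqrt h0] at h4
  have h5 := mul_le_mul_of_nonneg_right h.c1 (norm_nonneg (se β X (W.erase u) R0 u i))
  linarith

lemma Nice.norm_mbar (h : Nice ρ τ c w Y X W) (hT : Tame D K w Y W) (hK : 1 ≤ K) (hu : u ∈ W)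
    (hβ : PosW β W) :
    ‖mbar β X W u‖ ≤ 16 * D ^ 2 * K / (ρ * (1 + τ / w u)) := by
  obtain ⟨h1, h2⟩ := hβ u hu
  have h3 : ‖bsum β u‖ = ∑ i, ‖β u i‖ := by
    have h4 : ∀ i, β u i = ((‖β u i‖ : ℝ) : ℂ) := fun i => (Complex.norm_of_nonneg' (h1 i)).symm
    have h5 : bsum β u = ((∑ i, ‖β u i‖ : ℝ) : ℂ) := by
      unfold bsum
      rw [Complex.ofReal_sum]
      exact Finset.sum_congr rfl fun i _ => h4 i
    rw [h5, Complex.norm_real, Real.norm_of_nonneg (Finset.sum_nonneg fun _ _ => norm_nonneg _)]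
  unfold mbar
  rw [norm_div, div_le_iff₀ (norm_pos_iff.mpr h2.ne'), h3, Finset.mul_sum]
  refine (norm_sum_le _ _).trans (Finset.sum_le_sum fun i _ => ?_)
  rw [norm_mul, mul_comm]
  exact mul_le_mul_of_nonneg_right
    (h.norm_se hT hK hu (posW_mono hβ (Finset.erase_subset _ _)) i) (norm_nonneg _)

lemma Nice.decay (h : Nice ρ τ c w Y X W) (hT : Tame D K w Y W) (hK : 1 ≤ K) (hu : u ∈ W)
    (hβ : PosW β W) {z : ℂ} (hz : ∀ i, X i u u = z) :
    ‖G β X W u - z⁻¹‖ ≤ 64 * D ^ 2 * K / (ρ * (1 + τ / w u)) ^ 3 := by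
  obtain ⟨i⟩ := nonempty_of_posW hβ hu
  have hr := h.rpos hT u
  have h1 : ρ * (1 + τ / w u) ≤ 2 * ‖z‖ := by
    have h2 := imGe_diag (h.acc i) hu
    rw [hz i] at h2
    have h3 : (c * z).im ≤ ‖c * z‖ := (le_abs_self _).trans (Complex.abs_im_le_norm _)
    rw [norm_mul] at h3
    have := mul_le_mul_of_nonneg_right h.c2 (norm_nonneg z)
    linarith
  have hz0 : z ≠ 0 := by
    intro h0
    rw [h0, norm_zero] at h1
    linarith
  have hG := h.G_eq hT hβ hu
  have hG0 := h.G_ne hT hβ hu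
  have hn := nbar_eq β X W u hz (hβ u hu).2.ne'
  have hn0 : nbar β X W u ≠ 0 := by
    intro h0
    rw [h0, inv_zero] at hG
    exact hG0 hG
  have h2 : G β X W u - z⁻¹ = mbar β X W u * G β X W u * z⁻¹ := by
    have : mbar β X W u = z - nbar β X W u := by rw [hn]; ring
    rw [this, hG]
    field_simp
  have h3 : ‖z⁻¹‖ ≤ 2 / (ρ * (1 + τ / w u)) := by
    rw [norm_inv, inv_eq_one_div, div_le_div_iff₀ (norm_pos_iff.mpr hz0) hr]
    linarith
  have hK0 : 0 ≤ K := by linarith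
  rw [h2, norm_mul, norm_mul]
  calc ‖mbar β X W u‖ * ‖G β X W u‖ * ‖z⁻¹‖
      ≤ 16 * D ^ 2 * K / (ρ * (1 + τ / w u)) * (2 / (ρ * (1 + τ / w u))) *
          (2 / (ρ * (1 + τ / w u))) :=
        mul_le_mul (mul_le_mul (h.norm_mbar hT hK hu hβ) (h.norm_G hT hβ hu) (norm_nonneg _)
          (by positivity)) h3 (norm_nonneg _) (by positivity)
    _ = _ := by field_simp; ring

lemma Nice.norm_inv_G (h : Nice ρ τ c w Y X W) (hT : Tame D K w Y W) (hK : 1 ≤ K) (hu : u ∈ W)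
    (hβ : PosW β W) {z : ℂ} (hz : ∀ i, X i u u = z) :
    ‖(G β X W u)⁻¹‖ ≤ ‖z‖ + 16 * D ^ 2 * K / ρ := by
  rw [h.G_eq hT hβ hu, inv_inv, nbar_eq β X W u hz (hβ u hu).2.ne']
  refine (norm_sub_le _ _).trans (add_le_add le_rfl ((h.norm_mbar hT hK hu hβ).trans ?_))
  have hK0 : 0 ≤ K := by linarith
  have h1 : 0 ≤ τ / w u := div_nonneg h.τnn (hT.wpos u).le
  have := h.ρpos
  refine div_le_div_of_nonneg_left (by positivity) h.ρpos ?_
  nlinarith

omit [DecidableEq V] [Fintype ι] [DecidableEq ι] in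
lemma col_le (hT : Tame D K w Y W) (i : ι) {a : V} (ha : a ∈ W) : ∑ b ∈ W, ‖Y i b a‖ ≤ D := by
  refine le_of_eq_of_le (Finset.sum_congr rfl fun b _ => ?_) (hT.row i a ha)
  rw [hT.herm i a b, norm_star]

omit [DecidableEq ι] in
lemma Nice.lay (h : Nice ρ τ c w Y X W) (hT : Tame D K w Y W) (hβ : PosW β W) {ℓ : V → ℕ}
    (hℓ : ∀ i a b, Y i a b ≠ 0 → ℓ a ≤ ℓ b + 1) :
    Lay ρ (4 * D) ℓ β (fun i a b => c * X i a b) W := by
  have key : ∀ i a b, a ≠ b → ‖c * X i a b‖ ≤ 4 * ‖Y i a b‖ := by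
    intro i a b hab
    rw [norm_mul]
    have := mul_le_mul h.c2 (h.off i a b hab) (norm_nonneg _) (by norm_num)
    linarith
  refine ⟨hβ, fun i => (h.acc i).mono subset_rfl fun a _ => ?_, fun i a ha => ?_,
    fun i a ha => ?_, fun i a _ b _ hab => ?_⟩
  · have h1 : 0 ≤ τ / w a := div_nonneg h.τnn (hT.wpos a).le
    have := h.ρpos
    nlinarith
  · refine (Finset.sum_le_sum fun b hb => key i a b (Finset.ne_of_mem_erase hb).symm).trans ?_
    rw [← Finset.mul_sum]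
    refine mul_le_mul_of_nonneg_left ?_ (by norm_num)
    exact (Finset.sum_le_sum_of_subset_of_nonneg (Finset.erase_subset _ _)
      fun _ _ _ => norm_nonneg _).trans (hT.row i a ha)
  · refine (Finset.sum_le_sum fun b hb => key i b a (Finset.ne_of_mem_erase hb)).trans ?_
    rw [← Finset.mul_sum]
    refine mul_le_mul_of_nonneg_left ?_ (by norm_num)
    exact (Finset.sum_le_sum_of_subset_of_nonneg (Finset.erase_subset _ _)
      fun _ _ _ => norm_nonneg _).trans (col_le hT i ha)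
  · by_cases hab' : a = b
    · subst hab'; omega
    · have h1 : Y i a b ≠ 0 := by
        intro h0
        have := key i a b hab'
        rw [h0, norm_zero, mul_zero] at this
        exact hab (norm_le_zero_iff.mp this)
      have h2 : Y i b a ≠ 0 := by
        rw [hT.herm i a b]; simpa using h1
      exact ⟨hℓ i a b h1, hℓ i b a h2⟩

lemma exists_radius {ρ D ε : ℝ} (hρ : 0 < ρ) (hε : 0 < ε) :
    ∃ R : ℕ, 2 * (4 / ρ * (1 - Real.exp (-4 * (4 * D) / ρ)) ^ R) ≤ ε := by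
  by_cases h : 1 - Real.exp (-4 * (4 * D) / ρ) ≤ 0
  · refine ⟨1, ?_⟩
    have : 4 / ρ * (1 - Real.exp (-4 * (4 * D) / ρ)) ^ 1 ≤ 0 := by
      rw [pow_one]
      exact mul_nonpos_of_nonneg_of_nonpos (by positivity) h
    linarith
  · have h1 : 1 - Real.exp (-4 * (4 * D) / ρ) < 1 := by
      have := Real.exp_pos (-4 * (4 * D) / ρ)
      linarith
    obtain ⟨R, hR⟩ := exists_pow_lt_of_lt_one (show 0 < ε * ρ / 8 by positivity) h1
    refine ⟨R, ?_⟩
    have h2 : 2 * (4 / ρ * (ε * ρ / 8)) = ε := by field_simp; ring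
    rw [← h2]
    exact mul_le_mul_of_nonneg_left (mul_le_mul_of_nonneg_left hR.le (by positivity)) (by norm_num)

/-- two nice systems that agree near `o` have close Green functions -/
lemma close {X' : ι → V → V → ℂ} {W' : Finset V} {β' : V → ι → ℂ} {ε : ℝ} {R : ℕ} {ℓ : V → ℕ}
    {o : V} {z : ℂ} (hR : 2 * (4 / ρ * (1 - Real.exp (-4 * (4 * D) / ρ)) ^ R) ≤ ε)
    (hD : 0 < D) (hK : 1 ≤ K)
    (h : Nice ρ τ c w Y X W) (h' : Nice ρ τ c w Y X' W') (hT : Tame D K w Y W)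
    (hT' : Tame D K w Y W') (hβ : PosW β W) (hβ' : PosW β' W')
    (hℓ : ∀ i a b, Y i a b ≠ 0 → ℓ a ≤ ℓ b + 1) (ho : ℓ o = 0) (hoW : o ∈ W)
    (hz : ∀ i, X i o o = z)
    (hW : ∀ a, ℓ a ≤ R → (a ∈ W ↔ a ∈ W')) (hββ : ∀ a ∈ W, ℓ a ≤ R → β a = β' a)
    (hX : ∀ i, ∀ a ∈ W, ∀ b ∈ W, ℓ a ≤ R → ℓ b ≤ R → X i a b = X' i a b) :
    ‖G β X W o - G β' X' W' o‖ ≤ env ε (128 * D ^ 2 * K / ρ ^ 3) (τ / w o) := by
  have hoR : ℓ o ≤ R := by omega
  have hoW' : o ∈ W' := (hW o hoR).mp hoW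
  refine le_min ?_ ?_
  · have h1 := G_local h.ρpos (show 0 < 4 * D by positivity) ho R (h.lay hT hβ hℓ)
      (h'.lay hT' hβ' hℓ) hoW hW hββ fun i a ha b hb h1 h2 => by rw [hX i a ha b hb h1 h2]
    rw [G_smul β X hoW h.cne, G_smul β' X' hoW' h.cne, ← sub_div, norm_div,
      div_le_iff₀ (norm_pos_iff.mpr h.cne)] at h1
    refine h1.trans (le_trans ?_ hR)
    rw [mul_comm 2]
    refine mul_le_mul_of_nonneg_left h.c2 ?_
    have h2 : Real.exp (-4 * (4 * D) / ρ) ≤ 1 := by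
      rw [Real.exp_le_one_iff]
      exact div_nonpos_of_nonpos_of_nonneg (by linarith) h.ρpos.le
    have := h.ρpos
    have : 0 ≤ 1 - Real.exp (-4 * (4 * D) / ρ) := by linarith
    positivity
  · have h1 := h.decay hT hK hoW hβ hz
    have h2 := h'.decay hT' hK hoW' hβ' (z := z) fun i => by
      rw [← hX i o hoW o hoW hoR hoR, hz i]
    have h3 : G β X W o - G β' X' W' o = (G β X W o - z⁻¹) - (G β' X' W' o - z⁻¹) := by ring
    rw [h3]
    refine (norm_sub_le _ _).trans ((add_le_add h1 h2).trans (le_of_eq ?_))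
    have := h.ρpos
    have := h.τnn
    have := hT.wpos o
    field_simp
    ring

omit [Fintype ι] [DecidableEq ι] in
lemma dm_diag (hT : Tame D K w Y W) (z : V → ℂ) (i : ι) (a : V) : dm z Y i a a = z a := by
  simp [dm, hT.diag]

omit [Fintype ι] [DecidableEq ι] in
lemma dm_off (z : V → ℂ) (Y : ι → V → V → ℂ) (i : ι) {a b : V} (hab : a ≠ b) :
    dm z Y i a b = -Y i a b := by
  simp [dm, hab]

/-- the rotation trick -/
lemma nice_rot (hT : Tame D K w Y W) (z : V → ℂ) {s : ℝ} (hs : |s| ≤ 1) (hρ : 0 < ρ) (hτ : 0 ≤ τ)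
    (hz : ∀ v ∈ W, ρ * (1 + τ / w v) ≤ (z v).im + s * (z v).re - |s| * D) :
    Nice ρ τ (1 + s * Complex.I) w Y (dm z Y) W := by
  refine ⟨hρ, hτ, ?_, ?_, fun i => ?_, fun i a b hab => ?_⟩
  · have := Complex.abs_re_le_norm (1 + s * Complex.I)
    simpa using this
  · refine (norm_add_le _ _).trans ?_
    simp only [norm_one, norm_mul, Complex.norm_real, Real.norm_eq_abs, Complex.norm_I, mul_one]
    linarith
  · have h1 := (ImGe_dm hT.herm (fun v => (1 + s * Complex.I) * z v) W i).add_small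
      (Z := fun a b => -(s * Complex.I) * Y i a b) (C := fun _ => |s| * D) fun a ha => by
        simp only [norm_mul, norm_neg, Complex.norm_real, Real.norm_eq_abs, Complex.norm_I,
          mul_one, ← Finset.mul_sum]
        have h2 := mul_le_mul_of_nonneg_left (hT.row i a ha) (abs_nonneg s)
        have h3 := mul_le_mul_of_nonneg_left (col_le hT i ha) (abs_nonneg s)
        linarith
    have h2 : (fun a b => (1 + s * Complex.I) * dm z Y i a b) = fun a b =>
        dm (fun v => (1 + s * Complex.I) * z v) Y i a b + -(s * Complex.I) * Y i a b := by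
      funext a b
      unfold dm
      split_ifs <;> ring
    rw [h2]
    refine h1.mono subset_rfl fun a ha => (hz a ha).trans (le_of_eq ?_)
    simp
  · rw [dm_off z Y i hab, norm_neg]
    have := norm_nonneg (Y i a b)
    linarith

omit [Fintype ι] [DecidableEq ι] in
/-- small perturbations -/
lemma Nice.pert (h : Nice ρ τ c w Y X W) {X' Z : ι → V → V → ℂ}
    (hX : ∀ i a b, X' i a b = X i a b + Z i a b)
    (hZ : ∀ i, ∀ a ∈ W, (∑ b ∈ W, ‖Z i a b‖) + ∑ b ∈ W, ‖Z i b a‖ ≤ ρ / 2 * (1 + τ / w a))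
    (hoff : ∀ i a b, a ≠ b → ‖X' i a b‖ ≤ 2 * ‖Y i a b‖) :
    Nice (ρ / 2) τ c w Y X' W := by
  refine ⟨half_pos h.ρpos, h.τnn, h.c1, h.c2, fun i => ?_, hoff⟩
  have h1 := (h.acc i).add_small (Z := fun a b => c * Z i a b)
    (C := fun a => ρ / 2 * (1 + τ / w a)) fun a ha => by
      simp only [norm_mul, ← Finset.mul_sum]
      rw [← mul_add]
      exact mul_le_mul h.c2 (hZ i a ha) (by positivity) (by norm_num)
  have h2 : (fun a b => c * X' i a b) = fun a b => c * X i a b + c * Z i a b := by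
    funext a b
    rw [hX]; ring
  rw [h2]
  exact h1.mono subset_rfl fun a _ => le_of_eq (by ring)

omit [Fintype ι] [DecidableEq ι] in
lemma Nice.half (h : Nice ρ τ c w Y X W) (hT : Tame D K w Y W) : Nice (ρ / 2) τ c w Y X W :=
  h.pert (Z := fun _ _ _ => 0) (fun _ _ _ => by simp) (fun i a _ => by
    have := h.rpos hT a
    simp only [norm_zero, Finset.sum_const_zero]
    linarith) h.off

/-- the basic accretivity constant -/
noncomputable def r0 (a η D : ℝ) : ℝ := η / (4 * (1 + a + D))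

lemma r0_pos {a η D : ℝ} (ha : 0 < a) (hη : 0 < η) (hD : 0 < D) : 0 < r0 a η D := by
  unfold r0; positivity

lemma r0_mul {a η D : ℝ} (ha : 0 < a) (hD : 0 < D) : r0 a η D * (1 + a + D) = η / 4 := by
  unfold r0; field_simp

omit [DecidableEq V] in
lemma zf_re (a η : ℝ) (w : V → ℝ) (t : ℂ) (v : V) :
    (zf (a + η * Complex.I) w t v).re = a + t.re / w v := by
  simp [zf, Complex.div_ofReal_re]

omit [DecidableEq V] in
lemma zf_im (a η : ℝ) (w : V → ℝ) (t : ℂ) (v : V) :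
    (zf (a + η * Complex.I) w t v).im = η + t.im / w v := by
  simp [zf, Complex.div_ofReal_im]

lemma nice_real {a η t : ℝ} (ha : 0 < a) (hη : 0 < η) (hη1 : η ≤ 1) (hD : 0 < D) (ht : 0 ≤ t)
    (hT : Tame D K w Y W) :
    Nice (r0 a η D) t (1 + r0 a η D * Complex.I) w Y (dm (zf (a + η * Complex.I) w t) Y) W := by
  have h0 := r0_pos ha hη hD
  have h1 := r0_mul (η := η) ha hD
  refine nice_rot hT _ ?_ h0 ht fun v _ => ?_
  · rw [abs_of_pos h0]; nlinarith
  · rw [zf_re, zf_im, abs_of_pos h0]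
    simp only [Complex.ofReal_im, zero_div, add_zero, Complex.ofReal_re]
    nlinarith

lemma nice_cplx {a η : ℝ} {t : ℂ} (ha : 0 < a) (hη : 0 < η) (hη1 : η ≤ 1) (hD : 0 < D)
    (hT : Tame D K w Y W) (ht : ∀ v ∈ W, -(η / 4) ≤ t.im / w v) :
    ∃ c, Nice (r0 a η D) ‖t‖ c w Y (dm (zf (a + η * Complex.I) w t) Y) W := by
  have h0 := r0_pos ha hη hD
  have h1 := r0_mul (η := η) ha hD
  have h2 : r0 a η D ≤ 1 := by nlinarith
  have key : ∀ s : ℝ, |s| = r0 a η D → s * t.re = r0 a η D * |t.re| →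
      Nice (r0 a η D) ‖t‖ (1 + s * Complex.I) w Y (dm (zf (a + η * Complex.I) w t) Y) W := by
    intro s hs hs'
    refine nice_rot hT _ (hs.le.trans h2) h0 (norm_nonneg _) fun v hv => ?_
    have hw := hT.wpos v
    have h3 : ‖t‖ / w v ≤ |t.re| / w v + |t.im / w v| := by
      rw [abs_div, abs_of_pos hw, ← add_div]
      exact div_le_div_of_nonneg_right (Complex.norm_le_abs_re_add_abs_im t) hw.le
    have h4 : s * (t.re / w v) = r0 a η D * (|t.re| / w v) := by
      rw [← mul_div_assoc, hs', mul_div_assoc]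
    have h5 : -r0 a η D ≤ s := by rw [← hs]; exact neg_abs_le s
    have h6 : r0 a η D * |t.im / w v| ≤ t.im / w v + η / 2 := by
      have := ht v hv
      have h7 := mul_le_mul_of_nonneg_right h2 (abs_nonneg (t.im / w v))
      rcases abs_cases (t.im / w v) with h | h <;> linarith
    rw [zf_re, zf_im, hs, mul_add s, h4]
    have h8 := mul_le_mul_of_nonneg_left h3 h0.le
    nlinarith
  by_cases hre : 0 ≤ t.re
  · exact ⟨_, key (r0 a η D) (abs_of_pos h0) (by rw [abs_of_nonneg hre])⟩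
  · exact ⟨_, key (-r0 a η D) (by rw [abs_neg, abs_of_pos h0])
      (by rw [abs_of_neg (not_le.mp hre)]; ring)⟩

omit [DecidableEq V] in
lemma norm_zf {a η t : ℝ} (ha : 0 < a) (hη : 0 < η) (hη1 : η ≤ 1) (ht : 0 ≤ t) {v : V}
    (hw : 0 < w v) : ‖zf (a + η * Complex.I) w t v‖ ≤ (1 + a) * (1 + t / w v) := by
  refine (Complex.norm_le_abs_re_add_abs_im _).trans ?_
  rw [zf_re, zf_im]
  simp only [Complex.ofReal_im, zero_div, add_zero, Complex.ofReal_re]
  have h1 : 0 ≤ t / w v := by positivity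
  rw [abs_of_pos (by positivity), abs_of_pos hη]
  nlinarith

lemma env_scale {A ε C x : ℝ} (hA : 0 < A) : A * env (ε / A) C x = env ε (A * C) x := by
  unfold env
  rw [mul_min_of_nonneg _ _ hA.le, mul_div_cancel₀ _ hA.ne', mul_div_assoc]

lemma exists_phase (z : ℂ) : ∃ c : ℂ, ‖c‖ ≤ 1 ∧ c * z = (‖z‖ : ℝ) := by
  by_cases hz : z = 0
  · exact ⟨0, by simp, by simp [hz]⟩
  · refine ⟨(‖z‖ : ℝ) / z, ?_, div_mul_cancel₀ _ hz⟩
    rw [norm_div, Complex.norm_real, norm_norm, div_self (norm_ne_zero_iff.mpr hz)]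

lemma norm_le_of_le {x y : ℂ} (hx : 0 ≤ x) (hxy : x ≤ y) : ‖x‖ ≤ ‖y‖ := by
  refine Complex.real_le_real.mp ?_
  rwa [Complex.norm_of_nonneg' hx, Complex.norm_of_nonneg' (hx.trans hxy)]

lemma Q_update (β : V → ι → ℂ) (X : ι → V → V → ℂ) {W : Finset V} {v : V} (hv : v ∈ W)
    (g : ι → ℂ) : Q (Function.update β v g) X W R0 =
      ∑ i, g i * Q β X (W.erase v) (ins R0 v i) := by
  rw [Q_erase _ X hv]
  refine Finset.sum_congr rfl fun i _ => ?_
  rw [Function.update_self]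
  refine congrArg _ (Q_congr (fun a ha => ?_) fun _ _ _ _ _ => rfl)
  exact Function.update_of_ne (Finset.ne_of_mem_erase ha) _ _

lemma Q_update_erase (β : V → ι → ℂ) (X : ι → V → V → ℂ) (W : Finset V) (v : V)
    (g : ι → ℂ) : Q (Function.update β v g) X (W.erase v) R0 = Q β X (W.erase v) R0 :=
  Q_congr (fun _ ha => Function.update_of_ne (Finset.ne_of_mem_erase ha) _ _)
    fun _ _ _ _ _ => rfl

omit [Fintype ι] [DecidableEq ι] in
lemma dm_rowcol (hT : Tame D K w Y W) (z : V → ℂ) (i : ι) {a : V} (ha : a ∈ W) :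
    (∑ b ∈ W, ‖dm z Y i a b‖) + ∑ b ∈ W, ‖dm z Y i b a‖ ≤ 2 * (‖z a‖ + D) := by
  have key : ∀ a b, ‖dm z Y i a b‖ ≤ (if a = b then ‖z a‖ else 0) + ‖Y i a b‖ := by
    intro a b
    unfold dm
    refine (norm_sub_le _ _).trans (le_of_eq ?_)
    split_ifs <;> simp
  have h1 : ∑ b ∈ W, ‖dm z Y i a b‖ ≤ ‖z a‖ + D := by
    refine (Finset.sum_le_sum fun b _ => key a b).trans ?_
    rw [Finset.sum_add_distrib, Finset.sum_ite_eq, if_pos ha]
    exact add_le_add le_rfl (hT.row i a ha)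
  have h2 : ∑ b ∈ W, ‖dm z Y i b a‖ ≤ ‖z a‖ + D := by
    refine (Finset.sum_le_sum fun b _ => key b a).trans ?_
    rw [Finset.sum_add_distrib, Finset.sum_ite_eq', if_pos ha]
    exact add_le_add le_rfl (col_le hT i ha)
  linarith

lemma Nice.norm_inv_G' {z : V → ℂ} {M : ℝ} (h : Nice ρ τ c w Y (dm z Y) W) (hT : Tame D K w Y W)
    (hK : 1 ≤ K) (hu : u ∈ W) (hβ : PosW β W) (hz : ‖z u‖ ≤ M * (1 + τ / w u)) :
    ‖(G β (dm z Y) W u)⁻¹‖ ≤ (M + 16 * D ^ 2 * K / ρ) * (1 + τ / w u) := by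
  refine (h.norm_inv_G hT hK hu hβ fun i => dm_diag hT z i u).trans ?_
  have h1 : 0 ≤ τ / w u := div_nonneg h.τnn (hT.wpos u).le
  have h2 : 0 ≤ 16 * D ^ 2 * K / ρ := by
    have := h.ρpos
    have : 0 ≤ K := by linarith
    positivity
  nlinarith

omit [DecidableEq ι] in
lemma posW_update {g : ι → ℂ} {v : V} (hβ : PosW β W) (h1 : ∀ i, 0 ≤ g i) (h2 : 0 < ∑ i, g i) :
    PosW (Function.update β v g) W := by
  intro a ha
  by_cases hav : a = v
  · subst hav
    simp only [bsum, Function.update_self]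
    exact ⟨h1, h2⟩
  · simp only [bsum, Function.update_of_ne hav]
    exact hβ a ha

/-- the ratio of the two mixed determinants is bounded -/
lemma ratio_le {z : V → ℂ} {M Λ : ℝ} {g : ι → ℂ} {v : V} (h : Nice ρ τ c w Y (dm z Y) W)
    (hT : Tame D K w Y W) (hK : 1 ≤ K) (hΛ : 1 ≤ Λ) (hv : v ∈ W) (hβ : PosW β W)
    (hz : ‖z v‖ ≤ M * (1 + τ / w v)) (h1 : ∀ i, 0 ≤ g i) (h2 : 0 < ∑ i, g i)
    (h3 : bsum β v ≤ Λ * ∑ i, g i) :
    ‖Q β (dm z Y) W R0 / Q (Function.update β v g) (dm z Y) W R0‖ ≤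
      Λ * (2 / ρ * (M + 16 * D ^ 2 * K / ρ)) := by
  have := nonempty_of_posW hβ hv
  have hβ' : PosW (Function.update β v g) W := posW_update hβ h1 h2
  have hP := h.Q_ne hT (Finset.erase_subset v W) (posW_mono hβ (Finset.erase_subset _ _))
  have hQ := h.Q_ne hT subset_rfl hβ
  have hQ' := h.Q_ne hT subset_rfl hβ'
  have hb := (hβ v hv).2.ne'
  have hg := h2.ne'
  have e1 : Q β (dm z Y) W R0 / Q (Function.update β v g) (dm z Y) W R0 =
      bsum β v / (∑ i, g i) * (G (Function.update β v g) (dm z Y) W v * (G β (dm z Y) W v)⁻¹) := by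
    have e2 : bsum (Function.update β v g) v = ∑ i, g i := by simp [bsum]
    unfold G
    rw [Q_update_erase, e2]
    field_simp
  have e3 : ‖bsum β v / ∑ i, g i‖ ≤ Λ := by
    rw [norm_div, div_le_iff₀ (norm_pos_iff.mpr hg)]
    have := norm_le_of_le (hβ v hv).2.le h3
    rwa [norm_mul, Complex.norm_real, Real.norm_of_nonneg (by linarith)] at this
  have hr := h.rpos hT v
  have hρ := h.ρpos
  have hK0 : 0 ≤ K := by linarith
  have hw : 0 < 1 + τ / w v := by
    have := h.τnn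
    have := hT.wpos v
    positivity
  rw [e1, norm_mul, norm_mul]
  refine mul_le_mul e3 ?_ (by positivity) (by linarith)
  calc ‖G (Function.update β v g) (dm z Y) W v‖ * ‖(G β (dm z Y) W v)⁻¹‖
      ≤ 2 / (ρ * (1 + τ / w v)) * ((M + 16 * D ^ 2 * K / ρ) * (1 + τ / w v)) :=
        mul_le_mul (h.norm_G hT hβ' hv) (h.norm_inv_G' hT hK hv hβ hz) (norm_nonneg _)
          (by positivity)
    _ = _ := by field_simp

lemma G_scale (β : V → ι → ℂ) (X : ι → V → V → ℂ) (W : Finset V) (o : V) (d : V → ι → ℂ)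
    (hd : ∀ i, d o i = 1) :
    G (fun v i => β v i * d v i) X W o = G β (fun i a b => d a i * X i a b) W o := by
  have key : ∀ W : Finset V, Q β (fun i a b => d a i * X i a b) W R0 =
      Q (fun v i => β v i * d v i) X W R0 := by
    intro W
    have h1 := Q_scale β X (W := W) (R := R0) (fun i => by simp [R0]) d (fun _ _ => 1)
    simpa only [mul_one, R0, Finset.prod_empty, Finset.prod_const_one, one_mul] using h1
  unfold G
  rw [key, key]
  simp [bsum, hd]

lemma col_deriv (β β' : V → ι → ℂ) (X : ι → V → V → ℂ) {W T : Finset V} {o : V} (e : V → ℂ)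
    (hTW : T ⊆ W) (hoT : o ∉ T) (hQ : Q β X W R0 ≠ 0) :
    HasDerivAt (fun s : ℂ => G (fun v i => β v i + s * if v ∈ T then e v * β' v i else 0) X W o)
      (∑ v ∈ T, e v * (bsum β o * (Q (Function.update β v (β' v)) X (W.erase o) R0 * Q β X W R0 -
        Q β X (W.erase o) R0 * Q (Function.update β v (β' v)) X W R0) / Q β X W R0 ^ 2)) 0 := by
  have key : ∀ W' : Finset V, T ⊆ W' → HasDerivAt
      (fun s : ℂ => Q (fun v i => β v i + s * if v ∈ T then e v * β' v i else 0) X W' R0)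
      (∑ v ∈ T, e v * Q (Function.update β v (β' v)) X W' R0) 0 := by
    intro W' hW'
    refine (Q_hasDerivAt_beta β (fun v i => if v ∈ T then e v * β' v i else 0) X W'
      R0).congr_deriv ?_
    rw [← Finset.sum_subset hW']
    · refine Finset.sum_congr rfl fun v hv => ?_
      rw [Q_update β X (hW' hv), Q_update β X (hW' hv), Finset.mul_sum]
      refine Finset.sum_congr rfl fun i _ => ?_
      rw [if_pos hv, mul_assoc]
    · intro v hv hvT
      rw [Q_update β X hv]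
      simp [hvT]
  have h1 := key (W.erase o) fun v hv => Finset.mem_erase.mpr ⟨fun h => hoT (h ▸ hv), hTW hv⟩
  have h2 := key W hTW
  have e0 : (fun v i => β v i + (0 : ℂ) * if v ∈ T then e v * β' v i else 0) = β := by
    funext v i; simp
  have h3 := (h1.const_mul (bsum β o)).div h2 (by rw [e0]; exact hQ)
  simp only [e0] at h3
  have e1 : (fun s : ℂ => G (fun v i => β v i + s * if v ∈ T then e v * β' v i else 0) X W o) =
      (fun s : ℂ => bsum β o *
        Q (fun v i => β v i + s * if v ∈ T then e v * β' v i else 0) X (W.erase o) R0) /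
      fun s : ℂ => Q (fun v i => β v i + s * if v ∈ T then e v * β' v i else 0) X W R0 := by
    funext s
    simp [G, bsum, hoT]
  rw [e1]
  refine h3.congr_deriv ?_
  simp only [Finset.mul_sum, Finset.sum_mul, ← Finset.sum_sub_distrib, Finset.sum_div]
  exact Finset.sum_congr rfl fun v _ => by ring

lemma col_main {z : V → ℂ} {M Λ ε : ℝ} {R : ℕ} {β' : V → ι → ℂ} {T : Finset V} {ℓ : V → ℕ}
    {o : V} (hR : 2 * (4 / (ρ / 2) * (1 - Real.exp (-4 * (4 * D) / (ρ / 2))) ^ R) ≤ ε)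
    (hD : 0 < D) (hK : 1 ≤ K) (hΛ : 1 ≤ Λ) (hM : 1 ≤ M) (hρ1 : ρ ≤ 1)
    (h : Nice ρ τ c w Y (dm z Y) W) (hT : Tame D K w Y W)
    (hz : ∀ v, ‖z v‖ ≤ M * (1 + τ / w v)) (hβ : PosW β W) (hβ' : PosW β' T)
    (hℓ : ∀ i a b, Y i a b ≠ 0 → ℓ a ≤ ℓ b + 1) (ho : ℓ o = 0) (hoW : o ∈ W) (hTW : T ⊆ W)
    (hTR : ∀ v ∈ T, R < ℓ v) (h1 : ∀ v ∈ T, ∀ i, β' v i ≤ Λ * β v i)
    (h2 : ∀ v ∈ T, bsum β v ≤ Λ * bsum β' v) :
    ∑ v ∈ T, ‖G (Function.update β v (β' v)) (dm z Y) W o - G β (dm z Y) W o‖ ≤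
      Λ * (2 / ρ * (M + 16 * D ^ 2 * K / ρ)) / (ρ / (4 * Λ * (M + D))) *
        env ε (128 * D ^ 2 * K / (ρ / 2) ^ 3) (τ / w o) := by
  have := nonempty_of_posW hβ hoW
  have hρ := h.ρpos
  have hK0 : 0 ≤ K := by linarith
  have hΛ0 : 0 < Λ := by linarith
  have hM0 : 0 < M := by linarith
  have hoT : o ∉ T := fun hh => by have := hTR o hh; omega
  have hQ := h.Q_ne hT subset_rfl hβ
  obtain ⟨E, hE⟩ : ∃ E : V → ℂ, ∀ v, E v = bsum β o *
      (Q (Function.update β v (β' v)) (dm z Y) (W.erase o) R0 * Q β (dm z Y) W R0 -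
        Q β (dm z Y) (W.erase o) R0 * Q (Function.update β v (β' v)) (dm z Y) W R0) /
          Q β (dm z Y) W R0 ^ 2 := ⟨_, fun _ => rfl⟩
  choose e he1 he2 using fun v => exists_phase (E v)
  have hder := col_deriv β β' (dm z Y) e hTW hoT hQ
  simp only [← hE, he2] at hder
  rw [← Complex.ofReal_sum] at hder
  -- termwise bound
  have hterm : ∀ v ∈ T, ‖G (Function.update β v (β' v)) (dm z Y) W o - G β (dm z Y) W o‖ ≤
      Λ * (2 / ρ * (M + 16 * D ^ 2 * K / ρ)) * ‖E v‖ := by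
    intro v hv
    have hov : o ≠ v := fun hh => hoT (hh ▸ hv)
    have hβv : PosW (Function.update β v (β' v)) W := posW_update hβ (hβ' v hv).1 (hβ' v hv).2
    have hQv := h.Q_ne hT subset_rfl hβv
    have e1 : G (Function.update β v (β' v)) (dm z Y) W o - G β (dm z Y) W o =
        Q β (dm z Y) W R0 / Q (Function.update β v (β' v)) (dm z Y) W R0 * E v := by
      have e2 : bsum (Function.update β v (β' v)) o = bsum β o := by
        simp [bsum, Function.update_of_ne hov]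
      rw [hE]
      unfold G
      rw [e2]
      field_simp
    rw [e1, norm_mul]
    exact mul_le_mul_of_nonneg_right (ratio_le h hT hK hΛ (hTW hv) hβ (hz v) (hβ' v hv).1
      (hβ' v hv).2 (h2 v hv)) (norm_nonneg _)
  refine (Finset.sum_le_sum hterm).trans ?_
  rw [← Finset.mul_sum]
  -- the scaled systems
  obtain ⟨d, hd⟩ : ∃ d : V → ι → ℂ, ∀ v i, d v i = if v ∈ T then e v * β' v i / β v i else 0 :=
    ⟨_, fun _ _ => rfl⟩
  have hdn : ∀ v i, ‖d v i‖ ≤ Λ := by
    intro v i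
    rw [hd]
    split_ifs with hv
    · rw [norm_div, norm_mul]
      refine div_le_of_le_mul₀ (norm_nonneg _) hΛ0.le ?_
      have h3 := norm_le_of_le ((hβ' v hv).1 i) (h1 v hv i)
      rw [norm_mul, Complex.norm_real, Real.norm_of_nonneg hΛ0.le] at h3
      have h4 := mul_le_mul_of_nonneg_right (he1 v) (norm_nonneg (β' v i))
      linarith
    · simpa using hΛ0.le
  have hβd : ∀ s : ℂ, (fun v i => β v i + s * if v ∈ T then e v * β' v i else 0) =
      fun v i => β v i * (1 + s * d v i) := by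
    intro s
    funext v i
    rw [hd]
    split_ifs with hv
    · by_cases hb : β v i = 0
      · have h3 := h1 v hv i
        rw [hb, mul_zero] at h3
        rw [le_antisymm h3 ((hβ' v hv).1 i), hb]
        simp
      · field_simp
    · simp
  have hrpos : 0 < ρ / (4 * Λ * (M + D)) := by positivity
  have hrΛ : ρ / (4 * Λ * (M + D)) * Λ = ρ / (4 * (M + D)) := by field_simp
  have hsd : ∀ s ∈ Metric.ball (0 : ℂ) (ρ / (4 * Λ * (M + D))), ∀ v i,
      ‖s * d v i‖ ≤ ρ / (4 * (M + D)) := by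
    intro s hs v i
    rw [mem_ball_zero_iff] at hs
    rw [norm_mul, ← hrΛ]
    exact mul_le_mul hs.le (hdn v i) (norm_nonneg _) hrpos.le
  have hnice : ∀ s ∈ Metric.ball (0 : ℂ) (ρ / (4 * Λ * (M + D))),
      Nice (ρ / 2) τ c w Y (fun i a b => (1 + s * d a i) * dm z Y i a b) W := by
    intro s hs
    refine h.pert (Z := fun i a b => s * d a i * dm z Y i a b) (fun i a b => by ring)
      (fun i a ha => ?_) fun i a b hab => ?_
    · have h3 : ∀ a b, ‖s * d a i * dm z Y i a b‖ ≤ ρ / (4 * (M + D)) * ‖dm z Y i a b‖ :=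
        fun a b => by
          rw [norm_mul]
          exact mul_le_mul_of_nonneg_right (hsd s hs a i) (norm_nonneg _)
      refine (add_le_add (Finset.sum_le_sum fun b _ => h3 a b)
        (Finset.sum_le_sum fun b _ => h3 b a)).trans ?_
      rw [← Finset.mul_sum, ← Finset.mul_sum, ← mul_add]
      have h4 : 0 ≤ τ / w a := div_nonneg h.τnn (hT.wpos a).le
      have h5 : 2 * (‖z a‖ + D) ≤ 2 * (M + D) * (1 + τ / w a) := by
        have := hz a
        nlinarith
      calc ρ / (4 * (M + D)) * (∑ b ∈ W, ‖dm z Y i a b‖ + ∑ b ∈ W, ‖dm z Y i b a‖)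
          ≤ ρ / (4 * (M + D)) * (2 * (M + D) * (1 + τ / w a)) :=
            mul_le_mul_of_nonneg_left ((dm_rowcol hT z i ha).trans h5) (by positivity)
        _ = _ := by field_simp; ring
    · rw [dm_off z Y i hab, norm_mul, norm_neg]
      refine mul_le_mul_of_nonneg_right ((norm_add_le _ _).trans ?_) (norm_nonneg _)
      have h3 : ρ / (4 * (M + D)) ≤ 1 := by
        rw [div_le_one (by positivity)]; linarith
      have := hsd s hs a i
      rw [norm_one]
      linarith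
  have hd0 : ∀ a, ℓ a ≤ R → ∀ i, d a i = 0 := by
    intro a ha i
    rw [hd, if_neg fun hh => by have := hTR a hh; omega]
  have hG : ∀ s : ℂ, G (fun v i => β v i + s * if v ∈ T then e v * β' v i else 0) (dm z Y) W o =
      G β (fun i a b => (1 + s * d a i) * dm z Y i a b) W o := by
    intro s
    rw [hβd, G_scale β _ W o (fun v i => 1 + s * d v i)]
    intro i
    rw [hd0 o (by omega), mul_zero, add_zero]
  simp only [hG] at hder
  have hbound := deriv_le_of_close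
    (f := fun s : ℂ => G β (fun i a b => (1 + s * d a i) * dm z Y i a b) W o)
    (δ := env ε (128 * D ^ 2 * K / (ρ / 2) ^ 3) (τ / w o)) hrpos
    (fun s hs => by
      have hd : ∀ W' : Finset V, DifferentiableAt ℂ
          (fun s : ℂ => Q β (fun i a b => (1 + s * d a i) * dm z Y i a b) W' R0) s := fun W' =>
        Q_differentiableAt (β := fun _ => β) W' R0 (fun _ _ => by fun_prop)
          fun _ _ _ => by fun_prop
      exact (((hd _).const_mul (bsum β o)).div (hd W)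
        ((hnice s hs).Q_ne hT subset_rfl hβ)).differentiableWithinAt)
    fun s hs => close (z := z o) hR hD hK (hnice s hs) (hnice 0 (Metric.mem_ball_self hrpos)) hT hT
      hβ hβ hℓ ho hoW (fun i => by rw [hd0 o (by omega), dm_diag hT]; ring) (fun _ _ => Iff.rfl)
      (fun _ _ _ => rfl) fun i a _ b _ ha _ => by rw [hd0 a ha]; ring
  rw [hder.deriv, Complex.norm_real,
    Real.norm_of_nonneg (Finset.sum_nonneg fun _ _ => norm_nonneg _)] at hbound
  calc Λ * (2 / ρ * (M + 16 * D ^ 2 * K / ρ)) * ∑ v ∈ T, ‖E v‖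
      ≤ Λ * (2 / ρ * (M + 16 * D ^ 2 * K / ρ)) *
        (env ε (128 * D ^ 2 * K / (ρ / 2) ^ 3) (τ / w o) / (ρ / (4 * Λ * (M + D)))) :=
        mul_le_mul_of_nonneg_left hbound (by positivity)
    _ = _ := by ring

lemma row_deriv (β : V → ι → ℂ) (X : ι → V → V → ℂ) {W : Finset V} {o : V} (e : V → ℂ)
    (hb : bsum β o ≠ 0) (hP : Q β X (W.erase o) R0 ≠ 0) (hQ : Q β X W R0 ≠ 0) {p : ℂ}
    (hp : HasDerivAt (fun s : ℂ => Q β (shiftD X fun a => s * e a) (W.erase o) R0) p 0) :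
    deriv (fun s : ℂ => G β (shiftD X fun a => s * e a) W o) 0 * (G β X W o)⁻¹ =
      p / Q β X (W.erase o) R0 - ∑ v ∈ W, e v * G β X W v := by
  have e0 : (shiftD X fun a => (0 : ℂ) * e a) = X := by
    funext i a b; simp [shiftD]
  have h2 := Q_hasDerivAt_shift β X W e 0
  have h3 := (hp.const_mul (bsum β o)).div h2 (by rw [e0]; exact hQ)
  simp only [e0] at h3
  have h4 : deriv (fun s : ℂ => G β (shiftD X fun a => s * e a) W o) 0 = _ := h3.deriv
  have h5 : ∑ v ∈ W, e v * G β X W v =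
      (∑ v ∈ W, e v * (bsum β v * Q β X (W.erase v) R0)) / Q β X W R0 := by
    rw [Finset.sum_div]
    exact Finset.sum_congr rfl fun v _ => by unfold G; ring
  rw [h4, h5]
  unfold G
  field_simp

lemma row_half {z : V → ℂ} {M ε : ℝ} {R : ℕ} {ℓ : V → ℕ} {o : V} {e : V → ℂ}
    (hR : 2 * (4 / (ρ / 2) * (1 - Real.exp (-4 * (4 * D) / (ρ / 2))) ^ R) ≤ ε)
    (hD : 0 < D) (hK : 1 ≤ K) (h : Nice ρ τ c w Y (dm z Y) W) (hT : Tame D K w Y W)
    (hz : ‖z o‖ ≤ M * (1 + τ / w o)) (hβ : PosW β W)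
    (hℓ : ∀ i a b, Y i a b ≠ 0 → ℓ a ≤ ℓ b + 1) (ho : ℓ o = 0) (hoW : o ∈ W)
    (he : ∀ a, ‖e a‖ ≤ τ / w a) (he0 : ∀ a, ℓ a ≤ R → e a = 0) :
    ‖deriv (fun s : ℂ => G β (shiftD (dm z Y) fun a => s * e a) W o) 0 * (G β (dm z Y) W o)⁻¹‖ ≤
      env ε (128 * D ^ 2 * K / (ρ / 2) ^ 3) (τ / w o) / (ρ / 4) *
        ((M + 16 * D ^ 2 * K / ρ) * (1 + τ / w o)) := by
  have := nonempty_of_posW hβ hoW
  have hρ := h.ρpos
  have hrpos : 0 < ρ / 4 := by positivity
  have hnice : ∀ s ∈ Metric.ball (0 : ℂ) (ρ / 4),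
      Nice (ρ / 2) τ c w Y (shiftD (dm z Y) fun a => s * e a) W := by
    intro s hs
    rw [mem_ball_zero_iff] at hs
    refine h.pert (Z := fun i a b => if a = b then s * e a else 0) (fun i a b => rfl)
      (fun i a ha => ?_) fun i a b hab => ?_
    · simp only [apply_ite norm, norm_zero, Finset.sum_ite_eq, Finset.sum_ite_eq', if_pos ha,
        norm_mul]
      have := mul_le_mul hs.le (he a) (norm_nonneg _) hrpos.le
      linarith
    · simp only [shiftD, if_neg hab, add_zero]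
      exact h.off i a b hab
  have hbound := deriv_le_of_close
    (f := fun s : ℂ => G β (shiftD (dm z Y) fun a => s * e a) W o)
    (δ := env ε (128 * D ^ 2 * K / (ρ / 2) ^ 3) (τ / w o)) hrpos
    (fun s hs => by
      have hd : ∀ W' : Finset V, DifferentiableAt ℂ
          (fun s : ℂ => Q β (shiftD (dm z Y) fun a => s * e a) W' R0) s := fun W' =>
        (Q_hasDerivAt_shift β (dm z Y) W' e s).differentiableAt
      exact (((hd _).const_mul (bsum β o)).div (hd W)
        ((hnice s hs).Q_ne hT subset_rfl hβ)).differentiableWithinAt)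
    fun s hs => close (z := z o) hR hD hK (hnice s hs) (hnice 0 (Metric.mem_ball_self hrpos)) hT hT
      hβ hβ hℓ ho hoW (fun i => by simp [shiftD, he0 o (by omega), dm_diag hT])
      (fun _ _ => Iff.rfl) (fun _ _ _ => rfl) fun i a _ b _ ha _ => by simp [shiftD, he0 a ha]
  rw [norm_mul]
  exact mul_le_mul hbound (h.norm_inv_G' hT hK hoW hβ hz) (norm_nonneg _)
    ((norm_nonneg _).trans hbound)

lemma row_main {z : V → ℂ} {M ε : ℝ} {R : ℕ} {γ : ι → ℂ} {T : Finset V} {ℓ : V → ℕ} {o : V}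
    (hR : 2 * (4 / (ρ / 2) * (1 - Real.exp (-4 * (4 * D) / (ρ / 2))) ^ R) ≤ ε)
    (hD : 0 < D) (hK : 1 ≤ K) (h : Nice ρ τ c w Y (dm z Y) W) (hT : Tame D K w Y W)
    (hz : ‖z o‖ ≤ M * (1 + τ / w o)) (hβ : PosW β W) (hβ' : PosW (Function.update β o γ) W)
    (hℓ : ∀ i a b, Y i a b ≠ 0 → ℓ a ≤ ℓ b + 1) (ho : ℓ o = 0) (hoW : o ∈ W) (hTW : T ⊆ W)
    (hTR : ∀ v ∈ T, R < ℓ v) :
    ∑ u ∈ T, τ / w u * ‖G (Function.update β o γ) (dm z Y) W u - G β (dm z Y) W u‖ ≤
      (1 + τ / w o) * (2 * (M + 16 * D ^ 2 * K / ρ) / (ρ / 4) *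
        env ε (128 * D ^ 2 * K / (ρ / 2) ^ 3) (τ / w o)) := by
  have := nonempty_of_posW hβ hoW
  choose e he1 he2 using fun u =>
    exists_phase (G (Function.update β o γ) (dm z Y) W u - G β (dm z Y) W u)
  obtain ⟨f, hf⟩ : ∃ f : V → ℂ, ∀ u, f u = if u ∈ T then (τ / w u : ℝ) * e u else 0 :=
    ⟨_, fun _ => rfl⟩
  have hτ : ∀ u, 0 ≤ τ / w u := fun u => div_nonneg h.τnn (hT.wpos u).le
  have hf1 : ∀ a, ‖f a‖ ≤ τ / w a := by
    intro a
    rw [hf]
    split_ifs
    · rw [norm_mul, Complex.norm_real, Real.norm_of_nonneg (hτ a)]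
      exact mul_le_of_le_one_right (hτ a) (he1 a)
    · simpa using hτ a
  have hf0 : ∀ a, ℓ a ≤ R → f a = 0 := by
    intro a ha
    rw [hf, if_neg fun hh => by have := hTR a hh; omega]
  have hP := h.Q_ne hT (Finset.erase_subset o W) (posW_mono hβ (Finset.erase_subset _ _))
  have hp := Q_hasDerivAt_shift β (dm z Y) (W.erase o) f 0
  have h1 := row_deriv β (dm z Y) f (hβ o hoW).2.ne' hP (h.Q_ne hT subset_rfl hβ) hp
  have h2 := row_deriv (Function.update β o γ) (dm z Y) f (hβ' o hoW).2.ne'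
    (by rw [Q_update_erase]; exact hP) (h.Q_ne hT subset_rfl hβ')
    (by simp only [Q_update_erase]; exact hp)
  rw [Q_update_erase] at h2
  have h3 := row_half hR hD hK h hT hz hβ hℓ ho hoW hf1 hf0
  have h4 := row_half hR hD hK h hT hz hβ' hℓ ho hoW hf1 hf0
  rw [h1] at h3
  rw [h2] at h4
  have h5 := (norm_sub_le _ _).trans (add_le_add h3 h4)
  rw [sub_sub_sub_cancel_left, ← Finset.sum_sub_distrib, ← Finset.sum_subset hTW
    (fun v _ hv => by rw [hf, if_neg hv]; simp)] at h5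
  have h6 : ∑ v ∈ T, (f v * G (Function.update β o γ) (dm z Y) W v - f v * G β (dm z Y) W v) =
      ((∑ u ∈ T, τ / w u *
        ‖G (Function.update β o γ) (dm z Y) W u - G β (dm z Y) W u‖ : ℝ) : ℂ) := by
    rw [Complex.ofReal_sum]
    refine Finset.sum_congr rfl fun v hv => ?_
    rw [← mul_sub, hf, if_pos hv, mul_assoc, he2, Complex.ofReal_mul]
  rw [h6, Complex.norm_real, Real.norm_of_nonneg
    (Finset.sum_nonneg fun u _ => mul_nonneg (hτ u) (norm_nonneg _))] at h5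
  exact h5.trans (le_of_eq (by ring))

end TameAux

open TameAux

/-- decay in `t`: `G - 1/z = mbar / (z * nbar)` -/
theorem tame_bound {a D K : ℝ} (ha : 0 < a) (hD : 0 < D) (hK : 1 ≤ K) :
    ∃ B > 0, ∀ η : ℝ, 0 < η → η ≤ 1 → ∀ (V : Type u) (ι : Type) [DecidableEq V] [Fintype ι]
      [DecidableEq ι] (β : V → ι → ℂ) (Y : ι → V → V → ℂ) (w : V → ℝ) (W : Finset V) (u : V)
      (t : ℝ), PosW β W → Tame D K w Y W → u ∈ W → 0 ≤ t →
      ‖GT β Y w (a + η * Complex.I) W t u - (a + η * Complex.I + t / w u)⁻¹‖ ≤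
        B / (η ^ 3 * (1 + t / w u) ^ 3) := by
  refine ⟨64 * D ^ 2 * K * (4 * (1 + a + D)) ^ 3, by positivity, ?_⟩
  intro η hη hη1 V ι _ _ _ β Y w W u t hβ hT hu ht
  refine ((nice_real ha hη hη1 hD ht hT).decay hT hK hu hβ fun i => dm_diag hT _ i u).trans
    (le_of_eq ?_)
  have := hT.wpos u
  unfold r0
  field_simp

/-- the self energies as functions of a complex `t` -/
theorem tame_se {a D K : ℝ} (ha : 0 < a) (hD : 0 < D) (hK : 1 ≤ K) :
    ∃ B > 0, ∀ η : ℝ, 0 < η → η ≤ 1 → ∀ (V : Type u) (ι : Type) [DecidableEq V] [Fintype ι]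
      [DecidableEq ι] (β : V → ι → ℂ) (Y : ι → V → V → ℂ) (w : V → ℝ) (W : Finset V) (u : V),
      PosW β W → Tame D K w Y W → u ∈ W → ∃ ε₀ > 0, ∀ i,
        DifferentiableOn ℂ (fun t => se β (dm (zf (a + η * Complex.I) w t) Y) (W.erase u) R0 u i)
          {t | -ε₀ < t.im} ∧ ∀ t : ℂ, -ε₀ < t.im →
        Q β (dm (zf (a + η * Complex.I) w t) Y) (W.erase u) R0 ≠ 0 ∧
        (se β (dm (zf (a + η * Complex.I) w t) Y) (W.erase u) R0 u i).im ≤ 0 ∧
        ‖se β (dm (zf (a + η * Complex.I) w t) Y) (W.erase u) R0 u i‖ ≤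
          B / (η * (1 + ‖t‖ / w u)) := by
  refine ⟨16 * D ^ 2 * K * (4 * (1 + a + D)), by positivity, ?_⟩
  intro η hη hη1 V ι _ _ _ β Y w W u hβ hT hu
  have := nonempty_of_posW hβ hu
  obtain ⟨v0, -, hv0⟩ := W.exists_min_image w ⟨u, hu⟩
  have hw0 := hT.wpos v0
  have hβ' := posW_mono hβ (Finset.erase_subset u W)
  have him : ∀ t : ℂ, -(η / 4 * w v0) < t.im → ∀ v ∈ W, -(η / 4) ≤ t.im / w v := by
    intro t ht v hv
    rw [le_div_iff₀ (hT.wpos v)]
    have := mul_le_mul_of_nonneg_left (hv0 v hv) (show 0 ≤ η / 4 by positivity)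
    linarith
  have hQ : ∀ t : ℂ, -(η / 4 * w v0) < t.im →
      Q β (dm (zf (a + η * Complex.I) w t) Y) (W.erase u) R0 ≠ 0 := by
    intro t ht
    obtain ⟨c, hc⟩ := nice_cplx ha hη hη1 hD hT (him t ht)
    exact hc.Q_ne hT (Finset.erase_subset u W) hβ'
  refine ⟨η / 4 * w v0, by positivity, fun i => ⟨fun t ht => ?_, fun t ht => ⟨hQ t ht, ?_, ?_⟩⟩⟩
  · have hX : ∀ i b b', DifferentiableAt ℂ
        (fun t => dm (zf (a + η * Complex.I) w t) Y i b b') t := by
      intro i b b'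
      unfold dm zf
      by_cases hb : b = b'
      · simp only [if_pos hb]; fun_prop
      · simp only [if_neg hb]; fun_prop
    have hd : ∀ R : ι → Finset V, DifferentiableAt ℂ
        (fun t => Q β (dm (zf (a + η * Complex.I) w t) Y) (W.erase u) R) t := fun R =>
      Q_differentiableAt (β := fun _ => β) _ R (fun _ _ => by fun_prop) hX
    exact ((hX i u u).sub ((hd _).div (hd _) (hQ t ht))).differentiableWithinAt
  · have h1 := piv_im_ge (X := dm (zf (a + η * Complex.I) w t) Y) (R := R0) (v := u) (i := i) hβ'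
      (fun i => by simp [R0]) (Finset.notMem_erase u W) (by simp [R0])
      (fun j => ImGe_dm hT.herm _ _ j) fun j b hb => by
        have hbW : b ∈ W := by
          rcases Finset.mem_union.mp hb with hb | hb
          · exact Finset.mem_of_mem_erase hb
          · by_cases hj : j = i
            · subst hj
              simp only [ins, Function.update_self, R0, Finset.mem_insert, Finset.notMem_empty,
                or_false] at hb
              rwa [hb]
            · simp [ins, Function.update_of_ne hj, R0] at hb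
        have := him t ht b hbW
        rw [zf_im]
        linarith
    unfold se
    rw [dm_diag hT, Complex.sub_im]
    linarith
  · obtain ⟨c, hc⟩ := nice_cplx ha hη hη1 hD hT (him t ht)
    refine (hc.norm_se hT hK hu hβ' i).trans (le_of_eq ?_)
    have := hT.wpos u
    unfold r0
    field_simp

/-- locality: `G_local` and `tame_bound` -/
theorem tame_loc {a η D K : ℝ} (ha : 0 < a) (hη : 0 < η) (hη1 : η ≤ 1) (hD : 0 < D) (hK : 1 ≤ K) :
    ∃ C ≥ 0, ∀ ε > 0, ∃ R : ℕ, ∀ (V : Type u) (ι : Type) [DecidableEq V] [Fintype ι]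
      [DecidableEq ι] (β : V → ι → ℂ) (Y : ι → V → V → ℂ) (w : V → ℝ) (W W' : Finset V)
      (ℓ : V → ℕ) (o : V) (t : ℝ), PosW β W → PosW β W' → Tame D K w Y W → Tame D K w Y W' →
      (∀ i a b, Y i a b ≠ 0 → ℓ a ≤ ℓ b + 1) → ℓ o = 0 → o ∈ W → 0 ≤ t →
      (∀ v, ℓ v ≤ R → (v ∈ W ↔ v ∈ W')) →
      ‖GT β Y w (a + η * Complex.I) W t o - GT β Y w (a + η * Complex.I) W' t o‖ ≤
        env ε C (t / w o) := by
  have h0 := r0_pos ha hη hD
  refine ⟨128 * D ^ 2 * K / r0 a η D ^ 3, by positivity, fun ε hε => ?_⟩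
  obtain ⟨R, hR⟩ := exists_radius (D := D) h0 hε
  refine ⟨R, ?_⟩
  intro V ι _ _ _ β Y w W W' ℓ o t hβ hβ' hT hT' hℓ ho hoW ht hW
  exact close hR hD hK (nice_real ha hη hη1 hD ht hT) (nice_real ha hη hη1 hD ht hT') hT hT' hβ hβ'
    hℓ ho hoW (fun i => dm_diag hT _ i o) hW (fun _ _ _ => rfl) fun _ _ _ _ _ _ _ => rfl

/-- Column tail.  For `v ∈ T` the change equals `(Q β / Q (update β v (β' v)))` times the
derivative at `0` of `s ↦ G (β + s β' at v)`.  Sum with unimodular coefficients `c v`: the weights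
`β + s c β'` are `β` times `1 + s d`, `‖d‖ ≤ Λ`, which by `Q_scale` is a left scaling of the rows
`v ∈ T` of `X`; for `‖s‖` small the (rotated) system stays accretive, so `G_local`, the decay
bound and `deriv_le_of_close` apply (`Q_hasDerivAt_beta`). -/
theorem tame_col {a η D K Λ : ℝ} (ha : 0 < a) (hη : 0 < η) (hη1 : η ≤ 1) (hD : 0 < D)
    (hK : 1 ≤ K) (hΛ : 1 ≤ Λ) :
    ∃ C ≥ 0, ∀ ε > 0, ∃ R : ℕ, ∀ (V : Type u) (ι : Type) [DecidableEq V] [Fintype ι]
      [DecidableEq ι] (β β' : V → ι → ℂ) (Y : ι → V → V → ℂ) (w : V → ℝ) (W T : Finset V)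
      (ℓ : V → ℕ) (o : V) (t : ℝ), PosW β W → PosW β' T → Tame D K w Y W →
      (∀ i a b, Y i a b ≠ 0 → ℓ a ≤ ℓ b + 1) → ℓ o = 0 → o ∈ W → 0 ≤ t → T ⊆ W →
      (∀ v ∈ T, R < ℓ v) → (∀ v ∈ T, ∀ i, β' v i ≤ Λ * β v i) →
      (∀ v ∈ T, bsum β v ≤ Λ * bsum β' v) →
      ∑ v ∈ T, ‖GT (Function.update β v (β' v)) Y w (a + η * Complex.I) W t o -
        GT β Y w (a + η * Complex.I) W t o‖ ≤ env ε C (t / w o) := by
  have h0 := r0_pos ha hη hD
  have h1 := r0_mul (η := η) ha hD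
  have hA : 0 < Λ * (2 / r0 a η D * (1 + a + 16 * D ^ 2 * K / r0 a η D)) /
      (r0 a η D / (4 * Λ * (1 + a + D))) := by positivity
  refine ⟨_ * (128 * D ^ 2 * K / (r0 a η D / 2) ^ 3), mul_nonneg hA.le (by positivity),
    fun ε hε => ?_⟩
  obtain ⟨R, hR⟩ := exists_radius (D := D) (half_pos h0) (div_pos hε hA)
  refine ⟨R, ?_⟩
  intro V ι _ _ _ β β' Y w W T ℓ o t hβ hβ' hT hℓ ho hoW ht hTW hTR h2 h3
  rw [← env_scale hA]
  exact col_main hR hD hK hΛ (by linarith) (by nlinarith) (nice_real ha hη hη1 hD ht hT) hT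
    (fun v => norm_zf ha hη hη1 ht (hT.wpos v)) hβ hβ' hℓ ho hoW hTW hTR h2 h3

/-- Row tail.  `∑ c u (t / w u) (G' u - G u)` is the derivative at `0` of
`log (Q β' / Q β) = log (G o / G' o) + const` along the diagonal direction `c u * t / w u`
(`Q_hasDerivAt_shift`); `‖1 / G o‖ ≤ C (1 + t / w o)`. -/
theorem tame_row {a η D K : ℝ} (ha : 0 < a) (hη : 0 < η) (hη1 : η ≤ 1) (hD : 0 < D)
    (hK : 1 ≤ K) :
    ∃ C ≥ 0, ∀ ε > 0, ∃ R : ℕ, ∀ (V : Type u) (ι : Type) [DecidableEq V] [Fintype ι]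
      [DecidableEq ι] (β : V → ι → ℂ) (γ : ι → ℂ) (Y : ι → V → V → ℂ) (w : V → ℝ)
      (W T : Finset V) (ℓ : V → ℕ) (o : V) (t : ℝ), PosW β W → PosW (Function.update β o γ) W →
      Tame D K w Y W → (∀ i a b, Y i a b ≠ 0 → ℓ a ≤ ℓ b + 1) → ℓ o = 0 → o ∈ W → 0 ≤ t →
      T ⊆ W → (∀ v ∈ T, R < ℓ v) →
      ∑ u ∈ T, t / w u * ‖GT (Function.update β o γ) Y w (a + η * Complex.I) W t u -
        GT β Y w (a + η * Complex.I) W t u‖ ≤ (1 + t / w o) * env ε C (t / w o) := by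
  have h0 := r0_pos ha hη hD
  have hA : 0 < 2 * (1 + a + 16 * D ^ 2 * K / r0 a η D) / (r0 a η D / 4) := by positivity
  refine ⟨_ * (128 * D ^ 2 * K / (r0 a η D / 2) ^ 3), mul_nonneg hA.le (by positivity),
    fun ε hε => ?_⟩
  obtain ⟨R, hR⟩ := exists_radius (D := D) (half_pos h0) (div_pos hε hA)
  refine ⟨R, ?_⟩
  intro V ι _ _ _ β γ Y w W T ℓ o t hβ hβ' hT hℓ ho hoW ht hTW hTR
  rw [← env_scale hA]
  exact row_main hR hD hK (nice_real ha hη hη1 hD ht hT) hT (norm_zf ha hη hη1 ht (hT.wpos o))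
    hβ hβ' hℓ ho hoW hTW hTR

end Vale.Agent.P078
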