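import Vale.Agent.P078.W

/-! Projections in an abstract W*-algebra. -/

namespace Vale.Agent.P078

open Filter Topology
open scoped ComplexOrder

universe u

variable {M : Type u} [CStarAlgebra M] [PartialOrder M] [StarOrderedRing M]

omit [PartialOrder M] [StarOrderedRing M] in
lemma IsMasa.isClosed {A : StarSubalgebra ℂ M} (hA : IsMasa A) : IsClosed (A : Set M) := by
  have : (A : Set M) = ⋂ a ∈ A, {x | a * x = x * a} := by
    ext x; simpa using hA x
  rw [this]
  exact isClosed_biInter fun a _ => isClosed_eq (by fun_prop) (by fun_prop)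

omit [PartialOrder M] [StarOrderedRing M] in
lemma IsMasa.comm {A : StarSubalgebra ℂ M} (hA : IsMasa A) {a b : M} (ha : a ∈ A) (hb : b ∈ A) :
    a * b = b * a := (hA b).1 hb a ha

omit [PartialOrder M] [StarOrderedRing M] in
lemma IsMasa.mem_of_commutant {A : StarSubalgebra ℂ M} (hA : IsMasa A) {b q : M} (hb : b ∈ A)
    (h : ∀ c, Commute c b → Commute c q) : q ∈ A :=
  (hA q).2 fun a ha => h a (hA.comm ha hb)

omit [PartialOrder M] [StarOrderedRing M] in
lemma IsMasa.cfc_mem {A : StarSubalgebra ℂ M} (hA : IsMasa A) {b : M} (hb : b ∈ A) (f : ℝ → ℝ) :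
    cfc f b ∈ A :=
  hA.mem_of_commutant hb fun _ hc => (hc.symm.cfc_real f).symm

/-- cutoff functions -/
noncomputable def cut (n : ℕ) (x : ℝ) : ℝ := max 0 (min 1 (1 - (n + 1) * x))

lemma continuous_cut (n : ℕ) : Continuous (cut n) := by unfold cut; fun_prop

lemma cut_nonneg (n : ℕ) (x : ℝ) : 0 ≤ cut n x := le_max_left _ _

lemma cut_le (n : ℕ) (x : ℝ) : cut n x ≤ 1 := max_le zero_le_one (min_le_left _ _)

lemma one_sub_cut (n : ℕ) (x : ℝ) : 1 - cut n x ≤ (n + 1) * x⁺ := by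
  have h1 : (n + 1 : ℝ) * x ≤ (n + 1) * x⁺ :=
    mul_le_mul_of_nonneg_left (le_posPart x) (by positivity)
  have h2 : 0 ≤ (n + 1 : ℝ) * x⁺ := mul_nonneg (by positivity) (posPart_nonneg x)
  have : 1 - (n + 1) * x⁺ ≤ cut n x := le_max_of_le_right (le_min (by linarith) (by linarith))
  linarith

lemma cut_mul (n : ℕ) (x : ℝ) : cut n x * x⁺ ≤ 1 / (n + 1) := by
  have hn : (0 : ℝ) < n + 1 := by positivity
  rcases le_total x (1 / (n + 1)) with h | h
  · exact (mul_le_of_le_one_left (posPart_nonneg x) (cut_le n x)).trans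
      (sup_le h (by positivity))
  · rw [div_le_iff₀ hn] at h
    rw [cut, max_eq_left (min_le_of_right_le (by linarith)), zero_mul]
    positivity

lemma cut_mul' (n : ℕ) (x : ℝ) : 0 ≤ (1 - cut n x) * x := by
  rcases le_total 0 x with h | h
  · exact mul_nonneg (sub_nonneg.2 (cut_le n x)) h
  · have : 0 ≤ -((n + 1 : ℝ) * x) := neg_nonneg.2 (mul_nonpos_of_nonneg_of_nonpos (by positivity) h)
    rw [cut, min_eq_left (by linarith), max_eq_right zero_le_one, sub_self, zero_mul]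

lemma proj_eq_zero {r : M} (hr : IsStarProjection r) {s t : ℝ} (hst : s < t) (h : t • r ≤ s • r) :
    r = 0 := by
  rw [← sub_nonpos, ← sub_smul] at h
  have := smul_nonpos_of_nonneg_of_nonpos (inv_pos.2 (sub_pos.2 hst)).le h
  rw [inv_smul_smul₀ (sub_pos.2 hst).ne'] at this
  exact le_antisymm this hr.nonneg

lemma compress_le {r p x : M} (hr : IsStarProjection r) (h1 : r * p = r) (h2 : p * r = r) {t : ℝ}
    (h : p * x * p ≤ t • p) : r * x * r ≤ t • r := by
  have := hr.isSelfAdjoint.conjugate_le_conjugate h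
  rwa [mul_smul_comm, h1, smul_mul_assoc, hr.isIdempotentElem.eq, ← mul_assoc, ← mul_assoc, h1,
    mul_assoc _ p, h2] at this

lemma compress_ge {r p x : M} (hr : IsStarProjection r) (h1 : r * p = r) (h2 : p * r = r) {t : ℝ}
    (h : t • p ≤ p * x * p) : t • r ≤ r * x * r := by
  have := hr.isSelfAdjoint.conjugate_le_conjugate h
  rwa [mul_smul_comm, h1, smul_mul_assoc, hr.isIdempotentElem.eq, ← mul_assoc, ← mul_assoc, h1,
    mul_assoc _ p, h2] at this

lemma inv_succ_lim : Tendsto (fun n : ℕ => 1 / ((n : ℝ) + 1)) (hyperfilter ℕ) (𝓝 0) :=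
  tendsto_one_div_add_atTop_nhds_zero_nat.mono_left Nat.hyperfilter_le_atTop

namespace WAlg

variable (𝒲 : WAlg M)
include 𝒲

lemma exists_spectral0 {a : M} (ha : IsSelfAdjoint a) :
    ∃ q : M, IsStarProjection q ∧ (∀ c, Commute c a → Commute c q) ∧ q * a ≤ 0 ∧
      0 ≤ (1 - q) * a ∧ ∀ ω : M →ₚ[ℂ] ℂ, 𝒲.Normal ω → ω (a⁺) = 0 → ω (1 - q) = 0 := by
  have hc := fun n => (continuous_cut n).continuousOn (s := spectrum ℝ a)
  have hc' : ∀ n, ContinuousOn (fun x => 1 - cut n x) (spectrum ℝ a) := fun n =>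
    continuousOn_const.sub (hc n)
  have hb : ∀ n, ‖cfc (cut n) a‖ ≤ 1 := fun n => norm_cfc_le zero_le_one fun x _ => by
    rw [Real.norm_of_nonneg (cut_nonneg n x)]; exact cut_le n x
  obtain ⟨q, hq⟩ := 𝒲.exists_wlim (hyperfilter ℕ) (Eventually.of_forall hb)
  have e1 : ∀ n, 1 - cfc (cut n) a = cfc (fun x => 1 - cut n x) a := fun n => by
    rw [cfc_sub _ _ a (by fun_prop) (hc n), cfc_const_one ℝ a]
  have h1 : ∀ m, q * cfc (cut m) a = q := fun m => by
    have : Tendsto (fun n => cfc (cut n) a * (1 - cfc (cut m) a)) (hyperfilter ℕ) (𝓝 0) := by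
      refine squeeze_zero_norm (fun n => ?_) (by simpa using inv_succ_lim.const_mul ((m : ℝ) + 1))
      rw [e1, ← cfc_mul _ _ a (hc n) (hc' m)]
      refine norm_cfc_le (by positivity) fun x _ => ?_
      rw [Real.norm_of_nonneg (mul_nonneg (cut_nonneg n x) (sub_nonneg.2 (cut_le m x)))]
      have a1 := mul_le_mul_of_nonneg_left (one_sub_cut m x) (cut_nonneg n x)
      have a2 := mul_le_mul_of_nonneg_left (cut_mul n x) (show (0 : ℝ) ≤ m + 1 by positivity)
      rw [one_div] at a2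
      linarith
    have := (hq.mul_right _).unique (WLim.of_tendsto this)
    rwa [mul_sub, mul_one, sub_eq_zero, eq_comm] at this
  refine ⟨q, ⟨?_, hq.isSelfAdjoint (Eventually.of_forall fun n => cfc_predicate _ _)⟩,
    fun c h => ?_, ?_, ?_, fun ω hω h0 => ?_⟩
  · exact (hq.mul_left q).unique ((WLim.const q).congr' (Eventually.of_forall fun m => (h1 m).symm))
  · have := hq.eq_of_eventually (a := c) (b := 1) (c := 1) (d := c) (Eventually.of_forall
      fun n => by rw [mul_one, one_mul]; exact (h.symm.cfc_real _).symm)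
    rwa [mul_one, one_mul] at this
  · have l : Tendsto (fun n : ℕ => algebraMap ℝ M (1 / ((n : ℝ) + 1))) (hyperfilter ℕ) (𝓝 0) := by
      simpa only [map_zero, Function.comp_def] using ((continuous_algebraMap ℝ M).tendsto 0).comp inv_succ_lim
    refine (hq.mul_right a).le (WLim.of_tendsto l) (Eventually.of_forall fun n => ?_)
    nth_rw 2 [← cfc_id' ℝ a]
    rw [← cfc_mul _ _ a (hc n)]
    exact cfc_le_algebraMap _ _ a (fun x _ => (mul_le_mul_of_nonneg_left (le_posPart x)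
      (cut_nonneg n x)).trans (cut_mul n x)) ((hc n).mul continuousOn_id)
  · refine (((WLim.const 1).sub hq).mul_right a).nonneg (Eventually.of_forall fun n => ?_)
    nth_rw 2 [← cfc_id' ℝ a]
    rw [e1, ← cfc_mul _ (fun x : ℝ => x) a (hc' n)]
    exact cfc_nonneg fun x _ => cut_mul' n x
  · have z : ∀ n, ω (1 - cfc (cut n) a) = 0 := fun n => by
      have a1 : 1 - cfc (cut n) a ≤ ((n : ℝ) + 1) • a⁺ := by
        rw [CFC.posPart_def, cfcₙ_eq_cfc, ← cfc_const_mul _ _ a, e1]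
        exact cfc_mono (fun x _ => one_sub_cut n x) (hc' n)
      have a2 : 0 ≤ 1 - cfc (cut n) a := sub_nonneg.2 (cfc_le_one _ _ fun x _ => cut_le n x)
      have a3 : ω _ ≤ ω _ := OrderHomClass.mono ω a1
      rw [ω.map_smul_of_tower, h0, smul_zero] at a3
      exact le_antisymm a3 (ω.map_nonneg a2)
    have := hω.tendsto (R := ‖(1 : M)‖ + 1) (Eventually.of_forall fun n =>
      (norm_sub_le _ _).trans (add_le_add_right (hb n) _)) ((WLim.const 1).sub hq)
    simp only [z] at this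
    exact tendsto_nhds_unique this tendsto_const_nhds

/-- `q = 1_{(-∞,t]}(b)`: a weak limit of `cfc (f n) b`, `f n = 1` on `(-∞,t]`, `0` on
`[t+1/n,∞)`, affine between; `‖f n (1 - f m)‖ ≤ m/n` gives `q * q = q`.
The last clause (normal functionals vanishing on `(b - t)⁺` vanish on `1 - q`) follows from
`1 - f n ≤ n (· - t)⁺`. -/
theorem exists_spectral {b : M} (hb : IsSelfAdjoint b) (t : ℝ) :
    ∃ q : M, IsStarProjection q ∧ (∀ c, Commute c b → Commute c q) ∧ q * b * q ≤ t • q ∧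
      t • (1 - q) ≤ (1 - q) * b * (1 - q) ∧
      ∀ ω : M →ₚ[ℂ] ℂ, 𝒲.Normal ω → ω ((b - t • (1 : M))⁺) = 0 → ω (1 - q) = 0 := by
  obtain ⟨q, h1, h2, h3, h4, h5⟩ := 𝒲.exists_spectral0 (a := b - t • 1)
    (hb.sub ((IsSelfAdjoint.all t).smul (.one M)))
  have h6 : ∀ c, Commute c b → Commute c q := fun c h =>
    h2 c (h.sub_right ((Commute.one_right c).smul_right t))
  have h7 := h6 b (Commute.refl b)
  rw [mul_sub, mul_smul_comm, mul_one] at h3 h4
  refine ⟨q, h1, h6, ?_, ?_, h5⟩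
  · rwa [mul_assoc, h7.eq, ← mul_assoc, h1.isIdempotentElem.eq, ← sub_nonpos]
  · rwa [mul_assoc, ((Commute.one_right b).sub_right h7).eq, ← mul_assoc,
      h1.one_sub.isIdempotentElem.eq, ← sub_nonneg]

/-- range projection of a positive element -/
theorem exists_range {c : M} (hc : 0 ≤ c) :
    ∃ ρ : M, IsStarProjection ρ ∧ ρ * c = c ∧ (∀ d, Commute d c → Commute d ρ) ∧
      (∀ ω : M →ₚ[ℂ] ℂ, 𝒲.Normal ω → ω c = 0 → ω ρ = 0) ∧
      ∀ e, IsStarProjection e → e * c = c → ρ ≤ e := by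
  obtain ⟨q, h1, h2, h3, -, h5⟩ := 𝒲.exists_spectral0 hc.isSelfAdjoint
  rw [(CFC.posPart_eq_self c).2 hc] at h5
  refine ⟨1 - q, h1.one_sub, ?_, fun d h => (Commute.one_right d).sub_right (h2 d h), h5,
    fun e he hec => ?_⟩
  · rw [sub_mul, one_mul, le_antisymm h3 ((h2 c (Commute.refl c)).symm.mul_nonneg h1.nonneg hc),
      sub_zero]
  · rw [h1.one_sub.le_iff_mul_eq_left he, eq_comm, ← sub_eq_zero, ← mul_one_sub]
    refine 𝒲.sep _ fun ω hω => ?_
    have := h5 (PositiveLinearMap.mk₀ (ω.toLinearMap ∘ₗ LinearMap.mulRight ℂ (1 - e) ∘ₗ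
      LinearMap.mulLeft ℂ (1 - e)) fun x hx =>
        ω.map_nonneg (he.one_sub.isSelfAdjoint.conjugate_nonneg hx))
      ((Normal.of_mem hω).mul (1 - e) (1 - e)) (by
        change ω ((1 - e) * c * (1 - e)) = 0
        rw [sub_mul 1, one_mul, hec, sub_self, zero_mul, map_zero])
    rw [star_mul, he.one_sub.isSelfAdjoint.star_eq, h1.one_sub.isSelfAdjoint.star_eq, ← mul_assoc,
      mul_assoc (1 - e) (1 - q), h1.one_sub.isIdempotentElem.eq]
    exact this

/-- increasing nets of projections converge -/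
theorem exists_wlim_mono {I : Type*} [Preorder I] [IsDirectedOrder I] [Nonempty I] {e : I → M}
    (he : ∀ i, IsStarProjection (e i)) (hm : Monotone e) :
    ∃ p, IsStarProjection p ∧ 𝒲.WLim atTop e p ∧ ∀ i, e i ≤ p := by
  have key : ∀ 𝒰 : Ultrafilter I, (𝒰 : Filter I) ≤ atTop → ∃ p, 𝒲.WLim 𝒰 e p ∧ ∀ i, e i ≤ p := by
    intro 𝒰 h
    obtain ⟨p, hp⟩ := 𝒲.exists_wlim 𝒰 (Eventually.of_forall fun i => (he i).norm_le)
    exact ⟨p, hp, fun i => (WLim.const _).le hp
      ((eventually_ge_atTop i).filter_mono h |>.mono fun j hj => hm hj)⟩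
  obtain ⟨p, h1, h2⟩ := key _ (Ultrafilter.of_le atTop)
  have h3 : ∀ i, e i * p = e i := fun i => (h1.mul_left _).unique ((WLim.const _).congr'
    ((eventually_ge_atTop i).filter_mono (Ultrafilter.of_le atTop) |>.mono fun j hj =>
      (((he i).le_iff_mul_eq_left (he j)).1 (hm hj)).symm))
  refine ⟨p, ⟨(h1.mul_right p).unique (h1.congr' (Eventually.of_forall fun i => (h3 i).symm)),
    h1.isSelfAdjoint (Eventually.of_forall fun i => (he i).isSelfAdjoint)⟩,
    fun ω hω a b => (tendsto_iff_ultrafilter _ _ _).2 fun 𝒰 h => ?_, h2⟩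
  obtain ⟨p', h1', h2'⟩ := key 𝒰 h
  rw [le_antisymm (h1.le (WLim.const p') (Eventually.of_forall h2'))
    (h1'.le (WLim.const p) (Eventually.of_forall h2))]
  exact h1' ω hω a b

theorem exists_wlim_anti {I : Type*} [Preorder I] [IsDirectedOrder I] [Nonempty I] {e : I → M}
    (he : ∀ i, IsStarProjection (e i)) (hm : Antitone e) :
    ∃ p, IsStarProjection p ∧ 𝒲.WLim atTop e p ∧ ∀ i, p ≤ e i := by
  obtain ⟨p, h1, h2, h3⟩ := 𝒲.exists_wlim_mono (fun i => (he i).one_sub)
    (fun i j h => sub_le_sub_left (hm h) 1)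
  exact ⟨1 - p, h1.one_sub, by simpa using (WLim.const 1).sub h2, fun i => sub_le_comm.1 (h3 i)⟩

/-- chains of projections have a least upper bound that normal functionals see -/
theorem exists_sup_chain {S : Set M} (hS : ∀ e ∈ S, IsStarProjection e) (hc : IsChain (· ≤ ·) S)
    (hne : S.Nonempty) :
    ∃ p, IsStarProjection p ∧ (∀ e ∈ S, e ≤ p) ∧ (∀ g, (∀ e ∈ S, e ≤ g) → p ≤ g) ∧
      ∀ ω : M →ₚ[ℂ] ℂ, 𝒲.Normal ω → ∀ ε > 0, ∃ e ∈ S, (ω (p - e)).re < ε := by
  have := hne.to_subtype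
  have : IsDirectedOrder S := ⟨fun a b => by
    obtain ⟨c, hc, h1, h2⟩ := hc.directedOn a a.2 b b.2
    exact ⟨⟨c, hc⟩, h1, h2⟩⟩
  obtain ⟨p, h1, h2, h3⟩ := 𝒲.exists_wlim_mono (I := S) (e := fun i => i.1)
    (fun i => hS i i.2) (fun _ _ h => h)
  refine ⟨p, h1, fun e he => h3 ⟨e, he⟩, fun g hg => h2.le (WLim.const g)
    (Eventually.of_forall fun i => hg i i.2), fun ω hω ε hε => ?_⟩
  have h4 := hω.tendsto (Eventually.of_forall fun i : S => (hS i i.2).norm_le) h2
  have h5 := (Complex.continuous_re.tendsto _).comp (h4.const_sub (ω p))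
  rw [sub_self, Complex.zero_re] at h5
  obtain ⟨i, hi⟩ := (h5.eventually (gt_mem_nhds hε)).exists
  exact ⟨i, i.2, by rwa [map_sub]⟩

lemma exists_simple0 {b : M} (hb : IsSelfAdjoint b) {ε : ℝ} (hε : 0 < ε) {lo : ℝ}
    (hlo : lo • (1 : M) ≤ b) :
    ∃ (n : ℕ) (e : Fin n → M) (c : Fin n → ℝ), (∀ i, IsStarProjection (e i)) ∧
      (∀ i j, i ≠ j → e i * e j = 0) ∧ ∑ i, e i = 1 ∧ (∀ i d, Commute d b → Commute d (e i)) ∧
      (∀ i, lo ≤ c i) ∧ ‖b - ∑ i, c i • e i‖ ≤ ε := by
  choose q h1 h2 h3 h4 _ using fun k : ℕ => 𝒲.exists_spectral hb (lo + (k - 1) * ε)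
  have hc : ∀ i j, Commute (q i) (q j) := fun i j => h2 j _ (h2 i b (Commute.refl b)).symm
  have hr : ∀ i j, IsStarProjection (q i * (1 - q j)) := fun i j =>
    (h1 i).mul (h1 j).one_sub ((Commute.one_right _).sub_right (hc i j))
  have r1 : ∀ i j, q i * (q i * (1 - q j)) = q i * (1 - q j) := fun i j => by
    rw [← mul_assoc, (h1 i).isIdempotentElem.eq]
  have r2 : ∀ i j, q i * (1 - q j) * (1 - q j) = q i * (1 - q j) := fun i j => by
    rw [mul_assoc, (h1 j).one_sub.isIdempotentElem.eq]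
  have r3 := fun i j => compress_le (hr i j) (((Commute.refl _).mul_left
    ((Commute.one_left _).sub_left (hc j i))).eq.trans (r1 i j)) (r1 i j) (h3 i)
  have r4 := fun i j => compress_ge (hr i j) (r2 i j)
    ((((Commute.one_right _).sub_right (hc i j)).symm.mul_right (Commute.refl _)).eq.trans
      (r2 i j)) (h4 j)
  have hm : ∀ i j, i ≤ j → q i * q j = q i := fun i j h => by
    rcases h.eq_or_lt with rfl | h
    · exact (h1 i).isIdempotentElem.eq
    · have : (i : ℝ) < j := by exact_mod_cast h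
      have := proj_eq_zero (hr i j) (by nlinarith) ((r4 i j).trans (r3 i j))
      rwa [mul_one_sub, sub_eq_zero, eq_comm] at this
  have hm' : ∀ i j, i ≤ j → q j * q i = q i := fun i j h => (hc j i).eq.trans (hm i j h)
  have he : ∀ k, q (k + 1) * (1 - q k) = q (k + 1) - q k := fun k => by
    rw [mul_one_sub, hm' _ _ (Nat.le_succ k)]
  have hp : ∀ k, IsStarProjection (q (k + 1) - q k) := fun k => he k ▸ hr _ _
  obtain ⟨n, hn⟩ := exists_nat_gt ((‖b‖ - lo) / ε + 1)
  have q0 : q 0 = 0 := proj_eq_zero (h1 0) (show lo + ((0 : ℕ) - 1) * ε < lo by simpa using hε)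
    ((compress_ge (p := 1) (h1 0) (mul_one _) (one_mul _) (by simpa using hlo)).trans (h3 0))
  have qn : 1 - q n = 0 := proj_eq_zero (h1 n).one_sub (show ‖b‖ < lo + (n - 1) * ε by
      rw [← lt_sub_iff_add_lt, div_lt_iff₀ hε] at hn; linarith)
    ((h4 n).trans (compress_le (p := 1) (h1 n).one_sub (mul_one _) (one_mul _) (by
      simpa [Algebra.algebraMap_eq_smul_one] using hb.le_algebraMap_norm_self)))
  have ho : ∀ i j, i < j → (q (i + 1) - q i) * (q (j + 1) - q j) = 0 := fun i j h => by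
    rw [sub_mul, mul_sub, mul_sub, hm _ _ (by omega), hm _ _ (by omega), hm _ _ (by omega),
      hm _ _ (by omega), sub_self, sub_self, sub_self]
  have hs : ∑ i : Fin n, (q (i + 1) - q i) = 1 := by
    rw [Fin.sum_univ_eq_sum_range (fun i => q (i + 1) - q i), Finset.sum_range_sub, q0, sub_zero,
      eq_comm, ← sub_eq_zero, qn]
  have hd : ∀ (i : ℕ) d, Commute d b → Commute d (q (i + 1) - q i) := fun i d h =>
    (h2 _ d h).sub_right (h2 _ d h)
  refine ⟨n, fun i => q (i + 1) - q i, fun i => lo + i * ε, fun i => hp i,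
    fun i j h => ?_, hs, fun i => hd i, fun i => le_add_of_nonneg_right (by positivity), ?_⟩
  · rcases lt_or_gt_of_ne (Fin.val_ne_of_ne h) with h | h
    · exact ho _ _ h
    · rw [← ho _ _ h]
      exact (((hc _ _).sub_left (hc _ _)).sub_right ((hc _ _).sub_left (hc _ _))).eq
  · have k1 : ∀ k : ℕ, b * (q (k + 1) - q k) = (q (k + 1) - q k) * b * (q (k + 1) - q k) :=
      fun k => by rw [← (hd k b (Commute.refl b)).eq, mul_assoc, (hp k).isIdempotentElem.eq]
    have k2 : ∑ i : Fin n, (lo + i * ε) • (q (i + 1) - q i) - b =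
        ∑ i : Fin n, ((lo + i * ε) • (q (i + 1) - q i) - b * (q (i + 1) - q i)) := by
      rw [Finset.sum_sub_distrib, ← Finset.mul_sum, hs, mul_one]
    rw [norm_sub_rev, k2, CStarAlgebra.norm_le_iff_le_algebraMap _ hε.le
      (Finset.sum_nonneg fun i _ => ?_), Algebra.algebraMap_eq_smul_one, ← hs, Finset.smul_sum]
    · refine Finset.sum_le_sum fun i _ => ?_
      have := r4 (i + 1) i
      rw [he, ← k1] at this
      rw [sub_le_comm, ← sub_smul]
      exact le_of_eq_of_le (by congr 1; ring) this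
    · have := r3 (i + 1) i
      rw [he, ← k1] at this
      exact sub_nonneg.2 (this.trans_eq (by congr 1; push_cast; ring))

/-- A self-adjoint `b` is a norm limit of real combinations of an orthogonal family of projections
commuting with the commutant of `b` (differences of spectral projections). -/
theorem exists_simple {b : M} (hb : IsSelfAdjoint b) {ε : ℝ} (hε : 0 < ε) :
    ∃ (n : ℕ) (e : Fin n → M) (c : Fin n → ℝ), (∀ i, IsStarProjection (e i)) ∧
      (∀ i j, i ≠ j → e i * e j = 0) ∧ ∑ i, e i = 1 ∧ (∀ i d, Commute d b → Commute d (e i)) ∧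
      (0 ≤ b → ∀ i, 0 ≤ c i) ∧ ‖b - ∑ i, c i • e i‖ ≤ ε := by
  by_cases h : 0 ≤ b
  · obtain ⟨n, e, c, h1, h2, h3, h4, h5, h6⟩ := 𝒲.exists_simple0 hb hε (lo := 0) (by simpa using h)
    exact ⟨n, e, c, h1, h2, h3, h4, fun _ => h5, h6⟩
  · obtain ⟨n, e, c, h1, h2, h3, h4, -, h6⟩ := 𝒲.exists_simple0 hb hε (lo := -‖b‖) (by
      simpa [Algebra.algebraMap_eq_smul_one] using hb.neg_algebraMap_norm_le_self)
    exact ⟨n, e, c, h1, h2, h3, h4, fun h' => (h h').elim, h6⟩

lemma mem_of_proj {A : StarSubalgebra ℂ M} (hA : IsMasa A) (T : Submodule ℂ M)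
    (hT : IsClosed (T : Set M)) (h : ∀ e ∈ A, IsStarProjection e → e ∈ T) : ∀ a ∈ A, a ∈ T := by
  have key : ∀ a ∈ A, IsSelfAdjoint a → a ∈ T := fun a ha hs => by
    rw [← SetLike.mem_coe, ← hT.closure_eq, Metric.mem_closure_iff]
    intro ε hε
    obtain ⟨n, e, c, h1, -, -, h4, -, h6⟩ := 𝒲.exists_simple hs (half_pos hε)
    refine ⟨∑ i, c i • e i, T.sum_mem fun i _ => T.smul_of_tower_mem (c i)
      (h _ (hA.mem_of_commutant ha (h4 i)) (h1 i)), ?_⟩
    rw [dist_eq_norm]
    exact h6.trans_lt (half_lt_self hε)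
  intro a ha
  rw [← realPart_add_I_smul_imaginaryPart a]
  refine T.add_mem (key _ ?_ (realPart a).2) (T.smul_mem _ (key _ ?_ (imaginaryPart a).2))
  · rw [realPart_apply_coe, ← Complex.coe_smul]
    exact A.smul_mem (add_mem ha (star_mem ha)) _
  · rw [imaginaryPart_apply_coe, ← Complex.coe_smul]
    exact A.smul_mem (A.smul_mem (sub_mem ha (star_mem ha)) _) _

theorem mem_of_commute_proj {A : StarSubalgebra ℂ M} (hA : IsMasa A) {x : M}
    (h : ∀ e ∈ A, IsStarProjection e → e * x = x * e) : x ∈ A :=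
  (hA x).2 (𝒲.mem_of_proj hA (LinearMap.eqLocus (LinearMap.mulRight ℂ x) (LinearMap.mulLeft ℂ x))
    (isClosed_eq (f := fun a => a * x) (g := fun a => x * a) (by fun_prop) (by fun_prop)) h)

/-- two continuous linear maps agreeing on the projections of `A` agree on `A` -/
theorem eqOn_of_proj {A : StarSubalgebra ℂ M} (hA : IsMasa A) {F : Type*} [NormedAddCommGroup F]
    [NormedSpace ℂ F] (f g : M →L[ℂ] F) (h : ∀ e ∈ A, IsStarProjection e → f e = g e) :
    ∀ a ∈ A, f a = g a :=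
  𝒲.mem_of_proj hA (LinearMap.eqLocus f.toLinearMap g.toLinearMap)
    (isClosed_eq f.continuous g.continuous) h

/-- a continuous linear map sending the projections of `A` into `A` sends `A` into `A` -/
theorem mapsTo_of_proj {A : StarSubalgebra ℂ M} (hA : IsMasa A) (f : M →L[ℂ] M)
    (h : ∀ e ∈ A, IsStarProjection e → f e ∈ A) : ∀ a ∈ A, f a ∈ A :=
  𝒲.mem_of_proj hA (Submodule.comap f.toLinearMap (Subalgebra.toSubmodule A.toSubalgebra))
    (hA.isClosed.preimage f.continuous) h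

/-- Continuity lemma: by contradiction, take an ultrafilter on `ℕ` and a weak limit. -/
theorem continuity {φ ω : M →ₚ[ℂ] ℂ} (hφ : 𝒲.Normal φ) (hω : 𝒲.Normal ω) {p : M}
    (hp : ∀ x, φ (star x * x) = 0 → x * p = 0) {ε : ℝ} (hε : 0 < ε) (R : ℝ) :
    ∃ δ > 0, ∀ c, 0 ≤ c → ‖c‖ ≤ R → c * p = c → (φ c).re ≤ δ → (ω c).re ≤ ε := by
  by_contra hcon
  push Not at hcon
  choose c h1 h2 h3 h4 h5 using fun n : ℕ => hcon (1 / ((n : ℝ) + 1)) (by positivity)
  obtain ⟨y, hy⟩ := 𝒲.exists_wlim (hyperfilter ℕ) (Eventually.of_forall h2)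
  have a1 := hy.nonneg (Eventually.of_forall h1)
  have a2 : y * p = y := (hy.mul_right p).unique
    (hy.congr' (Eventually.of_forall fun n => (h3 n).symm))
  have a3 : (φ y).re ≤ 0 := le_of_tendsto_of_tendsto' ((Complex.continuous_re.tendsto _).comp
    (hφ.tendsto (Eventually.of_forall h2) hy)) inv_succ_lim h4
  have a4 : φ y = 0 := by
    have := Complex.nonneg_iff.1 (φ.map_nonneg a1)
    exact Complex.ext (le_antisymm a3 this.1) this.2.symm
  obtain ⟨s, rfl⟩ := CStarAlgebra.nonneg_iff_eq_star_mul_self.1 a1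
  rw [mul_assoc, hp s a4, mul_zero] at a2
  have a5 := ge_of_tendsto' ((Complex.continuous_re.tendsto _).comp
    (hω.tendsto (Eventually.of_forall h2) hy)) fun n => (h5 n).le
  rw [← a2, map_zero, Complex.zero_re] at a5
  linarith

end WAlg

end Vale.Agent.P078
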